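import Crest.Agent.R164.One

/-!
Row 164: second order jets `(Φ, ∂_s Φ, ∂_s² Φ)` of the one-site recursion along a segment of variance profiles; all functions come
with the chain of their `x`-derivatives.  (Definitions only.)
-/

set_option autoImplicit false

namespace Crest.Agent.R164

open MeasureTheory ProbabilityTheory Filter Topology Crest.ProbabilityR.InvariantGlass

def Ch (f : ℕ → ℝ → ℝ) : Prop := ∀ k x, HasDerivAt (f k) (f (k + 1) x) x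
def Bd (f : ℕ → ℝ → ℝ) : Prop := ∀ k, ∃ C : ℝ, ∀ x, |f k x| ≤ C

structure Jet where
  F : ℕ → ℝ → ℝ
  V : ℕ → ℝ → ℝ
  Z : ℕ → ℝ → ℝ
  chF : Ch F
  chV : Ch V
  chZ : Ch Z
  bdF : Bd fun k => F (k + 1)
  bdV : Bd V
  bdZ : Bd Z

noncomputable def Jet.W (J : Jet) (ζ x : ℝ) : ℝ := J.F 4 x - J.F 3 x ^ 2 / J.F 2 x + 2 * ζ * J.F 2 x ^ 2
noncomputable def Jet.E (J : Jet) (x : ℝ) : ℝ := J.V 2 x - J.V 1 x * J.F 3 x / J.F 2 x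

structure Good (ζ : ℝ) (J : Jet) : Prop where
  pos : ∀ x, 0 < J.F 2 x
  dom : ∃ C : ℝ, ∀ x, |J.F 3 x| ≤ C * J.F 2 x ∧ |J.F 4 x| ≤ C * J.F 2 x ∧ |J.V 1 x| ≤ C * J.F 2 x
  neg : ∃ c : ℝ, 0 < c ∧ ∀ x, J.W ζ x ≤ -c * J.F 2 x ^ 2
  domE : ∃ C : ℝ, 0 ≤ C ∧ ∀ x, |J.E x| ≤ -C * J.W ζ x
  main : ∀ x, J.Z 0 x - J.V 1 x ^ 2 / J.F 2 x - J.E x ^ 2 / J.W ζ x ≤ 0

/-- tilted Gaussian expectation -/
noncomputable def Et (ζ u : ℝ) (Φ f : ℝ → ℝ) (x : ℝ) : ℝ :=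
  (∫ g, f (x + Real.sqrt u * g) * Real.exp (ζ * Φ (x + Real.sqrt u * g)) ∂gaussianReal 0 1) /
    ∫ g, Real.exp (ζ * Φ (x + Real.sqrt u * g)) ∂gaussianReal 0 1

/-- the jets along the Gaussian semigroup; arguments: order of the `x`-derivative, variance `u`, point `x` -/
structure Flow (ζ : ℝ) (J : Jet) where
  F : ℕ → ℝ → ℝ → ℝ
  V : ℕ → ℝ → ℝ → ℝ
  Z : ℕ → ℝ → ℝ → ℝ
  contF : ∀ k, Continuous (Function.uncurry (F k))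
  contV : ∀ k, Continuous (Function.uncurry (V k))
  contZ : ∀ k, Continuous (Function.uncurry (Z k))
  chF : ∀ u, Ch fun k => F k u
  chV : ∀ u, Ch fun k => V k u
  chZ : ∀ u, Ch fun k => Z k u
  bdF : ∀ k, ∃ C : ℝ, ∀ u x, |F (k + 1) u x| ≤ C
  bdV : ∀ k, ∃ C : ℝ, ∀ u x, |V k u x| ≤ C
  bdZ : ∀ k, ∃ C : ℝ, ∀ u x, |Z k u x| ≤ C
  F_zero : ∀ k, F k 0 = J.F k
  V_zero : ∀ k, V k 0 = J.V k
  Z_zero : ∀ k, Z k 0 = J.Z k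
  F0 : ∀ u, F 0 u = gaussOp ζ u (J.F 0)
  V0 : ∀ u, V 0 u = Et ζ u (J.F 0) (J.V 0)
  Z0 : ∀ u x, Z 0 u x =
    Et ζ u (J.F 0) (fun y => J.Z 0 y + ζ * J.V 0 y ^ 2) x - ζ * Et ζ u (J.F 0) (J.V 0) x ^ 2
  pos : (∀ x, 0 < J.F 2 x) → ∀ u x, 0 < F 2 u x
  duF0 : ∀ u, 0 < u → ∀ x, HasDerivAt (fun u => F 0 u x) ((F 2 u x + ζ * F 1 u x ^ 2) / 2) u
  duF1 : ∀ u, 0 < u → ∀ x, HasDerivAt (fun u => F 1 u x) (F 3 u x / 2 + ζ * (F 1 u x * F 2 u x)) u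
  duF2 : ∀ u, 0 < u → ∀ x, HasDerivAt (fun u => F 2 u x)
    (F 4 u x / 2 + ζ * (F 1 u x * F 3 u x + F 2 u x ^ 2)) u
  duF3 : ∀ u, 0 < u → ∀ x, HasDerivAt (fun u => F 3 u x)
    (F 5 u x / 2 + ζ * (F 1 u x * F 4 u x + 3 * (F 2 u x * F 3 u x))) u
  duF4 : ∀ u, 0 < u → ∀ x, HasDerivAt (fun u => F 4 u x)
    (F 6 u x / 2 + ζ * (F 1 u x * F 5 u x + 4 * (F 2 u x * F 4 u x) + 3 * F 3 u x ^ 2)) u
  duV0 : ∀ u, 0 < u → ∀ x, HasDerivAt (fun u => V 0 u x) (V 2 u x / 2 + ζ * (F 1 u x * V 1 u x)) u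
  duV1 : ∀ u, 0 < u → ∀ x, HasDerivAt (fun u => V 1 u x)
    (V 3 u x / 2 + ζ * (F 1 u x * V 2 u x + F 2 u x * V 1 u x)) u
  duV2 : ∀ u, 0 < u → ∀ x, HasDerivAt (fun u => V 2 u x)
    (V 4 u x / 2 + ζ * (F 1 u x * V 3 u x + 2 * (F 2 u x * V 2 u x) + F 3 u x * V 1 u x)) u
  duZ0 : ∀ u, 0 < u → ∀ x, HasDerivAt (fun u => Z 0 u x)
    (Z 2 u x / 2 + ζ * (F 1 u x * Z 1 u x) + ζ * V 1 u x ^ 2) u

/-- the jet at variance `u` -/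
def Flow.jet {ζ : ℝ} {J : Jet} (fl : Flow ζ J) (u : ℝ) : Jet where
  F := fun k => fl.F k u
  V := fun k => fl.V k u
  Z := fun k => fl.Z k u
  chF := fl.chF u
  chV := fl.chV u
  chZ := fl.chZ u
  bdF := fun k => (fl.bdF k).imp fun _ h => h u
  bdV := fun k => (fl.bdV k).imp fun _ h => h u
  bdZ := fun k => (fl.bdZ k).imp fun _ h => h u

/-- `J'` is obtained from `J` by letting the variance of the last level move at speed `κ` -/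
structure Src (ζ κ : ℝ) (J J' : Jet) : Prop where
  F : J'.F = J.F
  V : ∀ x, J'.V 0 x = J.V 0 x + κ * ((J.F 2 x + ζ * J.F 1 x ^ 2) / 2)
  Z : ∀ x, J'.Z 0 x = J.Z 0 x + κ * (J.V 2 x + 2 * ζ * (J.F 1 x * J.V 1 x)) +
    κ ^ 2 / 2 * (J.F 4 x / 2 + ζ * (J.F 1 x * J.F 3 x + J.F 2 x ^ 2) +
      2 * ζ * (J.F 1 x * (J.F 3 x / 2 + ζ * (J.F 1 x * J.F 2 x))))

/-- uniform second order expansion in the parameter -/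
def Exp2 (Φ : ℝ → ℝ → ℝ) (J : Jet) : Prop :=
  ∀ ε : ℝ, 0 < ε → ∀ᶠ t in 𝓝 (0 : ℝ), ∀ x,
    |Φ t x - J.F 0 x - t * J.V 0 x - t ^ 2 / 2 * J.Z 0 x| ≤ ε * t ^ 2

end Crest.Agent.R164
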