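import Mathlib

/-!
Row 164: uniform Taylor expansions (helpers for `CExp`, `CFin`).
-/

set_option autoImplicit false

namespace Crest.Agent.R164

open Filter Topology Asymptotics

variable {P : Type} {v : ℝ} {f g f' f'' : ℝ → P → ℝ}

/-- uniformly bounded -/
def UB (f : ℝ → P → ℝ) : Prop := ∃ C : ℝ, ∀ u x, |f u x| ≤ C

/-- uniformly continuous at `v` -/
def U0 (v : ℝ) (f : ℝ → P → ℝ) : Prop := ∀ ε : ℝ, 0 < ε → ∀ᶠ u in 𝓝 v, ∀ x, |f u x - f v x| ≤ ε

/-- uniformly `o(t²)` -/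
def O2 (f : ℝ → P → ℝ) : Prop := ∀ ε : ℝ, 0 < ε → ∀ᶠ t in 𝓝 (0 : ℝ), ∀ x, |f t x| ≤ ε * t ^ 2

theorem UB.pos (h : UB f) : ∃ C : ℝ, 0 < C ∧ ∀ u x, |f u x| ≤ C := by
  obtain ⟨C, hC⟩ := h
  exact ⟨max C 1, by positivity, fun u x => (hC u x).trans (le_max_left _ _)⟩

theorem UB.const (c : ℝ) : UB fun (_ : ℝ) (_ : P) => c := ⟨|c|, fun _ _ => le_rfl⟩

theorem UB.add (hf : UB f) (hg : UB g) : UB fun u x => f u x + g u x := by
  obtain ⟨C, hC⟩ := hf
  obtain ⟨D, hD⟩ := hg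
  exact ⟨C + D, fun u x => (abs_add_le _ _).trans (add_le_add (hC u x) (hD u x))⟩

theorem UB.mul (hf : UB f) (hg : UB g) : UB fun u x => f u x * g u x := by
  obtain ⟨C, hC0, hC⟩ := hf.pos
  obtain ⟨D, hD⟩ := hg
  refine ⟨C * D, fun u x => ?_⟩
  rw [abs_mul]
  exact mul_le_mul (hC u x) (hD u x) (abs_nonneg _) hC0.le

theorem UB.cmul (c : ℝ) (hf : UB f) : UB fun u x => c * f u x := (UB.const c).mul hf

theorem UB.half (hf : UB f) : UB fun u x => f u x / 2 := by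
  simpa only [div_eq_mul_inv] using hf.mul (UB.const 2⁻¹)

theorem UB.sq (hf : UB f) : UB fun u x => f u x ^ 2 := by
  simpa only [pow_two] using hf.mul hf

/-- bounded and uniformly continuous at `v` -/
structure UC (v : ℝ) (f : ℝ → P → ℝ) : Prop where
  b : UB f
  c : U0 v f

theorem UC.const (c : ℝ) : UC v fun (_ : ℝ) (_ : P) => c :=
  ⟨UB.const c, fun ε hε => Eventually.of_forall fun _ _ => by simpa using hε.le⟩

theorem UC.add (hf : UC v f) (hg : UC v g) : UC v fun u x => f u x + g u x := by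
  refine ⟨hf.b.add hg.b, fun ε hε => ?_⟩
  filter_upwards [hf.c (ε / 2) (by positivity), hg.c (ε / 2) (by positivity)] with u h1 h2 x
  have h3 := abs_le.1 (h1 x)
  have h4 := abs_le.1 (h2 x)
  rw [abs_le]
  constructor <;> linarith

theorem UC.mul (hf : UC v f) (hg : UC v g) : UC v fun u x => f u x * g u x := by
  refine ⟨hf.b.mul hg.b, fun ε hε => ?_⟩
  obtain ⟨C, hC0, hC⟩ := hf.b.pos
  obtain ⟨D, hD0, hD⟩ := hg.b.pos
  filter_upwards [hf.c (ε / 2 / D) (by positivity), hg.c (ε / 2 / C) (by positivity)] with u h1 h2 x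
  have h3 : f u x * g u x - f v x * g v x = f u x * (g u x - g v x) + (f u x - f v x) * g v x := by ring
  rw [h3]
  refine (abs_add_le _ _).trans ?_
  rw [abs_mul, abs_mul]
  have h4 := mul_le_mul (hC u x) (h2 x) (abs_nonneg _) hC0.le
  have h5 := mul_le_mul (h1 x) (hD v x) (abs_nonneg _) (by positivity)
  have h6 : C * (ε / 2 / C) = ε / 2 := by field_simp
  have h7 : ε / 2 / D * D = ε / 2 := by field_simp
  linarith

theorem UC.cmul (c : ℝ) (hf : UC v f) : UC v fun u x => c * f u x := (UC.const c).mul hf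

theorem UC.half (hf : UC v f) : UC v fun u x => f u x / 2 := by
  simpa only [div_eq_mul_inv] using hf.mul (UC.const 2⁻¹)

theorem UC.sq (hf : UC v f) : UC v fun u x => f u x ^ 2 := by
  simpa only [pow_two] using hf.mul hf

theorem cexp_mv {φ φ' : ℝ → ℝ} {u M : ℝ} (h : ∀ w, |w - v| ≤ |u - v| → HasDerivAt φ (φ' w) w ∧ |φ' w| ≤ M) :
    |φ u - φ v| ≤ M * |u - v| := by
  have h1 : ∀ w ∈ Metric.closedBall v |u - v|, |w - v| ≤ |u - v| := fun w hw => by
    rwa [Metric.mem_closedBall, Real.dist_eq] at hw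
  exact (convex_closedBall v |u - v|).norm_image_sub_le_of_norm_hasDerivWithin_le
    (fun w hw => (h w (h1 w hw)).1.hasDerivWithinAt) (fun w hw => (h w (h1 w hw)).2)
    (Metric.mem_closedBall_self (abs_nonneg _)) (by rw [Metric.mem_closedBall, Real.dist_eq])

theorem cexp_ev {p : ℝ → Prop} (h : ∀ᶠ u in 𝓝 v, p u) : ∀ᶠ u in 𝓝 v, ∀ w, |w - v| ≤ |u - v| → p w := by
  obtain ⟨δ, hδ, h1⟩ := Metric.eventually_nhds_iff.1 h
  refine Metric.eventually_nhds_iff.2 ⟨δ, hδ, fun u hu w hw => h1 ?_⟩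
  rw [Real.dist_eq] at hu ⊢
  exact hw.trans_lt hu

theorem U0.of_deriv (h : ∀ᶠ u in 𝓝 v, ∀ x, HasDerivAt (fun u => f u x) (f' u x) u) (hb : UB f') :
    U0 v f := by
  obtain ⟨C, hC0, hC⟩ := hb.pos
  intro ε hε
  have h1 : ∀ᶠ u in 𝓝 v, |u - v| < ε / C := by
    have h2 : Continuous fun u : ℝ => |u - v| := by fun_prop
    exact h2.continuousAt.eventually_lt continuousAt_const (by simpa using div_pos hε hC0)
  filter_upwards [cexp_ev h, h1] with u h2 h3 x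
  refine (cexp_mv (φ := fun u => f u x) fun w hw => ⟨h2 w hw x, hC w x⟩).trans ?_
  rw [lt_div_iff₀ hC0] at h3
  linarith

theorem cexp_t1 (h : ∀ᶠ u in 𝓝 v, ∀ x, HasDerivAt (fun u => f u x) (f' u x) u) (hc : U0 v f') (ε : ℝ)
    (hε : 0 < ε) : ∀ᶠ u in 𝓝 v, ∀ x, |f u x - f v x - (u - v) * f' v x| ≤ ε * |u - v| := by
  filter_upwards [cexp_ev h, cexp_ev (hc ε hε)] with u h1 h2 x
  have h3 := cexp_mv (v := v) (u := u) (φ := fun u => f u x - u * f' v x) (φ' := fun w => f' w x - f' v x)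
    fun w hw => ⟨(h1 w hw x).sub (hasDerivAt_mul_const _), h2 w hw x⟩
  convert h3 using 2
  ring

theorem cexp_t2 (h : ∀ᶠ u in 𝓝 v, ∀ x, HasDerivAt (fun u => f u x) (f' u x) u)
    (h' : ∀ᶠ u in 𝓝 v, ∀ x, HasDerivAt (fun u => f' u x) (f'' u x) u) (hc : U0 v f'') (ε : ℝ)
    (hε : 0 < ε) : ∀ᶠ u in 𝓝 v, ∀ x,
      |f u x - f v x - (u - v) * f' v x - (u - v) ^ 2 / 2 * f'' v x| ≤ ε * (u - v) ^ 2 := by
  filter_upwards [cexp_ev h, cexp_ev (cexp_t1 h' hc ε hε)] with u h1 h2 x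
  have h3 := cexp_mv (v := v) (u := u) (M := ε * |u - v|)
    (φ := fun u => f u x - u * f' v x - (u - v) ^ 2 / 2 * f'' v x)
    (φ' := fun w => f' w x - f' v x - (w - v) * f'' v x)
    fun w hw => ⟨by
      refine ((h1 w hw x).sub (hasDerivAt_mul_const _)).sub ?_
      have := ((((hasDerivAt_id' w).sub_const v).fun_pow 2).div_const 2).mul_const (f'' v x)
      exact this.congr_deriv (by simp), (h2 w hw x).trans (mul_le_mul_of_nonneg_left hw hε.le)⟩
  rw [mul_assoc, ← pow_two, sq_abs] at h3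
  convert h3 using 2
  ring

theorem cexp_peano1 {φ φ' : ℝ → ℝ} (h : ∀ᶠ u in 𝓝 v, HasDerivAt φ (φ' u) u) (hc : ContinuousAt φ' v)
    (ε : ℝ) (hε : 0 < ε) : ∀ᶠ u in 𝓝 v, |φ u - φ v - (u - v) * φ' v| ≤ ε * |u - v| := by
  have := cexp_t1 (P := Unit) (f := fun u _ => φ u) (f' := fun u _ => φ' u)
    (h.mono fun u hu _ => hu) (fun ε hε => by
      filter_upwards [Metric.tendsto_nhds.1 hc ε hε] with u hu _
      rw [Real.dist_eq] at hu
      exact hu.le) ε hε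
  exact this.mono fun u hu => hu ()

theorem cexp_peano2 {φ φ' φ'' : ℝ → ℝ} (h : ∀ᶠ u in 𝓝 v, HasDerivAt φ (φ' u) u)
    (h' : ∀ᶠ u in 𝓝 v, HasDerivAt φ' (φ'' u) u) (hc : ContinuousAt φ'' v) (ε : ℝ) (hε : 0 < ε) :
    ∀ᶠ u in 𝓝 v, |φ u - φ v - (u - v) * φ' v - (u - v) ^ 2 / 2 * φ'' v| ≤ ε * (u - v) ^ 2 := by
  have := cexp_t2 (P := Unit) (f := fun u _ => φ u) (f' := fun u _ => φ' u) (f'' := fun u _ => φ'' u)
    (h.mono fun u hu _ => hu) (h'.mono fun u hu _ => hu) (fun ε hε => by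
      filter_upwards [Metric.tendsto_nhds.1 hc ε hε] with u hu _
      rw [Real.dist_eq] at hu
      exact hu.le) ε hε
  exact this.mono fun u hu => hu ()

theorem cexp_exp (ε : ℝ) (hε : 0 < ε) :
    ∀ᶠ s in 𝓝 (0 : ℝ), |(Real.exp s - 1) - s - s ^ 2 / 2 * 1| ≤ ε * s ^ 2 := by
  simpa using cexp_peano2 (v := 0) (Eventually.of_forall Real.hasDerivAt_exp)
    (Eventually.of_forall Real.hasDerivAt_exp) Real.continuous_exp.continuousAt ε hε

theorem cexp_log (ε : ℝ) (hε : 0 < ε) :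
    ∀ᶠ s in 𝓝 (0 : ℝ), |Real.log (1 + s) - s - s ^ 2 / 2 * (-1)| ≤ ε * s ^ 2 := by
  have h0 : ∀ᶠ s in 𝓝 (0 : ℝ), 1 + s ≠ 0 := by
    have h2 : Continuous fun u : ℝ => 1 + u := by fun_prop
    exact h2.continuousAt.eventually_ne (by simp)
  have := cexp_peano2 (v := 0) (φ := fun s => Real.log (1 + s)) (φ' := fun s => (1 + s)⁻¹)
    (φ'' := fun s => -1 / (1 + s) ^ 2)
    (h0.mono fun s hs => by simpa using ((hasDerivAt_id s).const_add 1).log hs)
    (h0.mono fun s hs => ((hasDerivAt_id' s).const_add 1).fun_inv hs)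
    (ContinuousAt.div continuousAt_const (by fun_prop) (by simp)) ε hε
  simpa using this

theorem o2_iff : O2 f ↔ (fun q : ℝ × P => f q.1 q.2) =o[comap Prod.fst (𝓝 0)] fun q => q.1 ^ 2 := by
  rw [isLittleO_iff]
  refine forall₂_congr fun ε _ => ?_
  rw [eventually_comap]
  refine eventually_congr (Eventually.of_forall fun t => ⟨?_, fun h x => ?_⟩)
  · rintro h ⟨t', x⟩ rfl
    simpa using h x
  · simpa using h (t, x) rfl

theorem O2.comp {φ : ℝ → ℝ} {c : ℝ}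
    (hφ : ∀ ε : ℝ, 0 < ε → ∀ᶠ s in 𝓝 (0 : ℝ), |φ s - s - s ^ 2 / 2 * c| ≤ ε * s ^ 2)
    {η a b : ℝ → P → ℝ} (ha : UB a) (hb : UB b) (h : O2 fun t x => η t x - t * a t x - t ^ 2 / 2 * b t x) :
    O2 fun t x => φ (η t x) - t * a t x - t ^ 2 / 2 * (b t x + c * a t x ^ 2) := by
  rw [o2_iff] at h ⊢
  set l : Filter (ℝ × P) := comap Prod.fst (𝓝 0) with hl
  have hτ : Tendsto (fun q : ℝ × P => q.1) l (𝓝 0) := tendsto_comap
  have hb1 : ∀ {a : ℝ → P → ℝ}, UB a → (fun q : ℝ × P => a q.1 q.2) =O[l] fun _ => (1 : ℝ) := by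
    rintro a ⟨C, hC⟩
    exact IsBigO.of_bound C (Eventually.of_forall fun q => by simpa using hC q.1 q.2)
  have h1 : (fun q : ℝ × P => q.1 ^ 2) =o[l] fun q => q.1 := by
    exact (isLittleO_pow_id (𝕜 := ℝ) (show 1 < 2 by norm_num)).comp_tendsto hτ
  have h2 : (fun q : ℝ × P => q.1 ^ 2 / 2 * b q.1 q.2) =O[l] fun q => q.1 ^ 2 := by
    have := ((isBigO_refl (fun q : ℝ × P => q.1 ^ 2) l).const_mul_left 2⁻¹).mul (hb1 hb)
    simp only [mul_one] at this
    exact this.congr_left fun q => by ring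
  have h3 : (fun q : ℝ × P => q.1 * a q.1 q.2) =O[l] fun q => q.1 := by
    simpa using (isBigO_refl (fun q : ℝ × P => q.1) l).mul (hb1 ha)
  have h4 : (fun q : ℝ × P => η q.1 q.2 - q.1 * a q.1 q.2) =o[l] fun q => q.1 :=
    ((h.isBigO.add h2).trans_isLittleO h1).congr_left fun q => by ring
  have h5 : (fun q : ℝ × P => η q.1 q.2) =O[l] fun q => q.1 :=
    (h4.isBigO.add h3).congr_left fun q => by ring
  have h6 : Tendsto (fun q : ℝ × P => η q.1 q.2) l (𝓝 0) := h5.trans_tendsto hτ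
  have h7 : (fun s : ℝ => φ s - s - s ^ 2 / 2 * c) =o[𝓝 0] fun s => s ^ 2 :=
    isLittleO_iff.2 fun ε hε => (hφ ε hε).mono fun s hs => by simpa using hs
  have h8 := (h7.comp_tendsto h6).trans_isBigO (h5.pow 2)
  have h9 := (h4.mul_isBigO (h5.add h3)).const_mul_left (c / 2)
  simp only [← pow_two] at h9
  refine ((h8.add h9).add h).congr_left fun q => ?_
  simp only [Function.comp]
  ring

theorem O2.add (hf : O2 f) (hg : O2 g) : O2 fun t x => f t x + g t x := by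
  rw [o2_iff] at *
  exact hf.add hg

theorem O2.cmul (c : ℝ) (hf : O2 f) : O2 fun t x => c * f t x := by
  rw [o2_iff] at *
  exact hf.const_mul_left c

theorem O2.congr (hf : O2 f) (h : ∀ᶠ t in 𝓝 (0 : ℝ), ∀ x, g t x = f t x) : O2 g := fun ε hε => by
  filter_upwards [hf ε hε, h] with t h1 h2 x
  rw [h2 x]
  exact h1 x

theorem cexp_tend (v κ : ℝ) : Tendsto (fun t : ℝ => v + κ * t) (𝓝 0) (𝓝 v) := by
  have h : Continuous fun t : ℝ => v + κ * t := by fun_prop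
  simpa using h.tendsto 0

theorem O2.of_t2 (κ : ℝ) (h : ∀ ε : ℝ, 0 < ε → ∀ᶠ u in 𝓝 v, ∀ x, |f u x| ≤ ε * (u - v) ^ 2) :
    O2 fun t x => f (v + κ * t) x := fun ε hε => by
  filter_upwards [(cexp_tend v κ).eventually (h (ε / (κ ^ 2 + 1)) (by positivity))] with t ht x
  refine (ht x).trans ?_
  rw [add_sub_cancel_left, mul_pow, div_mul_eq_mul_div, div_le_iff₀ (by positivity)]
  nlinarith [mul_nonneg hε.le (sq_nonneg t)]

theorem O2.of_t1 (κ : ℝ) (h : ∀ ε : ℝ, 0 < ε → ∀ᶠ u in 𝓝 v, ∀ x, |f u x| ≤ ε * |u - v|) :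
    O2 fun t x => t * f (v + κ * t) x := fun ε hε => by
  filter_upwards [(cexp_tend v κ).eventually (h (ε / (|κ| + 1)) (by positivity))] with t ht x
  rw [abs_mul]
  refine (mul_le_mul_of_nonneg_left (ht x) (abs_nonneg t)).trans ?_
  rw [add_sub_cancel_left, abs_mul, ← sq_abs t, div_mul_eq_mul_div, ← mul_div_assoc,
    div_le_iff₀ (by positivity)]
  nlinarith [mul_nonneg hε.le (sq_nonneg |t|)]

theorem O2.of_t0 (κ : ℝ) (h : ∀ ε : ℝ, 0 < ε → ∀ᶠ u in 𝓝 v, ∀ x, |f u x| ≤ ε) :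
    O2 fun t x => t ^ 2 * f (v + κ * t) x := fun ε hε => by
  filter_upwards [(cexp_tend v κ).eventually (h ε hε)] with t ht x
  rw [abs_mul, abs_of_nonneg (sq_nonneg t), mul_comm]
  exact mul_le_mul_of_nonneg_right (ht x) (sq_nonneg t)

end Crest.Agent.R164
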