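import Crest.Agent.R164.CDefs
import Crest.Agent.R164.CExp_A

/-!
Row 164, task R164-CExp: second order expansions through one level.

PLAN.  (1) For `η` measurable, `|η| ≤ β ≤ 1/ζ`...: `gaussOp ζ u (F0 + η) x = gaussOp ζ u F0 x + ζ⁻¹ log (Et (exp (ζ η)))` and
`|ζ⁻¹ log Et e^{ζη} - Et η - ζ/2 (Et η² - (Et η)²)| ≤ C β³` (Taylor for `exp` and `log`), uniformly in `u, x`.
With `η = Φ t - F0 = t V + t²/2 Z + o(t²)` uniformly: `gaussOp ζ u (Φ t) x = F 0 u x + t V 0 u x + t²/2 Z 0 u x + o(t²)` uniformly in `u, x`.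
(2) Taylor in `u = v + κ t` near `v > 0`, uniformly in `x`, from the `du…` fields and the uniform bounds: `∂_u F0 = A = (F2 + ζF1²)/2`,
`∂_u A = (A_xx + 2ζ F1 A_x)/2` (from `duF1`, `duF2`), whose `u`-derivative is bounded (`duF1..duF4`); `∂_u V0 = V2/2 + ζ F1 V1` has bounded `u`-derivative;
`∂_u Z0` is bounded.  Use the mean value inequality (`norm_image_sub_le_of_norm_deriv_le_segment`, or `Convex.norm_image_sub_le_of_norm_hasDerivWithin_le`).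
-/

set_option autoImplicit false

namespace Crest.Agent.R164

open MeasureTheory ProbabilityTheory Filter Topology Crest.ProbabilityR.InvariantGlass

theorem Ch.cexp_cont {f : ℕ → ℝ → ℝ} (h : Ch f) (k : ℕ) : Continuous (f k) :=
  continuous_iff_continuousAt.2 fun x => (h k x).continuousAt

theorem cexp_int (J : Jet) (ζ s x : ℝ) :
    Integrable (fun g => Real.exp (ζ * J.F 0 (x + s * g))) (gaussianReal 0 1) := by
  obtain ⟨C, hC⟩ := J.bdF 0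
  have hC0 : 0 < max C 1 := by positivity
  have h1 : Lip1 fun y => J.F 0 y / max C 1 := by
    intro y z
    rw [← sub_div, abs_div, abs_of_pos hC0, div_le_iff₀ hC0, mul_comm]
    exact cexp_mv fun w _ => ⟨J.chF 0 w, (hC w).trans (le_max_left _ _)⟩
  have h2 := h1.integrable_exp (ζ * max C 1) s x
  refine h2.congr (ae_of_all _ fun g => ?_)
  simp only
  congr 1
  field_simp

theorem cexp_int_mul (J : Jet) (ζ s x : ℝ) {h : ℝ → ℝ} (hc : Continuous h) {c : ℝ} (hb : ∀ y, |h y| ≤ c) :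
    Integrable (fun g => h (x + s * g) * Real.exp (ζ * J.F 0 (x + s * g))) (gaussianReal 0 1) :=
  (cexp_int J ζ s x).bdd_mul (hc.comp (by fun_prop)).aestronglyMeasurable (ae_of_all _ fun _ => hb _)

theorem cexp_Et_le (J : Jet) (ζ u x : ℝ) {h : ℝ → ℝ} {c : ℝ} (hb : ∀ y, |h y| ≤ c) :
    |Et ζ u (J.F 0) h x| ≤ c := by
  have hA := integral_exp_pos (cexp_int J ζ (Real.sqrt u) x)
  unfold Et
  rw [abs_div, abs_of_pos hA, div_le_iff₀ hA, ← integral_const_mul, ← Real.norm_eq_abs]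
  refine norm_integral_le_of_norm_le ((cexp_int J ζ _ x).const_mul c) (ae_of_all _ fun g => ?_)
  rw [Real.norm_eq_abs, abs_mul, abs_of_pos (Real.exp_pos _)]
  exact mul_le_mul_of_nonneg_right (hb _) (Real.exp_pos _).le

theorem cexp_tilt (J : Jet) {ζ : ℝ} (hζ : 0 < ζ) (u x : ℝ) {Φ R A B : ℝ → ℝ} (hR : Continuous R)
    (hA : Continuous A) (hB : Continuous B) {c c' c'' : ℝ} (bR : ∀ y, |R y| ≤ c) (bA : ∀ y, |A y| ≤ c')
    (bB : ∀ y, |B y| ≤ c'') {a b : ℝ}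
    (h : ∀ y, Real.exp (ζ * (Φ y - J.F 0 y)) = 1 + (R y + a * A y + b * B y)) :
    gaussOp ζ u Φ x = gaussOp ζ u (J.F 0) x + ζ⁻¹ * Real.log
      (1 + (Et ζ u (J.F 0) R x + a * Et ζ u (J.F 0) A x + b * Et ζ u (J.F 0) B x)) := by
  have i0 := cexp_int J ζ (Real.sqrt u) x
  have hpos := integral_exp_pos i0
  have iR := cexp_int_mul J ζ (Real.sqrt u) x hR bR
  have iA := (cexp_int_mul J ζ (Real.sqrt u) x hA bA).const_mul a
  have iB := (cexp_int_mul J ζ (Real.sqrt u) x hB bB).const_mul b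
  have h1 : (fun g => Real.exp (ζ * Φ (x + Real.sqrt u * g))) = fun g =>
      Real.exp (ζ * J.F 0 (x + Real.sqrt u * g)) +
        (R (x + Real.sqrt u * g) * Real.exp (ζ * J.F 0 (x + Real.sqrt u * g)) +
        a * (A (x + Real.sqrt u * g) * Real.exp (ζ * J.F 0 (x + Real.sqrt u * g))) +
        b * (B (x + Real.sqrt u * g) * Real.exp (ζ * J.F 0 (x + Real.sqrt u * g)))) := by
    funext g
    have h2 : ζ * Φ (x + Real.sqrt u * g) = ζ * (Φ (x + Real.sqrt u * g) - J.F 0 (x + Real.sqrt u * g)) +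
        ζ * J.F 0 (x + Real.sqrt u * g) := by ring
    rw [h2, Real.exp_add, h]
    ring
  have iΦ : Integrable (fun g => Real.exp (ζ * Φ (x + Real.sqrt u * g))) (gaussianReal 0 1) := by
    rw [h1]
    exact i0.add ((iR.add iA).add iB)
  have hpos' := integral_exp_pos iΦ
  have h3 : ∫ g, Real.exp (ζ * Φ (x + Real.sqrt u * g)) ∂gaussianReal 0 1 =
      (∫ g, Real.exp (ζ * J.F 0 (x + Real.sqrt u * g)) ∂gaussianReal 0 1) *
      (1 + (Et ζ u (J.F 0) R x + a * Et ζ u (J.F 0) A x + b * Et ζ u (J.F 0) B x)) := by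
    have e1 := integral_add i0 ((iR.add iA).add iB)
    have e2 := integral_add (iR.add iA) iB
    simp only [Pi.add_apply] at e1 e2
    rw [h1, e1, e2, integral_add iR iA, integral_const_mul, integral_const_mul]
    unfold Et
    field_simp
  have h4 : 0 < 1 + (Et ζ u (J.F 0) R x + a * Et ζ u (J.F 0) A x + b * Et ζ u (J.F 0) B x) := by
    rw [h3] at hpos'
    exact (pos_iff_pos_of_mul_pos hpos').1 hpos
  unfold gaussOp
  rw [if_neg hζ.ne', if_neg hζ.ne', h3, Real.log_mul hpos.ne' h4.ne', mul_add]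

theorem cexp_one {ζ : ℝ} (hζ : 0 < ζ) {J : Jet} (fl : Flow ζ J) (u : ℝ → ℝ) {Φ : ℝ → ℝ → ℝ}
    (hΦ : Exp2 Φ J) (hm : ∀ᶠ t in 𝓝 (0 : ℝ), Continuous (Φ t)) :
    O2 fun t x => gaussOp ζ (u t) (Φ t) x - fl.F 0 (u t) x - t * fl.V 0 (u t) x -
      t ^ 2 / 2 * fl.Z 0 (u t) x := by
  obtain ⟨CV, hCV⟩ := J.bdV 0
  obtain ⟨CZ, hCZ⟩ := J.bdZ 0
  have bV : UB fun (_ : ℝ) y => J.V 0 y := ⟨CV, fun _ => hCV⟩
  have bZ : UB fun (_ : ℝ) y => J.Z 0 y := ⟨CZ, fun _ => hCZ⟩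
  obtain ⟨CB, hCB⟩ := bZ.add (bV.sq.cmul ζ)
  have cF := J.chF.cexp_cont 0
  have cV := J.chV.cexp_cont 0
  have cZ := J.chZ.cexp_cont 0
  set R : ℝ → ℝ → ℝ := fun t y => (Real.exp (ζ * (Φ t y - J.F 0 y)) - 1) - t * (ζ * J.V 0 y) -
    t ^ 2 / 2 * (ζ * J.Z 0 y + 1 * (ζ * J.V 0 y) ^ 2) with hR
  have h0 : O2 fun t y => Φ t y - J.F 0 y - t * J.V 0 y - t ^ 2 / 2 * J.Z 0 y := hΦ
  have h1 : O2 R := O2.comp (φ := fun s => Real.exp s - 1) cexp_exp (bV.cmul ζ) (bZ.cmul ζ)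
    ((h0.cmul ζ).congr (Eventually.of_forall fun t x => by ring))
  have h2 : O2 fun t x => Et ζ (u t) (J.F 0) (R t) x := fun ε hε =>
    (h1 ε hε).mono fun t ht x => cexp_Et_le J ζ _ x ht
  have h3 := O2.comp (φ := fun s => Real.log (1 + s)) cexp_log
    (η := fun t x => Et ζ (u t) (J.F 0) (R t) x + (t * ζ) * Et ζ (u t) (J.F 0) (J.V 0) x +
      (t ^ 2 / 2 * ζ) * Et ζ (u t) (J.F 0) (fun y => J.Z 0 y + ζ * J.V 0 y ^ 2) x)
    (a := fun t x => ζ * Et ζ (u t) (J.F 0) (J.V 0) x)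
    (b := fun t x => ζ * Et ζ (u t) (J.F 0) (fun y => J.Z 0 y + ζ * J.V 0 y ^ 2) x)
    (UB.cmul ζ ⟨CV, fun t x => cexp_Et_le J ζ _ x hCV⟩)
    (UB.cmul ζ ⟨CB, fun t x => cexp_Et_le J ζ _ x (hCB 0)⟩)
    (h2.congr (Eventually.of_forall fun t x => by ring))
  refine (h3.cmul ζ⁻¹).congr ?_
  filter_upwards [hm, h1 1 one_pos] with t hc hb x
  rw [cexp_tilt J hζ (u t) x (R := R t) (A := J.V 0) (B := fun y => J.Z 0 y + ζ * J.V 0 y ^ 2)
    (by simp only [hR]; fun_prop) cV (by fun_prop) hb hCV (hCB 0) (a := t * ζ) (b := t ^ 2 / 2 * ζ)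
    (fun y => by simp only [hR]; ring), fl.F0, fl.V0, fl.Z0]
  field_simp
  ring

theorem exp2_step {ζ κ v : ℝ} (hζ : 0 < ζ) (hv : 0 < v) {J J' : Jet} (fl : Flow ζ J)
    (hs : Src ζ κ (fl.jet v) J') {Φ : ℝ → ℝ → ℝ} (hΦ : Exp2 Φ J) (hm : ∀ᶠ t in 𝓝 (0 : ℝ), Continuous (Φ t)) :
    Exp2 (fun t => gaussOp ζ (v + κ * t) (Φ t)) J' := by
  have hev : ∀ᶠ u in 𝓝 v, 0 < u := lt_mem_nhds hv
  have bF : ∀ k, UB (fl.F (k + 1)) := fl.bdF
  have bV : ∀ k, UB (fl.V k) := fl.bdV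
  have bZ : ∀ k, UB (fl.Z k) := fl.bdZ
  have F1 : UC v (fl.F 1) := ⟨bF 0, U0.of_deriv (hev.mono fl.duF1)
    ((bF 2).half.add (((bF 0).mul (bF 1)).cmul ζ))⟩
  have F2 : UC v (fl.F 2) := ⟨bF 1, U0.of_deriv (hev.mono fl.duF2)
    ((bF 3).half.add ((((bF 0).mul (bF 2)).add (bF 1).sq).cmul ζ))⟩
  have F3 : UC v (fl.F 3) := ⟨bF 2, U0.of_deriv (hev.mono fl.duF3)
    ((bF 4).half.add ((((bF 0).mul (bF 3)).add (((bF 1).mul (bF 2)).cmul 3)).cmul ζ))⟩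
  have F4 : UC v (fl.F 4) := ⟨bF 3, U0.of_deriv (hev.mono fl.duF4)
    ((bF 5).half.add (((((bF 0).mul (bF 4)).add (((bF 1).mul (bF 3)).cmul 4)).add
      ((bF 2).sq.cmul 3)).cmul ζ))⟩
  have V1 : UC v (fl.V 1) := ⟨bV 1, U0.of_deriv (hev.mono fl.duV1)
    ((bV 3).half.add ((((bF 0).mul (bV 2)).add ((bF 1).mul (bV 1))).cmul ζ))⟩
  have V2 : UC v (fl.V 2) := ⟨bV 2, U0.of_deriv (hev.mono fl.duV2)
    ((bV 4).half.add (((((bF 0).mul (bV 3)).add (((bF 1).mul (bV 2)).cmul 2)).add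
      ((bF 2).mul (bV 1))).cmul ζ))⟩
  have Z0 : U0 v (fl.Z 0) := U0.of_deriv (hev.mono fl.duZ0)
    (((bZ 2).half.add (((bF 0).mul (bZ 1)).cmul ζ)).add ((bV 1).sq.cmul ζ))
  have hA : ∀ᶠ u in 𝓝 v, ∀ x, HasDerivAt (fun u => (fl.F 2 u x + ζ * fl.F 1 u x ^ 2) / 2)
      ((fl.F 4 u x / 2 + ζ * (fl.F 1 u x * fl.F 3 u x + fl.F 2 u x ^ 2) +
        ζ * (2 * (fl.F 1 u x * (fl.F 3 u x / 2 + ζ * (fl.F 1 u x * fl.F 2 u x))))) / 2) u :=
    hev.mono fun u hu x => (((fl.duF2 u hu x).fun_add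
      (((fl.duF1 u hu x).fun_pow 2).const_mul ζ)).div_const 2).congr_deriv (by norm_num [mul_assoc])
  have t2 := O2.of_t2 κ (cexp_t2 (hev.mono fl.duF0) hA
    (((F4.half.add (((F1.mul F3).add F2.sq).cmul ζ)).add
      (((F1.mul (F3.half.add ((F1.mul F2).cmul ζ))).cmul 2).cmul ζ)).half).c)
  have t1 := O2.of_t1 κ (cexp_t1 (hev.mono fl.duV0) (V2.half.add ((F1.mul V1).cmul ζ)).c)
  have t0 := (O2.of_t0 κ Z0).cmul (1 / 2)
  have h := (((cexp_one hζ fl (fun t => v + κ * t) hΦ hm).add t2).add t1).add t0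
  refine h.congr (Eventually.of_forall fun t x => ?_)
  rw [hs.F, hs.V, hs.Z]
  simp only [Flow.jet]
  ring

end Crest.Agent.R164
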