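import Crest.Agent.R164.CMax

/-!
Row 164, task R164-CGood: the invariant `Good` is preserved by the flow (six applications of the maximum principle).

PLAN.  `L = ∂_u - ∂_xx/2 - ζ F1 ∂_x` (so `β = ζ F 1`), `χ = F 2 ≤ X`.  On the strip `[0, u₁]`:
`L χ = ζ χ²`, `L F3 = 3 ζ χ F3`, `L F4 = 4 ζ χ F4 + 3 ζ F3²`, `L V1 = ζ χ V1`, `L Z0 = ζ V1²`.
(a) `f = ± F3 - C e^{K u} χ`: `L f ≤ 3 ζ χ f` if `K ≥ 2 ζ X`.  (b) `f = ± F4 - C₂ e^{K u} χ`, `C₂ ≥ C₁²` (`C₁` the bound of (a) on the strip),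
`K ≥ 6 ζ X`: `L f ≤ 4 ζ χ f`.  (c) `f = ± V1 - C χ`: `L f = ζ χ f`.
(d) `L W = W²/χ`, `L χ² = 2ζχ³ - F3²`; `f = W + c e^{-K u} χ²`: `L f ≤ (W/χ - c e^{-Ku} χ) f` if `K ≥ c X + 2 ζ X`; `W/χ` is bounded by (a), (b).
(e) `L E = (W/χ) E`; `f = ± E + C W`: `L f = (W/χ) f`.
(f) `f = Z0 - V1²/χ - E²/W`: `L f = W ((E/W)_x)² ≤ 0`, i.e. `= (E_x W - E W_x)²/W³`; bounded above since `E²/|W| ≤ C² |W|`.
All identities: write the `HasDerivAt` chains for `W, W_x, W_xx, E, E_x, E_xx` explicitly (rational functions of `F k`, `V k`), then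
`field_simp; ring`.  For (f) treat `W, E` as new unknowns with known `L W`, `L E` (general rule for `L (E²/W)`, `L (V1²/χ)`:
`L (a²/b) = 2 (a/b) L a - (a/b)² L b - (a_x - (a/b) b_x)²/b`), note `V2 - (V1/χ) F3 = E`.
-/

set_option autoImplicit false

namespace Crest.Agent.R164

open Set

namespace CGood

/-- `f` has the `x`-derivative `fx` and `(∂_u - ∂_xx/2 - β ∂_x) f = L` on the strip -/
structure Par (β : ℝ → ℝ → ℝ) (u₁ : ℝ) (f fx L : ℝ → ℝ → ℝ) : Prop where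
  cont : ContinuousOn (Function.uncurry f) (Icc 0 u₁ ×ˢ univ)
  ex : ∃ fxx : ℝ → ℝ → ℝ, ∀ u ∈ Ioc 0 u₁, ∀ x, HasDerivAt (f u) (fx u x) x ∧
    HasDerivAt (fx u) (fxx u x) x ∧
    HasDerivAt (fun u => f u x) (fxx u x / 2 + β u x * fx u x + L u x) u

variable {β f fx L g gx M : ℝ → ℝ → ℝ} {u₁ : ℝ}

theorem Par.congr (h : Par β u₁ f fx L) (hL : ∀ u ∈ Ioc 0 u₁, ∀ x, L u x = M u x) :
    Par β u₁ f fx M := by
  obtain ⟨fxx, h2⟩ := h.ex
  exact ⟨h.cont, fxx, fun u hu x => hL u hu x ▸ h2 u hu x⟩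

theorem Par.add (h : Par β u₁ f fx L) (h' : Par β u₁ g gx M) :
    Par β u₁ (fun u x => f u x + g u x) (fun u x => fx u x + gx u x) (fun u x => L u x + M u x) := by
  obtain ⟨fxx, h2⟩ := h.ex
  obtain ⟨gxx, h3⟩ := h'.ex
  refine ⟨h.cont.add h'.cont, fun u x => fxx u x + gxx u x, fun u hu x =>
    ⟨(h2 u hu x).1.add (h3 u hu x).1, (h2 u hu x).2.1.add (h3 u hu x).2.1, ?_⟩⟩
  exact ((h2 u hu x).2.2.add (h3 u hu x).2.2).congr_deriv (by ring)

theorem Par.cmul (c : ℝ) (h : Par β u₁ f fx L) :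
    Par β u₁ (fun u x => c * f u x) (fun u x => c * fx u x) (fun u x => c * L u x) := by
  obtain ⟨fxx, h2⟩ := h.ex
  refine ⟨continuousOn_const.mul h.cont, fun u x => c * fxx u x, fun u hu x =>
    ⟨(h2 u hu x).1.const_mul c, (h2 u hu x).2.1.const_mul c, ?_⟩⟩
  exact ((h2 u hu x).2.2.const_mul c).congr_deriv (by ring)

theorem Par.sub (h : Par β u₁ f fx L) (h' : Par β u₁ g gx M) :
    Par β u₁ (fun u x => f u x - g u x) (fun u x => fx u x - gx u x) (fun u x => L u x - M u x) := by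
  obtain ⟨fxx, h2⟩ := h.ex
  obtain ⟨gxx, h3⟩ := h'.ex
  refine ⟨h.cont.sub h'.cont, fun u x => fxx u x - gxx u x, fun u hu x =>
    ⟨(h2 u hu x).1.sub (h3 u hu x).1, (h2 u hu x).2.1.sub (h3 u hu x).2.1, ?_⟩⟩
  exact ((h2 u hu x).2.2.sub (h3 u hu x).2.2).congr_deriv (by ring)

theorem Par.mul (h : Par β u₁ f fx L) (h' : Par β u₁ g gx M) :
    Par β u₁ (fun u x => f u x * g u x) (fun u x => fx u x * g u x + f u x * gx u x)
      (fun u x => f u x * M u x + g u x * L u x - fx u x * gx u x) := by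
  obtain ⟨fxx, h2⟩ := h.ex
  obtain ⟨gxx, h3⟩ := h'.ex
  refine ⟨h.cont.mul h'.cont, fun u x => fxx u x * g u x + fx u x * gx u x +
    (fx u x * gx u x + f u x * gxx u x), fun u hu x =>
    ⟨(h2 u hu x).1.mul (h3 u hu x).1, ((h2 u hu x).2.1.mul (h3 u hu x).1).add
      ((h2 u hu x).1.mul (h3 u hu x).2.1), ?_⟩⟩
  exact ((h2 u hu x).2.2.mul (h3 u hu x).2.2).congr_deriv (by ring)

theorem Par.inv (h : Par β u₁ f fx L) (h0 : ∀ u ∈ Icc 0 u₁, ∀ x, f u x ≠ 0) :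
    Par β u₁ (fun u x => (f u x)⁻¹) (fun u x => -fx u x / f u x ^ 2)
      (fun u x => -L u x / f u x ^ 2 - fx u x ^ 2 / f u x ^ 3) := by
  obtain ⟨fxx, h2⟩ := h.ex
  refine ⟨h.cont.inv₀ fun p hp => h0 p.1 hp.1 p.2,
    fun u x => -fxx u x / f u x ^ 2 + 2 * fx u x ^ 2 / f u x ^ 3, fun u hu x => ?_⟩
  have h1 := h0 u (Ioc_subset_Icc_self hu) x
  refine ⟨(h2 u hu x).1.inv h1, ?_, ?_⟩
  · refine ((h2 u hu x).2.1.neg.div ((h2 u hu x).1.pow 2) (pow_ne_zero 2 h1)).congr_deriv ?_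
    simp only [Pi.pow_apply, Pi.neg_apply]
    field_simp
    norm_num
    ring
  · refine ((h2 u hu x).2.2.inv h1).congr_deriv ?_
    field_simp
    ring

theorem Par.exp (K : ℝ) : Par β u₁ (fun u _ => Real.exp (K * u)) (fun _ _ => 0)
    (fun u _ => K * Real.exp (K * u)) := by
  refine ⟨by fun_prop, fun _ _ => 0, fun u _ x => ⟨hasDerivAt_const _ _, hasDerivAt_const _ _, ?_⟩⟩
  refine ((hasDerivAt_id u).const_mul K).exp.congr_deriv ?_
  simp [mul_comm]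

theorem Par.sq_div (h : Par β u₁ f fx L) (h' : Par β u₁ g gx M) (h0 : ∀ u ∈ Icc 0 u₁, ∀ x, g u x ≠ 0) :
    ∃ hx, Par β u₁ (fun u x => f u x ^ 2 / g u x) hx (fun u x => 2 * (f u x / g u x) * L u x -
      (f u x / g u x) ^ 2 * M u x - (fx u x - f u x / g u x * gx u x) ^ 2 / g u x) := by
  have h1 := (h.mul h).mul (h'.inv h0)
  have e : (fun u x => f u x ^ 2 / g u x) = fun u x => f u x * f u x * (g u x)⁻¹ := by
    funext u x
    rw [sq, div_eq_mul_inv]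
  rw [e]
  refine ⟨_, h1.congr fun u hu x => ?_⟩
  have := h0 u (Ioc_subset_Icc_self hu) x
  field_simp
  ring

theorem Par.max (h : Par β u₁ f fx L) {c : ℝ → ℝ → ℝ} {C₁ C₂ C₃ : ℝ}
    (hβ : ∀ u x, |β u x| ≤ C₁) (hb : ∀ u ∈ Icc 0 u₁, ∀ x, f u x ≤ C₂)
    (hc : ∀ u ∈ Icc 0 u₁, ∀ x, c u x ≤ C₃) (h0 : ∀ x, f 0 x ≤ 0)
    (hL : ∀ u ∈ Icc 0 u₁, ∀ x, L u x ≤ c u x * f u x) : ∀ u ∈ Icc 0 u₁, ∀ x, f u x ≤ 0 := by
  obtain ⟨fxx, h2⟩ := h.ex
  refine max_principle (β := β) (c := c) (C := Max.max C₁ (Max.max C₂ C₃)) h.cont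
    (fun u hu x => (hb u hu x).trans ((le_max_left _ _).trans (le_max_right _ _))) h0
    (fun u hu x => (h2 u hu x).2.2) (fun u hu x => (h2 u hu x).1) (fun u hu x => (h2 u hu x).2.1)
    (fun u _ x => (hβ u x).trans (le_max_left _ _))
    (fun u hu x => (hc u (Ioc_subset_Icc_self hu) x).trans
      ((le_max_right _ _).trans (le_max_right _ _))) fun u hu x => ?_
  have := hL u (Ioc_subset_Icc_self hu) x
  linarith

theorem abs_le_of {a b : ℝ} (h : ∀ s : ℝ, s = 1 ∨ s = -1 → s * a - b ≤ 0) : |a| ≤ b := by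
  have h1 := h 1 (Or.inl rfl)
  have h2 := h (-1) (Or.inr rfl)
  rw [abs_le]
  constructor <;> linarith

theorem sgn_le {s : ℝ} (hs : s = 1 ∨ s = -1) (a : ℝ) : s * a ≤ |a| := by
  rcases hs with rfl | rfl
  · rw [one_mul]; exact le_abs_self a
  · rw [neg_one_mul]; exact neg_le_abs a

variable {ζ : ℝ} {J : Jet} (fl : Flow ζ J) (u₁ : ℝ)

theorem parF2 : Par (fun u x => ζ * fl.F 1 u x) u₁ (fl.F 2) (fl.F 3) fun u x => ζ * fl.F 2 u x ^ 2 :=
  ⟨(fl.contF 2).continuousOn, fl.F 4, fun u hu x => ⟨fl.chF u 2 x, fl.chF u 3 x, by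
    convert fl.duF2 u hu.1 x using 1; ring⟩⟩

theorem parF3 : Par (fun u x => ζ * fl.F 1 u x) u₁ (fl.F 3) (fl.F 4)
    fun u x => 3 * ζ * fl.F 2 u x * fl.F 3 u x :=
  ⟨(fl.contF 3).continuousOn, fl.F 5, fun u hu x => ⟨fl.chF u 3 x, fl.chF u 4 x, by
    convert fl.duF3 u hu.1 x using 1; ring⟩⟩

theorem parF4 : Par (fun u x => ζ * fl.F 1 u x) u₁ (fl.F 4) (fl.F 5)
    fun u x => 4 * ζ * fl.F 2 u x * fl.F 4 u x + 3 * ζ * fl.F 3 u x ^ 2 :=
  ⟨(fl.contF 4).continuousOn, fl.F 6, fun u hu x => ⟨fl.chF u 4 x, fl.chF u 5 x, by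
    convert fl.duF4 u hu.1 x using 1; ring⟩⟩

theorem parV1 : Par (fun u x => ζ * fl.F 1 u x) u₁ (fl.V 1) (fl.V 2)
    fun u x => ζ * fl.F 2 u x * fl.V 1 u x :=
  ⟨(fl.contV 1).continuousOn, fl.V 3, fun u hu x => ⟨fl.chV u 1 x, fl.chV u 2 x, by
    convert fl.duV1 u hu.1 x using 1; ring⟩⟩

theorem parV2 : Par (fun u x => ζ * fl.F 1 u x) u₁ (fl.V 2) (fl.V 3)
    fun u x => ζ * (2 * (fl.F 2 u x * fl.V 2 u x) + fl.F 3 u x * fl.V 1 u x) :=
  ⟨(fl.contV 2).continuousOn, fl.V 4, fun u hu x => ⟨fl.chV u 2 x, fl.chV u 3 x, by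
    convert fl.duV2 u hu.1 x using 1; ring⟩⟩

theorem parZ0 : Par (fun u x => ζ * fl.F 1 u x) u₁ (fl.Z 0) (fl.Z 1) fun u x => ζ * fl.V 1 u x ^ 2 :=
  ⟨(fl.contZ 0).continuousOn, fl.Z 2, fun u hu x => ⟨fl.chZ u 0 x, fl.chZ u 1 x, 
    (fl.duZ0 u hu.1 x).congr_deriv (by ring)⟩⟩

/-- `W` along the flow -/
noncomputable def W (u x : ℝ) : ℝ := fl.F 4 u x - fl.F 3 u x ^ 2 / fl.F 2 u x + 2 * ζ * fl.F 2 u x ^ 2

/-- `E` along the flow -/
noncomputable def E (u x : ℝ) : ℝ := fl.V 2 u x - fl.V 1 u x * fl.F 3 u x / fl.F 2 u x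

theorem parSq : Par (fun u x => ζ * fl.F 1 u x) u₁ (fun u x => fl.F 2 u x ^ 2)
    (fun u x => fl.F 3 u x * fl.F 2 u x + fl.F 2 u x * fl.F 3 u x)
    fun u x => 2 * ζ * fl.F 2 u x ^ 3 - fl.F 3 u x ^ 2 := by
  have h := (parF2 fl u₁).mul (parF2 fl u₁)
  simp only [← sq] at h
  exact h.congr fun u _ x => by ring

theorem parW (hp : ∀ u x, 0 < fl.F 2 u x) : ∃ Wx, Par (fun u x => ζ * fl.F 1 u x) u₁ (W fl) Wx
    fun u x => W fl u x / fl.F 2 u x * W fl u x := by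
  obtain ⟨hx, h1⟩ := (parF3 fl u₁).sq_div (parF2 fl u₁) fun u _ x => (hp u x).ne'
  refine ⟨_, (((parF4 fl u₁).sub h1).add ((parSq fl u₁).cmul (2 * ζ))).congr fun u _ x => ?_⟩
  have := (hp u x).ne'
  unfold W
  field_simp
  ring

theorem parE (hp : ∀ u x, 0 < fl.F 2 u x) : ∃ Ex, Par (fun u x => ζ * fl.F 1 u x) u₁ (E fl) Ex
    fun u x => W fl u x / fl.F 2 u x * E fl u x := by
  have h1 := (parV2 fl u₁).sub (((parV1 fl u₁).mul (parF3 fl u₁)).mul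
    ((parF2 fl u₁).inv fun u _ x => (hp u x).ne'))
  simp only [← div_eq_mul_inv] at h1
  refine ⟨_, h1.congr fun u _ x => ?_⟩
  have := (hp u x).ne'
  unfold W E
  field_simp
  ring

end CGood

open CGood

theorem Flow.good {ζ : ℝ} (hζ : 0 < ζ) {J : Jet} (fl : Flow ζ J) (h : Good ζ J) {u : ℝ} (hu : 0 ≤ u) :
    Good ζ (fl.jet u) := by
  have hp := fl.pos h.pos
  obtain ⟨C, hC⟩ := h.dom
  obtain ⟨c, hc0, hc⟩ := h.neg
  obtain ⟨CE, hCE0, hCE⟩ := h.domE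
  obtain ⟨B1, hB1⟩ := fl.bdF 0
  obtain ⟨X, hX⟩ := fl.bdF 1
  obtain ⟨B3, hB3⟩ := fl.bdF 2
  obtain ⟨B4, hB4⟩ := fl.bdF 3
  obtain ⟨D1, hD1⟩ := fl.bdV 1
  obtain ⟨D2, hD2⟩ := fl.bdV 2
  obtain ⟨Z0, hZ0⟩ := fl.bdZ 0
  simp only [Nat.reduceAdd] at hB1 hX hB3 hB4
  have hX' : ∀ u x, fl.F 2 u x ≤ X := fun u x => (le_abs_self _).trans (hX u x)
  have hX0 : 0 < X := (hp 0 0).trans_le (hX' 0 0)
  have hC0 : 0 ≤ C := nonneg_of_mul_nonneg_left ((abs_nonneg _).trans (hC 0).1) (h.pos 0)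
  have hβ : ∀ u x, |ζ * fl.F 1 u x| ≤ ζ * B1 := fun u x => by
    rw [abs_mul, abs_of_pos hζ]
    exact mul_le_mul_of_nonneg_left (hB1 u x) hζ.le
  have huu : u ∈ Icc 0 u := ⟨hu, le_rfl⟩
  have hexp : ∀ {K : ℝ}, 0 ≤ K → ∀ v ∈ Icc 0 u,
      1 ≤ Real.exp (K * v) ∧ Real.exp (K * v) ≤ Real.exp (K * u) := fun hK v hv =>
    ⟨Real.one_le_exp (mul_nonneg hK hv.1), Real.exp_le_exp.2 (mul_le_mul_of_nonneg_left hv.2 hK)⟩
  -- (a)
  obtain ⟨C₁, hC₁0, hA⟩ : ∃ C₁, 0 ≤ C₁ ∧ ∀ v ∈ Icc 0 u, ∀ x, |fl.F 3 v x| ≤ C₁ * fl.F 2 v x := by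
    have hK : 0 ≤ 2 * ζ * X := by positivity
    refine ⟨C * Real.exp (2 * ζ * X * u), by positivity, fun v hv x => ?_⟩
    refine le_trans (abs_le_of (b := C * (Real.exp (2 * ζ * X * v) * fl.F 2 v x)) fun s hs => ?_) ?_
    · refine (((parF3 fl u).cmul s).sub (((Par.exp (2 * ζ * X)).mul (parF2 fl u)).cmul C)).max
        (c := fun v x => 3 * ζ * fl.F 2 v x) (C₂ := B3) (C₃ := 3 * ζ * X) hβ (fun v _ x => ?_)
        (fun v _ x => by have := hX' v x; gcongr) (fun x => ?_) (fun v _ x => ?_) v hv x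
      · have h1 := (sgn_le hs _).trans (hB3 v x)
        have h2 : 0 ≤ C * (Real.exp (2 * ζ * X * v) * fl.F 2 v x) := by have := hp v x; positivity
        linarith
      · have h1 := (sgn_le hs _).trans (hC x).1
        simp only [mul_zero, Real.exp_zero, one_mul, fl.F_zero]
        linarith
      · have h1 : 0 ≤ C * Real.exp (2 * ζ * X * v) * (ζ * fl.F 2 v x) * (X - fl.F 2 v x) := by
          have := hp v x
          have := sub_nonneg.2 (hX' v x)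
          positivity
        linarith
    · rw [mul_assoc C]
      exact mul_le_mul_of_nonneg_left (mul_le_mul_of_nonneg_right (hexp hK v hv).2 (hp v x).le) hC0
  have hA2 : ∀ v ∈ Icc 0 u, ∀ x, fl.F 3 v x ^ 2 ≤ C₁ ^ 2 * fl.F 2 v x ^ 2 := fun v hv x => by
    rw [← mul_pow, ← sq_abs]
    exact pow_le_pow_left₀ (abs_nonneg _) (hA v hv x) 2
  -- (b)
  obtain ⟨C₂, hC₂0, hB⟩ : ∃ C₂, 0 ≤ C₂ ∧ ∀ v ∈ Icc 0 u, ∀ x, |fl.F 4 v x| ≤ C₂ * fl.F 2 v x := by
    have hK : 0 ≤ 6 * ζ * X := by positivity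
    refine ⟨(C + C₁ ^ 2) * Real.exp (6 * ζ * X * u), by positivity, fun v hv x => ?_⟩
    refine le_trans (abs_le_of (b := (C + C₁ ^ 2) * (Real.exp (6 * ζ * X * v) * fl.F 2 v x))
      fun s hs => ?_) ?_
    · refine (((parF4 fl u).cmul s).sub
        (((Par.exp (6 * ζ * X)).mul (parF2 fl u)).cmul (C + C₁ ^ 2))).max
        (c := fun v x => 4 * ζ * fl.F 2 v x) (C₂ := B4) (C₃ := 4 * ζ * X) hβ (fun v _ x => ?_)
        (fun v _ x => by have := hX' v x; gcongr) (fun x => ?_) (fun v hv x => ?_) v hv x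
      · have h1 := (sgn_le hs _).trans (hB4 v x)
        have h2 : 0 ≤ (C + C₁ ^ 2) * (Real.exp (6 * ζ * X * v) * fl.F 2 v x) := by
          have := hp v x; positivity
        linarith
      · have h1 := (sgn_le hs _).trans (hC x).2.1
        have h2 : 0 ≤ C₁ ^ 2 * J.F 2 x := by have := h.pos x; positivity
        simp only [mul_zero, Real.exp_zero, one_mul, fl.F_zero]
        linarith
      · have h0 := hp v x
        have h1 : 0 ≤ (C + C₁ ^ 2) * Real.exp (6 * ζ * X * v) * (ζ * fl.F 2 v x) *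
            (X - fl.F 2 v x) := by
          have := sub_nonneg.2 (hX' v x)
          positivity
        have h2 : s * fl.F 3 v x ^ 2 ≤ (C + C₁ ^ 2) * Real.exp (6 * ζ * X * v) * fl.F 2 v x ^ 2 := by
          refine (sgn_le hs _).trans ?_
          rw [abs_of_nonneg (sq_nonneg _)]
          refine (hA2 v hv x).trans (mul_le_mul_of_nonneg_right ?_ (sq_nonneg _))
          have h3 := (hexp hK v hv).1
          have h4 : 0 ≤ C + C₁ ^ 2 := by positivity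
          nlinarith
        have h3 := mul_le_mul_of_nonneg_left h2 hζ.le
        linarith
    · rw [mul_assoc (C + C₁ ^ 2)]
      exact mul_le_mul_of_nonneg_left (mul_le_mul_of_nonneg_right (hexp hK v hv).2 (hp v x).le)
        (by positivity)
  -- (c)
  have hCc : ∀ v ∈ Icc 0 u, ∀ x, |fl.V 1 v x| ≤ C * fl.F 2 v x := by
    intro v hv x
    refine abs_le_of fun s hs => ?_
    refine (((parV1 fl u).cmul s).sub ((parF2 fl u).cmul C)).max
      (c := fun v x => ζ * fl.F 2 v x) (C₂ := D1) (C₃ := ζ * X) hβ (fun v _ x => ?_)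
      (fun v _ x => by have := hX' v x; gcongr) (fun x => ?_) (fun v _ x => le_of_eq (by ring)) v hv x
    · have h1 := (sgn_le hs _).trans (hD1 v x)
      have h2 : 0 ≤ C * fl.F 2 v x := by have := hp v x; positivity
      linarith
    · have h1 := (sgn_le hs _).trans (hC x).2.2
      simp only [fl.F_zero, fl.V_zero]
      linarith
  -- (d)
  obtain ⟨Wx, hW⟩ := parW fl u hp
  obtain ⟨Ex, hE⟩ := parE fl u hp
  have hW0 : ∀ x, W fl 0 x = J.W ζ x := fun x => by simp only [W, Jet.W, fl.F_zero]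
  have hE0 : ∀ x, E fl 0 x = J.E x := fun x => by simp only [E, Jet.E, fl.F_zero, fl.V_zero]
  have hWb : ∀ v ∈ Icc 0 u, ∀ x, |W fl v x| ≤ (C₂ + C₁ ^ 2 + 2 * ζ * X) * fl.F 2 v x := by
    intro v hv x
    have h0 := hp v x
    have h1 := abs_le.1 (hB v hv x)
    have h2 : fl.F 3 v x ^ 2 / fl.F 2 v x ≤ C₁ ^ 2 * fl.F 2 v x := by
      rw [div_le_iff₀ h0, mul_assoc, ← sq]
      exact hA2 v hv x
    have h3 : 0 ≤ fl.F 3 v x ^ 2 / fl.F 2 v x := by positivity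
    have h4 : 0 ≤ ζ * fl.F 2 v x * (X - fl.F 2 v x) := by
      have := sub_nonneg.2 (hX' v x)
      positivity
    have h5 : 0 ≤ ζ * fl.F 2 v x ^ 2 := by positivity
    have h6 : 0 ≤ ζ * X * fl.F 2 v x := by positivity
    have h7 : 0 ≤ C₁ ^ 2 * fl.F 2 v x := by positivity
    unfold W
    rw [abs_le]
    constructor <;> linarith [h1.1, h1.2]
  have hM0 : 0 ≤ C₂ + C₁ ^ 2 + 2 * ζ * X := by positivity
  have hWb' : ∀ v ∈ Icc 0 u, ∀ x, |W fl v x| ≤ (C₂ + C₁ ^ 2 + 2 * ζ * X) * X := fun v hv x =>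
    (hWb v hv x).trans (mul_le_mul_of_nonneg_left (hX' v x) hM0)
  have hD : ∀ v ∈ Icc 0 u, ∀ x,
      W fl v x + c * (Real.exp (-(c * X + 2 * ζ * X) * v) * fl.F 2 v x ^ 2) ≤ 0 := by
    have hle : ∀ v ∈ Icc 0 u, Real.exp (-(c * X + 2 * ζ * X) * v) ≤ 1 := fun v hv =>
      Real.exp_le_one_iff.2 (mul_nonpos_of_nonpos_of_nonneg (neg_nonpos.2 (by positivity)) hv.1)
    refine (hW.add (((Par.exp (-(c * X + 2 * ζ * X))).mul (parSq fl u)).cmul c)).max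
      (c := fun v x => W fl v x / fl.F 2 v x - c * Real.exp (-(c * X + 2 * ζ * X) * v) * fl.F 2 v x)
      (C₂ := (C₂ + C₁ ^ 2 + 2 * ζ * X) * X + c * (1 * X ^ 2)) (C₃ := C₂ + C₁ ^ 2 + 2 * ζ * X) hβ
      (fun v hv x => ?_) (fun v hv x => ?_) (fun x => ?_) fun v hv x => ?_
    · have h0 := hp v x
      have h1 := hX' v x
      have h2 := hle v hv
      refine add_le_add ((le_abs_self _).trans (hWb' v hv x)) ?_
      gcongr
    · have h0 := hp v x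
      have h1 : W fl v x / fl.F 2 v x ≤ C₂ + C₁ ^ 2 + 2 * ζ * X := by
        rw [div_le_iff₀ h0]
        exact (le_abs_self _).trans (hWb v hv x)
      have h2 : 0 ≤ c * Real.exp (-(c * X + 2 * ζ * X) * v) * fl.F 2 v x := by positivity
      linarith
    · have := hc x
      simp only [mul_zero, Real.exp_zero, one_mul, fl.F_zero, hW0]
      linarith
    · have h0 := hp v x
      have h1 := sub_nonneg.2 (hX' v x)
      have h2 := sub_nonneg.2 (hle v hv)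
      have he := Real.exp_pos (-(c * X + 2 * ζ * X) * v)
      generalize Real.exp (-(c * X + 2 * ζ * X) * v) = e at *
      have h3 : W fl v x / fl.F 2 v x * (c * (e * fl.F 2 v x ^ 2)) = c * e * fl.F 2 v x * W fl v x := by
        field_simp
      have h4 : 0 ≤ c * e * fl.F 3 v x ^ 2 := by positivity
      have h5 : 0 ≤ c * e * fl.F 2 v x ^ 2 * (2 * ζ * (X - fl.F 2 v x) + c * (X - fl.F 2 v x) +
          c * fl.F 2 v x * (1 - e)) := by positivity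
      rw [sub_mul, mul_add (W fl v x / fl.F 2 v x), h3]
      linarith
  have hWneg : ∀ v ∈ Icc 0 u, ∀ x, W fl v x < 0 := fun v hv x => by
    have h0 := hp v x
    have h1 : 0 < c * (Real.exp (-(c * X + 2 * ζ * X) * v) * fl.F 2 v x ^ 2) := by positivity
    linarith [hD v hv x]
  -- (e)
  have hEe : ∀ v ∈ Icc 0 u, ∀ x, |E fl v x| ≤ -CE * W fl v x := by
    intro v hv x
    refine abs_le_of fun s hs => ?_
    refine ((hE.cmul s).sub (hW.cmul (-CE))).max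
      (c := fun v x => W fl v x / fl.F 2 v x) (C₂ := D2 + D1 * C₁) (C₃ := 0) hβ (fun v hv x => ?_)
      (fun v hv x => (div_neg_of_neg_of_pos (hWneg v hv x) (hp v x)).le) (fun x => ?_)
      (fun v _ x => le_of_eq (by ring)) v hv x
    · have h0 := hp v x
      have h1 : |E fl v x| ≤ D2 + D1 * C₁ := by
        unfold E
        refine (abs_sub _ _).trans (add_le_add (hD2 v x) ?_)
        rw [abs_div, abs_mul, abs_of_pos h0, div_le_iff₀ h0, mul_assoc]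
        exact mul_le_mul (hD1 v x) (hA v hv x) (abs_nonneg _) ((abs_nonneg _).trans (hD1 v x))
      have h2 := (sgn_le hs _).trans h1
      have h3 := mul_nonneg hCE0 (neg_nonneg.2 (hWneg v hv x).le)
      linarith
    · have h1 := (sgn_le hs _).trans (hCE x)
      rw [hW0, hE0]
      linarith
  -- (f)
  have hF : ∀ v ∈ Icc 0 u, ∀ x,
      fl.Z 0 v x - fl.V 1 v x ^ 2 / fl.F 2 v x - E fl v x ^ 2 / W fl v x ≤ 0 := by
    obtain ⟨_, h1⟩ := (parV1 fl u).sq_div (parF2 fl u) fun v _ x => (hp v x).ne'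
    obtain ⟨_, h2⟩ := hE.sq_div hW fun v hv x => (hWneg v hv x).ne
    refine (((parZ0 fl u).sub h1).sub h2).max (c := fun _ _ => 0)
      (C₂ := Z0 + CE ^ 2 * ((C₂ + C₁ ^ 2 + 2 * ζ * X) * X)) (C₃ := 0) hβ (fun v hv x => ?_)
      (fun _ _ _ => le_rfl) (fun x => ?_) fun v hv x => ?_
    · have h0 := hp v x
      have h3 := (le_abs_self _).trans (hZ0 v x)
      have h4 : 0 ≤ fl.V 1 v x ^ 2 / fl.F 2 v x := by positivity
      have h5 := hWneg v hv x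
      have h6 : -(E fl v x ^ 2 / W fl v x) ≤ CE ^ 2 * (-W fl v x) := by
        rw [← div_neg, div_le_iff₀ (neg_pos.2 h5), ← sq_abs]
        refine (pow_le_pow_left₀ (abs_nonneg _) (hEe v hv x) 2).trans (le_of_eq ?_)
        ring
      have h7 := mul_le_mul_of_nonneg_left ((neg_le_abs _).trans (hWb' v hv x)) (sq_nonneg CE)
      linarith
    · rw [hW0, hE0]
      simp only [fl.F_zero, fl.V_zero, fl.Z_zero]
      exact h.main x
    · have h0 := (hp v x).ne'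
      have h5 := hWneg v hv x
      have h6 := h5.ne
      refine le_trans (le_of_eq ?_) ((div_nonpos_of_nonneg_of_nonpos
        (sq_nonneg (Ex v x - E fl v x / W fl v x * Wx v x)) h5.le).trans (zero_mul _).ge)
      have h7 : fl.V 2 v x - fl.V 1 v x / fl.F 2 v x * fl.F 3 v x = E fl v x := by
        unfold E; ring
      rw [h7]
      field_simp
      ring
  refine ⟨hp u, ⟨C₁ + C₂ + C, fun x => ?_⟩,
    ⟨c * Real.exp (-(c * X + 2 * ζ * X) * u), by positivity, fun x => ?_⟩,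
    ⟨CE, hCE0, hEe u huu⟩, hF u huu⟩
  · have h0 := (hp u x).le
    have h1 := mul_nonneg hC₁0 h0
    have h2 := mul_nonneg hC₂0 h0
    have h3 := mul_nonneg hC0 h0
    have h4 := hA u huu x
    have h5 := hB u huu x
    have h6 := hCc u huu x
    change |fl.F 3 u x| ≤ _ * fl.F 2 u x ∧ |fl.F 4 u x| ≤ _ * fl.F 2 u x ∧ |fl.V 1 u x| ≤ _ * fl.F 2 u x
    refine ⟨?_, ?_, ?_⟩ <;> linarith
  · have := hD u huu x
    change W fl u x ≤ _ * fl.F 2 u x ^ 2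
    linarith

end Crest.Agent.R164
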