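import Crest.Agent.R164.CDefs

/-!
Row 164, task R164-CSrc: initial jet, lowering the exponent, source step.

PLAN.  Bounded chains are closed under sums and products (Leibniz: `(f g)_k = Σ_i choose k i f_i g_{k-i}`; or use
`iteratedDeriv` and the inductive class trick: the class of polynomial expressions in given chains is stable under derivation).
Chains with the same 0-th function agree (`HasDerivAt.unique`).  `log cosh`: `F (k+1) = P_k (tanh x)` with polynomials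
`P_0 = X`, `P_{k+1} = P_k' (1 - X²)`; `F2 = 1 - tanh² > 0`, `W = -2 (1-ζ) F2²`.
Source step: `V' 1 = V 1 + κ (F3/2 + ζ F1 F2)`, `V' 2 = V 2 + κ (F4/2 + ζ (F1 F3 + F2²))`, hence `E' = E + κ W / 2` and
`Z' - V'1²/F2 - E'²/W = Z - V1²/F2 - E²/W` (`field_simp; ring`).
-/

set_option autoImplicit false

namespace Crest.Agent.R164

/-- polynomial expressions in a set of functions -/
inductive CSrcCl (B : Set (ℝ → ℝ)) : (ℝ → ℝ) → Prop
  | base {f : ℝ → ℝ} (h : f ∈ B) : CSrcCl B f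
  | const (c : ℝ) : CSrcCl B fun _ => c
  | add {f g : ℝ → ℝ} (hf : CSrcCl B f) (hg : CSrcCl B g) : CSrcCl B fun x => f x + g x
  | mul {f g : ℝ → ℝ} (hf : CSrcCl B f) (hg : CSrcCl B g) : CSrcCl B fun x => f x * g x

theorem CSrcCl.step {B : Set (ℝ → ℝ)}
    (hB : ∀ f ∈ B, (∃ C : ℝ, ∀ x, |f x| ≤ C) ∧ ∃ g, CSrcCl B g ∧ ∀ x, HasDerivAt f (g x) x)
    {f : ℝ → ℝ} (hf : CSrcCl B f) :
    (∃ C : ℝ, ∀ x, |f x| ≤ C) ∧ ∃ g, CSrcCl B g ∧ ∀ x, HasDerivAt f (g x) x := by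
  induction hf with
  | base h => exact hB _ h
  | const c => exact ⟨⟨|c|, fun _ => le_rfl⟩, _, .const 0, fun x => hasDerivAt_const x c⟩
  | add _ _ ihf ihg =>
    obtain ⟨⟨C, hC⟩, f', hf', hd⟩ := ihf
    obtain ⟨⟨D, hD⟩, g', hg', he⟩ := ihg
    exact ⟨⟨C + D, fun x => (abs_add_le _ _).trans (add_le_add (hC x) (hD x))⟩, _, .add hf' hg',
      fun x => (hd x).add (he x)⟩
  | mul hf hg ihf ihg =>
    obtain ⟨⟨C, hC⟩, f', hf', hd⟩ := ihf
    obtain ⟨⟨D, hD⟩, g', hg', he⟩ := ihg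
    refine ⟨⟨C * D, fun x => ?_⟩, _, .add (.mul hf' hg) (.mul hf hg'), fun x => (hd x).mul (he x)⟩
    rw [abs_mul]
    exact mul_le_mul (hC x) (hD x) (abs_nonneg _) ((abs_nonneg _).trans (hC x))

theorem CSrcCl.chain {B : Set (ℝ → ℝ)}
    (hB : ∀ f ∈ B, (∃ C : ℝ, ∀ x, |f x| ≤ C) ∧ ∃ g, CSrcCl B g ∧ ∀ x, HasDerivAt f (g x) x)
    {f : ℝ → ℝ} (hf : CSrcCl B f) : ∃ T : ℕ → ℝ → ℝ, T 0 = f ∧ Ch T ∧ Bd T := by
  have h1 : ∀ g : {g // CSrcCl B g}, ∃ g' : {g // CSrcCl B g}, ∀ x, HasDerivAt g.1 (g'.1 x) x := by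
    intro g
    obtain ⟨g', h1, h2⟩ := (CSrcCl.step hB g.2).2
    exact ⟨⟨g', h1⟩, h2⟩
  choose D hD using h1
  refine ⟨fun k => (D^[k] ⟨f, hf⟩).1, rfl, fun k x => ?_, fun k => (CSrcCl.step hB (D^[k] ⟨f, hf⟩).2).1⟩
  simp only [Function.iterate_succ_apply']
  exact hD _ x

theorem CSrc_next {T : ℕ → ℝ → ℝ} (hT : Ch T) (k : ℕ) {g g' : ℝ → ℝ} (h : ∀ x, T k x = g x)
    (hd : ∀ x, HasDerivAt g (g' x) x) (x : ℝ) : T (k + 1) x = g' x := by
  have h1 := hT k x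
  rw [show T k = g from funext h] at h1
  exact h1.unique (hd x)

theorem CSrc_tanh (x : ℝ) : HasDerivAt Real.tanh (1 - Real.tanh x ^ 2) x := by
  have h1 := (Real.hasDerivAt_sinh x).div (Real.hasDerivAt_cosh x) (Real.cosh_pos x).ne'
  have h2 : Real.tanh = Real.sinh / Real.cosh := by
    funext y; rw [Real.tanh_eq_sinh_div_cosh]; rfl
  rw [h2]
  refine h1.congr_deriv ?_
  have := (Real.cosh_pos x).ne'
  simp only [Pi.div_apply]
  field_simp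

theorem CSrc_tanh_sq (x : ℝ) : Real.tanh x ^ 2 < 1 := by
  rw [Real.tanh_eq_sinh_div_cosh, div_pow, div_lt_one (pow_pos (Real.cosh_pos x) 2), Real.cosh_sq]
  linarith

theorem CSrc_lc (x : ℝ) : HasDerivAt lc (Real.tanh x) x := by
  rw [Real.tanh_eq_sinh_div_cosh]
  exact (Real.hasDerivAt_cosh x).log (Real.cosh_pos x).ne'

theorem CSrc_W_neg {ζ : ℝ} {J : Jet} (h : Good ζ J) (x : ℝ) : J.W ζ x < 0 := by
  obtain ⟨c, hc, h1⟩ := h.neg
  have := mul_pos hc (pow_pos (h.pos x) 2)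
  linarith [h1 x]

theorem good_init : ∃ J : Jet, J.F 0 = lc ∧ (∀ x, J.V 0 x = 0) ∧ (∀ x, J.Z 0 x = 0) ∧
    ∀ ζ : ℝ, 0 < ζ → ζ < 1 → Good ζ J := by
  obtain ⟨T, hT0, hT, hTb⟩ := CSrcCl.chain (B := {Real.tanh}) (f := Real.tanh) (by
    rintro _ rfl
    refine ⟨⟨1, fun x => ?_⟩, _, .add (.const 1) (.mul (.const (-1)) (.mul (.base rfl) (.base rfl))),
      fun x => ?_⟩
    · exact (sq_le_one_iff_abs_le_one _).1 (CSrc_tanh_sq x).le
    · convert CSrc_tanh x using 1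
      ring) (.base rfl)
  have h1 : ∀ x, T 1 x = 1 - Real.tanh x ^ 2 :=
    CSrc_next hT 0 (fun x => congrFun hT0 x) CSrc_tanh
  have h2 : ∀ x, T 2 x = -2 * Real.tanh x * (1 - Real.tanh x ^ 2) :=
    CSrc_next hT 1 h1 fun x => by
      refine (((CSrc_tanh x).fun_pow 2).const_sub 1).congr_deriv ?_
      norm_num
  have h3 : ∀ x, T 3 x = (1 - Real.tanh x ^ 2) * (6 * Real.tanh x ^ 2 - 2) :=
    CSrc_next hT 2 h2 fun x => by
      refine (((CSrc_tanh x).const_mul (-2)).fun_mul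
        (((CSrc_tanh x).fun_pow 2).const_sub 1)).congr_deriv ?_
      norm_num
      ring
  have hz : Ch fun _ _ => (0 : ℝ) := fun _ x => hasDerivAt_const x 0
  have hb : Bd fun _ _ => (0 : ℝ) := fun _ => ⟨0, fun _ => by simp⟩
  have hF : Ch fun k => Nat.casesOn (motive := fun _ => ℝ → ℝ) k lc T := by
    intro k x
    cases k with
    | zero =>
      change HasDerivAt lc (T 0 x) x
      rw [hT0]; exact CSrc_lc x
    | succ k => exact hT k x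
  refine ⟨⟨fun k => Nat.casesOn (motive := fun _ => ℝ → ℝ) k lc T, fun _ _ => 0, fun _ _ => 0, hF,
    hz, hz, hTb, hb, hb⟩, rfl, fun _ => rfl, fun _ => rfl, fun ζ _ hζ => ?_⟩
  have hs : ∀ x, 0 < 1 - Real.tanh x ^ 2 := fun x => sub_pos.2 (CSrc_tanh_sq x)
  refine ⟨fun x => ?_, ⟨6, fun x => ?_⟩, ⟨2 * (1 - ζ), by linarith, fun x => ?_⟩,
    ⟨0, le_rfl, fun x => ?_⟩, fun x => ?_⟩
  · change 0 < T 1 x
    rw [h1]; exact hs x
  · change |T 2 x| ≤ 6 * T 1 x ∧ |T 3 x| ≤ 6 * T 1 x ∧ |(0 : ℝ)| ≤ 6 * T 1 x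
    rw [h1, h2, h3]
    have h4 := hs x
    have h5 := abs_le.1 ((sq_le_one_iff_abs_le_one _).1 (CSrc_tanh_sq x).le)
    have h6 := sq_nonneg (Real.tanh x)
    refine ⟨abs_le.2 ⟨?_, ?_⟩, abs_le.2 ⟨?_, ?_⟩, ?_⟩
    · nlinarith
    · nlinarith
    · nlinarith
    · nlinarith
    · rw [abs_zero]; linarith
  · change T 3 x - T 2 x ^ 2 / T 1 x + 2 * ζ * T 1 x ^ 2 ≤ -(2 * (1 - ζ)) * T 1 x ^ 2
    rw [h1, h2, h3]
    have h4 := (hs x).ne'
    apply le_of_eq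
    field_simp
    ring
  · simp [Jet.E]
  · simp [Jet.E]

theorem Good.mono {ζ ζ' : ℝ} {J : Jet} (h : Good ζ J) (hle : ζ' ≤ ζ) : Good ζ' J := by
  have hW : ∀ x, J.W ζ' x ≤ J.W ζ x := by
    intro x
    unfold Jet.W
    have := mul_le_mul_of_nonneg_right hle (sq_nonneg (J.F 2 x))
    linarith
  obtain ⟨c, hc, h1⟩ := h.neg
  obtain ⟨C, hC, h2⟩ := h.domE
  refine ⟨h.pos, h.dom, ⟨c, hc, fun x => (hW x).trans (h1 x)⟩, ⟨C, hC, fun x => ?_⟩, fun x => ?_⟩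
  · have := mul_le_mul_of_nonneg_left (hW x) hC
    linarith [h2 x]
  · have h3 := h.main x
    have h4 := CSrc_W_neg h x
    have h5 : J.E x ^ 2 / (-J.W ζ' x) ≤ J.E x ^ 2 / (-J.W ζ x) :=
      div_le_div_of_nonneg_left (sq_nonneg _) (by linarith) (by linarith [hW x])
    rw [div_neg, div_neg] at h5
    linarith

theorem exists_src (ζ κ : ℝ) (J : Jet) : ∃ J' : Jet, Src ζ κ J J' := by
  let B : Set (ℝ → ℝ) := {f | (∃ k, f = J.F (k + 1)) ∨ (∃ k, f = J.V k) ∨ ∃ k, f = J.Z k}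
  have hF : ∀ k, CSrcCl B (J.F (k + 1)) := fun k => .base (Or.inl ⟨k, rfl⟩)
  have hV : ∀ k, CSrcCl B (J.V k) := fun k => .base (Or.inr (Or.inl ⟨k, rfl⟩))
  have hZ : ∀ k, CSrcCl B (J.Z k) := fun k => .base (Or.inr (Or.inr ⟨k, rfl⟩))
  have hB : ∀ f ∈ B, (∃ C : ℝ, ∀ x, |f x| ≤ C) ∧ ∃ g, CSrcCl B g ∧ ∀ x, HasDerivAt f (g x) x := by
    rintro _ (⟨k, rfl⟩ | ⟨k, rfl⟩ | ⟨k, rfl⟩)
    · exact ⟨J.bdF k, _, hF (k + 1), J.chF (k + 1)⟩
    · exact ⟨J.bdV k, _, hV (k + 1), J.chV k⟩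
    · exact ⟨J.bdZ k, _, hZ (k + 1), J.chZ k⟩
  obtain ⟨V', hV0, hVc, hVb⟩ := CSrcCl.chain hB
    ((hV 0).add ((CSrcCl.const (κ / 2)).mul ((hF 1).add
      ((CSrcCl.const ζ).mul ((hF 0).mul (hF 0))))))
  obtain ⟨Z', hZ0, hZc, hZb⟩ := CSrcCl.chain hB
    (((hZ 0).add ((CSrcCl.const κ).mul ((hV 2).add
      ((CSrcCl.const (2 * ζ)).mul ((hF 0).mul (hV 1)))))).add
      ((CSrcCl.const (κ ^ 2 / 2)).mul ((((CSrcCl.const (1 / 2)).mul (hF 3)).add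
        ((CSrcCl.const ζ).mul (((hF 0).mul (hF 2)).add ((hF 1).mul (hF 1))))).add
        ((CSrcCl.const (2 * ζ)).mul ((hF 0).mul (((CSrcCl.const (1 / 2)).mul (hF 2)).add
          ((CSrcCl.const ζ).mul ((hF 0).mul (hF 1)))))))))
  refine ⟨⟨J.F, V', Z', J.chF, hVc, hZc, J.bdF, hVb, hZb⟩, rfl, fun x => ?_, fun x => ?_⟩
  · change V' 0 x = _
    rw [hV0]
    ring
  · change Z' 0 x = _
    rw [hZ0]
    ring

theorem Src.good {ζ κ : ℝ} {J J' : Jet} (hs : Src ζ κ J J') (h : Good ζ J) : Good ζ J' := by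
  have hV1 : ∀ x, J'.V 1 x = J.V 1 x + κ * (J.F 3 x / 2 + ζ * (J.F 1 x * J.F 2 x)) :=
    CSrc_next J'.chV 0 hs.V fun x => by
      refine ((J.chV 0 x).fun_add ((((J.chF 2 x).fun_add
        (((J.chF 1 x).fun_pow 2).const_mul ζ)).div_const 2).const_mul κ)).congr_deriv ?_
      norm_num
      left
      ring
  have hV2 : ∀ x, J'.V 2 x =
      J.V 2 x + κ * (J.F 4 x / 2 + ζ * (J.F 2 x * J.F 2 x + J.F 1 x * J.F 3 x)) :=
    CSrc_next J'.chV 1 hV1 fun x =>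
      (J.chV 1 x).add ((((J.chF 3 x).div_const 2).add
        (((J.chF 1 x).mul (J.chF 2 x)).const_mul ζ)).const_mul κ)
  have hW : ∀ x, J'.W ζ x = J.W ζ x := fun x => by simp only [Jet.W, hs.F]
  have hE : ∀ x, J'.E x = J.E x + κ * J.W ζ x / 2 := fun x => by
    have := (h.pos x).ne'
    simp only [Jet.E, Jet.W, hs.F, hV1, hV2]
    field_simp
    ring
  obtain ⟨C, hC⟩ := h.dom
  obtain ⟨D, hD⟩ := J.bdF 0
  obtain ⟨C2, hC2, hC3⟩ := h.domE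
  have hC0 : 0 ≤ C := by
    have h1 := (abs_nonneg _).trans (hC 0).1
    exact nonneg_of_mul_nonneg_left h1 (h.pos 0)
  have hD0 : 0 ≤ D := (abs_nonneg _).trans (hD 0)
  refine ⟨fun x => by rw [hs.F]; exact h.pos x, ⟨C + |κ| * (C / 2 + |ζ| * D), fun x => ?_⟩, ?_,
    ⟨C2 + |κ| / 2, by positivity, fun x => ?_⟩, fun x => ?_⟩
  · rw [hs.F, hV1]
    have h1 := h.pos x
    have h2 : 0 ≤ |κ| * (C / 2 + |ζ| * D) * J.F 2 x := by positivity
    obtain ⟨h3, h4, h5⟩ := hC x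
    refine ⟨by nlinarith, by nlinarith, ?_⟩
    have h6 : |J.F 3 x / 2 + ζ * (J.F 1 x * J.F 2 x)| ≤ (C / 2 + |ζ| * D) * J.F 2 x := by
      refine (abs_add_le _ _).trans ?_
      rw [abs_div, abs_mul, abs_mul, abs_of_pos h1, abs_two]
      have h7 : |ζ| * (|J.F 1 x| * J.F 2 x) ≤ |ζ| * (D * J.F 2 x) :=
        mul_le_mul_of_nonneg_left (mul_le_mul_of_nonneg_right (hD x) h1.le) (abs_nonneg _)
      nlinarith
    refine (abs_add_le _ _).trans ?_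
    rw [abs_mul]
    have h7 := mul_le_mul_of_nonneg_left h6 (abs_nonneg κ)
    nlinarith
  · simp only [hW, hs.F]
    exact h.neg
  · rw [hW, hE]
    have h1 := CSrc_W_neg h x
    refine (abs_add_le _ _).trans ?_
    rw [abs_div, abs_mul, abs_of_neg h1, abs_two]
    linarith [hC3 x]
  · have h1 := (CSrc_W_neg h x).ne
    have h2 := (h.pos x).ne'
    have h3 := h.main x
    rw [hW, hE, hs.Z, hV1, hs.F]
    have h4 : (J.E x + κ * J.W ζ x / 2) ^ 2 / J.W ζ x =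
        J.E x ^ 2 / J.W ζ x + κ * J.E x + κ ^ 2 * J.W ζ x / 4 := by
      field_simp
      ring
    rw [h4]
    refine le_of_eq_of_le ?_ h3
    generalize J.E x ^ 2 / J.W ζ x = q
    simp only [Jet.E, Jet.W]
    field_simp
    ring

theorem Good.root {ζ : ℝ} {J : Jet} (h : Good ζ J) (x : ℝ) : J.Z 0 x - J.V 1 x ^ 2 / J.F 2 x ≤ 0 := by
  have h1 := h.main x
  have h2 := div_nonpos_of_nonneg_of_nonpos (sq_nonneg (J.E x)) (CSrc_W_neg h x).le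
  linarith

end Crest.Agent.R164
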