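import Crest.Agent.R164.CHeat
import Crest.Agent.R164.CGood
import Crest.Agent.R164.CSrc
import Crest.Agent.R164.CExp

/-!
Row 164, task R164-CFin: the constrained one-site value is concave along segments of variance profiles.

PLAN.  `seg Z s` is admissible and sorted for `s ∈ [0,1]`.  Fix `s ∈ (0,1)`.  Induction on `Z`: there is a jet `J` with `J.F 0 = Phi (seg Z s)`,
`Exp2 (fun t => Phi (seg Z (s + t))) J` and `Good ζ J` for all `0 < ζ < 1` below all exponents of `Z`.  Step: if the variance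
`(1-s) v0 + s v1` vanishes then `v0 = v1 = 0` and nothing changes (`gaussOp_zero_var`); otherwise `exists_flow`, `Flow.good`,
`exists_src` (`κ = v1 - v0`), `Src.good`, `exp2_step`, `Good.mono`.
Conclusion: `b₀` from `exists_min` at `s` (so `J.F 1 b₀ = m`), `a = V1 b₀ / F2 b₀`,
`ellm (seg Z (s+t)) m ≤ ell (seg Z (s+t)) (b₀ - a t) - (b₀ - a t) m`, Taylor in `x` for `F 0` (order 2, `F 3` bounded), `V 0` (order 1),
`Z 0` (order 0); the `t²` coefficient is `(Z0 - V1²/F2)/2 ≤ 0` (`Good.root`); `vs (seg Z s)` is affine in `s`.  Continuity in `s` from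
`Phi_lip_v` (uniform in `b`).  `concave_of_peano`.
-/

set_option autoImplicit false

namespace Crest.Agent.R164

open Filter Topology Crest.ProbabilityR.InvariantGlass

/-- triples (exponent, initial variance, final variance) -/
def seg (Z : List (ℝ × ℝ × ℝ)) (s : ℝ) : List (ℝ × ℝ) :=
  Z.map fun t => (t.1, (1 - s) * t.2.1 + s * t.2.2)

theorem cfin_adm {Z : List (ℝ × ℝ × ℝ)} (hZ : ∀ t ∈ Z, 0 < t.1 ∧ t.1 < 1 ∧ 0 ≤ t.2.1 ∧ 0 ≤ t.2.2) {s : ℝ}
    (hs : s ∈ Set.Icc (0 : ℝ) 1) : Adm (seg Z s) := by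
  intro p hp
  obtain ⟨t, ht, rfl⟩ := List.mem_map.1 hp
  obtain ⟨h1, h2, h3, h4⟩ := hZ t ht
  exact ⟨h1.le, h2.le, add_nonneg (mul_nonneg (sub_nonneg.2 hs.2) h3) (mul_nonneg hs.1 h4)⟩

theorem cfin_vs (Z : List (ℝ × ℝ × ℝ)) : ∃ B : ℝ, ∀ s t, vs (seg Z (s + t)) = vs (seg Z s) + B * t := by
  induction Z with
  | nil => exact ⟨0, fun s t => by simp [vs, seg]⟩
  | cons p Z ih =>
    obtain ⟨B, hB⟩ := ih
    refine ⟨B + (p.2.2 - p.2.1), fun s t => ?_⟩
    have h := hB s t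
    simp only [vs, seg, List.map_cons, List.sum_cons] at h ⊢
    rw [h]
    ring

theorem cfin_sum (Z : List (ℝ × ℝ × ℝ)) : ∃ K : ℝ, ∀ s s' : ℝ,
    (Z.map fun t => |((1 - s) * t.2.1 + s * t.2.2) - ((1 - s') * t.2.1 + s' * t.2.2)|).sum = K * |s - s'| := by
  induction Z with
  | nil => exact ⟨0, fun s t => by simp⟩
  | cons p Z ih =>
    obtain ⟨K, hK⟩ := ih
    refine ⟨K + |p.2.2 - p.2.1|, fun s s' => ?_⟩
    rw [List.map_cons, List.sum_cons, hK, add_mul, add_comm, ← abs_mul]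
    congr 2
    ring

theorem cfin_low (Z : List (ℝ × ℝ × ℝ)) (hZ : ∀ t ∈ Z, 0 < t.1) :
    ∃ ζ : ℝ, 0 < ζ ∧ ζ < 1 ∧ ∀ p ∈ Z, ζ ≤ p.1 := by
  induction Z with
  | nil => exact ⟨1 / 2, by norm_num, by norm_num, by simp⟩
  | cons p Z ih =>
    obtain ⟨ζ, h0, h1, h2⟩ := ih fun t ht => hZ t (List.mem_cons_of_mem _ ht)
    refine ⟨min ζ p.1, lt_min h0 (hZ p List.mem_cons_self), (min_le_left _ _).trans_lt h1, fun q hq => ?_⟩
    rcases List.mem_cons.1 hq with rfl | hq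
    · exact min_le_right _ _
    · exact (min_le_left _ _).trans (h2 q hq)

theorem cfin_ev {s : ℝ} (hs : s ∈ Set.Ioo (0 : ℝ) 1) : ∀ᶠ t in 𝓝 (0 : ℝ), s + t ∈ Set.Icc (0 : ℝ) 1 := by
  have h : Continuous fun t : ℝ => s + t := by fun_prop
  exact h.continuousAt.eventually_mem (by simpa using Icc_mem_nhds hs.1 hs.2)

theorem cfin_cont {f : ℝ → ℝ} (h : Lip1 f) : Continuous f :=
  (LipschitzWith.of_dist_le' (K := 1) fun x y => by simpa [Real.dist_eq] using h x y).continuous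

theorem cfin_jet {s : ℝ} (hs : s ∈ Set.Ioo (0 : ℝ) 1) (Z : List (ℝ × ℝ × ℝ))
    (hZ : ∀ t ∈ Z, 0 < t.1 ∧ t.1 < 1 ∧ 0 ≤ t.2.1 ∧ 0 ≤ t.2.2) (hp : Z.Pairwise fun p q => p.1 ≤ q.1) :
    ∃ J : Jet, J.F 0 = Phi (seg Z s) ∧ Exp2 (fun t => Phi (seg Z (s + t))) J ∧
      ∀ ζ : ℝ, 0 < ζ → ζ < 1 → (∀ p ∈ Z, ζ ≤ p.1) → Good ζ J := by
  induction Z with
  | nil =>
    obtain ⟨J, h0, h1, h2, h3⟩ := good_init
    refine ⟨J, h0, fun ε hε => Eventually.of_forall fun t x => ?_, fun ζ h4 h5 _ => h3 ζ h4 h5⟩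
    rw [h0, h1, h2]
    simp only [seg, List.map_nil, Phi_nil, sub_self, mul_zero, abs_zero]
    positivity
  | cons p Z ih =>
    have hZ' := fun t ht => hZ t (List.mem_cons_of_mem _ ht)
    obtain ⟨J, h0, h1, h2⟩ := ih hZ' (List.pairwise_cons.1 hp).2
    obtain ⟨p0, p1, p2, p3⟩ := hZ p List.mem_cons_self
    have hc : ∀ s', Phi (seg (p :: Z) s') = gaussOp p.1 ((1 - s') * p.2.1 + s' * p.2.2) (Phi (seg Z s')) :=
      fun _ => rfl
    have q1 := mul_nonneg (sub_nonneg.2 hs.2.le) p2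
    have q2 := mul_nonneg hs.1.le p3
    rcases (add_nonneg q1 q2).eq_or_lt with hv | hv
    · have e1 : p.2.1 = 0 := by
        have : (1 - s) * p.2.1 = 0 := by linarith
        exact (mul_eq_zero.1 this).resolve_left (sub_pos.2 hs.2).ne'
      have e2 : p.2.2 = 0 := by
        have : s * p.2.2 = 0 := by linarith
        exact (mul_eq_zero.1 this).resolve_left hs.1.ne'
      simp only [hc, e1, e2, mul_zero, add_zero, gaussOp_zero_var]
      exact ⟨J, h0, h1, fun ζ h3 h4 h5 => h2 ζ h3 h4 fun q hq => h5 q (List.mem_cons_of_mem _ hq)⟩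
    · obtain ⟨fl⟩ := exists_flow p0 J
      obtain ⟨J', hJ'⟩ := exists_src p.1 (p.2.2 - p.2.1) (fl.jet ((1 - s) * p.2.1 + s * p.2.2))
      have hg := hJ'.good (fl.good p0 (h2 p.1 p0 p1 (List.pairwise_cons.1 hp).1) hv.le)
      refine ⟨J', ?_, ?_, fun ζ _ _ h5 => hg.mono (h5 p List.mem_cons_self)⟩
      · rw [hJ'.F, hc, ← h0]
        exact fl.F0 _
      · have h3 := exp2_step p0 hv fl hJ' h1
          ((cfin_ev hs).mono fun t ht => cfin_cont (Phi_lip (cfin_adm hZ' ht)))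
        convert h3 using 2 with t
        rw [hc]
        congr 1
        ring

theorem concave_ellm (Z : List (ℝ × ℝ × ℝ)) (hZ : ∀ t ∈ Z, 0 < t.1 ∧ t.1 < 1 ∧ 0 ≤ t.2.1 ∧ 0 ≤ t.2.2)
    (hs : Z.Pairwise fun p q => p.1 ≤ q.1) {m : ℝ} (hm : |m| < 1) :
    ConcaveOn ℝ (Set.Icc 0 1) fun s => ellm (seg Z s) m := by
  obtain ⟨B, hB⟩ := cfin_vs Z
  refine concave_of_peano ?_ fun s hs' => ?_
  · obtain ⟨K, hK⟩ := cfin_sum Z
    refine (LipschitzOnWith.of_le_add_mul' (K / 2 + |B| / 2) fun s h1 s' h2 => ?_).continuousOn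
    obtain ⟨b, hb, -⟩ := exists_min (cfin_adm hZ h2) hm
    have h3 := ellm_le (cfin_adm hZ h1) hm b
    have h4 := Phi_lip_v Z (fun t => t.1) (fun t => (1 - s) * t.2.1 + s * t.2.2)
      (fun t => (1 - s') * t.2.1 + s' * t.2.2) (cfin_adm hZ h1) (cfin_adm hZ h2)
      (List.pairwise_map.2 hs) b
    rw [hK] at h4
    have h5 := hB s' (s - s')
    rw [add_sub_cancel] at h5
    have h6 := neg_abs_le (B * (s - s'))
    rw [abs_mul] at h6
    have h7 : Phi (seg Z s) b - Phi (seg Z s') b ≤ K * |s - s'| / 2 := (abs_le.1 h4).2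
    rw [hb, Real.dist_eq]
    unfold ell at h3 ⊢
    linarith
  · obtain ⟨J, h0, h1, h2⟩ := cfin_jet hs' Z hZ hs
    obtain ⟨ζ, z0, z1, z2⟩ := cfin_low Z fun t ht => (hZ t ht).1
    have hg := h2 ζ z0 z1 z2
    have hA := cfin_adm hZ (Set.Ioo_subset_Icc_self hs')
    obtain ⟨b, hb, -⟩ := exists_min hA hm
    have hF1 : J.F 1 b = m := by
      have h3 : IsLocalMin (fun x => J.F 0 x - x * m) b := by
        refine Eventually.of_forall fun x => ?_
        have h4 := ellm_le hA hm x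
        rw [hb] at h4
        unfold ell at h4
        simp only [h0]
        linarith
      have h4 := h3.hasDerivAt_eq_zero ((J.chF 0 b).sub (hasDerivAt_mul_const m))
      linarith
    set κ := -(J.V 1 b / J.F 2 b) with hκ
    have t2 := O2.of_t2 (P := Unit) (v := b)
      (f := fun u _ => J.F 0 u - J.F 0 b - (u - b) * J.F 1 b - (u - b) ^ 2 / 2 * J.F 2 b) κ
      fun ε hε => (cexp_peano2 (Eventually.of_forall (J.chF 0)) (Eventually.of_forall (J.chF 1))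
        (J.chF 2 b).continuousAt ε hε).mono fun u hu _ => hu
    have t1 := O2.of_t1 (P := Unit) (v := b) (f := fun u _ => J.V 0 u - J.V 0 b - (u - b) * J.V 1 b) κ
      fun ε hε => (cexp_peano1 (Eventually.of_forall (J.chV 0)) (J.chV 1 b).continuousAt ε hε).mono
        fun u hu _ => hu
    have t0 := O2.of_t0 (P := Unit) (v := b) (f := fun u _ => J.Z 0 u - J.Z 0 b) κ fun ε hε => by
      filter_upwards [Metric.tendsto_nhds.1 (J.chZ 0 b).continuousAt ε hε] with u hu _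
      rw [Real.dist_eq] at hu
      exact hu.le
    have t3 : O2 fun t (_ : Unit) => Phi (seg Z (s + t)) (b + κ * t) - J.F 0 (b + κ * t) -
        t * J.V 0 (b + κ * t) - t ^ 2 / 2 * J.Z 0 (b + κ * t) := fun ε hε =>
      (h1 ε hε).mono fun t ht _ => ht _
    have h := ((t3.add t2).add t1).add (t0.cmul (1 / 2))
    refine ⟨J.V 0 b - B / 2, fun ε hε => ?_⟩
    filter_upwards [h ε hε, cfin_ev hs'] with t h3 h4
    have h5 := (abs_le.1 (h3 ())).2
    have h6 := ellm_le (cfin_adm hZ h4) hm (b + κ * t)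
    have h7 := mul_nonneg (sq_nonneg t) (neg_nonneg.2 (hg.root b))
    have h8 : κ ^ 2 * J.F 2 b = J.V 1 b ^ 2 / J.F 2 b := by
      have := (hg.pos b).ne'
      rw [hκ]
      field_simp
    have h9 : κ * J.V 1 b = -(J.V 1 b ^ 2 / J.F 2 b) := by
      rw [hκ]
      ring
    have h10 : t ^ 2 * (κ ^ 2 * J.F 2 b) = t ^ 2 * (J.V 1 b ^ 2 / J.F 2 b) := by rw [h8]
    have h11 : t ^ 2 * (κ * J.V 1 b) = t ^ 2 * -(J.V 1 b ^ 2 / J.F 2 b) := by rw [h9]
    rw [hb]
    unfold ell at h6 ⊢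
    rw [hB] at h6
    rw [← h0, ← hF1] at *
    linarith

end Crest.Agent.R164
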