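import Mathlib

/-!
Row 164, helper of task R164-CHeat: Gaussian convolutions of functions of exponential growth, and a small algebra of
expressions with derivations.
-/

set_option autoImplicit false

namespace Crest.Agent.R164.HeatA

open MeasureTheory ProbabilityTheory Filter Topology

/-- continuous functions of exponential growth -/
def Gr (K : ℝ → ℝ) : Prop := Continuous K ∧ ∃ C L : ℝ, 0 ≤ C ∧ 0 ≤ L ∧ ∀ y, |K y| ≤ C * Real.exp (L * |y|)

noncomputable def W (K : ℝ → ℝ) (s x : ℝ) : ℝ := ∫ g, K (x + s * g) ∂gaussianReal 0 1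

theorem integrable_expabs (L : ℝ) : Integrable (fun g : ℝ => Real.exp (L * |g|)) (gaussianReal 0 1) :=
  integrable_exp_mul_abs (X := fun g : ℝ => g) (integrable_exp_mul_gaussianReal L)
    (integrable_exp_mul_gaussianReal (-L))

theorem abs_le_exp (g : ℝ) : |g| ≤ Real.exp |g| := by
  have := Real.add_one_le_exp |g|
  linarith

theorem Gr.bound {K : ℝ → ℝ} (hK : Gr K) (R : ℝ) :
    ∃ B L : ℝ, 0 ≤ B ∧ ∀ s x g : ℝ, |s| ≤ R → |x| ≤ R → |K (x + s * g)| ≤ B * Real.exp (L * |g|) := by
  obtain ⟨_, C, L, hC, hL, h⟩ := hK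
  refine ⟨C * Real.exp (L * R), L * R, by positivity, fun s x g hs hx => (h _).trans ?_⟩
  rw [mul_assoc, ← Real.exp_add]
  refine mul_le_mul_of_nonneg_left (Real.exp_le_exp.2 ?_) hC
  have h1 : |x + s * g| ≤ R + R * |g| := by
    calc |x + s * g| ≤ |x| + |s * g| := abs_add_le _ _
      _ = |x| + |s| * |g| := by rw [abs_mul]
      _ ≤ R + R * |g| := by
        have := mul_le_mul_of_nonneg_right hs (abs_nonneg g)
        linarith
  have := mul_le_mul_of_nonneg_left h1 hL
  linarith

theorem Gr.cont_comp {K : ℝ → ℝ} (hK : Gr K) (s x : ℝ) : Continuous fun g => K (x + s * g) :=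
  hK.1.comp (by fun_prop)

theorem Gr.integrable {K : ℝ → ℝ} (hK : Gr K) (s x : ℝ) :
    Integrable (fun g => K (x + s * g)) (gaussianReal 0 1) := by
  obtain ⟨B, L, _, h⟩ := hK.bound (max |s| |x|)
  refine ((integrable_expabs L).const_mul B).mono' (hK.cont_comp s x).aestronglyMeasurable
    (Eventually.of_forall fun g => ?_)
  exact h s x g (le_max_left _ _) (le_max_right _ _)

theorem mul_bound {B L g k : ℝ} (hB : 0 ≤ B) (h : |k| ≤ B * Real.exp (L * |g|)) :
    |g * k| ≤ B * Real.exp ((L + 1) * |g|) := by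
  rw [abs_mul, add_mul, one_mul, Real.exp_add]
  have h1 := abs_le_exp g
  have h2 := mul_le_mul h1 h (abs_nonneg _) (Real.exp_pos _).le
  linarith

theorem Gr.integrable_mul {K : ℝ → ℝ} (hK : Gr K) (s x : ℝ) :
    Integrable (fun g => g * K (x + s * g)) (gaussianReal 0 1) := by
  obtain ⟨B, L, hB, h⟩ := hK.bound (max |s| |x|)
  refine ((integrable_expabs (L + 1)).const_mul B).mono'
    (continuous_id.mul (hK.cont_comp s x)).aestronglyMeasurable (Eventually.of_forall fun g => ?_)
  exact mul_bound hB (h s x g (le_max_left _ _) (le_max_right _ _))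

theorem Gr.continuous_W {K : ℝ → ℝ} (hK : Gr K) : Continuous fun p : ℝ × ℝ => W K p.1 p.2 := by
  rw [continuous_iff_continuousAt]
  intro p
  obtain ⟨B, L, _, h⟩ := hK.bound (max |p.1| |p.2| + 1)
  refine continuousAt_of_dominated (bound := fun g => B * Real.exp (L * |g|))
    (Eventually.of_forall fun q => (hK.cont_comp q.1 q.2).aestronglyMeasurable) ?_
    ((integrable_expabs L).const_mul B) (Eventually.of_forall fun g => ?_)
  · have h1 : ∀ᶠ q : ℝ × ℝ in 𝓝 p, |q.1| < max |p.1| |p.2| + 1 :=
      (continuous_fst.abs.tendsto p).eventually (gt_mem_nhds (by have := le_max_left |p.1| |p.2|; linarith))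
    have h2 : ∀ᶠ q : ℝ × ℝ in 𝓝 p, |q.2| < max |p.1| |p.2| + 1 :=
      (continuous_snd.abs.tendsto p).eventually (gt_mem_nhds (by have := le_max_right |p.1| |p.2|; linarith))
    filter_upwards [h1, h2] with q hq1 hq2
    exact Eventually.of_forall fun g => h q.1 q.2 g hq1.le hq2.le
  · exact (hK.1.comp (by fun_prop : Continuous fun q : ℝ × ℝ => q.2 + q.1 * g)).continuousAt

theorem hasDerivAt_W_x {K K' : ℝ → ℝ} (hK : Gr K) (hK' : Gr K') (hd : ∀ y, HasDerivAt K (K' y) y) (s x : ℝ) :
    HasDerivAt (fun x => W K s x) (W K' s x) x := by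
  obtain ⟨B, L, _, h⟩ := hK'.bound (max |s| |x| + 1)
  refine (hasDerivAt_integral_of_dominated_loc_of_deriv_le (F := fun x g => K (x + s * g))
    (F' := fun x g => K' (x + s * g)) (bound := fun g => B * Real.exp (L * |g|))
    (Metric.ball_mem_nhds x one_pos)
    (Eventually.of_forall fun q => (hK.cont_comp s q).aestronglyMeasurable) (hK.integrable s x)
    (hK'.cont_comp s x).aestronglyMeasurable (Eventually.of_forall fun g y hy => ?_)
    ((integrable_expabs L).const_mul B) (Eventually.of_forall fun g y _ => ?_)).2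
  · refine h s y g (by have := le_max_left |s| |x|; linarith) ?_
    have h1 : |y - x| < 1 := by simpa [Real.dist_eq] using hy
    have h2 := abs_sub_abs_le_abs_sub y x
    have := le_max_right |s| |x|
    linarith
  · exact (hd (y + s * g)).comp_add_const y (s * g)

theorem hasDerivAt_W_s0 {K K' : ℝ → ℝ} (hK : Gr K) (hK' : Gr K') (hd : ∀ y, HasDerivAt K (K' y) y) (s x : ℝ) :
    HasDerivAt (fun s => W K s x) (∫ g, g * K' (x + s * g) ∂gaussianReal 0 1) s := by
  obtain ⟨B, L, hB, h⟩ := hK'.bound (max |s| |x| + 1)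
  refine (hasDerivAt_integral_of_dominated_loc_of_deriv_le (F := fun s g => K (x + s * g))
    (F' := fun s g => g * K' (x + s * g)) (bound := fun g => B * Real.exp ((L + 1) * |g|))
    (Metric.ball_mem_nhds s one_pos)
    (Eventually.of_forall fun q => (hK.cont_comp q x).aestronglyMeasurable) (hK.integrable s x)
    (continuous_id.mul (hK'.cont_comp s x)).aestronglyMeasurable (Eventually.of_forall fun g y hy => ?_)
    ((integrable_expabs (L + 1)).const_mul B) (Eventually.of_forall fun g y _ => ?_)).2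
  · refine mul_bound hB (h y x g ?_ (by have := le_max_right |s| |x|; linarith))
    have h1 : |y - s| < 1 := by simpa [Real.dist_eq] using hy
    have h2 := abs_sub_abs_le_abs_sub y s
    have := le_max_left |s| |x|
    linarith
  · have h1 : HasDerivAt (fun y : ℝ => x + y * g) g y := by
      simpa using ((hasDerivAt_id y).mul_const g).const_add x
    have h2 := (hd (x + y * g)).comp y h1
    rw [mul_comm] at h2
    exact h2

theorem integrable_vol {k : ℝ → ℝ} (h : Integrable k (gaussianReal 0 1)) :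
    Integrable (fun g => k g * gaussianPDFReal 0 1 g) := by
  rw [gaussianReal_of_var_ne_zero 0 one_ne_zero,
    integrable_withDensity_iff (measurable_gaussianPDF 0 1) (Eventually.of_forall fun _ => gaussianPDF_lt_top)] at h
  simpa using h

theorem hasDerivAt_pdf (g : ℝ) : HasDerivAt (gaussianPDFReal 0 1) (-(g * gaussianPDFReal 0 1 g)) g := by
  have h1 : HasDerivAt (fun x : ℝ => -(x - 0) ^ 2 / (2 * ((1 : NNReal) : ℝ))) (-g) g := by
    have := (((hasDerivAt_id' g).sub_const 0).fun_pow 2).fun_neg.div_const (2 * ((1 : NNReal) : ℝ))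
    refine this.congr_deriv ?_
    simp only [NNReal.coe_one]
    norm_num
    ring
  have h2 := h1.exp.const_mul (Real.sqrt (2 * Real.pi * ((1 : NNReal) : ℝ)))⁻¹
  rw [gaussianPDFReal_def]
  refine h2.congr_deriv ?_
  ring

/-- Gaussian integration by parts -/
theorem stein {k k' : ℝ → ℝ} (hd : ∀ y, HasDerivAt k (k' y) y) (h0 : Integrable k (gaussianReal 0 1))
    (h1 : Integrable k' (gaussianReal 0 1)) (h2 : Integrable (fun g => g * k g) (gaussianReal 0 1)) :
    ∫ g, g * k g ∂gaussianReal 0 1 = ∫ g, k' g ∂gaussianReal 0 1 := by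
  rw [integral_gaussianReal_eq_integral_smul one_ne_zero, integral_gaussianReal_eq_integral_smul one_ne_zero]
  have h := integral_mul_deriv_eq_deriv_mul_of_integrable (u := k) (u' := k') (v := gaussianPDFReal 0 1)
    (v' := fun g => -(g * gaussianPDFReal 0 1 g)) (fun x _ => hd x) (fun x _ => hasDerivAt_pdf x)
    (by
      have := (integrable_vol h2).neg
      refine this.congr (Eventually.of_forall fun g => ?_)
      simp only [Pi.neg_apply, Pi.mul_apply]; ring)
    (integrable_vol h1) (integrable_vol h0)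
  have e1 : ∫ x : ℝ, k x * -(x * gaussianPDFReal 0 1 x) = -∫ x : ℝ, gaussianPDFReal 0 1 x • (x * k x) := by
    rw [← integral_neg]; congr 1; ext x; simp only [smul_eq_mul]; ring
  have e2 : ∫ x : ℝ, k' x * gaussianPDFReal 0 1 x = ∫ x : ℝ, gaussianPDFReal 0 1 x • k' x := by
    congr 1; ext x; simp only [smul_eq_mul]; ring
  rw [e1, e2] at h
  linarith

theorem hasDerivAt_W_s {K K' K'' : ℝ → ℝ} (hK : Gr K) (hK' : Gr K') (hK'' : Gr K'')
    (hd : ∀ y, HasDerivAt K (K' y) y) (hd' : ∀ y, HasDerivAt K' (K'' y) y) (s x : ℝ) :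
    HasDerivAt (fun s => W K s x) (s * W K'' s x) s := by
  have h := hasDerivAt_W_s0 hK hK' hd s x
  rw [stein (k := fun g => K' (x + s * g)) (k' := fun g => s * K'' (x + s * g)) (fun y => ?_)
    (hK'.integrable s x) ((hK''.integrable s x).const_mul s) (hK'.integrable_mul s x),
    integral_const_mul] at h
  · exact h
  · have h1 : HasDerivAt (fun y : ℝ => x + s * y) s y := by
      simpa using ((hasDerivAt_id y).const_mul s).const_add x
    have h2 := (hd' (x + s * y)).comp y h1
    rw [mul_comm] at h2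
    exact h2

theorem hasDerivAt_W_u {K K' K'' : ℝ → ℝ} (hK : Gr K) (hK' : Gr K') (hK'' : Gr K'')
    (hd : ∀ y, HasDerivAt K (K' y) y) (hd' : ∀ y, HasDerivAt K' (K'' y) y) {u : ℝ} (hu : 0 < u) (x : ℝ) :
    HasDerivAt (fun u => W K (Real.sqrt u) x) (W K'' (Real.sqrt u) x / 2) u := by
  have h := (hasDerivAt_W_s hK hK' hK'' hd hd' (Real.sqrt u) x).comp u (Real.hasDerivAt_sqrt hu.ne')
  have hs : Real.sqrt u ≠ 0 := (Real.sqrt_pos.2 hu).ne'
  refine h.congr_deriv ?_
  field_simp

/-! ### expressions -/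

inductive Ex (α : Type) : Type
  | var (a : α) : Ex α
  | const (c : ℝ) : Ex α
  | add (p q : Ex α) : Ex α
  | mul (p q : Ex α) : Ex α

namespace Ex

variable {α : Type}

def ev (v : α → ℝ) : Ex α → ℝ
  | var a => v a
  | const c => c
  | add p q => ev v p + ev v q
  | mul p q => ev v p * ev v q

def der (d : α → Ex α) : Ex α → Ex α
  | var a => d a
  | const _ => const 0
  | add p q => add (der d p) (der d q)
  | mul p q => add (mul (der d p) q) (mul p (der d q))

theorem ev_hasDerivAt {d : α → Ex α} {v : ℝ → α → ℝ} {t : ℝ}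
    (h : ∀ a, HasDerivAt (fun t => v t a) (ev (v t) (d a)) t) (p : Ex α) :
    HasDerivAt (fun t => ev (v t) p) (ev (v t) (der d p)) t := by
  induction p with
  | var a => exact h a
  | const c => exact hasDerivAt_const t c
  | add p q hp hq => exact hp.add hq
  | mul p q hp hq => exact hp.mul hq

theorem ev_bdd {T : Type} {v : T → α → ℝ} (h : ∀ a, ∃ C : ℝ, ∀ t, |v t a| ≤ C) (p : Ex α) :
    ∃ C : ℝ, ∀ t, |ev (v t) p| ≤ C := by
  induction p with
  | var a => exact h a
  | const c => exact ⟨|c|, fun _ => le_rfl⟩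
  | add p q hp hq =>
    obtain ⟨C, hC⟩ := hp
    obtain ⟨D, hD⟩ := hq
    exact ⟨C + D, fun t => (abs_add_le _ _).trans (add_le_add (hC t) (hD t))⟩
  | mul p q hp hq =>
    obtain ⟨C, hC⟩ := hp
    obtain ⟨D, hD⟩ := hq
    refine ⟨C * D, fun t => ?_⟩
    show |ev (v t) p * ev (v t) q| ≤ C * D
    rw [abs_mul]
    exact mul_le_mul (hC t) (hD t) (abs_nonneg _) ((abs_nonneg _).trans (hC t))

theorem ev_cont {T : Type} [TopologicalSpace T] {v : T → α → ℝ} (h : ∀ a, Continuous fun t => v t a) (p : Ex α) :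
    Continuous fun t => ev (v t) p := by
  induction p with
  | var a => exact h a
  | const c => exact continuous_const
  | add p q hp hq => exact hp.add hq
  | mul p q hp hq => exact hp.mul hq

theorem ev_comm {d e : α → Ex α} {v : α → ℝ} (h : ∀ a, ev v (der d (e a)) = ev v (der e (d a))) (p : Ex α) :
    ev v (der d (der e p)) = ev v (der e (der d p)) := by
  induction p with
  | var a => exact h a
  | const c => rfl
  | add p q hp hq => simp only [der, ev, hp, hq]
  | mul p q hp hq => simp only [der, ev, hp, hq]; ring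

end Ex

end Crest.Agent.R164.HeatA
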