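import Crest.Agent.R164.CDefs
import Crest.Agent.R164.CHeat_A

/-!
Row 164, task R164-CHeat: existence of the flow of jets (smoothness of Gaussian convolutions).

PLAN.  Let `𝓒 h` mean: `h` has a chain of derivatives each bounded by `C exp (C |x|)`.  For such `h` put
`Wt h (s, x) = ∫ h (x + s g) dγ(g)`.  (1) `Wt h` has the Frechet derivative `(σ, ξ) ↦ σ s Wt h'' + ξ Wt h'`
(`hasFDerivAt_integral_of_dominated_of_fderiv_le`, and Gaussian integration by parts `∫ g k(g) = ∫ k'(g)`);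
by induction on `n` (`contDiff_succ_iff_fderiv`, for all `h` in the class) it is `ContDiff ℝ n`, so smooth.
(2) `e = exp (ζ F 0)`, `a = Wt e > 0`, `Φ = ζ⁻¹ log a`, `Vs = Wt (V 0 * e) / a`, `Zs = Wt ((Z 0 + ζ (V 0)²) e) / a - ζ Vs²` are smooth on `ℝ²`;
`px φ p = fderiv ℝ φ p (0,1)`, `ps φ p = fderiv ℝ φ p (1,0)` commute on smooth functions (`ContDiffAt.isSymmSndFDerivAt`),
`ps Φ = s (px² Φ + ζ (px Φ)²)`, `ps Vs = s (px² Vs + 2 ζ px Φ px Vs)`, `ps Zs = s (px² Zs + 2ζ px Φ px Zs + 2 ζ (px Vs)²)`;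
apply `px` repeatedly (Leibniz).  `F k u x = px^[k] Φ (√u, x)`; chain rule `d√u/du = 1/(2√u)`.
(3) Bounds: the inductive class generated (constants, `+`, `*`) by the quotients `Wt (h e)/a`, `h` with a bounded chain, consists of
bounded smooth functions and is stable under `px`: `px (Wt (h e)/a) = Wt ((h' + ζ F1 h) e)/a - ζ (Wt (h e)/a) (Wt (F1 e)/a)`.
(4) `F 2 = Et (F 2) + ζ (Et (F 1²) - (Et (F 1))²) > 0`.  At `u = 0` use uniqueness of derivative chains.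

Implementation: the classes are syntactic (`HeatA.Ex`); the variables of the outer expressions are the tilted expectations
`M p` of inner expressions `p`, and `∂_x`, `∂_u` are derivations that commute on the generators.
-/

set_option autoImplicit false

namespace Crest.Agent.R164

open MeasureTheory ProbabilityTheory Filter Topology Crest.ProbabilityR.InvariantGlass

namespace HeatA

open Ex

inductive IV : Type
  | f (k : ℕ) : IV
  | v (k : ℕ) : IV
  | z (k : ℕ) : IV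

def iv (J : Jet) (y : ℝ) : IV → ℝ
  | .f k => J.F (k + 1) y
  | .v k => J.V k y
  | .z k => J.Z k y

def di : IV → Ex IV
  | .f k => var (.f (k + 1))
  | .v k => var (.v (k + 1))
  | .z k => var (.z (k + 1))

def T (ζ : ℝ) (p : Ex IV) : Ex IV := add (der di p) (mul (mul (const ζ) (var (.f 0))) p)

def one : Ex IV := const 1

noncomputable def K (ζ : ℝ) (J : Jet) (p : Ex IV) (y : ℝ) : ℝ := ev (iv J y) p * Real.exp (ζ * J.F 0 y)

variable {ζ : ℝ} (J : Jet)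

theorem iv_der (y : ℝ) (a : IV) : HasDerivAt (fun y => iv J y a) (ev (iv J y) (di a)) y := by
  cases a with
  | f k => exact J.chF (k + 1) y
  | v k => exact J.chV k y
  | z k => exact J.chZ k y

theorem iv_bdd (a : IV) : ∃ C : ℝ, ∀ y, |iv J y a| ≤ C := by
  cases a with
  | f k => exact J.bdF k
  | v k => exact J.bdV k
  | z k => exact J.bdZ k

theorem K_der (p : Ex IV) (y : ℝ) : HasDerivAt (K ζ J p) (K ζ J (T ζ p) y) y := by
  have h := (ev_hasDerivAt (iv_der J y) p).mul ((J.chF 0 y).const_mul ζ).exp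
  refine h.congr_deriv ?_
  simp only [K, T, ev, iv]
  ring

theorem F0_bound : ∃ L : ℝ, 0 ≤ L ∧ ∀ y, |J.F 0 y| ≤ |J.F 0 0| + L * |y| := by
  obtain ⟨L, hL⟩ := J.bdF 0
  refine ⟨L, (abs_nonneg _).trans (hL 0), fun y => ?_⟩
  have h := Convex.norm_image_sub_le_of_norm_hasDerivWithin_le (f := J.F 0) (f' := J.F 1) (s := Set.univ) (C := L)
    (fun x _ => (J.chF 0 x).hasDerivWithinAt) (fun x _ => hL x) convex_univ (Set.mem_univ 0) (Set.mem_univ y)
  simp only [Real.norm_eq_abs, sub_zero] at h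
  have := abs_sub_abs_le_abs_sub (J.F 0 y) (J.F 0 0)
  linarith

theorem K_gr (hζ : 0 < ζ) (p : Ex IV) : Gr (K ζ J p) := by
  refine ⟨continuous_iff_continuousAt.2 fun y => (K_der J p y).continuousAt, ?_⟩
  obtain ⟨C, hC⟩ := ev_bdd (iv_bdd J) p
  obtain ⟨L, hL0, hL⟩ := F0_bound J
  have hC0 : 0 ≤ C := (abs_nonneg _).trans (hC 0)
  refine ⟨C * Real.exp (ζ * |J.F 0 0|), ζ * L, by positivity, by positivity, fun y => ?_⟩
  rw [K, abs_mul, abs_of_pos (Real.exp_pos _), mul_assoc, ← Real.exp_add]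
  refine mul_le_mul (hC y) (Real.exp_le_exp.2 ?_) (Real.exp_pos _).le hC0
  have h1 := mul_le_mul_of_nonneg_left ((le_abs_self _).trans (hL y)) hζ.le
  linarith

noncomputable def A (ζ : ℝ) (J : Jet) (p : Ex IV) (u x : ℝ) : ℝ := W (K ζ J p) (Real.sqrt u) x

theorem int_pos {k : ℝ → ℝ} (hk : Integrable k (gaussianReal 0 1)) (h : ∀ g, 0 < k g) :
    0 < ∫ g, k g ∂gaussianReal 0 1 := by
  rw [integral_pos_iff_support_of_nonneg (fun g => (h g).le) hk]
  have : Function.support k = Set.univ := Set.eq_univ_of_forall fun g => (h g).ne'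
  rw [this]
  simp

theorem A_one_pos (hζ : 0 < ζ) (u x : ℝ) : 0 < A ζ J one u x :=
  int_pos ((K_gr J hζ one).integrable _ _) fun g => by
    simp only [K, one, ev, one_mul]; exact Real.exp_pos _

theorem A_one_eq (u x : ℝ) :
    A ζ J one u x = ∫ g, Real.exp (ζ * J.F 0 (x + Real.sqrt u * g)) ∂gaussianReal 0 1 := by
  simp only [A, W, K, one, ev, one_mul]

theorem A_x (hζ : 0 < ζ) (p : Ex IV) (u x : ℝ) : HasDerivAt (fun x => A ζ J p u x) (A ζ J (T ζ p) u x) x :=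
  hasDerivAt_W_x (K_gr J hζ p) (K_gr J hζ _) (K_der J p) _ x

theorem A_u (hζ : 0 < ζ) (p : Ex IV) {u : ℝ} (hu : 0 < u) (x : ℝ) :
    HasDerivAt (fun u => A ζ J p u x) (A ζ J (T ζ (T ζ p)) u x / 2) u :=
  hasDerivAt_W_u (K_gr J hζ p) (K_gr J hζ _) (K_gr J hζ _) (K_der J p) (K_der J _) hu x

theorem A_cont (hζ : 0 < ζ) (p : Ex IV) : Continuous fun q : ℝ × ℝ => A ζ J p q.1 q.2 :=
  (K_gr J hζ p).continuous_W.comp (f := fun q : ℝ × ℝ => (Real.sqrt q.1, q.2)) (by fun_prop)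

theorem A_bd (hζ : 0 < ζ) (p : Ex IV) : ∃ C : ℝ, ∀ u x, |A ζ J p u x| ≤ C * A ζ J one u x := by
  obtain ⟨C, hC⟩ := ev_bdd (iv_bdd J) p
  refine ⟨C, fun u x => ?_⟩
  rw [A, A, W, W, ← integral_const_mul]
  rw [← Real.norm_eq_abs]
  refine norm_integral_le_of_norm_le (((K_gr J hζ one).integrable _ _).const_mul C)
    (Eventually.of_forall fun g => ?_)
  simp only [K, one, ev, one_mul, Real.norm_eq_abs, abs_mul, abs_of_pos (Real.exp_pos _)]
  exact mul_le_mul_of_nonneg_right (hC _) (Real.exp_pos _).le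

theorem A_zero (p : Ex IV) (x : ℝ) : A ζ J p 0 x = K ζ J p x := by
  simp [A, W]

/-- tilted expectations -/
noncomputable def M (ζ : ℝ) (J : Jet) (u x : ℝ) (p : Ex IV) : ℝ := A ζ J p u x / A ζ J one u x

def dx (ζ : ℝ) (p : Ex IV) : Ex (Ex IV) :=
  add (var (T ζ p)) (mul (const (-1)) (mul (var p) (var (T ζ one))))

noncomputable def du (ζ : ℝ) (p : Ex IV) : Ex (Ex IV) :=
  mul (const (1 / 2)) (add (var (T ζ (T ζ p))) (mul (const (-1)) (mul (var p) (var (T ζ (T ζ one))))))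

theorem M_x (hζ : 0 < ζ) (u x : ℝ) (p : Ex IV) :
    HasDerivAt (fun x => M ζ J u x p) (ev (M ζ J u x) (dx ζ p)) x := by
  have h0 := (A_one_pos J hζ u x).ne'
  refine ((A_x J hζ p u x).fun_div (A_x J hζ one u x) h0).congr_deriv ?_
  simp only [dx, ev, M]
  field_simp
  ring

theorem M_u (hζ : 0 < ζ) {u : ℝ} (hu : 0 < u) (x : ℝ) (p : Ex IV) :
    HasDerivAt (fun u => M ζ J u x p) (ev (M ζ J u x) (du ζ p)) u := by
  have h0 := (A_one_pos J hζ u x).ne'
  refine ((A_u J hζ p hu x).fun_div (A_u J hζ one hu x) h0).congr_deriv ?_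
  simp only [du, ev, M]
  field_simp
  ring

theorem M_cont (hζ : 0 < ζ) (p : Ex IV) : Continuous fun q : ℝ × ℝ => M ζ J q.1 q.2 p :=
  (A_cont J hζ p).div (A_cont J hζ one) fun q => (A_one_pos J hζ q.1 q.2).ne'

theorem M_bd (hζ : 0 < ζ) (p : Ex IV) : ∃ C : ℝ, ∀ q : ℝ × ℝ, |M ζ J q.1 q.2 p| ≤ C := by
  obtain ⟨C, hC⟩ := A_bd J hζ p
  refine ⟨C, fun q => ?_⟩
  have h0 := A_one_pos J hζ q.1 q.2
  rw [M, abs_div, abs_of_pos h0, div_le_iff₀ h0]
  exact hC _ _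

theorem M_zero (x : ℝ) (p : Ex IV) : M ζ J 0 x p = ev (iv J x) p := by
  have := (Real.exp_pos (ζ * J.F 0 x)).ne'
  simp only [M, A_zero, K, one, ev]
  field_simp

theorem comm (v : Ex IV → ℝ) (p : Ex IV) : ev v (der (dx ζ) (du ζ p)) = ev v (der (du ζ) (dx ζ p)) := by
  simp only [dx, du, der, ev]
  ring

noncomputable def G (ζ : ℝ) (J : Jet) (e : Ex (Ex IV)) (k : ℕ) (u x : ℝ) : ℝ :=
  ev (M ζ J u x) ((der (dx ζ))^[k] e)

noncomputable def H (ζ : ℝ) (J : Jet) (e : Ex (Ex IV)) (k : ℕ) (u x : ℝ) : ℝ :=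
  ev (M ζ J u x) (der (du ζ) ((der (dx ζ))^[k] e))

theorem G_x (hζ : 0 < ζ) (e : Ex (Ex IV)) (k : ℕ) (u x : ℝ) :
    HasDerivAt (G ζ J e k u) (G ζ J e (k + 1) u x) x := by
  rw [G, Function.iterate_succ_apply']
  exact ev_hasDerivAt (v := fun x => M ζ J u x) (M_x J hζ u x) _

theorem H_x (hζ : 0 < ζ) (e : Ex (Ex IV)) (k : ℕ) (u x : ℝ) :
    HasDerivAt (H ζ J e k u) (H ζ J e (k + 1) u x) x := by
  rw [H, Function.iterate_succ_apply', ← ev_comm (comm _)]
  exact ev_hasDerivAt (v := fun x => M ζ J u x) (M_x J hζ u x) _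

theorem G_u (hζ : 0 < ζ) (e : Ex (Ex IV)) (k : ℕ) {u : ℝ} (hu : 0 < u) (x : ℝ) :
    HasDerivAt (fun u => G ζ J e k u x) (H ζ J e k u x) u :=
  ev_hasDerivAt (v := fun u => M ζ J u x) (M_u J hζ hu x) _

theorem G_cont (hζ : 0 < ζ) (e : Ex (Ex IV)) (k : ℕ) : Continuous (Function.uncurry (G ζ J e k)) :=
  ev_cont (v := fun q : ℝ × ℝ => M ζ J q.1 q.2) (M_cont J hζ) _

theorem G_bd (hζ : 0 < ζ) (e : Ex (Ex IV)) (k : ℕ) : ∃ C : ℝ, ∀ u x, |G ζ J e k u x| ≤ C := by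
  obtain ⟨C, hC⟩ := ev_bdd (v := fun q : ℝ × ℝ => M ζ J q.1 q.2) (M_bd J hζ) ((der (dx ζ))^[k] e)
  exact ⟨C, fun u x => hC (u, x)⟩

theorem ch_unique {f g : ℕ → ℝ → ℝ} (hf : Ch f) (hg : Ch g) (h : f 0 = g 0) (k : ℕ) : f k = g k := by
  induction k with
  | zero => exact h
  | succ k ih =>
    funext x
    have h1 := hf k x
    rw [ih] at h1
    exact h1.unique (hg k x)

noncomputable def eF (ζ : ℝ) : Ex (Ex IV) := mul (const ζ⁻¹) (var (T ζ one))
def eV : Ex (Ex IV) := var (var (.v 0))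
def eZ (ζ : ℝ) : Ex (Ex IV) :=
  add (var (add (var (.z 0)) (mul (const ζ) (mul (var (.v 0)) (var (.v 0)))))) (mul (const (-ζ)) (mul eV eV))

noncomputable def FF (ζ : ℝ) (J : Jet) : ℕ → ℝ → ℝ → ℝ
  | 0 => fun u x => ζ⁻¹ * Real.log (A ζ J one u x)
  | k + 1 => G ζ J (eF ζ) k

theorem FF_x (hζ : 0 < ζ) (k : ℕ) (u x : ℝ) : HasDerivAt (FF ζ J k u) (FF ζ J (k + 1) u x) x := by
  cases k with
  | zero =>
    refine (((A_x J hζ one u x).log (A_one_pos J hζ u x).ne').const_mul ζ⁻¹).congr_deriv ?_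
    simp only [FF, G, eF, ev, M, Function.iterate_zero, id]
  | succ k => exact G_x J hζ _ k u x

theorem HF0 (hζ : 0 < ζ) (u : ℝ) :
    H ζ J (eF ζ) 0 u = fun x => FF ζ J 3 u x / 2 + ζ * (FF ζ J 1 u x * FF ζ J 2 u x) := by
  funext x
  have := hζ.ne'
  simp only [FF, G, H, eF, Function.iterate_succ_apply', Function.iterate_zero, id, dx, du, der, ev]
  field_simp
  ring

theorem HF1 (hζ : 0 < ζ) (u : ℝ) :
    H ζ J (eF ζ) 1 u = fun x => FF ζ J 4 u x / 2 + ζ * (FF ζ J 1 u x * FF ζ J 3 u x + FF ζ J 2 u x ^ 2) := by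
  funext x
  have h := H_x J hζ (eF ζ) 0 u x
  rw [HF0 J hζ] at h
  have h' := ((FF_x J hζ 3 u x).div_const 2).fun_add
    (((FF_x J hζ 1 u x).fun_mul (FF_x J hζ 2 u x)).const_mul ζ)
  rw [h.unique h']
  ring

theorem HF2 (hζ : 0 < ζ) (u : ℝ) :
    H ζ J (eF ζ) 2 u = fun x => FF ζ J 5 u x / 2 +
      ζ * (FF ζ J 1 u x * FF ζ J 4 u x + 3 * (FF ζ J 2 u x * FF ζ J 3 u x)) := by
  funext x
  have h := H_x J hζ (eF ζ) 1 u x
  rw [HF1 J hζ] at h
  have h' := ((FF_x J hζ 4 u x).div_const 2).fun_add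
    ((((FF_x J hζ 1 u x).fun_mul (FF_x J hζ 3 u x)).fun_add ((FF_x J hζ 2 u x).fun_pow 2)).const_mul ζ)
  rw [h.unique h']
  push_cast
  ring

theorem HF3 (hζ : 0 < ζ) (u : ℝ) :
    H ζ J (eF ζ) 3 u = fun x => FF ζ J 6 u x / 2 +
      ζ * (FF ζ J 1 u x * FF ζ J 5 u x + 4 * (FF ζ J 2 u x * FF ζ J 4 u x) + 3 * FF ζ J 3 u x ^ 2) := by
  funext x
  have h := H_x J hζ (eF ζ) 2 u x
  rw [HF2 J hζ] at h
  have h' := ((FF_x J hζ 5 u x).div_const 2).fun_add
    ((((FF_x J hζ 1 u x).fun_mul (FF_x J hζ 4 u x)).fun_add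
      (((FF_x J hζ 2 u x).fun_mul (FF_x J hζ 3 u x)).const_mul 3)).const_mul ζ)
  rw [h.unique h']
  ring

theorem HV0 (hζ : 0 < ζ) (u : ℝ) :
    H ζ J eV 0 u = fun x => G ζ J eV 2 u x / 2 + ζ * (FF ζ J 1 u x * G ζ J eV 1 u x) := by
  funext x
  have := hζ.ne'
  simp only [FF, G, H, eF, eV, Function.iterate_succ_apply', Function.iterate_zero, id, dx, du, der, ev]
  field_simp
  ring

theorem HV1 (hζ : 0 < ζ) (u : ℝ) :
    H ζ J eV 1 u = fun x => G ζ J eV 3 u x / 2 +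
      ζ * (FF ζ J 1 u x * G ζ J eV 2 u x + FF ζ J 2 u x * G ζ J eV 1 u x) := by
  funext x
  have h := H_x J hζ eV 0 u x
  rw [HV0 J hζ] at h
  have h' := ((G_x J hζ eV 2 u x).div_const 2).fun_add
    (((FF_x J hζ 1 u x).fun_mul (G_x J hζ eV 1 u x)).const_mul ζ)
  rw [h.unique h']
  ring

theorem HV2 (hζ : 0 < ζ) (u : ℝ) :
    H ζ J eV 2 u = fun x => G ζ J eV 4 u x / 2 +
      ζ * (FF ζ J 1 u x * G ζ J eV 3 u x + 2 * (FF ζ J 2 u x * G ζ J eV 2 u x) +
        FF ζ J 3 u x * G ζ J eV 1 u x) := by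
  funext x
  have h := H_x J hζ eV 1 u x
  rw [HV1 J hζ] at h
  have h' := ((G_x J hζ eV 3 u x).div_const 2).fun_add
    ((((FF_x J hζ 1 u x).fun_mul (G_x J hζ eV 2 u x)).fun_add
      ((FF_x J hζ 2 u x).fun_mul (G_x J hζ eV 1 u x))).const_mul ζ)
  rw [h.unique h']
  ring

theorem HZ0 (hζ : 0 < ζ) (u x : ℝ) :
    H ζ J (eZ ζ) 0 u x = G ζ J (eZ ζ) 2 u x / 2 + ζ * (FF ζ J 1 u x * G ζ J (eZ ζ) 1 u x) +
      ζ * G ζ J eV 1 u x ^ 2 := by
  have := hζ.ne'
  simp only [FF, G, H, eF, eV, eZ, Function.iterate_succ_apply', Function.iterate_zero, id, dx, du, der, ev]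
  field_simp
  ring

theorem FF2_eq (hζ : 0 < ζ) (u x : ℝ) :
    FF ζ J 2 u x = ζ⁻¹ * (M ζ J u x (T ζ (T ζ one)) - M ζ J u x (T ζ one) ^ 2) := by
  simp only [FF, G, eF, Function.iterate_succ_apply', Function.iterate_zero, id, dx, der, ev]
  ring

theorem FF2_pos (hζ : 0 < ζ) (hp : ∀ x, 0 < J.F 2 x) (u x : ℝ) : 0 < FF ζ J 2 u x := by
  rw [FF2_eq J hζ]
  refine mul_pos (inv_pos.2 hζ) ?_
  obtain ⟨m, hm⟩ : ∃ m, m = M ζ J u x (T ζ one) := ⟨_, rfl⟩
  have h0 := A_one_pos J hζ u x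
  have i0 := (K_gr J hζ one).integrable (Real.sqrt u) x
  have i1 := (K_gr J hζ (T ζ one)).integrable (Real.sqrt u) x
  have i2 := (K_gr J hζ (T ζ (T ζ one))).integrable (Real.sqrt u) x
  have hpos := int_pos ((i2.sub (i1.const_mul (2 * m))).add (i0.const_mul (m ^ 2))) fun g => by
    have e : K ζ J (T ζ (T ζ one)) (x + Real.sqrt u * g) - 2 * m * K ζ J (T ζ one) (x + Real.sqrt u * g) +
        m ^ 2 * K ζ J one (x + Real.sqrt u * g) =
        (ζ * J.F 2 (x + Real.sqrt u * g) + (ζ * J.F 1 (x + Real.sqrt u * g) - m) ^ 2) *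
          Real.exp (ζ * J.F 0 (x + Real.sqrt u * g)) := by
      simp only [K, T, one, der, di, ev, iv]
      ring
    have h1 := hp (x + Real.sqrt u * g)
    simp only [Pi.add_apply, Pi.sub_apply]
    rw [e]
    positivity
  simp only [Pi.add_apply, Pi.sub_apply] at hpos
  have i3 : Integrable (fun g => K ζ J (T ζ (T ζ one)) (x + Real.sqrt u * g) -
      2 * m * K ζ J (T ζ one) (x + Real.sqrt u * g)) (gaussianReal 0 1) := i2.sub (i1.const_mul (2 * m))
  rw [integral_add i3 (i0.const_mul (m ^ 2)), integral_sub i2 (i1.const_mul (2 * m)),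
    integral_const_mul, integral_const_mul] at hpos
  change 0 < A ζ J (T ζ (T ζ one)) u x - 2 * m * A ζ J (T ζ one) u x + m ^ 2 * A ζ J one u x at hpos
  have e1 : A ζ J (T ζ one) u x = m * A ζ J one u x := by
    rw [hm, M, div_mul_cancel₀ _ h0.ne']
  rw [← hm, M, sub_pos, lt_div_iff₀ h0]
  rw [e1] at hpos
  linarith

theorem M_eq_Et (u x : ℝ) (p : Ex IV) :
    M ζ J u x p = Et ζ u (J.F 0) (fun y => ev (iv J y) p) x := by
  rw [M, A_one_eq]
  rfl

end HeatA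

open HeatA HeatA.Ex in
theorem exists_flow {ζ : ℝ} (hζ : 0 < ζ) (J : Jet) : Nonempty (Flow ζ J) := by
  refine ⟨{
    F := FF ζ J
    V := G ζ J eV
    Z := G ζ J (eZ ζ)
    contF := fun k => ?_
    contV := G_cont J hζ _
    contZ := G_cont J hζ _
    chF := fun u k x => FF_x J hζ k u x
    chV := fun u k x => G_x J hζ _ k u x
    chZ := fun u k x => G_x J hζ _ k u x
    bdF := G_bd J hζ _
    bdV := G_bd J hζ _
    bdZ := G_bd J hζ _
    F_zero := ch_unique (f := fun k => FF ζ J k 0) (fun k x => FF_x J hζ k 0 x) J.chF ?_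
    V_zero := ch_unique (f := fun k => G ζ J eV k 0) (fun k x => G_x J hζ _ k 0 x) J.chV ?_
    Z_zero := ch_unique (f := fun k => G ζ J (eZ ζ) k 0) (fun k x => G_x J hζ _ k 0 x) J.chZ ?_
    F0 := fun u => ?_
    V0 := fun u => ?_
    Z0 := fun u x => ?_
    pos := FF2_pos J hζ
    duF0 := fun u hu x => ?_
    duF1 := fun u hu x => (G_u J hζ (eF ζ) 0 hu x).congr_deriv (congrFun (HF0 J hζ u) x)
    duF2 := fun u hu x => (G_u J hζ (eF ζ) 1 hu x).congr_deriv (congrFun (HF1 J hζ u) x)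
    duF3 := fun u hu x => (G_u J hζ (eF ζ) 2 hu x).congr_deriv (congrFun (HF2 J hζ u) x)
    duF4 := fun u hu x => (G_u J hζ (eF ζ) 3 hu x).congr_deriv (congrFun (HF3 J hζ u) x)
    duV0 := fun u hu x => (G_u J hζ eV 0 hu x).congr_deriv (congrFun (HV0 J hζ u) x)
    duV1 := fun u hu x => (G_u J hζ eV 1 hu x).congr_deriv (congrFun (HV1 J hζ u) x)
    duV2 := fun u hu x => (G_u J hζ eV 2 hu x).congr_deriv (congrFun (HV2 J hζ u) x)
    duZ0 := fun u hu x => (G_u J hζ (eZ ζ) 0 hu x).congr_deriv (HZ0 J hζ u x) }⟩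
  · cases k with
    | zero => exact continuous_const.mul ((A_cont J hζ one).log fun q => (A_one_pos J hζ q.1 q.2).ne')
    | succ k => exact G_cont J hζ _ k
  · funext x
    have := hζ.ne'
    simp only [FF, A_zero, K, one, ev, one_mul, Real.log_exp]
    field_simp
  · funext x
    simp only [G, eV, Function.iterate_zero, id, ev, M_zero, iv]
  · funext x
    simp only [G, eV, eZ, Function.iterate_zero, id, ev, M_zero, iv]
    ring
  · funext x
    simp only [FF, gaussOp, if_neg hζ.ne', A_one_eq]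
  · funext x
    simp only [G, eV, Function.iterate_zero, id, ev, M_eq_Et, iv]
  · simp only [G, eV, eZ, Function.iterate_zero, id, ev, M_eq_Et, iv, ← sq]
    ring
  · refine (((A_u J hζ one hu x).log (A_one_pos J hζ u x).ne').const_mul ζ⁻¹).congr_deriv ?_
    have h0 := (A_one_pos J hζ u x).ne'
    have := hζ.ne'
    rw [FF2_eq J hζ]
    simp only [FF, G, eF, Function.iterate_zero, id, ev, M]
    field_simp
    ring

end Crest.Agent.R164
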