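import Crest.Agent.R164.CDefs

/-!
Row 164, task R164-CMax: a parabolic maximum principle, and Schwarz's criterion for concavity.

PLAN.  `max_principle`: WLOG `C ≥ 0`; `g u x = exp (-(C+1) u) f u x - ε exp (K u) (1 + x²)` with `K = 2 + 2 C + (C+1)` large;
if `g > 0` somewhere it has a positive maximum on the strip (compactness: `g < 0` for `|x|` large) at `(u₀, x₀)`, `u₀ > 0`;
there `g_u ≥ 0` (left difference quotients), `g_x = 0`, `g_xx ≤ 0` (else `g_x > 0` just right of `x₀`): contradiction.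
`concave_of_peano`: if `H = F - chord` on `[a,b]` is negative at a point, `H + δ (s-a)(b-s)` has an interior minimum `s₁` and
`H (s₁+t) + H (s₁-t) - 2 H s₁ ≥ 2 δ t²`.
-/

set_option autoImplicit false

namespace Crest.Agent.R164

open Set Filter Topology

theorem CMax.deriv_nonneg_left {h : ℝ → ℝ} {d u₀ : ℝ} (hd : HasDerivAt h d u₀) (h0 : 0 < u₀)
    (hm : ∀ u ∈ Icc 0 u₀, h u ≤ h u₀) : 0 ≤ d := by
  refine ge_of_tendsto (hasDerivAt_iff_tendsto_slope_left_right.1 hd).1 ?_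
  filter_upwards [Ioo_mem_nhdsLT h0] with u hu
  rw [slope_def_field]
  exact div_nonneg_of_nonpos (sub_nonpos.2 (hm u ⟨hu.1.le, hu.2.le⟩)) (sub_nonpos.2 hu.2.le)

theorem CMax.second_nonpos {h h' : ℝ → ℝ} {d x₀ : ℝ} (h1 : ∀ x, HasDerivAt h (h' x) x)
    (h2 : HasDerivAt h' d x₀) (hm : ∀ x, h x ≤ h x₀) : h' x₀ = 0 ∧ d ≤ 0 := by
  have e : h' x₀ = 0 := IsLocalMax.hasDerivAt_eq_zero (Eventually.of_forall hm) (h1 x₀)
  refine ⟨e, ?_⟩
  by_contra hd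
  push Not at hd
  have h3 := (hasDerivAt_iff_tendsto_slope_left_right.1 h2).2.eventually_const_lt hd
  obtain ⟨b, hb, hb'⟩ := mem_nhdsGT_iff_exists_Ioo_subset.1 h3
  have hb0 : x₀ < b := hb
  obtain ⟨c, hc, hc'⟩ := exists_hasDerivAt_eq_slope h h' hb0
    (fun x _ => (h1 x).continuousAt.continuousWithinAt) fun x _ => h1 x
  have h4 : 0 < slope h' x₀ c := hb' hc
  rw [slope_def_field, e, sub_zero, hc'] at h4
  have h5 : (h b - h x₀) / (b - x₀) ≤ 0 :=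
    div_nonpos_of_nonpos_of_nonneg (sub_nonpos.2 (hm b)) (by linarith)
  have := div_nonpos_of_nonpos_of_nonneg h5 (sub_nonneg.2 hc.1.le)
  linarith

theorem max_principle {f fu fx fxx β c : ℝ → ℝ → ℝ} {u₁ C : ℝ}
    (hcont : ContinuousOn (Function.uncurry f) (Icc 0 u₁ ×ˢ univ))
    (hb : ∀ u ∈ Icc 0 u₁, ∀ x, f u x ≤ C) (h0 : ∀ x, f 0 x ≤ 0)
    (hu : ∀ u ∈ Ioc 0 u₁, ∀ x, HasDerivAt (fun u => f u x) (fu u x) u)
    (hx : ∀ u ∈ Ioc 0 u₁, ∀ x, HasDerivAt (f u) (fx u x) x)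
    (hxx : ∀ u ∈ Ioc 0 u₁, ∀ x, HasDerivAt (fx u) (fxx u x) x)
    (hβ : ∀ u ∈ Ioc 0 u₁, ∀ x, |β u x| ≤ C) (hc : ∀ u ∈ Ioc 0 u₁, ∀ x, c u x ≤ C)
    (h : ∀ u ∈ Ioc 0 u₁, ∀ x, fu u x ≤ fxx u x / 2 + β u x * fx u x + c u x * f u x) :
    ∀ u ∈ Icc 0 u₁, ∀ x, f u x ≤ 0 := by
  intro u' hu' x'
  set D := max C 0 with hD
  have hD0 : 0 ≤ D := le_max_right _ _
  have hCD : C ≤ D := le_max_left _ _
  by_contra hpos
  push Not at hpos
  let ψ : ℝ → ℝ → ℝ := fun u x => Real.exp ((D + 2) * u) * (1 + x ^ 2)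
  have ψpos : ∀ u x, 0 < ψ u x := fun u x => by simp only [ψ]; positivity
  obtain ⟨ε, hε, hε'⟩ : ∃ ε : ℝ, 0 < ε ∧ ε * ψ u' x' < Real.exp (-(D + 1) * u') * f u' x' := by
    have h1 : 0 < Real.exp (-(D + 1) * u') * f u' x' := by positivity
    refine ⟨Real.exp (-(D + 1) * u') * f u' x' / (2 * ψ u' x'), by have := ψpos u' x'; positivity, ?_⟩
    have := ψpos u' x'
    rw [div_mul_eq_mul_div, div_lt_iff₀ (by positivity)]
    nlinarith [mul_pos h1 this]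
  let g : ℝ × ℝ → ℝ := fun p => Real.exp (-(D + 1) * p.1) * f p.1 p.2 - ε * ψ p.1 p.2
  have gc : ContinuousOn g (Icc 0 u₁ ×ˢ univ) :=
    ((by fun_prop : Continuous fun p : ℝ × ℝ => Real.exp (-(D + 1) * p.1)).continuousOn.mul hcont).sub
      (by simp only [ψ]; fun_prop)
  set R := max |x'| (D / ε) with hR
  have far : ∀ u ∈ Icc 0 u₁, ∀ x, R < |x| → g (u, x) ≤ 0 := fun u hu x hx => by
    have h1 : Real.exp (-(D + 1) * u) ≤ 1 := Real.exp_le_one_iff.2 (by nlinarith [hu.1])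
    have h2 : 1 ≤ Real.exp ((D + 2) * u) := Real.one_le_exp (by nlinarith [hu.1])
    have h3 : D < |x| * ε := (div_lt_iff₀ hε).1 ((le_max_right _ _).trans_lt hx)
    have h4 : |x| ≤ 1 + x ^ 2 := by nlinarith [sq_abs x, sq_nonneg (|x| - 1), abs_nonneg x]
    have h5 : Real.exp (-(D + 1) * u) * f u x ≤ D := by
      have := mul_le_mul_of_nonneg_left ((hb u hu x).trans hCD) (Real.exp_pos (-(D + 1) * u)).le
      nlinarith
    have h6 : |x| ≤ ψ u x := by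
      simp only [ψ]
      nlinarith [sq_nonneg x]
    simp only [g]
    nlinarith
  obtain ⟨p, hp, hmax⟩ := (isCompact_Icc.prod (isCompact_Icc (a := -R) (b := R))).exists_isMaxOn
    ⟨(u', x'), hu', abs_le.1 (le_max_left _ _)⟩ (gc.mono (prod_mono le_rfl (subset_univ _)))
  obtain ⟨u₀, x₀⟩ := p
  have gpos : 0 < g (u₀, x₀) :=
    lt_of_lt_of_le (by simp only [g]; linarith) (hmax (a := (u', x')) ⟨hu', abs_le.1 (le_max_left _ _)⟩)
  have gmax : ∀ u ∈ Icc 0 u₁, ∀ x, g (u, x) ≤ g (u₀, x₀) := fun u hu x => by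
    by_cases hx : |x| ≤ R
    · exact hmax (a := (u, x)) ⟨hu, abs_le.1 hx⟩
    · exact (far u hu x (not_le.1 hx)).trans gpos.le
  have hu0 : u₀ ∈ Ioc 0 u₁ := by
    refine ⟨lt_of_le_of_ne hp.1.1 ?_, hp.1.2⟩
    intro h0'
    subst h0'
    have := h0 x₀
    have := ψpos 0 x₀
    simp only [g, mul_zero, Real.exp_zero, one_mul] at gpos
    nlinarith
  have d1 : HasDerivAt (fun u => g (u, x₀))
      (Real.exp (-(D + 1) * u₀) * (-(D + 1) * 1) * f u₀ x₀ + Real.exp (-(D + 1) * u₀) * fu u₀ x₀ -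
        ε * (Real.exp ((D + 2) * u₀) * ((D + 2) * 1) * (1 + x₀ ^ 2))) u₀ :=
    (((hasDerivAt_id u₀).const_mul _).exp.mul (hu u₀ hu0 x₀)).sub
      ((((hasDerivAt_id u₀).const_mul (D + 2)).exp.mul_const (1 + x₀ ^ 2)).const_mul ε)
  have a1 := CMax.deriv_nonneg_left d1 hu0.1 fun u hu => gmax u ⟨hu.1, hu.2.trans hu0.2⟩ x₀
  have d2 : ∀ x, HasDerivAt (fun x => g (u₀, x))
      (Real.exp (-(D + 1) * u₀) * fx u₀ x - ε * (Real.exp ((D + 2) * u₀) * (2 * x))) x := fun x =>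
    ((hx u₀ hu0 x).const_mul (Real.exp (-(D + 1) * u₀))).fun_sub
      (((((hasDerivAt_pow 2 x).const_add 1).const_mul (Real.exp ((D + 2) * u₀))).const_mul ε).congr_deriv
        (g' := ε * (Real.exp ((D + 2) * u₀) * (2 * x))) (by simp))
  have d3 : HasDerivAt
      (fun x => Real.exp (-(D + 1) * u₀) * fx u₀ x - ε * (Real.exp ((D + 2) * u₀) * (2 * x)))
      (Real.exp (-(D + 1) * u₀) * fxx u₀ x₀ - ε * (Real.exp ((D + 2) * u₀) * (2 * 1))) x₀ :=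
    ((hxx u₀ hu0 x₀).const_mul _).sub ((((hasDerivAt_id x₀).const_mul 2).const_mul _).const_mul ε)
  obtain ⟨a2, a3⟩ := CMax.second_nonpos d2 d3 (gmax u₀ ⟨hu0.1.le, hu0.2⟩)
  have a4 := mul_le_mul_of_nonneg_left (h u₀ hu0 x₀) (Real.exp_pos (-(D + 1) * u₀)).le
  have a5 := abs_le.1 ((hβ u₀ hu0 x₀).trans hCD)
  have a6 := (hc u₀ hu0 x₀).trans hCD
  have a7 := ψpos u₀ x₀
  simp only [g, ψ] at gpos a7
  set E1 := Real.exp (-(D + 1) * u₀)
  set E2 := Real.exp ((D + 2) * u₀)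
  have E2p : 0 < E2 := Real.exp_pos _
  have b1 : 0 < E1 * f u₀ x₀ := by nlinarith
  have b2 : c u₀ x₀ * (E1 * f u₀ x₀) ≤ (D + 1) * (E1 * f u₀ x₀) := by nlinarith
  have b3 : β u₀ x₀ * (2 * x₀) ≤ D * (1 + x₀ ^ 2) := by
    nlinarith [mul_nonneg (sub_nonneg.2 a5.2) (sq_nonneg (x₀ + 1)),
      mul_nonneg (by linarith [a5.1] : 0 ≤ D + β u₀ x₀) (sq_nonneg (x₀ - 1))]
  have b4 : β u₀ x₀ * (E1 * fx u₀ x₀) ≤ ε * E2 * (D * (1 + x₀ ^ 2)) := by
    rw [sub_eq_zero.1 a2]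
    have := mul_le_mul_of_nonneg_left b3 (mul_pos hε E2p).le
    linarith
  have b5 : 0 < ε * E2 := mul_pos hε E2p
  nlinarith [mul_nonneg b5.le (sq_nonneg x₀)]

theorem concave_of_peano {F : ℝ → ℝ} (hc : ContinuousOn F (Icc 0 1))
    (h : ∀ s ∈ Ioo (0 : ℝ) 1, ∃ p : ℝ, ∀ ε : ℝ, 0 < ε →
      ∀ᶠ t in 𝓝 (0 : ℝ), F (s + t) ≤ F s + p * t + ε * t ^ 2) : ConcaveOn ℝ (Icc 0 1) F := by
  refine LinearOrder.concaveOn_of_lt (convex_Icc 0 1) fun a ha b hb hab s t hs ht hst => ?_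
  simp only [smul_eq_mul]
  by_contra hneg
  push Not at hneg
  set δ := s * F a + t * F b - F (s * a + t * b) with hδ
  have hδ0 : 0 < δ := by linarith
  let G : ℝ → ℝ := fun x => F x - ((b - x) * F a + (x - a) * F b) / (b - a) + δ / 2 * ((x - a) * (b - x))
  have hsub : Icc a b ⊆ Icc 0 1 := Icc_subset_Icc ha.1 hb.2
  have Gc : ContinuousOn G (Icc a b) := ((hc.mono hsub).sub (by fun_prop)).add (by fun_prop)
  have hba : 0 < b - a := by linarith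
  have hs' : s = 1 - t := by linarith
  have hm : s * a + t * b ∈ Icc a b := by
    rw [hs']; constructor <;> nlinarith
  have Gm : G (s * a + t * b) < 0 := by
    have e : ((b - (s * a + t * b)) * F a + (s * a + t * b - a) * F b) / (b - a) = s * F a + t * F b := by
      rw [div_eq_iff hba.ne', hs']; ring
    have h1 : (s * a + t * b - a) * (b - (s * a + t * b)) ≤ 1 := by
      have := hm.1; have := hm.2; have := ha.1; have := hb.2
      nlinarith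
    simp only [G]
    rw [e]
    nlinarith
  obtain ⟨x, hx, hmin⟩ := isCompact_Icc.exists_isMinOn ⟨_, hm⟩ Gc
  have Gx : G x < 0 := lt_of_le_of_lt (hmin hm) Gm
  have hxa : a < x := lt_of_le_of_ne hx.1 (by
    rintro rfl
    simp only [G] at Gx
    rw [sub_self, zero_mul, add_zero, mul_div_cancel_left₀ _ hba.ne'] at Gx
    simp at Gx)
  have hxb : x < b := lt_of_le_of_ne hx.2 (by
    rintro rfl
    simp only [G] at Gx
    rw [sub_self, zero_mul, zero_add, mul_div_cancel_left₀ _ hba.ne'] at Gx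
    simp at Gx)
  obtain ⟨p, hp⟩ := h x ⟨ha.1.trans_lt hxa, hxb.trans_le hb.2⟩
  have h1 := hp (δ / 4) (by positivity)
  have h2 : ∀ᶠ τ in 𝓝 (0 : ℝ), F (x + -τ) ≤ F x + p * -τ + δ / 4 * (-τ) ^ 2 := by
    have : Tendsto (fun τ : ℝ => -τ) (𝓝 0) (𝓝 0) := by simpa using (continuous_neg (G := ℝ)).tendsto 0
    exact this.eventually h1
  have h3 : ∀ᶠ τ in 𝓝[>] (0 : ℝ), τ ∈ Ioo 0 (min (x - a) (b - x)) :=
    Ioo_mem_nhdsGT (lt_min (by linarith) (by linarith))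
  obtain ⟨τ, ⟨k1, k2⟩, k3, k4⟩ := (((h1.and h2).filter_mono nhdsWithin_le_nhds).and h3).exists
  rw [lt_min_iff] at k4
  have m1 : G x ≤ G (x + τ) := hmin (a := x + τ) ⟨by linarith, by linarith [k4.2]⟩
  have m2 : G x ≤ G (x + -τ) := hmin (a := x + -τ) ⟨by linarith [k4.1], by linarith⟩
  have e : G (x + τ) + G (x + -τ) - 2 * G x = F (x + τ) + F (x + -τ) - 2 * F x - δ * τ ^ 2 := by
    simp only [G]
    field_simp
    ring
  nlinarith [mul_pos hδ0 (pow_pos k3 2)]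

end Crest.Agent.R164
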