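import Crest.Agent.R164.Sym_A

/-!
Row 164, task R164-Fact: factorisation over independent spins.

PLAN.  `phi_prod`: downward induction on `l ∈ [1, n-1]`:
`X H l ω = Σ_r Phi (glFrom (s r ²) l) (b r + Σ_{i ∈ Ico 1 l} s i r * gs i r ω) + c` (`l = n-1`: `integral_unif`, `Π cosh`, `ζ (n-1) = 1`;
step: `X_step`, `glFrom_step`, `integral_fintype_prod_eq_prod`, `√(s²) = s`); at `l = 0`, `X_of_dep`-type argument (the level-1 value is constant).
`phi_ext`: downward induction on `l ∈ [1,n]` comparing with the tree over `ι`: for a path `ω` over `Option ι` whose root matrix is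
`Õ * ext1 U` and the projected path `ω'` (root matrix `U`, Gaussian and spin coordinates restricted to `some`):
`X H l ω = X H' l ω' + Phi (glFrom (sn²) l) (b + Σ_{i ∈ Ico 1 l} sn i * gs i none ω)` for `l ≤ n - 1`; the noise on `Option ι` is a product
(`measurePreserving_piOptionEquivProd`), `integral_prod_mul`; at the root use `famν_mp` (and `X_one`-like independence of the level `≥ 1` values
from the root law: the integrands do not depend on the matrix component of the noise at levels `≥ 1`).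
-/

set_option autoImplicit false

namespace Crest.Agent.R164

open MeasureTheory Finset Matrix ProbabilityTheory SymA

variable {ι : Type} [Fintype ι] [DecidableEq ι]
variable {G : Grid} {ν : ProbabilityMeasure (OG ι)}

namespace FactA

theorem lip_gl {v : ℕ → ℝ} (l : ℕ) : Lip1 (Phi (G.glFrom (fun l => v l ^ 2) l)) :=
  Phi_lip (G.adm_glFrom fun _ _ => sq_nonneg _)

theorem exp_step {v : ℕ → ℝ} {l : ℕ} (hl : l + 1 < G.n) (hv : 0 ≤ v l) (z : ℝ) :
    ∫ g, Real.exp (G.ζ l * Phi (G.glFrom (fun l => v l ^ 2) (l + 1)) (z + v l * g)) ∂gaussianReal 0 1 =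
      Real.exp (G.ζ l * Phi (G.glFrom (fun l => v l ^ 2) l) z) := by
  rw [G.glFrom_step _ hl, Phi_cons, exp_gaussOp (lip_gl _) (G.pos l).ne', Real.sqrt_sq hv]

theorem X_of_exp {E : Type} [MeasurableSpace E] {T : Tree E} {H : (ℕ → E) → ℝ} {l : ℕ} (hl : l < T.n)
    (ω : ℕ → E) {y : ℝ} (h : ∫ e, Real.exp (T.ζ l * T.X H (l + 1) (Function.update ω l e)) ∂T.γ =
      Real.exp (T.ζ l * y)) : T.X H l ω = y := by
  rw [Tree.X_step hl, h, Real.log_exp, ← mul_assoc, inv_mul_cancel₀ (T.ζ_pos l).ne', one_mul]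

theorem sum_upd (s : ℕ → ℝ) (r : ι) (ω : Pth ι) (l : ℕ) (e : Noise ι) :
    ∑ i ∈ Ico 1 l, s i * gs i r (Function.update ω l e) = ∑ i ∈ Ico 1 l, s i * gs i r ω := by
  refine sum_congr rfl fun i hi => ?_
  unfold gs
  rw [Function.update_of_ne (mem_Ico.1 hi).2.ne]

end FactA

open FactA

theorem phi_prod {S : Sys ι} {b : ι → ℝ} {c : ℝ} (h1 : ∀ i, S.lam i = 0)
    (h2 : ∀ σ, S.pot σ = ∑ r, b r * sp σ r + c)
    (h3 : ∀ l ∈ Ico 1 (G.n - 1), ∀ i, 0 ≤ S.s l i ∧ S.u l i = 0) :
    phi G ν S = ∑ r, Phi (G.gl fun l => S.s l r ^ 2) (b r) + c := by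
  have hH : ∀ ω : Pth ι, Ham G S ω =
      ∑ r, (b r + ∑ i ∈ Ico 1 (G.n - 1), S.s i r * gs i r ω) * sp (sb G ω) r + c := by
    intro ω
    unfold Ham
    rw [h2, sum_congr rfl fun l hl => sum_congr rfl fun i _ => by rw [(h3 l hl i).2], sum_comm]
    simp only [h1, zero_mul, sum_const_zero, mul_zero, zero_add, add_zero, add_mul, sum_add_distrib, sum_mul,
      sg, mul_assoc]
    ring
  have key : ∀ l, l ≤ G.n - 1 → 1 ≤ l → ∀ ω : Pth ι, (tree G ν).X (Ham G S) l ω =
      ∑ r, Phi (G.glFrom (fun l => S.s l r ^ 2) l) (b r + ∑ i ∈ Ico 1 l, S.s i r * gs i r ω) + c := by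
    intro l hl
    induction hl using Nat.decreasingInduction with
    | self =>
      intro _ ω
      refine X_of_exp (n1 G) ω ?_
      rw [Tree.X_of_le (by change G.n ≤ _; omega)]
      change ∫ e, Real.exp (G.ζ (G.n - 1) * _) ∂_ = Real.exp (G.ζ (G.n - 1) * _)
      simp only [G.top, one_mul, hH, sum_upd, sb, Function.update_self, Real.exp_add]
      rw [integral_mul_const, int_spin (F := fun σ => Real.exp (∑ r, (b r + ∑ i ∈ Ico 1 (G.n - 1),
        S.s i r * gs i r ω) * sp σ r)), sum_exp_sp, Real.exp_sum]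
      simp only [G.glFrom_top, Phi_nil, lc, Real.exp_log (Real.cosh_pos _)]
    | of_succ k hk ih =>
      intro h1k ω
      refine X_of_exp (show k < G.n by omega) ω ?_
      change ∫ e, Real.exp (G.ζ k * _) ∂_ = Real.exp (G.ζ k * _)
      simp only [ih (by omega), sum_Ico_succ_top h1k, sum_upd, mul_add, Real.exp_add, mul_sum, Real.exp_sum,
        ← add_assoc]
      simp only [gs, Function.update_self]
      rw [integral_mul_const, int_gs (F := fun g => ∏ r, Real.exp (G.ζ k *
        Phi (G.glFrom (fun l => S.s l r ^ 2) (k + 1))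
          (b r + ∑ i ∈ Ico 1 k, S.s i r * (ω i).2.1 r + S.s k r * g r)))]
      unfold gam
      rw [integral_fintype_prod_eq_prod (f := fun r g => Real.exp (G.ζ k *
        Phi (G.glFrom (fun l => S.s l r ^ 2) (k + 1))
          (b r + ∑ i ∈ Ico 1 k, S.s i r * (ω i).2.1 r + S.s k r * g)))]
      congr 1
      exact prod_congr rfl fun r _ => exp_step (v := fun l => S.s l r) (by omega)
        (h3 k (mem_Ico.2 ⟨h1k, hk⟩) r).1 _
  refine X_of_exp (n0 G) _ ?_
  have := (tree G ν).prob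
  simp only [zero_add, key 1 (n2 G) le_rfl, Ico_self, sum_empty, add_zero, Grid.gl]
  simp

/-- add one spin with external field `b` and Gaussian fields `sn`, and one coordinate without energy -/
def Sys.ext (S : Sys ι) (b : ℝ) (sn : ℕ → ℝ) : Sys (Option ι) where
  lam := fun o => o.elim 0 S.lam
  pot := fun σ => S.pot (fun i => σ (some i)) + b * sp σ none
  s := fun l o => o.elim (sn l) (S.s l)
  u := fun l o => o.elim 0 (S.u l)

/-- `Õ` is the identity outside `A` -/
def IdOff {κ : Type} [Fintype κ] [DecidableEq κ] (Õ : OG κ) (A : Set κ) : Prop :=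
  ∀ i j, i ∉ A ∨ j ∉ A → Õ.1 i j = if i = j then 1 else 0

namespace FactA

theorem mp_opt {X : Type} [MeasurableSpace X] (μ : Measure X) [IsProbabilityMeasure μ] :
    MeasurePreserving (fun (p : (ι → X) × X) (o : Option ι) => o.elim p.2 p.1)
      ((Measure.pi fun _ => μ).prod μ) (Measure.pi fun _ => μ) := by
  have hm : Measurable (fun (p : (ι → X) × X) (o : Option ι) => o.elim p.2 p.1) :=
    measurable_pi_lambda _ fun o => by
      cases o with
      | none => exact measurable_snd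
      | some i => exact (measurable_pi_apply i).comp measurable_fst
  refine ⟨hm, (Measure.pi_eq fun s hs => ?_).symm⟩
  rw [Measure.map_apply hm (MeasurableSet.univ_pi hs)]
  have e : (fun (p : (ι → X) × X) (o : Option ι) => o.elim p.2 p.1) ⁻¹' Set.univ.pi s =
      (Set.univ.pi fun i => s (some i)) ×ˢ s none := by
    ext p
    simp only [Set.mem_preimage, Set.mem_univ_pi, Set.mem_prod, Option.forall, Option.elim]
    exact and_comm
  rw [e, Measure.prod_prod, Measure.pi_pi, Fintype.prod_option, mul_comm]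

theorem mp_pp {α β γ δ : Type} [MeasurableSpace α] [MeasurableSpace β] [MeasurableSpace γ]
    [MeasurableSpace δ] (a : Measure α) (b : Measure β) (c : Measure γ) (d : Measure δ) [SFinite a]
    [SFinite b] [SFinite c] [SFinite d] :
    MeasurePreserving (fun p : (α × β) × γ × δ => ((p.1.1, p.2.1), (p.1.2, p.2.2)))
      ((a.prod b).prod (c.prod d)) ((a.prod c).prod (b.prod d)) := by
  have h1 := measurePreserving_prodAssoc a b (c.prod d)
  have h2 := (measurePreserving_prodAssoc b c d).symm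
  have h3 := (Measure.measurePreserving_swap (μ := b) (ν := c)).prod (MeasurePreserving.id d)
  have h4 := measurePreserving_prodAssoc c b d
  have h5 := (measurePreserving_prodAssoc a c (b.prod d)).symm
  exact h5.comp (((MeasurePreserving.id a).prod (h4.comp (h3.comp h2))).comp h1)

abbrev T3 : Type := ℝ × ℝ × Bool

noncomputable def μ3 : Measure T3 := (gaussianReal 0 1).prod ((gaussianReal 0 1).prod bern)

instance : IsProbabilityMeasure μ3 := by unfold μ3; infer_instance

def Ψ (Õ : OG (Option ι)) (e : Noise ι) (t : T3) : Noise (Option ι) :=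
  (Õ * ext1 e.1, fun o => o.elim t.1 e.2.1, fun o => o.elim t.2.1 e.2.2.1, fun o => o.elim t.2.2 e.2.2.2)

theorem mp_Ψ (Õ : OG (Option ι)) : MeasurePreserving (fun p : Noise ι × T3 => Ψ Õ p.1 p.2)
    ((tree G ν).γ.prod μ3) (tree G (famν Õ ν)).γ := by
  have h1 := measurePreserving_prodAssoc (ν : Measure (OG ι)) ((gam ι).prod ((gam ι).prod (unif ι))) μ3
  have h2 := mp_pp (gam ι) ((gam ι).prod (unif ι)) (gaussianReal 0 1) ((gaussianReal 0 1).prod bern)
  have h3 := mp_pp (gam ι) (unif ι) (gaussianReal 0 1) bern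
  have g1 := mp_opt (ι := ι) (gaussianReal 0 1)
  have g2 := mp_opt (ι := ι) bern
  exact ((famν_mp Õ ν).prod ((g1.prod ((g1.prod g2).comp h3)).comp h2)).comp h1

def Ψp (Õ : OG (Option ι)) (ω : Pth ι) (τ : ℕ → T3) : Pth (Option ι) := fun i => Ψ Õ (ω i) (τ i)

theorem Ψp_upd (Õ : OG (Option ι)) (ω : Pth ι) (τ : ℕ → T3) (l : ℕ) (e : Noise ι) (t : T3) :
    Function.update (Ψp Õ ω τ) l (Ψ Õ e t) = Ψp Õ (Function.update ω l e) (Function.update τ l t) := by
  funext i
  by_cases h : i = l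
  · subst h; simp [Ψp]
  · simp [Ψp, h]

theorem ext_step (Õ : OG (Option ι)) (S : Sys ι) (S' : Sys (Option ι)) {l : ℕ} (hl : l < G.n) (ω : Pth ι)
    (τ : ℕ → T3) (B : T3 → ℝ) (β : ℝ)
    (h : ∀ e t, (tree G (famν Õ ν)).X (Ham G S') (l + 1)
      (Ψp Õ (Function.update ω l e) (Function.update τ l t)) =
        (tree G ν).X (Ham G S) (l + 1) (Function.update ω l e) + B t)
    (hB : ∫ t, Real.exp (G.ζ l * B t) ∂μ3 = Real.exp (G.ζ l * β)) :
    (tree G (famν Õ ν)).X (Ham G S') l (Ψp Õ ω τ) = (tree G ν).X (Ham G S) l ω + β := by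
  refine X_of_exp hl _ ?_
  have := (tree G ν).prob
  rw [mp_int (mp_Ψ Õ) (g := fun e => Real.exp ((tree G (famν Õ ν)).ζ l *
    (tree G (famν Õ ν)).X (Ham G S') (l + 1) (Function.update (Ψp Õ ω τ) l e)))
    ((((Tree.lin_X (lin_Ham G _ S') (l + 1)).1.comp (Tree.measurable_upd _ _)).const_mul _).exp)]
  change ∫ p : Noise ι × T3, Real.exp (G.ζ l * _) ∂_ = Real.exp (G.ζ l * _)
  simp only [Ψp_upd, h, mul_add, Real.exp_add]
  rw [integral_prod_mul (f := fun e => Real.exp (G.ζ l * (tree G ν).X (Ham G S) (l + 1)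
    (Function.update ω l e))) (g := fun t => Real.exp (G.ζ l * B t)), hB]
  congr 1
  exact (Tree.exp_X_step (T := tree G ν) (lin_Ham G ν S) hl ω).symm

theorem sum_upd' (s : ℕ → ℝ) (τ : ℕ → T3) (l : ℕ) (t : T3) :
    ∑ i ∈ Ico 1 l, s i * (Function.update τ l t i).1 = ∑ i ∈ Ico 1 l, s i * (τ i).1 := by
  refine sum_congr rfl fun i hi => ?_
  rw [Function.update_of_ne (mem_Ico.1 hi).2.ne]

theorem int_bern (h : ℝ) : ∫ t : T3, Real.exp (h * if t.2.2 then 1 else -1) ∂μ3 = Real.cosh h := by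
  refine (integral_fun_snd (f := fun p : ℝ × Bool => Real.exp (h * if p.2 then 1 else -1))).trans ?_
  rw [integral_fun_snd (f := fun p : Bool => Real.exp (h * if p then 1 else -1)), bern, integral_smul_measure,
    integral_count, Real.cosh_eq]
  simp
  ring

end FactA

theorem phi_ext {S : Sys ι} (Õ : OG (Option ι)) {A : Set (Option ι)} (hA : IdOff Õ A)
    (h0 : ∀ i, some i ∈ A → S.lam i = 0 ∧ ∀ l ∈ Ico 1 (G.n - 1), S.u l i = 0)
    (b : ℝ) {sn : ℕ → ℝ} (hs : ∀ l ∈ Ico 1 (G.n - 1), 0 ≤ sn l) :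
    phi G (famν Õ ν) (S.ext b sn) = phi G ν S + Phi (G.gl fun l => sn l ^ 2) b := by
  have hx : ∀ (ω : Pth ι) (τ : ℕ → T3) (i : ι), some i ∉ A → xx G (some i) (Ψp Õ ω τ) = xx G i ω := by
    intro ω τ i hi
    change ((Õ * ext1 (ω 0).1).1 *ᵥ sp (sb G (Ψp Õ ω τ))) (some i) = _
    rw [Submonoid.coe_mul, ← mulVec_mulVec]
    change ∑ j, Õ.1 (some i) j * _ = _
    simp only [hA (some i) _ (Or.inl hi), ite_mul, one_mul, zero_mul, sum_ite_eq, mem_univ, if_true]
    rw [ext1_mulVec_some]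
    rfl
  have hH : ∀ (ω : Pth ι) (τ : ℕ → T3), Ham G (S.ext b sn) (Ψp Õ ω τ) = Ham G S ω +
      (b + ∑ i ∈ Ico 1 (G.n - 1), sn i * (τ i).1) * if (τ (G.n - 1)).2.2 then 1 else -1 := by
    intro ω τ
    have e1 : ∑ i, S.lam i * xx G (some i) (Ψp Õ ω τ) ^ 2 = ∑ i, S.lam i * xx G i ω ^ 2 :=
      sum_congr rfl fun i _ => by
        by_cases hi : some i ∈ A
        · rw [(h0 i hi).1, zero_mul, zero_mul]
        · rw [hx ω τ i hi]
    have e2 : ∀ l ∈ Ico 1 (G.n - 1), ∑ o, ((S.ext b sn).s l o * (gs l o (Ψp Õ ω τ) * sg G o (Ψp Õ ω τ)) +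
        (S.ext b sn).u l o * (gx l o (Ψp Õ ω τ) * xx G o (Ψp Õ ω τ))) =
        ∑ i, (S.s l i * (gs l i ω * sg G i ω) + S.u l i * (gx l i ω * xx G i ω)) +
          sn l * (τ l).1 * if (τ (G.n - 1)).2.2 then 1 else -1 := by
      intro l hl
      rw [Fintype.sum_option, add_comm]
      congr 1
      · refine sum_congr rfl fun i _ => ?_
        change S.s l i * (gs l i ω * sg G i ω) + S.u l i * (gx l i ω * _) = _
        by_cases hi : some i ∈ A
        · rw [(h0 i hi).2 l hl, zero_mul, zero_mul]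
        · rw [hx ω τ i hi]
      · change sn l * ((τ l).1 * if (τ (G.n - 1)).2.2 then 1 else -1) + 0 * _ = _
        ring
    unfold Ham
    rw [sum_congr rfl e2, Fintype.sum_option, sum_add_distrib, ← sum_mul]
    change (1 / 2) * (0 * _ + ∑ i, S.lam i * xx G (some i) (Ψp Õ ω τ) ^ 2) + (S.pot (sb G ω) +
      b * if (τ (G.n - 1)).2.2 then 1 else -1) + _ = _
    rw [e1]
    ring
  have key : ∀ l, l ≤ G.n - 1 → 1 ≤ l → ∀ (ω : Pth ι) (τ : ℕ → T3),
      (tree G (famν Õ ν)).X (Ham G (S.ext b sn)) l (Ψp Õ ω τ) = (tree G ν).X (Ham G S) l ω +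
        Phi (G.glFrom (fun l => sn l ^ 2) l) (b + ∑ i ∈ Ico 1 l, sn i * (τ i).1) := by
    intro l hl
    induction hl using Nat.decreasingInduction with
    | self =>
      intro _ ω τ
      refine ext_step Õ S _ (n1 G) ω τ
        (fun t => (b + ∑ i ∈ Ico 1 (G.n - 1), sn i * (τ i).1) * if t.2.2 then 1 else -1) _ (fun e t => ?_) ?_
      · rw [Tree.X_of_le (by change G.n ≤ _; omega), Tree.X_of_le (by change G.n ≤ _; omega), hH, sum_upd',
          Function.update_self]
      · simp only [G.top, one_mul, G.glFrom_top, Phi_nil, lc, Real.exp_log (Real.cosh_pos _)]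
        exact int_bern _
    | of_succ k hk ih =>
      intro h1k ω τ
      refine ext_step Õ S _ (by omega) ω τ (fun t => Phi (G.glFrom (fun l => sn l ^ 2) (k + 1))
        (b + ∑ i ∈ Ico 1 k, sn i * (τ i).1 + sn k * t.1)) _ (fun e t => ?_) ?_
      · rw [ih (by omega), sum_Ico_succ_top h1k, sum_upd', Function.update_self, add_assoc b]
      · refine (integral_fun_fst (f := fun g => Real.exp (G.ζ k * Phi (G.glFrom (fun l => sn l ^ 2) (k + 1))
          (b + ∑ i ∈ Ico 1 k, sn i * (τ i).1 + sn k * g)))).trans ?_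
        rw [exp_step (by omega) (hs k (mem_Ico.2 ⟨h1k, hk⟩))]
        simp
  rw [← (base_indep (G := G) (ν := famν Õ ν) (S := S.ext b sn) (Tree.Tame.const 0) (fun _ _ _ => rfl)
    (Ψp Õ pt0 fun _ => (0, 0, true))).1]
  refine ext_step Õ S _ (n0 G) _ _ (fun _ => Phi (G.gl fun l => sn l ^ 2) b) _ (fun e t => ?_) (by simp)
  rw [zero_add, key 1 (n2 G) le_rfl, Ico_self, sum_empty, add_zero]
  rfl

end Crest.Agent.R164
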