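import Crest.Agent.R164.RT

/-!
Row 164, task R164-Solve: solving the approximate resolvent equations in the replica algebra.

PLAN.  Write `d = D a i`, `ρ_b = 1/(1 - lam b * d)`, `𝒟 a b = D (Q a b) i`, `ε a b = D (err a b) i`.
Applying `D` (`D_conv`, linearity) to the definition of `err`:
`(1 - lam b d) 𝒟 a b = d δ_ab + ω b * c a + ε a b`, `c a = ((1 - lam k1 d) 𝒟 a k1 - d δ_{a k1}) / ω k1`.
Sum against `ω b`: `𝒟 a τ = ρ_a ω_a d + s1 c_a + Σ_b ω_b ρ_b ε a b`; by symmetry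
`𝒟 a τ = Σ_b ω_b 𝒟 b a = ρ_a (ω_a d + ω_a c̄ + Σ_b ω_b ε b a)` with `c̄ = Σ ω c`, and
`Dτ = s1 d + s1 c̄ + Σ ω_a ω_b ρ_b ε a b`.  Hence
`Σ_k lam k 𝒟 k k = Σ lam ρ d + bet (Dτ - s1 d) + Σ_{a,b} f_{ab}(d) ε a b` with functions `f_{ab}` bounded and Lipschitz on
`[0, ā]` with constants depending on `Λ, a0` only (products of `ρ`'s, `ω`'s, `lam`, `1/s1`; `|ω| ≤ 1`, `s1 ≥ a0`,
`|ρ d - ρ d'| ≤ Λ |d - d'|`).  Apply `TT` (`TT_D`, `IsPath.TT_err`).  A convenient bookkeeping device: a predicate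
`BL f C := ∀ d d' ≥ 0, |f d| ≤ C ∧ |f d - f d'| ≤ C |d - d'|` closed under products and sums.
`solve_one`: `D Q (1 - m d) = d + D e`; `nrm_err`, `TT_err`, `D_pathOf`.
-/

set_option autoImplicit false

namespace Crest.Agent.R164

open Finset

namespace Solve

/-- bounded and Lipschitz on `[0, ∞)` -/
def BL (f : ℝ → ℝ) (C : ℝ) : Prop :=
  0 ≤ C ∧ ∀ d, 0 ≤ d → |f d| ≤ C ∧ ∀ d', 0 ≤ d' → |f d - f d'| ≤ C * |d - d'|

variable {f g : ℝ → ℝ} {C C' : ℝ}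

theorem BL.mono (h : BL f C) (hC : C ≤ C') : BL f C' :=
  ⟨h.1.trans hC, fun d hd => ⟨((h.2 d hd).1).trans hC, fun d' hd' =>
    ((h.2 d hd).2 d' hd').trans (mul_le_mul_of_nonneg_right hC (abs_nonneg _))⟩⟩

theorem BL.const {c : ℝ} (h : |c| ≤ C) : BL (fun _ => c) C :=
  ⟨(abs_nonneg c).trans h, fun _ _ => ⟨h, fun _ _ => by
    rw [sub_self, abs_zero]; exact mul_nonneg ((abs_nonneg c).trans h) (abs_nonneg _)⟩⟩

theorem BL.add (h : BL f C) (h' : BL g C') : BL (fun d => f d + g d) (C + C') := by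
  refine ⟨add_nonneg h.1 h'.1, fun d hd => ⟨(abs_add_le _ _).trans
    (add_le_add (h.2 d hd).1 (h'.2 d hd).1), fun d' hd' => ?_⟩⟩
  rw [show f d + g d - (f d' + g d') = (f d - f d') + (g d - g d') by ring, add_mul]
  exact (abs_add_le _ _).trans (add_le_add ((h.2 d hd).2 d' hd') ((h'.2 d hd).2 d' hd'))

theorem BL.neg (h : BL f C) : BL (fun d => -f d) C := by
  refine ⟨h.1, fun d hd => ⟨by rw [abs_neg]; exact (h.2 d hd).1, fun d' hd' => ?_⟩⟩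
  rw [show -f d - -f d' = -(f d - f d') by ring, abs_neg]
  exact (h.2 d hd).2 d' hd'

theorem BL.mul (h : BL f C) (h' : BL g C') : BL (fun d => f d * g d) (2 * (C * C')) := by
  have hCC := mul_nonneg h.1 h'.1
  refine ⟨by positivity, fun d hd => ⟨?_, fun d' hd' => ?_⟩⟩
  · rw [abs_mul]
    have := mul_le_mul (h.2 d hd).1 (h'.2 d hd).1 (abs_nonneg _) h.1
    linarith
  · rw [show f d * g d - f d' * g d' = (f d - f d') * g d + f d' * (g d - g d') by ring]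
    refine (abs_add_le _ _).trans ?_
    rw [abs_mul, abs_mul]
    have h1 := mul_le_mul ((h.2 d hd).2 d' hd') (h'.2 d hd).1 (abs_nonneg _)
      (mul_nonneg h.1 (abs_nonneg _))
    have h2 := mul_le_mul (h.2 d' hd').1 ((h'.2 d hd).2 d' hd') (abs_nonneg _) h.1
    linarith

theorem BL.avg {𝒦 : Type} [Fintype 𝒦] {α : 𝒦 → ℝ} (h0 : ∀ k, 0 ≤ α k) (h1 : ∑ k, α k = 1)
    {F : 𝒦 → ℝ → ℝ} (hC : 0 ≤ C) (h : ∀ k, BL (F k) C) : BL (fun d => ∑ k, α k * F k d) C := by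
  refine ⟨hC, fun d hd => ⟨?_, fun d' hd' => ?_⟩⟩
  · refine (abs_sum_le_sum_abs _ _).trans ?_
    calc ∑ k, |α k * F k d| ≤ ∑ k, α k * C := sum_le_sum fun k _ => by
          rw [abs_mul, abs_of_nonneg (h0 k)]
          exact mul_le_mul_of_nonneg_left ((h k).2 d hd).1 (h0 k)
      _ = C := by rw [← sum_mul, h1, one_mul]
  · rw [← sum_sub_distrib]
    refine (abs_sum_le_sum_abs _ _).trans ?_
    calc ∑ k, |α k * F k d - α k * F k d'| ≤ ∑ k, α k * (C * |d - d'|) := sum_le_sum fun k _ => by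
          rw [← mul_sub, abs_mul, abs_of_nonneg (h0 k)]
          exact mul_le_mul_of_nonneg_left (((h k).2 d hd).2 d' hd') (h0 k)
      _ = C * |d - d'| := by rw [← sum_mul, h1, one_mul]

theorem one_le_den {m d : ℝ} (hm : m ≤ 0) (hd : 0 ≤ d) : 1 ≤ 1 - m * d := by nlinarith

theorem BL.rho {m Λ : ℝ} (hm : m ∈ Set.Icc (-Λ) 0) : BL (fun d => (1 - m * d)⁻¹) (1 + |Λ|) := by
  have hΛ := le_abs_self Λ
  have hΛ' := abs_nonneg Λ
  refine ⟨by positivity, fun d hd => ⟨?_, fun d' hd' => ?_⟩⟩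
  · have h1 := one_le_den hm.2 hd
    rw [abs_of_nonneg (by positivity)]
    have := inv_le_one_of_one_le₀ h1
    linarith
  · have h1 := one_le_den hm.2 hd
    have h2 := one_le_den hm.2 hd'
    have e : (1 - m * d)⁻¹ - (1 - m * d')⁻¹ = m * (d - d') * ((1 - m * d)⁻¹ * (1 - m * d')⁻¹) := by
      field_simp
      ring
    rw [e, abs_mul, abs_mul]
    have h3 : |(1 - m * d)⁻¹ * (1 - m * d')⁻¹| ≤ 1 := by
      rw [abs_of_nonneg (by positivity)]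
      exact mul_le_one₀ (inv_le_one_of_one_le₀ h1) (by positivity) (inv_le_one_of_one_le₀ h2)
    have h4 : |m| ≤ 1 + |Λ| := by
      rw [abs_le]; constructor <;> linarith [hm.1, hm.2]
    calc |m| * |d - d'| * _ ≤ |m| * |d - d'| * 1 :=
          mul_le_mul_of_nonneg_left h3 (by positivity)
      _ ≤ (1 + |Λ|) * |d - d'| := by
          rw [mul_one]; exact mul_le_mul_of_nonneg_right h4 (abs_nonneg _)

theorem BL.inv {a0 : ℝ} (h : BL f C) (ha : 0 < a0) (ha1 : a0 ≤ 1) (hC : 1 ≤ C)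
    (hf : ∀ d, 0 ≤ d → a0 ≤ f d) : BL (fun d => (f d)⁻¹) (C / a0 ^ 2) := by
  refine ⟨div_nonneg h.1 (sq_nonneg _), fun d hd => ⟨?_, fun d' hd' => ?_⟩⟩
  · have h1 := hf d hd
    rw [abs_of_nonneg (inv_nonneg.2 (by linarith)), le_div_iff₀ (by positivity)]
    have h2 : (f d)⁻¹ ≤ a0⁻¹ := inv_anti₀ ha h1
    calc (f d)⁻¹ * a0 ^ 2 ≤ a0⁻¹ * a0 ^ 2 := mul_le_mul_of_nonneg_right h2 (by positivity)
      _ = a0 := by field_simp
      _ ≤ C := ha1.trans hC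
  · have h1 := hf d hd
    have h2 := hf d' hd'
    have h3 : 0 < f d := by linarith
    have h4 : 0 < f d' := by linarith
    have e : (f d)⁻¹ - (f d')⁻¹ = -(f d - f d') * ((f d)⁻¹ * (f d')⁻¹) := by
      field_simp
      ring
    rw [e, abs_mul, abs_neg, abs_of_nonneg (by positivity : 0 ≤ (f d)⁻¹ * (f d')⁻¹)]
    have h5 : (f d)⁻¹ * (f d')⁻¹ ≤ a0⁻¹ * a0⁻¹ :=
      mul_le_mul (inv_anti₀ ha h1) (inv_anti₀ ha h2) (by positivity) (by positivity)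
    calc _ ≤ C * |d - d'| * (a0⁻¹ * a0⁻¹) :=
          mul_le_mul ((h.2 d hd).2 d' hd') h5 (by positivity) (mul_nonneg h.1 (abs_nonneg _))
      _ = C / a0 ^ 2 * |d - d'| := by field_simp

variable {𝒦 : Type} [Fintype 𝒦] [DecidableEq 𝒦]

/-- the coefficient of the error `ε a b` -/
noncomputable def cf (ω lam : 𝒦 → ℝ) (a b : 𝒦) (d : ℝ) : ℝ :=
  -((∑ k, ω k ^ 2 * (lam k * ((1 - lam k * d)⁻¹ * (1 - lam k * d)⁻¹))) *
      ((∑ k, ω k ^ 2 * (1 - lam k * d)⁻¹)⁻¹ * (∑ k, ω k ^ 2 * (1 - lam k * d)⁻¹)⁻¹) *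
      (ω a * ω b * (1 - lam b * d)⁻¹)) +
    (∑ k, ω k ^ 2 * (1 - lam k * d)⁻¹)⁻¹ *
      (ω a * ω b * (lam b * ((1 - lam b * d)⁻¹ * (1 - lam b * d)⁻¹))) +
    -((∑ k, ω k ^ 2 * (1 - lam k * d)⁻¹)⁻¹ *
      (ω a * ω b * (lam a * ((1 - lam a * d)⁻¹ * (1 - lam b * d)⁻¹)))) +
    (if a = b then 1 else 0) * (lam a * (1 - lam a * d)⁻¹)

theorem cf_BL (a0 Λ : ℝ) : ∃ C : ℝ, ∀ (𝒦 : Type) [Fintype 𝒦] [DecidableEq 𝒦] (ω lam : 𝒦 → ℝ),
    Atom (fun k => ω k ^ 2) lam a0 Λ → ∀ a b, BL (cf ω lam a b) C := by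
  have hρ : ∀ (𝒦 : Type) [Fintype 𝒦] (ω lam : 𝒦 → ℝ), Atom (fun k => ω k ^ 2) lam a0 Λ → ∀ k,
      BL (fun d => (1 - lam k * d)⁻¹) (1 + |Λ|) := fun _ _ _ _ h k => BL.rho (h.mem k)
  have hl : ∀ (𝒦 : Type) [Fintype 𝒦] (ω lam : 𝒦 → ℝ), Atom (fun k => ω k ^ 2) lam a0 Λ → ∀ k,
      BL (fun _ => lam k) |Λ| := fun _ _ _ lam h k => BL.const (by
    rw [abs_le]
    constructor <;> linarith [(h.mem k).1, (h.mem k).2, le_abs_self Λ, abs_nonneg Λ])
  have hω : ∀ (𝒦 : Type) [Fintype 𝒦] (ω lam : 𝒦 → ℝ), Atom (fun k => ω k ^ 2) lam a0 Λ → ∀ a b,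
      BL (fun _ => ω a * ω b) 1 := fun _ _ ω _ h a b => BL.const (by
    have h1 : ∀ k, |ω k| ≤ 1 := fun k => by
      have := single_le_sum (f := fun k => ω k ^ 2) (fun k _ => h.nonneg k) (mem_univ k)
      rw [h.sum_one] at this
      exact (sq_le_one_iff_abs_le_one _).1 this
    rw [abs_mul]
    exact mul_le_one₀ (h1 a) (abs_nonneg _) (h1 b))
  have hs : ∀ (𝒦 : Type) [Fintype 𝒦] (ω lam : 𝒦 → ℝ), Atom (fun k => ω k ^ 2) lam a0 Λ →
      BL (fun d => (∑ k, ω k ^ 2 * (1 - lam k * d)⁻¹)⁻¹) ((1 + |Λ|) / a0 ^ 2) := fun _ _ ω lam h =>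
    (BL.avg h.nonneg h.sum_one (by positivity) (hρ _ ω lam h)).inv h.a0_pos h.a0_le_one
      (le_add_of_nonneg_right (abs_nonneg _)) fun d hd => by
        have := (h.s1_mem hd).1
        simpa only [s1, div_eq_mul_inv] using this
  have hδ : ∀ (𝒦 : Type) [DecidableEq 𝒦] (a b : 𝒦), BL (fun _ => if a = b then (1 : ℝ) else 0) 1 :=
    fun _ _ a b => BL.const (by split_ifs <;> simp)
  exact ⟨_, fun 𝒦 _ _ ω lam h a b =>
    (((((BL.avg h.nonneg h.sum_one (by positivity) fun k =>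
      (hl _ ω lam h k).mul ((hρ _ ω lam h k).mul (hρ _ ω lam h k))).mul
        ((hs _ ω lam h).mul (hs _ ω lam h))).mul ((hω _ ω lam h a b).mul (hρ _ ω lam h b))).neg.add
      ((hs _ ω lam h).mul ((hω _ ω lam h a b).mul
        ((hl _ ω lam h b).mul ((hρ _ ω lam h b).mul (hρ _ ω lam h b)))))).add
      ((hs _ ω lam h).mul ((hω _ ω lam h a b).mul
        ((hl _ ω lam h a).mul ((hρ _ ω lam h a).mul (hρ _ ω lam h b))))).neg).add
      ((hδ _ a b).mul ((hl _ ω lam h a).mul (hρ _ ω lam h a)))⟩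

/-- the pointwise algebra -/
theorem algebra (ω lam ρ c : 𝒦 → ℝ) (d : ℝ) (x ε : 𝒦 → 𝒦 → ℝ) (hsymm : ∀ a b, x a b = x b a)
    (hx : ∀ a b, x a b = ρ b * ((if a = b then 1 else 0) * d + ω b * c a + ε a b))
    (hs : ∑ k, ω k ^ 2 * ρ k ≠ 0) :
    ∑ k, lam k * x k k = ∑ k, lam k * d * ρ k +
      (∑ k, ω k ^ 2 * (lam k * (ρ k * ρ k))) * ((∑ k, ω k ^ 2 * ρ k)⁻¹ * (∑ k, ω k ^ 2 * ρ k)⁻¹) *
        (∑ a, ∑ b, ω a * ω b * x a b - (∑ k, ω k ^ 2 * ρ k) * d) +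
      ∑ a, ∑ b, (-((∑ k, ω k ^ 2 * (lam k * (ρ k * ρ k))) *
          ((∑ k, ω k ^ 2 * ρ k)⁻¹ * (∑ k, ω k ^ 2 * ρ k)⁻¹) * (ω a * ω b * ρ b)) +
        (∑ k, ω k ^ 2 * ρ k)⁻¹ * (ω a * ω b * (lam b * (ρ b * ρ b))) +
        -((∑ k, ω k ^ 2 * ρ k)⁻¹ * (ω a * ω b * (lam a * (ρ a * ρ b)))) +
        (if a = b then 1 else 0) * (lam a * ρ a)) * ε a b := by
  set s := ∑ k, ω k ^ 2 * ρ k with hsd
  set B := ∑ k, ω k ^ 2 * (lam k * (ρ k * ρ k)) with hB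
  set cb := ∑ k, ω k * c k with hcb
  have h1 : ∀ a, ∑ b, ω b * x a b = ω a * ρ a * d + s * c a + ∑ b, ω b * ρ b * ε a b := by
    intro a
    have : ∀ b, ω b * x a b = (if a = b then ω b * ρ b * d else 0) + ω b ^ 2 * ρ b * c a +
        ω b * ρ b * ε a b := fun b => by
      rw [hx]; split_ifs <;> ring
    simp only [this, sum_add_distrib, sum_ite_eq, mem_univ, if_true, hsd, sum_mul]
  have h2 : ∀ a, ∑ b, ω b * x a b = ω a * ρ a * d + ρ a * ω a * cb + ∑ b, ρ a * ω b * ε b a := by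
    intro a
    have : ∀ b, ω b * x a b = (if b = a then ω b * ρ a * d else 0) + ρ a * ω a * (ω b * c b) +
        ρ a * ω b * ε b a := fun b => by
      rw [hsymm, hx]; split_ifs <;> ring
    simp only [this, sum_add_distrib, sum_ite_eq', mem_univ, if_true, hcb, mul_sum]
  have h3 : ∀ a, c a = s⁻¹ * (ρ a * ω a * cb + ∑ b, ρ a * ω b * ε b a - ∑ b, ω b * ρ b * ε a b) := by
    intro a
    have := (h1 a).symm.trans (h2 a)
    field_simp
    linarith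
  have h4 : ∑ a, ∑ b, ω a * ω b * x a b = s * d + s * cb + ∑ a, ∑ b, ω a * ω b * ρ b * ε a b := by
    have : ∀ a, ∑ b, ω a * ω b * x a b = ω a ^ 2 * ρ a * d + s * (ω a * c a) +
        ∑ b, ω a * ω b * ρ b * ε a b := fun a => by
      have e1 : ∑ b, ω a * ω b * x a b = ω a * ∑ b, ω b * x a b := by
        rw [mul_sum]; exact sum_congr rfl fun _ _ => by ring
      have e2 : ∑ b, ω a * ω b * ρ b * ε a b = ω a * ∑ b, ω b * ρ b * ε a b := by
        rw [mul_sum]; exact sum_congr rfl fun _ _ => by ring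
      rw [e1, e2, h1]; ring
    simp only [this, sum_add_distrib, ← mul_sum, ← sum_mul, ← hsd, ← hcb]
  have h5 : ∀ k, lam k * x k k = lam k * d * ρ k + s⁻¹ * cb * (ω k ^ 2 * (lam k * (ρ k * ρ k))) +
      ∑ b, s⁻¹ * (ω b * ω k * (lam k * (ρ k * ρ k))) * ε b k -
      ∑ b, s⁻¹ * (ω k * ω b * (lam k * (ρ k * ρ b))) * ε k b + lam k * ρ k * ε k k := by
    intro k
    have e1 : ∑ b, s⁻¹ * (ω b * ω k * (lam k * (ρ k * ρ k))) * ε b k =
        s⁻¹ * (lam k * ρ k * ω k) * ∑ b, ρ k * ω b * ε b k := by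
      rw [mul_sum]; exact sum_congr rfl fun _ _ => by ring
    have e2 : ∑ b, s⁻¹ * (ω k * ω b * (lam k * (ρ k * ρ b))) * ε k b =
        s⁻¹ * (lam k * ρ k * ω k) * ∑ b, ω b * ρ b * ε k b := by
      rw [mul_sum]; exact sum_congr rfl fun _ _ => by ring
    rw [hx, if_pos rfl, e1, e2, h3 k]
    ring
  have h6 : ∑ a, ∑ b, B * (s⁻¹ * s⁻¹) * (ω a * ω b * ρ b) * ε a b =
      B * (s⁻¹ * s⁻¹) * ∑ a, ∑ b, ω a * ω b * ρ b * ε a b := by
    simp only [mul_sum]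
    exact sum_congr rfl fun _ _ => sum_congr rfl fun _ _ => by ring
  have h7 : ∑ a, ∑ b, (if a = b then 1 else 0) * (lam a * ρ a) * ε a b = ∑ k, lam k * ρ k * ε k k := by
    refine sum_congr rfl fun a _ => ?_
    simp
  simp only [h5, sum_add_distrib, sum_sub_distrib, add_mul, neg_mul, sum_neg_distrib, h4, h6, h7]
  rw [← mul_sum, ← hB, sum_comm (f := fun k b => s⁻¹ * (ω b * ω k * (lam k * (ρ k * ρ k))) * ε b k)]
  linear_combination (-(B * s⁻¹ * cb)) * mul_inv_cancel₀ hs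

end Solve

open Solve

theorem solve_fam (a0 Λ ā : ℝ) (nk : ℕ) : ∃ C : ℝ, 0 ≤ C ∧
    ∀ (G : Grid) (𝒦 : Type) [Fintype 𝒦] [DecidableEq 𝒦], Fintype.card 𝒦 ≤ nk →
    ∀ (ω lam : 𝒦 → ℝ) (k1 : 𝒦) (a : ℕ → ℝ) (Q : 𝒦 → 𝒦 → ℕ → ℝ) (η : ℝ),
      Atom (fun k => ω k ^ 2) lam a0 Λ → ω k1 ≠ 0 → G.IsPath a ā →
      (∀ k k' i, Q k k' i = Q k' k i) → (∀ k k', Q k k' 0 = 0) →
      (∀ k k', G.nrm (fun i => (Q k k' i - ω k' / ω k1 * Q k k1 i) -
          ((if k = k' then 1 else 0) - ω k' / ω k1 * (if k = k1 then 1 else 0)) * a i -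
          G.conv (fun j => lam k' * Q k k' j - ω k' / ω k1 * (lam k1 * Q k k1 j)) a i) ≤ η) →
      |∑ k, lam k * Q k k G.n -
        (G.TT (fun i => ∑ k, lam k * G.D a i / (1 - lam k * G.D a i) -
            bet (fun k => ω k ^ 2) lam lam (G.D a i) * s1 (fun k => ω k ^ 2) lam (G.D a i) * G.D a i) +
          G.TT (fun i => bet (fun k => ω k ^ 2) lam lam (G.D a i) *
            G.D (fun j => ∑ k, ∑ k', ω k * ω k' * Q k k' j) i))| ≤ C * η := by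
  obtain ⟨C, hC⟩ := cf_BL a0 Λ
  refine ⟨(nk : ℝ) * (nk * (|C| + |C| * |ā|)), by positivity,
    fun G 𝒦 _ _ hcard ω lam k1 a Q η hA hω ha hsymm hQ0 herr => ?_⟩
  set err : 𝒦 → 𝒦 → ℕ → ℝ := fun k k' i => (Q k k' i - ω k' / ω k1 * Q k k1 i) -
    ((if k = k' then 1 else 0) - ω k' / ω k1 * (if k = k1 then 1 else 0)) * a i -
    G.conv (fun j => lam k' * Q k k' j - ω k' / ω k1 * (lam k1 * Q k k1 j)) a i with herrdef
  have hη : 0 ≤ η := Grid.nrm_nonneg.trans (herr k1 k1)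
  have herr0 : ∀ k k', err k k' 0 = 0 := fun k k' => by
    simp [herrdef, Grid.conv, hQ0, ha.zero]
  have hpt : ∀ i, i ≤ G.n → G.D (fun j => ∑ k, lam k * Q k k j) i =
      ((∑ k, lam k * G.D a i / (1 - lam k * G.D a i) -
          bet (fun k => ω k ^ 2) lam lam (G.D a i) * s1 (fun k => ω k ^ 2) lam (G.D a i) * G.D a i) +
        bet (fun k => ω k ^ 2) lam lam (G.D a i) *
            G.D (fun j => ∑ k, ∑ k', ω k * ω k' * Q k k' j) i) +
        ∑ k, ∑ k', cf ω lam k k' (G.D a i) * G.D (err k k') i := by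
    intro i hi
    have hd := (ha.D_mem i).1
    set d := G.D a i with hdd
    have hden : ∀ k, 1 - lam k * d ≠ 0 := fun k => by
      have := one_le_den (hA.mem k).2 hd
      linarith
    have hs : ∑ k, ω k ^ 2 * (1 - lam k * d)⁻¹ = s1 (fun k => ω k ^ 2) lam d := by
      simp only [s1, div_eq_mul_inv]
    have hs0 : ∑ k, ω k ^ 2 * (1 - lam k * d)⁻¹ ≠ 0 := by
      rw [hs]
      exact (hA.a0_pos.trans_le (hA.s1_mem hd).1).ne'
    have key := algebra ω lam (fun k => (1 - lam k * d)⁻¹)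
      (fun k => ((1 - lam k1 * d) * G.D (Q k k1) i - (if k = k1 then 1 else 0) * d) / ω k1) d
      (fun k k' => G.D (Q k k') i) (fun k k' => G.D (err k k') i)
      (fun k k' => by rw [show Q k k' = Q k' k from funext (hsymm k k')])
      (fun k k' => by
        have := hden k'
        simp only [herrdef]
        rw [Grid.D_sub, Grid.D_sub, Grid.D_sub, Grid.D_conv hi, Grid.D_sub, Grid.D_mul, Grid.D_mul,
          Grid.D_mul, Grid.D_mul, Grid.D_mul, ← hdd]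
        field_simp
        ring) hs0
    have hb : bet (fun k => ω k ^ 2) lam lam d =
        (∑ k, ω k ^ 2 * (lam k * ((1 - lam k * d)⁻¹ * (1 - lam k * d)⁻¹))) *
          ((∑ k, ω k ^ 2 * (1 - lam k * d)⁻¹)⁻¹ * (∑ k, ω k ^ 2 * (1 - lam k * d)⁻¹)⁻¹) := by
      rw [bet, hs, div_eq_mul_inv, sq, mul_inv]
      congr 1
      refine sum_congr rfl fun k _ => ?_
      rw [div_eq_mul_inv, sq (1 - lam k * d), mul_inv, mul_assoc]
    rw [Grid.D_sum, Grid.D_sum]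
    simp only [Grid.D_sum, Grid.D_mul]
    rw [key, hb, ← hs]
    simp only [cf, div_eq_mul_inv]
    ring
  have h1 : ∑ k, lam k * Q k k G.n = G.TT (G.D fun j => ∑ k, lam k * Q k k j) := by
    rw [Grid.TT_D]
    simp [hQ0]
  rw [h1, Grid.TT_congr hpt, Grid.TT_add, Grid.TT_add, add_sub_cancel_left, Grid.TT_sum]
  simp only [Grid.TT_sum]
  have h2 : ∀ k k', |G.TT fun i => cf ω lam k k' (G.D a i) * G.D (err k k') i| ≤
      (|C| + |C| * |ā|) * η := by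
    intro k k'
    have hB := (hC 𝒦 ω lam hA k k').mono (le_abs_self C)
    refine (ha.TT_err (hB.2 0 le_rfl).1 (fun d hd d' hd' => (hB.2 d hd.1).2 d' hd'.1) hB.1
      (herr0 k k')).trans ?_
    refine mul_le_mul ?_ (herr k k') Grid.nrm_nonneg (by positivity)
    have := mul_le_mul_of_nonneg_left (le_abs_self ā) (abs_nonneg C)
    linarith
  have hk : (Fintype.card 𝒦 : ℝ) ≤ nk := by exact_mod_cast hcard
  have hP : 0 ≤ (|C| + |C| * |ā|) * η := by positivity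
  refine (abs_sum_le_sum_abs _ _).trans ?_
  calc _ ≤ ∑ _k : 𝒦, ∑ _k' : 𝒦, (|C| + |C| * |ā|) * η :=
        sum_le_sum fun k _ => (abs_sum_le_sum_abs _ _).trans (sum_le_sum fun k' _ => h2 k k')
    _ = Fintype.card 𝒦 * (Fintype.card 𝒦 * ((|C| + |C| * |ā|) * η)) := by
        simp only [sum_const, card_univ, nsmul_eq_mul]
    _ ≤ nk * (nk * ((|C| + |C| * |ā|) * η)) := by gcongr
    _ = _ := by ring

theorem solve_one (Λ ā : ℝ) : ∃ C : ℝ, 0 ≤ C ∧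
    ∀ (G : Grid) (m : ℝ) (a Q : ℕ → ℝ) (η : ℝ), m ∈ Set.Icc (-Λ) 0 → G.IsPath a ā → Q 0 = 0 →
      G.nrm (fun i => Q i - a i - G.conv (fun j => m * Q j) a i) ≤ η →
      G.nrm (fun i => Q i - G.pathOf (fun j => G.D a j / (1 - m * G.D a j)) i) ≤ C * η := by
  refine ⟨(1 + |Λ|) + 8 * (1 + |Λ|) * |ā|, by positivity, fun G m a Q η hm ha hQ0 herr => ?_⟩
  have hB := BL.rho hm
  refine (ha.nrm_err (f := fun d => (1 - m * d)⁻¹)
    (e := fun i => Q i - a i - G.conv (fun j => m * Q j) a i) (hB.2 0 le_rfl).1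
    (fun d hd d' hd' => (hB.2 d hd.1).2 d' hd'.1) hB.1 ?_ ?_ fun i hi => ?_).trans ?_
  · simp [Grid.conv, hQ0, ha.zero]
  · simp [hQ0, Grid.pathOf_zero]
  · have hden : 1 - m * G.D a i ≠ 0 := by
      have := one_le_den hm.2 (ha.D_mem i).1
      linarith
    rw [Grid.D_sub, Grid.D_sub, Grid.D_sub, Grid.D_conv hi, Grid.D_mul, Grid.D_pathOf hi,
      Grid.D_top, zero_div, sub_zero, div_eq_mul_inv]
    linear_combination (-(G.D Q i)) * mul_inv_cancel₀ hden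
  · refine mul_le_mul ?_ herr Grid.nrm_nonneg (by positivity)
    have := mul_le_mul_of_nonneg_left (le_abs_self ā) (by positivity : 0 ≤ 8 * (1 + |Λ|))
    linarith

end Crest.Agent.R164
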