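import Crest.Agent.R164.Key
import Crest.Agent.R164.Solve

/-!
Row 164, task R164-Rel: for Haar block systems the spin overlap and the energy are functions of the overlap path of the probe block.

PLAN.  `ā = 1/a0`.  For `i` with `blk i ≠ k0`: `key` with `ω = 0`, `ψ = γ = Pi.single i 1` (`xl_single`), `M² = √40 (1+Λ)² N/m_k` where
`m_k = #blk⁻¹(blk i)` (`block_four` with `B = B' = blk⁻¹ (blk i)`), then `solve_one`.  Sum over `i` and divide by `N`:
`Σ_i (N/m_{blk i})/N ≤ card 𝒦`.  For `T`: `Σ_{j∈T} ov x_j x_j k / |T| = E0 (qq k)` is within `δ k` of `a k = pathOf (D a) k`.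
`sum_ov_xx`, linearity of `pathOf` (in the argument), `abs_top_le`, `pathOf_top`.  Take `η'` from `pin_KH`.
-/

set_option autoImplicit false

namespace Crest.Agent.R164

open MeasureTheory Finset Matrix

/-- fraction of the coordinates in a block -/
noncomputable def frac {ι 𝒦 : Type} [Fintype ι] [DecidableEq 𝒦] (blk : ι → 𝒦) (k : 𝒦) : ℝ :=
  ((univ.filter fun i => blk i = k).card : ℝ) / Fintype.card ι

namespace RelA

theorem nrm_mono {G : Grid} {e e' : ℕ → ℝ} (h : ∀ i, 2 ≤ i → i ≤ G.n → |e i| ≤ |e' i|) :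
    G.nrm e ≤ G.nrm e' := by
  have h3 := G.three_le
  refine add_le_add (h _ (by omega) le_rfl) (sum_le_sum fun i hi => ?_)
  rw [mem_Ioo] at hi
  by_cases h1 : i = 1
  · subst h1; simp [Grid.w_one]
  · exact mul_le_mul_of_nonneg_left (h i (by omega) hi.2.le) (Grid.w_nonneg i)

theorem pathOf_sum {G : Grid} {𝒦 : Type} [Fintype 𝒦] (α : 𝒦 → ℝ) (β : 𝒦 → ℕ → ℝ) (k : ℕ) :
    G.pathOf (fun i => ∑ b, α b * β b i) k = ∑ b, α b * G.pathOf (β b) k := by
  simp only [Grid.pathOf, Grid.dh, mul_sum]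
  rw [sum_comm]
  refine sum_congr rfl fun j _ => ?_
  rw [← sum_sub_distrib, sum_div]
  exact sum_congr rfl fun b _ => by ring

theorem pathOf_D {G : Grid} {a : ℕ → ℝ} (h0 : a 0 = 0) {k : ℕ} (hk : k ≤ G.n) :
    G.pathOf (G.D a) k = a k :=
  Grid.eq_of_D (by rw [Grid.pathOf_zero, h0])
    (fun i hi => by rw [Grid.D_pathOf hi, Grid.D_top, sub_zero]) hk

variable {ι : Type} [Fintype ι] [DecidableEq ι]
variable {G : Grid} {ν : ProbabilityMeasure (OG ι)} {S : Sys ι} {T : Finset ι}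

theorem tame_qq (k : ℕ) : (tree G ν).Tame (qq G ν S T k) := by
  have h : qq G ν S T k = fun ω => ((T.card : ℝ))⁻¹ * ∑ j ∈ T, xx G j ω * EE G ν S k (xx G j) ω := by
    funext ω; rw [qq, div_eq_inv_mul]
  rw [h]
  exact (Tree.Tame.sum T fun j _ => (lin_xx j).tame.mul
    (Tree.tame_Ex (lin_Ham G ν S) (lin_xx j).tame k)).const_mul _

theorem E0_qq {k : ℕ} (hk : k ≠ 0) :
    E0 G ν S (qq G ν S T k) = (∑ j ∈ T, ov G ν S (xx G j) (xx G j) k) / T.card := by
  have h : qq G ν S T k = fun ω => ((T.card : ℝ))⁻¹ * ∑ j ∈ T, xx G j ω * EE G ν S k (xx G j) ω := by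
    funext ω; rw [qq, div_eq_inv_mul]
  rw [h, div_eq_inv_mul, E0, EE, Tree.Ex_const_mul, Tree.Ex_sum (lin_Ham G ν S) T
    (F := fun j ω => xx G j ω * EE G ν S k (xx G j) ω) fun j _ => (lin_xx j).tame.mul
    (Tree.tame_Ex (lin_Ham G ν S) (lin_xx j).tame k)]
  congr 1
  refine sum_congr rfl fun j _ => ?_
  have h1 := E0_EE (G := G) (ν := ν) (S := S) (fun ω => xx G j ω * EE G ν S k (xx G j) ω) k
  have h2 : EE G ν S k (fun ω => xx G j ω * EE G ν S k (xx G j) ω) =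
      fun ω => EE G ν S k (xx G j) ω * EE G ν S k (xx G j) ω := by
    funext ω
    have := Tree.Ex_mul_dep (T := tree G ν) (Ham G S) (xx G j) (l := k)
      (g := EE G ν S k (xx G j)) (Tree.dep_Ex _ _ _) ω
    simp only [mul_comm (xx G j _)]
    exact this
  rw [h2] at h1
  rw [ov, if_neg hk, h1]
  rfl

theorem top_block {a : ℕ → ℝ} {Δ : ℝ} (h : KH G ν S T a Δ) :
    G.nrm (fun k => (∑ j ∈ T, ov G ν S (xx G j) (xx G j) k) / T.card - a k) ≤ Δ := by
  obtain ⟨δ, h0, h1, h2, -⟩ := h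
  refine (nrm_mono fun k hk hk' => ?_).trans h1
  have ht : (tree G ν).Tame fun ω => qq G ν S T k ω - a k := (tame_qq k).sub (Tree.Tame.const _)
  have h3 := Tree.sq_Ex_le (lin_Ham G ν S) ht 0 pt0
  rw [Tree.Ex_sub (lin_Ham G ν S) (tame_qq k) (Tree.Tame.const _), Tree.Ex_const (lin_Ham G ν S)] at h3
  have h4 := E0_qq (G := G) (ν := ν) (S := S) (T := T) (k := k) (by omega)
  rw [E0, EE] at h4
  rw [h4] at h3
  exact sq_le_sq.1 (h3.trans (h2 k hk hk'))

theorem ov_lam (i : ι) : ov G ν S (xl G (Pi.single i 1))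
    (xl G fun j => S.lam j * (Pi.single i (1 : ℝ) : ι → ℝ) j) =
    fun k => S.lam i * ov G ν S (xx G i) (xx G i) k := by
  funext k
  rw [ov_xl]
  simp [Pi.single_apply]

/-- one free coordinate -/
theorem free_coord (Λ ā : ℝ) : ∃ K : ℝ, 0 ≤ K ∧ ∀ (ι : Type) [Fintype ι] [DecidableEq ι] (G : Grid)
    (ν : ProbabilityMeasure (OG ι)) (S : Sys ι) (T B : Finset ι) (a : ℕ → ℝ) (Δ ξ lT m : ℝ) (uT : ℕ → ℝ),
    IsHaar ν → T.Nonempty → Top G S T lT uT → (Fintype.card ι : ℝ) ≤ ā * T.card →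
    G.IsPath a ā → KH G ν S T a Δ → |lT| + ∑ l ∈ Ico 1 (G.n - 1), |uT l| ≤ ξ → ξ ≤ 1 →
    m ∈ Set.Icc (-Λ) 0 → (∀ i ∈ B, i ∉ T ∧ S.lam i = m ∧ ∀ l ∈ Ico 1 (G.n - 1), S.u l i = 0) →
    ∀ i ∈ B, G.nrm (fun k => ov G ν S (xx G i) (xx G i) k -
      G.pathOf (fun j => G.D a j / (1 - m * G.D a j)) k) ≤
        K * ((Fintype.card ι : ℝ) / B.card) * (Δ + ā * ξ) := by
  obtain ⟨C, hC0, hC⟩ := key
  obtain ⟨C', hC0', hC'⟩ := solve_one Λ ā
  refine ⟨C' * (C * (7 * (1 + Λ ^ 2))), by positivity,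
    fun ι _ _ G ν S T B a Δ ξ lT m uT hν hT htop hcard ha hKH hξ hξ1 hm hB i hi => ?_⟩
  have hBpos : (0 : ℝ) < B.card := by exact_mod_cast card_pos.2 ⟨i, hi⟩
  have hBN : (B.card : ℝ) ≤ Fintype.card ι := by exact_mod_cast card_le_univ B
  set r : ℝ := (Fintype.card ι : ℝ) / B.card with hr
  have hr1 : 1 ≤ r := by rw [hr, le_div_iff₀ hBpos]; linarith
  have hM0 : 0 ≤ 7 * (1 + Λ ^ 2) * r := by positivity
  set M : ℝ := Real.sqrt (7 * (1 + Λ ^ 2) * r) with hM
  have hM2 : M ^ 2 = 7 * (1 + Λ ^ 2) * r := Real.sq_sqrt hM0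
  have hM4 : M ^ 4 = (7 * (1 + Λ ^ 2) * r) ^ 2 := by rw [← hM2]; ring
  have hc : ∀ i ∈ B, ∀ j ∈ B, S.lam i = S.lam j ∧ ∀ l ∈ Ico 1 (G.n - 1), S.u l i = S.u l j :=
    fun i hi j hj => ⟨(hB i hi).2.1.trans (hB j hj).2.1.symm,
      fun l hl => ((hB i hi).2.2 l hl).trans ((hB j hj).2.2 l hl).symm⟩
  have hfour : ∀ v : ι → ℝ, (∀ j, j ∉ B → v j = 0) → v ⬝ᵥ v ≤ 1 + Λ ^ 2 →
      E0 G ν S (fun ω => xl G v ω ^ 4) ≤ M ^ 4 := by
    intro v hv hvv
    have h0 : 0 ≤ v ⬝ᵥ v := sum_nonneg fun j _ => mul_self_nonneg _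
    refine (block_four (hν.linv 0) subset_rfl ⟨i, hi⟩ hc (fun _ _ => rfl) hv (dotProduct_zero v)).trans ?_
    rw [hM4, mul_div_assoc, ← hr]
    have h1 : (v ⬝ᵥ v) * r ≤ (1 + Λ ^ 2) * r := mul_le_mul_of_nonneg_right hvv (by linarith)
    have h2 : ((v ⬝ᵥ v) * r) ^ 2 ≤ ((1 + Λ ^ 2) * r) ^ 2 :=
      pow_le_pow_left₀ (mul_nonneg h0 (by linarith)) h1 2
    nlinarith [sq_nonneg ((1 + Λ ^ 2) * r)]
  have hs0 : ∀ j, j ∉ B → (Pi.single i (1 : ℝ) : ι → ℝ) j = 0 := fun j hj =>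
    Pi.single_eq_of_ne (fun h : j = i => hj (h ▸ hi)) _
  have hss : (Pi.single i (1 : ℝ) : ι → ℝ) ⬝ᵥ (Pi.single i (1 : ℝ) : ι → ℝ) = 1 := by simp
  have hkey := hC ι G ν S T a ā Δ ξ M lT uT 0 (Pi.single i 1) (Pi.single i 1) (hν.linv 0) hT htop hcard ha
    hKH hξ hξ1
    (fun j hj => by
      have : (Pi.single i (1 : ℝ) : ι → ℝ) j = 0 :=
        Pi.single_eq_of_ne (fun h : j = i => (hB i hi).1 (h ▸ hj)) _
      exact ⟨rfl, this, this⟩)
    (dotProduct_zero _)
    (fun l hl j hj => by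
      by_cases hjB : j ∈ B
      · exact (hB j hjB).2.2 l hl
      · exact absurd (hs0 j hjB) hj)
    (Real.sqrt_nonneg _)
    (by rw [hss, abs_one, hM2]; nlinarith [sq_nonneg Λ])
    (hfour _ hs0 (by rw [hss]; nlinarith [sq_nonneg Λ]))
    (hfour _ hs0 (by rw [hss]; nlinarith [sq_nonneg Λ]))
    (hfour _ (fun j hj => by rw [hs0 j hj, mul_zero]) (by
      have : (fun j => S.lam j * (Pi.single i (1 : ℝ) : ι → ℝ) j) ⬝ᵥ
          (fun j => S.lam j * (Pi.single i (1 : ℝ) : ι → ℝ) j) = m ^ 2 := by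
        simp [dotProduct, Pi.single_apply, (hB i hi).2.1, sq]
      rw [this]
      nlinarith [hm.1, hm.2]))
  rw [ov_lam, hss, xl_single, (hB i hi).2.1] at hkey
  simp only [one_mul] at hkey
  refine (hC' G m a _ _ hm ha (by simp [ov]) hkey).trans (le_of_eq ?_)
  rw [hM2]; ring

end RelA

open RelA in
theorem rel (𝒦 : Type) [Fintype 𝒦] [DecidableEq 𝒦] {y ā Λ η : ℝ} (hy : 0 < y) (hη : 0 < η) :
    ∃ η' : ℝ, 0 < η' ∧ ∀ (ι : Type) [Fintype ι] [DecidableEq ι] (G : Grid) (ν : ProbabilityMeasure (OG ι))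
      (S : Sys ι) (blk : ι → 𝒦) (k0 : 𝒦) (μ : 𝒦 → ℝ) (a : ℕ → ℝ) (P : PP),
      G.ζ 0 = y → IsHaar ν → (∀ k, μ k ∈ Set.Icc (-Λ) 0) → μ k0 = 0 →
      (∀ i, blk i ≠ k0 → S.lam i = μ (blk i) ∧ ∀ l ∈ Ico 1 (G.n - 1), S.u l i = 0) →
      Pin G ν S (univ.filter fun i => blk i = k0) a ā P η' →
      G.nrm (fun k => (∑ r, ov G ν S (sg G r) (sg G r) k) / Fintype.card ι -
        G.pathOf (fun i => gf (frac blk) μ (G.D a i)) k) ≤ η ∧
      ∀ c : 𝒦 → ℝ, (∀ k, |c k| ≤ Λ) →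
        |(∑ i, c (blk i) * ov G ν S (xx G i) (xx G i) G.n) / Fintype.card ι -
          G.TT (fun i => Ef (frac blk) μ c (G.D a i))| ≤ η := by
  obtain ⟨K, hK0, hK⟩ := free_coord Λ ā
  set A : ℝ := (Fintype.card 𝒦 : ℝ) * (1 + |Λ|) * (K * (1 + |ā|) + 1) + 1 with hA
  have hA0 : 0 < A := by positivity
  have hΔ : 0 < min 1 (η / A) := lt_min one_pos (div_pos hη hA0)
  obtain ⟨η', hη'0, hη'le, hpin⟩ := pin_KH (ā := ā) hy hΔ
  refine ⟨η', hη'0, fun ι _ _ G ν S blk k0 μ a P hGy hν hμ hμ0 hfree hP => ?_⟩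
  set Δ := min 1 (η / A) with hΔdef
  have hKH := hpin ι G ν S _ a P hGy hP
  set T : Finset ι := univ.filter fun i => blk i = k0 with hT
  have hTne : T.Nonempty := by
    rw [← card_pos]
    by_contra h0
    have h1 := hP.tiny.big
    rw [show T.card = 0 by omega] at h1
    simp at h1
    linarith
  have hTpos : (0 : ℝ) < T.card := by exact_mod_cast card_pos.2 hTne
  have hTN : (T.card : ℝ) ≤ Fintype.card ι := by exact_mod_cast card_le_univ T
  have hN : (0 : ℝ) < Fintype.card ι := hTpos.trans_le hTN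
  have hξ : |P.lT| + ∑ l ∈ Ico 1 (G.n - 1), |P.uT l| ≤ η' := by
    refine le_trans (le_of_eq ?_) hP.tiny.ξ
    congr 1
    exact sum_congr rfl fun l hl => abs_of_nonneg (hP.tiny.umin_pos.le.trans (hP.tiny.umin_le l hl))
  set ε : ℝ := (K * (1 + |ā|) + 1) * Δ with hε
  set E : 𝒦 → ℕ → ℝ := fun b k => (∑ i ∈ univ.filter (fun i => blk i = b), ov G ν S (xx G i) (xx G i) k) /
    Fintype.card ι - frac blk b * G.pathOf (fun j => G.D a j / (1 - μ b * G.D a j)) k with hE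
  have hKΔ : 0 ≤ K * (1 + |ā|) * Δ := by positivity
  have hblock : ∀ b, G.nrm (E b) ≤ ε := by
    intro b
    by_cases hb : b = k0
    · subst hb
      have h1 : G.nrm (E b) = G.nrm fun k => ((T.card : ℝ) / Fintype.card ι) *
          ((∑ j ∈ T, ov G ν S (xx G j) (xx G j) k) / T.card - a k) := by
        refine Grid.nrm_congr fun k _ hk => ?_
        simp only [hE, hμ0, zero_mul, sub_zero, div_one, frac, ← hT]
        rw [pathOf_D hP.path.zero hk]
        field_simp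
      rw [h1, Grid.nrm_mul, abs_of_nonneg (by positivity)]
      have h2 := top_block hKH
      have h3 : (T.card : ℝ) / Fintype.card ι ≤ 1 := (div_le_one hN).2 hTN
      have h4 := mul_le_mul h3 h2 Grid.nrm_nonneg zero_le_one
      rw [hε]
      nlinarith
    · set B : Finset ι := univ.filter fun i => blk i = b with hB
      have h1 : E b = fun k => (Fintype.card ι : ℝ)⁻¹ * ∑ i ∈ B, (ov G ν S (xx G i) (xx G i) k -
          G.pathOf (fun j => G.D a j / (1 - μ b * G.D a j)) k) := by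
        funext k
        simp only [hE, frac, ← hB, sum_sub_distrib, sum_const, nsmul_eq_mul]
        generalize G.pathOf (fun j => G.D a j / (1 - μ b * G.D a j)) k = z
        field_simp
      have h2 := hK ι G ν S T B a Δ η' P.lT (μ b) P.uT hν hTne hP.top hP.card hP.path hKH hξ
        (hη'le.trans (min_le_left _ _)) (hμ b) (fun i hi => by
          have hi' : blk i = b := (mem_filter.1 hi).2
          have hne : blk i ≠ k0 := hi' ▸ hb
          exact ⟨fun h => hne (mem_filter.1 h).2, hi' ▸ (hfree i hne).1, (hfree i hne).2⟩)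
      rw [h1, Grid.nrm_mul, abs_of_nonneg (by positivity)]
      have h3 := (Grid.nrm_sum_le B _).trans (sum_le_sum h2)
      rw [sum_const, nsmul_eq_mul] at h3
      have h4 : Δ + ā * η' ≤ (1 + |ā|) * Δ := by
        have := mul_le_mul (le_abs_self ā) hη'le hη'0.le (abs_nonneg ā)
        linarith
      rcases B.eq_empty_or_nonempty with hB0 | hB0
      · rw [hB0] at h3 ⊢
        simp only [card_empty, Nat.cast_zero, zero_mul] at h3
        have := mul_le_mul_of_nonneg_left h3 (inv_nonneg.2 hN.le)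
        rw [hε]
        nlinarith
      · have hBpos : (0 : ℝ) < B.card := by exact_mod_cast card_pos.2 hB0
        refine (mul_le_mul_of_nonneg_left h3 (inv_nonneg.2 hN.le)).trans ?_
        have h5 : (Fintype.card ι : ℝ)⁻¹ * (B.card * (K * ((Fintype.card ι : ℝ) / B.card) * (Δ + ā * η'))) =
            K * (Δ + ā * η') := by field_simp
        rw [h5, hε]
        nlinarith [mul_le_mul_of_nonneg_left h4 hK0]
  have hε0 : 0 ≤ ε := by positivity
  have hfin : (Fintype.card 𝒦 : ℝ) * ((1 + |Λ|) * ε) ≤ η := by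
    have h1 : Δ ≤ η / A := min_le_right _ _
    rw [le_div_iff₀ hA0, hA] at h1
    rw [hε]
    nlinarith
  have hcard0 : (0 : ℝ) ≤ Fintype.card 𝒦 := Nat.cast_nonneg _
  refine ⟨?_, fun c hc => ?_⟩
  · have h1 : (fun k => (∑ r, ov G ν S (sg G r) (sg G r) k) / Fintype.card ι -
        G.pathOf (fun i => gf (frac blk) μ (G.D a i)) k) = fun k => ∑ b, E b k := by
      funext k
      have h2 : (fun i => gf (frac blk) μ (G.D a i)) =
          fun i => ∑ b, frac blk b * (G.D a i / (1 - μ b * G.D a i)) := by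
        funext i
        rw [gf, s1, mul_sum]
        exact sum_congr rfl fun b _ => by ring
      rw [h2, pathOf_sum, ← sum_ov_xx, ← sum_fiberwise (s := univ) (g := blk), sum_div, ← sum_sub_distrib]
    rw [h1]
    refine (Grid.nrm_sum_le _ _).trans ((sum_le_sum fun b _ => hblock b).trans ?_)
    rw [sum_const, card_univ, nsmul_eq_mul]
    refine le_trans (mul_le_mul_of_nonneg_left ?_ hcard0) hfin
    nlinarith [abs_nonneg Λ]
  · have h1 : (∑ i, c (blk i) * ov G ν S (xx G i) (xx G i) G.n) / Fintype.card ι -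
        G.TT (fun i => Ef (frac blk) μ c (G.D a i)) = ∑ b, c b * E b G.n := by
      have h2 : (fun i => Ef (frac blk) μ c (G.D a i)) =
          fun i => ∑ b, (c b * frac blk b) * (G.D a i / (1 - μ b * G.D a i)) := by
        funext i
        rw [Ef]
        exact sum_congr rfl fun b _ => by ring
      rw [h2, ← Grid.pathOf_top, pathOf_sum, ← sum_fiberwise (s := univ) (g := blk), sum_div,
        ← sum_sub_distrib]
      refine sum_congr rfl fun b _ => ?_
      have h3 : ∑ i ∈ univ.filter (fun i => blk i = b), c (blk i) * ov G ν S (xx G i) (xx G i) G.n =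
          c b * ∑ i ∈ univ.filter (fun i => blk i = b), ov G ν S (xx G i) (xx G i) G.n := by
        rw [mul_sum]
        exact sum_congr rfl fun i hi => by rw [(mem_filter.1 hi).2]
      rw [h3, hE]
      ring
    rw [h1]
    refine (abs_sum_le_sum_abs _ _).trans ((sum_le_sum (g := fun _ => (1 + |Λ|) * ε) fun b _ => ?_).trans ?_)
    · rw [abs_mul]
      exact mul_le_mul ((hc b).trans (by linarith [le_abs_self Λ])) (Grid.abs_top_le.trans (hblock b))
        (abs_nonneg _) (by positivity)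
    · rw [sum_const, card_univ, nsmul_eq_mul]
      exact hfin

end Crest.Agent.R164
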