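import Crest.Agent.R164.Sym
import Crest.Agent.R164.Fact
import Crest.Agent.R164.Rel

/-!
Row 164, task R164-Cav: decomposition of the Haar measure along the first column.

PLAN.  `Ψ = exp (y Xr)`, bounded measurable.  `∫ Ψ dν⁺ = ∫∫ Ψ (U * ext1 O) dν(O) dν⁺(U)` (right invariance of `ν⁺`, Fubini).  `cav_point`: for fixed `U` take `W` from
`exists_blockrot` (`z` = column `none` of `U`; `Comm G S W`), `Õ` from `exists_house` (`B = image R`, `v = e_none`, `v' = W z`), then
`Õ⁻¹ W U` has entry `1` at `(none, none)`, so `W U = Õ ext1 V` (`exists_ext1`), and `∫ Ψ (U ext1 O) dν = ∫ Ψ (Õ ext1 (V O)) dν = ∫ Ψ (Õ ext1 O) dν = exp (y phi (famν Õ ν) S)`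
(`Xr_rot`, left invariance, `famν_mp`, `exp_phi`).  The bad set has measure `≤ β` by `IsHaar.col_tail` and a union bound.
-/

set_option autoImplicit false

namespace Crest.Agent.R164

open MeasureTheory Finset Matrix

variable {ι 𝒦 : Type} [Fintype ι] [DecidableEq ι] [Fintype 𝒦] [DecidableEq 𝒦]
variable {G : Grid} {ν : ProbabilityMeasure (OG ι)} {ν' : ProbabilityMeasure (OG (Option ι))}
variable {S : Sys (Option ι)} {blk : Option ι → 𝒦} {R : 𝒦 → Option ι} {k1 : 𝒦}

structure CavD (G : Grid) (S : Sys (Option ι)) (blk : Option ι → 𝒦) (R : 𝒦 → Option ι) (k1 : 𝒦) : Prop where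
  rep : ∀ k, blk (R k) = k
  none : R k1 = none
  const : ∀ o o', blk o = blk o' → S.lam o = S.lam o' ∧ ∀ l ∈ Ico 1 (G.n - 1), S.u l o = S.u l o'

/-- the weight averaged over the stabiliser of the first column -/
noncomputable def cavG (G : Grid) (ν : ProbabilityMeasure (OG ι)) (S : Sys (Option ι))
    (U : OG (Option ι)) : ℝ :=
  ∫ O, Real.exp (G.ζ 0 * Xr G S (U * ext1 O)) ∂(ν : Measure (OG ι))

theorem cav_meas : Measurable fun U : OG (Option ι) => Real.exp (G.ζ 0 * Xr G S U) :=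
  (measurable_Xr.const_mul _).exp

theorem cav_int : Integrable (fun p : OG (Option ι) × OG ι => Real.exp (G.ζ 0 * Xr G S (p.1 * ext1 p.2)))
    ((ν' : Measure (OG (Option ι))).prod (ν : Measure (OG ι))) := by
  obtain ⟨C, hC⟩ := Xr_bdd (G := G) (S := S)
  have hm : Measurable fun p : OG (Option ι) × OG ι => p.1 * ext1 p.2 :=
    measurable_mul_OG.comp (measurable_fst.prodMk (measurable_ext1.comp measurable_snd))
  refine Integrable.of_bound (cav_meas.comp hm).aestronglyMeasurable (Real.exp (G.ζ 0 * C))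
    (Filter.Eventually.of_forall fun p => ?_)
  rw [Real.norm_eq_abs, Real.abs_exp]
  exact Real.exp_le_exp.2 (mul_le_mul_of_nonneg_left ((le_abs_self _).trans (hC _)) (G.pos 0).le)

theorem cavG_int : Integrable (cavG G ν S) (ν' : Measure (OG (Option ι))) :=
  (cav_int (G := G) (S := S) (ν := ν) (ν' := ν')).integral_prod_left

theorem cav_fub (h' : IsHaar ν') :
    Real.exp (G.ζ 0 * phi G ν' S) = ∫ U, cavG G ν S U ∂(ν' : Measure (OG (Option ι))) := by
  have h1 := integral_integral_swap (f := fun (U : OG (Option ι)) (O : OG ι) =>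
    Real.exp (G.ζ 0 * Xr G S (U * ext1 O))) (cav_int (G := G) (S := S) (ν := ν) (ν' := ν'))
  have h2 : ∀ O : OG ι, ∫ U, Real.exp (G.ζ 0 * Xr G S (U * ext1 O)) ∂(ν' : Measure (OG (Option ι)))
      = Real.exp (G.ζ 0 * phi G ν' S) := by
    intro O
    rw [exp_phi]
    conv_rhs => rw [← h' (ext1 O)]
    rw [integral_map (Haar.measurable_right _).aemeasurable cav_meas.aestronglyMeasurable]
  unfold cavG
  rw [h1]
  simp [h2]

theorem cav_point (h : IsHaar ν) (hD : CavD G S blk R k1) (U : OG (Option ι)) :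
    ∃ Õ : OG (Option ι), IdOff Õ (Set.range R) ∧
      (∀ k, Õ.1 (R k) none ^ 2 = ∑ j ∈ univ.filter (fun j => blk j = k), U.1 j none ^ 2) ∧
      cavG G ν S U = Real.exp (G.ζ 0 * phi G (famν Õ ν) S) := by
  obtain ⟨W, hW0, hW⟩ := exists_blockrot blk R hD.rep fun o => U.1 o none
  have hc : Comm G S W := fun i j hij => hD.const i j (by
    by_contra hne
    exact hij (hW0 i j hne))
  obtain ⟨Õ, hO, hO'⟩ := exists_house (univ.image R) (v := Pi.single none 1)
    (v' := W.1 *ᵥ fun o => U.1 o none) (fun i hi => by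
      have h1 : ∀ k, i ≠ R k := fun k hk => hi (mem_image.2 ⟨k, mem_univ _, hk.symm⟩)
      rw [hW, if_neg (h1 _), Pi.single_eq_of_ne (hD.none ▸ h1 k1)]) (by
      rw [OG.sum_sq_mulVec, OG.sum_sq_col]
      simp [Pi.single_apply])
  have hcol : ∀ o, Õ.1 o none = (W.1 *ᵥ fun o => U.1 o none) o := fun o => by
    rw [← hO]
    simp
  obtain ⟨V, hV⟩ := exists_ext1 (Õ⁻¹ * (W * U)) (by
    have h1 : ∀ o, (W.1 * U.1) o none = Õ.1 o none := fun o => (hcol o).symm
    have h2 := OG.sum_sq_col Õ none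
    simp only [Submonoid.coe_mul]
    rw [Matrix.mul_apply]
    simp only [h1]
    simpa [Matrix.star_apply, sq] using h2)
  have hWU : W * U = Õ * ext1 V := by rw [← hV, mul_inv_cancel_left]
  refine ⟨Õ, fun i j hij => hO' i j (by simpa using hij), fun k => ?_, ?_⟩
  · rw [hcol, hW, hD.rep, if_pos rfl, Real.sq_sqrt (sum_nonneg fun _ _ => sq_nonneg _)]
  · have hm : Measurable fun O : OG ι => Real.exp (G.ζ 0 * Xr G S (Õ * ext1 O)) :=
      cav_meas.comp (famν_mp Õ ν).measurable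
    rw [exp_phi, ← (famν_mp Õ ν).map_eq,
      integral_map (famν_mp Õ ν).measurable.aemeasurable cav_meas.aestronglyMeasurable]
    conv_rhs => rw [← Haar.left h V]
    rw [integral_map (Haar.measurable_left V).aemeasurable hm.aestronglyMeasurable]
    unfold cavG
    congr 1
    funext O
    rw [← Xr_rot hc, ← mul_assoc, hWU, ext1_mul, mul_assoc]

/-- the matrices whose first column has atypical block masses -/
def cavBad (blk : Option ι → 𝒦) (η : ℝ) : Set (OG (Option ι)) :=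
  ⋃ k, {U | η ≤ |∑ j ∈ univ.filter (fun j => blk j = k), U.1 j none ^ 2 - frac blk k|}

theorem cavBad_meas (η : ℝ) : MeasurableSet (cavBad blk η) :=
  MeasurableSet.iUnion fun _ => measurableSet_le measurable_const
    (((Finset.measurable_sum _ fun j _ => (measurable_entry j none).pow_const 2).sub_const _).abs)

theorem cavBad_le (h' : IsHaar ν') {η β : ℝ} (hη : 0 < η)
    (hβ : 3 * Fintype.card 𝒦 / ((Fintype.card ι + 1) * η ^ 2) ≤ β) :
    (ν' : Measure (OG (Option ι))).real (cavBad blk η) ≤ β := by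
  refine (measureReal_iUnion_fintype_le _).trans (le_trans (sum_le_sum fun k _ =>
    h'.col_tail (univ.filter fun j => blk j = k) none hη) (le_trans (le_of_eq ?_) hβ))
  rw [sum_const, card_univ, nsmul_eq_mul, Fintype.card_option]
  push_cast
  ring

theorem cav_good {η : ℝ} {U Õ : OG (Option ι)} (hU : U ∉ cavBad blk η)
    (h2 : ∀ k, Õ.1 (R k) none ^ 2 = ∑ j ∈ univ.filter (fun j => blk j = k), U.1 j none ^ 2) (k : 𝒦) :
    |Õ.1 (R k) none ^ 2 - frac blk k| ≤ η := by
  rw [h2]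
  by_contra hlt
  exact hU (Set.mem_iUnion.2 ⟨k, (not_le.1 hlt).le⟩)

theorem cav_affine (η a b : ℝ) :
    Integrable (fun U => a + b * (cavBad blk η).indicator (1 : OG (Option ι) → ℝ) U)
      (ν' : Measure (OG (Option ι))) ∧
    ∫ U, (a + b * (cavBad blk η).indicator (1 : OG (Option ι) → ℝ) U) ∂(ν' : Measure (OG (Option ι)))
      = a + b * (ν' : Measure (OG (Option ι))).real (cavBad blk η) := by
  have h1 : Integrable ((cavBad blk η).indicator (1 : OG (Option ι) → ℝ)) (ν' : Measure (OG (Option ι))) :=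
    (integrable_const (1 : ℝ)).indicator (cavBad_meas η)
  refine ⟨(integrable_const a).add (h1.const_mul b), ?_⟩
  rw [integral_add (integrable_const a) (h1.const_mul b), integral_const_mul,
    integral_indicator_one (cavBad_meas η)]
  simp

theorem cav_crude (h : IsHaar ν) (h' : IsHaar ν') (hD : CavD G S blk R k1) {lo hi : ℝ}
    (hb : ∀ Õ : OG (Option ι), IdOff Õ (Set.range R) → phi G (famν Õ ν) S ∈ Set.Icc lo hi) :
    phi G ν' S ∈ Set.Icc lo hi := by
  have hy := G.pos 0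
  have e := cav_fub (G := G) (ν := ν) (S := S) h'
  constructor
  · have h1 : ∫ _U, Real.exp (G.ζ 0 * lo) ∂(ν' : Measure (OG (Option ι)))
        ≤ ∫ U, cavG G ν S U ∂(ν' : Measure (OG (Option ι))) := by
      refine integral_mono (integrable_const _) cavG_int fun U => ?_
      obtain ⟨Õ, h1, -, h3⟩ := cav_point h hD U
      rw [h3]
      exact Real.exp_le_exp.2 (mul_le_mul_of_nonneg_left (hb Õ h1).1 hy.le)
    rw [← e, integral_const, probReal_univ, one_smul, Real.exp_le_exp] at h1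
    exact le_of_mul_le_mul_left h1 hy
  · have h1 : ∫ U, cavG G ν S U ∂(ν' : Measure (OG (Option ι)))
        ≤ ∫ _U, Real.exp (G.ζ 0 * hi) ∂(ν' : Measure (OG (Option ι))) := by
      refine integral_mono cavG_int (integrable_const _) fun U => ?_
      obtain ⟨Õ, h1, -, h3⟩ := cav_point h hD U
      rw [h3]
      exact Real.exp_le_exp.2 (mul_le_mul_of_nonneg_left (hb Õ h1).2 hy.le)
    rw [← e, integral_const, probReal_univ, one_smul, Real.exp_le_exp] at h1
    exact le_of_mul_le_mul_left h1 hy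

theorem cav_lower (h : IsHaar ν) (h' : IsHaar ν') (hD : CavD G S blk R k1) {lo η β : ℝ} (hη : 0 < η)
    (hβ : 3 * Fintype.card 𝒦 / ((Fintype.card ι + 1) * η ^ 2) ≤ β) (hβ' : β ≤ 1 / 2)
    (hb : ∀ Õ : OG (Option ι), IdOff Õ (Set.range R) → (∀ k, |Õ.1 (R k) none ^ 2 - frac blk k| ≤ η) →
      lo ≤ phi G (famν Õ ν) S) : lo - 2 * β / G.ζ 0 ≤ phi G ν' S := by
  have hy := G.pos 0
  have e := cav_fub (G := G) (ν := ν) (S := S) h'
  have hm := cavBad_le (blk := blk) h' hη hβ
  have hβ0 : 0 ≤ β := measureReal_nonneg.trans hm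
  obtain ⟨i1, i2⟩ := cav_affine (ν' := ν') (blk := blk) η (Real.exp (G.ζ 0 * lo)) (-Real.exp (G.ζ 0 * lo))
  have h1 := integral_mono i1 (cavG_int (G := G) (ν := ν) (S := S)) fun U => by
    obtain ⟨Õ, h1, h2, h3⟩ := cav_point h hD U
    show _ + _ * _ ≤ _
    rw [h3]
    by_cases hU : U ∈ cavBad blk η
    · rw [Set.indicator_of_mem hU, Pi.one_apply, mul_one, add_neg_cancel]
      exact (Real.exp_pos _).le
    · rw [Set.indicator_of_notMem hU, mul_zero, add_zero]
      exact Real.exp_le_exp.2 (mul_le_mul_of_nonneg_left (hb Õ h1 (cav_good hU h2)) hy.le)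
  rw [i2, ← e] at h1
  have h2 : Real.exp (-(2 * β)) ≤ 1 - β := by
    rw [Real.exp_neg, inv_le_iff_one_le_mul₀ (Real.exp_pos _)]
    nlinarith [Real.add_one_le_exp (2 * β)]
  have h3 : Real.exp (G.ζ 0 * lo - 2 * β) ≤ Real.exp (G.ζ 0 * phi G ν' S) := by
    rw [sub_eq_add_neg, Real.exp_add]
    nlinarith [Real.exp_pos (G.ζ 0 * lo)]
  rw [Real.exp_le_exp] at h3
  refine le_of_mul_le_mul_left ?_ hy
  rw [mul_sub, mul_div_cancel₀ _ hy.ne']
  exact h3

theorem cav_upper (h : IsHaar ν) (h' : IsHaar ν') (hD : CavD G S blk R k1) {hi hi' η β : ℝ} (hη : 0 < η)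
    (hβ : 3 * Fintype.card 𝒦 / ((Fintype.card ι + 1) * η ^ 2) ≤ β)
    (hb : ∀ Õ : OG (Option ι), IdOff Õ (Set.range R) → (∀ k, |Õ.1 (R k) none ^ 2 - frac blk k| ≤ η) →
      phi G (famν Õ ν) S ≤ hi)
    (hb' : ∀ Õ : OG (Option ι), IdOff Õ (Set.range R) → phi G (famν Õ ν) S ≤ hi') :
    phi G ν' S ≤ hi + β / G.ζ 0 * Real.exp (G.ζ 0 * (hi' - hi)) := by
  have hy := G.pos 0
  have e := cav_fub (G := G) (ν := ν) (S := S) h'
  have hm := cavBad_le (blk := blk) h' hη hβ
  obtain ⟨i1, i2⟩ := cav_affine (ν' := ν') (blk := blk) η (Real.exp (G.ζ 0 * hi)) (Real.exp (G.ζ 0 * hi'))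
  have h1 := integral_mono (cavG_int (G := G) (ν := ν) (S := S)) i1 fun U => by
    obtain ⟨Õ, h1, h2, h3⟩ := cav_point h hD U
    show _ ≤ _ + _ * _
    rw [h3]
    by_cases hU : U ∈ cavBad blk η
    · rw [Set.indicator_of_mem hU, Pi.one_apply, mul_one]
      exact le_add_of_nonneg_of_le (Real.exp_pos _).le
        (Real.exp_le_exp.2 (mul_le_mul_of_nonneg_left (hb' Õ h1) hy.le))
    · rw [Set.indicator_of_notMem hU, mul_zero, add_zero]
      exact Real.exp_le_exp.2 (mul_le_mul_of_nonneg_left (hb Õ h1 (cav_good hU h2)) hy.le)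
  rw [i2, ← e] at h1
  have h2 : Real.exp (G.ζ 0 * hi') = Real.exp (G.ζ 0 * hi) * Real.exp (G.ζ 0 * (hi' - hi)) := by
    rw [← Real.exp_add]
    congr 1
    ring
  have h3 : Real.exp (G.ζ 0 * phi G ν' S)
      ≤ Real.exp (G.ζ 0 * hi + β * Real.exp (G.ζ 0 * (hi' - hi))) := by
    rw [Real.exp_add]
    have h4 := mul_le_mul_of_nonneg_left hm (Real.exp_pos (G.ζ 0 * hi')).le
    have h5 := mul_le_mul_of_nonneg_left (Real.add_one_le_exp (β * Real.exp (G.ζ 0 * (hi' - hi))))
      (Real.exp_pos (G.ζ 0 * hi)).le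
    rw [h2] at h4 h1
    nlinarith
  rw [Real.exp_le_exp] at h3
  refine le_of_mul_le_mul_left ?_ hy
  rw [mul_add, ← mul_assoc, mul_div_cancel₀ _ hy.ne']
  exact h3

end Crest.Agent.R164
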