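import Crest.Agent.R164.ClsB

/-!
Row 164, task R164-CavFam: two-sided cavity estimate for block systems, and the upper bound for the system without the new spin.

PLAN.  `ā = 4/a0`, `Sb` the base system, `T = fib blkb k0`, `B = fib blkb k1` (`cls_famD`, `cnt_baseBlk`; `N0 ≥ 1/η'` large).  For an admissible `Õ` with
`|Õ (R k) none ² - frac blk k| ≤ η₂`: `α' k = Õ (R k) none ²` is within `η₂ + η'` of `α`, `Atom α' lam (a0/2) Λ` for `lam = μ` and for `lam = update μ k0 (-ε θ_n)`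
(`Σ α' = 1` by `OG.sum_sq_col`, `IdOff`; `|ε θ_n| ≤ η'` from `Pin.top`, `Tiny.ξ`, or from `cls_top`).  `fam` + `famA_cont` evaluate `phi (famν Õ ν) (famSys …)`.
The cross term: `F = famSys …`, `F' = F.add (dirP xi) 1`; `phi F' ≥ phi F + E0^F xi` and `phi F' ≤ phi F + E0^{F'} xi` (`phi_tangent`, `phi_tangent'`),
`|xi| ≤ (2L/N0) (|mg - z| + Cn) + 2L/N0`; `E0 |mg (σ∘some) - z| ≤ (e + 3C + log 2/y)/σ ≤ η' N`-small by `Sec.transfer` (direction `dirP fun σ => mg lab j (σ ∘ some)`,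
`F.add D t = famSys (Sb.add (dirP (mg lab j)) t) …`, `fam_crude`, `|xi| ≤ C L`), `Sec.det` at level `n`, and `Tiny.err`.
Then `sand_lo`, `sand_hi`, `cav_lower`, `cav_upper` (`hi'` from `cls_grow`, `famA_bdd`), `β = 3 card 𝒦/((N+1) η₂²)` small.
`term2`: `fam` with `Õ = 1`, `b = 0`, `v = 1`, `lam = update μ k' 0`; `α' = 1_{k1}` so `s1 = 1`, `Bf = 0`; `famSys` has the Hamiltonian of `S'.ext 0 1` where `S'` is `Sb` with
spectrum `lam k` at the representatives; `phi_ext` (`A = {none}`), and `phi (cls blk') ≤ phi S'` by `phi_dom`.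
-/

set_option autoImplicit false

namespace Crest.Agent.R164

open MeasureTheory Finset Matrix

variable {𝒦 : Type} [Fintype 𝒦] [DecidableEq 𝒦] {J : ℕ} {M : Mod 𝒦 J}

namespace CavA

theorem ex7 {a b c d e f g : ℝ} (ha : 0 < a) (hb : 0 < b) (hc : 0 < c) (hd : 0 < d) (he : 0 < e)
    (hf : 0 < f) (hg : 0 < g) :
    ∃ x : ℝ, 0 < x ∧ x ≤ a ∧ x ≤ b ∧ x ≤ c ∧ x ≤ d ∧ x ≤ e ∧ x ≤ f ∧ x ≤ g :=
  ⟨min a (min b (min c (min d (min e (min f g))))), by simp [*], by simp, by simp, by simp, by simp,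
    by simp, by simp, by simp⟩

section
variable {ι : Type} [Fintype ι] [DecidableEq ι] {G : Grid} {ν : ProbabilityMeasure (OG ι)} {S : Sys ι}
  {T : Finset ι} {a : ℕ → ℝ} {ā : ℝ} {P : PP}

theorem pin_mono {η' η'' : ℝ} (h : Pin G ν S T a ā P η'') (h0 : 0 < η'') (hle : η'' ≤ η') :
    Pin G ν S T a ā P η' := ⟨h.top, h.card, h.path, h.sec, h.tiny.mono h0 hle⟩

theorem tiny_lT {nT : ℕ} {η' : ℝ} (h : Tiny G P nT η') : |P.lT| ≤ η' ∧ P.umin ≤ η' := by
  have h3 := G.three_le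
  have h0 : ∀ l ∈ Ico 1 (G.n - 1), 0 ≤ P.uT l := fun l hl => h.umin_pos.le.trans (h.umin_le l hl)
  have h1 : 1 ∈ Ico 1 (G.n - 1) := mem_Ico.2 ⟨le_rfl, by omega⟩
  have h2 := single_le_sum h0 h1
  have := h.ξ
  have := h.umin_le 1 h1
  have := sum_nonneg h0
  have := abs_nonneg P.lT
  constructor <;> linarith

/-- the error of `Sec.det` is small compared to the size of the block -/
theorem tiny_err {nT : ℕ} {η' C : ℝ} (h : Tiny G P nT η') (h0 : 0 < η') (h1 : η' ≤ 1) (he : 0 ≤ P.e)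
    (hC : C ≤ 1 / η') : (P.e + C) / P.σ ≤ η' * nT := by
  have h3 : (3 : ℝ) ≤ G.n := by exact_mod_cast G.three_le
  have h4 := h.err
  have h5 := (tiny_lT h).2
  have h6 : 0 ≤ P.e + 1 / η' := by positivity
  have hσ := h.σ_pos
  rw [div_le_iff₀ hσ]
  have h7 : η' * P.σ * P.umin * nT ≤ η' * P.σ * 1 * nT := by gcongr; exact h5.trans h1
  nlinarith

theorem phi_abs_le {S S' : Sys ι} {X : ℝ} (h : ∀ ω, |Ham G S ω - Ham G S' ω| ≤ X) :
    |phi G ν S - phi G ν S'| ≤ X := by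
  have h1 := phi_le_of_le (G := G) (ν := ν) (S := S) (S' := S') (c := X) fun ω => by
    linarith [(abs_le.1 (h ω)).2]
  have h2 := phi_le_of_le (G := G) (ν := ν) (S := S') (S' := S) (c := X) fun ω => by
    linarith [(abs_le.1 (h ω)).1]
  rw [abs_le]; constructor <;> linarith

end

theorem atom_mono {α μ : 𝒦 → ℝ} {a0 a1 Λ : ℝ} (h : Atom α μ a0 Λ) (h0 : 0 < a1) (h1 : a1 ≤ a0) :
    Atom α μ a1 Λ :=
  ⟨h0, h.nonneg, h.sum_one, h.mem, h.top.imp fun _ hk => ⟨hk.1, h1.trans hk.2⟩⟩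

theorem fam_addP {ι : Type} [Fintype ι] [DecidableEq ι] (Sb : Sys ι) (b : ℝ) (sn : ℕ → ℝ) (R : 𝒦 → Option ι)
    (lam : 𝒦 → ℝ) (f : (ι → Bool) → ℝ) (t : ℝ) :
    famSys (Sb.add (dirP f) t) b sn R lam =
      (famSys Sb b sn R lam).add (dirP fun σ => f fun i => σ (some i)) t := by
  simp only [famSys, Sys.add, Sys.ext, dirP, dirL, Sys.mk.injEq]
  refine ⟨?_, ?_, ?_, ?_⟩
  · funext o; cases o <;> simp
  · funext σ; ring
  · funext l o; cases o <;> simp
  · funext l o; cases o <;> simp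

theorem mg_det (Λ ā : ℝ) (nk : ℕ) : ∃ C : ℝ, 0 ≤ C ∧
    ∀ (ι 𝒦 : Type) [Fintype ι] [DecidableEq ι] [Fintype 𝒦] [DecidableEq 𝒦] (G : Grid)
      (ν : ProbabilityMeasure (OG ι)) (Sb : Sys ι) (B : Finset ι) (R : 𝒦 → Option ι) (k1 : 𝒦)
      (Õ : OG (Option ι)) (b : ℝ) (sn : ℕ → ℝ) (lam : 𝒦 → ℝ) (f : (ι → Bool) → ℝ) (z σ e X : ℝ)
      (S₁ : Sys (Option ι)),
      Fintype.card 𝒦 ≤ nk → IsHaar ν → FamD G Sb B R k1 Õ ā → (∀ k, lam k ∈ Set.Icc (-Λ) 0) →
      (∀ l ∈ Ico 1 (G.n - 1), 0 ≤ sn l) → 0 < σ → Sec G ν Sb (dirP f) z σ e →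
      (∀ ω, |Ham G S₁ ω - Ham G (famSys Sb b sn R lam) ω| ≤ X) →
      E0 G (famν Õ ν) S₁ (fun ω => |f (fun i => sb G ω (some i)) - z|) ≤
        (e + (3 * (C + X) + Real.log 2 / G.ζ 0)) / σ := by
  obtain ⟨C, hC0, hC⟩ := fam_crude Λ ā nk
  refine ⟨C, hC0, fun ι 𝒦 _ _ _ _ G ν Sb B R k1 Õ b sn lam f z σ e X S₁ hk hν hD hl hs hσ hsec hX => ?_⟩
  have hX0 : 0 ≤ X := (abs_nonneg _).trans (hX pt0)
  have comb : ∀ {x x' w c : ℝ}, |x - x'| ≤ X → x' - w - c ∈ Set.Icc (-C) 0 → |x - w - c| ≤ C + X := by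
    intro x x' w c h1 h2
    rw [abs_le] at h1 ⊢
    constructor <;> linarith [h2.1, h2.2]
  have key : ∀ t : ℝ, |phi G (famν Õ ν) (S₁.add (dirP fun σ => f fun i => σ (some i)) t) -
      phi G ν (Sb.add (dirP f) t) - Phi (G.gl fun l => sn l ^ 2) b| ≤ C + X := by
    intro t
    refine comb (phi_abs_le fun ω => ?_) (hC ι 𝒦 G ν (Sb.add (dirP f) t) B R k1 Õ b sn lam hk hν
      (FamBAux.famD_add hD (fun i _ => ⟨rfl, fun _ => rfl⟩) t) hl hs)
    rw [fam_addP, Ham_add, Ham_add, add_sub_add_right_eq_sub]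
    exact hX ω
  have h := (hsec.transfer (comb (phi_abs_le hX) (hC ι 𝒦 G ν Sb B R k1 Õ b sn lam hk hν hD hl hs))
    (key σ) (key (-σ)) (z' := z) (by rw [sub_self, mul_zero, abs_zero]; positivity)).det hσ G.n
  have he : EE G (famν Õ ν) S₁ G.n (Ham G (dirP fun σ => f fun i => σ (some i))) =
      fun ω => f fun i => sb G ω (some i) := by
    rw [EE, Tree.Ex_of_le (T := tree G (famν Õ ν)) (l := G.n) le_rfl]
    funext ω
    exact Ham_dirP _ ω
  rw [he] at h
  rwa [← add_assoc]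

variable {ι : Type} [Fintype ι] [DecidableEq ι]

theorem abs_xi_le {Q : CP} (hL : 0 < Q.L) (hN : 0 < Q.N0) (lab : ι → Fin J) (j : Fin J) {m : ℝ} (hm : |m| < 1)
    (ybar : ℝ) (σ : Option ι → Bool) :
    |xi Q lab j m ybar σ| ≤
      2 * Q.L / Q.N0 * (|mg lab j (fun i => σ (some i)) - cnt lab j * m - ybar| + 1) := by
  have h1 : |sp σ none - m| ≤ 2 := by
    refine (abs_sub _ _).trans ?_
    rw [abs_sp]; linarith
  have h2 : (sp σ none - m) ^ 2 ≤ 4 := by
    rw [← sq_abs]; nlinarith [abs_nonneg (sp σ none - m)]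
  have hq : 0 < Q.L / Q.N0 := div_pos hL hN
  rw [xi]
  generalize mg lab j (fun i => σ (some i)) - cnt lab j * m - ybar = A
  refine (abs_sub _ _).trans ?_
  rw [abs_mul, abs_neg, abs_of_pos hq, abs_mul, abs_mul, abs_of_pos (by positivity : 0 < Q.L / (2 * Q.N0)),
    abs_of_nonneg (sq_nonneg (sp σ none - m)), show Q.L / (2 * Q.N0) = Q.L / Q.N0 / 2 by field_simp,
    show 2 * Q.L / Q.N0 = 2 * (Q.L / Q.N0) by ring]
  have h3 := mul_le_mul_of_nonneg_left h1 (abs_nonneg A)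
  nlinarith [mul_le_mul_of_nonneg_left h3 hq.le, mul_le_mul_of_nonneg_left h2 hq.le]

theorem base_facts (hM : M.OK) {Q : CP} {blk : Option ι → 𝒦} {R : 𝒦 → Option ι} (hR : ∀ k, blk (R k) = k)
    (hn : R M.k1 = none) (hreg : Reg M Q blk) {η' : ℝ} (h0 : 0 < η') (hN : 1 / η' ≤ Q.N0)
    (hη : η' ≤ M.a0 / (8 * (1 + Fintype.card 𝒦))) :
    (Fintype.card ι : ℝ) + 1 ≤ 4 / M.a0 * (cnt blk M.k1 - 1 - Fintype.card 𝒦) ∧
    (Fintype.card ι : ℝ) + 1 ≤ 4 / M.a0 * (fib (baseBlk blk R M.k1) M.k0).card ∧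
    Disjoint (fib (baseBlk blk R M.k1) M.k0) (fib (baseBlk blk R M.k1) M.k1) ∧
    (Fintype.card ι : ℝ) + 1 ≤ 2 * Q.N0 ∧ Q.N0 / 2 ≤ (Fintype.card ι : ℝ) + 1 := by
  have ha := hM.atom.a0_pos
  have hc : (Fintype.card (Option ι) : ℝ) = Fintype.card ι + 1 := by rw [Fintype.card_option]; push_cast; rfl
  have hlo := hreg.lo
  have hhi := hreg.hi
  have hb := hreg.blk
  rw [hc] at hlo hhi hb
  have hK : (0 : ℝ) ≤ Fintype.card 𝒦 := Nat.cast_nonneg _
  have h1 : 8 * (1 + (Fintype.card 𝒦 : ℝ)) ≤ M.a0 * Q.N0 := by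
    rw [le_div_iff₀ (by positivity)] at hη
    rw [div_le_iff₀ h0] at hN
    have := mul_le_mul_of_nonneg_left hN (by positivity : (0 : ℝ) ≤ 8 * (1 + Fintype.card 𝒦))
    have hN0 : 0 ≤ Q.N0 := by nlinarith
    nlinarith [mul_le_mul_of_nonneg_left hη hN0]
  have h2 := mul_le_mul_of_nonneg_left hlo ha.le
  refine ⟨?_, ?_, ?_, hhi, hlo⟩
  · rw [div_mul_eq_mul_div, le_div_iff₀ ha]
    nlinarith [hb M.k1]
  · have := cnt_baseBlk hR hn M.k0
    rw [if_neg hM.ne, cnt] at this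
    rw [this, div_mul_eq_mul_div, le_div_iff₀ ha]
    nlinarith [hb M.k0]
  · rw [fib, fib, disjoint_filter]
    intro i _ h1 h2
    exact hM.ne (h1.symm.trans h2)

theorem eps_small {G : Grid} {Q : CP} (hQ : Q.OK G) {θ : ℕ ⊕ Fin J → ℝ} (hθ : Box θ) (d : ℕ ⊕ Fin J) :
    0 ≤ Q.ε * θ d ∧ Q.ε * θ d ≤ 1 := by
  have h3 : (3 : ℝ) ≤ G.n := by exact_mod_cast G.three_le
  have h1 := hQ.ε_le
  have h2 := hQ.ε_pos
  have h4 := hθ d
  constructor <;> nlinarith [h4.1, h4.2]

end CavA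

open CavA in
theorem cav_fam (hM : M.OK) {y η : ℝ} (hy : 0 < y) (hη : 0 < η) (L Cn : ℝ) : ∃ η' : ℝ, 0 < η' ∧
    ∀ (ι : Type) [Fintype ι] [DecidableEq ι] (G : Grid) (Q : CP) (θ : ℕ ⊕ Fin J → ℝ)
      (ν : ProbabilityMeasure (OG ι)) (ν' : ProbabilityMeasure (OG (Option ι))) (blk : Option ι → 𝒦)
      (lab : Option ι → Fin J) (R : 𝒦 → Option ι) (a v : ℕ → ℝ) (P : PP) (t z ybar : ℝ),
      G.ζ 0 = y → Q.OK G → Q.L = L → 1 / η' ≤ Q.N0 → Box θ → IsHaar ν → IsHaar ν' →
      (∀ k, blk (R k) = k) → R M.k1 = none → Reg M Q blk → (∀ k, |frac blk k - M.α k| ≤ η') →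
      Pin G ν (cls M G Q (baseBlk blk R M.k1) (fun i => lab (some i)) θ)
        (fib (baseBlk blk R M.k1) M.k0) a (4 / M.a0) P η' →
      Sec G ν (cls M G Q (baseBlk blk R M.k1) (fun i => lab (some i)) θ)
        (dirP (mg (fun i => lab (some i)) (lab none))) z P.σ P.e →
      |ybar - (z - cnt (fun i => lab (some i)) (lab none) * (M.m (lab none) : ℝ))| ≤ Cn →
      |ybar| ≤ 4 * Q.N0 → (∀ l ∈ Ico 1 (G.n - 1), 0 < v l) → ∑ l ∈ Ico 1 (G.n - 1), v l ≤ 2 → |t| ≤ 1 →
      |phi G ν' ((cls M G Q blk lab θ).probe v t) -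
        phi G ν (cls M G Q (baseBlk blk R M.k1) (fun i => lab (some i)) θ) -
        (famA G M.α M.μ a v (beff M Q θ (lab none) ybar + t) +
          Q.L * ybar / Q.N0 * M.m (lab none))| ≤ η := by
  have ha := hM.atom.a0_pos
  obtain ⟨ηf, hηf, hfam⟩ := fam 𝒦 (a0 := M.a0 / 2) (Λ := M.Λ) (ā := 4 / M.a0) hy (η := η / 8) (by positivity)
  obtain ⟨ηc, hηc, hcont⟩ := famA_cont 𝒦 (M.a0 / 2) M.Λ (4 / M.a0) (η := η / 8) (by positivity)
  obtain ⟨Cb, hCb0, hCb⟩ := famA_bdd 𝒦 M.a0 M.Λ (4 / M.a0) (∑ j, |M.c j| + 4 * |L| + 2)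
  obtain ⟨Cg, hCg0, hCg⟩ := cls_grow hM L (4 / M.a0)
  obtain ⟨Cm, hCm0, hCm⟩ := mg_det M.Λ (4 / M.a0) (Fintype.card 𝒦)
  set η₂ : ℝ := min ηc (M.a0 / 2) / 2 with hη₂
  have hη₂0 : 0 < η₂ := by positivity
  set W : ℝ := Real.exp (y * (Cg + Cb + 4 * |L|)) with hW
  have hW1 : 1 ≤ W := Real.one_le_exp (by positivity)
  set β : ℝ := min (1 / 2) (η * y / (8 * W)) with hβ
  have hβ0 : 0 < β := by positivity
  have hlog : 0 ≤ Real.log 2 := Real.log_nonneg one_le_two
  obtain ⟨η', h0, h1, h2, h3, h4, h5, h6, h7⟩ := ex7 hηf hη₂0 one_pos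
    (c := 1) (d := 1 / (3 * (Cm + 18 * |L|) + Real.log 2 / y + 1))
    (e := η / 4 / (2 * |L| * (|Cn| + 3) + 1))
    (f := β * η₂ ^ 2 / (6 * Fintype.card 𝒦 + 1)) (g := M.a0 / (8 * (1 + Fintype.card 𝒦)))
    (by positivity) (by positivity) (by positivity) (by positivity)
  refine ⟨η', h0, fun ι _ _ G Q θ ν ν' blk lab R a v P t z ybar hGy hQ hL hN hθ hν hν' hR hn hreg hfr hpin hsec
    hyb hyb' hv hv2 ht => ?_⟩
  obtain ⟨b1, b2, b3, b4, b5⟩ := base_facts hM hR hn hreg h0 hN h7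
  have hN0 : 0 < Q.N0 := one_pos.trans_le hQ.N0_ge
  have hL0 : 0 < Q.L := hQ.L_pos
  have hLabs : |L| = Q.L := by rw [← hL, abs_of_pos hL0]
  set Sb := cls M G Q (baseBlk blk R M.k1) (fun i => lab (some i)) θ with hSb
  set T := fib (baseBlk blk R M.k1) M.k0 with hT
  set b := beff M Q θ (lab none) ybar + t with hb
  set A := famA G M.α M.μ a v b + Q.L * ybar / Q.N0 * M.m (lab none) with hA
  set ξ := xi Q (fun i => lab (some i)) (lab none) (M.m (lab none)) ybar with hξ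
  have hv0 : ∀ l ∈ Ico 1 (G.n - 1), 0 ≤ v l := fun l hl => (hv l hl).le
  have hTne : T.Nonempty := by
    rw [← card_pos]
    by_contra hc
    rw [show T.card = 0 by omega] at b2
    simp at b2
    linarith [(Nat.cast_nonneg (Fintype.card ι) : (0 : ℝ) ≤ _)]
  have hlT : Q.ε * θ (.inl G.n) ≤ η' := by
    obtain ⟨i, hi⟩ := hTne
    have e1 := hpin.top.lam i hi
    have e2 := (cls_top (M := M) (G := G) (Q := Q) (θ := θ) (blk := baseBlk blk R M.k1)
      (lab := fun i => lab (some i))).lam i hi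
    have e3 := (tiny_lT hpin.tiny).1
    rw [← e1, e2, abs_neg] at e3
    exact (le_abs_self _).trans e3
  have hcnt : (cnt (fun i => lab (some i)) (lab none) : ℝ) ≤ 2 * Q.N0 := by
    have : cnt (fun i => lab (some i)) (lab none) ≤ Fintype.card ι := card_le_univ _
    have : (cnt (fun i => lab (some i)) (lab none) : ℝ) ≤ Fintype.card ι := by exact_mod_cast this
    linarith
  have hm := hM.m_lt (lab none)
  have hξ1 : ∀ σ, |ξ σ| ≤ 18 * |L| := by
    intro σ
    refine (abs_xi_le hL0 hN0 _ _ hm ybar σ).trans ?_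
    have e1 := abs_mg_le (lab := fun i => lab (some i)) (lab none) fun i => σ (some i)
    have e2 : |(cnt (fun i => lab (some i)) (lab none) : ℝ) * (M.m (lab none) : ℝ)| ≤ 2 * Q.N0 := by
      rw [abs_mul, Nat.abs_cast]
      exact (mul_le_of_le_one_right (Nat.cast_nonneg _) hm.le).trans hcnt
    have e3 : |mg (fun i => lab (some i)) (lab none) (fun i => σ (some i)) -
        cnt (fun i => lab (some i)) (lab none) * (M.m (lab none) : ℝ) - ybar| + 1 ≤ 9 * Q.N0 := by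
      have := (abs_sub _ ybar).trans (add_le_add ((abs_sub _ _).trans (add_le_add e1 e2)) hyb')
      linarith [hQ.N0_ge]
    refine (mul_le_mul_of_nonneg_left e3 (by positivity)).trans (le_of_eq ?_)
    rw [hLabs]; field_simp; norm_num
  have hξ2 : ∀ σ, |ξ σ| ≤ 2 * Q.L / Q.N0 *
      (|mg (fun i => lab (some i)) (lab none) (fun i => σ (some i)) - z| + (|Cn| + 1)) := by
    intro σ
    refine (abs_xi_le hL0 hN0 _ _ hm ybar σ).trans (mul_le_mul_of_nonneg_left ?_ (by positivity))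
    generalize mg (fun i => lab (some i)) (lab none) (fun i => σ (some i)) = x
    generalize (cnt (fun i => lab (some i)) (lab none) : ℝ) * (M.m (lab none) : ℝ) = w at hyb
    have e1 := abs_sub (x - z) (ybar - (z - w))
    rw [show x - z - (ybar - (z - w)) = x - w - ybar by ring] at e1
    linarith [le_abs_self Cn]
  -- the good matrices
  have good : ∀ Õ : OG (Option ι), IdOff Õ (Set.range R) → (∀ k, |Õ.1 (R k) none ^ 2 - frac blk k| ≤ η₂) →
      ∀ lam : 𝒦 → ℝ, (∀ k, lam k ∈ Set.Icc (-M.Λ) 0) → lam M.k1 = 0 → (∀ k, |lam k - M.μ k| ≤ η') →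
      |phi G (famν Õ ν) ((famSys Sb b (fun l => Real.sqrt (v l)) R lam).add (dirP ξ) 1) - phi G ν Sb -
        famA G M.α M.μ a v b| ≤ η / 2 := by
    intro Õ hÕ hfr' lam hl hl1 hlμ
    have hD := cls_famD (G := G) (Q := Q) (θ := θ) hM hR hn (by positivity) b1 hÕ fun i => lab (some i)
    have hα : ∀ k, |Õ.1 (R k) none ^ 2 - M.α k| ≤ 2 * η₂ := fun k => by
      have := abs_sub_le (Õ.1 (R k) none ^ 2) (frac blk k) (M.α k)
      linarith [hfr' k, hfr k]
    have hα1 : M.a0 / 2 ≤ Õ.1 (R M.k1) none ^ 2 := by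
      have e1 := (abs_le.1 (hα M.k1)).1
      have e2 := hM.α_ge M.k1
      have e3 := min_le_right ηc (M.a0 / 2)
      linarith
    have hat : Atom (fun k => Õ.1 (R k) none ^ 2) lam (M.a0 / 2) M.Λ := by
      refine ⟨by positivity, fun k => sq_nonneg _, ?_, hl, M.k1, hl1, hα1⟩
      have e1 := FamBAux.sum_col hD fun o => Õ.1 o none
      have e2 := OG.sum_sq_col Õ none
      simp only [sq] at e2 ⊢
      exact e1.symm.trans e2
    have f1 := hfam ι G ν Sb _ T R M.k1 Õ b v lam a P hGy hν hD b3 b2 (pin_mono hpin h0 h1) hat hl1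
      (by rwa [hn] at hα1) hv
    have f2 := hcont G _ lam M.α M.μ a v b hat (atom_mono hM.atom (by positivity) (by linarith))
      (fun k => (hα k).trans (by linarith [min_le_left ηc (M.a0 / 2)]))
      (fun k => (hlμ k).trans (by linarith [min_le_left ηc (M.a0 / 2)])) hpin.path hv0
    set F := famSys Sb b (fun l => Real.sqrt (v l)) R lam with hF
    have hE : ∀ S₁ : Sys (Option ι), (∀ ω, |Ham G S₁ ω - Ham G F ω| ≤ 18 * |L|) →
        |E0 G (famν Õ ν) S₁ (Ham G (dirP ξ))| ≤ η / 4 := by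
      intro S₁ hS₁
      have e1 := hCm ι 𝒦 G ν Sb _ R M.k1 Õ b _ lam _ z P.σ P.e _ S₁ le_rfl hν hD hl
        (fun l _ => Real.sqrt_nonneg _) hpin.tiny.σ_pos hsec hS₁
      have e2 := tiny_err (C := 3 * (Cm + 18 * |L|) + Real.log 2 / G.ζ 0) hpin.tiny h0 h3 hsec.nonneg (by
        rw [hGy, le_div_iff₀ h0]
        rw [le_div_iff₀ (by positivity)] at h4
        nlinarith)
      have e3 : (T.card : ℝ) ≤ 2 * Q.N0 := by
        have : (T.card : ℝ) ≤ Fintype.card ι := by exact_mod_cast card_le_univ T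
        linarith
      have e4 := e1.trans (e2.trans (mul_le_mul_of_nonneg_left e3 h0.le))
      have hH := lin_Ham G (famν Õ ν) S₁
      have t1 := (lin_spin (G := G) (ν := famν Õ ν) fun σ =>
        |mg (fun i => lab (some i)) (lab none) (fun i => σ (some i)) - z|).tame
      have e5 := Tree.Ex_mono hH (lin_Ham G (famν Õ ν) (dirP ξ)).tame.abs
        ((t1.add (Tree.Tame.const (|Cn| + 1))).const_mul (2 * Q.L / Q.N0))
        (fun ω => by rw [Ham_dirP]; exact hξ2 _) 0 pt0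
      rw [Tree.Ex_const_mul, Tree.Ex_add hH t1 (Tree.Tame.const _), Tree.Ex_const hH] at e5
      refine (Tree.abs_Ex_le hH (lin_Ham G (famν Õ ν) (dirP ξ)).tame 0 pt0).trans (e5.trans ?_)
      refine (mul_le_mul_of_nonneg_left (add_le_add e4 le_rfl) (by positivity)).trans ?_
      have e6 : 2 * Q.L / Q.N0 * (η' * (2 * Q.N0) + (|Cn| + 1)) =
          2 * Q.L * (2 * η' + (|Cn| + 1) * (1 / Q.N0)) := by field_simp
      have e7 : 1 / Q.N0 ≤ η' := by
        rw [div_le_iff₀ hN0]; rw [div_le_iff₀ h0] at hN; linarith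
      have e8 := mul_le_mul_of_nonneg_left e7 (by positivity : 0 ≤ |Cn| + 1)
      rw [le_div_iff₀ (by positivity), hLabs] at h5
      rw [e6]
      nlinarith [mul_le_mul_of_nonneg_left e8 hL0.le]
    have g1 := phi_tangent (G := G) (ν := famν Õ ν) (S := F) (D := dirP ξ) 1
    have g2 := phi_tangent' (G := G) (ν := famν Õ ν) (S := F.add (dirP ξ) 1) (S' := F)
    have g3 : (fun ω => Ham G F ω - Ham G (F.add (dirP ξ) 1) ω) = fun ω => -Ham G (dirP ξ) ω := by
      funext ω; rw [Ham_add]; ring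
    rw [g3, E0, EE, Tree.Ex_neg] at g2
    have g4 := abs_le.1 (hE F fun ω => by rw [sub_self, abs_zero]; positivity)
    have g5 := abs_le.1 (hE (F.add (dirP ξ) 1) fun ω => by
      rw [Ham_add, add_sub_cancel_left, one_mul, Ham_dirP]; exact hξ1 _)
    rw [E0, EE] at g5
    rw [abs_le] at f1 f2 ⊢
    constructor <;> linarith [f1.1, f1.2, f2.1, f2.2, g4.1, g4.2, g5.1, g5.2]
  have hβN : 3 * (Fintype.card 𝒦 : ℝ) / ((Fintype.card ι + 1) * η₂ ^ 2) ≤ β := by
    rw [div_le_iff₀ (by positivity)]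
    rw [le_div_iff₀ (by positivity)] at h6
    rw [div_le_iff₀ h0] at hN
    have hK : (0 : ℝ) ≤ Fintype.card 𝒦 := Nat.cast_nonneg _
    have e1 : 1 ≤ 2 * ((Fintype.card ι : ℝ) + 1) * η' := by nlinarith
    have e2 := mul_le_mul_of_nonneg_left h6 (by positivity : (0 : ℝ) ≤ Fintype.card ι + 1)
    nlinarith [mul_le_mul_of_nonneg_left e1 hK, mul_nonneg (by positivity : (0 : ℝ) ≤ Fintype.card ι + 1) h0.le]
  have hcav := cls_cavD (M := M) (G := G) (Q := Q) (θ := θ) (lab := lab) hR hn v t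
  have hε := eps_small hQ hθ
  have lo := cav_lower hν hν' hcav (lo := phi G ν Sb + A - η / 2) hη₂0 hβN (min_le_left _ _)
    fun Õ hÕ hfr' => by
      have e1 := sand_lo (lab := lab) hM hQ hθ hR hn (famν Õ ν) v t ybar
      have e2 := abs_le.1 (good Õ hÕ hfr' (Function.update M.μ M.k0 (-(Q.ε * θ (.inl G.n))))
        (fun k => by
          by_cases hk : k = M.k0
          · rw [hk, Function.update_self]
            constructor <;> linarith [(hε (.inl G.n)).1, (hε (.inl G.n)).2, hM.one_le]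
          · rw [Function.update_of_ne hk]; exact hM.atom.mem k)
        (by rw [Function.update_of_ne hM.ne.symm, hM.μ1])
        (fun k => by
          by_cases hk : k = M.k0
          · rw [hk, Function.update_self, hM.μ0, sub_zero, abs_neg, abs_of_nonneg (hε _).1]
            exact hlT
          · rw [Function.update_of_ne hk, sub_self, abs_zero]; exact h0.le))
      linarith [e2.1]
  have hi := cav_upper hν hν' hcav (hi := phi G ν Sb + A + η / 2) (hi' := phi G ν Sb + Cg) hη₂0 hβN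
    (fun Õ hÕ hfr' => by
      have e1 := sand_hi (lab := lab) hM hQ hθ hR hn (famν Õ ν) v t ybar
      have e2 := abs_le.1 (good Õ hÕ hfr' M.μ hM.atom.mem hM.μ1
        (fun k => by rw [sub_self, abs_zero]; exact h0.le))
      linarith [e2.2])
    (fun Õ hÕ => by
      have e1 := abs_le.1 ((hCg ι G Q θ ν ν' blk lab R v t hQ hL hθ hν hR hn (by positivity) b1 (by linarith)
        hv0 hv2 ht).1 Õ hÕ)
      linarith [e1.2])
  have hy4 : |Q.L * ybar / Q.N0| ≤ 4 * |L| := by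
    rw [abs_div, abs_mul, abs_of_pos hL0, abs_of_pos hN0, div_le_iff₀ hN0, hLabs]
    nlinarith
  have hA1 : |famA G M.α M.μ a v b| ≤ Cb := by
    have e0 : 0 ≤ ∑ j, |M.c j| := sum_nonneg fun _ _ => abs_nonneg _
    refine hCb G _ _ a v b hM.atom hpin.path hv0 (by linarith [abs_nonneg L]) ?_
    have e1 := single_le_sum (f := fun j => |M.c j|) (fun _ _ => abs_nonneg _) (mem_univ (lab none))
    have e2 := abs_le.1 hy4
    have e3 := abs_le.1 ht
    have e4 := hε (.inr (lab none))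
    have e5 := le_abs_self (M.c (lab none))
    have e6 := neg_abs_le (M.c (lab none))
    rw [hb, beff, abs_le]
    constructor <;> linarith
  have hA2 : |Q.L * ybar / Q.N0 * M.m (lab none)| ≤ 4 * |L| := by
    rw [abs_mul]
    exact (mul_le_of_le_one_right (abs_nonneg _) hm.le).trans hy4
  have hexp : Real.exp (G.ζ 0 * (phi G ν Sb + Cg - (phi G ν Sb + A + η / 2))) ≤ W := by
    rw [hGy]
    refine Real.exp_le_exp.2 (mul_le_mul_of_nonneg_left ?_ hy.le)
    linarith [(abs_le.1 hA1).1, (abs_le.1 hA2).1]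
  have hβ2 : β / y * W ≤ η / 8 := by
    have e1 : β ≤ η * y / (8 * W) := min_le_right _ _
    rw [le_div_iff₀ (by positivity)] at e1
    rw [div_mul_eq_mul_div, div_le_iff₀ hy]
    linarith
  have hβ3 : β / y ≤ η / 8 := le_trans (le_mul_of_one_le_right (by positivity) hW1) hβ2
  rw [hGy] at lo
  have hβ4 := mul_le_mul_of_nonneg_left hexp (by rw [hGy]; positivity : 0 ≤ β / G.ζ 0)
  rw [hGy] at hβ4 hi
  rw [mul_div_assoc] at lo
  rw [abs_le]
  constructor <;> linarith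

open CavA in
theorem term2 (hM : M.OK) {y η : ℝ} (hy : 0 < y) (hη : 0 < η) : ∃ η' : ℝ, 0 < η' ∧
    ∀ (ι : Type) [Fintype ι] [DecidableEq ι] (G : Grid) (Q : CP) (θ : ℕ ⊕ Fin J → ℝ)
      (ν : ProbabilityMeasure (OG ι)) (blk : Option ι → 𝒦) (lab : ι → Fin J) (R : 𝒦 → Option ι)
      (a : ℕ → ℝ) (P : PP) (k' : 𝒦),
      G.ζ 0 = y → Q.OK G → 1 / η' ≤ Q.N0 → Box θ → IsHaar ν →
      (∀ k, blk (R k) = k) → R M.k1 = none → Reg M Q blk →
      Pin G ν (cls M G Q (baseBlk blk R M.k1) lab θ) (fib (baseBlk blk R M.k1) M.k0) a (4 / M.a0) P η' →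
      phi G ν (cls M G Q (fun i => if R k' = some i then M.k1 else blk (some i)) lab θ) ≤
        phi G ν (cls M G Q (baseBlk blk R M.k1) lab θ) +
        (1 / 2) * G.TT (fun i => -∑ k ∈ univ.erase k', Real.log (1 - M.μ k * G.D a i)) + η := by
  have ha := hM.atom.a0_pos
  obtain ⟨ηf, hηf, hfam⟩ := fam 𝒦 (a0 := 1) (Λ := M.Λ) (ā := 4 / M.a0) hy hη
  refine ⟨min ηf (M.a0 / (8 * (1 + Fintype.card 𝒦))), by positivity,
    fun ι _ _ G Q θ ν blk lab R a P k' hGy hQ hN hθ hν hR hn hreg hpin => ?_⟩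
  have h0 : 0 < min ηf (M.a0 / (8 * (1 + Fintype.card 𝒦))) := by positivity
  obtain ⟨b1, b2, b3, -, -⟩ := base_facts hM hR hn hreg h0 hN (min_le_right _ _)
  have hinj : Function.Injective R := Function.LeftInverse.injective hR
  set Sb := cls M G Q (baseBlk blk R M.k1) lab θ with hSb
  set lam := Function.update M.μ k' 0 with hlam
  have hoff : ∀ A : Set (Option ι), IdOff (1 : OG (Option ι)) A := fun A i j _ => by
    simp [Matrix.one_apply]
  have hD := cls_famD (G := G) (Q := Q) (θ := θ) hM hR hn (by positivity) b1 (hoff _) lab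
  have hl1 : lam M.k1 = 0 := by
    by_cases hk : M.k1 = k'
    · rw [hlam, hk, Function.update_self]
    · rw [hlam, Function.update_of_ne hk, hM.μ1]
  have hα : (fun k => (1 : OG (Option ι)).1 (R k) none ^ 2) = fun k => if k = M.k1 then 1 else 0 := by
    funext k
    have : R k = none ↔ k = M.k1 := by rw [← hn]; exact hinj.eq_iff
    simp [Matrix.one_apply, this]
  have hat : Atom (fun k => (1 : OG (Option ι)).1 (R k) none ^ 2) lam 1 M.Λ := by
    rw [hα]
    refine ⟨one_pos, fun k => by positivity, by simp, fun k => ?_, M.k1, hl1, by simp⟩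
    by_cases hk : k = k'
    · rw [hlam, hk, Function.update_self]
      constructor <;> linarith [hM.one_le]
    · rw [hlam, Function.update_of_ne hk]; exact hM.atom.mem k
  have f1 := hfam ι G ν Sb _ _ R M.k1 1 0 (fun _ => 1) lam a P hGy hν hD b3 b2
    (pin_mono hpin h0 (min_le_left _ _)) hat hl1 (by simp) fun _ _ => one_pos
  have hs1 : ∀ d, s1 (fun k => if k = M.k1 then 1 else 0) lam d = 1 := fun d => by
    simp [s1, ite_div, hl1]
  have hBf : ∀ d, Bf (fun k => if k = M.k1 then 1 else 0) lam d = 0 := fun d => by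
    simp [Bf, ite_div, hl1]
  have hA : famA G (fun k => if k = M.k1 then 1 else 0) lam a (fun _ => 1) 0 = Phi (G.gl fun _ => 1) 0 +
      (1 / 2) * G.TT (fun i => -∑ k ∈ univ.erase k', Real.log (1 - M.μ k * G.D a i)) := by
    have e1 : (fun i => -∑ k, Real.log (1 - lam k * G.D a i)) =
        fun i => -∑ k ∈ univ.erase k', Real.log (1 - M.μ k * G.D a i) := by
      funext i
      rw [← add_sum_erase _ _ (mem_univ k'), hlam, Function.update_self, zero_mul, sub_zero, Real.log_one,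
        zero_add]
      congr 1
      exact sum_congr rfl fun k hk => by rw [Function.update_of_ne (ne_of_mem_erase hk)]
    simp only [famA, hs1, hBf, Grid.dh, sub_self, zero_div, add_zero, sum_const_zero, mul_zero, sub_zero,
      Real.log_one, e1]
  set S' : Sys ι := ⟨fun i => Sb.lam i + ∑ k, if some i = R k then lam k else 0, Sb.pot, Sb.s, Sb.u⟩ with hS'
  have hF : famSys Sb 0 (fun _ => Real.sqrt 1) R lam = S'.ext 0 fun _ => Real.sqrt 1 := by
    simp only [famSys, Sys.add, Sys.ext, dirL, Sys.mk.injEq, hS']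
    refine ⟨?_, ?_, ?_, ?_⟩
    · funext o
      cases o
      · have : ∀ k, none = R k ↔ k = M.k1 := fun k => by rw [← hn, eq_comm]; exact hinj.eq_iff
        simp [this, hl1]
      · simp
    · funext σ; ring
    · funext l o; simp
    · funext l o; simp
  have f2 := phi_ext (G := G) (ν := ν) (S := S') 1 (hoff ∅) (fun i hi => absurd hi (Set.notMem_empty _)) 0
    (sn := fun _ => Real.sqrt 1) fun _ _ => Real.sqrt_nonneg _
  rw [hα, hA, hF, f2] at f1
  simp only [Real.sqrt_one, one_pow] at f1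
  have hε := eps_small hQ hθ
  have f3 : phi G ν (cls M G Q (fun i => if R k' = some i then M.k1 else blk (some i)) lab θ) ≤ phi G ν S' := by
    refine phi_dom (fun l _ i => ⟨hQ.ε_pos.le, le_rfl, ?_, ?_⟩) (fun i => ?_) fun σ => ?_
    · simp only [hS', hSb, cls]
      split_ifs
      exacts [(hε _).1, le_rfl]
    · simp only [hS', hSb, cls, baseBlk]
      by_cases h1 : ∃ k, R k = some i
      · simp only [if_pos h1, hM.ne.symm, false_and, if_false]
        split_ifs <;> first | exact (hε _).1 | exact le_rfl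
      · have h2 : ¬R k' = some i := fun h => h1 ⟨k', h⟩
        simp only [if_neg h1, if_neg h2]
        exact le_rfl
    · simp only [hS', hSb, cls, baseBlk]
      by_cases h1 : ∃ k, R k = some i
      · obtain ⟨k, hk⟩ := h1
        have h1 : ∃ k, R k = some i := ⟨k, hk⟩
        have h2 : ∀ k'', some i = R k'' ↔ k'' = k := fun k'' => by rw [← hk, eq_comm]; exact hinj.eq_iff
        have h3 : blk (some i) = k := by rw [← hk, hR]
        simp only [if_pos h1, hM.ne.symm, false_and, if_false, h2, sum_ite_eq', mem_univ, if_true, hM.μ1, h3]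
        by_cases h4 : k = k'
        · have h5 : R k' = some i := h4 ▸ hk
          simp [h5, hM.ne.symm, hM.μ1, h4, hlam]
        · have h5 : ¬R k' = some i := fun h => h4 (hinj (hk.trans h.symm))
          simp only [if_neg h5, hlam, Function.update_of_ne h4]
          by_cases h6 : k = M.k0
          · simp only [h6, if_true, true_and, hM.μ0]
            refine le_trans (add_le_add le_rfl (sum_le_sum (g := fun _ => Q.ε ^ 2 * (25 / 4)) fun l _ => ?_)) ?_
            · have := hθ (.inl l)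
              have h8 : θ (.inl l) ^ 2 ≤ 25 / 4 := by nlinarith [this.1, this.2]
              split_ifs
              · nlinarith [mul_le_mul_of_nonneg_left h8 (sq_nonneg Q.ε)]
              · nlinarith [sq_nonneg Q.ε]
            rw [sum_const, Nat.card_Ico, nsmul_eq_mul]
            have h8 : ((G.n - 1 - 1 : ℕ) : ℝ) ≤ G.n := by exact_mod_cast (by omega)
            have h9 := mul_le_mul_of_nonneg_right h8 (by positivity : 0 ≤ Q.ε ^ 2 * (25 / 4))
            have h10 := mul_le_mul_of_nonneg_left hQ.ε_le hQ.ε_pos.le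
            have h11 := mul_le_mul_of_nonneg_left (hθ (.inl G.n)).1 hQ.ε_pos.le
            have h12 : 0 ≤ (G.n : ℝ) * Q.ε ^ 2 := by positivity
            nlinarith
          · simp [h6]
      · have h2 : ¬R k' = some i := fun h => h1 ⟨k', h⟩
        have h3 : ∀ k, ¬some i = R k := fun k h => h1 ⟨k, h.symm⟩
        simp [if_neg h1, if_neg h2, h3]
    · simp [hS', hSb, cls]
  linarith [(abs_le.1 f1).2]

end Crest.Agent.R164
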