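import Crest.Agent.R164.Tree

/-!
Row 164, task R164-Chi: the susceptibility form, convexity inequalities for nested values, determinism.

PLAN.  `chi f f = Σ ζ_i Ex_l ((Ex_{i+1} f - Ex_i f)^2)` (tower + pull-out), and
`Σ_{i ∈ Ico l n} Ex_l ((Ex_{i+1} f - Ex_i f)^2) = Ex_l f² - (Ex_l f)²` (telescoping); `ζ l ≤ ζ i ≤ 1`.
`chi_cs`: `chi` is a nonnegative symmetric bilinear form (discriminant).
`X_add_ge'`: one step `exp (ζ (X'_l - X_l)) = P_l exp (ζ (X'_{l+1} - X_{l+1}))` (`exp_X_step`, `dep_X`), and the power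
mean inequality `(P g^y)^{1/y} ≤ (P g^ζ)^{1/ζ}` for `y ≤ ζ` (tangent line of the concave `x ↦ x^(y/ζ)`:
`x^a ≤ m^a + a m^(a-1) (x - m)`; `Real.rpow_one_add_le_one_add_mul_self` / Bernoulli); downward induction.
`X_add_ge`: `X'_{l'} - X_{l'} ≥ Ex_{l'} η` (case `l = l'`, then Jensen `exp_Ex_le`) and monotonicity.
`X_add_le`: the same with `ζ ≤ 1`.
`det`: `y σ Ex|Z - z| ≤ log Ex exp (yσ|Z - z|) ≤ log (Ex exp (yσ(Z-z)) + Ex exp (-yσ(Z-z))) ≤ log 2 + y e`.
-/

set_option autoImplicit false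

namespace Crest.Agent.R164

open MeasureTheory Finset

namespace Tree

variable {E : Type} [MeasurableSpace E] {T : Tree E}
variable {H H' f g η : (ℕ → E) → ℝ} {l l' : ℕ}

theorem tame_chi (hH : T.Lin H) (hf : T.Tame f) (hg : T.Tame g) (l : ℕ) : T.Tame (T.chi H l f g) := by
  unfold chi
  refine Tame.sum _ fun i _ => Tame.const_mul _ (Tame.sub ?_ ?_)
  · exact tame_Ex hH ((tame_Ex hH hf _).mul (tame_Ex hH hg _)) l
  · exact tame_Ex hH ((tame_Ex hH hf _).mul (tame_Ex hH hg _)) l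
theorem dep_chi (H f g : (ℕ → E) → ℝ) (l : ℕ) : T.Dep l (T.chi H l f g) := by
  unfold chi
  refine Dep.sum _ fun i _ => ?_
  exact Dep.comp₂ (dep_Ex H _ l) (dep_Ex H _ l) (fun a b => T.ζ i * (a - b))
theorem chi_of_le (h : T.n ≤ l) (ω : ℕ → E) : T.chi H l f g ω = 0 := by
  simp [chi, Ico_eq_empty_of_le h]
theorem chi_comm (H f g : (ℕ → E) → ℝ) (l : ℕ) (ω : ℕ → E) : T.chi H l f g ω = T.chi H l g f ω := by
  unfold chi
  simp only [mul_comm (T.Ex H _ f _)]
theorem chi_add_right (hH : T.Lin H) (hf : T.Tame f) (hg : T.Tame g) (hη : T.Tame η) (l : ℕ)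
    (ω : ℕ → E) :
    T.chi H l f (fun ω => g ω + η ω) ω = T.chi H l f g ω + T.chi H l f η ω := by
  unfold chi
  rw [← sum_add_distrib]
  refine sum_congr rfl fun i _ => ?_
  have key : ∀ k, T.Ex H l (fun ω => T.Ex H k f ω * T.Ex H k (fun ω => g ω + η ω) ω) ω =
      T.Ex H l (fun ω => T.Ex H k f ω * T.Ex H k g ω) ω +
        T.Ex H l (fun ω => T.Ex H k f ω * T.Ex H k η ω) ω := by
    intro k
    rw [← Ex_add hH ((tame_Ex hH hf k).mul (tame_Ex hH hg k)) ((tame_Ex hH hf k).mul (tame_Ex hH hη k))]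
    congr 1
    funext ω
    rw [Ex_add hH hg hη]; ring
  rw [key, key]; ring
theorem chi_sub_right (hH : T.Lin H) (hf : T.Tame f) (hg : T.Tame g) (hη : T.Tame η) (l : ℕ)
    (ω : ℕ → E) :
    T.chi H l f (fun ω => g ω - η ω) ω = T.chi H l f g ω - T.chi H l f η ω := by
  unfold chi
  rw [← sum_sub_distrib]
  refine sum_congr rfl fun i _ => ?_
  have key : ∀ k, T.Ex H l (fun ω => T.Ex H k f ω * T.Ex H k (fun ω => g ω - η ω) ω) ω =
      T.Ex H l (fun ω => T.Ex H k f ω * T.Ex H k g ω) ω -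
        T.Ex H l (fun ω => T.Ex H k f ω * T.Ex H k η ω) ω := by
    intro k
    rw [← Ex_sub hH ((tame_Ex hH hf k).mul (tame_Ex hH hg k)) ((tame_Ex hH hf k).mul (tame_Ex hH hη k))]
    congr 1
    funext ω
    rw [Ex_sub hH hg hη]; ring
  rw [key, key]; ring
theorem chi_sum_right (hH : T.Lin H) (hf : T.Tame f) {ι : Type*} (s : Finset ι)
    {F : ι → (ℕ → E) → ℝ} (h : ∀ i ∈ s, T.Tame (F i)) (l : ℕ) (ω : ℕ → E) :
    T.chi H l f (fun ω => ∑ i ∈ s, F i ω) ω = ∑ i ∈ s, T.chi H l f (F i) ω := by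
  unfold chi
  rw [sum_comm]
  refine sum_congr rfl fun i _ => ?_
  have key : ∀ k, T.Ex H l (fun ω => T.Ex H k f ω * T.Ex H k (fun ω => ∑ j ∈ s, F j ω) ω) ω =
      ∑ j ∈ s, T.Ex H l (fun ω => T.Ex H k f ω * T.Ex H k (F j) ω) ω := by
    intro k
    rw [← Ex_sum hH s (fun j hj => (tame_Ex hH hf k).mul (tame_Ex hH (h j hj) k))]
    congr 1
    funext ω
    rw [Ex_sum hH s h, mul_sum]
  rw [key, key, ← sum_sub_distrib, mul_sum]
theorem chi_mul_dep (H f g : (ℕ → E) → ℝ) (hη : T.Dep l η) (ω : ℕ → E) :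
    T.chi H l f (fun ω => η ω * g ω) ω = η ω * T.chi H l f g ω := by
  unfold chi
  rw [mul_sum]
  refine sum_congr rfl fun i hi => ?_
  have key : ∀ k, l ≤ k → T.Ex H l (fun ω => T.Ex H k f ω * T.Ex H k (fun ω => η ω * g ω) ω) ω =
      η ω * T.Ex H l (fun ω => T.Ex H k f ω * T.Ex H k g ω) ω := by
    intro k hk
    rw [← Ex_mul_dep H _ hη]
    congr 1
    funext ω
    rw [Ex_mul_dep H g (hη.mono hk)]; ring
  have hi' := (mem_Ico.1 hi).1
  rw [key _ hi', key _ (Nat.le_succ_of_le hi')]; ring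
theorem chi_dep_right (hH : T.Lin H) (hf : T.Tame f) (hg : T.Dep l g) (ω : ℕ → E) :
    T.chi H l f g ω = 0 := by
  unfold chi
  refine sum_eq_zero fun i hi => ?_
  have key : ∀ k, l ≤ k → T.Ex H l (fun ω => T.Ex H k f ω * T.Ex H k g ω) ω =
      g ω * T.Ex H l f ω := by
    intro k hk
    rw [← Ex_tower hH f hk, ← Ex_mul_dep H _ hg]
    congr 1
    funext ω
    rw [Ex_of_dep hH (hg.mono hk)]; ring
  have hi' := (mem_Ico.1 hi).1
  rw [key _ hi', key _ (Nat.le_succ_of_le hi')]; ring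
theorem chi_step (hH : T.Lin H) (hf : T.Tame f) (hg : T.Tame g) (h : l < T.n) (ω : ℕ → E) :
    T.chi H l f g ω = T.Ex H l (T.chi H (l + 1) f g) ω + T.ζ l *
      (T.Ex H l (fun ω => T.Ex H (l + 1) f ω * T.Ex H (l + 1) g ω) ω - T.Ex H l f ω * T.Ex H l g ω) := by
  have tt : ∀ k, T.Tame (fun ω => T.Ex H k f ω * T.Ex H k g ω) := fun k =>
    (tame_Ex hH hf k).mul (tame_Ex hH hg k)
  have e1 : T.Ex H l (T.chi H (l + 1) f g) ω = ∑ i ∈ Ico (l + 1) T.n, T.ζ i *
      (T.Ex H l (fun ω => T.Ex H (i + 1) f ω * T.Ex H (i + 1) g ω) ω -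
        T.Ex H l (fun ω => T.Ex H i f ω * T.Ex H i g ω) ω) := by
    have e0 : T.chi H (l + 1) f g = fun ω => ∑ i ∈ Ico (l + 1) T.n, T.ζ i *
      (T.Ex H (l + 1) (fun ω => T.Ex H (i + 1) f ω * T.Ex H (i + 1) g ω) ω -
        T.Ex H (l + 1) (fun ω => T.Ex H i f ω * T.Ex H i g ω) ω) := rfl
    rw [e0, Ex_sum hH _ (fun i _ => ((tame_Ex hH (tt _) _).sub (tame_Ex hH (tt _) _)).const_mul _)]
    refine sum_congr rfl fun i _ => ?_
    rw [Ex_const_mul, Ex_sub hH (tame_Ex hH (tt _) _) (tame_Ex hH (tt _) _),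
      Ex_tower hH _ (Nat.le_succ l), Ex_tower hH _ (Nat.le_succ l)]
  have e2 : T.Ex H l (fun ω => T.Ex H l f ω * T.Ex H l g ω) ω = T.Ex H l f ω * T.Ex H l g ω :=
    Ex_of_dep hH (Dep.comp₂ (dep_Ex H f l) (dep_Ex H g l) (· * ·)) ω
  rw [e1, ← e2]
  unfold chi
  rw [sum_eq_sum_Ico_succ_bot h, add_comm]
theorem chi_eq (hH : T.Lin H) (hf : T.Tame f) (hg : T.Tame g) (h : l < T.n) (ω : ℕ → E) :
    T.chi H l f g ω = T.ζ (T.n - 1) * T.Ex H l (fun ω => f ω * g ω) ω -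
      ∑ i ∈ Ioo l T.n, (T.ζ i - T.ζ (i - 1)) * T.Ex H l (fun ω => T.Ex H i f ω * T.Ex H i g ω) ω -
      T.ζ l * (T.Ex H l f ω * T.Ex H l g ω) := by
  have abel : ∀ (A z : ℕ → ℝ) (n : ℕ), l < n → ∑ i ∈ Ico l n, z i * (A (i + 1) - A i) =
      z (n - 1) * A n - ∑ i ∈ Ioo l n, (z i - z (i - 1)) * A i - z l * A l := by
    intro A z n hn
    induction n, hn using Nat.le_induction with
    | base =>
      have e : Ioo l (l + 1) = ∅ := by ext x; simp only [mem_Ioo, notMem_empty]; constructor <;> intro h <;> first | omega | exact h.elim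
      show ∑ i ∈ Ico l (l + 1), z i * (A (i + 1) - A i) =
        z (l + 1 - 1) * A (l + 1) - ∑ i ∈ Ioo l (l + 1), (z i - z (i - 1)) * A i - z l * A l
      rw [e]; simp; ring
    | succ n hn ih =>
      have hln : l < n := hn
      have e : Ioo l (n + 1) = insert n (Ioo l n) := by
        ext x; simp only [mem_Ioo, mem_insert]; omega
      rw [sum_Ico_succ_top hln.le, ih, e, sum_insert (by simp)]
      simp only [Nat.add_sub_cancel]
      ring
  have e2 : T.Ex H l (fun ω => T.Ex H l f ω * T.Ex H l g ω) ω = T.Ex H l f ω * T.Ex H l g ω :=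
    Ex_of_dep hH (Dep.comp₂ (dep_Ex H f l) (dep_Ex H g l) (· * ·)) ω
  have := abel (fun i => T.Ex H l (fun ω => T.Ex H i f ω * T.Ex H i g ω) ω) T.ζ T.n h
  simp only [Ex_of_le (le_refl T.n), e2] at this
  exact this
theorem Ex_mul_Ex (hH : T.Lin H) (hf : T.Tame f) (hg : T.Tame g) {i k : ℕ} (h1 : l ≤ i) (h2 : i ≤ k)
    (ω : ℕ → E) : T.Ex H l (fun ω => T.Ex H i f ω * T.Ex H k g ω) ω =
      T.Ex H l (fun ω => T.Ex H i f ω * T.Ex H i g ω) ω := by
  rw [← Ex_tower hH _ h1]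
  congr 1
  funext ω
  rw [Ex_mul_dep H _ (dep_Ex H f i), Ex_tower hH g h2]

theorem Ex_incr (hH : T.Lin H) (hf : T.Tame f) {i : ℕ} (h1 : l ≤ i) (ω : ℕ → E) :
    T.Ex H l (fun ω => (T.Ex H (i + 1) f ω - T.Ex H i f ω) ^ 2) ω =
      T.Ex H l (fun ω => T.Ex H (i + 1) f ω * T.Ex H (i + 1) f ω) ω -
        T.Ex H l (fun ω => T.Ex H i f ω * T.Ex H i f ω) ω := by
  have t1 := tame_Ex hH hf (i + 1)
  have t0 := tame_Ex hH hf i
  have e1 : (fun ω => (T.Ex H (i + 1) f ω - T.Ex H i f ω) ^ 2) = fun ω =>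
      (T.Ex H (i + 1) f ω * T.Ex H (i + 1) f ω + T.Ex H i f ω * T.Ex H i f ω) -
        2 * (T.Ex H i f ω * T.Ex H (i + 1) f ω) := by
    funext ω; ring
  rw [e1, Ex_sub hH ((t1.mul t1).add (t0.mul t0)) ((t0.mul t1).const_mul 2),
    Ex_add hH (t1.mul t1) (t0.mul t0), Ex_const_mul, Ex_mul_Ex hH hf hf h1 (Nat.le_succ i)]
  ring

/-- orthogonality of martingale increments -/
theorem sum_incr (hH : T.Lin H) (hf : T.Tame f) (l : ℕ) (ω : ℕ → E) :
    ∑ i ∈ Ico l T.n, T.Ex H l (fun ω => (T.Ex H (i + 1) f ω - T.Ex H i f ω) ^ 2) ω =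
      T.Ex H l (fun ω => f ω ^ 2) ω - T.Ex H l f ω ^ 2 := by
  rcases le_total l T.n with h | h
  · rw [sum_congr rfl (fun i hi => Ex_incr hH hf (mem_Ico.1 hi).1 ω)]
    rw [sum_Ico_sub (fun i => T.Ex H l (fun ω => T.Ex H i f ω * T.Ex H i f ω) ω) h]
    have e2 : T.Ex H l (fun ω => T.Ex H l f ω * T.Ex H l f ω) ω = T.Ex H l f ω * T.Ex H l f ω :=
      Ex_of_dep hH (Dep.comp₂ (dep_Ex H f l) (dep_Ex H f l) (· * ·)) ω
    simp only [Ex_of_le (le_refl T.n), e2, sq]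
  · simp [Ico_eq_empty_of_le h, Ex_of_le h]

theorem chi_self_eq (hH : T.Lin H) (hf : T.Tame f) (l : ℕ) (ω : ℕ → E) :
    T.chi H l f f ω = ∑ i ∈ Ico l T.n,
      T.ζ i * T.Ex H l (fun ω => (T.Ex H (i + 1) f ω - T.Ex H i f ω) ^ 2) ω := by
  unfold chi
  refine sum_congr rfl fun i hi => ?_
  rw [Ex_incr hH hf (mem_Ico.1 hi).1]

theorem chi_ge (hH : T.Lin H) (hf : T.Tame f) (l : ℕ) (ω : ℕ → E) :
    T.ζ l * (T.Ex H l (fun ω => f ω ^ 2) ω - T.Ex H l f ω ^ 2) ≤ T.chi H l f f ω := by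
  rw [← sum_incr hH hf, chi_self_eq hH hf, mul_sum]
  refine sum_le_sum fun i hi => ?_
  exact mul_le_mul_of_nonneg_right (T.ζ_mono (mem_Ico.1 hi).1)
    (Ex_nonneg H (fun ω => sq_nonneg _) l ω)
theorem chi_nonneg (hH : T.Lin H) (hf : T.Tame f) (l : ℕ) (ω : ℕ → E) : 0 ≤ T.chi H l f f ω := by
  rw [chi_self_eq hH hf]
  exact sum_nonneg fun i _ => mul_nonneg (T.ζ_pos i).le (Ex_nonneg H (fun ω => sq_nonneg _) l ω)
theorem chi_le (hH : T.Lin H) (hf : T.Tame f) (l : ℕ) (ω : ℕ → E) :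
    T.chi H l f f ω ≤ T.Ex H l (fun ω => f ω ^ 2) ω - T.Ex H l f ω ^ 2 := by
  rw [← sum_incr hH hf, chi_self_eq hH hf]
  refine sum_le_sum fun i _ => ?_
  exact mul_le_of_le_one_left (Ex_nonneg H (fun ω => sq_nonneg _) l ω) (T.ζ_le i)
theorem chi_cs (hH : T.Lin H) (hf : T.Tame f) (hg : T.Tame g) (l : ℕ) (ω : ℕ → E) :
    T.chi H l f g ω ^ 2 ≤ T.Ex H l (fun ω => f ω ^ 2) ω * T.Ex H l (fun ω => g ω ^ 2) ω := by
  have key : ∀ t : ℝ, 0 ≤ T.chi H l g g ω * (t * t) + (2 * T.chi H l f g ω) * t + T.chi H l f f ω := by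
    intro t
    have htg : T.Tame fun ω => t * g ω := hg.const_mul t
    have hs : T.Tame fun ω => f ω + t * g ω := hf.add htg
    have h0 := chi_nonneg hH hs l ω
    have hm : ∀ u : (ℕ → E) → ℝ, T.chi H l u (fun ω => t * g ω) ω = t * T.chi H l u g ω := fun u =>
      chi_mul_dep H u g (Dep.const t) ω
    rw [chi_add_right hH hs hf htg, hm, chi_comm H _ f, chi_comm H _ g, chi_add_right hH hf hf htg,
      chi_add_right hH hg hf htg, hm, hm, chi_comm H g f] at h0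
    nlinarith [h0]
  have hd := discrim_le_zero key
  unfold discrim at hd
  have h1 := chi_le hH hf l ω
  have h2 := chi_le hH hg l ω
  have h3 := chi_nonneg hH hf l ω
  have h4 := chi_nonneg hH hg l ω
  have h5 : T.chi H l f f ω * T.chi H l g g ω ≤
      T.Ex H l (fun ω => f ω ^ 2) ω * T.Ex H l (fun ω => g ω ^ 2) ω := by
    apply mul_le_mul
    · nlinarith [sq_nonneg (T.Ex H l f ω)]
    · nlinarith [sq_nonneg (T.Ex H l g ω)]
    · exact h4
    · exact Ex_nonneg H (fun ω => sq_nonneg _) l ω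
  nlinarith

/-! ### convexity inequalities -/

/-- power mean inequality -/
theorem Ex_exp_pm (hH : T.Lin H) (hf : T.Lin f) {y z c : ℝ} (hy : 0 < y) (hyz : y ≤ z) (l : ℕ)
    (ω : ℕ → E) (h : T.Ex H l (fun ω => Real.exp (z * f ω)) ω ≤ Real.exp (z * c)) :
    T.Ex H l (fun ω => Real.exp (y * f ω)) ω ≤ Real.exp (y * c) := by
  have hz : 0 < z := hy.trans_le hyz
  set a := y / z with ha
  have ha0 : 0 ≤ a := (div_pos hy hz).le
  have ha1 : a ≤ 1 := (div_le_one hz).2 hyz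
  have hya : y = a * z := by rw [ha]; field_simp
  have tz : T.Tame fun ω => Real.exp (z * f ω) := (hf.const_mul z).exp
  have pt : ∀ ω', Real.exp (y * f ω') ≤ Real.exp (y * c) * (1 - a) +
      (Real.exp (y * c) * a * Real.exp (-(z * c))) * Real.exp (z * f ω') := by
    intro ω'
    have hc := convexOn_exp.2 (Set.mem_univ (z * f ω' - z * c)) (Set.mem_univ 0) ha0
      (sub_nonneg.2 ha1) (by ring)
    simp only [smul_eq_mul, mul_zero, add_zero, Real.exp_zero, mul_one] at hc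
    have e1 : Real.exp (y * f ω') = Real.exp (y * c) * Real.exp (a * (z * f ω' - z * c)) := by
      rw [← Real.exp_add, hya]; congr 1; ring
    have e2 : Real.exp (z * f ω' - z * c) = Real.exp (-(z * c)) * Real.exp (z * f ω') := by
      rw [← Real.exp_add]; congr 1; ring
    rw [e1]
    rw [e2] at hc
    nlinarith [Real.exp_pos (y * c)]
  refine (Ex_mono hH (hf.const_mul y).exp ((Tame.const _).add (tz.const_mul _)) pt l ω).trans ?_
  rw [Ex_add hH (Tame.const _) (tz.const_mul _), Ex_const hH, Ex_const_mul]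
  have h2 : Real.exp (y * c) * a * Real.exp (-(z * c)) * T.Ex H l (fun ω => Real.exp (z * f ω)) ω ≤
      Real.exp (y * c) * a * Real.exp (-(z * c)) * Real.exp (z * c) :=
    mul_le_mul_of_nonneg_left h (by positivity)
  have h3 : Real.exp (-(z * c)) * Real.exp (z * c) = 1 := by rw [← Real.exp_add]; simp
  rw [mul_assoc _ (Real.exp (-(z * c))) (Real.exp (z * c)), h3] at h2
  nlinarith

/-- one step of the comparison of two Hamiltonians -/
theorem Ex_exp_step (hH : T.Lin H) (hH' : T.Lin H') (h : l < T.n) (ω : ℕ → E) :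
    T.Ex H l (fun ω => Real.exp (T.ζ l * (T.X H' (l + 1) ω - T.X H (l + 1) ω))) ω =
      Real.exp (T.ζ l * (T.X H' l ω - T.X H l ω)) := by
  have hd : T.Dep (l + 1) fun ω => Real.exp (T.ζ l * (T.X H' (l + 1) ω - T.X H (l + 1) ω)) :=
    Dep.comp₂ (dep_X H' (l + 1)) (dep_X H (l + 1)) (fun a b => Real.exp (T.ζ l * (a - b)))
  rw [Ex_step h, funext (Ex_of_dep hH hd)]
  unfold P wt
  have e : ∀ e, Real.exp (T.ζ l * (T.X H (l + 1) (Function.update ω l e) - T.X H l (Function.update ω l e))) *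
      Real.exp (T.ζ l * (T.X H' (l + 1) (Function.update ω l e) - T.X H (l + 1) (Function.update ω l e))) =
      Real.exp (-(T.ζ l * T.X H l ω)) * Real.exp (T.ζ l * T.X H' (l + 1) (Function.update ω l e)) := by
    intro e
    rw [dep_X H l l le_rfl h, ← Real.exp_add, ← Real.exp_add]
    congr 1; ring
  simp only [e]
  rw [integral_const_mul, ← exp_X_step hH' h, ← Real.exp_add]
  congr 1; ring

theorem Ex_exp_X_le (hH : T.Lin H) (hH' : T.Lin H') {y : ℝ} (hy : 0 < y) (hyl : y ≤ T.ζ l) (h : l ≤ l')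
    (ω : ℕ → E) :
    T.Ex H l (fun ω => Real.exp (y * (T.X H' l' ω - T.X H l' ω))) ω ≤
      Real.exp (y * (T.X H' l ω - T.X H l ω)) := by
  induction h using Nat.decreasingInduction generalizing ω with
  | self =>
    exact (Ex_of_dep hH (Dep.comp₂ (dep_X H' l') (dep_X H l') (fun a b => Real.exp (y * (a - b)))) ω).le
  | of_succ k hk ih =>
    rcases le_or_gt T.n k with hn | hn
    · have hn' : T.n ≤ l' := hn.trans hk.le
      rw [Ex_of_le hn, X_of_le hn, X_of_le hn, X_of_le hn', X_of_le hn']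
    · have lin : ∀ j, T.Lin fun ω => T.X H' j ω - T.X H j ω := fun j => (lin_X hH' j).sub (lin_X hH j)
      rw [← Ex_tower hH _ (Nat.le_succ k)]
      refine (Ex_mono hH (tame_Ex hH ((lin l').const_mul y).exp _) ((lin (k + 1)).const_mul y).exp
        (fun ω => ih (hyl.trans (T.ζ_mono (Nat.le_succ k))) ω) k ω).trans ?_
      exact Ex_exp_pm hH (lin (k + 1)) hy hyl k ω (Ex_exp_step hH hH' hn ω).le

theorem X_add_ge' (hH : T.Lin H) (hH' : T.Lin H') {y : ℝ} (hy : 0 < y) (hyl : y ≤ T.ζ l) (h : l ≤ l')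
    (ω : ℕ → E) :
    y⁻¹ * Real.log (T.Ex H l (fun ω => Real.exp (y * (T.X H' l' ω - T.X H l' ω))) ω) ≤
      T.X H' l ω - T.X H l ω := by
  have lin : T.Lin fun ω => T.X H' l' ω - T.X H l' ω := (lin_X hH' _).sub (lin_X hH _)
  have hp := Ex_pos hH (lin.const_mul y).exp (fun ω => Real.exp_pos _) l ω
  have h1 := Ex_exp_X_le hH hH' hy hyl h ω
  rw [← Real.log_le_iff_le_exp hp] at h1
  rw [inv_mul_le_iff₀ hy]
  exact h1

theorem X_tangent (hH : T.Lin H) (hH' : T.Lin H') (l : ℕ) (ω : ℕ → E) :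
    T.Ex H l (fun ω => H' ω - H ω) ω ≤ T.X H' l ω - T.X H l ω := by
  have hy := T.ζ_pos l
  have lin : T.Lin fun ω => H' ω - H ω := hH'.sub hH
  have h1 := Ex_exp_X_le hH hH' hy le_rfl (le_max_left l T.n) ω
  rw [X_of_le (le_max_right l T.n), X_of_le (le_max_right l T.n)] at h1
  have h2 := exp_Ex_le hH (lin.const_mul (T.ζ l)).tame (lin.const_mul (T.ζ l)).exp l ω
  rw [Ex_const_mul] at h2
  have h3 := Real.exp_le_exp.1 (h2.trans h1)
  exact le_of_mul_le_mul_left h3 hy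

/-- `Ex` of a function of linear growth has linear growth (it is squeezed by `X_tangent` for `± η`). -/
theorem lin_Ex (hH : T.Lin H) (hη : T.Lin η) (l : ℕ) : T.Lin (T.Ex H l η) := by
  have l1 : T.Lin fun ω => T.X (fun ω => H ω + η ω) l ω - T.X H l ω :=
    (lin_X (hH.add hη) l).sub (lin_X hH l)
  have l2 : T.Lin fun ω => T.X (fun ω => H ω - η ω) l ω - T.X H l ω :=
    (lin_X (hH.sub hη) l).sub (lin_X hH l)
  refine Lin.of_le (tame_Ex hH hη.tame l).1 (l1.abs.add l2.abs) fun ω => ?_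
  have h1 := X_tangent hH (hH.add hη) l ω
  have h2 := X_tangent hH (hH.sub hη) l ω
  simp only [add_sub_cancel_left, sub_sub_cancel_left] at h1 h2
  rw [Ex_neg] at h2
  refine le_trans ?_ (le_abs_self _)
  have a1 := le_abs_self (T.X (fun ω => H ω + η ω) l ω - T.X H l ω)
  have a2 := le_abs_self (T.X (fun ω => H ω - η ω) l ω - T.X H l ω)
  have a3 := abs_nonneg (T.X (fun ω => H ω + η ω) l ω - T.X H l ω)
  have a4 := abs_nonneg (T.X (fun ω => H ω - η ω) l ω - T.X H l ω)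
  rw [abs_le]
  constructor <;> linarith

theorem X_add_ge (hH : T.Lin H) (hη : T.Lin η) {y : ℝ} (hy : 0 < y) (hyl : y ≤ T.ζ l) (h : l ≤ l')
    (ω : ℕ → E) :
    y⁻¹ * Real.log (T.Ex H l (fun ω => Real.exp (y * T.Ex H l' η ω)) ω) ≤
      T.X (fun ω => H ω + η ω) l ω - T.X H l ω := by
  refine le_trans ?_ (X_add_ge' hH (hH.add hη) hy hyl h ω)
  have lin : T.Lin fun ω => T.X (fun ω => H ω + η ω) l' ω - T.X H l' ω :=
    (lin_X (hH.add hη) _).sub (lin_X hH _)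
  have t1 := ((lin_Ex hH hη l').const_mul y).exp
  refine mul_le_mul_of_nonneg_left (Real.log_le_log
    (Ex_pos hH t1 (fun ω => Real.exp_pos _) l ω) ?_) (inv_nonneg.2 hy.le)
  refine Ex_mono hH t1 (lin.const_mul y).exp (fun ω => ?_) l ω
  have h1 := X_tangent hH (hH.add hη) l' ω
  simp only [add_sub_cancel_left] at h1
  exact Real.exp_le_exp.2 (mul_le_mul_of_nonneg_left h1 hy.le)

theorem X_add_le (hH : T.Lin H) (hH' : T.Lin H') (l : ℕ) (ω : ℕ → E) :
    T.X H' l ω - T.X H l ω ≤ Real.log (T.Ex H l (fun ω => Real.exp (H' ω - H ω)) ω) := by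
  have lin : ∀ j, T.Lin fun ω => T.X H' j ω - T.X H j ω := fun j => (lin_X hH' j).sub (lin_X hH j)
  have t0 : T.Tame fun ω => Real.exp (H' ω - H ω) := (hH'.sub hH).exp
  rw [Real.le_log_iff_exp_le (Ex_pos hH t0 (fun ω => Real.exp_pos _) l ω)]
  rcases le_total T.n l with h | h
  · rw [Ex_of_le h, X_of_le h, X_of_le h]
  induction h using Nat.decreasingInduction generalizing ω with
  | self => rw [Ex_of_le le_rfl, X_of_le le_rfl, X_of_le le_rfl]
  | of_succ k hk ih =>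
    rw [← Ex_tower hH _ (Nat.le_succ k)]
    refine le_trans ?_ (Ex_mono hH (lin (k + 1)).exp (tame_Ex hH t0 _) (fun ω => ih ω) k ω)
    have hp := Ex_pos hH (lin (k + 1)).exp (fun ω => Real.exp_pos _) k ω
    have h1 := Ex_exp_pm hH (lin (k + 1)) (T.ζ_pos k) (T.ζ_le k) k ω
      (c := Real.log (T.Ex H k (fun ω => Real.exp (T.X H' (k + 1) ω - T.X H (k + 1) ω)) ω))
      (by simp only [one_mul]; rw [Real.exp_log hp])
    rw [Ex_exp_step hH hH' hk ω] at h1
    have h2 := le_of_mul_le_mul_left (Real.exp_le_exp.1 h1) (T.ζ_pos k)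
    rwa [Real.le_log_iff_exp_le hp] at h2

/-- second order expansion for a bounded perturbation -/
theorem X_add_bdd (hH : T.Lin H) (hm : Measurable η) {β : ℝ} (hβ : β ≤ 1) (h : ∀ ω, |η ω| ≤ β) (l : ℕ)
    (ω : ℕ → E) :
    |T.X (fun ω => H ω + η ω) l ω - T.X H l ω - T.Ex H l η ω| ≤ β ^ 2 := by
  have hη : T.Lin η := Lin.of_bdd hm h
  have h1 := X_tangent hH (hH.add hη) l ω
  have h2 := X_add_le hH (hH.add hη) l ω
  simp only [add_sub_cancel_left] at h1 h2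
  have hp := Ex_pos hH hη.exp (fun ω => Real.exp_pos _) l ω
  have h3 := Real.log_le_sub_one_of_pos hp
  have h4 : T.Ex H l (fun ω => Real.exp (η ω)) ω ≤ T.Ex H l (fun ω => η ω + (1 + β ^ 2)) ω := by
    refine Ex_mono hH hη.exp (hη.tame.add (Tame.const _)) (fun ω => ?_) l ω
    have a1 := Real.abs_exp_sub_one_sub_id_le ((h ω).trans hβ)
    have a2 : η ω ^ 2 ≤ β ^ 2 := by
      rw [← sq_abs (η ω)]; exact pow_le_pow_left₀ (abs_nonneg _) (h ω) 2
    have a3 := le_abs_self (Real.exp (η ω) - 1 - η ω)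
    linarith
  rw [Ex_add hH hη.tame (Tame.const _), Ex_const hH] at h4
  rw [abs_le]
  constructor
  · nlinarith [sq_nonneg β]
  · linarith

theorem det (hH : T.Lin H) (hη : T.Lin η) {y σ z e : ℝ} (hy : 0 < y) (hyl : y ≤ T.ζ 0) (hσ : 0 < σ)
    (l : ℕ) (ω : ℕ → E)
    (h1 : T.X (fun ω => H ω + σ * η ω) 0 ω - T.X H 0 ω ≤ σ * z + e)
    (h2 : T.X (fun ω => H ω + (-σ) * η ω) 0 ω - T.X H 0 ω ≤ (-σ) * z + e) :
    T.Ex H 0 (fun ω => |T.Ex H l η ω - z|) ω ≤ (e + Real.log 2 / y) / σ := by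
  have lZ := lin_Ex hH hη l
  have lz : T.Lin fun ω => T.Ex H l η ω - z := lZ.sub (Lin.const z)
  have key : ∀ s : ℝ, T.X (fun ω => H ω + s * η ω) 0 ω - T.X H 0 ω ≤ s * z + e →
      T.Ex H 0 (fun ω => Real.exp (y * s * (T.Ex H l η ω - z))) ω ≤ Real.exp (y * e) := by
    intro s hs
    have a1 := (X_add_ge hH (hη.const_mul s) hy hyl (Nat.zero_le l) ω).trans hs
    simp only [Ex_const_mul] at a1
    have t1 := ((lZ.const_mul s).const_mul y).exp
    have hp := Ex_pos hH t1 (fun ω => Real.exp_pos _) 0 ω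
    rw [inv_mul_le_iff₀ hy, Real.log_le_iff_le_exp hp] at a1
    have e1 : (fun ω => Real.exp (y * s * (T.Ex H l η ω - z))) =
        fun ω => Real.exp (-(y * s * z)) * Real.exp (y * (s * T.Ex H l η ω)) := by
      funext ω; rw [← Real.exp_add]; congr 1; ring
    rw [e1, Ex_const_mul]
    refine (mul_le_mul_of_nonneg_left a1 (Real.exp_pos _).le).trans (le_of_eq ?_)
    rw [← Real.exp_add]; congr 1; ring
  have k1 := key σ h1
  have k2 := key (-σ) h2
  have la := lz.abs.const_mul (y * σ)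
  have j1 := exp_Ex_le hH la.tame la.exp 0 ω
  rw [Ex_const_mul] at j1
  have j2 : T.Ex H 0 (fun ω => Real.exp (y * σ * |T.Ex H l η ω - z|)) ω ≤
      T.Ex H 0 (fun ω => Real.exp (y * σ * (T.Ex H l η ω - z)) +
        Real.exp (y * (-σ) * (T.Ex H l η ω - z))) ω := by
    refine Ex_mono hH la.exp ((lz.const_mul _).exp.add (lz.const_mul _).exp) (fun ω => ?_) 0 ω
    rcases abs_cases (T.Ex H l η ω - z) with ⟨a, _⟩ | ⟨a, _⟩
    · rw [a]; linarith [Real.exp_pos (y * (-σ) * (T.Ex H l η ω - z))]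
    · rw [a]
      have : y * σ * -(T.Ex H l η ω - z) = y * (-σ) * (T.Ex H l η ω - z) := by ring
      rw [this]; linarith [Real.exp_pos (y * σ * (T.Ex H l η ω - z))]
  rw [Ex_add hH (lz.const_mul _).exp (lz.const_mul _).exp] at j2
  have j3 : Real.exp (y * σ * T.Ex H 0 (fun ω => |T.Ex H l η ω - z|) ω) ≤
      Real.exp (Real.log 2 + y * e) := by
    rw [Real.exp_add, Real.exp_log two_pos]; linarith
  have j4 := Real.exp_le_exp.1 j3
  rw [le_div_iff₀ hσ]
  have j5 : e + Real.log 2 / y = (Real.log 2 + y * e) / y := by field_simp; ring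
  rw [j5, le_div_iff₀ hy]
  linarith

end Tree

end Crest.Agent.R164
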