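import Crest.Agent.R164.Sym
import Crest.Agent.R164.Rel

/-!
Row 164, task R164-Cls: the perturbed block systems used in the lower bound; symmetries and simple comparisons.

PLAN.  `cls_add*`: `Sys` extensionality + `funext`, `Function.update`, `field_simp`.  `exists_equiv_cnt`: `Equiv.ofFiberEquiv` with
`Fintype.equivOfCardEq`.  `cls_re`: `(cls blk' lab').re e₁ e₂ = cls blk lab` when `blk' ∘ e₁ = blk`, `lab' ∘ e₂ = lab` (reindex the sums), then `phi_re`, `E0_re`, `ov_re`.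
`cls_exch`: the same with `e₁ = refl`, `e₂ = swap r r'`.  `cls_change`: upper bound by `phi_dom` (for `k = k0`: `-ε θ_n + Σ ε² θ_l² ≤ 0`) or `phi_le_lam_pot`;
lower bound: `phi_fields_mono` (drop the new fields) and `phi_tangent` in direction `dirL (Pi.single i _)` with `E0 x_i² ≤ √40 ā` (`block_four`, `B = B' = blk⁻¹ k1`, `sq_Ex_le`).
`cls_lip`: `phi_tangent` at both ends, `E0_Ham`, `Tst_mem`, `sum_xx_sq`.  `cls_le_plain`: `phi_dom`, `phi_nofield`.
-/

set_option autoImplicit false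
set_option linter.unusedSectionVars false

namespace Crest.Agent.R164

open MeasureTheory Finset Matrix

structure Mod (𝒦 : Type) (J : ℕ) where
  μ : 𝒦 → ℝ
  α : 𝒦 → ℝ
  k0 : 𝒦
  k1 : 𝒦
  γ : Fin J → ℚ
  m : Fin J → ℚ
  c : Fin J → ℝ
  Λ : ℝ
  a0 : ℝ

structure Mod.OK {𝒦 : Type} [Fintype 𝒦] {J : ℕ} (M : Mod 𝒦 J) : Prop where
  atom : Atom M.α M.μ M.a0 M.Λ
  ne : M.k0 ≠ M.k1
  μ0 : M.μ M.k0 = 0
  μ1 : M.μ M.k1 = 0
  α_ge : ∀ k, M.a0 ≤ M.α k
  one_le : 1 ≤ M.Λ
  γ_pos : ∀ j, 0 < M.γ j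
  γ_sum : ∑ j, M.γ j = 1
  m_lt : ∀ j, |(M.m j : ℝ)| < 1

structure CP where
  ε : ℝ
  L : ℝ
  N0 : ℝ

structure CP.OK (Q : CP) (G : Grid) : Prop where
  ε_pos : 0 < Q.ε
  ε_le : 13 * G.n * Q.ε ≤ 1
  L_pos : 0 < Q.L
  N0_ge : 1 ≤ Q.N0

def HaarAll : Prop := ∀ N : ℕ, ∃ ν : ProbabilityMeasure (OG (Fin N)), IsHaar ν

variable {ι ι' 𝒦 : Type} [Fintype ι] [DecidableEq ι] [Fintype ι'] [DecidableEq ι'] [Fintype 𝒦]
  [DecidableEq 𝒦] {J : ℕ}

def fib {κ : Type} [DecidableEq κ] (f : ι → κ) (k : κ) : Finset ι := univ.filter fun i => f i = k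
def cnt {κ : Type} [DecidableEq κ] (f : ι → κ) (k : κ) : ℕ := (fib f k).card
def mg (lab : ι → Fin J) (j : Fin J) (σ : ι → Bool) : ℝ := ∑ r ∈ fib lab j, sp σ r

noncomputable def cls (M : Mod 𝒦 J) (G : Grid) (Q : CP) (blk : ι → 𝒦) (lab : ι → Fin J)
    (θ : ℕ ⊕ Fin J → ℝ) : Sys ι where
  lam := fun i => if blk i = M.k0 then -(Q.ε * θ (.inl G.n)) else M.μ (blk i)
  pot := fun σ => ∑ r, (M.c (lab r) + Q.ε * θ (.inr (lab r))) * sp σ r -
    Q.L / (2 * Q.N0) * ∑ j, (mg lab j σ - cnt lab j * (M.m j : ℝ)) ^ 2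
  s := fun _ _ => Q.ε
  u := fun l i => if blk i = M.k0 ∧ l ≠ G.n then Q.ε * θ (.inl l) else 0

def Box (θ : ℕ ⊕ Fin J → ℝ) : Prop := ∀ d, θ d ∈ Set.Icc (1 / 2 : ℝ) (5 / 2)
def Box1 (θ : ℕ ⊕ Fin J → ℝ) : Prop := ∀ d, θ d ∈ Set.Icc (1 : ℝ) 2

structure Reg (M : Mod 𝒦 J) (Q : CP) (blk : ι → 𝒦) : Prop where
  lo : Q.N0 / 2 ≤ Fintype.card ι
  hi : (Fintype.card ι : ℝ) ≤ 2 * Q.N0
  blk : ∀ k, M.a0 / 2 * Fintype.card ι ≤ cnt blk k

variable {M : Mod 𝒦 J} {G : Grid} {Q : CP} {θ : ℕ ⊕ Fin J → ℝ} {blk : ι → 𝒦} {lab : ι → Fin J}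
  {ν : ProbabilityMeasure (OG ι)} {ν' : ProbabilityMeasure (OG ι')}

theorem HaarAll.exists (h : HaarAll) (ι : Type) [Fintype ι] [DecidableEq ι] :
    ∃ ν : ProbabilityMeasure (OG ι), IsHaar ν := by
  obtain ⟨ν, hν⟩ := h (Fintype.card ι)
  exact hν.exists_of_equiv (Fintype.equivFin ι).symm
theorem sum_cnt {κ : Type} [Fintype κ] [DecidableEq κ] (f : ι → κ) : ∑ k, cnt f k = Fintype.card ι := by
  rw [← Finset.card_univ, Finset.card_eq_sum_card_fiberwise (f := f) (t := univ)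
    (fun _ _ => mem_coe.2 (mem_univ _))]
  rfl
theorem exists_equiv_cnt {κ : Type} [DecidableEq κ] {f : ι → κ} {f' : ι' → κ} (h : ∀ k, cnt f k = cnt f' k) :
    ∃ e : ι ≃ ι', ∀ i, f' (e i) = f i := by
  refine ⟨Equiv.ofFiberEquiv (f := f) (g := f') fun k => Fintype.equivOfCardEq ?_,
    fun i => Equiv.ofFiberEquiv_map _ i⟩
  rw [Fintype.card_subtype, Fintype.card_subtype]
  exact h k
theorem abs_mg_le (j : Fin J) (σ : ι → Bool) : |mg lab j σ| ≤ cnt lab j := by
  refine (Finset.abs_sum_le_sum_abs _ _).trans (le_of_eq ?_)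
  simp [abs_sp, cnt]

theorem mem_fib {κ : Type} [DecidableEq κ] {f : ι → κ} {k : κ} {i : ι} : i ∈ fib f k ↔ f i = k := by
  simp [fib]

theorem cnt_le_card {κ : Type} [DecidableEq κ] (f : ι → κ) (k : κ) : cnt f k ≤ Fintype.card ι :=
  card_le_univ _

theorem cls_ext {S S' : Sys ι} (h1 : ∀ i, S.lam i = S'.lam i) (h2 : ∀ σ, S.pot σ = S'.pot σ)
    (h3 : ∀ l i, S.s l i = S'.s l i) (h4 : ∀ l i, S.u l i = S'.u l i) : S = S' := by
  cases S; cases S'
  simp only [Sys.mk.injEq]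
  exact ⟨funext h1, funext h2, funext fun l => funext (h3 l), funext fun l => funext (h4 l)⟩

theorem cls_sum_fib {κ : Type} [DecidableEq κ] {f : ι → κ} {f' : ι' → κ} (e : ι ≃ ι')
    (h : ∀ i, f' (e i) = f i) (k : κ) (F : ι' → ℝ) :
    ∑ r ∈ fib f' k, F r = ∑ r ∈ fib f k, F (e r) :=
  (Finset.sum_equiv e (fun i => by rw [mem_fib, mem_fib, h]) fun _ _ => rfl).symm

theorem cls_cnt_eq {κ : Type} [DecidableEq κ] {f : ι → κ} {f' : ι' → κ} (e : ι ≃ ι')
    (h : ∀ i, f' (e i) = f i) (k : κ) : cnt f' k = cnt f k :=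
  (Finset.card_equiv e (fun i => by rw [mem_fib, mem_fib, h])).symm

theorem cls_mg_re {lab' : ι' → Fin J} (e : ι ≃ ι') (h : ∀ r, lab' (e r) = lab r) (j : Fin J)
    (σ : ι → Bool) : mg lab' j (fun r => σ (e.symm r)) = mg lab j σ := by
  rw [mg, cls_sum_fib e h, mg]
  refine sum_congr rfl fun r _ => ?_
  simp [sp]

theorem CP.OK.ε_le' (hQ : Q.OK G) : 39 * Q.ε ≤ 1 := by
  have h1 : (3 : ℝ) ≤ G.n := by exact_mod_cast G.three_le
  nlinarith [hQ.ε_le, hQ.ε_pos]

theorem cls_u_mem (hQ : Q.OK G) (hθ : Box θ) (l : ℕ) (i : ι) :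
    0 ≤ (cls M G Q blk lab θ).u l i ∧ (cls M G Q blk lab θ).u l i ≤ 1 := by
  have h1 := hθ (.inl l)
  have h2 := hQ.ε_le'
  have h3 := hQ.ε_pos
  simp only [cls]
  split_ifs
  · constructor <;> nlinarith [h1.1, h1.2]
  · norm_num

theorem cls_dom (hQ : Q.OK G) (hθ : Box θ) :
    -(Q.ε * θ (.inl G.n)) + ∑ l ∈ Ico 1 (G.n - 1), (Q.ε * θ (.inl l)) ^ 2 ≤ 0 := by
  have h3 := hQ.ε_pos
  have h1 : ∑ l ∈ Ico 1 (G.n - 1), (Q.ε * θ (.inl l)) ^ 2 ≤ (Ico 1 (G.n - 1)).card • (Q.ε * (5 / 2)) ^ 2 :=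
    Finset.sum_le_card_nsmul _ _ _ fun l _ => by
      have := hθ (.inl l)
      exact pow_le_pow_left₀ (mul_nonneg h3.le (by linarith [this.1]))
        (mul_le_mul_of_nonneg_left this.2 h3.le) 2
  have h2 : ((Ico 1 (G.n - 1)).card : ℝ) ≤ G.n := by
    rw [Nat.card_Ico]; exact_mod_cast (by omega)
  rw [nsmul_eq_mul] at h1
  have h4 := mul_le_mul_of_nonneg_right h2 (sq_nonneg (Q.ε * (5 / 2)))
  have h5 := (hθ (.inl G.n)).1
  have h6 := mul_le_mul_of_nonneg_left hQ.ε_le h3.le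
  nlinarith [mul_le_mul_of_nonneg_left h5 h3.le]

theorem E0_zero' (S : Sys ι) : E0 G ν S (fun _ => 0) = 0 := Tree.Ex_const (lin_Ham G ν S) 0 0 pt0

theorem abs_E0_le {S : Sys ι} {f : Pth ι → ℝ} (hf : (tree G ν).Tame f) {C : ℝ} (h : ∀ ω, |f ω| ≤ C) :
    |E0 G ν S f| ≤ C := Tree.abs_Ex_le_const (lin_Ham G ν S) hf h 0 pt0

theorem sum_ov_top (S : Sys ι) : ∑ i, ov G ν S (xx G i) (xx G i) G.n = Fintype.card ι := by
  rw [sum_ov_xx]
  simp [ov_sg_top]

theorem add_add_neg (S D : Sys ι) (t : ℝ) : (S.add D t).add D (-t) = S :=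
  cls_ext (fun _ => by simp [Sys.add]) (fun _ => by simp [Sys.add]) (fun _ _ => by simp [Sys.add])
    (fun _ _ => by simp [Sys.add])

theorem phi_add_abs {S D : Sys ι} {t K : ℝ} (h1 : |E0 G ν S (Ham G D)| ≤ K)
    (h2 : |E0 G ν (S.add D t) (Ham G D)| ≤ K) : |phi G ν (S.add D t) - phi G ν S| ≤ |t| * K := by
  have e1 := phi_tangent (G := G) (ν := ν) (S := S) (D := D) t
  have e2 := phi_tangent (G := G) (ν := ν) (S := S.add D t) (D := D) (-t)
  rw [add_add_neg] at e2
  have b1 : |t * E0 G ν S (Ham G D)| ≤ |t| * K := by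
    rw [abs_mul]; exact mul_le_mul_of_nonneg_left h1 (abs_nonneg _)
  have b2 : |t * E0 G ν (S.add D t) (Ham G D)| ≤ |t| * K := by
    rw [abs_mul]; exact mul_le_mul_of_nonneg_left h2 (abs_nonneg _)
  rw [abs_le] at b1 b2 ⊢
  constructor <;> linarith [b1.1, b2.2]

theorem abs_E0_dirL (S : Sys ι) (T : Finset ι) :
    |E0 G ν S (Ham G (dirL (ind T)))| ≤ Fintype.card ι := by
  refine abs_E0_le (lin_Ham G ν _).tame fun ω => ?_
  rw [Ham_dirL]
  have h1 : 0 ≤ ∑ i, ind T i * xx G i ω ^ 2 := sum_nonneg fun i _ => by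
    unfold ind; split_ifs <;> positivity
  have h2 : ∑ i, ind T i * xx G i ω ^ 2 ≤ Fintype.card ι := by
    rw [← sum_xx_sq (G := G) ω]
    refine sum_le_sum fun i _ => ?_
    unfold ind; split_ifs
    · rw [one_mul]
    · rw [zero_mul]; positivity
  rw [abs_of_nonneg (by positivity)]
  linarith

theorem abs_E0_dirP (S : Sys ι) (j : Fin J) :
    |E0 G ν S (Ham G (dirP (mg lab j)))| ≤ Fintype.card ι := by
  refine abs_E0_le (lin_Ham G ν _).tame fun ω => ?_
  rw [Ham_dirP]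
  exact (abs_mg_le j _).trans (by exact_mod_cast cnt_le_card lab j)

theorem abs_E0_dirU {S : Sys ι} (hS : ∀ l i, 0 ≤ S.u l i ∧ S.u l i ≤ 1) (l : ℕ) (T : Finset ι) :
    |E0 G ν S (Ham G (dirU l (ind T)))| ≤ Fintype.card ι := by
  rw [E0_Ham]
  simp only [dirU, zero_mul, sum_const_zero, mul_zero, zero_add, E0_zero']
  have key : ∀ l' i, 0 ≤ (if l' = l then ind T i else 0) * S.u l' i * Tst G ν S (xx G i) l' ∧
      (if l' = l then ind T i else 0) * S.u l' i * Tst G ν S (xx G i) l' ≤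
        if l' = l then ov G ν S (xx G i) (xx G i) G.n else 0 := by
    intro l' i
    have h1 := Tst_mem (G := G) (ν := ν) (S := S) (lin_xx i).tame l'
    have h2 := hS l' i
    unfold ind
    split_ifs
    · rw [one_mul]
      exact ⟨mul_nonneg h2.1 h1.1, (mul_le_of_le_one_left h1.1 h2.2).trans h1.2⟩
    · simp only [zero_mul]
      exact ⟨le_rfl, ov_nonneg _⟩
    · simp
  rw [abs_of_nonneg (sum_nonneg fun l' _ => sum_nonneg fun i _ => (key l' i).1)]
  refine (sum_le_sum fun l' _ => sum_le_sum fun i _ => (key l' i).2).trans ?_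
  simp only [Finset.sum_ite_irrel, sum_const_zero, sum_ov_top, Finset.sum_ite_eq']
  split_ifs
  · exact le_rfl
  · positivity

theorem cls_top : Top G (cls M G Q blk lab θ) (fib blk M.k0) (-(Q.ε * θ (.inl G.n)))
    fun l => Q.ε * θ (.inl l) := by
  refine ⟨fun i hi => ?_, fun l hl i hi => ?_⟩
  · simp [cls, mem_fib.1 hi]
  · have : l ≠ G.n := by have := (mem_Ico.1 hl).2; omega
    simp [cls, mem_fib.1 hi, this]
theorem cls_addL (hε : Q.ε ≠ 0) (t : ℝ) : (cls M G Q blk lab θ).add (dirL (ind (fib blk M.k0))) t =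
    cls M G Q blk lab (Function.update θ (.inl G.n) (θ (.inl G.n) - t / Q.ε)) := by
  refine cls_ext (fun i => ?_) (fun σ => ?_) (fun l i => ?_) (fun l i => ?_)
  · simp only [cls, Sys.add, dirL, ind, mem_fib, Function.update_self]
    split_ifs
    · field_simp; ring
    · simp
  · simp [cls, Sys.add, dirL]
  · simp [cls, Sys.add, dirL]
  · simp only [cls, Sys.add, dirL, mul_zero, add_zero]
    split_ifs with h
    · rw [Function.update_of_ne (by simpa using h.2)]
    · rfl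
theorem cls_addU (hε : Q.ε ≠ 0) {l : ℕ} (hl : l ≠ G.n) (t : ℝ) :
    (cls M G Q blk lab θ).add (dirU l (ind (fib blk M.k0))) t =
      cls M G Q blk lab (Function.update θ (.inl l) (θ (.inl l) + t / Q.ε)) := by
  refine cls_ext (fun i => ?_) (fun σ => ?_) (fun l i => ?_) (fun l' i => ?_)
  · simp only [cls, Sys.add, dirU, mul_zero, add_zero]
    rw [Function.update_of_ne (by simpa using hl.symm)]
  · simp [cls, Sys.add, dirU]
  · simp [cls, Sys.add, dirU]
  · simp only [cls, Sys.add, dirU, ind, mem_fib]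
    by_cases h : l' = l
    · subst h
      by_cases h2 : blk i = M.k0
      · simp only [h2, hl, ne_eq, not_false_eq_true, and_self, if_true, Function.update_self]
        field_simp
      · simp [h2]
    · rw [Function.update_of_ne (by simpa using h)]
      simp [h]
theorem cls_addP (hε : Q.ε ≠ 0) (j : Fin J) (t : ℝ) : (cls M G Q blk lab θ).add (dirP (mg lab j)) t =
    cls M G Q blk lab (Function.update θ (.inr j) (θ (.inr j) + t / Q.ε)) := by
  refine cls_ext (fun i => ?_) (fun σ => ?_) (fun l i => ?_) (fun l' i => ?_)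
  · simp [cls, Sys.add, dirP]
  · simp only [cls, Sys.add, dirP]
    have : ∑ r, (M.c (lab r) + Q.ε * Function.update θ (.inr j) (θ (.inr j) + t / Q.ε) (.inr (lab r))) *
        sp σ r = ∑ r, (M.c (lab r) + Q.ε * θ (.inr (lab r))) * sp σ r + t * mg lab j σ := by
      rw [mg, fib, sum_filter, mul_sum, ← sum_add_distrib]
      refine sum_congr rfl fun r _ => ?_
      by_cases h : lab r = j
      · rw [h, Function.update_self, if_pos rfl]
        field_simp
        ring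
      · rw [Function.update_of_ne (by simpa using h), if_neg h]
        ring
    rw [this]
    ring
  · simp [cls, Sys.add, dirP]
  · simp [cls, Sys.add, dirP]

theorem cls_re_eq {blk' : ι' → 𝒦} {lab' : ι' → Fin J} (e₁ e₂ : ι ≃ ι') (h1 : ∀ i, blk' (e₁ i) = blk i)
    (h2 : ∀ r, lab' (e₂ r) = lab r) : (cls M G Q blk' lab' θ).re e₁ e₂ = cls M G Q blk lab θ := by
  refine cls_ext (fun i => ?_) (fun σ => ?_) (fun l i => rfl) (fun l i => ?_)
  · simp only [cls, Sys.re, h1]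
  · simp only [cls, Sys.re, cls_mg_re e₂ h2, cls_cnt_eq e₂ h2]
    congr 1
    rw [← Equiv.sum_comp e₂]
    refine sum_congr rfl fun r _ => ?_
    simp [h2, sp]
  · simp only [cls, Sys.re, h1]

theorem cls_re (h : IsHaar ν) (h' : IsHaar ν') {blk' : ι' → 𝒦} {lab' : ι' → Fin J}
    (h1 : ∀ k, cnt blk k = cnt blk' k) (h2 : ∀ j, cnt lab j = cnt lab' j) :
    phi G ν (cls M G Q blk lab θ) = phi G ν' (cls M G Q blk' lab' θ) ∧
    (∀ j, E0 G ν (cls M G Q blk lab θ) (fun ω => mg lab j (sb G ω)) =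
      E0 G ν' (cls M G Q blk' lab' θ) fun ω => mg lab' j (sb G ω)) ∧
    ∀ j l, ∑ r ∈ fib lab j, Tst G ν (cls M G Q blk lab θ) (sg G r) l =
      ∑ r ∈ fib lab' j, Tst G ν' (cls M G Q blk' lab' θ) (sg G r) l := by
  obtain ⟨e₁, he₁⟩ := exists_equiv_cnt h1
  obtain ⟨e₂, he₂⟩ := exists_equiv_cnt h2
  rw [← cls_re_eq e₁ e₂ he₁ he₂]
  refine ⟨phi_re h h' _ e₁ e₂, fun j => ?_, fun j l => ?_⟩
  · rw [← E0_re h h' _ e₁ e₂ (mg lab' j)]
    simp only [cls_mg_re e₂ he₂]
  · rw [cls_sum_fib e₂ he₂]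
    refine sum_congr rfl fun r _ => ?_
    unfold Tst
    rw [funext (ov_re h h' _ e₁ e₂ r)]

theorem cls_exch (h : IsHaar ν) (r : ι) :
    E0 G ν (cls M G Q blk lab θ) (fun ω => mg lab (lab r) (sb G ω)) =
      cnt lab (lab r) * E0 G ν (cls M G Q blk lab θ) (sg G r) ∧
    ∀ l, ∑ r' ∈ fib lab (lab r), Tst G ν (cls M G Q blk lab θ) (sg G r') l =
      cnt lab (lab r) * Tst G ν (cls M G Q blk lab θ) (sg G r) l := by
  have key : ∀ r' ∈ fib lab (lab r), (cls M G Q blk lab θ).re (Equiv.refl ι) (Equiv.swap r r') =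
      cls M G Q blk lab θ := by
    intro r' hr'
    refine cls_re_eq _ _ (fun _ => rfl) fun x => ?_
    rw [Equiv.swap_apply_def]
    split_ifs with h1 h2
    · rw [h1, mem_fib.1 hr']
    · rw [h2, mem_fib.1 hr']
    · rfl
  refine ⟨?_, fun l => ?_⟩
  · have e1 : E0 G ν (cls M G Q blk lab θ) (fun ω => mg lab (lab r) (sb G ω)) =
        ∑ r' ∈ fib lab (lab r), E0 G ν (cls M G Q blk lab θ) (sg G r') :=
      Tree.Ex_sum (lin_Ham G ν _) _ (F := fun r' => sg G r') (fun r' _ => (lin_sg r').tame) 0 pt0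
    rw [e1, cnt, ← nsmul_eq_mul, ← sum_const]
    refine sum_congr rfl fun r' hr' => ?_
    have := E0_re (G := G) h h (cls M G Q blk lab θ) (Equiv.refl ι) (Equiv.swap r r') (fun σ => sp σ r)
    rw [key r' hr'] at this
    refine Eq.trans ?_ this
    congr 1
    funext ω
    simp [sg, sp]
  · rw [cnt, ← nsmul_eq_mul, ← sum_const]
    refine sum_congr rfl fun r' hr' => ?_
    have := funext (ov_re (G := G) h h (cls M G Q blk lab θ) (Equiv.refl ι) (Equiv.swap r r') r')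
    rw [key r' hr', Equiv.swap_apply_right] at this
    unfold Tst
    rw [this]

theorem cls_change (hM : M.OK) (hQ : Q.OK G) (hθ : Box θ) (h : IsHaar ν) {i : ι} (hi : blk i = M.k1) (k : 𝒦)
    {ā : ℝ} (hā : (Fintype.card ι : ℝ) ≤ ā * cnt blk M.k1) :
    phi G ν (cls M G Q (Function.update blk i k) lab θ) - phi G ν (cls M G Q blk lab θ) ∈
      Set.Icc (-(4 * M.Λ * ā)) 0 := by
  have hε := hQ.ε_pos
  have hi0 : blk i ≠ M.k0 := by rw [hi]; exact hM.ne.symm
  have hu : ∀ l j, (cls M G Q blk lab θ).u l j ≤ (cls M G Q (Function.update blk i k) lab θ).u l j := by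
    intro l j
    by_cases hj : j = i
    · subst hj
      refine le_trans (le_of_eq ?_) (cls_u_mem hQ hθ l j).1
      simp [cls, hi0]
    · simp [cls, Function.update_of_ne hj]
  constructor
  · set m := (cls M G Q (Function.update blk i k) lab θ).lam i with hm
    have hm1 : m ∈ Set.Icc (-M.Λ) 0 := by
      simp only [hm, cls, Function.update_self]
      split_ifs
      · have := hθ (.inl G.n)
        have h2 := hQ.ε_le'
        have h3 := hM.one_le
        constructor <;> nlinarith [this.1, this.2]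
      · exact hM.atom.mem k
    have h1 : phi G ν ((cls M G Q blk lab θ).add (dirL (Pi.single i m)) 1) ≤
        phi G ν (cls M G Q (Function.update blk i k) lab θ) := by
      refine phi_fields_mono (funext fun j => ?_) (funext fun σ => ?_) fun l _ j => ?_
      · by_cases hj : j = i
        · subst hj
          simp only [Sys.add, dirL, Pi.single_eq_same, one_mul]
          simp [cls, hi, hM.ne.symm, hM.μ1, hm]
        · simp [cls, Sys.add, dirL, Function.update_of_ne hj, Pi.single_eq_of_ne hj]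
      · simp [cls, Sys.add, dirL]
      · simp only [Sys.add, dirL, mul_zero, add_zero]
        exact ⟨hε.le, le_rfl, (cls_u_mem hQ hθ l j).1, hu l j⟩
    have h2 := phi_tangent (G := G) (ν := ν) (S := cls M G Q blk lab θ) (D := dirL (Pi.single i m)) 1
    have h3 : E0 G ν (cls M G Q blk lab θ) (Ham G (dirL (Pi.single i m))) =
        1 / 2 * (m * E0 G ν (cls M G Q blk lab θ) fun ω => xx G i ω ^ 2) := by
      rw [E0_Ham]
      simp only [dirL, zero_mul, add_zero, sum_const_zero, E0_zero', Pi.single_apply, ite_mul,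
        Finset.sum_ite_eq', mem_univ, if_true, ov_top, sq]
    have hne : (fib blk M.k1).Nonempty := ⟨i, mem_fib.2 hi⟩
    have h4 := block_four (G := G) (S := cls M G Q blk lab θ) (h.linv 0) (subset_refl (fib blk M.k1)) hne
      (fun a ha b hb => by simp [cls, mem_fib.1 ha, mem_fib.1 hb]) (fun _ _ => rfl)
      (v := Pi.single i 1) (fun j hj => Pi.single_eq_of_ne (fun (e : j = i) => hj (e ▸ mem_fib.2 hi)) _)
      (by simp)
    rw [xl_single] at h4
    have h5 : (E0 G ν (cls M G Q blk lab θ) fun ω => xx G i ω ^ 2) ^ 2 ≤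
        E0 G ν (cls M G Q blk lab θ) fun ω => (xx G i ω ^ 2) ^ 2 :=
      Tree.sq_Ex_le (lin_Ham G ν _) ((lin_xx i).tame.pow 2) 0 pt0
    simp only [← pow_mul] at h5
    have hc : (0 : ℝ) < (fib blk M.k1).card := by exact_mod_cast hne.card_pos
    have h6 : (Pi.single i 1 ⬝ᵥ Pi.single i 1 : ℝ) * Fintype.card ι / (fib blk M.k1).card ≤ ā := by
      rw [div_le_iff₀ hc]
      simpa [cnt] using hā
    have h7 : 0 ≤ (Pi.single i 1 ⬝ᵥ Pi.single i 1 : ℝ) * Fintype.card ι / (fib blk M.k1).card := by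
      simp only [dotProduct_single, Pi.single_eq_same, mul_one]
      positivity
    have h8 : (E0 G ν (cls M G Q blk lab θ) fun ω => xx G i ω ^ 2) ≤ 8 * ā := by
      refine (abs_le_of_sq_le_sq' ?_ (by linarith)).2
      have := pow_le_pow_left₀ h7 h6 2
      nlinarith [sq_nonneg ā]
    have h9 : 0 ≤ E0 G ν (cls M G Q blk lab θ) fun ω => xx G i ω ^ 2 :=
      Tree.Ex_nonneg _ (fun _ => sq_nonneg _) 0 pt0
    have h10 := mul_le_mul_of_nonneg_right hm1.1 h9
    have h11 := mul_le_mul_of_nonneg_left h8 (show 0 ≤ M.Λ by linarith [hM.one_le])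
    linarith
  · refine sub_nonpos.2 (phi_dom (fun l _ j => ⟨hε.le, le_rfl, (cls_u_mem hQ hθ l j).1, hu l j⟩)
      (fun j => ?_) fun σ => by simp [cls])
    by_cases hj : j = i
    · subst hj
      by_cases hk : k = M.k0
      · have := cls_dom hQ hθ
        have e : ∀ l ∈ Ico 1 (G.n - 1), (cls M G Q (Function.update blk j k) lab θ).u l j ^ 2 -
            (cls M G Q blk lab θ).u l j ^ 2 = (Q.ε * θ (.inl l)) ^ 2 := by
          intro l hl
          have : l ≠ G.n := by have := (mem_Ico.1 hl).2; omega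
          simp [cls, hk, hi0, this]
        rw [sum_congr rfl e]
        simpa [cls, hk, hi, hM.ne.symm, hM.μ1] using this
      · have := (hM.atom.mem k).2
        simpa [cls, hk, hi, hM.ne.symm, hM.μ1] using this
    · simp [cls, Function.update_of_ne hj]

theorem cls_monoN0 (hQ : Q.OK G) {N0' : ℝ} (h : Q.N0 ≤ N0') :
    phi G ν (cls M G Q blk lab θ) ≤ phi G ν (cls M G { Q with N0 := N0' } blk lab θ) := by
  have := phi_le_lam_pot (G := G) (ν := ν) (S := cls M G Q blk lab θ)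
    (S' := cls M G { Q with N0 := N0' } blk lab θ) (A := 0) (B := 0) rfl rfl
    (fun i => by simp [cls]) (fun σ => by
      simp only [cls, add_zero]
      have h1 : Q.L / (2 * N0') ≤ Q.L / (2 * Q.N0) :=
        div_le_div_of_nonneg_left hQ.L_pos.le (by linarith [hQ.N0_ge]) (by linarith)
      have h2 : 0 ≤ ∑ j, (mg lab j σ - cnt lab j * (M.m j : ℝ)) ^ 2 := sum_nonneg fun _ _ => sq_nonneg _
      linarith [mul_le_mul_of_nonneg_right h1 h2])
  simpa using this

theorem cls_lip (hQ : Q.OK G) (hθ : Box θ) (d : ℕ ⊕ Fin J) {t : ℝ} (ht : t ∈ Set.Icc (1 / 2 : ℝ) (5 / 2)) :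
    |phi G ν (cls M G Q blk lab (Function.update θ d t)) - phi G ν (cls M G Q blk lab θ)| ≤
      Q.ε * Fintype.card ι * |t - θ d| := by
  have hε := hQ.ε_pos
  have hθ' : Box (Function.update θ d t) := fun d' => by
    by_cases h : d' = d
    · rw [h, Function.update_self]; exact ht
    · rw [Function.update_of_ne h]; exact hθ d'
  have fin : ∀ (D : Sys ι) (τ : ℝ), |τ| = Q.ε * |t - θ d| →
      (cls M G Q blk lab θ).add D τ = cls M G Q blk lab (Function.update θ d t) →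
      (∀ θ', Box θ' → |E0 G ν (cls M G Q blk lab θ') (Ham G D)| ≤ Fintype.card ι) →
      |phi G ν (cls M G Q blk lab (Function.update θ d t)) - phi G ν (cls M G Q blk lab θ)| ≤
        Q.ε * Fintype.card ι * |t - θ d| := by
    intro D τ h1 h2 h3
    have := phi_add_abs (t := τ) (h3 θ hθ) (by rw [h2]; exact h3 _ hθ')
    rw [h2, h1] at this
    linarith
  rcases d with l | j
  · by_cases hl : l = G.n
    · subst hl
      refine fin (dirL (ind (fib blk M.k0))) (-(Q.ε * (t - θ (.inl G.n)))) ?_ ?_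
        fun _ _ => abs_E0_dirL _ _
      · rw [abs_neg, abs_mul, abs_of_pos hε]
      · rw [cls_addL hε.ne']
        congr 2
        field_simp
        ring
    · refine fin (dirU l (ind (fib blk M.k0))) (Q.ε * (t - θ (.inl l))) ?_ ?_
        fun _ h => abs_E0_dirU (cls_u_mem hQ h) _ _
      · rw [abs_mul, abs_of_pos hε]
      · rw [cls_addU hε.ne' hl]
        congr 2
        field_simp
        ring
  · refine fin (dirP (mg lab j)) (Q.ε * (t - θ (.inr j))) ?_ ?_ fun _ _ => abs_E0_dirP _ _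
    · rw [abs_mul, abs_of_pos hε]
    · rw [cls_addP hε.ne']
      congr 2
      field_simp
      ring

theorem cls_convex (hQ : Q.OK G) (d : ℕ ⊕ Fin J) (σ : ℝ) :
    0 ≤ phi G ν (cls M G Q blk lab (Function.update θ d (θ d + σ))) +
      phi G ν (cls M G Q blk lab (Function.update θ d (θ d - σ))) - 2 * phi G ν (cls M G Q blk lab θ) := by
  have hε := hQ.ε_pos.ne'
  have e1 : Q.ε * σ / Q.ε = σ := by field_simp
  have e2 : -(Q.ε * σ) / Q.ε = -σ := by field_simp
  rcases d with l | j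
  · by_cases hl : l = G.n
    · subst hl
      have := Dif_nonneg (G := G) (ν := ν) (S := cls M G Q blk lab θ) (D := dirL (ind (fib blk M.k0)))
        (Q.ε * σ)
      rw [Dif, cls_addL hε, cls_addL hε, e1, e2, sub_neg_eq_add] at this
      linarith
    · have := Dif_nonneg (G := G) (ν := ν) (S := cls M G Q blk lab θ)
        (D := dirU l (ind (fib blk M.k0))) (Q.ε * σ)
      rwa [Dif, cls_addU hε hl, cls_addU hε hl, e1, e2, ← sub_eq_add_neg] at this
  · have := Dif_nonneg (G := G) (ν := ν) (S := cls M G Q blk lab θ) (D := dirP (mg lab j)) (Q.ε * σ)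
    rwa [Dif, cls_addP hε, cls_addP hε, e1, e2, ← sub_eq_add_neg] at this

theorem cls_le_plain (hM : M.OK) (hQ : Q.OK G) (hθ : Box θ) :
    phi G ν (cls M G Q blk lab θ) ≤ (G.ζ 0)⁻¹ * Real.log (∫ U, Real.exp (G.ζ 0 *
      fN (fun i => M.μ (blk i)) (fun σ => ∑ r, M.c (lab r) * sp σ r) U) ∂(ν : Measure (OG ι))) +
      4 * Q.ε * Fintype.card ι := by
  have hε := hQ.ε_pos
  have h1 : phi G ν (cls M G Q blk lab θ) ≤ phi G ν ⟨fun i => M.μ (blk i),
      fun σ => ∑ r, M.c (lab r) * sp σ r + 4 * Q.ε * Fintype.card ι, fun _ _ => 0, fun _ _ => 0⟩ := by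
    refine phi_dom (fun l _ j => ⟨le_rfl, hε.le, le_rfl, (cls_u_mem hQ hθ l j).1⟩) (fun j => ?_)
      fun σ => ?_
    · by_cases hj : blk j = M.k0
      · have := cls_dom hQ hθ
        have e : ∀ l ∈ Ico 1 (G.n - 1), (cls M G Q blk lab θ).u l j ^ 2 - (0 : ℝ) ^ 2 =
            (Q.ε * θ (.inl l)) ^ 2 := by
          intro l hl
          have : l ≠ G.n := by have := (mem_Ico.1 hl).2; omega
          simp [cls, hj, this]
        rw [sum_congr rfl e]
        simpa [cls, hj, hM.μ0] using this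
      · simp [cls, hj]
    · have a1 : ∑ r, (M.c (lab r) + Q.ε * θ (.inr (lab r))) * sp σ r ≤
          ∑ r, M.c (lab r) * sp σ r + Fintype.card ι * (Q.ε * (5 / 2)) := by
        rw [← Finset.card_univ, ← nsmul_eq_mul, ← sum_const, ← sum_add_distrib]
        refine sum_le_sum fun r _ => ?_
        have b1 := hθ (.inr (lab r))
        have b2 := (abs_le.1 (abs_sp σ r).le).2
        have b3 : Q.ε * θ (.inr (lab r)) * sp σ r ≤ Q.ε * θ (.inr (lab r)) :=
          mul_le_of_le_one_right (mul_nonneg hε.le (by linarith [b1.1])) b2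
        have b4 := mul_le_mul_of_nonneg_left b1.2 hε.le
        linarith
      have a2 : 0 ≤ Q.L / (2 * Q.N0) * ∑ j, (mg lab j σ - cnt lab j * (M.m j : ℝ)) ^ 2 :=
        mul_nonneg (div_nonneg hQ.L_pos.le (by linarith [hQ.N0_ge])) (sum_nonneg fun _ _ => sq_nonneg _)
      have a3 : ((Ico 1 (G.n - 1)).card : ℝ) ≤ G.n := by
        rw [Nat.card_Ico]; exact_mod_cast (by omega)
      have a4 : (0 : ℝ) ≤ Fintype.card ι := Nat.cast_nonneg _
      have a5 := mul_le_mul_of_nonneg_right a3 (mul_nonneg a4 (sq_nonneg Q.ε))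
      have a6 := mul_le_mul_of_nonneg_right hQ.ε_le (mul_nonneg a4 hε.le)
      simp only [cls, sum_const, Finset.card_univ, nsmul_eq_mul]
      nlinarith [mul_nonneg a4 hε.le]
  have h2 := phi_le_lam_pot (G := G) (ν := ν) (S := ⟨fun i => M.μ (blk i),
      fun σ => ∑ r, M.c (lab r) * sp σ r + 4 * Q.ε * Fintype.card ι, fun _ _ => 0, fun _ _ => 0⟩)
    (S' := ⟨fun i => M.μ (blk i), fun σ => ∑ r, M.c (lab r) * sp σ r, fun _ _ => 0, fun _ _ => 0⟩)
    (A := 0) (B := 4 * Q.ε * Fintype.card ι) rfl rfl (fun i => by simp) (fun σ => le_rfl)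
  rw [phi_nofield (S := ⟨fun i => M.μ (blk i), fun σ => ∑ r, M.c (lab r) * sp σ r, fun _ _ => 0,
    fun _ _ => 0⟩) fun _ _ _ => ⟨rfl, rfl⟩] at h2
  simp only [zero_div, zero_mul, zero_add] at h2
  exact h1.trans h2

end Crest.Agent.R164
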