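import Crest.Agent.R164.FamB

/-!
Row 164, task R164-Fam: the cavity interpolation.

PLAN.  `α k = Õ (R k) none ²`, `Δh r l = dh (Bf α (r lam) ∘ D a) l`.  For `t ∈ [0,1]` (use `r = t²` so that `r ≥ 0` for all real `t`) let
`S t = famSys Sb b (fun l => if l ∈ Ico 1 (n-1) then √(v l + Δh 1 l - Δh (t²) l) else 0) R (t² lam)`; the radicand is `≥ v l > 0` on `[0,1]` (`Bf_incr`) hence positive nearby;
`SFam` from `hasDerivAt_Bf`, `continuousAt_bet`; `phi_deriv`, `E0_Ham`: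
`φ' = 2t [½ Σ_k lam k ov_n (x (R k)) - ½ Σ_l dh (bet ∘ D a) l * Tst σ_none l]`; by `fam_energy` (atoms `t² lam`, `c = lam`) this is within `η` of the derivative of
`A t = ½ TT (-Σ_k log (1 - t² lam k d) - log s1) + ½ Bf 0 + ½ Δh (t²) (n-1)` (`hasDerivAt_log`, `hasDerivAt_log_s1`).  Mean value inequality on `[0,1]`;
`S 0` has the Hamiltonian of `Sb.ext …` (`phi_ext`), `A 0 = 0`; `TT (Bf ∘ D a) = Σ_{l ∈ Ico 1 (n-1)} Δh 1 l + Δh 1 (n-1)` (`IsPath.dh_zero`).
-/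

set_option autoImplicit false

namespace Crest.Agent.R164

open MeasureTheory Finset Matrix

noncomputable def famA {𝒦 : Type} [Fintype 𝒦] (G : Grid) (α lam : 𝒦 → ℝ) (a v : ℕ → ℝ) (b : ℝ) : ℝ :=
  Phi (G.gl fun l => v l + G.dh (fun i => Bf α lam (G.D a i)) l) b -
    (1 / 2) * ∑ l ∈ Ico 1 (G.n - 1), G.dh (fun i => Bf α lam (G.D a i)) l +
    (1 / 2) * G.TT (fun i => -∑ k, Real.log (1 - lam k * G.D a i) - Real.log (s1 α lam (G.D a i)) +
      Bf α lam (G.D a i)) + (1 / 2) * Bf α lam 0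

namespace FamX

theorem gl_congr (G : Grid) {v v' : ℕ → ℝ} (h : ∀ l ∈ Ico 1 (G.n - 1), v l = v' l) : G.gl v = G.gl v' := by
  unfold Grid.gl Grid.glFrom
  refine List.map_congr_left fun i hi => ?_
  rw [List.mem_range'_1] at hi
  rw [h i (mem_Ico.2 ⟨hi.1, by omega⟩)]

theorem hd_dh (G : Grid) {f : ℝ → ℕ → ℝ} {f' : ℕ → ℝ} {r : ℝ} (h : ∀ i, HasDerivAt (fun r => f r i) (f' i) r)
    (l : ℕ) : HasDerivAt (fun r => G.dh (f r) l) (G.dh f' l) r :=
  ((h l).sub (h (l + 1))).div_const _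

theorem hd_TT (G : Grid) {f : ℝ → ℕ → ℝ} {f' : ℕ → ℝ} {r : ℝ} (h : ∀ i, HasDerivAt (fun r => f r i) (f' i) r) :
    HasDerivAt (fun r => G.TT (f r)) (G.TT f') r :=
  HasDerivAt.fun_sum fun l _ => hd_dh G h l

theorem sum_range_split (G : Grid) (F : ℕ → ℝ) :
    ∑ i ∈ range G.n, F i = F 0 + ∑ l ∈ Ico 1 (G.n - 1), F l + F (G.n - 1) := by
  have h3 := G.three_le
  obtain ⟨m, hm⟩ : ∃ m, G.n = m + 2 := ⟨G.n - 2, by omega⟩
  rw [hm, sum_range_succ, range_eq_Ico, sum_eq_sum_Ico_succ_bot (by omega)]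
  rfl

theorem sum_Ico_abs_le (G : Grid) (F : ℕ → ℝ) : ∑ l ∈ Ico 1 (G.n - 1), |F l| ≤ ∑ i ∈ range G.n, |F i| :=
  sum_le_sum_of_subset_of_nonneg (fun l hl => mem_range.2 (by have := (mem_Ico.1 hl).2; omega))
    fun _ _ _ => abs_nonneg _

theorem sq_comp {f : ℝ → ℝ} {f' t : ℝ} (h : HasDerivAt f f' (t ^ 2)) :
    HasDerivAt (fun t : ℝ => f (t ^ 2)) (f' * (2 * t)) t := by
  have h2 : HasDerivAt (fun t : ℝ => t ^ 2) (2 * t) t := by simpa using hasDerivAt_pow 2 t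
  exact HasDerivAt.comp (h := fun t : ℝ => t ^ 2) t h h2

variable {ι 𝒦 : Type} [Fintype ι] [DecidableEq ι] [Fintype 𝒦] [DecidableEq 𝒦]

/-- derivative of the family -/
noncomputable def dSys (R : 𝒦 → Option ι) (c : 𝒦 → ℝ) (sn' : ℕ → ℝ) : Sys (Option ι) where
  lam := fun o => ∑ k, if o = R k then c k else 0
  pot := fun _ => 0
  s := fun l o => o.elim (sn' l) fun _ => 0
  u := fun _ _ => 0

theorem E0_dSys (G : Grid) (ν : ProbabilityMeasure (OG (Option ι))) (Sb : Sys ι) (b : ℝ) (sn sn' : ℕ → ℝ)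
    (R : 𝒦 → Option ι) (lam c : 𝒦 → ℝ) :
    E0 G ν (famSys Sb b sn R lam) (Ham G (dSys R c sn')) =
      (1 / 2) * ∑ k, c k * ov G ν (famSys Sb b sn R lam) (xx G (R k)) (xx G (R k)) G.n +
        ∑ l ∈ Ico 1 (G.n - 1), sn' l * sn l * Tst G ν (famSys Sb b sn R lam) (sg G none) l := by
  rw [E0_Ham]
  have e0 : E0 G ν (famSys Sb b sn R lam) (fun ω => (dSys R c sn').pot (sb G ω)) = 0 :=
    Tree.Ex_const (lin_Ham G ν _) 0 0 pt0
  rw [e0, add_zero]
  congr 1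
  · congr 1
    simp only [dSys, sum_mul]
    rw [sum_comm]
    refine sum_congr rfl fun k _ => ?_
    simp
  · refine sum_congr rfl fun l _ => ?_
    simp [dSys, Fintype.sum_option, famSys, Sys.add, Sys.ext, dirL]

theorem sfam (Sb : Sys ι) (b : ℝ) (R : 𝒦 → Option ι) (lam : 𝒦 → ℝ) (sn sn' : ℝ → ℕ → ℝ) (t₀ : ℝ)
    (h : ∀ᶠ t in nhds t₀, ∀ l, HasDerivAt (fun t => sn t l) (sn' t l) t)
    (hc : ∀ l, ContinuousAt (fun t => sn' t l) t₀) :
    SFam (fun t => famSys Sb b (sn t) R fun k => t ^ 2 * lam k)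
      (fun t => dSys R (fun k => lam k * (2 * t)) (sn' t)) t₀ := by
  obtain ⟨δ, hδ, h⟩ := Tree.ev_ball.1 h
  refine ⟨⟨δ, hδ, fun t ht => ⟨fun o => ?_, fun σ => ?_, fun l o => ?_, fun l o => ?_⟩⟩,
    fun o => ?_, fun σ => continuousAt_const, fun l o => ?_, fun l o => continuousAt_const⟩
  · simp only [famSys, Sys.add, Sys.ext, dirL, dSys, one_mul]
    refine HasDerivAt.const_add _ (HasDerivAt.fun_sum fun k _ => ?_)
    split_ifs
    · have h2 : HasDerivAt (fun t : ℝ => t ^ 2) (2 * t) t := by simpa using hasDerivAt_pow 2 t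
      rw [mul_comm]
      exact h2.mul_const _
    · exact hasDerivAt_const _ _
  · exact hasDerivAt_const t ((Sb.ext b fun _ => 0).pot σ + 1 * 0)
  · cases o with
    | none => exact (h t ht l).add_const (1 * 0)
    | some i => exact hasDerivAt_const t (Sb.s l i + 1 * 0)
  · exact hasDerivAt_const t ((Sb.ext b fun _ => 0).u l o + 1 * 0)
  · refine Continuous.continuousAt ?_
    simp only [dSys]
    refine continuous_finset_sum _ fun k _ => ?_
    split_ifs <;> fun_prop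
  · cases o with
    | none => exact hc l
    | some i => exact continuousAt_const

theorem abs_log_sub {x y a : ℝ} (ha : 0 < a) (hx : a ≤ x) (hy : a ≤ y) :
    |Real.log x - Real.log y| ≤ |x - y| / a := by
  have key : ∀ x y : ℝ, a ≤ x → a ≤ y → Real.log x - Real.log y ≤ |x - y| / a := by
    intro x y hx hy
    have hy0 : 0 < y := ha.trans_le hy
    have hx0 : 0 < x := ha.trans_le hx
    rw [← Real.log_div hx0.ne' hy0.ne']
    refine (Real.log_le_sub_one_of_pos (by positivity)).trans ?_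
    rw [div_sub_one hy0.ne']
    exact (div_le_div_of_nonneg_right (le_abs_self _) hy0.le).trans
      (div_le_div_of_nonneg_left (abs_nonneg _) ha hy)
  refine abs_le.2 ⟨?_, key x y hx hy⟩
  have := key y x hy hx
  rw [abs_sub_comm] at this
  linarith

end FamX

open FamX

theorem fam (𝒦 : Type) [Fintype 𝒦] [DecidableEq 𝒦] {y a0 Λ ā η : ℝ} (hy : 0 < y) (hη : 0 < η) :
    ∃ η' : ℝ, 0 < η' ∧ ∀ (ι : Type) [Fintype ι] [DecidableEq ι] (G : Grid)
      (ν : ProbabilityMeasure (OG ι)) (Sb : Sys ι) (B T : Finset ι) (R : 𝒦 → Option ι) (k1 : 𝒦)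
      (Õ : OG (Option ι)) (b : ℝ) (v : ℕ → ℝ) (lam : 𝒦 → ℝ) (a : ℕ → ℝ) (P : PP),
      G.ζ 0 = y → IsHaar ν → FamD G Sb B R k1 Õ ā → Disjoint T B →
      (Fintype.card ι : ℝ) + 1 ≤ ā * T.card → Pin G ν Sb T a ā P η' →
      Atom (fun k => Õ.1 (R k) none ^ 2) lam a0 Λ → lam k1 = 0 → a0 ≤ Õ.1 none none ^ 2 →
      (∀ l ∈ Ico 1 (G.n - 1), 0 < v l) →
      |phi G (famν Õ ν) (famSys Sb b (fun l => Real.sqrt (v l)) R lam) - phi G ν Sb -
        famA G (fun k => Õ.1 (R k) none ^ 2) lam a v b| ≤ η := by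
  obtain ⟨η', hη', hE⟩ := fam_energy 𝒦 (a0 := a0) (Λ := Λ) (ā := ā) hy hη
  refine ⟨η', hη', ?_⟩
  intro ι _ _ G ν Sb B T R k1 Õ b v lam a P hG hν hF hTB hcard hP hA _ ha0 hv
  set α : 𝒦 → ℝ := fun k => Õ.1 (R k) none ^ 2 with hα
  have hpath := hP.path
  have hd : ∀ i, 0 ≤ G.D a i := fun i => (hpath.D_mem i).1
  set Δ1 : ℕ → ℝ := G.dh fun i => Bf α lam (G.D a i) with hΔ1
  set Δh : ℝ → ℕ → ℝ := fun r => G.dh fun i => Bf α (fun k => r * lam k) (G.D a i) with hΔh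
  set Δb : ℝ → ℕ → ℝ := fun r => G.dh fun i => bet α (fun k => r * lam k) lam (G.D a i) with hΔb
  have hΔ : ∀ (t : ℝ) l, HasDerivAt (fun t : ℝ => Δh (t ^ 2) l) (Δb (t ^ 2) l * (2 * t)) t := fun t l =>
    sq_comp (f := fun r => Δh r l) (hd_dh G (fun i => hA.hasDerivAt_Bf (hd i) (sq_nonneg t)) l)
  have hΔc : ∀ (t : ℝ) l, ContinuousAt (fun t : ℝ => Δb (t ^ 2) l) t := by
    intro t l
    have h1 : ContinuousAt (fun r => Δb r l) (t ^ 2) :=
      ((hA.continuousAt_bet (hd l) (sq_nonneg t)).sub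
        (hA.continuousAt_bet (hd (l + 1)) (sq_nonneg t))).div_const _
    exact ContinuousAt.comp (f := fun t : ℝ => t ^ 2) h1 (by fun_prop)
  set W : ℝ → ℕ → ℝ := fun t l => v l + Δ1 l - Δh (t ^ 2) l with hW
  have hWd : ∀ t l, HasDerivAt (fun t => W t l) (-(Δb (t ^ 2) l * (2 * t))) t := fun t l =>
    (hΔ t l).const_sub _
  have hsq : ∀ t ∈ Set.Icc (0 : ℝ) 1, t ^ 2 ∈ Set.Icc (0 : ℝ) 1 := fun t ht =>
    ⟨sq_nonneg t, by nlinarith [ht.1, ht.2]⟩
  have hWpos : ∀ t ∈ Set.Icc (0 : ℝ) 1, ∀ l ∈ Ico 1 (G.n - 1), 0 < W t l := by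
    intro t ht l hl
    have h1 := hA.Bf_incr (hd (l + 1)) (hpath.D_succ_le l) (hsq t ht)
    have h2 : Δh (t ^ 2) l ≤ Δ1 l := div_le_div_of_nonneg_right h1 (G.pos l).le
    have := hv l hl
    simp only [hW]
    linarith
  set sn : ℝ → ℕ → ℝ := fun t l => if l ∈ Ico 1 (G.n - 1) then Real.sqrt (W t l) else 0 with hsn
  set sn' : ℝ → ℕ → ℝ := fun t l => if l ∈ Ico 1 (G.n - 1) then
    -(Δb (t ^ 2) l * (2 * t)) / (2 * Real.sqrt (W t l)) else 0 with hsn'
  have hsn0 : ∀ t, ∀ l ∈ Ico 1 (G.n - 1), 0 ≤ sn t l := by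
    intro t l hl
    simp only [hsn, if_pos hl]
    exact Real.sqrt_nonneg _
  set φ : ℝ → ℝ := fun t => phi G (famν Õ ν) (famSys Sb b (sn t) R fun k => t ^ 2 * lam k) with hφ
  set A : ℝ → ℝ := fun r => (1 / 2) * (G.TT (fun i => ∑ k, -Real.log (1 - r * lam k * G.D a i) -
    Real.log (s1 α (fun k => r * lam k) (G.D a i))) + Δh r (G.n - 1) + Bf α (fun k => r * lam k) 0) with hAdef
  have hder : ∀ t ∈ Set.Icc (0 : ℝ) 1, ∃ z : ℝ, HasDerivAt (fun t => φ t - A (t ^ 2)) z t ∧ |z| ≤ η := by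
    intro t ht
    have hfam := sfam Sb b R lam sn sn' t (by
      have h1 : ∀ᶠ s in nhds t, ∀ l ∈ Ico 1 (G.n - 1), 0 < W s l :=
        (Finset.eventually_all _).2 fun l hl =>
          (hWd t l).continuousAt.eventually (lt_mem_nhds (hWpos t ht l hl))
      filter_upwards [h1] with s hs l
      by_cases hl : l ∈ Ico 1 (G.n - 1)
      · simp only [hsn, hsn', if_pos hl]
        exact (hWd s l).sqrt (hs l hl).ne'
      · simp only [hsn, hsn', if_neg hl]
        exact hasDerivAt_const _ _) (by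
      intro l
      by_cases hl : l ∈ Ico 1 (G.n - 1)
      · simp only [hsn', if_pos hl]
        refine ContinuousAt.div (((hΔc t l).mul (by fun_prop)).neg)
          (continuousAt_const.mul (hWd t l).continuousAt.sqrt) ?_
        have := Real.sqrt_pos.2 (hWpos t ht l hl)
        positivity
      · simp only [hsn', if_neg hl]
        exact continuousAt_const)
    have h1 := phi_deriv (G := G) (ν := famν Õ ν) hfam
    rw [E0_dSys] at h1
    have h2 : HasDerivAt A ((1 / 2) * (G.TT (fun i => ∑ k, lam k * G.D a i / (1 - t ^ 2 * lam k * G.D a i) -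
        bet α (fun k => t ^ 2 * lam k) lam (G.D a i) * s1 α (fun k => t ^ 2 * lam k) (G.D a i) * G.D a i) +
        Δb (t ^ 2) (G.n - 1) + bet α (fun k => t ^ 2 * lam k) lam 0)) (t ^ 2) := by
      refine HasDerivAt.const_mul _ (((hd_TT G fun i => ?_).add
        (hd_dh G (fun i => hA.hasDerivAt_Bf (hd i) (sq_nonneg t)) _)).add
        (hA.hasDerivAt_Bf le_rfl (sq_nonneg t)))
      exact (HasDerivAt.fun_sum fun k _ => hA.hasDerivAt_log (hd i) (sq_nonneg t) k).sub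
        (hA.hasDerivAt_log_s1 (hd i) (sq_nonneg t))
    refine ⟨_, h1.sub (sq_comp h2), ?_⟩
    have h3 := hE ι G ν Sb B T R k1 Õ b (sn t) (fun k => t ^ 2 * lam k) lam a P hG hν hF hTB hcard hP
      (hA.scale (hsq t ht)) ha0 (fun k => abs_le.2 ⟨(hA.mem k).1, (hA.mem k).2.trans hA.Λ_nonneg⟩) (hsn0 t)
    have h4 : ∑ l ∈ Ico 1 (G.n - 1), sn' t l * sn t l *
        Tst G (famν Õ ν) (famSys Sb b (sn t) R fun k => t ^ 2 * lam k) (sg G none) l =
        -t * ∑ l ∈ Ico 1 (G.n - 1), Δb (t ^ 2) l *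
          Tst G (famν Õ ν) (famSys Sb b (sn t) R fun k => t ^ 2 * lam k) (sg G none) l := by
      rw [mul_sum]
      refine sum_congr rfl fun l hl => ?_
      simp only [hsn, hsn', if_pos hl]
      have := (Real.sqrt_pos.2 (hWpos t ht l hl)).ne'
      field_simp
    have h5 : ∑ k, lam k * (2 * t) * ov G (famν Õ ν) (famSys Sb b (sn t) R fun k => t ^ 2 * lam k)
        (xx G (R k)) (xx G (R k)) G.n = 2 * t * ∑ k, lam k * ov G (famν Õ ν)
          (famSys Sb b (sn t) R fun k => t ^ 2 * lam k) (xx G (R k)) (xx G (R k)) G.n := by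
      rw [mul_sum]
      exact sum_congr rfl fun k _ => by ring
    rw [h4, h5]
    refine le_trans (le_of_eq ?_) ((mul_le_mul ht.2 h3 (abs_nonneg _) zero_le_one).trans_eq (one_mul η))
    rw [← abs_of_nonneg ht.1, ← abs_mul, abs_of_nonneg ht.1]
    congr 1
    simp only [hΔb]
    ring
  choose! z hz using hder
  have hmv := (convex_Icc (0 : ℝ) 1).norm_image_sub_le_of_norm_hasDerivWithin_le
    (f := fun t => φ t - A (t ^ 2)) (f' := z) (C := η) (fun t ht => (hz t ht).1.hasDerivWithinAt)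
    (fun t ht => (hz t ht).2) (Set.left_mem_Icc.2 zero_le_one) (Set.right_mem_Icc.2 zero_le_one)
  have hl1 : (fun k => (1 : ℝ) ^ 2 * lam k) = lam := by funext k; ring
  have hl1' : (fun k => (1 : ℝ) * lam k) = lam := by funext k; ring
  have hB0 : ∀ d, Bf α (fun k => (0 : ℝ) * lam k) d = 0 := fun d => by simp [Bf]
  have hΔ0 : ∀ l, Δh 0 l = 0 := fun l => by simp only [hΔh, Grid.dh, hB0]; simp
  have e1 : φ 1 = phi G (famν Õ ν) (famSys Sb b (fun l => Real.sqrt (v l)) R lam) := by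
    simp only [hφ, hl1]
    unfold phi
    rw [Ham_congr (S := famSys Sb b (sn 1) R lam) (S' := famSys Sb b (fun l => Real.sqrt (v l)) R lam) rfl rfl]
    intro l hl
    refine ⟨?_, rfl⟩
    funext o
    have : sn 1 l = Real.sqrt (v l) := by
      simp only [hsn, if_pos hl, hW, hΔh, hl1, hΔ1]
      simp
    simp only [famSys, Sys.add, Sys.ext, this]
  have e0 : φ 0 = phi G ν Sb + Phi (G.gl fun l => v l + Δ1 l) b := by
    have h1 : φ 0 = phi G (famν Õ ν) (Sb.ext b (sn 0)) := by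
      simp only [hφ]
      unfold phi
      rw [Ham_congr (S := famSys Sb b (sn 0) R fun k => (0 : ℝ) ^ 2 * lam k) (S' := Sb.ext b (sn 0))]
      · funext o; simp [famSys, Sys.add, dirL]
      · funext σ; simp [famSys, Sys.add, dirL]
      · intro l _
        constructor <;> funext o <;> simp [famSys, Sys.add, dirL]
    rw [h1, phi_ext Õ hF.off _ b (hsn0 0)]
    · congr 2
      refine gl_congr G fun l hl => ?_
      simp only [hsn, if_pos hl]
      rw [Real.sq_sqrt (hWpos 0 (Set.left_mem_Icc.2 zero_le_one) l hl).le]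
      simp [hW, hΔ0]
    · rintro i ⟨k, hk⟩
      have hk1 : k ≠ k1 := by
        rintro rfl
        rw [hF.none] at hk
        cases hk
      obtain ⟨i', hi', h2⟩ := hF.mem k hk1
      rw [hk] at h2
      cases h2
      exact hF.free i hi'
  have a0' : A (0 ^ 2) = 0 := by
    have h1 : ∀ d, s1 α (fun k => (0 : ℝ) * lam k) d = 1 := fun d => by simp [s1, hA.sum_one]
    have h2 : (0 : ℝ) ^ 2 = 0 := by norm_num
    simp only [hAdef, h2, hΔ0, hB0, h1]
    simp [Grid.TT_const]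
  have a1 : Phi (G.gl fun l => v l + Δ1 l) b + A (1 ^ 2) = famA G α lam a v b := by
    have h1 : G.TT (fun i => Bf α lam (G.D a i)) = ∑ l ∈ Ico 1 (G.n - 1), Δ1 l + Δ1 (G.n - 1) := by
      unfold Grid.TT
      rw [sum_range_split, hpath.dh_zero (Bf α lam), zero_add]
    unfold famA
    rw [Grid.TT_add, h1]
    simp only [hAdef, hΔh, one_pow, one_mul, sum_neg_distrib, hΔ1]
    ring
  simp only [e0, e1, a0', Real.norm_eq_abs, sub_zero, abs_one, mul_one] at hmv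
  rw [← a1]
  refine le_trans (le_of_eq ?_) hmv
  congr 1
  ring

/-- continuity of `famA` in the atoms -/
theorem famA_cont (𝒦 : Type) [Fintype 𝒦] (a0 Λ ā : ℝ) {η : ℝ} (hη : 0 < η) : ∃ η' : ℝ, 0 < η' ∧
    ∀ (G : Grid) (α lam α' lam' : 𝒦 → ℝ) (a v : ℕ → ℝ) (b : ℝ), Atom α lam a0 Λ → Atom α' lam' a0 Λ →
      (∀ k, |α k - α' k| ≤ η') → (∀ k, |lam k - lam' k| ≤ η') → G.IsPath a ā →
      (∀ l ∈ Ico 1 (G.n - 1), 0 ≤ v l) → |famA G α lam a v b - famA G α' lam' a v b| ≤ η := by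
  have h1 : 0 < η / (3 * |ā| + 1) := by positivity
  obtain ⟨η', hη', hs⟩ := small 𝒦 a0 Λ ā _ h1
  refine ⟨η', hη', ?_⟩
  intro G α lam α' lam' a v b hA hA' hα hl hp hv
  obtain ⟨s1', -, s3, s4, -⟩ := hs α lam α' lam' hA hA' hα hl
  set e := η / (3 * |ā| + 1) with he
  have hā : 0 ≤ ā := (hp.mem (Nat.zero_le _)).1.trans (hp.mem (Nat.zero_le _)).2
  have hdh : ∀ (f g : ℕ → ℝ) l, G.dh f l - G.dh g l = G.dh (fun i => f i - g i) l := by
    intro f g l
    unfold Grid.dh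
    ring
  have b1 : ∑ l ∈ Ico 1 (G.n - 1), |G.dh (fun i => Bf α lam (G.D a i)) l -
      G.dh (fun i => Bf α' lam' (G.D a i)) l| ≤ e * ā := by
    simp only [hdh]
    exact (sum_Ico_abs_le G _).trans (hp.sum_abs_dh (f := fun d => Bf α lam d - Bf α' lam' d) s1'.2 h1.le)
  have b2 := G.Phi_gl_lip (v := fun l => v l + G.dh (fun i => Bf α lam (G.D a i)) l)
    (v' := fun l => v l + G.dh (fun i => Bf α' lam' (G.D a i)) l)
    (fun l hl => add_nonneg (hv l hl) (hp.dh_nonneg hA.Bf_mono l))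
    (fun l hl => add_nonneg (hv l hl) (hp.dh_nonneg hA'.Bf_mono l)) b
  simp only [add_sub_add_left_eq_sub] at b2
  have b3 : |∑ l ∈ Ico 1 (G.n - 1), G.dh (fun i => Bf α lam (G.D a i)) l -
      ∑ l ∈ Ico 1 (G.n - 1), G.dh (fun i => Bf α' lam' (G.D a i)) l| ≤ e * ā := by
    rw [← sum_sub_distrib]
    exact (abs_sum_le_sum_abs _ _).trans b1
  have b4 : |G.TT (fun i => -∑ k, Real.log (1 - lam k * G.D a i) - Real.log (s1 α lam (G.D a i)) +
      Bf α lam (G.D a i)) - G.TT (fun i => -∑ k, Real.log (1 - lam' k * G.D a i) -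
      Real.log (s1 α' lam' (G.D a i)) + Bf α' lam' (G.D a i))| ≤ 3 * e * ā := by
    rw [← Grid.TT_sub]
    refine (abs_sum_le_sum_abs _ _).trans (hp.sum_abs_dh (f := fun d =>
      (-∑ k, Real.log (1 - lam k * d) - Real.log (s1 α lam d) + Bf α lam d) -
      (-∑ k, Real.log (1 - lam' k * d) - Real.log (s1 α' lam' d) + Bf α' lam' d)) ?_ (by positivity))
    intro d hd d' hd'
    have c1 := abs_le.1 (s1'.2 d hd d' hd')
    have c3 := abs_le.1 (s3.2 d hd d' hd')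
    have c4 := abs_le.1 (s4.2 d hd d' hd')
    simp only at c1 c3 c4
    rw [abs_le]
    constructor <;> linarith [c1.1, c1.2, c3.1, c3.2, c4.1, c4.2]
  have b5 := s1'.1
  simp only at b5
  have hη2 : η = e * (3 * ā + 1) := by
    rw [he, abs_of_nonneg hā]
    field_simp
  have hea : 0 ≤ e * ā := by positivity
  unfold famA
  rw [abs_le] at b2 b3 b4 b5 ⊢
  constructor <;> nlinarith [b2.1, b2.2, b3.1, b3.2, b4.1, b4.2, b5.1, b5.2]

theorem famA_bdd (𝒦 : Type) [Fintype 𝒦] (a0 Λ ā V : ℝ) : ∃ C : ℝ, 0 ≤ C ∧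
    ∀ (G : Grid) (α lam : 𝒦 → ℝ) (a v : ℕ → ℝ) (b : ℝ), Atom α lam a0 Λ → G.IsPath a ā →
      (∀ l ∈ Ico 1 (G.n - 1), 0 ≤ v l) → ∑ l ∈ Ico 1 (G.n - 1), v l ≤ V → |b| ≤ V →
      |famA G α lam a v b| ≤ C := by
  set L : ℝ := Fintype.card 𝒦 * |Λ| + (1 + |Λ|) / |a0| + Λ ^ 2 with hL
  have hL0 : 0 ≤ L := by positivity
  refine ⟨2 * |V| + Λ ^ 2 * |ā| + L * |ā| + |Λ|, by positivity, ?_⟩
  intro G α lam a v b hA hp hv hV hb
  have hā : 0 ≤ ā := (hp.mem (Nat.zero_le _)).1.trans (hp.mem (Nat.zero_le _)).2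
  have hΛ := hA.Λ_nonneg
  have hV0 : 0 ≤ V := (abs_nonneg b).trans hb
  rw [abs_of_nonneg hā, abs_of_nonneg hΛ, abs_of_nonneg hV0]
  have b1 : ∑ l ∈ Ico 1 (G.n - 1), |G.dh (fun i => Bf α lam (G.D a i)) l| ≤ Λ ^ 2 * ā :=
    (sum_Ico_abs_le G _).trans (hp.sum_abs_dh (f := Bf α lam)
      (fun d hd d' hd' => hA.Bf_lip hd.1 hd'.1) (sq_nonneg _))
  have b2 := abs_le.1 ((abs_sum_le_sum_abs _ _).trans b1)
  have hadm : Adm (G.gl fun l => v l + G.dh (fun i => Bf α lam (G.D a i)) l) :=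
    G.adm_glFrom fun l hl => add_nonneg (hv l hl) (hp.dh_nonneg hA.Bf_mono l)
  have b3 := lc_le_Phi hadm b
  have b4 := Phi_le hadm b
  rw [Grid.vs_gl, sum_add_distrib] at b4
  have b5 := lc_mem b
  have b6 : 0 ≤ lc b := (le_max_left _ _).trans b5.1
  have b7 : |G.TT (fun i => -∑ k, Real.log (1 - lam k * G.D a i) - Real.log (s1 α lam (G.D a i)) +
      Bf α lam (G.D a i))| ≤ L * ā := by
    refine (abs_sum_le_sum_abs _ _).trans (hp.sum_abs_dh (f := fun d =>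
      -∑ k, Real.log (1 - lam k * d) - Real.log (s1 α lam d) + Bf α lam d) ?_ hL0)
    intro d hd d' hd'
    have c1 := abs_le.1 (hA.Bf_lip hd.1 hd'.1)
    have c2 : |∑ k, Real.log (1 - lam k * d) - ∑ k, Real.log (1 - lam k * d')| ≤
        Fintype.card 𝒦 * |Λ| * |d - d'| := by
      rw [← sum_sub_distrib]
      refine (abs_sum_le_sum_abs _ _).trans ?_
      rw [mul_assoc, ← nsmul_eq_mul, ← card_univ]
      refine sum_le_card_nsmul _ _ _ fun k _ => ?_
      refine (abs_log_sub one_pos (RTA.den_ge hA.np hd.1 k) (RTA.den_ge hA.np hd'.1 k)).trans ?_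
      rw [div_one, show 1 - lam k * d - (1 - lam k * d') = -lam k * (d - d') by ring, abs_mul, abs_neg]
      refine mul_le_mul_of_nonneg_right ?_ (abs_nonneg _)
      rw [abs_of_nonneg hΛ]
      exact abs_le.2 ⟨(hA.mem k).1, (hA.mem k).2.trans hΛ⟩
    have c3 : |Real.log (s1 α lam d) - Real.log (s1 α lam d')| ≤ (1 + |Λ|) / |a0| * |d - d'| := by
      refine (abs_log_sub hA.a0_pos (hA.s1_mem hd.1).1 (hA.s1_mem hd'.1).1).trans ?_
      rw [abs_of_pos hA.a0_pos, div_mul_eq_mul_div]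
      refine div_le_div_of_nonneg_right ?_ hA.a0_pos.le
      have := ((Solve.BL.avg hA.nonneg hA.sum_one (by positivity)
        fun k => Solve.BL.rho (hA.mem k)).2 d hd.1).2 d' hd'.1
      simpa only [s1, div_eq_mul_inv] using this
    rw [abs_le] at c2 c3 ⊢
    simp only [hL]
    constructor <;> nlinarith [c1.1, c1.2, c2.1, c2.2, c3.1, c3.2]
  have b8 := hA.Bf_mem (le_refl (0 : ℝ))
  have h1 : 0 ≤ Λ ^ 2 * ā := by positivity
  have h2 : 0 ≤ L * ā := by positivity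
  unfold famA
  rw [abs_le] at b7 ⊢
  constructor <;> linarith [b2.1, b2.2, b5.2, b7.1, b7.2, b8.1, b8.2]

end Crest.Agent.R164
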