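import Crest.Agent.R164.Cls
import Crest.Agent.R164.Cav
import Crest.Agent.R164.Fam

/-!
Row 164, task R164-ClsB: block systems whose sizes differ by `O(1)` have free energies differing by `O(1)`.

PLAN.  `sand_lo`, `sand_hi`: the potentials agree exactly:
`pot⁺ σ + t τ = pot_b (σ ∘ some) + (b + t) τ + xi σ + (L ȳ/N0) m_j` with `b = c_j + ε θ_j - L ȳ/N0` (`mg lab⁺ j σ = mg lab j (σ∘some) + τ`, `cnt lab⁺ j = cnt lab j + 1`, other groups unchanged); spectra and fields
agree except at the coordinate `R k0` (fields present in the block system): `phi_fields_mono` resp. `phi_dom` (constant shift by `phi_le_lam_pot`).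
`cls_famD`: `B = fib (baseBlk …) k1`.  `cls_grow`: `cav_crude` + sandwich with `ȳ = 0` (`|xi| ≤ 10 L`), `fam_crude`, `lc_le_Phi`, `Phi_le`.
`cls_close`: both systems are obtained from a common one (counts `min` on `k ≠ k1`, `min` on the groups, the rest in `k1`) by at most `(J + card 𝒦) Cn` moves each: "add a spin
of group `j` and a coordinate of class `k1`" (`cls_grow` + `cls_change` for the representatives + `cls_re`) and "turn a coordinate of class `k1` into class `k`" (`cls_change`).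
Do an induction on the number of moves for a relation on pairs of count vectors (define `Φ nb nl` via a choice of functions on `Fin N` with these counts, `cls_re`); all intermediate
systems have size in `[N0/4, 2 N0]` and blocks `≥ a0/4` of the size.
`cls_pin`: `pin_transfer` and `Sec.transfer` (`c = 0`), `cls_addL/U/P`, `cls_close` at the shifted parameters (still in `Box`), `cls_top`.
-/

set_option autoImplicit false
set_option linter.unusedSectionVars false

namespace Crest.Agent.R164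

open MeasureTheory Finset Matrix

variable {ι 𝒦 : Type} [Fintype ι] [DecidableEq ι] [Fintype 𝒦] [DecidableEq 𝒦] {J : ℕ}

def baseBlk (blk : Option ι → 𝒦) (R : 𝒦 → Option ι) (k1 : 𝒦) (i : ι) : 𝒦 :=
  if ∃ k, R k = some i then k1 else blk (some i)

/-- change the Gaussian fields on the cavity spin and add an external field there -/
noncomputable def Sys.probe (S : Sys (Option ι)) (v : ℕ → ℝ) (t : ℝ) : Sys (Option ι) where
  lam := S.lam
  pot := fun σ => S.pot σ + t * sp σ none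
  s := fun l o => o.elim (Real.sqrt (v l)) fun i => S.s l (some i)
  u := S.u

noncomputable def xi (Q : CP) (lab : ι → Fin J) (j : Fin J) (m ybar : ℝ) (σ : Option ι → Bool) : ℝ :=
  -(Q.L / Q.N0) * ((mg lab j (fun i => σ (some i)) - cnt lab j * m - ybar) * (sp σ none - m)) -
    Q.L / (2 * Q.N0) * (sp σ none - m) ^ 2

/-- effective field on the cavity spin -/
noncomputable def beff (M : Mod 𝒦 J) (Q : CP) (θ : ℕ ⊕ Fin J → ℝ) (j : Fin J) (ybar : ℝ) : ℝ :=
  M.c j + Q.ε * θ (.inr j) - Q.L * ybar / Q.N0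

variable {M : Mod 𝒦 J} {G : Grid} {Q : CP} {θ : ℕ ⊕ Fin J → ℝ} {blk : Option ι → 𝒦} {lab : Option ι → Fin J}
  {R : 𝒦 → Option ι}

theorem clsb_sum_opt {κ : Type} [DecidableEq κ] (f : Option ι → κ) (k : κ) (F : Option ι → ℝ) :
    ∑ o ∈ fib f k, F o = (if f none = k then F none else 0) +
      ∑ i ∈ fib (fun i => f (some i)) k, F (some i) := by
  simp only [fib, sum_filter, Fintype.sum_option]

theorem clsb_cnt_opt {κ : Type} [DecidableEq κ] (f : Option ι → κ) (k : κ) :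
    cnt f k = cnt (fun i => f (some i)) k + if f none = k then 1 else 0 := by
  simp only [cnt, fib, card_filter, Fintype.sum_option, add_comm]

theorem clsb_pot (b' : ι → 𝒦) (t ybar : ℝ) (σ : Option ι → Bool) :
    (cls M G Q blk lab θ).pot σ + t * sp σ none =
      (cls M G Q b' (fun i => lab (some i)) θ).pot (fun i => σ (some i)) +
        (beff M Q θ (lab none) ybar + t) * sp σ none +
        xi Q (fun i => lab (some i)) (lab none) (M.m (lab none)) ybar σ +
        Q.L * ybar / Q.N0 * M.m (lab none) := by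
  have h1 : ∑ j, (mg lab j σ - cnt lab j * (M.m j : ℝ)) ^ 2 =
      ∑ j, (mg (fun i => lab (some i)) j (fun i => σ (some i)) -
        cnt (fun i => lab (some i)) j * (M.m j : ℝ)) ^ 2 +
      (2 * (mg (fun i => lab (some i)) (lab none) (fun i => σ (some i)) -
        cnt (fun i => lab (some i)) (lab none) * (M.m (lab none) : ℝ)) * (sp σ none - M.m (lab none)) +
        (sp σ none - M.m (lab none)) ^ 2) := by
    have : ∀ j, (mg lab j σ - cnt lab j * (M.m j : ℝ)) ^ 2 =
        (mg (fun i => lab (some i)) j (fun i => σ (some i)) -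
          cnt (fun i => lab (some i)) j * (M.m j : ℝ)) ^ 2 + if lab none = j then
        (2 * (mg (fun i => lab (some i)) j (fun i => σ (some i)) -
        cnt (fun i => lab (some i)) j * (M.m j : ℝ)) * (sp σ none - M.m j) +
        (sp σ none - M.m j) ^ 2) else 0 := by
      intro j
      have e : mg lab j σ = (if lab none = j then sp σ none else 0) +
          mg (fun i => lab (some i)) j (fun i => σ (some i)) := clsb_sum_opt lab j _
      rw [e, clsb_cnt_opt lab j]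
      split_ifs <;> push_cast <;> ring
    simp only [this, sum_add_distrib, Finset.sum_ite_eq, mem_univ, if_true]
  have h2 : ∀ i, sp σ (some i) = sp (fun i => σ (some i)) i := fun _ => rfl
  simp only [cls, h1, Fintype.sum_option, h2, beff, xi]
  ring

theorem clsb_inj (hR : ∀ k, blk (R k) = k) : Function.Injective R :=
  fun a b h => by rw [← hR a, h, hR]

theorem clsb_lam (hM : M.OK) (hR : ∀ k, blk (R k) = k) (lab' : ι → Fin J) (b : ℝ) (sn : ℕ → ℝ)
    (hn : R M.k1 = none) (lam : 𝒦 → ℝ) (o : Option ι) :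
    (famSys (cls M G Q (baseBlk blk R M.k1) lab' θ) b sn R lam).lam o =
      if ∃ k, R k = o then lam (blk o) else (cls M G Q blk lab θ).lam o := by
  simp only [famSys, Sys.add, Sys.ext, dirL, one_mul]
  split_ifs with h
  · obtain ⟨k, rfl⟩ := h
    have e : ∑ k', (if R k = R k' then lam k' else 0) = lam k := by
      simp only [(clsb_inj hR).eq_iff, Finset.sum_ite_eq, mem_univ, if_true]
    rw [e, hR, add_eq_right]
    cases hk : R k with
    | none => rfl
    | some i =>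
      have : baseBlk blk R M.k1 i = M.k1 := if_pos ⟨k, hk⟩
      simp [cls, this, hM.ne.symm, hM.μ1]
  · rw [sum_eq_zero fun k _ => if_neg fun e => h ⟨k, e.symm⟩, add_zero]
    cases o with
    | none => exact absurd ⟨_, hn⟩ h
    | some i =>
      have : baseBlk blk R M.k1 i = blk (some i) := if_neg h
      simp [cls, this]

theorem clsb_u (hM : M.OK) (lab' : ι → Fin J) (b : ℝ) (sn : ℕ → ℝ)
    (hn : R M.k1 = none) (lam : 𝒦 → ℝ) (l : ℕ) (o : Option ι) :
    (famSys (cls M G Q (baseBlk blk R M.k1) lab' θ) b sn R lam).u l o =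
      if ∃ k, R k = o then 0 else (cls M G Q blk lab θ).u l o := by
  simp only [famSys, Sys.add, Sys.ext, dirL, mul_zero, add_zero]
  cases o with
  | none => rw [if_pos ⟨_, hn⟩]; rfl
  | some i =>
    split_ifs with h
    · have : baseBlk blk R M.k1 i = M.k1 := if_pos h
      simp [cls, this, hM.ne.symm]
    · have : baseBlk blk R M.k1 i = blk (some i) := if_neg h
      simp [cls, this]

theorem clsb_s (b' : ι → 𝒦) (lab' : ι → Fin J) (b t : ℝ) (v : ℕ → ℝ) (lam : 𝒦 → ℝ) (l : ℕ)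
    (o : Option ι) : (famSys (cls M G Q b' lab' θ) b (fun l => Real.sqrt (v l)) R lam).s l o =
      ((cls M G Q blk lab θ).probe v t).s l o := by
  cases o <;> simp [famSys, Sys.add, Sys.ext, dirL, Sys.probe, cls]

theorem clsb_s_nonneg (hQ : Q.OK G) (t : ℝ) (v : ℕ → ℝ) (l : ℕ) (o : Option ι) :
    0 ≤ ((cls M G Q blk lab θ).probe v t).s l o := by
  cases o
  · exact Real.sqrt_nonneg _
  · exact hQ.ε_pos.le

theorem clsb_dirP {κ : Type} [Fintype κ] [DecidableEq κ] {ν : ProbabilityMeasure (OG κ)} (S : Sys κ)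
    (F p : (κ → Bool) → ℝ) {c : ℝ} :
    ((∀ σ, S.pot σ + F σ ≤ p σ + c) → phi G ν (S.add (dirP F) 1) ≤ phi G ν ⟨S.lam, p, S.s, S.u⟩ + c) ∧
    ((∀ σ, p σ ≤ S.pot σ + F σ + c) → phi G ν ⟨S.lam, p, S.s, S.u⟩ ≤ phi G ν (S.add (dirP F) 1) + c) := by
  have hs : (S.add (dirP F) 1).s = S.s := by funext l i; simp [Sys.add, dirP]
  have hu : (S.add (dirP F) 1).u = S.u := by funext l i; simp [Sys.add, dirP]
  constructor
  · intro h
    have := phi_le_lam_pot (G := G) (ν := ν) (S := S.add (dirP F) 1) (S' := ⟨S.lam, p, S.s, S.u⟩)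
      (A := 0) (B := c) hs hu (fun i => by simp [Sys.add, dirP]) fun σ => by
        simpa [Sys.add, dirP] using h σ
    simpa using this
  · intro h
    have := phi_le_lam_pot (G := G) (ν := ν) (S' := S.add (dirP F) 1) (S := ⟨S.lam, p, S.s, S.u⟩)
      (A := 0) (B := c) hs.symm hu.symm (fun i => by simp [Sys.add, dirP]) fun σ => by
        simpa [Sys.add, dirP] using h σ
    simpa using this

theorem clsb_fam_pot (Sb : Sys ι) (b : ℝ) (sn : ℕ → ℝ) (lam : 𝒦 → ℝ) (σ : Option ι → Bool) :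
    (famSys Sb b sn R lam).pot σ = Sb.pot (fun i => σ (some i)) + b * sp σ none := by
  simp [famSys, Sys.add, Sys.ext, dirL]

theorem clsb_cnt_base (hR : ∀ k, blk (R k) = k) {k1 : 𝒦} (hn : R k1 = none) (k : 𝒦) :
    (cnt (baseBlk blk R k1) k : ℝ) =
      if k = k1 then (cnt blk k : ℝ) + Fintype.card 𝒦 - 2 else (cnt blk k : ℝ) - 1 := by
  have h1 := clsb_cnt_opt (fun o => if ∃ k, R k = o then k1 else blk o) k
  have h2 : ∀ o, (if (if ∃ k, R k = o then k1 else blk o) = k then (1 : ℝ) else 0) =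
      (if blk o = k then 1 else 0) + ∑ k', if R k' = o then
        ((if k1 = k then 1 else 0) - (if k' = k then 1 else 0)) else 0 := by
    intro o
    by_cases h : ∃ k, R k = o
    · rw [if_pos h]
      obtain ⟨k', rfl⟩ := h
      simp only [(clsb_inj hR).eq_iff, Finset.sum_ite_eq', mem_univ, if_true, hR]
      ring
    · rw [if_neg h, sum_eq_zero fun k' _ => if_neg fun e => h ⟨k', e⟩, add_zero]
  have h3 : (cnt (fun o => if ∃ k, R k = o then k1 else blk o) k : ℝ) =
      cnt blk k + (Fintype.card 𝒦 * (if k1 = k then 1 else 0) - 1) := by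
    simp only [cnt, fib, card_filter, Nat.cast_sum, Nat.cast_ite, Nat.cast_one, Nat.cast_zero]
    rw [sum_congr rfl fun o _ => h2 o, sum_add_distrib, sum_comm]
    simp only [Finset.sum_ite_eq, mem_univ, if_true, sum_sub_distrib, Finset.sum_ite_eq', sum_const,
      card_univ, nsmul_eq_mul]
  have hx : ∃ k, R k = none := ⟨_, hn⟩
  rw [if_pos hx] at h1
  have h4 : (cnt (fun o => if ∃ k, R k = o then k1 else blk o) k : ℝ) =
      cnt (baseBlk blk R k1) k + if k1 = k then 1 else 0 := by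
    rw [h1]; push_cast; rfl
  by_cases hk : k = k1
  · rw [if_pos hk]; rw [if_pos hk.symm] at h3 h4; linarith
  · rw [if_neg hk]; rw [if_neg (Ne.symm hk)] at h3 h4; linarith

theorem sand_lo (hM : M.OK) (hQ : Q.OK G) (hθ : Box θ) (hR : ∀ k, blk (R k) = k) (hn : R M.k1 = none)
    (ν : ProbabilityMeasure (OG (Option ι))) (v : ℕ → ℝ) (t ybar : ℝ) :
    phi G ν ((famSys (cls M G Q (baseBlk blk R M.k1) (fun i => lab (some i)) θ)
        (beff M Q θ (lab none) ybar + t) (fun l => Real.sqrt (v l)) R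
        (Function.update M.μ M.k0 (-(Q.ε * θ (.inl G.n))))).add
        (dirP (xi Q (fun i => lab (some i)) (lab none) (M.m (lab none)) ybar)) 1) +
      Q.L * ybar / Q.N0 * M.m (lab none) ≤ phi G ν ((cls M G Q blk lab θ).probe v t) := by
  set F := famSys (cls M G Q (baseBlk blk R M.k1) (fun i => lab (some i)) θ)
    (beff M Q θ (lab none) ybar + t) (fun l => Real.sqrt (v l)) R
    (Function.update M.μ M.k0 (-(Q.ε * θ (.inl G.n)))) with hF
  have h1 := (clsb_dirP (G := G) (ν := ν) F (xi Q (fun i => lab (some i)) (lab none) (M.m (lab none)) ybar)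
    ((cls M G Q blk lab θ).probe v t).pot (c := -(Q.L * ybar / Q.N0 * M.m (lab none)))).1 fun σ => by
      have := clsb_pot (M := M) (G := G) (Q := Q) (θ := θ) (blk := blk) (lab := lab)
        (baseBlk blk R M.k1) t ybar σ
      rw [hF, clsb_fam_pot]
      simp only [Sys.probe]
      linarith
  have h2 : phi G ν ⟨F.lam, ((cls M G Q blk lab θ).probe v t).pot, F.s, F.u⟩ ≤
      phi G ν ((cls M G Q blk lab θ).probe v t) := by
    refine phi_fields_mono (funext fun o => ?_) rfl fun l _ o => ?_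
    · simp only [hF, clsb_lam (lab := lab) hM hR _ _ _ hn, Sys.probe]
      split_ifs with h
      · simp only [cls, Function.update_apply]
      · rfl
    · simp only [hF, clsb_u (lab := lab) hM _ _ _ hn, clsb_s (blk := blk) (lab := lab) _ _ _ t]
      refine ⟨clsb_s_nonneg hQ t v l o, le_rfl, ?_⟩
      have := (cls_u_mem (M := M) (blk := blk) (lab := lab) hQ hθ l o).1
      split_ifs
      · exact ⟨le_rfl, this⟩
      · exact ⟨this, le_rfl⟩
  linarith

theorem sand_hi (hM : M.OK) (hQ : Q.OK G) (hθ : Box θ) (hR : ∀ k, blk (R k) = k) (hn : R M.k1 = none)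
    (ν : ProbabilityMeasure (OG (Option ι))) (v : ℕ → ℝ) (t ybar : ℝ) :
    phi G ν ((cls M G Q blk lab θ).probe v t) ≤
      phi G ν ((famSys (cls M G Q (baseBlk blk R M.k1) (fun i => lab (some i)) θ)
        (beff M Q θ (lab none) ybar + t) (fun l => Real.sqrt (v l)) R M.μ).add
        (dirP (xi Q (fun i => lab (some i)) (lab none) (M.m (lab none)) ybar)) 1) +
      Q.L * ybar / Q.N0 * M.m (lab none) := by
  set F := famSys (cls M G Q (baseBlk blk R M.k1) (fun i => lab (some i)) θ)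
    (beff M Q θ (lab none) ybar + t) (fun l => Real.sqrt (v l)) R M.μ with hF
  have h1 := (clsb_dirP (G := G) (ν := ν) F (xi Q (fun i => lab (some i)) (lab none) (M.m (lab none)) ybar)
    ((cls M G Q blk lab θ).probe v t).pot (c := Q.L * ybar / Q.N0 * M.m (lab none))).2 fun σ => by
      have := clsb_pot (M := M) (G := G) (Q := Q) (θ := θ) (blk := blk) (lab := lab)
        (baseBlk blk R M.k1) t ybar σ
      rw [hF, clsb_fam_pot]
      simp only [Sys.probe]
      linarith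
  have h2 : phi G ν ((cls M G Q blk lab θ).probe v t) ≤
      phi G ν ⟨F.lam, ((cls M G Q blk lab θ).probe v t).pot, F.s, F.u⟩ := by
    refine phi_dom (fun l _ o => ?_) (fun o => ?_) fun σ => ?_
    · simp only [hF, clsb_u (lab := lab) hM _ _ _ hn, clsb_s (blk := blk) (lab := lab) _ _ _ t]
      refine ⟨clsb_s_nonneg hQ t v l o, le_rfl, ?_⟩
      have := (cls_u_mem (M := M) (blk := blk) (lab := lab) hQ hθ l o).1
      split_ifs
      · exact ⟨le_rfl, this⟩
      · exact ⟨this, le_rfl⟩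
    · simp only [hF, clsb_u (lab := lab) hM _ _ _ hn, clsb_lam (lab := lab) hM hR _ _ _ hn, Sys.probe]
      split_ifs with h
      · by_cases hk : blk o = M.k0
        · have := cls_dom hQ hθ
          have e : ∀ l ∈ Ico 1 (G.n - 1), (cls M G Q blk lab θ).u l o ^ 2 - (0 : ℝ) ^ 2 =
              (Q.ε * θ (.inl l)) ^ 2 := by
            intro l hl
            have : l ≠ G.n := by have := (mem_Ico.1 hl).2; omega
            simp [cls, hk, this]
          rw [sum_congr rfl e]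
          simpa [cls, hk, hM.μ0] using this
        · simp [cls, hk]
      · simp
    · simp only [hF, clsb_s (blk := blk) (lab := lab) _ _ _ t, sub_self, sum_const_zero, mul_zero,
        add_zero, le_refl]
  linarith

theorem cls_famD (hM : M.OK) (hR : ∀ k, blk (R k) = k) (hn : R M.k1 = none) {ā : ℝ} (hā : 0 < ā)
    (hc : (Fintype.card ι : ℝ) + 1 ≤ ā * (cnt blk M.k1 - 1 - Fintype.card 𝒦)) {Õ : OG (Option ι)}
    (hÕ : IdOff Õ (Set.range R)) (lab : ι → Fin J) :
    FamD G (cls M G Q (baseBlk blk R M.k1) lab θ) (fib (baseBlk blk R M.k1) M.k1) R M.k1 Õ ā := by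
  refine ⟨clsb_inj hR, hn, fun k hk => ?_, fun i hi => ?_, hÕ, hā, hc.trans ?_⟩
  · cases h : R k with
    | none => exact absurd (clsb_inj hR (h.trans hn.symm)) hk
    | some i => exact ⟨i, mem_fib.2 (if_pos ⟨k, h⟩), rfl⟩
  · simp [cls, mem_fib.1 hi, hM.ne.symm, hM.μ1]
  · have h1 := clsb_cnt_base hR hn M.k1
    rw [if_pos rfl] at h1
    have h2 : (1 : ℝ) ≤ Fintype.card 𝒦 := by
      have : Nonempty 𝒦 := ⟨M.k0⟩
      exact_mod_cast Fintype.card_pos
    refine mul_le_mul_of_nonneg_left ?_ hā.le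
    unfold cnt at h1 ⊢
    linarith

theorem cls_cavD (hR : ∀ k, blk (R k) = k) (hn : R M.k1 = none) (v : ℕ → ℝ) (t : ℝ) :
    CavD G ((cls M G Q blk lab θ).probe v t) blk R M.k1 := by
  exact ⟨hR, hn, fun o o' h => by simp [Sys.probe, cls, h]⟩

theorem probe_self (hε : 0 ≤ Q.ε) : (cls M G Q blk lab θ).probe (fun _ => Q.ε ^ 2) 0 = cls M G Q blk lab θ := by
  refine cls_ext (fun _ => rfl) (fun σ => by simp [Sys.probe]) (fun l o => ?_) fun _ _ => rfl
  cases o
  · exact Real.sqrt_sq hε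
  · rfl

theorem cnt_baseBlk (hR : ∀ k, blk (R k) = k) {k1 : 𝒦} (hn : R k1 = none) (k : 𝒦) :
    (cnt (baseBlk blk R k1) k : ℝ) =
      if k = k1 then (cnt blk k : ℝ) + Fintype.card 𝒦 - 2 else (cnt blk k : ℝ) - 1 := by
  exact clsb_cnt_base hR hn k

theorem clsb_xi (hM : M.OK) (hQ : Q.OK G) (lab' : ι → Fin J) (j : Fin J)
    (hN : (Fintype.card ι : ℝ) ≤ 2 * Q.N0) (σ : Option ι → Bool) :
    |xi Q lab' j (M.m j) 0 σ| ≤ 10 * Q.L := by
  have hL := hQ.L_pos
  have hN0 := hQ.N0_ge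
  have h1 : |sp σ none - M.m j| ≤ 2 :=
    (abs_sub _ _).trans (by linarith [abs_sp σ none, hM.m_lt j])
  have h2 : |mg lab' j (fun i => σ (some i)) - cnt lab' j * (M.m j : ℝ) - 0| ≤ 4 * Q.N0 := by
    rw [sub_zero]
    refine (abs_sub _ _).trans ?_
    have a1 := abs_mg_le (lab := lab') j (fun i => σ (some i))
    have a2 : (cnt lab' j : ℝ) ≤ Fintype.card ι := by exact_mod_cast cnt_le_card lab' j
    have a3 : |cnt lab' j * (M.m j : ℝ)| ≤ cnt lab' j := by
      rw [abs_mul, Nat.abs_cast]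
      exact mul_le_of_le_one_right (Nat.cast_nonneg _) (hM.m_lt j).le
    linarith
  have h3 : |-(Q.L / Q.N0) * ((mg lab' j (fun i => σ (some i)) - cnt lab' j * (M.m j : ℝ) - 0) *
      (sp σ none - M.m j))| ≤ 8 * Q.L := by
    rw [abs_mul, abs_neg, abs_of_pos (by positivity), abs_mul]
    calc _ ≤ Q.L / Q.N0 * (4 * Q.N0 * 2) :=
          mul_le_mul_of_nonneg_left (mul_le_mul h2 h1 (abs_nonneg _) (by linarith)) (by positivity)
      _ = _ := by field_simp; ring
  have h4 : |Q.L / (2 * Q.N0) * (sp σ none - M.m j) ^ 2| ≤ 2 * Q.L := by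
    rw [abs_mul, abs_of_pos (by positivity), abs_pow]
    calc _ ≤ Q.L / (2 * 1) * 2 ^ 2 :=
          mul_le_mul (div_le_div_of_nonneg_left hL.le (by norm_num) (by linarith))
            (pow_le_pow_left₀ (abs_nonneg _) h1 2) (by positivity) (by positivity)
      _ = _ := by ring
  exact (abs_sub _ _).trans (by linarith)

theorem clsb_addP {κ : Type} [Fintype κ] [DecidableEq κ] {ν : ProbabilityMeasure (OG κ)} (S : Sys κ)
    {F : (κ → Bool) → ℝ} {c : ℝ} (h : ∀ σ, |F σ| ≤ c) : |phi G ν (S.add (dirP F) 1) - phi G ν S| ≤ c := by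
  have h1 := (clsb_dirP (G := G) (ν := ν) S F S.pot (c := c)).1 fun σ => by linarith [(abs_le.1 (h σ)).2]
  have h2 := (clsb_dirP (G := G) (ν := ν) S F S.pot (c := c)).2 fun σ => by linarith [(abs_le.1 (h σ)).1]
  rw [abs_le]
  constructor <;> linarith

theorem cls_grow (hM : M.OK) (L ā : ℝ) : ∃ C : ℝ, 0 ≤ C ∧
    ∀ (ι : Type) [Fintype ι] [DecidableEq ι] (G : Grid) (Q : CP) (θ : ℕ ⊕ Fin J → ℝ)
      (ν : ProbabilityMeasure (OG ι)) (ν' : ProbabilityMeasure (OG (Option ι))) (blk : Option ι → 𝒦)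
      (lab : Option ι → Fin J) (R : 𝒦 → Option ι) (v : ℕ → ℝ) (t : ℝ),
      Q.OK G → Q.L = L → Box θ → IsHaar ν → (∀ k, blk (R k) = k) → R M.k1 = none → 0 < ā →
      (Fintype.card ι : ℝ) + 1 ≤ ā * (cnt blk M.k1 - 1 - Fintype.card 𝒦) →
      (Fintype.card ι : ℝ) ≤ 2 * Q.N0 → (∀ l ∈ Ico 1 (G.n - 1), 0 ≤ v l) →
      ∑ l ∈ Ico 1 (G.n - 1), v l ≤ 2 → |t| ≤ 1 →
      (∀ Õ : OG (Option ι), IdOff Õ (Set.range R) →
        |phi G (famν Õ ν) ((cls M G Q blk lab θ).probe v t) -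
          phi G ν (cls M G Q (baseBlk blk R M.k1) (fun i => lab (some i)) θ)| ≤ C) ∧
      (IsHaar ν' → |phi G ν' ((cls M G Q blk lab θ).probe v t) -
          phi G ν (cls M G Q (baseBlk blk R M.k1) (fun i => lab (some i)) θ)| ≤ C) := by
  obtain ⟨C₀, hC₀, hfam⟩ := fam_crude M.Λ ā (Fintype.card 𝒦)
  have hc0 : 0 ≤ ∑ j, |M.c j| := sum_nonneg fun _ _ => abs_nonneg _
  refine ⟨C₀ + (∑ j, |M.c j| + 3) + 10 * |L|, by positivity, ?_⟩
  intro ι _ _ G Q θ ν ν' blk lab R v t hQ hL hθ hν hR hn hā hc hN hv hv2 ht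
  have key : ∀ Õ : OG (Option ι), IdOff Õ (Set.range R) →
      |phi G (famν Õ ν) ((cls M G Q blk lab θ).probe v t) -
        phi G ν (cls M G Q (baseBlk blk R M.k1) (fun i => lab (some i)) θ)| ≤
        C₀ + (∑ j, |M.c j| + 3) + 10 * |L| := by
    intro Õ hÕ
    have hε := hQ.ε_pos
    have hε' := hQ.ε_le'
    have hD := cls_famD (G := G) (Q := Q) (θ := θ) hM hR hn hā hc hÕ (fun i => lab (some i))
    have h1 := sand_lo (lab := lab) hM hQ hθ hR hn (famν Õ ν) v t 0
    have h2 := sand_hi (lab := lab) hM hQ hθ hR hn (famν Õ ν) v t 0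
    have h3 := hfam ι 𝒦 G ν _ _ R M.k1 Õ (beff M Q θ (lab none) 0 + t) (fun l => Real.sqrt (v l))
      (Function.update M.μ M.k0 (-(Q.ε * θ (.inl G.n)))) le_rfl hν hD (fun k => by
        rw [Function.update_apply]
        split_ifs
        · have := hθ (.inl G.n)
          have h3 := hM.one_le
          constructor <;> nlinarith [this.1, this.2]
        · exact hM.atom.mem k) fun l _ => Real.sqrt_nonneg _
    have h4 := hfam ι 𝒦 G ν _ _ R M.k1 Õ (beff M Q θ (lab none) 0 + t) (fun l => Real.sqrt (v l))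
      M.μ le_rfl hν hD hM.atom.mem fun l _ => Real.sqrt_nonneg _
    have hadm : Adm (G.gl fun l => Real.sqrt (v l) ^ 2) := G.adm_glFrom fun _ _ => sq_nonneg _
    have h5 := ((le_max_left _ _).trans (lc_mem _).1).trans
      (lc_le_Phi hadm (beff M Q θ (lab none) 0 + t))
    have h6 := Phi_le hadm (beff M Q θ (lab none) 0 + t)
    rw [G.vs_gl, sum_congr rfl fun l hl => Real.sq_sqrt (hv l hl)] at h6
    have h7 := (lc_mem (beff M Q θ (lab none) 0 + t)).2
    have h8 : |beff M Q θ (lab none) 0 + t| ≤ ∑ j, |M.c j| + 2 := by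
      have a1 : |M.c (lab none)| ≤ ∑ j, |M.c j| :=
        single_le_sum (f := fun j => |M.c j|) (fun _ _ => abs_nonneg _) (mem_univ _)
      have a2 := hθ (.inr (lab none))
      have a3 : |Q.ε * θ (.inr (lab none))| ≤ 1 := by
        rw [abs_le]; constructor <;> nlinarith [a2.1, a2.2]
      simp only [beff, mul_zero, zero_div, sub_zero]
      exact (abs_add_le _ _).trans (by linarith [abs_add_le (M.c (lab none)) (Q.ε * θ (.inr (lab none)))])
    have hxi := clsb_xi hM hQ (fun i => lab (some i)) (lab none) hN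
    have h9 := abs_le.1 (clsb_addP (G := G) (ν := famν Õ ν) (famSys (cls M G Q (baseBlk blk R M.k1)
      (fun i => lab (some i)) θ) (beff M Q θ (lab none) 0 + t) (fun l => Real.sqrt (v l)) R
      (Function.update M.μ M.k0 (-(Q.ε * θ (.inl G.n))))) hxi)
    have h10 := abs_le.1 (clsb_addP (G := G) (ν := famν Õ ν) (famSys (cls M G Q (baseBlk blk R M.k1)
      (fun i => lab (some i)) θ) (beff M Q θ (lab none) 0 + t) (fun l => Real.sqrt (v l)) R M.μ) hxi)
    simp only [mul_zero, zero_div, zero_mul, add_zero] at h1 h2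
    have hL' : Q.L ≤ |L| := hL ▸ le_abs_self _
    rw [abs_le]
    constructor <;> linarith [h3.1, h3.2, h4.1, h4.2, h9.1, h9.2, h10.1, h10.2]
  refine ⟨key, fun hν' => ?_⟩
  have := cav_crude hν hν' (cls_cavD (M := M) (G := G) (Q := Q) (θ := θ) (lab := lab) hR hn v t)
    (lo := phi G ν (cls M G Q (baseBlk blk R M.k1) (fun i => lab (some i)) θ) -
      (C₀ + (∑ j, |M.c j| + 3) + 10 * |L|))
    (hi := phi G ν (cls M G Q (baseBlk blk R M.k1) (fun i => lab (some i)) θ) +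
      (C₀ + (∑ j, |M.c j| + 3) + 10 * |L|)) fun Õ hÕ => by
      have := abs_le.1 (key Õ hÕ)
      constructor <;> linarith [this.1, this.2]
  rw [abs_le]
  constructor <;> linarith [this.1, this.2]

theorem clsb_real {κ : Type} [Fintype κ] [DecidableEq κ] (ι : Type) [Fintype ι] [DecidableEq ι]
    (n : κ → ℕ) (h : ∑ k, n k = Fintype.card ι) : ∃ f : ι → κ, cnt f = n := by
  let e : ι ≃ Σ k, Fin (n k) := Fintype.equivOfCardEq (by simp [h])
  refine ⟨fun i => (e i).1, funext fun k => ?_⟩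
  rw [← cls_cnt_eq (f' := Sigma.fst) e (fun _ => rfl) k]
  simp only [cnt, fib, card_filter, Fintype.sum_sigma]
  rw [sum_eq_single k (fun b _ hb => sum_eq_zero fun _ _ => if_neg hb) (fun h => absurd (mem_univ _) h)]
  simp

theorem clsb_cnt_update {κ : Type} [DecidableEq κ] (f : ι → κ) (i : ι) (k k' : κ) :
    cnt (Function.update f i k) k' + (if f i = k' then 1 else 0) = cnt f k' + if k = k' then 1 else 0 := by
  simp only [cnt, fib, card_filter]
  rw [← add_sum_erase _ _ (mem_univ i), ← add_sum_erase _ (fun x => if f x = k' then 1 else 0) (mem_univ i),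
    Function.update_self, sum_congr rfl fun x hx => by rw [Function.update_of_ne (ne_of_mem_erase hx)]]
  omega

theorem clsb_path {κ : Type} [Fintype κ] [DecidableEq κ] (Ψ : (κ → ℕ) → ℝ) (C : ℝ) (lo hi : κ → ℕ)
    (h : ∀ x a, lo ≤ x → x + Pi.single a 1 ≤ hi → |Ψ (x + Pi.single a 1) - Ψ x| ≤ C) (d : κ → ℕ)
    (hd : lo + d ≤ hi) : |Ψ (lo + d) - Ψ lo| ≤ C * ∑ a, (d a : ℝ) := by
  induction hn : ∑ a, d a generalizing d with
  | zero =>
    have : d = 0 := funext fun a => sum_eq_zero_iff.1 hn a (mem_univ a)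
    simp [this]
  | succ n ih =>
    obtain ⟨a, -, ha⟩ := exists_ne_zero_of_sum_ne_zero (s := univ) (f := d) (by omega)
    obtain ⟨d', rfl⟩ : ∃ d' : κ → ℕ, d = d' + Pi.single a 1 :=
      ⟨d - Pi.single a 1, funext fun b => by
        by_cases hb : b = a
        · subst hb; simp; omega
        · simp [hb]⟩
    rw [← add_assoc] at hd ⊢
    have h1 := h (lo + d') a le_self_add hd
    have h2 := ih d' (le_self_add.trans hd) (by simpa [sum_add_distrib] using hn)
    have h3 : ∑ b, (((d' + Pi.single a 1 : κ → ℕ) b : ℕ) : ℝ) = ∑ b, (d' b : ℝ) + 1 := by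
      have : ∑ b, (d' + Pi.single a 1 : κ → ℕ) b = ∑ b, d' b + 1 := by simp [sum_add_distrib]
      exact_mod_cast this
    rw [h3]
    have := abs_sub_le (Ψ (lo + d' + Pi.single a 1)) (Ψ (lo + d')) (Ψ lo)
    linarith

theorem clsb_path' {κ : Type} [Fintype κ] [DecidableEq κ] (Ψ : (κ → ℕ) → ℝ) {C : ℝ} (hC : 0 ≤ C)
    {lo hi : κ → ℕ} (hle : lo ≤ hi) {B : ℕ} (hB : ∀ a, hi a ≤ lo a + B)
    (h : ∀ x a, lo ≤ x → x + Pi.single a 1 ≤ hi → |Ψ (x + Pi.single a 1) - Ψ x| ≤ C) :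
    |Ψ hi - Ψ lo| ≤ C * (Fintype.card κ * B) := by
  have e : lo + (hi - lo) = hi := add_tsub_cancel_of_le hle
  have := clsb_path Ψ C lo hi h (hi - lo) e.le
  rw [e] at this
  refine this.trans (mul_le_mul_of_nonneg_left ?_ hC)
  rw [← card_univ, ← nsmul_eq_mul]
  refine sum_le_card_nsmul _ _ _ fun a _ => ?_
  have := hB a
  simp only [Pi.sub_apply]
  exact_mod_cast (by omega)

theorem clsb_Phi (M : Mod 𝒦 J) (G : Grid) (Q : CP) (θ : ℕ ⊕ Fin J → ℝ) :
    ∃ Φ : (𝒦 → ℕ) → (Fin J → ℕ) → ℝ, ∀ (ι : Type) [Fintype ι] [DecidableEq ι]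
      (ν : ProbabilityMeasure (OG ι)) (blk : ι → 𝒦) (lab : ι → Fin J), IsHaar ν →
      phi G ν (cls M G Q blk lab θ) = Φ (cnt blk) (cnt lab) := by
  classical
  let p : (𝒦 → ℕ) → (Fin J → ℕ) → ℝ → Prop := fun nb nl x => ∃ (ι : Type) (_ : Fintype ι)
    (_ : DecidableEq ι) (ν : ProbabilityMeasure (OG ι)) (blk : ι → 𝒦) (lab : ι → Fin J), IsHaar ν ∧
      cnt blk = nb ∧ cnt lab = nl ∧ phi G ν (cls M G Q blk lab θ) = x
  refine ⟨fun nb nl => Classical.epsilon (p nb nl), fun ι _ _ ν blk lab hν => ?_⟩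
  obtain ⟨ι', _, _, ν', blk', lab', h1, h2, h3, h4⟩ :=
    Classical.epsilon_spec (p := p (cnt blk) (cnt lab)) ⟨_, ι, _, _, ν, blk, lab, hν, rfl, rfl, rfl⟩
  beta_reduce
  rw [← h4]
  exact (cls_re hν h1 (fun k => (congrFun h2 k).symm) fun j => (congrFun h3 j).symm).1

/-- complete a count vector in the class `k1` -/
def clsbFull (k1 : 𝒦) (p : 𝒦 → ℕ) (N : ℕ) : 𝒦 → ℕ :=
  Function.update p k1 (N - ∑ k ∈ univ.erase k1, p k)

theorem clsb_full_sum {k1 : 𝒦} {p : 𝒦 → ℕ} {N : ℕ} (h : ∑ k ∈ univ.erase k1, p k ≤ N) :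
    ∑ k, clsbFull k1 p N k = N := by
  rw [clsbFull, sum_update_of_mem (mem_univ _), sdiff_singleton_eq_erase]
  omega

theorem clsb_full_self {k1 : 𝒦} (p : 𝒦 → ℕ) : clsbFull k1 p (∑ k, p k) = p := by
  rw [clsbFull, ← add_sum_erase _ _ (mem_univ k1), Nat.add_sub_cancel, Function.update_eq_self]

section moves
variable {Φ : (𝒦 → ℕ) → (Fin J → ℕ) → ℝ}

theorem clsb_moveA (hM : M.OK) (hH : HaarAll) (hQ : Q.OK G) (hθ : Box θ)
    (hΦ : ∀ (ι : Type) [Fintype ι] [DecidableEq ι]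
      (ν : ProbabilityMeasure (OG ι)) (blk : ι → 𝒦) (lab : ι → Fin J), IsHaar ν →
      phi G ν (cls M G Q blk lab θ) = Φ (cnt blk) (cnt lab)) {ā : ℝ} (hā : 0 ≤ ā) (q : 𝒦 → ℕ)
    (n : Fin J → ℕ) (k : 𝒦) (h2 : ∑ k ∈ univ.erase M.k1, q k + 1 ≤ ∑ j, n j)
    (h1 : ((∑ j, n j : ℕ) : ℝ) ≤ ā * ((∑ j, n j : ℕ) - (∑ k ∈ univ.erase M.k1, q k : ℕ))) :
    |Φ (clsbFull M.k1 (q + Pi.single k 1) (∑ j, n j)) n - Φ (clsbFull M.k1 q (∑ j, n j)) n| ≤
      4 * M.Λ * ā := by
  have hΛ := hM.one_le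
  by_cases hk : k = M.k1
  · have : clsbFull M.k1 (q + Pi.single k 1) (∑ j, n j) = clsbFull M.k1 q (∑ j, n j) := by
      have e : ∑ k' ∈ univ.erase M.k1, (q + Pi.single k 1 : 𝒦 → ℕ) k' = ∑ k' ∈ univ.erase M.k1, q k' :=
        sum_congr rfl fun k' hk' => by simp [hk, ne_of_mem_erase hk']
      funext k'
      rw [clsbFull, clsbFull, e]
      by_cases h : k' = M.k1
      · simp [h]
      · simp [h, hk]
    rw [this, sub_self, abs_zero]
    positivity
  · obtain ⟨ν, hν⟩ := hH (∑ j, n j)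
    obtain ⟨blk, hb⟩ := clsb_real (Fin (∑ j, n j)) (clsbFull M.k1 q (∑ j, n j))
      (by rw [clsb_full_sum (by omega), Fintype.card_fin])
    obtain ⟨lab, hl⟩ := clsb_real (Fin (∑ j, n j)) n (by rw [Fintype.card_fin])
    have hc : cnt blk M.k1 = ∑ j, n j - ∑ k ∈ univ.erase M.k1, q k := by
      rw [hb, clsbFull, Function.update_self]
    obtain ⟨i, hi⟩ : (fib blk M.k1).Nonempty := card_pos.1 (by unfold cnt at hc; omega)
    have hi' := mem_fib.1 hi
    have h3 := cls_change (lab := lab) hM hQ hθ hν hi' k (ā := ā) (by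
      rw [hc, Fintype.card_fin, Nat.cast_sub (by omega)]; exact h1)
    have h4 : cnt (Function.update blk i k) = clsbFull M.k1 (q + Pi.single k 1) (∑ j, n j) := by
      have e : ∑ k' ∈ univ.erase M.k1, (q + Pi.single k 1 : 𝒦 → ℕ) k' =
          ∑ k' ∈ univ.erase M.k1, q k' + 1 := by
        simp [sum_add_distrib, Pi.single_apply, hk]
      funext k'
      have h5 := clsb_cnt_update blk i k k'
      rw [hi', hb] at h5
      rw [clsbFull, e]
      by_cases h : k' = M.k1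
      · subst h
        rw [Function.update_self]
        rw [clsbFull, Function.update_self, if_pos rfl, if_neg hk] at h5
        omega
      · rw [Function.update_of_ne h]
        rw [clsbFull, Function.update_of_ne h, if_neg (Ne.symm h)] at h5
        simp only [Pi.add_apply, Pi.single_apply, eq_comm (a := k')]
        omega
    rw [hΦ _ ν _ _ hν, hΦ _ ν _ _ hν, h4, hb, hl] at h3
    rw [abs_le]
    constructor <;> linarith [h3.1, h3.2, show 0 ≤ 4 * M.Λ * ā by positivity]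

theorem clsb_moveB (hH : HaarAll) {ā C : ℝ}
    (hΦ : ∀ (ι : Type) [Fintype ι] [DecidableEq ι]
      (ν : ProbabilityMeasure (OG ι)) (blk : ι → 𝒦) (lab : ι → Fin J), IsHaar ν →
      phi G ν (cls M G Q blk lab θ) = Φ (cnt blk) (cnt lab))
    (hg : ∀ (ι : Type) [Fintype ι] [DecidableEq ι]
      (ν : ProbabilityMeasure (OG ι)) (ν' : ProbabilityMeasure (OG (Option ι))) (blk : Option ι → 𝒦)
      (lab : Option ι → Fin J) (R : 𝒦 → Option ι), IsHaar ν → IsHaar ν' → (∀ k, blk (R k) = k) →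
      R M.k1 = none → (Fintype.card ι : ℝ) + 1 ≤ ā * (cnt blk M.k1 - 1 - Fintype.card 𝒦) →
      (Fintype.card ι : ℝ) ≤ 2 * Q.N0 → |phi G ν' (cls M G Q blk lab θ) -
          phi G ν (cls M G Q (baseBlk blk R M.k1) (fun i => lab (some i)) θ)| ≤ C)
    (q : 𝒦 → ℕ) (n : Fin J → ℕ) (j : Fin J)
    (h2 : ∑ k ∈ univ.erase M.k1, q k + Fintype.card 𝒦 ≤ ∑ j, n j + 1)
    (h1 : ((∑ j, n j : ℕ) : ℝ) + 1 ≤ ā * ((∑ j, n j : ℕ) - (∑ k ∈ univ.erase M.k1, q k : ℕ) -
      2 * Fintype.card 𝒦 + 1)) (h3 : ((∑ j, n j : ℕ) : ℝ) ≤ 2 * Q.N0) :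
    |Φ (clsbFull M.k1 (q + 1) (∑ j, n j + 1)) (n + Pi.single j 1) -
      Φ (clsbFull M.k1 q (∑ j, n j)) n| ≤ C := by
  classical
  have hK : 1 ≤ Fintype.card 𝒦 := Fintype.card_pos_iff.2 ⟨M.k1⟩
  have e : ∑ k' ∈ univ.erase M.k1, (q + 1 : 𝒦 → ℕ) k' =
      ∑ k' ∈ univ.erase M.k1, q k' + (Fintype.card 𝒦 - 1) := by
    simp [sum_add_distrib, card_erase_of_mem]
  obtain ⟨ν, hν⟩ := hH (∑ j, n j)
  obtain ⟨ν', hν'⟩ := hH.exists (Option (Fin (∑ j, n j)))
  obtain ⟨b0, hb⟩ := clsb_real (Fin (∑ j, n j)) (clsbFull M.k1 (q + 1) (∑ j, n j))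
    (by rw [clsb_full_sum (by omega), Fintype.card_fin])
  obtain ⟨l0, hl⟩ := clsb_real (Fin (∑ j, n j)) n (by rw [Fintype.card_fin])
  have hex : ∀ k, k ≠ M.k1 → ∃ i, b0 i = k := fun k hk => by
    have : 0 < cnt b0 k := by rw [hb, clsbFull, Function.update_of_ne hk]; simp
    obtain ⟨i, hi⟩ := card_pos.1 this
    exact ⟨i, mem_fib.1 hi⟩
  choose r hr using hex
  set blk : Option (Fin (∑ j, n j)) → 𝒦 := fun o => o.elim M.k1 b0 with hblk
  set lab : Option (Fin (∑ j, n j)) → Fin J := fun o => o.elim j l0 with hlab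
  set R : 𝒦 → Option (Fin (∑ j, n j)) := fun k => if h : k = M.k1 then none else some (r k h) with hRd
  have hR : ∀ k, blk (R k) = k := fun k => by
    by_cases h : k = M.k1
    · simp [hRd, hblk, h]
    · simp [hRd, hblk, h, hr]
  have hn : R M.k1 = none := by simp [hRd]
  have c1 : cnt blk = clsbFull M.k1 (q + 1) (∑ j, n j + 1) := by
    funext k
    have : cnt blk k = cnt b0 k + if M.k1 = k then 1 else 0 := clsb_cnt_opt blk k
    rw [this, hb, clsbFull, clsbFull, e]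
    by_cases h : k = M.k1
    · subst h
      rw [Function.update_self, Function.update_self, if_pos rfl]
      omega
    · rw [Function.update_of_ne h, Function.update_of_ne h, if_neg (Ne.symm h), add_zero]
  have c2 : cnt lab = n + Pi.single j 1 := by
    funext k
    have : cnt lab k = cnt l0 k + if j = k then 1 else 0 := clsb_cnt_opt lab k
    rw [this, hl, Pi.add_apply, Pi.single_apply]
    simp only [eq_comm]
  have c4 : (cnt blk M.k1 : ℝ) =
      (∑ j, n j : ℕ) + 2 - (∑ k ∈ univ.erase M.k1, q k : ℕ) - Fintype.card 𝒦 := by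
    have : cnt blk M.k1 + ∑ k ∈ univ.erase M.k1, q k + Fintype.card 𝒦 = ∑ j, n j + 2 := by
      rw [c1, clsbFull, Function.update_self, e]; omega
    have h5 := congrArg (Nat.cast (R := ℝ)) this
    simp only [Nat.cast_add, Nat.cast_ofNat] at h5
    linarith
  have c3 : cnt (baseBlk blk R M.k1) = clsbFull M.k1 q (∑ j, n j) := by
    funext k
    apply Nat.cast_injective (R := ℝ)
    rw [clsb_cnt_base hR hn k, clsbFull]
    by_cases h : k = M.k1
    · subst h
      rw [if_pos rfl, Function.update_self, Nat.cast_sub (by omega), c4]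
      ring
    · rw [if_neg h, Function.update_of_ne h, c1, clsbFull, Function.update_of_ne h]
      simp
  have h5 := hg _ ν ν' blk lab R hν hν' hR hn (by
    rw [Fintype.card_fin, c4]
    convert h1 using 2
    ring) (by rw [Fintype.card_fin]; exact h3)
  rw [hΦ _ ν' _ _ hν', hΦ _ ν _ _ hν, c1, c2, c3] at h5
  have c5 : cnt (fun i => lab (some i)) = n := hl
  rwa [c5] at h5

end moves

theorem cls_close (hM : M.OK) (hH : HaarAll) (L : ℝ) (Cn : ℕ) : ∃ C : ℝ, 0 ≤ C ∧ ∃ N₁ : ℝ,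
    ∀ (ι ι' : Type) [Fintype ι] [DecidableEq ι] [Fintype ι'] [DecidableEq ι'] (G : Grid) (Q : CP)
      (θ : ℕ ⊕ Fin J → ℝ) (ν : ProbabilityMeasure (OG ι)) (ν' : ProbabilityMeasure (OG ι'))
      (blk : ι → 𝒦) (lab : ι → Fin J) (blk' : ι' → 𝒦) (lab' : ι' → Fin J),
      Q.OK G → Q.L = L → N₁ ≤ Q.N0 → Box θ → IsHaar ν → IsHaar ν' → Reg M Q blk → Reg M Q blk' →
      (∀ k, |(cnt blk k : ℝ) - cnt blk' k| ≤ Cn) → (∀ j, |(cnt lab j : ℝ) - cnt lab' j| ≤ Cn) →
      |phi G ν' (cls M G Q blk' lab' θ) - phi G ν (cls M G Q blk lab θ)| ≤ C := by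
  have ha0 := hM.atom.a0_pos
  have hΛ := hM.one_le
  obtain ⟨Cg, hCg, hg⟩ := cls_grow hM L (4 / M.a0)
  have hā : 0 < 4 / M.a0 := by positivity
  set CA := 4 * M.Λ * (4 / M.a0) with hCA
  have hCA0 : 0 ≤ CA := by positivity
  set K := Fintype.card 𝒦 with hK
  refine ⟨2 * (CA * (K * Cn) + (CA * (K * (1 : ℕ)) + Cg) * (Fintype.card (Fin J) * Cn)), by positivity,
    8 / M.a0 * (J * Cn + 2 * K + 1), ?_⟩
  intro ι ι' _ _ _ _ G Q θ ν ν' blk lab blk' lab' hQ hL hN hθ hν hν' hreg hreg' hb hl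
  obtain ⟨Φ, hΦ⟩ := clsb_Phi M G Q θ
  have hε := hQ.ε_pos
  have hA := fun q n k => clsb_moveA hM hH hQ hθ hΦ hā.le q n k
  have hB := clsb_moveB (C := Cg) (ā := 4 / M.a0) hH hΦ (by
    intro ι _ _ ν ν' blk lab R h1 h2 h3 h4 h5 h6
    have := (hg ι G Q θ ν ν' blk lab R (fun _ => Q.ε ^ 2) 0 hQ hL hθ h1 h3 h4 hā h5 h6
      (fun _ _ => sq_nonneg _) (by
        have a3 : ((Ico 1 (G.n - 1)).card : ℝ) ≤ G.n := by
          rw [Nat.card_Ico]; exact_mod_cast (by omega)
        rw [sum_const, nsmul_eq_mul]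
        have a4 := mul_le_mul_of_nonneg_right a3 (sq_nonneg Q.ε)
        have a5 := mul_le_mul_of_nonneg_right hQ.ε_le hε.le
        nlinarith [hQ.ε_le']) (by simp)).2 h2
    rwa [probe_self hε.le] at this)
  have main : ∀ (p plo : 𝒦 → ℕ) (nl nlo : Fin J → ℕ), plo ≤ p → nlo ≤ nl → (∀ k, p k ≤ plo k + Cn) →
      (∀ j, nl j ≤ nlo j + Cn) → ∑ k, p k = ∑ j, nl j → Q.N0 / 2 ≤ (∑ j, nl j : ℕ) →
      ((∑ j, nl j : ℕ) : ℝ) ≤ 2 * Q.N0 → M.a0 / 2 * (∑ j, nl j : ℕ) ≤ p M.k1 →
      |Φ p nl - Φ (clsbFull M.k1 plo (∑ j, nlo j)) nlo| ≤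
        CA * (K * Cn) + (CA * (K * (1 : ℕ)) + Cg) * (Fintype.card (Fin J) * Cn) := by
    intro p plo nl nlo h1 h2 h3 h4 h5 h6 h7 h8
    set X : ℝ := ((∑ j, nl j : ℕ) : ℝ) with hX
    set P : ℝ := ((∑ k ∈ univ.erase M.k1, p k : ℕ) : ℝ) with hP
    have hXP : (p M.k1 : ℝ) = X - P := by
      rw [hX, hP, ← h5, ← add_sum_erase _ _ (mem_univ M.k1)]
      push_cast; ring
    have hX0 : 0 < X := by linarith [hQ.N0_ge]
    have hW : X ≤ 4 / M.a0 * (X - P - J * Cn - 2 * K - 1) := by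
      have b1 : 4 / M.a0 * (J * Cn + 2 * K + 1) ≤ X := by
        have : 8 / M.a0 * (J * Cn + 2 * K + 1) = 2 * (4 / M.a0 * (J * Cn + 2 * K + 1)) := by ring
        linarith
      have b2 : 2 * X ≤ 4 / M.a0 * (X - P) := by
        rw [← hXP]
        calc 2 * X = 4 / M.a0 * (M.a0 / 2 * X) := by field_simp; ring
          _ ≤ _ := mul_le_mul_of_nonneg_left h8 hā.le
      linarith
    have hW0 : 0 < X - P - J * Cn - 2 * K - 1 := (mul_pos_iff_of_pos_left hā).1 (hX0.trans_le hW)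
    have hK0 : (0 : ℝ) ≤ K := Nat.cast_nonneg _
    have hq : ∀ q : 𝒦 → ℕ, q ≤ p + 1 → ((∑ k ∈ univ.erase M.k1, q k : ℕ) : ℝ) ≤ P + K := by
      intro q hq
      have b1 : ∑ k ∈ univ.erase M.k1, q k ≤ ∑ k ∈ univ.erase M.k1, (p k + 1) := sum_le_sum fun k _ => hq k
      rw [sum_add_distrib, sum_const, smul_eq_mul, mul_one] at b1
      have b2 : (univ.erase M.k1).card ≤ K := card_le_univ _
      rw [hP]
      exact_mod_cast (by omega)
    have hn : ∀ n : Fin J → ℕ, nlo ≤ n → X - J * Cn ≤ (∑ j, n j : ℕ) := by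
      intro n hn
      have b1 : ∑ j, nl j ≤ ∑ j, (n j + Cn) := sum_le_sum fun j _ =>
        (h4 j).trans (Nat.add_le_add_right (hn j) _)
      rw [sum_add_distrib, sum_const, smul_eq_mul, card_univ, Fintype.card_fin] at b1
      rw [hX, sub_le_iff_le_add]
      exact_mod_cast b1
    have hn' : ∀ n : Fin J → ℕ, n ≤ nl → ((∑ j, n j : ℕ) : ℝ) ≤ X := fun n hn => by
      rw [hX]; exact_mod_cast sum_le_sum fun j _ => hn j
    have hA' : ∀ (q : 𝒦 → ℕ) (n : Fin J → ℕ) k, q ≤ p + 1 → nlo ≤ n → n ≤ nl →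
        |Φ (clsbFull M.k1 (q + Pi.single k 1) (∑ j, n j)) n - Φ (clsbFull M.k1 q (∑ j, n j)) n| ≤ CA := by
      intro q n k b1 b2 b3
      have c1 := hq q b1
      have c2 := hn n b2
      have c3 := hn' n b3
      refine hA q n k ?_ (c3.trans (hW.trans (mul_le_mul_of_nonneg_left (by linarith) hā.le)))
      have : ((∑ k ∈ univ.erase M.k1, q k : ℕ) : ℝ) + 1 ≤ (∑ j, n j : ℕ) := by linarith
      exact_mod_cast this
    have hle : ∀ {q d p' : 𝒦 → ℕ}, q + d ≤ p' → q ≤ p' := fun h => le_self_add.trans h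
    have hp1 : p ≤ p + 1 := le_self_add
    have hp2 : plo + 1 ≤ p + 1 := fun k => Nat.add_le_add_right (h1 k) 1
    have s1 := clsb_path' (fun q => Φ (clsbFull M.k1 q (∑ j, nl j)) nl) hCA0 h1 h3
      fun q k _ b2 => hA' q nl k ((hle b2).trans hp1) h2 le_rfl
    have step : ∀ (n : Fin J → ℕ) (j : Fin J), nlo ≤ n → n + Pi.single j 1 ≤ nl →
        |Φ (clsbFull M.k1 plo (∑ j', (n + Pi.single j 1 : Fin J → ℕ) j')) (n + Pi.single j 1) -
          Φ (clsbFull M.k1 plo (∑ j, n j)) n| ≤ CA * (K * (1 : ℕ)) + Cg := by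
      intro n j b1 b2
      have e : ∑ j', (n + Pi.single j 1 : Fin J → ℕ) j' = ∑ j, n j + 1 := by simp [sum_add_distrib]
      have c1' : ((∑ k ∈ univ.erase M.k1, plo k : ℕ) : ℝ) ≤ P := by
        rw [hP]; exact_mod_cast sum_le_sum fun k _ => h1 k
      have c2 := hn n b1
      have c3 := hn' _ b2
      rw [e, Nat.cast_add, Nat.cast_one] at c3
      have b3 : nlo ≤ n + Pi.single j 1 := b1.trans le_self_add
      have t2 := hB plo n j (by
        have : ((∑ k ∈ univ.erase M.k1, plo k : ℕ) : ℝ) + K ≤ (∑ j, n j : ℕ) + 1 := by linarith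
        exact_mod_cast this)
        (c3.trans (hW.trans (mul_le_mul_of_nonneg_left (by linarith) hā.le))) (by linarith)
      rw [← e] at t2
      generalize n + Pi.single j 1 = n' at b2 b3 t2 ⊢
      have t1 := clsb_path' (fun q => Φ (clsbFull M.k1 q (∑ j', n' j')) n') hCA0 (lo := plo)
        (hi := plo + 1) le_self_add (B := 1) (fun _ => le_rfl)
        fun q k _ b4 => hA' q n' k ((hle b4).trans hp2) b3 b2
      have t3 := abs_sub_le (Φ (clsbFull M.k1 plo (∑ j', n' j')) n')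
        (Φ (clsbFull M.k1 (plo + 1) (∑ j', n' j')) n') (Φ (clsbFull M.k1 plo (∑ j, n j)) n)
      rw [abs_sub_comm] at t1
      exact t3.trans (add_le_add t1 t2)
    have s2 := clsb_path' (fun n => Φ (clsbFull M.k1 plo (∑ j, n j)) n)
      (C := CA * (K * (1 : ℕ)) + Cg) (by positivity) h2 h4 step
    have e0 : clsbFull M.k1 p (∑ j, nl j) = p := by rw [← h5, clsb_full_self]
    rw [e0] at s1
    exact (abs_sub_le _ _ _).trans (add_le_add s1 s2)
  have aux : ∀ {a b : ℕ}, |(a : ℝ) - b| ≤ Cn → a ≤ min a b + Cn ∧ b ≤ min a b + Cn := by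
    intro a b h
    rw [abs_le] at h
    have h1 : a ≤ b + Cn := by exact_mod_cast (show (a : ℝ) ≤ b + Cn by linarith [h.2])
    have h2 : b ≤ a + Cn := by exact_mod_cast (show (b : ℝ) ≤ a + Cn by linarith [h.1])
    omega
  have m1 := main (cnt blk) (cnt blk ⊓ cnt blk') (cnt lab) (cnt lab ⊓ cnt lab') inf_le_left inf_le_left
    (fun k => (aux (hb k)).1) (fun j => (aux (hl j)).1) (by rw [sum_cnt, sum_cnt])
    (by rw [sum_cnt]; exact hreg.lo) (by rw [sum_cnt]; exact hreg.hi) (by rw [sum_cnt]; exact hreg.blk _)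
  have m2 := main (cnt blk') (cnt blk ⊓ cnt blk') (cnt lab') (cnt lab ⊓ cnt lab') inf_le_right inf_le_right
    (fun k => (aux (hb k)).2) (fun j => (aux (hl j)).2) (by rw [sum_cnt, sum_cnt])
    (by rw [sum_cnt]; exact hreg'.lo) (by rw [sum_cnt]; exact hreg'.hi) (by rw [sum_cnt]; exact hreg'.blk _)
  rw [hΦ _ ν _ _ hν, hΦ _ ν' _ _ hν']
  rw [abs_le] at m1 m2 ⊢
  constructor <;> linarith [m1.1, m1.2, m2.1, m2.2]

theorem cls_pin (hM : M.OK) (hH : HaarAll) (L : ℝ) (Cn : ℕ) {η' : ℝ} (hη : 0 < η') :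
    ∃ η'' : ℝ, 0 < η'' ∧ η'' ≤ η' ∧ ∃ C' : ℝ, 0 ≤ C' ∧
    ∀ (ι ι' : Type) [Fintype ι] [DecidableEq ι] [Fintype ι'] [DecidableEq ι'] (G : Grid) (Q : CP)
      (θ : ℕ ⊕ Fin J → ℝ) (ν : ProbabilityMeasure (OG ι)) (ν' : ProbabilityMeasure (OG ι'))
      (blk : ι → 𝒦) (lab : ι → Fin J) (blk' : ι' → 𝒦) (lab' : ι' → Fin J) (a : ℕ → ℝ) (P : PP),
      Q.OK G → Q.L = L → 1 / η'' ≤ Q.N0 → Box1 θ → P.σ ≤ Q.ε / 2 → IsHaar ν → IsHaar ν' →
      Reg M Q blk → Reg M Q blk' →
      (∀ k, |(cnt blk k : ℝ) - cnt blk' k| ≤ Cn) → (∀ j, |(cnt lab j : ℝ) - cnt lab' j| ≤ Cn) →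
      Pin G ν (cls M G Q blk lab θ) (fib blk M.k0) a (4 / M.a0) P η'' →
      Pin G ν' (cls M G Q blk' lab' θ) (fib blk' M.k0) a (4 / M.a0) { P with e := P.e + C' } η' ∧
      ∀ j z, Sec G ν (cls M G Q blk lab θ) (dirP (mg lab j)) z P.σ P.e →
        Sec G ν' (cls M G Q blk' lab' θ) (dirP (mg lab' j)) z P.σ (P.e + C') := by
  obtain ⟨C, hC, N₁, hclose⟩ := cls_close hM hH L Cn
  obtain ⟨η₀, hη₀, hη₀', C₂, hC₂, htr⟩ := pin_transfer (C := max C Cn) (ā := 4 / M.a0) hη
    (hC.trans (le_max_left _ _))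
  have hCC : C ≤ C₂ := (le_max_left _ _).trans hC₂
  have hpos : 0 < min η₀ (1 / max N₁ 1) := lt_min hη₀ (by positivity)
  refine ⟨min η₀ (1 / max N₁ 1), hpos, (min_le_left _ _).trans hη₀', 3 * C₂, by linarith, ?_⟩
  intro ι ι' _ _ _ _ G Q θ ν ν' blk lab blk' lab' a P hQ hL hN hθ hσ hν hν' hreg hreg' hb hl hpin
  have hε := hQ.ε_pos
  have ha0 := hM.atom.a0_pos
  have hN₁ : N₁ ≤ Q.N0 := by
    refine (le_max_left N₁ 1).trans (le_trans ?_ hN)
    rw [le_div_iff₀ hpos, ← le_div_iff₀' (by positivity)]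
    exact min_le_right _ _
  have hbox : ∀ d (s : ℝ), |s| ≤ Q.ε / 2 → Box (Function.update θ d (θ d + s / Q.ε)) := by
    intro d s hs d'
    rw [Function.update_apply]
    split_ifs
    · have h1 := hθ d
      have h2 : |s / Q.ε| ≤ 1 / 2 := by
        rw [abs_div, abs_of_pos hε, div_le_iff₀ hε]; linarith
      have h3 := abs_le.1 h2
      constructor <;> linarith [h1.1, h1.2, h3.1, h3.2]
    · have h1 := hθ d'
      constructor <;> linarith [h1.1, h1.2]
  have hcl : ∀ θ', Box θ' → |phi G ν' (cls M G Q blk' lab' θ') - phi G ν (cls M G Q blk lab θ') - 0| ≤ C :=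
    fun θ' h => by
      rw [sub_zero]
      exact hclose ι ι' G Q θ' ν ν' blk lab blk' lab' hQ hL hN₁ h hν hν' hreg hreg' hb hl
  have hσ0 := hpin.tiny.σ_pos
  have hσ1 : |P.σ| ≤ Q.ε / 2 := by rwa [abs_of_pos hσ0]
  have hσ2 : |-P.σ| ≤ Q.ε / 2 := by rwa [abs_neg]
  constructor
  · have hne : (fib blk M.k0).Nonempty := by
      rw [← card_pos]
      have h1 := hreg.blk M.k0
      have h2 := hreg.lo
      have h3 := hQ.N0_ge
      have h4 : (0 : ℝ) < M.a0 / 2 * Fintype.card ι := mul_pos (by positivity) (by linarith)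
      exact_mod_cast h4.trans_le h1
    obtain ⟨i, hi⟩ := hne
    have ht := cls_top (M := M) (G := G) (Q := Q) (θ := θ) (blk := blk) (lab := lab)
    have ht' := cls_top (M := M) (G := G) (Q := Q) (θ := θ) (blk := blk') (lab := lab')
    refine htr ι ι' G ν ν' _ _ _ _ a P 0 ⟨hpin.top, hpin.card, hpin.path, hpin.sec,
      hpin.tiny.mono hpos (min_le_left _ _)⟩ ⟨fun i' hi' => ?_, fun l hl i' hi' => ?_⟩ ?_
      ((hb M.k0).trans (le_max_right _ _)) fun t ht => ?_
    · rw [ht'.lam i' hi', ← ht.lam i hi, hpin.top.lam i hi]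
    · rw [ht'.u l hl i' hi', ← hpin.top.u l hl i hi, ht.u l hl i hi]
    · have h1 := hreg'.blk M.k0
      have h2 : (0 : ℝ) ≤ Fintype.card ι' := Nat.cast_nonneg _
      rw [div_mul_eq_mul_div, le_div_iff₀ ha0]
      unfold cnt at h1
      nlinarith
    · have ht1 : |t| ≤ Q.ε / 2 := by
        rcases ht with rfl | rfl | rfl
        · rw [abs_zero]; positivity
        · exact hσ1
        · exact hσ2
      refine ⟨?_, fun l hl => ?_⟩
      · rw [cls_addL hε.ne', cls_addL hε.ne', sub_eq_add_neg (θ _), ← neg_div]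
        exact (hcl _ (hbox _ _ (by rwa [abs_neg]))).trans (le_max_left _ _)
      · have : l ≠ G.n := by have := (mem_Ico.1 hl).2; omega
        rw [cls_addU hε.ne' this, cls_addU hε.ne' this]
        exact (hcl _ (hbox _ _ ht1)).trans (le_max_left _ _)
  · intro j z hsec
    refine hsec.transfer (c := 0) ((hcl θ fun d => ?_).trans hCC) ?_ ?_ (by simp; linarith)
    · have h1 := hθ d
      constructor <;> linarith [h1.1, h1.2]
    · rw [cls_addP hε.ne', cls_addP hε.ne']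
      exact (hcl _ (hbox _ _ hσ1)).trans hCC
    · rw [cls_addP hε.ne', cls_addP hε.ne']
      exact (hcl _ (hbox _ _ hσ2)).trans hCC

end Crest.Agent.R164
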