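import Crest.Agent.R164.Gam
import Crest.Agent.Lib.PL.PrekopaLeindler

/-!
Row 164, task R164-GConc: Gaussian concentration for Lipschitz functions (Maurey's argument from Prekopa-Leindler).

PLAN.  WLOG `t = 1` (replace `f` by `t f`).  `hasPL_pi` (transport to `ι → ℝ` with `Fintype.equivFin`,
`volume_preserving_piCongrLeft`/`measurePreserving_piCongrLeft`) with `a = b = 1/2`, `F x = exp (f x - L² - |x|²/2)`,
`G y = exp (- f y - |y|²/2)`, `H z = exp (-|z|²/2)`: `f x - f y ≤ L |x - y| ≤ L² + |x-y|²/4` and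
`|x|²/2 + |y|²/2 = |x+y|²/4 + |x-y|²/4`.  So `∫ e^{f} dγ * ∫ e^{-f} dγ ≤ e^{L²}`; Jensen `∫ e^{-f} ≥ e^{-E f}`.
`gam` has density `Π gaussianPDF` w.r.t. `volume`.  Integrability from `|f x| ≤ |f 0| + L Σ|x i|`, `gam_exp`.
-/

set_option autoImplicit false
set_option linter.unusedSectionVars false

namespace Crest.Agent.R164

open MeasureTheory Finset

variable {ι : Type} [Fintype ι] {f : (ι → ℝ) → ℝ} {L : ℝ}

theorem glip_measurable (h : ∀ x y, |f x - f y| ≤ L * Real.sqrt (∑ i, (x i - y i) ^ 2)) : Measurable f := by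
  refine Continuous.measurable (continuous_iff_continuousAt.2 fun x => ?_)
  rw [ContinuousAt, tendsto_iff_dist_tendsto_zero]
  have hc : Continuous fun y : ι → ℝ => L * Real.sqrt (∑ i, (y i - x i) ^ 2) := by fun_prop
  have := hc.tendsto x
  simp only [sub_self, ne_eq, OfNat.ofNat_ne_zero, not_false_eq_true, zero_pow, sum_const_zero,
    Real.sqrt_zero, mul_zero] at this
  exact squeeze_zero (fun _ => dist_nonneg) (fun y => h y x) this

theorem glip_integrable_exp (h : ∀ x y, |f x - f y| ≤ L * Real.sqrt (∑ i, (x i - y i) ^ 2)) (t : ℝ) :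
    Integrable (fun x => Real.exp (t * f x)) (gam ι) := by
  classical
  refine ((gam_exp (ι := ι) (|t| * |L|)).const_mul (Real.exp (|t| * |f 0|))).mono'
    ((glip_measurable h).const_mul t).exp.aestronglyMeasurable (ae_of_all _ fun x => ?_)
  rw [Real.norm_eq_abs, abs_of_pos (Real.exp_pos _), ← Real.exp_add]
  refine Real.exp_le_exp.2 ?_
  have h1 := h x 0
  have h2 : Real.sqrt (∑ i, (x i - (0 : ι → ℝ) i) ^ 2) ≤ ∑ i, |x i| := by
    refine Real.sqrt_le_iff.2 ⟨Finset.sum_nonneg fun _ _ => abs_nonneg _, ?_⟩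
    have := Finset.sum_sq_le_sq_sum_of_nonneg (s := univ) (f := fun i => |x i|)
      fun _ _ => abs_nonneg _
    simpa only [sq_abs, Pi.zero_apply, sub_zero] using this
  have h3 : L * Real.sqrt (∑ i, (x i - (0 : ι → ℝ) i) ^ 2) ≤ |L| * ∑ i, |x i| :=
    (mul_le_mul_of_nonneg_right (le_abs_self L) (Real.sqrt_nonneg _)).trans
      (mul_le_mul_of_nonneg_left h2 (abs_nonneg _))
  have h4 : |f x| ≤ |f 0| + |L| * ∑ i, |x i| := by
    have := abs_sub_abs_le_abs_sub (f x) (f 0)
    linarith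
  calc t * f x ≤ |t| * |f x| := by rw [← abs_mul]; exact le_abs_self _
    _ ≤ |t| * (|f 0| + |L| * ∑ i, |x i|) := mul_le_mul_of_nonneg_left h4 (abs_nonneg _)
    _ = _ := by ring

theorem glip_integrable (h : ∀ x y, |f x - f y| ≤ L * Real.sqrt (∑ i, (x i - y i) ^ 2)) :
    Integrable f (gam ι) := by
  refine ((glip_integrable_exp h 1).add (glip_integrable_exp h (-1))).mono'
    (glip_measurable h).aestronglyMeasurable (ae_of_all _ fun x => ?_)
  simp only [Pi.add_apply, one_mul, neg_mul, Real.norm_eq_abs]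
  rw [abs_le]
  constructor
  · linarith [Real.add_one_le_exp (-f x), Real.exp_pos (f x)]
  · linarith [Real.add_one_le_exp (f x), Real.exp_pos (-f x)]

theorem GConc.gam_eq (ι : Type) [Fintype ι] : ∃ c : ℝ, gam ι =
    (volume : Measure (ι → ℝ)).withDensity fun g => ENNReal.ofReal (Real.exp (c - (∑ i, g i ^ 2) / 2)) := by
  classical
  refine ⟨Fintype.card ι * Real.log (Real.sqrt (2 * Real.pi))⁻¹, ?_⟩
  have e : ∀ g : ι → ℝ, Real.exp (Fintype.card ι * Real.log (Real.sqrt (2 * Real.pi))⁻¹ -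
      (∑ i, g i ^ 2) / 2) = ∏ i, ProbabilityTheory.gaussianPDFReal 0 1 (g i) := by
    intro g
    have hp : 0 < (Real.sqrt (2 * Real.pi))⁻¹ := by have := Real.pi_pos; positivity
    simp only [ProbabilityTheory.gaussianPDFReal, NNReal.coe_one, mul_one, sub_zero]
    rw [Finset.prod_mul_distrib, Finset.prod_const, Finset.card_univ, ← Real.exp_sum, sub_eq_add_neg,
      Real.exp_add, mul_comm (Fintype.card ι : ℝ), Real.exp_mul, Real.exp_log hp, Real.rpow_natCast]
    congr 2
    rw [Finset.sum_div, ← Finset.sum_neg_distrib]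
    exact Finset.sum_congr rfl fun i _ => by ring
  simp only [e]
  refine Measure.pi_eq fun s hs => ?_
  have hi := ProbabilityTheory.integrable_gaussianPDFReal 0 1
  rw [withDensity_apply _ (MeasurableSet.univ_pi hs), volume_pi, Measure.restrict_pi_pi,
    ← ofReal_integral_eq_lintegral_ofReal
    (Integrable.fintype_prod (f := fun (_ : ι) (x : ℝ) => ProbabilityTheory.gaussianPDFReal 0 1 x)
      fun i => hi.restrict)
    (ae_of_all _ fun g => prod_nonneg fun i _ => ProbabilityTheory.gaussianPDFReal_nonneg _ _ _),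
    integral_fintype_prod_eq_prod (f := fun (_ : ι) (x : ℝ) => ProbabilityTheory.gaussianPDFReal 0 1 x),
    ENNReal.ofReal_prod_of_nonneg fun i _ =>
      integral_nonneg fun x => ProbabilityTheory.gaussianPDFReal_nonneg _ _ _]
  refine prod_congr rfl fun i _ => ?_
  rw [ProbabilityTheory.gaussianReal_apply_eq_integral 0 one_ne_zero]

theorem GConc.hasPL (ι : Type) [Fintype ι] :
    Crest.Agent.Lib.PL.HasPL (1 / 2) (1 / 2) (volume : Measure (ι → ℝ)) := by
  refine (Crest.Agent.Lib.PL.hasPL_pi (by norm_num) (by norm_num) (by norm_num) (Fintype.card ι)).map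
    _ (volume_preserving_arrowCongr' (Fintype.equivFin ι).symm (MeasurableEquiv.refl ℝ)
      (MeasurePreserving.id _)) fun x y => rfl

theorem GConc.one (h : ∀ x y, |f x - f y| ≤ L * Real.sqrt (∑ i, (x i - y i) ^ 2)) :
    ∫ x, Real.exp (f x) ∂gam ι ≤ Real.exp (∫ x, f x ∂gam ι + L ^ 2) := by
  obtain ⟨c, hc⟩ := GConc.gam_eq ι
  have hf := glip_measurable h
  have hQ : Measurable fun g : ι → ℝ => c - (∑ i, g i ^ 2) / 2 := by fun_prop
  have hρ : Measurable fun g : ι → ℝ => ENNReal.ofReal (Real.exp (c - (∑ i, g i ^ 2) / 2)) :=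
    hQ.exp.ennreal_ofReal
  have key := GConc.hasPL ι
    (fun x => ENNReal.ofReal (Real.exp ((c - (∑ i, x i ^ 2) / 2) + (f x - L ^ 2))))
    (fun x => ENNReal.ofReal (Real.exp ((c - (∑ i, x i ^ 2) / 2) + (-f x))))
    (fun x => ENNReal.ofReal (Real.exp (c - (∑ i, x i ^ 2) / 2)))
    (hQ.add (hf.sub_const _)).exp.ennreal_ofReal (hQ.add hf.neg).exp.ennreal_ofReal hρ (by
      intro x y
      rw [ENNReal.ofReal_rpow_of_pos (Real.exp_pos _), ENNReal.ofReal_rpow_of_pos (Real.exp_pos _),
        ← ENNReal.ofReal_mul (by positivity), ← Real.exp_mul, ← Real.exp_mul, ← Real.exp_add]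
      refine ENNReal.ofReal_le_ofReal (Real.exp_le_exp.2 ?_)
      have h1 : ∑ i, ((1 / 2 : ℝ) • x + (1 / 2 : ℝ) • y) i ^ 2 =
          (∑ i, x i ^ 2) / 2 + (∑ i, y i ^ 2) / 2 - (∑ i, (x i - y i) ^ 2) / 4 := by
        simp only [Finset.sum_div, ← Finset.sum_add_distrib, ← Finset.sum_sub_distrib]
        refine Finset.sum_congr rfl fun i _ => ?_
        simp only [Pi.add_apply, Pi.smul_apply, smul_eq_mul]
        ring
      have h2 := (le_abs_self _).trans (h x y)
      have h3 := Real.sq_sqrt (Finset.sum_nonneg fun i (_ : i ∈ univ) => sq_nonneg (x i - y i))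
      rw [h1]
      nlinarith [sq_nonneg (L - Real.sqrt (∑ i, (x i - y i) ^ 2) / 2)])
  have conv : ∀ k : (ι → ℝ) → ℝ, Measurable k → Integrable (fun x => Real.exp (k x)) (gam ι) →
      ∫⁻ x, ENNReal.ofReal (Real.exp ((c - (∑ i, x i ^ 2) / 2) + k x)) =
        ENNReal.ofReal (∫ x, Real.exp (k x) ∂gam ι) := by
    intro k hk hi
    rw [ofReal_integral_eq_lintegral_ofReal hi (ae_of_all _ fun _ => (Real.exp_pos _).le), hc,
      lintegral_withDensity_eq_lintegral_mul _ hρ hk.exp.ennreal_ofReal]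
    refine lintegral_congr fun x => ?_
    rw [Real.exp_add, ENNReal.ofReal_mul (Real.exp_pos _).le]
    rfl
  have i1 : Integrable (fun x => Real.exp (f x)) (gam ι) := by
    simpa using glip_integrable_exp h 1
  have i2 : Integrable (fun x => Real.exp (-f x)) (gam ι) := by
    simpa using glip_integrable_exp h (-1)
  have i3 : Integrable (fun x => Real.exp (f x - L ^ 2)) (gam ι) := by
    simp only [Real.exp_sub]; exact i1.div_const _
  have e3 : ∫⁻ x : ι → ℝ, ENNReal.ofReal (Real.exp (c - (∑ i, x i ^ 2) / 2)) = 1 := by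
    have := measure_univ (μ := gam ι)
    rwa [hc, withDensity_apply _ MeasurableSet.univ, Measure.restrict_univ] at this
  rw [conv _ (hf.sub_const _) i3, conv (fun x => -f x) hf.neg i2, e3,
    ← ENNReal.mul_rpow_of_nonneg _ _ (by norm_num),
    ← ENNReal.ofReal_mul (integral_nonneg fun _ => (Real.exp_pos _).le)] at key
  have k2 : (∫ x, Real.exp (f x - L ^ 2) ∂gam ι) * ∫ x, Real.exp (-f x) ∂gam ι ≤ 1 := by
    rw [← ENNReal.ofReal_le_one]
    by_contra hlt
    exact absurd key (not_le.2 (ENNReal.one_lt_rpow (not_le.1 hlt) (by norm_num)))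
  set m := ∫ x, f x ∂gam ι with hm
  have k3 : Real.exp (-m) ≤ ∫ x, Real.exp (-f x) ∂gam ι := by
    have hi := glip_integrable h
    have i4 : Integrable (fun x => 1 + m - f x) (gam ι) := (integrable_const _).sub hi
    calc Real.exp (-m) = ∫ x, Real.exp (-m) * (1 + m - f x) ∂gam ι := by
          rw [integral_const_mul, integral_sub (integrable_const _) hi]
          simp [hm]
      _ ≤ _ := by
          refine integral_mono (i4.const_mul _) i2 fun x => ?_
          have := Real.add_one_le_exp (m - f x)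
          calc Real.exp (-m) * (1 + m - f x) ≤ Real.exp (-m) * Real.exp (m - f x) :=
                mul_le_mul_of_nonneg_left (by linarith) (Real.exp_pos _).le
            _ = _ := by rw [← Real.exp_add]; congr 1; ring
  simp only [Real.exp_sub, integral_div] at k2
  have hA : 0 ≤ ∫ x, Real.exp (f x) ∂gam ι := integral_nonneg fun _ => (Real.exp_pos _).le
  have k4 : (∫ x, Real.exp (f x) ∂gam ι) / Real.exp (L ^ 2) * Real.exp (-m) ≤ 1 :=
    (mul_le_mul_of_nonneg_left k3 (by positivity)).trans k2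
  rw [Real.exp_neg, ← div_eq_mul_inv, div_div, div_le_one (by positivity)] at k4
  rw [Real.exp_add, mul_comm]
  exact k4

theorem gconc_exp (h : ∀ x y, |f x - f y| ≤ L * Real.sqrt (∑ i, (x i - y i) ^ 2)) (t : ℝ) :
    ∫ x, Real.exp (t * f x) ∂gam ι ≤ Real.exp (t * ∫ x, f x ∂gam ι + t ^ 2 * L ^ 2) := by
  have := GConc.one (f := fun x => t * f x) (L := |t| * L) (fun x y => by
    rw [← mul_sub, abs_mul, mul_assoc]
    exact mul_le_mul_of_nonneg_left (h x y) (abs_nonneg _))
  rwa [integral_const_mul, mul_pow, sq_abs] at this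

theorem gconc_tail (h : ∀ x y, |f x - f y| ≤ L * Real.sqrt (∑ i, (x i - y i) ^ 2)) (hL : 0 < L) {s : ℝ}
    (hs : 0 ≤ s) :
    (gam ι).real {x | f x ≤ ∫ x, f x ∂gam ι - s} ≤ Real.exp (-s ^ 2 / (4 * L ^ 2)) := by
  have ht : -(s / (2 * L ^ 2)) ≤ 0 := neg_nonpos.2 (by positivity)
  refine (ProbabilityTheory.measure_le_le_exp_mul_mgf _ ht (glip_integrable_exp h _)).trans ?_
  refine (mul_le_mul_of_nonneg_left (gconc_exp h _) (Real.exp_pos _).le).trans ?_
  rw [← Real.exp_add]
  refine le_of_eq ?_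
  congr 1
  field_simp
  ring

end Crest.Agent.R164
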