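import Crest.Agent.R164.Flag
import Crest.Agent.R164.GConc

/-!
Row 164, task R164-Conc: lower tail of the log-partition function in terms of a small exponential moment for a slightly
smaller spectrum.

PLAN.  Sort both spectra decreasingly (`Tuple.sort`, `IsHaar.re` with `e₂ = refl`, `fN_reOG`) and extend them to antitone
`l l' : ℕ → ℝ` by `-Λ` beyond `N`.  `r = ⌈η N⌉`; the counting hypothesis (`3 η N ≥ 2 r` for large `N`) gives
`l' k = -Λ` for `k + 2r ≥ N` and `l' k ≤ l (k + r)`.  (If `η ≥ 1/3` all `lam' = -Λ`; the general argument still works, or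
WLOG via `r ≤ N`.)  With `f = freg`, `L = Λ √(N/δ)`, `m = ∫ f dγ`:
`ν {fN lam ≤ m - s} = ν {U | fN lam (O_A U) ≤ m - s} ≤ ν {U | f (rotA U A) ≤ m - s}` for every `A` (`freg_le`, `IsHaar.linv`
with `ω = 0`); integrate over `A`, Fubini, `rotA_mp`, `gconc_tail`.  For `A ∈ S` (`ssv` with `M = N - r`):
`∫ exp (y fN lam') dν ≤ exp (y Λ δ N/(2c)) ∫ exp (y f (rotA U A)) dν(U)`; integrate over `S`, Fubini, `gconc_exp`.
Choose `δ` with `Λ δ/(2c) ≤ η`, then `y` with `y Λ²/δ ≤ η`, `N₀` with `log 2 / y ≤ η N`, `s = η N`.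
-/

set_option autoImplicit false

namespace Crest.Agent.R164

open MeasureTheory Finset

namespace ConcA

variable {N : ℕ}

theorem exists_sort {Λ : ℝ} (hΛ : 0 < Λ) (lam : Fin N → ℝ) (h : ∀ i, lam i ∈ Set.Icc (-Λ) 0) :
    ∃ (e : Fin N ≃ Fin N) (l : ℕ → ℝ), Antitone l ∧ (∀ k, l k ∈ Set.Icc (-Λ) 0) ∧
      (∀ i : Fin N, l i.val = lam (e i)) ∧ ∀ k, N ≤ k → l k = -Λ := by
  refine ⟨Tuple.sort fun i => -lam i,
    fun k => if hk : k < N then lam (Tuple.sort (fun i => -lam i) ⟨k, hk⟩) else -Λ, ?_, ?_, ?_, ?_⟩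
  · intro a b hab
    dsimp only
    by_cases hb : b < N
    · have ha : a < N := lt_of_le_of_lt hab hb
      rw [dif_pos hb, dif_pos ha]
      have := Tuple.monotone_sort (fun i => -lam i) (show (⟨a, ha⟩ : Fin N) ≤ ⟨b, hb⟩ from hab)
      simpa using this
    · rw [dif_neg hb]
      split_ifs
      · exact (h _).1
      · exact le_rfl
  · intro k
    dsimp only
    split_ifs
    · exact h _
    · exact ⟨le_rfl, by linarith⟩
  · intro i
    simp
  · intro k hk
    exact dif_neg (by omega)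

theorem card_eq (e : Fin N ≃ Fin N) {lam : Fin N → ℝ} {l : ℕ → ℝ} (h : ∀ i : Fin N, l i.val = lam (e i))
    (t : ℝ) : (univ.filter fun i : Fin N => t ≤ l i.val).card = (univ.filter fun i => t ≤ lam i).card :=
  Finset.card_equiv e fun i => by simp [h]

theorem card_ge {l : ℕ → ℝ} (hl : Antitone l) {k : ℕ} (hk : k < N) :
    k + 1 ≤ (univ.filter fun i : Fin N => l k ≤ l i.val).card := by
  rw [← Fin.card_Iic ⟨k, hk⟩]
  exact card_le_card fun i hi => mem_filter.2 ⟨mem_univ _, hl (show i.val ≤ k from (mem_Iic (a := (⟨k, hk⟩ : Fin N))).1 hi)⟩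

theorem card_le {l : ℕ → ℝ} (hl : Antitone l) {k : ℕ} {t : ℝ} (h : l k < t) :
    (univ.filter fun i : Fin N => t ≤ l i.val).card ≤ k := by
  rw [← card_range k]
  refine card_le_card_of_injOn (fun i => i.val) (fun i hi => ?_) fun i _ j _ e => Fin.ext e
  rw [mem_coe, mem_filter] at hi
  rw [mem_coe, mem_range]
  by_contra hk
  exact absurd (hi.2.trans (hl (not_lt.1 hk))) (not_le.2 h)

theorem mp_left {ν : ProbabilityMeasure (OG (Fin N))} (h : IsHaar ν) (O : OG (Fin N)) :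
    MeasurePreserving (fun U => O * U) (ν : Measure (OG (Fin N))) ν :=
  ⟨measurable_mul_OG.comp (measurable_const.prodMk measurable_id), h.linv 0 O (by simp)⟩

theorem lint_rot (ν : ProbabilityMeasure (OG (Fin N))) {g : (Fin N × Fin N → ℝ) → ENNReal}
    (hg : Measurable g) :
    ∫⁻ A, ∫⁻ U, g (rotA U A) ∂(ν : Measure (OG (Fin N))) ∂gam (Fin N × Fin N) =
      ∫⁻ A, g A ∂gam (Fin N × Fin N) := by
  rw [← lintegral_lintegral_swap (f := fun U A => g (rotA U A)) (hg.comp measurable_rotA).aemeasurable]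
  simp only [fun U => (rotA_mp U).lintegral_comp hg, lintegral_const, measure_univ, mul_one]

theorem tail {ν : ProbabilityMeasure (OG (Fin N))} (h : IsHaar ν) {F : OG (Fin N) → ℝ}
    (hF : Measurable F) {f : (Fin N × Fin N → ℝ) → ℝ} (hf : Measurable f)
    (hle : ∀ A, ∃ O : OG (Fin N), ∀ U, f (rotA U A) ≤ F (O * U)) (a : ℝ) :
    (ν : Measure (OG (Fin N))).real {U | F U ≤ a} ≤ (gam (Fin N × Fin N)).real {A | f A ≤ a} := by
  have hS : MeasurableSet {A | f A ≤ a} := measurableSet_le hf measurable_const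
  refine ENNReal.toReal_mono (measure_ne_top _ _) ?_
  rw [← lintegral_indicator_one hS, ← lint_rot ν (measurable_one.indicator hS)]
  calc (ν : Measure (OG (Fin N))) {U | F U ≤ a}
      = ∫⁻ _, (ν : Measure (OG (Fin N))) {U | F U ≤ a} ∂gam (Fin N × Fin N) := by simp
    _ ≤ _ := by
      refine lintegral_mono fun A => ?_
      obtain ⟨O, hO⟩ := hle A
      have hT : MeasurableSet {U | F U ≤ a} := measurableSet_le hF measurable_const
      rw [← (mp_left h O).measure_preimage hT.nullMeasurableSet,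
        ← lintegral_indicator_one ((mp_left h O).measurable hT)]
      refine lintegral_mono fun U => ?_
      by_cases hU : F (O * U) ≤ a
      · rw [Set.indicator_of_mem (show rotA U A ∈ {A | f A ≤ a} from (hO U).trans hU)]
        exact Set.indicator_le_self _ _ U
      · rw [Set.indicator_of_notMem (show U ∉ (fun U => O * U) ⁻¹' {U | F U ≤ a} from hU)]
        exact zero_le

theorem moment {ν : ProbabilityMeasure (OG (Fin N))} (h : IsHaar ν) {F : OG (Fin N) → ℝ}
    (hF : Measurable F) {f : (Fin N × Fin N → ℝ) → ℝ} (hf : Measurable f)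
    (hfi : Integrable (fun A => Real.exp (f A)) (gam (Fin N × Fin N)))
    {S : Set (Fin N × Fin N → ℝ)} (hS : MeasurableSet S) (hS2 : 1 / 2 ≤ (gam (Fin N × Fin N)).real S)
    (hle : ∀ A ∈ S, ∃ O : OG (Fin N), ∀ U, F (O * U) ≤ f (rotA U A)) :
    ∫ U, Real.exp (F U) ∂(ν : Measure (OG (Fin N))) ≤ 2 * ∫ A, Real.exp (f A) ∂gam (Fin N × Fin N) := by
  have hI0 : 0 ≤ ∫ U, Real.exp (F U) ∂(ν : Measure (OG (Fin N))) :=
    integral_nonneg fun _ => (Real.exp_pos _).le
  have hJ0 : 0 ≤ ∫ A, Real.exp (f A) ∂gam (Fin N × Fin N) :=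
    integral_nonneg fun _ => (Real.exp_pos _).le
  have h1 : ENNReal.ofReal (∫ U, Real.exp (F U) ∂(ν : Measure (OG (Fin N)))) ≤
      ∫⁻ U, ENNReal.ofReal (Real.exp (F U)) ∂(ν : Measure (OG (Fin N))) := by
    rw [integral_eq_lintegral_of_nonneg_ae (Filter.Eventually.of_forall fun _ => (Real.exp_pos _).le)
      hF.exp.aestronglyMeasurable]
    exact ENNReal.ofReal_toReal_le
  have h2 : ENNReal.ofReal (∫ U, Real.exp (F U) ∂(ν : Measure (OG (Fin N)))) *
      gam (Fin N × Fin N) S ≤ ENNReal.ofReal (∫ A, Real.exp (f A) ∂gam (Fin N × Fin N)) := by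
    rw [ofReal_integral_eq_lintegral_ofReal hfi
      (Filter.Eventually.of_forall fun _ => (Real.exp_pos _).le),
      ← lint_rot ν hf.exp.ennreal_ofReal, ← setLIntegral_const]
    refine le_trans (setLIntegral_mono' hS fun A hA => h1.trans ?_) (setLIntegral_le_lintegral _ _)
    obtain ⟨O, hO⟩ := hle A hA
    rw [← (mp_left h O).lintegral_comp hF.exp.ennreal_ofReal]
    exact lintegral_mono fun U => ENNReal.ofReal_le_ofReal (Real.exp_le_exp.2 (hO U))
  have h3 := ENNReal.toReal_mono ENNReal.ofReal_ne_top h2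
  rw [ENNReal.toReal_mul, ENNReal.toReal_ofReal hI0, ENNReal.toReal_ofReal hJ0] at h3
  have h4 := mul_le_mul_of_nonneg_left hS2 hI0
  rw [measureReal_def] at h4
  linarith

theorem conc1 {Λ η : ℝ} (hΛ : 0 < Λ) (hη : 0 < η) (hη1 : η ≤ 1) :
    ∃ y : ℝ, 0 < y ∧ y < 1 ∧ ∃ κ : ℝ, 0 < κ ∧ ∃ N₀ : ℕ,
    ∀ N : ℕ, N₀ ≤ N → ∀ ν : ProbabilityMeasure (OG (Fin N)), IsHaar ν →
    ∀ (lam lam' : Fin N → ℝ) (pot : (Fin N → Bool) → ℝ),
      (∀ i, lam i ∈ Set.Icc (-Λ) 0) → (∀ i, lam' i ∈ Set.Icc (-Λ) 0) →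
      (∀ i', -Λ < lam' i' → ((univ.filter fun i => lam' i' ≤ lam' i).card : ℝ) + 3 * η * N ≤
        (univ.filter fun i => lam' i' ≤ lam i).card) →
      (ν : Measure (OG (Fin N))).real {U | fN lam pot U ≤
        y⁻¹ * Real.log (∫ U, Real.exp (y * fN lam' pot U) ∂(ν : Measure (OG (Fin N)))) - 4 * η * N} ≤
        Real.exp (-κ * N) := by
  obtain ⟨c, hc, N₁, hssv⟩ := ssv hη
  obtain ⟨δ, hδ, hδ1⟩ : ∃ δ : ℝ, 0 < δ ∧ Λ * δ / (2 * c) = η :=
    ⟨2 * c * η / Λ, by positivity, by field_simp⟩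
  obtain ⟨y, hy, hy1, hy2⟩ : ∃ y : ℝ, 0 < y ∧ y < 1 ∧ y * Λ ^ 2 / δ ≤ η := by
    refine ⟨min (1 / 2) (η * δ / Λ ^ 2), by positivity, (min_le_left _ _).trans_lt (by norm_num), ?_⟩
    rw [div_le_iff₀ hδ, ← le_div_iff₀ (by positivity)]
    exact min_le_right _ _
  refine ⟨y, hy, hy1, η ^ 2 * δ / (4 * Λ ^ 2), by positivity,
    max N₁ (max ⌈1 / η⌉₊ ⌈Real.log 2 / (y * η)⌉₊), fun N hN ν hν lam lam' pot hl hl' hcnt => ?_⟩
  have hN1 : 1 ≤ η * N := by
    have : 1 / η ≤ N := Nat.ceil_le.1 ((le_max_left _ _).trans ((le_max_right _ _).trans hN))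
    rw [div_le_iff₀ hη] at this
    linarith
  have hN2 : Real.log 2 ≤ y * (η * N) := by
    have : Real.log 2 / (y * η) ≤ N :=
      Nat.ceil_le.1 ((le_max_right _ _).trans ((le_max_right _ _).trans hN))
    rw [div_le_iff₀ (by positivity)] at this
    linarith
  have hN0 : (0 : ℝ) < N := by
    by_contra h
    have : (N : ℝ) = 0 := le_antisymm (not_lt.1 h) (Nat.cast_nonneg _)
    rw [this] at hN1
    linarith
  obtain ⟨e, l, hla, hlm, hle, hlN⟩ := exists_sort hΛ lam hl
  obtain ⟨e', l', hla', hlm', hle', hlN'⟩ := exists_sort hΛ lam' hl'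
  obtain ⟨r, hr1, hr2, hr3⟩ : ∃ r : ℕ, η * N ≤ r ∧ (r : ℝ) < η * N + 1 ∧ r ≤ N :=
    ⟨⌈η * N⌉₊, Nat.le_ceil _, Nat.ceil_lt_add_one (by positivity),
      Nat.ceil_le.2 (by nlinarith)⟩
  have key : ∀ k, -Λ < l' k → (k : ℝ) + 1 + 3 * η * N ≤
      (univ.filter fun i : Fin N => l' k ≤ l i.val).card := by
    intro k hk
    have hkN : k < N := by
      by_contra h
      exact absurd (hlN' k (not_lt.1 h)) hk.ne'
    have h1 := hcnt (e' ⟨k, hkN⟩) (by rwa [← hle'])
    rw [← hle', ← card_eq e hle, ← card_eq e' hle'] at h1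
    have h2 : ((k + 1 : ℕ) : ℝ) ≤ (univ.filter fun i : Fin N => l' k ≤ l' i.val).card := by
      exact_mod_cast card_ge hla' hkN
    push_cast at h2
    exact le_trans (by linarith) h1
  have h1 : ∀ k, N ≤ k + 2 * r → l' k = -Λ := by
    intro k hk
    by_contra h
    have h2 := key k (lt_of_le_of_ne (hlm' k).1 (Ne.symm h))
    have h3 : ((univ.filter fun i : Fin N => l' k ≤ l i.val).card : ℝ) ≤ N := by
      exact_mod_cast (card_filter_le _ _).trans (by simp)
    have h4 : (N : ℝ) ≤ k + 2 * r := by exact_mod_cast hk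
    linarith
  have h2 : ∀ k, l' k ≤ l (k + r) := by
    intro k
    by_contra h
    have h2 := key k ((hlm (k + r)).1.trans_lt (not_le.1 h))
    have h3 : ((univ.filter fun i : Fin N => l' k ≤ l i.val).card : ℝ) ≤ (k + r : ℕ) := by
      exact_mod_cast card_le hla (not_le.1 h)
    push_cast at h3
    linarith
  have hlip := freg_lip (N := N) hδ r hla' hlm' pot
  have hfm := glip_measurable hlip
  set f := freg δ Λ r l' pot with hf
  set m := ∫ A, f A ∂gam (Fin N × Fin N) with hm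
  have hL2 : (Λ * Real.sqrt (N / δ)) ^ 2 = Λ ^ 2 / δ * N := by
    rw [mul_pow, Real.sq_sqrt (by positivity)]
    ring
  -- the exponential moment
  obtain ⟨S, hS, hS2, hS3⟩ := hssv N (N - r) ((le_max_left _ _).trans hN) (by
    rw [Nat.cast_sub hr3]; linarith)
  have hre : ∀ (e : Fin N ≃ Fin N) (lam : Fin N → ℝ) (l : ℕ → ℝ), (∀ i : Fin N, l i.val = lam (e i)) →
      ∀ U, fN lam pot (reOG e (Equiv.refl _) U) = fN (fun i : Fin N => l i.val) pot U := by
    intro e lam l h U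
    rw [fN_reOG, funext h]
    rfl
  have hI : ∫ U, Real.exp (y * fN lam' pot U) ∂(ν : Measure (OG (Fin N))) =
      ∫ U, Real.exp (y * fN (fun i : Fin N => l' i.val) pot U) ∂(ν : Measure (OG (Fin N))) := by
    have hmp := hν.re hν e' (Equiv.refl _)
    conv_lhs => rw [← hmp.map_eq]
    rw [integral_map hmp.measurable.aemeasurable
      ((measurable_fN lam' pot).const_mul y).exp.aestronglyMeasurable]
    simp only [hre e' lam' l' hle']
  have hIpos : 0 < ∫ U, Real.exp (y * fN lam' pot U) ∂(ν : Measure (OG (Fin N))) := by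
    refine integral_exp_pos (Integrable.of_bound
      ((measurable_fN lam' pot).const_mul y).exp.aestronglyMeasurable
      (Real.exp (y * (Λ / 2 * Fintype.card (Fin N) + ∑ σ, |pot σ|)))
      (Filter.Eventually.of_forall fun U => ?_))
    rw [Real.norm_eq_abs, abs_of_pos (Real.exp_pos _)]
    refine Real.exp_le_exp.2 (mul_le_mul_of_nonneg_left ((le_abs_self _).trans (abs_fN_le
      (fun i => abs_le.2 ⟨(hl' i).1, (hl' i).2.trans hΛ.le⟩) (fun σ => ?_) U)) hy.le)
    exact single_le_sum (f := fun σ => |pot σ|) (fun _ _ => abs_nonneg _) (mem_univ σ)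
  have hmom := moment hν (F := fun U => y * fN (fun i : Fin N => l' i.val) pot U)
    ((measurable_fN _ pot).const_mul y) (f := fun A => y * f A + y * (η * N))
    ((hfm.const_mul y).add_const _)
    (by simp only [Real.exp_add]; exact (glip_integrable_exp hlip y).mul_const _) hS hS2 (by
      intro A hA
      obtain ⟨G, g1, g2, g3⟩ := hS3 A hA
      obtain ⟨O, hO⟩ := le_freg hδ hc hr1 hla' hlm' h1 pot A G g1 g2 g3
      refine ⟨O, fun U => ?_⟩
      have := hO U
      rw [hδ1] at this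
      nlinarith)
  simp only [Real.exp_add, integral_mul_const] at hmom
  have hexp := gconc_exp hlip y
  rw [hL2, ← hm] at hexp
  have hlog : Real.log (∫ U, Real.exp (y * fN lam' pot U) ∂(ν : Measure (OG (Fin N)))) ≤
      y * (m + 3 * η * N) := by
    rw [Real.log_le_iff_le_exp hIpos, hI]
    have h3 : y ^ 2 * (Λ ^ 2 / δ * N) ≤ y * (η * N) := by
      have : y ^ 2 * (Λ ^ 2 / δ * N) = y * (y * Λ ^ 2 / δ * N) := by ring
      rw [this]
      gcongr
    calc _ ≤ _ := hmom
      _ ≤ Real.exp (Real.log 2) * (Real.exp (y * m + y ^ 2 * (Λ ^ 2 / δ * N)) *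
          Real.exp (y * (η * N))) := by
        rw [Real.exp_log two_pos]
        gcongr
      _ ≤ _ := by
        rw [← Real.exp_add, ← Real.exp_add]
        exact Real.exp_le_exp.2 (by linarith)
  have hlog' : y⁻¹ * Real.log (∫ U, Real.exp (y * fN lam' pot U) ∂(ν : Measure (OG (Fin N)))) -
      4 * η * N ≤ m - η * N := by
    have := (inv_mul_le_iff₀ hy).2 hlog
    linarith
  have hmp := hν.re hν e (Equiv.refl _)
  calc _ ≤ (ν : Measure (OG (Fin N))).real {U | fN lam pot U ≤ m - η * N} :=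
        measureReal_mono fun U hU => le_trans hU hlog'
    _ = (ν : Measure (OG (Fin N))).real {U | fN (fun i : Fin N => l i.val) pot U ≤ m - η * N} := by
        rw [← hmp.measureReal_preimage
          (measurableSet_le (measurable_fN lam pot) measurable_const).nullMeasurableSet]
        simp only [Set.preimage_setOf_eq, hre e lam l hle]
    _ ≤ (gam (Fin N × Fin N)).real {A | f A ≤ m - η * N} :=
        tail hν (measurable_fN _ pot) hfm (freg_le hδ r hla hla' hlm hlm' h1 h2 pot) _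
    _ ≤ _ := gconc_tail hlip (by positivity) (by positivity)
    _ = _ := by
        rw [hL2]
        congr 1
        field_simp

end ConcA

theorem conc {Λ η : ℝ} (hΛ : 0 < Λ) (hη : 0 < η) : ∃ y : ℝ, 0 < y ∧ y < 1 ∧ ∃ κ : ℝ, 0 < κ ∧ ∃ N₀ : ℕ,
    ∀ N : ℕ, N₀ ≤ N → ∀ ν : ProbabilityMeasure (OG (Fin N)), IsHaar ν →
    ∀ (lam lam' : Fin N → ℝ) (pot : (Fin N → Bool) → ℝ),
      (∀ i, lam i ∈ Set.Icc (-Λ) 0) → (∀ i, lam' i ∈ Set.Icc (-Λ) 0) →
      (∀ i', -Λ < lam' i' → ((univ.filter fun i => lam' i' ≤ lam' i).card : ℝ) + 3 * η * N ≤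
        (univ.filter fun i => lam' i' ≤ lam i).card) →
      (ν : Measure (OG (Fin N))).real {U | fN lam pot U ≤
        y⁻¹ * Real.log (∫ U, Real.exp (y * fN lam' pot U) ∂(ν : Measure (OG (Fin N)))) - 4 * η * N} ≤
        Real.exp (-κ * N) := by
  obtain ⟨y, hy, hy1, κ, hκ, N₀, h⟩ := ConcA.conc1 hΛ (lt_min hη one_pos) (min_le_right η 1)
  refine ⟨y, hy, hy1, κ, hκ, N₀, fun N hN ν hν lam lam' pot hl hl' hc => ?_⟩
  have h1 : min η 1 * (N : ℝ) ≤ η * N := mul_le_mul_of_nonneg_right (min_le_left _ _) (Nat.cast_nonneg _)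
  refine le_trans (measureReal_mono fun U hU => ?_) (h N hN ν hν lam lam' pot hl hl' fun i' hi => ?_)
  · rw [Set.mem_setOf_eq] at hU ⊢
    linarith
  · exact le_trans (by linarith) (hc i' hi)

end Crest.Agent.R164
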