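import Crest.Agent.R164.Chi

/-!
Row 164, task R164-Deriv: differentiation of nested values and tilted expectations along a parameter.

PLAN.  Key step: if `TFam F F' t₀` then `TFam (t ω ↦ ∫ e, F t (update ω l e)) (t ω ↦ ∫ e, F' t (update ω l e)) t₀`
(`hasDerivAt_integral_of_dominated_loc_of_deriv_le` at every `t` of the ball, bound
`C exp (C (sz ω + ρ e))`, WLOG `C ≥ 0`).  Then downward induction on the level:
`X_l = ζ⁻¹ log ∫ exp (ζ X_{l+1})`, derivative `P_l (Ex_{l+1} H')`; uniform linear growth of `X (H t) l` on the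
ball (redo the estimate of `lin_X` with a uniform constant: prove a version with explicit constants, or view `t`
as part of the bound).  `wt` has derivative `ζ wt (Ex_{l+1} H' - Ex_l H')`, so
`d/dt P_l (G t) = P_l G' + ζ (P_l (G Ex_{l+1} H') - P_l G * Ex_l H')`; conclude with `chi_step`, `Ex_step`.
-/

set_option autoImplicit false

namespace Crest.Agent.R164

open MeasureTheory Finset

namespace Tree

variable {E : Type} [MeasurableSpace E] (T : Tree E)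

/-- a family of tame functions, differentiable near `t₀` with locally uniform bounds -/
def TFam (F F' : ℝ → (ℕ → E) → ℝ) (t₀ : ℝ) : Prop :=
  ∃ δ : ℝ, 0 < δ ∧ ∃ C : ℝ, ∀ t, |t - t₀| < δ → Measurable (F t) ∧ Measurable (F' t) ∧
    ∀ ω, HasDerivAt (fun s => F s ω) (F' t ω) t ∧ |F t ω| ≤ C * Real.exp (C * T.sz ω) ∧
      |F' t ω| ≤ C * Real.exp (C * T.sz ω)

/-- a family of Hamiltonians -/
def LFam (H H' : ℝ → (ℕ → E) → ℝ) (t₀ : ℝ) : Prop :=
  T.TFam H H' t₀ ∧ ∃ δ : ℝ, 0 < δ ∧ ∃ C : ℝ, ∀ t, |t - t₀| < δ → ∀ ω, |H t ω| ≤ C * (1 + T.sz ω)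

variable {T} {F F' G G' H H' : ℝ → (ℕ → E) → ℝ} {t₀ : ℝ}

/-- uniformly tame near `t₀` -/
def UT (T : Tree E) (F : ℝ → (ℕ → E) → ℝ) (t₀ : ℝ) : Prop :=
  ∃ C : ℝ, 0 ≤ C ∧ ∀ᶠ t in nhds t₀, Measurable (F t) ∧ ∀ ω, |F t ω| ≤ C * Real.exp (C * T.sz ω)

/-- uniform linear growth near `t₀` -/
def UL (T : Tree E) (F : ℝ → (ℕ → E) → ℝ) (t₀ : ℝ) : Prop :=
  ∃ C : ℝ, 0 ≤ C ∧ ∀ᶠ t in nhds t₀, Measurable (F t) ∧ ∀ ω, |F t ω| ≤ C * (1 + T.sz ω)

theorem ev_ball {p : ℝ → Prop} : (∀ᶠ t in nhds t₀, p t) ↔ ∃ δ : ℝ, 0 < δ ∧ ∀ t, |t - t₀| < δ → p t := by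
  rw [Metric.eventually_nhds_iff]
  simp only [Real.dist_eq]

theorem UT.mk' (A B : ℝ)
    (h : ∀ᶠ t in nhds t₀, Measurable (F t) ∧ ∀ ω, |F t ω| ≤ A * Real.exp (B * T.sz ω)) :
    T.UT F t₀ := by
  have h1 : A ≤ max (max A B) 0 := (le_max_left _ _).trans (le_max_left _ _)
  have h2 : B ≤ max (max A B) 0 := (le_max_right _ _).trans (le_max_left _ _)
  have h3 : (0 : ℝ) ≤ max (max A B) 0 := le_max_right _ _
  refine ⟨max (max A B) 0, h3, h.mono fun t ht => ⟨ht.1, fun ω => (ht.2 ω).trans ?_⟩⟩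
  have := T.sz_nonneg ω
  calc A * Real.exp (B * T.sz ω) ≤ max (max A B) 0 * Real.exp (B * T.sz ω) := by gcongr
    _ ≤ _ := by gcongr

theorem tfam_iff : T.TFam F F' t₀ ↔ T.UT F t₀ ∧ T.UT F' t₀ ∧
    ∀ᶠ t in nhds t₀, ∀ ω, HasDerivAt (fun s => F s ω) (F' t ω) t := by
  constructor
  · rintro ⟨δ, hδ, C, h⟩
    refine ⟨UT.mk' C C (ev_ball.2 ⟨δ, hδ, fun t ht => ⟨(h t ht).1, fun ω => ((h t ht).2.2 ω).2.1⟩⟩),
      UT.mk' C C (ev_ball.2 ⟨δ, hδ, fun t ht => ⟨(h t ht).2.1, fun ω => ((h t ht).2.2 ω).2.2⟩⟩),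
      ev_ball.2 ⟨δ, hδ, fun t ht ω => ((h t ht).2.2 ω).1⟩⟩
  · rintro ⟨⟨C, hC0, hC⟩, ⟨D, hD0, hD⟩, h⟩
    obtain ⟨δ, hδ, h'⟩ := ev_ball.1 (hC.and (hD.and h))
    refine ⟨δ, hδ, C + D, fun t ht => ⟨(h' t ht).1.1, (h' t ht).2.1.1, fun ω =>
      ⟨(h' t ht).2.2 ω, ((h' t ht).1.2 ω).trans (exp_bd_mono (by positivity) (by linarith) ω),
        ((h' t ht).2.1.2 ω).trans (exp_bd_mono (by positivity) (by linarith) ω)⟩⟩⟩

theorem lfam_iff : T.LFam H H' t₀ ↔ T.TFam H H' t₀ ∧ T.UL H t₀ := by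
  constructor
  · rintro ⟨h, δ, hδ, C, hC⟩
    refine ⟨h, max C 0, le_max_right _ _, ?_⟩
    obtain ⟨D, -, hD⟩ := (tfam_iff.1 h).1
    filter_upwards [hD, ev_ball.2 ⟨δ, hδ, hC⟩] with t h1 h2
    refine ⟨h1.1, fun ω => (h2 ω).trans ?_⟩
    have := T.sz_nonneg ω
    gcongr
    exact le_max_left _ _
  · rintro ⟨h, C, -, hC⟩
    obtain ⟨δ, hδ, h'⟩ := ev_ball.1 hC
    exact ⟨h, δ, hδ, C, fun t ht => (h' t ht).2⟩

theorem UT.ev_tame (h : T.UT F t₀) : ∀ᶠ t in nhds t₀, T.Tame (F t) := by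
  obtain ⟨C, -, hC⟩ := h
  exact hC.mono fun t ht => ⟨ht.1, C, ht.2⟩

theorem UL.ev_lin (h : T.UL F t₀) : ∀ᶠ t in nhds t₀, T.Lin (F t) := by
  obtain ⟨C, -, hC⟩ := h
  exact hC.mono fun t ht => ⟨ht.1, C, ht.2⟩

theorem UT.congr (h : T.UT F t₀) (h1 : ∀ᶠ t in nhds t₀, G t = F t) : T.UT G t₀ := by
  obtain ⟨C, hC0, hC⟩ := h
  refine ⟨C, hC0, ?_⟩
  filter_upwards [hC, h1] with t h2 h3
  rwa [h3]

theorem UT.const {f : (ℕ → E) → ℝ} (hf : T.Tame f) : T.UT (fun _ => f) t₀ := by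
  obtain ⟨C, hC0, hC⟩ := hf.bd
  exact ⟨C, hC0, Filter.Eventually.of_forall fun _ => ⟨hf.1, hC⟩⟩

theorem UT.add (hF : T.UT F t₀) (hG : T.UT G t₀) : T.UT (fun t ω => F t ω + G t ω) t₀ := by
  obtain ⟨C, hC0, hC⟩ := hF
  obtain ⟨D, hD0, hD⟩ := hG
  refine UT.mk' (C + D) (C + D) ?_
  filter_upwards [hC, hD] with t h1 h2
  refine ⟨h1.1.add h2.1, fun ω => ?_⟩
  have := T.sz_nonneg ω
  calc |F t ω + G t ω| ≤ |F t ω| + |G t ω| := abs_add_le _ _
    _ ≤ C * Real.exp (C * T.sz ω) + D * Real.exp (D * T.sz ω) := add_le_add (h1.2 ω) (h2.2 ω)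
    _ ≤ C * Real.exp ((C + D) * T.sz ω) + D * Real.exp ((C + D) * T.sz ω) := by
        gcongr <;> linarith
    _ = _ := by ring

theorem UT.mul (hF : T.UT F t₀) (hG : T.UT G t₀) : T.UT (fun t ω => F t ω * G t ω) t₀ := by
  obtain ⟨C, hC0, hC⟩ := hF
  obtain ⟨D, hD0, hD⟩ := hG
  refine UT.mk' (C * D) (C + D) ?_
  filter_upwards [hC, hD] with t h1 h2
  refine ⟨h1.1.mul h2.1, fun ω => ?_⟩
  calc |F t ω * G t ω| = |F t ω| * |G t ω| := abs_mul _ _
    _ ≤ (C * Real.exp (C * T.sz ω)) * (D * Real.exp (D * T.sz ω)) := by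
        gcongr
        · exact h1.2 ω
        · exact h2.2 ω
    _ = _ := by rw [add_mul, Real.exp_add]; ring

theorem UT.const_mul (c : ℝ) (hF : T.UT F t₀) : T.UT (fun t ω => c * F t ω) t₀ :=
  (UT.const (Tame.const c)).mul hF

theorem UT.sub (hF : T.UT F t₀) (hG : T.UT G t₀) : T.UT (fun t ω => F t ω - G t ω) t₀ := by
  simpa only [neg_one_mul, ← sub_eq_add_neg] using hF.add (hG.const_mul (-1))

theorem UT.sum {ι : Type*} (s : Finset ι) {A : ι → ℝ → (ℕ → E) → ℝ} (h : ∀ i ∈ s, T.UT (A i) t₀) :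
    T.UT (fun t ω => ∑ i ∈ s, A i t ω) t₀ := by
  classical
  induction s using Finset.induction_on with
  | empty => simpa using UT.const (T := T) (t₀ := t₀) (Tame.const 0)
  | insert a s ha ih =>
    simp only [sum_insert ha]
    exact (h a (mem_insert_self _ _)).add (ih fun i hi => h i (mem_insert_of_mem hi))

theorem UT.scalar {c : ℝ → ℝ} (hc : ContinuousAt c t₀) : T.UT (fun t _ => c t) t₀ := by
  refine UT.mk' (|c t₀| + 1) 0 ?_
  filter_upwards [hc.abs.eventually_lt_const (lt_add_one |c t₀|)] with t ht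
  exact ⟨measurable_const, fun ω => by simpa using ht.le⟩

theorem UT.int (hF : T.UT F t₀) (l : ℕ) :
    T.UT (fun t ω => ∫ e, F t (Function.update ω l e) ∂T.γ) t₀ := by
  obtain ⟨C, hC0, hC⟩ := hF
  refine UT.mk' (C * ∫ e, Real.exp (C * T.ρ e) ∂T.γ) C ?_
  filter_upwards [hC] with t h1
  exact ⟨measurable_int h1.1 l, fun ω => bd_integral hC0 h1.2 ω l⟩

theorem UL.ut (hF : T.UL F t₀) : T.UT F t₀ := by
  obtain ⟨C, hC0, hC⟩ := hF
  refine UT.mk' C 1 ?_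
  filter_upwards [hC] with t h1
  refine ⟨h1.1, fun ω => (h1.2 ω).trans ?_⟩
  gcongr
  rw [one_mul, add_comm]
  exact Real.add_one_le_exp _

theorem UL.exp (hF : T.UL F t₀) : T.UT (fun t ω => Real.exp (F t ω)) t₀ := by
  obtain ⟨C, hC0, hC⟩ := hF
  refine UT.mk' (Real.exp C) C ?_
  filter_upwards [hC] with t h1
  refine ⟨h1.1.exp, fun ω => ?_⟩
  rw [abs_of_pos (Real.exp_pos _), ← Real.exp_add]
  gcongr
  have := (le_abs_self _).trans (h1.2 ω)
  linarith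

theorem UL.const {f : (ℕ → E) → ℝ} (hf : T.Lin f) : T.UL (fun _ => f) t₀ := by
  obtain ⟨C, hC0, hC⟩ := hf.bd
  exact ⟨C, hC0, Filter.Eventually.of_forall fun _ => ⟨hf.1, hC⟩⟩

theorem UL.add (hF : T.UL F t₀) (hG : T.UL G t₀) : T.UL (fun t ω => F t ω + G t ω) t₀ := by
  obtain ⟨C, hC0, hC⟩ := hF
  obtain ⟨D, hD0, hD⟩ := hG
  refine ⟨C + D, by positivity, ?_⟩
  filter_upwards [hC, hD] with t h1 h2
  refine ⟨h1.1.add h2.1, fun ω => ?_⟩
  calc |F t ω + G t ω| ≤ |F t ω| + |G t ω| := abs_add_le _ _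
    _ ≤ _ := add_le_add (h1.2 ω) (h2.2 ω)
    _ = _ := by ring

theorem UL.scalar_mul {c : ℝ → ℝ} (hc : ContinuousAt c t₀) (hF : T.UL F t₀) :
    T.UL (fun t ω => c t * F t ω) t₀ := by
  obtain ⟨C, hC0, hC⟩ := hF
  refine ⟨(|c t₀| + 1) * C, by positivity, ?_⟩
  filter_upwards [hC, hc.abs.eventually_lt_const (lt_add_one |c t₀|)] with t h1 h2
  refine ⟨h1.1.const_mul _, fun ω => ?_⟩
  rw [abs_mul, mul_assoc]
  exact mul_le_mul h2.le (h1.2 ω) (abs_nonneg _) (by positivity)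

theorem UL.const_mul (c : ℝ) (hF : T.UL F t₀) : T.UL (fun t ω => c * F t ω) t₀ :=
  hF.scalar_mul (c := fun _ => c) continuousAt_const

theorem UL.sub (hF : T.UL F t₀) (hG : T.UL G t₀) : T.UL (fun t ω => F t ω - G t ω) t₀ := by
  simpa only [neg_one_mul, ← sub_eq_add_neg] using hF.add (hG.const_mul (-1))

theorem UL.sum {ι : Type*} (s : Finset ι) {A : ι → ℝ → (ℕ → E) → ℝ} (h : ∀ i ∈ s, T.UL (A i) t₀) :
    T.UL (fun t ω => ∑ i ∈ s, A i t ω) t₀ := by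
  classical
  induction s using Finset.induction_on with
  | empty => simpa using UL.const (T := T) (t₀ := t₀) (Lin.const 0)
  | insert a s ha ih =>
    simp only [sum_insert ha]
    exact (h a (mem_insert_self _ _)).add (ih fun i hi => h i (mem_insert_of_mem hi))

theorem UL.X (hH : T.UL H t₀) (l : ℕ) : T.UL (fun t => T.X (H t) l) t₀ := by
  obtain ⟨C, hC0, hC⟩ := hH
  obtain ⟨D, hD0, hD⟩ := lin_X_unif (T := T) C l
  exact ⟨D, hD0, hC.mono fun t ht => hD _ ht.1 ht.2⟩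

theorem UL.wt (hH : T.UL H t₀) (l : ℕ) : T.UT (fun t => T.wt (H t) l) t₀ :=
  (((hH.X (l + 1)).sub (hH.X l)).const_mul (T.ζ l)).exp

theorem UT.Ex (hH : T.UL H t₀) (hF : T.UT F t₀) (l : ℕ) :
    T.UT (fun t => T.Ex (H t) l (F t)) t₀ := by
  induction l using down_ind (T := T) with
  | h0 l hl => simpa only [Ex_of_le hl] using hF
  | hs l hl ih =>
    simp only [Ex_step hl]
    exact ((hH.wt l).mul ih).int l

theorem UT.chi (hH : T.UL H t₀) (hF : T.UT F t₀) (hG : T.UT G t₀) (l : ℕ) :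
    T.UT (fun t => T.chi (H t) l (F t) (G t)) t₀ :=
  UT.sum (Ico l T.n) fun i _ =>
    ((UT.Ex hH ((hF.Ex hH (i + 1)).mul (hG.Ex hH (i + 1))) l).sub
      (UT.Ex hH ((hF.Ex hH i).mul (hG.Ex hH i)) l)).const_mul (T.ζ i)

/-- differentiation under one integral -/
theorem TFam.int (h : T.TFam F F' t₀) (l : ℕ) :
    T.TFam (fun t ω => ∫ e, F t (Function.update ω l e) ∂T.γ)
      (fun t ω => ∫ e, F' t (Function.update ω l e) ∂T.γ) t₀ := by
  obtain ⟨h1, h2, h3⟩ := tfam_iff.1 h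
  refine tfam_iff.2 ⟨h1.int l, h2.int l, ?_⟩
  obtain ⟨D, hD0, hD⟩ := h2
  have hs := h1.ev_tame.and (hD.and h3)
  filter_upwards [hs.eventually_nhds] with t ht ω
  exact (hasDerivAt_integral_of_dominated_loc_of_deriv_le (μ := T.γ)
    (F := fun s e => F s (Function.update ω l e)) (F' := fun s e => F' s (Function.update ω l e))
    (x₀ := t) (bound := fun e => (D * Real.exp (D * T.sz ω)) * Real.exp (D * T.ρ e)) ht
    (ht.mono fun s hs => (hs.1.1.comp (measurable_upd ω l)).aestronglyMeasurable)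
    (ht.self_of_nhds.1.integrable_update ω l)
    (ht.self_of_nhds.2.1.1.comp (measurable_upd ω l)).aestronglyMeasurable
    (Filter.Eventually.of_forall fun e s hs => bd_update hD0 hs.2.1.2 ω l e)
    ((T.ρ_exp D).const_mul _)
    (Filter.Eventually.of_forall fun e s hs => hs.2.2 _)).2

theorem TFam.congr' (h : T.TFam F F' t₀) (h1 : ∀ᶠ t in nhds t₀, G t = F t ∧ G' t = F' t) :
    T.TFam G G' t₀ := by
  obtain ⟨a, b, c⟩ := tfam_iff.1 h
  refine tfam_iff.2 ⟨a.congr (h1.mono fun _ h => h.1), b.congr (h1.mono fun _ h => h.2), ?_⟩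
  filter_upwards [c, h1.eventually_nhds] with t ht ht' ω
  rw [ht'.self_of_nhds.2]
  refine (ht ω).congr_of_eventuallyEq ?_
  filter_upwards [ht'] with s hs
  rw [hs.1]

theorem TFam.hasDerivAt (h : T.TFam F F' t₀) (ω : ℕ → E) :
    HasDerivAt (fun s => F s ω) (F' t₀ ω) t₀ := by
  exact (tfam_iff.1 h).2.2.self_of_nhds ω
theorem TFam.tame (h : T.TFam F F' t₀) : T.Tame (F t₀) := by
  exact (tfam_iff.1 h).1.ev_tame.self_of_nhds
theorem TFam.tame' (h : T.TFam F F' t₀) : T.Tame (F' t₀) := by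
  exact (tfam_iff.1 h).2.1.ev_tame.self_of_nhds
theorem LFam.lin (h : T.LFam H H' t₀) : T.Lin (H t₀) := by
  exact (lfam_iff.1 h).2.ev_lin.self_of_nhds
theorem TFam.congr (h : T.TFam F F' t₀) {δ : ℝ} (hδ : 0 < δ)
    (h1 : ∀ t, |t - t₀| < δ → G t = F t ∧ G' t = F' t) : T.TFam G G' t₀ := by
  exact h.congr' (ev_ball.2 ⟨δ, hδ, h1⟩)
theorem TFam.const {f : (ℕ → E) → ℝ} (hf : T.Tame f) : T.TFam (fun _ => f) (fun _ _ => 0) t₀ := by
  exact tfam_iff.2 ⟨UT.const hf, UT.const (Tame.const 0),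
    Filter.Eventually.of_forall fun t ω => hasDerivAt_const _ _⟩
theorem TFam.add (hF : T.TFam F F' t₀) (hG : T.TFam G G' t₀) :
    T.TFam (fun t ω => F t ω + G t ω) (fun t ω => F' t ω + G' t ω) t₀ := by
  obtain ⟨a, b, c⟩ := tfam_iff.1 hF
  obtain ⟨a', b', c'⟩ := tfam_iff.1 hG
  refine tfam_iff.2 ⟨a.add a', b.add b', ?_⟩
  filter_upwards [c, c'] with t h1 h2 ω
  exact (h1 ω).add (h2 ω)
theorem TFam.sub (hF : T.TFam F F' t₀) (hG : T.TFam G G' t₀) :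
    T.TFam (fun t ω => F t ω - G t ω) (fun t ω => F' t ω - G' t ω) t₀ := by
  obtain ⟨a, b, c⟩ := tfam_iff.1 hF
  obtain ⟨a', b', c'⟩ := tfam_iff.1 hG
  refine tfam_iff.2 ⟨a.sub a', b.sub b', ?_⟩
  filter_upwards [c, c'] with t h1 h2 ω
  exact (h1 ω).sub (h2 ω)
theorem TFam.mul (hF : T.TFam F F' t₀) (hG : T.TFam G G' t₀) :
    T.TFam (fun t ω => F t ω * G t ω) (fun t ω => F' t ω * G t ω + F t ω * G' t ω) t₀ := by
  obtain ⟨a, b, c⟩ := tfam_iff.1 hF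
  obtain ⟨a', b', c'⟩ := tfam_iff.1 hG
  refine tfam_iff.2 ⟨a.mul a', (b.mul a').add (a.mul b'), ?_⟩
  filter_upwards [c, c'] with t h1 h2 ω
  exact (h1 ω).mul (h2 ω)
theorem TFam.sum {ι : Type*} (s : Finset ι) {A A' : ι → ℝ → (ℕ → E) → ℝ}
    (h : ∀ i ∈ s, T.TFam (A i) (A' i) t₀) :
    T.TFam (fun t ω => ∑ i ∈ s, A i t ω) (fun t ω => ∑ i ∈ s, A' i t ω) t₀ := by
  classical
  induction s using Finset.induction_on with
  | empty => simpa using TFam.const (T := T) (t₀ := t₀) (Tame.const 0)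
  | insert a s ha ih =>
    simp only [sum_insert ha]
    exact (h a (mem_insert_self _ _)).add (ih fun i hi => h i (mem_insert_of_mem hi))
/-- a scalar `C¹` coefficient -/
theorem TFam.scalar {c c' : ℝ → ℝ} {δ : ℝ} (hδ : 0 < δ)
    (hc : ∀ t, |t - t₀| < δ → HasDerivAt c (c' t) t) (hc' : ContinuousAt c' t₀) :
    T.TFam (fun t _ => c t) (fun t _ => c' t) t₀ := by
  refine tfam_iff.2 ⟨UT.scalar (hc t₀ (by simpa using hδ)).continuousAt, UT.scalar hc', ?_⟩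
  exact ev_ball.2 ⟨δ, hδ, fun t ht _ => hc t ht⟩
/-- Hamiltonians `Σ c_i(t) f_i` with `C¹` coefficients -/
theorem LFam.comb {ι : Type*} (s : Finset ι) {c c' : ι → ℝ → ℝ} {f : ι → (ℕ → E) → ℝ} {δ : ℝ}
    (hδ : 0 < δ) (hc : ∀ i ∈ s, ∀ t, |t - t₀| < δ → HasDerivAt (c i) (c' i t) t)
    (hc' : ∀ i ∈ s, ContinuousAt (c' i) t₀) (hf : ∀ i ∈ s, T.Lin (f i)) :
    T.LFam (fun t ω => ∑ i ∈ s, c i t * f i ω) (fun t ω => ∑ i ∈ s, c' i t * f i ω) t₀ := by
  refine lfam_iff.2 ⟨?_, UL.sum s fun i hi =>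
    (UL.const (hf i hi)).scalar_mul (hc i hi t₀ (by simpa using hδ)).continuousAt⟩
  refine TFam.sum s fun i hi => ?_
  simpa using (TFam.scalar (T := T) hδ (hc i hi) (hc' i hi)).mul (TFam.const (hf i hi).tame)
theorem LFam.line {h η : (ℕ → E) → ℝ} (hh : T.Lin h) (hη : T.Lin η) :
    T.LFam (fun t ω => h ω + t * η ω) (fun _ => η) t₀ := by
  refine lfam_iff.2 ⟨?_, (UL.const hh).add ((UL.const hη).scalar_mul (c := fun t => t) continuousAt_id)⟩
  have h1 : T.TFam (fun t _ => t) (fun _ _ => 1) t₀ :=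
    TFam.scalar (c := fun t => t) (c' := fun _ => 1) one_pos (fun t _ => hasDerivAt_id t)
      continuousAt_const
  simpa using (TFam.const hh.tame).add (h1.mul (TFam.const hη.tame))

theorem LFam.exp (hH : T.LFam H H' t₀) :
    T.TFam (fun t ω => Real.exp (H t ω)) (fun t ω => Real.exp (H t ω) * H' t ω) t₀ := by
  obtain ⟨h, hl⟩ := lfam_iff.1 hH
  obtain ⟨a, b, c⟩ := tfam_iff.1 h
  refine tfam_iff.2 ⟨hl.exp, hl.exp.mul b, ?_⟩
  filter_upwards [c] with t h1 ω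
  exact (h1 ω).exp

theorem TFam.const_mul (c : ℝ) (hF : T.TFam F F' t₀) :
    T.TFam (fun t ω => c * F t ω) (fun t ω => c * F' t ω) t₀ := by
  simpa using (TFam.const (Tame.const c)).mul hF

theorem LFam.const_mul (c : ℝ) (hH : T.LFam H H' t₀) :
    T.LFam (fun t ω => c * H t ω) (fun t ω => c * H' t ω) t₀ :=
  lfam_iff.2 ⟨hH.1.const_mul c, (lfam_iff.1 hH).2.const_mul c⟩

theorem LFam.sub (hH : T.LFam H H' t₀) (hG : T.LFam G G' t₀) :
    T.LFam (fun t ω => H t ω - G t ω) (fun t ω => H' t ω - G' t ω) t₀ :=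
  lfam_iff.2 ⟨hH.1.sub hG.1, (lfam_iff.1 hH).2.sub (lfam_iff.1 hG).2⟩

theorem LFam.add (hH : T.LFam H H' t₀) (hG : T.LFam G G' t₀) :
    T.LFam (fun t ω => H t ω + G t ω) (fun t ω => H' t ω + G' t ω) t₀ :=
  lfam_iff.2 ⟨hH.1.add hG.1, (lfam_iff.1 hH).2.add (lfam_iff.1 hG).2⟩

/-- `P` as a normalised integral -/
theorem P_eq {h f : (ℕ → E) → ℝ} {l : ℕ} (hl : l < T.n) (ω : ℕ → E) :
    T.P h l f ω = (Real.exp (T.ζ l * T.X h l ω))⁻¹ *
      ∫ e, Real.exp (T.ζ l * T.X h (l + 1) (Function.update ω l e)) * f (Function.update ω l e) ∂T.γ := by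
  rw [P, ← integral_const_mul]
  congr 1
  funext e
  rw [wt, dep_X h l l le_rfl hl, ← Real.exp_neg, ← mul_assoc, ← Real.exp_add]
  congr 2
  ring

theorem Ex_eq_P {h f : (ℕ → E) → ℝ} {l : ℕ} (hh : T.Lin h) (hl : l < T.n) (hf : T.Dep (l + 1) f) :
    T.Ex h l f = T.P h l f := by
  rw [Ex_step hl, funext (Ex_of_dep hh hf)]

theorem LFam.X (hH : T.LFam H H' t₀) (l : ℕ) :
    T.LFam (fun t => T.X (H t) l) (fun t => T.Ex (H t) l (H' t)) t₀ := by
  obtain ⟨h, hL⟩ := lfam_iff.1 hH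
  obtain ⟨a, b, c⟩ := tfam_iff.1 h
  induction l using down_ind (T := T) with
  | h0 l hl => simpa only [X_of_le hl, Ex_of_le hl] using hH
  | hs l hl ih =>
    refine lfam_iff.2 ⟨tfam_iff.2 ⟨(hL.X l).ut, b.Ex hL l, ?_⟩, hL.X l⟩
    have hζ := T.ζ_pos l
    have k := (tfam_iff.1 ((ih.const_mul (T.ζ l)).exp.int l)).2.2
    filter_upwards [k, hL.ev_lin] with t ht hlin ω
    have hp := int_exp_pos ((lin_X hlin (l + 1)).const_mul (T.ζ l)) ω l
    have d := ((ht ω).log hp.ne').const_mul (T.ζ l)⁻¹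
    simp only [X_step hl]
    refine d.congr_deriv (Eq.symm ?_)
    rw [Ex_step hl, P_eq hl, exp_X_step hlin hl]
    have e : ∀ e, Real.exp (T.ζ l * T.X (H t) (l + 1) (Function.update ω l e)) *
        (T.ζ l * T.Ex (H t) (l + 1) (H' t) (Function.update ω l e)) =
        T.ζ l * (Real.exp (T.ζ l * T.X (H t) (l + 1) (Function.update ω l e)) *
          T.Ex (H t) (l + 1) (H' t) (Function.update ω l e)) := fun e => by ring
    simp only [e]
    rw [integral_const_mul]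
    field_simp

theorem TFam.Ex (hH : T.LFam H H' t₀) (hF : T.TFam F F' t₀) (l : ℕ) :
    T.TFam (fun t => T.Ex (H t) l (F t))
      (fun t ω => T.Ex (H t) l (F' t) ω + T.chi (H t) l (F t) (H' t) ω) t₀ := by
  obtain ⟨h, hL⟩ := lfam_iff.1 hH
  obtain ⟨a, b, c⟩ := tfam_iff.1 h
  obtain ⟨a', b', c'⟩ := tfam_iff.1 hF
  induction l using down_ind (T := T) with
  | h0 l hl => simpa only [Ex_of_le hl, chi_of_le hl, add_zero] using hF
  | hs l hl ih =>
    have w := (((hH.X (l + 1)).sub (hH.X l)).const_mul (T.ζ l)).exp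
    refine ((w.mul ih).int l).congr' ?_
    filter_upwards [hL.ev_lin, a'.ev_tame, b'.ev_tame, b.ev_tame] with t hlin tF tF' tH'
    refine ⟨?_, ?_⟩
    · rw [Ex_step hl]
      rfl
    · funext ω
      have t1 := tame_Ex hlin tF (l + 1)
      have t2 := tame_Ex hlin tF' (l + 1)
      have t3 := tame_Ex hlin tH' (l + 1)
      have t4 := tame_chi hlin tF tH' (l + 1)
      have t5 := tame_Ex hlin tH' l
      have e : ∫ e, (Real.exp (T.ζ l * (T.X (H t) (l + 1) (Function.update ω l e) -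
            T.X (H t) l (Function.update ω l e))) *
            (T.ζ l * (T.Ex (H t) (l + 1) (H' t) (Function.update ω l e) -
              T.Ex (H t) l (H' t) (Function.update ω l e))) *
            T.Ex (H t) (l + 1) (F t) (Function.update ω l e) +
          Real.exp (T.ζ l * (T.X (H t) (l + 1) (Function.update ω l e) -
            T.X (H t) l (Function.update ω l e))) *
            (T.Ex (H t) (l + 1) (F' t) (Function.update ω l e) +
              T.chi (H t) (l + 1) (F t) (H' t) (Function.update ω l e))) ∂T.γ =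
          T.P (H t) l (fun ω => (T.ζ l * (T.Ex (H t) (l + 1) (F t) ω * T.Ex (H t) (l + 1) (H' t) ω) +
            (-T.ζ l * T.Ex (H t) l (H' t) ω) * T.Ex (H t) (l + 1) (F t) ω) +
            (T.Ex (H t) (l + 1) (F' t) ω + T.chi (H t) (l + 1) (F t) (H' t) ω)) ω := by
        rw [P]
        congr 1
        funext e
        rw [wt]
        ring
      rw [e, P_add hlin (((t1.mul t3).const_mul _).add ((t5.const_mul _).mul t1)) (t2.add t4),
        P_add hlin ((t1.mul t3).const_mul _) ((t5.const_mul _).mul t1), P_add hlin t2 t4,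
        P_mul_dep _ _ (Dep.const _) hl,
        P_mul_dep (g := fun ω => -T.ζ l * T.Ex (H t) l (H' t) ω) _ _
          ((dep_Ex _ _ l).comp fun x => -T.ζ l * x) hl,
        ← Ex_step hl, ← Ex_step hl, ← Ex_eq_P hlin hl (dep_chi _ _ _ _),
        ← Ex_eq_P hlin hl ((dep_Ex (H t) (F t) (l + 1)).comp₂ (dep_Ex (H t) (H' t) (l + 1))
          fun x y => x * y), chi_step hlin tF tH' hl]
      ring

/-- If the un-normalised root expectation is constant near `t₀`, its derivative vanishes. -/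
theorem root_identity (hH : T.LFam H H' t₀) (hF : T.TFam F F' t₀) (hn : 0 < T.n) (ω : ℕ → E)
    (hc : ∀ᶠ t in nhds t₀, Real.exp (T.ζ 0 * T.X (H t) 0 ω) * T.Ex (H t) 0 (F t) ω =
      Real.exp (T.ζ 0 * T.X (H t₀) 0 ω) * T.Ex (H t₀) 0 (F t₀) ω) :
    T.Ex (H t₀) 0 (F' t₀) ω + T.ζ (T.n - 1) * T.Ex (H t₀) 0 (fun ω => F t₀ ω * H' t₀ ω) ω -
      ∑ i ∈ Ioo 0 T.n, (T.ζ i - T.ζ (i - 1)) *
        T.Ex (H t₀) 0 (fun ω => F t₀ ω * T.Ex (H t₀) i (H' t₀) ω) ω = 0 := by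
  have hlin := hH.lin
  have d := ((((hH.X 0).const_mul (T.ζ 0)).exp.mul (hF.Ex hH 0)).hasDerivAt ω)
  have d0 := (hasDerivAt_const t₀ (Real.exp (T.ζ 0 * T.X (H t₀) 0 ω) *
    T.Ex (H t₀) 0 (F t₀) ω)).congr_of_eventuallyEq hc
  have e := d.unique d0
  rw [chi_eq hlin hF.tame hH.1.tame' hn] at e
  have e2 : ∀ i, T.Ex (H t₀) 0 (fun ω => F t₀ ω * T.Ex (H t₀) i (H' t₀) ω) ω =
      T.Ex (H t₀) 0 (fun ω => T.Ex (H t₀) i (F t₀) ω * T.Ex (H t₀) i (H' t₀) ω) ω := fun i => by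
    rw [← Ex_tower hlin _ (Nat.zero_le i)]
    congr 1
    funext ω
    simp only [mul_comm (F t₀ _)]
    rw [Ex_mul_dep _ _ (dep_Ex _ _ i), mul_comm]
  simp only [e2]
  have hp := Real.exp_pos (T.ζ 0 * T.X (H t₀) 0 ω)
  apply mul_left_cancel₀ hp.ne'
  linarith

end Tree

end Crest.Agent.R164
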