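import Crest.Agent.R164.Sym
import Crest.Agent.R164.Fact

/-!
Row 164, task R164-FamA: the cavity family, crude bounds and moments.

PLAN.  `ω o = Õ o none` is a unit vector supported on `range R` (`IdOff`).  In the system `Sb.ext b sn` (root law `famν Õ ν`, `IsHaar.linv_fam`) use
`block_exp`/`block_four` with `B⁺ = insert none (B.map some)`, `B' = B.map some \ image R` (`|B'| ≥ |B| - card 𝒦 ≥ (N+1)/ā`), for
`v = e_{R k} - ω (R k) • ω` (`|v|² ≤ 1`), and `x (R k) = v ⬝ x + ω (R k) (ω ⬝ x)`, `ω ⬝ x = σ_none` under `E0` (`E0_fam`).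
`fam_crude`: upper bound `phi_le_lam_pot`, `phi_ext`; lower bound `phi_tangent` at `Sb.ext b sn`.
`fam_mom`: `H₁ = Ham famSys ≤ H₀ = Ham ext`; `X_add_ge` (`l = 0`, `l' = n`, `y = ζ 0`) for `η = ± x (R k)`:
`y⁻¹ log E0 exp (y η) ≤ X (H₁ + η) - X H₁ ≤ X (H₀ + η) - X H₀ + C ≤ log E0^{H₀} exp η + C` (`X_mono`, `X_add_le`, `fam_crude`), and `(y z)⁴/24 ≤ cosh (y z)`.
-/

set_option autoImplicit false

namespace Crest.Agent.R164

open MeasureTheory Finset Matrix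

variable {ι 𝒦 : Type} [Fintype ι] [DecidableEq ι] [Fintype 𝒦] [DecidableEq 𝒦]

noncomputable def famSys (Sb : Sys ι) (b : ℝ) (sn : ℕ → ℝ) (R : 𝒦 → Option ι) (lam : 𝒦 → ℝ) : Sys (Option ι) :=
  (Sb.ext b sn).add (dirL fun o => ∑ k, if o = R k then lam k else 0) 1

structure FamD (G : Grid) (Sb : Sys ι) (B : Finset ι) (R : 𝒦 → Option ι) (k1 : 𝒦) (Õ : OG (Option ι))
    (ā : ℝ) : Prop where
  inj : Function.Injective R
  none : R k1 = none
  mem : ∀ k, k ≠ k1 → ∃ i ∈ B, R k = some i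
  free : ∀ i ∈ B, Sb.lam i = 0 ∧ ∀ l ∈ Ico 1 (G.n - 1), Sb.u l i = 0
  off : IdOff Õ (Set.range R)
  pos : 0 < ā
  card : (Fintype.card ι : ℝ) + 1 ≤ ā * (B.card - Fintype.card 𝒦)

namespace FamA

theorem pow_le_exp (z : ℝ) (n : ℕ) : |z| ^ n ≤ n.factorial * (Real.exp z + Real.exp (-z)) := by
  have h1 := Real.pow_div_factorial_le_exp |z| (abs_nonneg z) n
  have h2 : Real.exp |z| ≤ Real.exp z + Real.exp (-z) := by
    rcases abs_cases z with h | h <;> rw [h.1] <;> linarith [Real.exp_pos z, Real.exp_pos (-z)]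
  have h3 : (0 : ℝ) < n.factorial := by exact_mod_cast n.factorial_pos
  rw [div_le_iff₀ h3] at h1
  nlinarith

variable {G : Grid} {ν : ProbabilityMeasure (OG ι)} {Sb : Sys ι} {B : Finset ι} {R : 𝒦 → Option ι} {k1 : 𝒦}
  {Õ : OG (Option ι)} {ā b : ℝ} {sn : ℕ → ℝ} {lam : 𝒦 → ℝ}

theorem col_unit {κ : Type} [Fintype κ] [DecidableEq κ] (O : OG κ) (j : κ) :
    (fun o => O.1 o j) ⬝ᵥ (fun o => O.1 o j) = 1 := by
  have h := congrFun (congrFun ((Matrix.mem_orthogonalGroup_iff' κ ℝ).1 O.2) j) j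
  rw [Matrix.mul_apply, Matrix.one_apply_eq] at h
  exact h

theorem ext_exp (hν : IsHaar ν) (hD : FamD G Sb B R k1 Õ ā) (k : 𝒦) {t : ℝ} (ht : |t| ≤ 1) :
    E0 G (famν Õ ν) (Sb.ext b sn) (fun ω => Real.exp (t * xx G (R k) ω)) ≤ Real.exp (1 + ā / 2) := by
  set w : Option ι → ℝ := fun o => Õ.1 o none with hw
  have hww : w ⬝ᵥ w = 1 := col_unit Õ none
  have hwk : w (R k) ^ 2 ≤ 1 := by
    rw [← hww, sq]
    exact single_le_sum (f := fun o => w o * w o) (fun o _ => mul_self_nonneg _) (mem_univ _)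
  set v : Option ι → ℝ := t • (Pi.single (R k) 1 - w (R k) • w) with hv
  set Bp : Finset (Option ι) := insert none (B.map Function.Embedding.some) with hBp
  set B' : Finset (Option ι) := B.map Function.Embedding.some \ univ.image R with hB'
  have hRB : ∀ k, R k ∈ Bp := fun k => by
    by_cases hk : k = k1
    · rw [hk, hD.none]; exact mem_insert_self _ _
    · obtain ⟨i, hi, h⟩ := hD.mem k hk
      rw [h]; exact mem_insert_of_mem (mem_map_of_mem _ hi)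
  have hw0 : ∀ o, o ∉ Set.range R → w o = 0 := fun o ho => by
    have h1 : o ≠ none := fun h => ho ⟨k1, hD.none.trans h.symm⟩
    simp only [hw]
    rw [hD.off o none (Or.inl ho), if_neg h1]
  have hcard : (B.card : ℝ) - Fintype.card 𝒦 ≤ B'.card := by
    have h1 := le_card_sdiff (univ.image R) (B.map Function.Embedding.some)
    have h2 : (univ.image R).card ≤ Fintype.card 𝒦 := card_image_le
    rw [card_map] at h1
    have h3 : B.card ≤ B'.card + Fintype.card 𝒦 := by rw [hB']; omega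
    have h4 : (B.card : ℝ) ≤ B'.card + Fintype.card 𝒦 := by exact_mod_cast h3
    linarith
  have hN : (Fintype.card (Option ι) : ℝ) ≤ ā * B'.card := by
    rw [Fintype.card_option]
    push_cast
    exact hD.card.trans (mul_le_mul_of_nonneg_left hcard hD.pos.le)
  have hN0 : (0 : ℝ) < Fintype.card (Option ι) := by exact_mod_cast Fintype.card_pos
  have hB'pos : (0 : ℝ) < B'.card := pos_of_mul_pos_left (hN0.trans_le (hN.trans_eq (mul_comm _ _))) hD.pos.le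
  have hvv : v ⬝ᵥ v ≤ 1 := by
    have h1 : v ⬝ᵥ v = t ^ 2 * (1 - w (R k) ^ 2) := by
      simp only [hv, smul_dotProduct, dotProduct_smul, sub_dotProduct, dotProduct_sub, hww,
        single_dotProduct, dotProduct_single, Pi.single_eq_same, smul_eq_mul, Pi.sub_apply, Pi.smul_apply]
      ring
    have h2 : t ^ 2 ≤ 1 := (sq_le_one_iff_abs_le_one t).2 ht
    rw [h1]
    nlinarith [sq_nonneg t, sq_nonneg (w (R k))]
  have hexp := block_exp (G := G) (S := Sb.ext b sn) (hν.linv_fam Õ) (B := Bp) (B' := B') (v := v)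
    (sdiff_subset.trans (subset_insert _ _)) (card_pos.1 (by exact_mod_cast hB'pos))
    (by
      have h : ∀ o ∈ Bp, (Sb.ext b sn).lam o = 0 ∧ ∀ l ∈ Ico 1 (G.n - 1), (Sb.ext b sn).u l o = 0 := by
        intro o ho
        rcases mem_insert.1 ho with rfl | ho
        · exact ⟨rfl, fun _ _ => rfl⟩
        · obtain ⟨i, hi, rfl⟩ := mem_map.1 ho
          exact hD.free i hi
      exact fun i hi j hj => ⟨(h i hi).1.trans (h j hj).1.symm,
        fun l hl => ((h i hi).2 l hl).trans ((h j hj).2 l hl).symm⟩)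
    (fun o ho => hw0 o fun ⟨k', hk'⟩ => (mem_sdiff.1 ho).2 (mem_image.2 ⟨k', mem_univ _, hk'⟩))
    (fun o ho => by
      have h1 : o ∉ Set.range R := fun ⟨k', hk'⟩ => ho (hk' ▸ hRB k')
      have h2 : o ≠ R k := fun h => h1 ⟨k, h.symm⟩
      simp [hv, hw0 o h1, Pi.single_eq_of_ne h2])
    (by
      change v ⬝ᵥ w = 0
      simp only [hv, smul_dotProduct, sub_dotProduct, hww, single_dotProduct, smul_eq_mul]
      ring)
  have hb : (v ⬝ᵥ v) * Fintype.card (Option ι) / (2 * B'.card) ≤ ā / 2 := by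
    rw [div_le_div_iff₀ (by positivity) two_pos]
    nlinarith
  have hfam := E0_fam (G := G) (ν := ν) Õ (Sb.ext b sn)
    (F := fun z x => Real.exp (v ⬝ᵥ x + t * w (R k) * z)) (by
      have : Continuous fun p : ℝ × (Option ι → ℝ) => Real.exp (v ⬝ᵥ p.2 + t * w (R k) * p.1) := by
        fun_prop
      exact this)
  have he : (fun ω : Pth (Option ι) => Real.exp (t * xx G (R k) ω)) =
      fun ω => Real.exp (v ⬝ᵥ xv G ω + t * w (R k) * xl G w ω) := by
    funext ω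
    congr 1
    simp only [hv, smul_dotProduct, sub_dotProduct, single_dotProduct, smul_eq_mul, xl, xx]
    ring
  rw [he]
  refine hfam.le.trans ?_
  have hH := lin_Ham G (famν Õ ν) (Sb.ext b sn)
  have h1 := Tree.Ex_mono hH
    (((lin_xl (G := G) (ν := famν Õ ν) v).add ((lin_sg none).const_mul (t * w (R k)))).exp)
    (((lin_xl (G := G) (ν := famν Õ ν) v).exp).const_mul (Real.exp 1)) (fun ω => by
      rw [← Real.exp_add]
      refine Real.exp_le_exp.2 ?_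
      have h2 : |t * w (R k) * sg G none ω| ≤ 1 := by
        rw [abs_mul, abs_mul, abs_sg, mul_one]
        exact mul_le_one₀ ht (abs_nonneg _) ((sq_le_one_iff_abs_le_one _).1 hwk)
      linarith [le_abs_self (t * w (R k) * sg G none ω)]) 0 pt0
  rw [Tree.Ex_const_mul] at h1
  refine h1.trans ?_
  rw [Real.exp_add]
  exact mul_le_mul_of_nonneg_left (hexp.trans (Real.exp_le_exp.2 hb)) (Real.exp_pos _).le

theorem Ham_dir (ω : Pth (Option ι)) :
    Ham G (dirL fun o => ∑ k, if o = R k then lam k else 0) ω = (1 / 2) * ∑ k, lam k * xx G (R k) ω ^ 2 := by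
  rw [Ham_dirL]
  congr 1
  simp only [sum_mul]
  rw [sum_comm]
  refine sum_congr rfl fun k _ => ?_
  simp

theorem mom_le {ν : ProbabilityMeasure (OG ι)} {S : Sys ι} {f : Pth ι → ℝ} (hf : (tree G ν).Lin f) {L : ℝ}
    (h1 : E0 G ν S (fun ω => Real.exp (f ω)) ≤ L) (h2 : E0 G ν S (fun ω => Real.exp (-f ω)) ≤ L) (n : ℕ) :
    E0 G ν S (fun ω => |f ω| ^ n) ≤ n.factorial * (2 * L) := by
  have hH := lin_Ham G ν S
  have h := Tree.Ex_mono hH (hf.tame.abs.pow n) ((hf.exp.add hf.neg.exp).const_mul (n.factorial : ℝ))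
    (fun ω => pow_le_exp (f ω) n) 0 pt0
  rw [Tree.Ex_const_mul, Tree.Ex_add hH hf.exp hf.neg.exp] at h
  refine h.trans (mul_le_mul_of_nonneg_left ?_ (Nat.cast_nonneg _))
  have := add_le_add h1 h2
  rw [two_mul]
  exact this

theorem phi_ext' (hD : FamD G Sb B R k1 Õ ā) (hs : ∀ l ∈ Ico 1 (G.n - 1), 0 ≤ sn l) :
    phi G (famν Õ ν) (Sb.ext b sn) = phi G ν Sb + Phi (G.gl fun l => sn l ^ 2) b := by
  refine phi_ext Õ hD.off (fun i ⟨k, hk⟩ => ?_) b hs
  have hk1 : k ≠ k1 := fun h => by rw [h, hD.none] at hk; cases hk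
  obtain ⟨j, hj, h⟩ := hD.mem k hk1
  rw [hk] at h
  cases h
  exact hD.free _ hj

theorem Ham_le {Λ : ℝ} (hl : ∀ k, lam k ∈ Set.Icc (-Λ) 0) (ω : Pth (Option ι)) :
    Ham G (famSys Sb b sn R lam) ω ≤ Ham G (Sb.ext b sn) ω := by
  rw [famSys, Ham_add, Ham_dir]
  have : ∑ k, lam k * xx G (R k) ω ^ 2 ≤ 0 :=
    sum_nonpos fun k _ => mul_nonpos_of_nonpos_of_nonneg (hl k).2 (sq_nonneg _)
  linarith

theorem lower {Λ : ℝ} {nk : ℕ} (hk : Fintype.card 𝒦 ≤ nk) (hν : IsHaar ν) (hD : FamD G Sb B R k1 Õ ā)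
    (hl : ∀ k, lam k ∈ Set.Icc (-Λ) 0) :
    phi G (famν Õ ν) (Sb.ext b sn) - nk * (|Λ| * (2 * Real.exp (1 + ā / 2))) ≤
      phi G (famν Õ ν) (famSys Sb b sn R lam) := by
  have h1 := phi_tangent (G := G) (ν := famν Õ ν) (S := Sb.ext b sn)
    (D := dirL fun o => ∑ k, if o = R k then lam k else 0) 1
  have hH := lin_Ham G (famν Õ ν) (Sb.ext b sn)
  have h2 : Ham G (dirL fun o => ∑ k, if o = R k then lam k else 0) =
      fun ω : Pth (Option ι) => (1 / 2) * ∑ k, lam k * xx G (R k) ω ^ 2 := funext Ham_dir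
  rw [h2, one_mul, E0, EE, Tree.Ex_const_mul, Tree.Ex_sum hH univ
    (F := fun k ω => lam k * xx G (R k) ω ^ 2) fun k _ => ((lin_xx _).tame.pow 2).const_mul _] at h1
  have h3 : ∀ k, -(|Λ| * (4 * Real.exp (1 + ā / 2))) ≤ (tree G (famν Õ ν)).Ex (Ham G (Sb.ext b sn)) 0
      (fun ω => lam k * xx G (R k) ω ^ 2) pt0 := by
    intro k
    rw [Tree.Ex_const_mul]
    have a1 := ext_exp (b := b) (sn := sn) hν hD k (t := 1) (by simp)
    have a2 := ext_exp (b := b) (sn := sn) hν hD k (t := -1) (by simp)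
    simp only [one_mul, neg_mul] at a1 a2
    have a3 := mom_le (lin_xx (R k)) a1 a2 2
    simp only [sq_abs, Nat.factorial_two, Nat.cast_ofNat] at a3
    have a4 : 0 ≤ (tree G (famν Õ ν)).Ex (Ham G (Sb.ext b sn)) 0 (fun ω => xx G (R k) ω ^ 2) pt0 :=
      Tree.Ex_nonneg _ (fun ω => sq_nonneg _) _ _
    rw [E0, EE] at a3
    have a5 : -|Λ| ≤ lam k := by linarith [(hl k).1, le_abs_self Λ]
    nlinarith [mul_le_mul_of_nonneg_right a5 a4, mul_le_mul_of_nonneg_left a3 (abs_nonneg Λ)]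
  have h4 := sum_le_sum fun k (_ : k ∈ (univ : Finset 𝒦)) => h3 k
  rw [sum_const, card_univ, nsmul_eq_mul] at h4
  have h5 : (Fintype.card 𝒦 : ℝ) ≤ nk := by exact_mod_cast hk
  have h6 := mul_le_mul_of_nonneg_right h5
    (by positivity : 0 ≤ |Λ| * (4 * Real.exp (1 + ā / 2)))
  rw [famSys]
  linarith

end FamA

open FamA in
theorem fam_crude (Λ ā : ℝ) (nk : ℕ) : ∃ C : ℝ, 0 ≤ C ∧
    ∀ (ι 𝒦 : Type) [Fintype ι] [DecidableEq ι] [Fintype 𝒦] [DecidableEq 𝒦] (G : Grid)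
      (ν : ProbabilityMeasure (OG ι)) (Sb : Sys ι) (B : Finset ι) (R : 𝒦 → Option ι) (k1 : 𝒦)
      (Õ : OG (Option ι)) (b : ℝ) (sn : ℕ → ℝ) (lam : 𝒦 → ℝ),
      Fintype.card 𝒦 ≤ nk → IsHaar ν → FamD G Sb B R k1 Õ ā → (∀ k, lam k ∈ Set.Icc (-Λ) 0) →
      (∀ l ∈ Ico 1 (G.n - 1), 0 ≤ sn l) →
      phi G (famν Õ ν) (famSys Sb b sn R lam) - phi G ν Sb - Phi (G.gl fun l => sn l ^ 2) b ∈
        Set.Icc (-C) 0 := by
  refine ⟨nk * (|Λ| * (2 * Real.exp (1 + ā / 2))), by positivity,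
    fun ι 𝒦 _ _ _ _ G ν Sb B R k1 Õ b sn lam hk hν hD hl hs => ?_⟩
  have h1 := phi_ext' (ν := ν) (b := b) hD hs
  have h2 := lower (b := b) (sn := sn) hk hν hD hl
  have h3 := phi_le_of_le (G := G) (ν := famν Õ ν) (S := famSys Sb b sn R lam) (S' := Sb.ext b sn) (c := 0)
    fun ω => by rw [add_zero]; exact Ham_le hl ω
  constructor <;> linarith

open FamA in
theorem fam_mom {y : ℝ} (hy : 0 < y) (Λ ā : ℝ) (nk : ℕ) : ∃ M : ℝ, 1 ≤ M ∧
    ∀ (ι 𝒦 : Type) [Fintype ι] [DecidableEq ι] [Fintype 𝒦] [DecidableEq 𝒦] (G : Grid)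
      (ν : ProbabilityMeasure (OG ι)) (Sb : Sys ι) (B : Finset ι) (R : 𝒦 → Option ι) (k1 : 𝒦)
      (Õ : OG (Option ι)) (b : ℝ) (sn : ℕ → ℝ) (lam : 𝒦 → ℝ),
      G.ζ 0 = y → Fintype.card 𝒦 ≤ nk → IsHaar ν → FamD G Sb B R k1 Õ ā → (∀ k, lam k ∈ Set.Icc (-Λ) 0) →
      (∀ l ∈ Ico 1 (G.n - 1), 0 ≤ sn l) → ∀ k,
      E0 G (famν Õ ν) (famSys Sb b sn R lam) (fun ω => xx G (R k) ω ^ 4) ≤ M ^ 4 := by
  set L : ℝ := Real.exp (y * (nk * (|Λ| * (2 * Real.exp (1 + ā / 2))) + (1 + ā / 2))) with hL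
  have hL0 : 0 < L := Real.exp_pos _
  have hq : 0 ≤ 48 * L / y ^ 4 := by positivity
  refine ⟨1 + 48 * L / y ^ 4, by linarith,
    fun ι 𝒦 _ _ _ _ G ν Sb B R k1 Õ b sn lam hGy hk hν hD hl hs k => ?_⟩
  have hH0 := lin_Ham G (famν Õ ν) (Sb.ext b sn)
  have hH1 := lin_Ham G (famν Õ ν) (famSys Sb b sn R lam)
  have key : ∀ t : ℝ, |t| ≤ 1 → E0 G (famν Õ ν) (famSys Sb b sn R lam)
      (fun ω => Real.exp (y * (t * xx G (R k) ω))) ≤ L := by
    intro t ht
    have hη := (lin_xx (G := G) (ν := famν Õ ν) (R k)).const_mul t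
    have h1 := Tree.X_add_ge (l := 0) (l' := G.n) hH1 hη hy hGy.ge (Nat.zero_le _) pt0
    rw [Tree.Ex_of_le (T := tree G (famν Õ ν)) (l := G.n) le_rfl] at h1
    have h2 := Tree.X_mono (hH1.add hη) (hH0.add hη)
      (fun ω => add_le_add (Ham_le hl ω) le_rfl) 0 pt0
    have h3 := Tree.X_add_le hH0 (hH0.add hη) 0 pt0
    simp only [add_sub_cancel_left] at h3
    have h4 := ext_exp (b := b) (sn := sn) hν hD k ht
    have h5 := Real.log_le_log (Tree.Ex_pos hH0 hη.exp (fun ω => Real.exp_pos _) 0 pt0) h4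
    rw [Real.log_exp] at h5
    have h6 := lower (b := b) (sn := sn) hk hν hD hl
    rw [phi, phi] at h6
    have hp := Tree.Ex_pos hH1 (hη.const_mul y).exp (fun ω => Real.exp_pos _) 0 pt0
    rw [E0, EE, hL, ← Real.log_le_iff_le_exp hp, ← inv_mul_le_iff₀ hy]
    linarith
  have a1 := key 1 (by simp)
  have a2 := key (-1) (by simp)
  simp only [one_mul, neg_mul, mul_neg] at a1 a2
  have a3 := mom_le ((lin_xx (R k)).const_mul y) a1 a2 4
  have a4 : (fun ω : Pth (Option ι) => |y * xx G (R k) ω| ^ 4) = fun ω => y ^ 4 * xx G (R k) ω ^ 4 := by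
    funext ω
    rw [show (4 : ℕ) = 2 * 2 from rfl, pow_mul, sq_abs]
    ring
  rw [a4, E0, EE, Tree.Ex_const_mul] at a3
  have a5 : E0 G (famν Õ ν) (famSys Sb b sn R lam) (fun ω => xx G (R k) ω ^ 4) ≤ 48 * L / y ^ 4 := by
    rw [le_div_iff₀ (by positivity), E0, EE]
    norm_num [Nat.factorial] at a3
    linarith
  refine a5.trans ?_
  calc 48 * L / y ^ 4 ≤ 1 + 48 * L / y ^ 4 := by linarith
    _ ≤ _ := le_self_pow₀ (by linarith) (by norm_num)

end Crest.Agent.R164
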