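import Crest.Agent.R164.Key_B

/-!
Row 164, task R164-Key: rotation invariance gives the resolvent identity in the replica algebra.

PLAN.  `key_exact` (fix `j ∈ T`, `1 ≤ i ≤ n`).  If `γ = 0` everything vanishes.  Otherwise let `R θ` be the rotation in the plane spanned by
`ĝ = γ/|γ|` and `e_j` by the angle `|γ| θ`: `R θ x = x + (cos(|γ|θ) - 1)((ĝ⬝x) ĝ + x_j e_j) + sin(|γ|θ) (x_j ĝ - (ĝ⬝x) e_j)`; it is orthogonal, fixes `ω`,
and `d/dθ (R θ x) = x_j γ - (γ⬝x) e_j` at `0`.  `H θ = Ham ∘ (rootMul (R θ) ∘ ·)` is an `LFam` (`LFam.comb`: coefficients `cos`, `sin` and products),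
with derivative `eta j` at `0`; `F θ = Ex (H θ) i (ψ ⬝ R θ x) * Ex (H θ) i ((R θ x)_j)` is a `TFam` (`TFam.Ex`, `TFam.mul`); by `map_all`,
`rootMul_mp`, `base_indep`, `X (H θ) 0` and `Ex (H θ) 0 (F θ)` do not depend on `θ`; `root_identity`.
`key`: sum `key_exact` over `j ∈ T`, divide by `|T|`; expand both `chi` with `chi_eq` (for `i = n` they vanish); with `z = xl (lam γ)`, `R_k = qq k`:
`Σ_j m_j^k EE k (x_j z)/|T| = EE k (z R_k)`; replace `R_k` by `a_k` at the cost `M² δ_k` (Hölder 4,4,2: `|E0 (f g h)| ≤ ‖f‖₄ ‖g‖₄ ‖h‖₂` by two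
Cauchy-Schwarz; `E0 (EE k f)⁴ ≤ E0 f⁴`).  For `k < i`: with `A_j = EE k (m_ψ^i x_j) = m_ψ^k m_j^k + c_j`, `B_j = EE k (x_j z) = m_z^k m_j^k + c'_j`,
`|c|² ≤ EE k (ψx)² Pur`, `|c'|² ≤ EE k z² Pur` (`cov_le`), and `Σ_j m_j^k c'_j/|T| = EE k (z (R_k - a_k)) - m_z^k EE k (R_k - a_k)`.
Small terms: `Gv j = lT x_j + Σ_l uT l gx l j`, `E0 Σ_{j∈T} (Gv j)² ≤ 6 ξ² ā |T|` (`E0_gx_sq`), every small term is `E0 (f * xl γ * (Σ_j y_j Gv j)/|T|)`-like, bounded by
`M² √ā √(6 ā) ξ`.  Compare with `conv` through `D_eq`; `nrm` only sees `2 ≤ i ≤ n`; `|e_i| ≤ C M² (δ_i + nrm δ + ā ξ)`.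
-/

set_option autoImplicit false

namespace Crest.Agent.R164

open MeasureTheory Finset Matrix

variable {ι : Type} [Fintype ι] [DecidableEq ι]
variable {G : Grid} {ν : ProbabilityMeasure (OG ι)} {S : Sys ι} {T : Finset ι}

/-- derivative of the Hamiltonian along the rotation in the plane `(γ, e_j)` -/
noncomputable def eta (G : Grid) (S : Sys ι) (γ : ι → ℝ) (j : ι) (ω : Pth ι) : ℝ :=
  xx G j ω * xl G (fun i => S.lam i * γ i) ω -
    (S.lam j * xx G j ω + ∑ l ∈ Ico 1 (G.n - 1), S.u l j * gx l j ω) * xl G γ ω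

theorem key_exact {ω ψ γ : ι → ℝ} (hν : LInv ν ω) {j : ι} (hω : ω j = 0) (hψ : ψ j = 0) (hγ : γ j = 0)
    (hγω : γ ⬝ᵥ ω = 0) (hu : ∀ l ∈ Ico 1 (G.n - 1), ∀ i, γ i ≠ 0 → S.u l i = 0) {i : ℕ} (hi : 1 ≤ i) :
    E0 G ν S (fun ω =>
        ((ψ ⬝ᵥ γ) * EE G ν S i (xx G j) ω + (tree G ν).chi (Ham G S) i (xl G ψ) (eta G S γ j) ω) *
          EE G ν S i (xx G j) ω +
        EE G ν S i (xl G ψ) ω *
          (-EE G ν S i (xl G γ) ω + (tree G ν).chi (Ham G S) i (xx G j) (eta G S γ j) ω)) +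
      E0 G ν S (fun ω => EE G ν S i (xl G ψ) ω * EE G ν S i (xx G j) ω * eta G S γ j ω) -
      ∑ k ∈ Ioo 0 G.n, G.w k * E0 G ν S (fun ω =>
        EE G ν S i (xl G ψ) ω * EE G ν S i (xx G j) ω * EE G ν S k (eta G S γ j) ω) = 0 := by
  have LY := fun k => key_LF_xx (G := G) (ν := ν) hγ k
  have bY : ∀ k t ω, |xx G k (key_rot (key_R hγ t) ω)| ≤ Fintype.card ι + 1 := fun k t ω =>
    key_xx_bd k _
  have LH : (tree G ν).LF (fun t ω => Ham G S (key_rot (key_R hγ t) ω)) (eta G S γ j) := by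
    refine ((((Tree.LF.sum univ fun k _ => ((LY k).mul (LY k) (bY k)).const_mul (S.lam k)).const_mul
      (1 / 2)).add (Tree.LF.const (lin_spin S.pot))).add
      (Tree.LF.sum (Ico 1 (G.n - 1)) fun l hl => Tree.LF.sum univ fun k _ =>
        (Tree.LF.const (((lin_gs (l := l) (by have := (mem_Ico.1 hl).2; omega) k).mul_bdd
          (lin_sg (G := G) (ν := ν) k).1
          (fun ω => (abs_sg k ω).le)).const_mul (S.s l k))).add
        (((Tree.LF.const (lin_gx (l := l) (by have := (mem_Ico.1 hl).2; omega) k)).mul (LY k)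
          (bY k)).const_mul (S.u l k)))).congr (fun t ω => ?_) fun ω => ?_
    · simp only [Ham, sq]
      rfl
    · have e1 : ∀ k, S.lam k * ((xx G j ω * γ k - xl G γ ω * (Pi.single j 1 : ι → ℝ) k) * xx G k ω +
          xx G k ω * (xx G j ω * γ k - xl G γ ω * (Pi.single j 1 : ι → ℝ) k)) =
          2 * xx G j ω * (S.lam k * γ k * xx G k ω) -
            (Pi.single j 1 : ι → ℝ) k * (2 * xl G γ ω * (S.lam k * xx G k ω)) := fun k => by ring
      have e2 : ∀ l ∈ Ico 1 (G.n - 1), ∑ k, (0 + S.u l k * (0 * xx G k ω +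
          gx l k ω * (xx G j ω * γ k - xl G γ ω * (Pi.single j 1 : ι → ℝ) k))) =
          -(S.u l j * gx l j ω * xl G γ ω) := by
        intro l hl
        rw [sum_eq_single j]
        · simp only [hγ, Pi.single_eq_same]; ring
        · intro k _ hk
          by_cases h0 : γ k = 0
          · simp [h0, hk]
          · simp [hu l hl k h0]
        · simp
      simp only [key_R_zero, key_rot_one, e1]
      rw [sum_congr rfl e2, sum_sub_distrib, ← mul_sum, sum_neg_distrib, ← sum_mul,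
        sum_eq_single j (f := fun k => (Pi.single j 1 : ι → ℝ) k *
          (2 * xl G γ ω * (S.lam k * xx G k ω))) (fun k _ hk => by simp [hk]) (by simp)]
      have e3 : ∑ k, S.lam k * γ k * xx G k ω = xl G (fun i => S.lam i * γ i) ω := rfl
      rw [e3, eta, Pi.single_eq_same]
      ring
  have Lψ : (tree G ν).LF (fun t ω => xl G ψ (key_rot (key_R hγ t) ω))
      fun ω => (ψ ⬝ᵥ γ) * xx G j ω := by
    refine (Tree.LF.sum univ fun k _ => (LY k).const_mul (ψ k)).congr (fun t ω => rfl) fun ω => ?_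
    simp only [mul_sub, sum_sub_distrib]
    rw [sum_eq_single j (f := fun k => ψ k * (xl G γ ω * (Pi.single j 1 : ι → ℝ) k))
      (fun k _ hk => by simp [hk]) (by simp), hψ, dotProduct, sum_mul]
    simp only [zero_mul, sub_zero]
    exact sum_congr rfl fun k _ => by ring
  have Lj : (tree G ν).LF (fun t ω => xx G j (key_rot (key_R hγ t) ω)) fun ω => -xl G γ ω :=
    (LY j).congr (fun _ _ => rfl) fun ω => by simp [hγ]
  obtain ⟨H', hH, hH0⟩ := LH
  obtain ⟨Y', hY, hY0⟩ := Lψ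
  obtain ⟨X', hX, hX0⟩ := Lj
  have hF := (hY.1.Ex hH i).mul (hX.1.Ex hH i)
  have tF : (tree G ν).Tame fun ω => EE G ν S i (xl G ψ) ω * EE G ν S i (xx G j) ω :=
    (key_tEE (lin_xl ψ).tame i).mul (key_tEE (lin_xx j).tame i)
  have lF : Loc G fun ω => EE G ν S i (xl G ψ) ω * EE G ν S i (xx G j) ω := fun a b hab => by
    simp only [(key_loc_xl ψ).EE (ν := ν) (S := S) i a b hab,
      (key_loc_xx j).EE (ν := ν) (S := S) i a b hab]
  have hconst : ∀ t, (tree G ν).X (fun ω => Ham G S (key_rot (key_R hγ t) ω)) 0 pt0 = phi G ν S ∧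
      (tree G ν).Ex (fun ω => Ham G S (key_rot (key_R hγ t) ω)) 0
        (fun ω => (tree G ν).Ex (fun ω => Ham G S (key_rot (key_R hγ t) ω)) i
            (fun ω => xl G ψ (key_rot (key_R hγ t) ω)) ω *
          (tree G ν).Ex (fun ω => Ham G S (key_rot (key_R hγ t) ω)) i
            (fun ω => xx G j (key_rot (key_R hγ t) ω)) ω) pt0 =
      E0 G ν S fun ω => EE G ν S i (xl G ψ) ω * EE G ν S i (xx G j) ω := by
    intro t
    have mp := rootMul_mp (G := G) (hν _ (key_R_fix hγ hω hγω t))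
    have m : ∀ {f : Pth ι → ℝ}, (tree G ν).Tame f → ∀ l ω',
        (tree G ν).X (fun ω => Ham G S (key_rot (key_R hγ t) ω)) l ω' =
          (tree G ν).X (Ham G S) l (key_rot (key_R hγ t) ω') ∧
        (tree G ν).Ex (fun ω => Ham G S (key_rot (key_R hγ t) ω)) l
          (fun ω => f (key_rot (key_R hγ t) ω)) ω' = EE G ν S l f (key_rot (key_R hγ t) ω') :=
      fun hf l ω' => Tree.map_all (T := tree G ν) (T' := tree G ν) rfl rfl
        (fun _ => rootMul (key_R hγ t)) (fun _ => mp) (lin_Ham G ν S) hf l ω'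
    have b := base_indep (S := S) tF lF (key_rot (key_R hγ t) pt0)
    refine ⟨(m tF 0 pt0).1.trans b.1, ?_⟩
    simp only [fun ω => (m (lin_xl ψ).tame i ω).2, fun ω => (m (lin_xx j).tame i ω).2]
    exact (m tF 0 pt0).2.trans b.2
  have h3 := G.three_le
  have R := Tree.root_identity hH hF (show 0 < G.n by omega) pt0
    (Filter.Eventually.of_forall fun t => by
      simp only [(hconst t).1, (hconst t).2, (hconst 0).1, (hconst 0).2])
  simp only [key_R_zero, key_rot_one, hH0, hY0, hX0, Tree.Ex_const_mul, Tree.Ex_neg] at R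
  rw [show (tree G ν).ζ ((tree G ν).n - 1) = 1 from G.top, one_mul] at R
  exact R

theorem holder442 {f g h : Pth ι → ℝ} (hf : (tree G ν).Tame f) (hg : (tree G ν).Tame g)
    (hh : (tree G ν).Tame h) {M M' δ : ℝ} (hM : 0 ≤ M) (hM' : 0 ≤ M') (hδ : 0 ≤ δ)
    (h1 : E0 G ν S (fun ω => f ω ^ 4) ≤ M ^ 4) (h2 : E0 G ν S (fun ω => g ω ^ 4) ≤ M' ^ 4)
    (h3 : E0 G ν S (fun ω => h ω ^ 2) ≤ δ ^ 2) :
    E0 G ν S (fun ω => |f ω * g ω * h ω|) ≤ M * M' * δ := by
  have a1 : E0 G ν S (fun ω => f ω ^ 2 * g ω ^ 2) ≤ (M * M') ^ 2 := by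
    refine (abs_le_of_sq_le_sq' ?_ (by positivity)).2
    have := key_EE_cs (S := S) (hf.pow 2) (hg.pow 2) 0 pt0
    simp only [← pow_mul] at this
    refine this.trans ((mul_le_mul h1 h2 (key_EE_nonneg (fun ω => by positivity) 0 pt0)
      (by positivity)).trans (le_of_eq (by ring)))
  refine (abs_le_of_sq_le_sq' ?_ (by positivity)).2
  have := key_EE_cs (S := S) (hf.mul hg).abs hh.abs 0 pt0
  simp only [sq_abs, ← abs_mul, mul_pow] at this
  refine this.trans ((mul_le_mul a1 h3 (key_EE_nonneg (fun ω => by positivity) 0 pt0)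
    (by positivity)).trans (le_of_eq (by ring)))

theorem cov_le {f : Pth ι → ℝ} (hf : (tree G ν).Tame f) {k : ℕ} {ω : Pth ι} {p : ℝ} (hp : 0 ≤ p)
    (h : ∀ v : ι → ℝ, (∀ i, i ∉ T → v i = 0) →
      EE G ν S k (fun ω => xl G v ω ^ 2) ω - EE G ν S k (xl G v) ω ^ 2 ≤ (v ⬝ᵥ v) * p) :
    ∑ j ∈ T, (EE G ν S k (fun ω => f ω * xx G j ω) ω - EE G ν S k f ω * EE G ν S k (xx G j) ω) ^ 2 ≤
      EE G ν S k (fun ω => f ω ^ 2) ω * p := by
  set c : ι → ℝ := fun j =>
    EE G ν S k (fun ω => f ω * xx G j ω) ω - EE G ν S k f ω * EE G ν S k (xx G j) ω with hc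
  set v : ι → ℝ := fun j => if j ∈ T then c j else 0 with hv
  have hvv : v ⬝ᵥ v = ∑ j ∈ T, c j ^ 2 := by
    simp only [dotProduct, hv, ite_mul, mul_ite, zero_mul, mul_zero, sq]
    rw [← sum_filter]
    simp
  have hxl : xl G v = fun ω => ∑ j ∈ T, c j * xx G j ω := by
    funext ω
    simp only [xl, dotProduct, hv, ite_mul, zero_mul, xx]
    rw [← sum_filter]
    simp
  have tx : ∀ j, (tree G ν).Tame (xx G j) := fun j => (lin_xx j).tame
  have tl : (tree G ν).Tame (xl G v) := (lin_xl v).tame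
  set m := EE G ν S k (xl G v) ω with hm
  have e1 : EE G ν S k (fun ω => f ω * (xl G v ω - m)) ω = ∑ j ∈ T, c j ^ 2 := by
    have : (fun ω => f ω * (xl G v ω - m))
        = fun ω => ∑ j ∈ T, c j * (f ω * xx G j ω) - m * f ω := by
      funext ω
      rw [hxl, mul_sub, mul_sum, mul_comm (f ω) m]
      simp only [mul_left_comm (f ω)]
    rw [this, key_EE_sub (Tree.Tame.sum _ fun j _ => (hf.mul (tx j)).const_mul _) (hf.const_mul _),
      key_EE_sum _ fun j _ => (hf.mul (tx j)).const_mul _, key_EE_cmul, hm, hxl,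
      key_EE_sum _ fun j _ => (tx j).const_mul _, sum_mul, ← sum_sub_distrib]
    refine sum_congr rfl fun j _ => ?_
    rw [key_EE_cmul, key_EE_cmul]
    simp only [hc]
    ring
  have e2 : EE G ν S k (fun ω => (xl G v ω - m) ^ 2) ω
      = EE G ν S k (fun ω => xl G v ω ^ 2) ω - m ^ 2 := by
    have : (fun ω => (xl G v ω - m) ^ 2) = fun ω => xl G v ω ^ 2 - 2 * m * xl G v ω + m ^ 2 := by
      funext ω; ring
    rw [this, key_EE_add ((tl.pow 2).sub (tl.const_mul _)) (Tree.Tame.const _),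
      key_EE_sub (tl.pow 2) (tl.const_mul _), key_EE_cmul, key_EE_const, ← hm]
    ring
  have cs := key_EE_cs (S := S) hf (tl.sub (Tree.Tame.const m)) k ω
  have hvar := h v fun i hi => if_neg hi
  rw [e1, e2] at cs
  rw [hvv, ← hm] at hvar
  have f0 : 0 ≤ EE G ν S k (fun ω => f ω ^ 2) ω := key_EE_nonneg (fun _ => sq_nonneg _) k ω
  have s0 : 0 ≤ ∑ j ∈ T, c j ^ 2 := sum_nonneg fun _ _ => sq_nonneg _
  rcases s0.eq_or_lt with s1 | s1
  · rw [← s1]; positivity
  · have := cs.trans (mul_le_mul_of_nonneg_left hvar f0)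
    refine le_of_mul_le_mul_left ?_ s1
    nlinarith

/-- `Σ_j (EE q x_j)² ≤ N` -/
theorem key_sum_m_sq (q : ℕ) (ω : Pth ι) : ∑ j ∈ T, EE G ν S q (xx G j) ω ^ 2 ≤ Fintype.card ι := by
  calc ∑ j ∈ T, EE G ν S q (xx G j) ω ^ 2 ≤ ∑ j, EE G ν S q (xx G j) ω ^ 2 :=
        sum_le_sum_of_subset_of_nonneg (subset_univ T) fun _ _ _ => sq_nonneg _
    _ ≤ ∑ j, EE G ν S q (fun ω => xx G j ω ^ 2) ω :=
        sum_le_sum fun j _ => key_sq_EE (lin_xx j).tame q ω
    _ = Fintype.card ι := by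
        rw [← key_EE_sum _ fun j _ => (lin_xx j).tame.pow 2]
        simp only [sum_xx_sq, key_EE_const]

/-- the small coefficient -/
noncomputable def key_Gv (G : Grid) (S : Sys ι) (j : ι) (ω : Pth ι) : ℝ :=
  S.lam j * xx G j ω + ∑ l ∈ Ico 1 (G.n - 1), S.u l j * gx l j ω

theorem key_tgx {l : ℕ} (hl : l ∈ Ico 1 (G.n - 1)) (j : ι) : (tree G ν).Tame (gx l j) :=
  (lin_gx (l := l) (by have := (mem_Ico.1 hl).2; omega) j).tame

theorem key_tGv (j : ι) : (tree G ν).Tame (key_Gv G S j) :=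
  ((lin_xx j).tame.const_mul _).add (Tree.Tame.sum _ fun _ hl => (key_tgx hl j).const_mul _)

theorem key_Gv_sq {lT ξ : ℝ} {uT : ℕ → ℝ} (htop : Top G S T lT uT)
    (hξ : |lT| + ∑ l ∈ Ico 1 (G.n - 1), |uT l| ≤ ξ) (hξ1 : ξ ≤ 1) :
    E0 G ν S (fun ω => ∑ j ∈ T, key_Gv G S j ω ^ 2) ≤ 2 * ξ ^ 2 * Fintype.card ι := by
  set U := ∑ l ∈ Ico 1 (G.n - 1), |uT l| with hU
  have hU0 : 0 ≤ U := sum_nonneg fun _ _ => abs_nonneg _
  have hl0 := abs_nonneg lT
  have hξ0 : 0 ≤ ξ := by linarith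
  have hN : (0 : ℝ) ≤ Fintype.card ι := Nat.cast_nonneg _
  have tx : ∀ j, (tree G ν).Tame (xx G j) := fun j => (lin_xx j).tame
  have pt : ∀ j ∈ T, ∀ ω, key_Gv G S j ω ^ 2 ≤
      ξ * (|lT| * xx G j ω ^ 2 + ∑ l ∈ Ico 1 (G.n - 1), |uT l| * gx l j ω ^ 2) := by
    intro j hj ω
    rw [key_Gv, htop.lam j hj, sum_congr rfl fun l hl => by rw [htop.u l hl j hj]]
    set B := ∑ l ∈ Ico 1 (G.n - 1), |uT l| * gx l j ω ^ 2 with hB
    have hB0 : 0 ≤ B := sum_nonneg fun _ _ => by positivity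
    set A := ∑ l ∈ Ico 1 (G.n - 1), uT l * gx l j ω with hA
    have h1 : A ^ 2 ≤ U * B :=
      sum_sq_le_sum_mul_sum_of_sq_le_mul _ (fun _ _ => abs_nonneg _) (fun _ _ => by positivity)
        fun l _ => le_of_eq (by rw [mul_pow, ← sq_abs (uT l)]; ring)
    have h2 := sum_sq_le_sum_mul_sum_of_sq_le_mul (univ : Finset (Fin 2))
      (r := ![lT * xx G j ω, A]) (f := ![|lT|, U]) (g := ![|lT| * xx G j ω ^ 2, B])
      (by simp [Fin.forall_fin_two, hU0]) (by simp [Fin.forall_fin_two, hB0]; positivity)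
      (by
        simp only [mem_univ, forall_const, Fin.forall_fin_two, cons_val_zero, cons_val_one]
        exact ⟨le_of_eq (by rw [mul_pow, ← sq_abs lT]; ring), h1⟩)
    simp only [Fin.sum_univ_two, cons_val_zero, cons_val_one] at h2
    exact h2.trans (mul_le_mul_of_nonneg_right hξ (by positivity))
  have sx : ∑ j ∈ T, E0 G ν S (fun ω => xx G j ω ^ 2) ≤ Fintype.card ι := by
    rw [← key_E_sum _ fun j _ => (tx j).pow 2]
    have := key_E_mono (S := S) (Tree.Tame.sum T fun j _ => (tx j).pow 2)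
      (Tree.Tame.const (Fintype.card ι : ℝ)) fun ω => by
        rw [← sum_xx_sq (G := G) ω]
        exact sum_le_sum_of_subset_of_nonneg (subset_univ T) fun _ _ _ => sq_nonneg _
    rwa [key_E_const] at this
  have sg' : ∀ l ∈ Ico 1 (G.n - 1),
      ∑ j ∈ T, E0 G ν S (fun ω => gx l j ω ^ 2) ≤ 2 * Fintype.card ι := by
    intro l hl
    have u1 : uT l ^ 2 ≤ 1 := by
      have := single_le_sum (f := fun l => |uT l|) (fun _ _ => abs_nonneg _) hl
      rw [sq_le_one_iff_abs_le_one]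
      linarith
    calc _ ≤ ∑ j ∈ T, (1 + E0 G ν S (fun ω => xx G j ω ^ 2)) := sum_le_sum fun j hj => by
          refine (E0_gx_sq hl j).trans ?_
          rw [htop.u l hl j hj, ov_top]
          simp only [← sq]
          have := mul_le_of_le_one_left (key_EE_nonneg (G := G) (ν := ν) (S := S)
            (f := fun ω => xx G j ω ^ 2) (fun _ => sq_nonneg _) 0 pt0) u1
          exact add_le_add le_rfl this
      _ ≤ _ := by
          rw [sum_add_distrib, sum_const, nsmul_eq_mul, mul_one]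
          have : (T.card : ℝ) ≤ Fintype.card ι := by exact_mod_cast card_le_univ T
          linarith
  have t1 : ∀ j, (tree G ν).Tame fun ω => ∑ l ∈ Ico 1 (G.n - 1), |uT l| * gx l j ω ^ 2 := fun j =>
    Tree.Tame.sum _ fun l hl => ((key_tgx hl j).pow 2).const_mul _
  calc _ = ∑ j ∈ T, E0 G ν S (fun ω => key_Gv G S j ω ^ 2) :=
        key_E_sum _ fun j _ => (key_tGv j).pow 2
    _ ≤ ∑ j ∈ T, ξ * (|lT| * E0 G ν S (fun ω => xx G j ω ^ 2) +
          ∑ l ∈ Ico 1 (G.n - 1), |uT l| * E0 G ν S (fun ω => gx l j ω ^ 2)) :=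
        sum_le_sum fun j hj => by
          refine (key_E_mono ((key_tGv j).pow 2)
            (((((tx j).pow 2).const_mul _).add (t1 j)).const_mul _) (pt j hj)).trans (le_of_eq ?_)
          rw [key_E_cmul, key_E_add (((tx j).pow 2).const_mul _) (t1 j), key_E_cmul,
            key_E_sum _ fun l hl => ((key_tgx hl j).pow 2).const_mul _]
          simp only [key_E_cmul]
    _ = ξ * (|lT| * ∑ j ∈ T, E0 G ν S (fun ω => xx G j ω ^ 2) +
          ∑ l ∈ Ico 1 (G.n - 1), |uT l| * ∑ j ∈ T, E0 G ν S (fun ω => gx l j ω ^ 2)) := by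
        rw [← mul_sum, sum_add_distrib, ← mul_sum, sum_comm]
        simp only [← mul_sum]
    _ ≤ ξ * (|lT| * (2 * Fintype.card ι) + ∑ l ∈ Ico 1 (G.n - 1), |uT l| * (2 * Fintype.card ι)) := by
        refine mul_le_mul_of_nonneg_left (add_le_add
          (mul_le_mul_of_nonneg_left (by linarith) hl0)
          (sum_le_sum fun l hl => mul_le_mul_of_nonneg_left (sg' l hl) (abs_nonneg _))) hξ0
    _ ≤ _ := by
        rw [← sum_mul, ← add_mul, ← hU]
        have := mul_le_mul_of_nonneg_left (mul_le_mul_of_nonneg_right hξ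
          (by positivity : (0 : ℝ) ≤ 2 * Fintype.card ι)) hξ0
        linarith

theorem key_small {lT ξ M : ℝ} {uT : ℕ → ℝ} (htop : Top G S T lT uT)
    (hξ : |lT| + ∑ l ∈ Ico 1 (G.n - 1), |uT l| ≤ ξ) (hξ1 : ξ ≤ 1) {f g : Pth ι → ℝ}
    (hf : (tree G ν).Tame f) (hg : (tree G ν).Tame g) (hM : 0 ≤ M)
    (h1 : E0 G ν S (fun ω => f ω ^ 4) ≤ M ^ 4) (h2 : E0 G ν S (fun ω => g ω ^ 4) ≤ M ^ 4) (q k : ℕ) :
    |∑ j ∈ T, E0 G ν S (fun ω => f ω * EE G ν S q (xx G j) ω *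
      EE G ν S k (fun ω => key_Gv G S j ω * g ω) ω)| ≤ M * M * (2 * ξ * Fintype.card ι) := by
  have hξ0 : 0 ≤ ξ :=
    (add_nonneg (abs_nonneg _) (sum_nonneg fun _ _ => abs_nonneg _)).trans hξ
  have hN : (0 : ℝ) ≤ Fintype.card ι := Nat.cast_nonneg _
  have tm : ∀ j, (tree G ν).Tame fun ω => f ω * EE G ν S q (xx G j) ω := fun j =>
    hf.mul (key_tEE (lin_xx j).tame q)
  have tW : ∀ j ∈ T, (tree G ν).Tame fun ω =>
      EE G ν S k (fun ω => f ω * EE G ν S q (xx G j) ω) ω * (key_Gv G S j ω * g ω) := fun j _ =>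
    (key_tEE (tm j) k).mul ((key_tGv j).mul hg)
  have tG : (tree G ν).Tame fun ω => (Fintype.card ι : ℝ) * ∑ j ∈ T, key_Gv G S j ω ^ 2 :=
    (Tree.Tame.sum _ fun j _ => (key_tGv j).pow 2).const_mul _
  have tf := (key_tEE (S := S) (hf.pow 2) k).sqrt
  rw [sum_congr rfl fun j _ => key_E_move (fun ω => f ω * EE G ν S q (xx G j) ω) _ k,
    ← key_E_sum _ tW]
  refine (key_E_abs (Tree.Tame.sum _ tW)).trans ((key_E_mono (Tree.Tame.sum _ tW).abs
    ((tf.mul hg).mul tG.sqrt).abs fun ω => ?_).trans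
    (holder442 tf hg tG.sqrt hM hM (by positivity) ((key_E_sqrt_four hf k).trans h1) h2 ?_))
  · have f0 : 0 ≤ EE G ν S k (fun ω => f ω ^ 2) ω := key_EE_nonneg (fun _ => sq_nonneg _) k ω
    have G0 : 0 ≤ ∑ j ∈ T, key_Gv G S j ω ^ 2 := sum_nonneg fun _ _ => sq_nonneg _
    have a1 : ∑ j ∈ T, EE G ν S k (fun ω => f ω * EE G ν S q (xx G j) ω) ω ^ 2 ≤
        Fintype.card ι * EE G ν S k (fun ω => f ω ^ 2) ω := by
      refine (sum_le_sum fun j _ => key_sq_EE (tm j) k ω).trans ?_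
      rw [← key_EE_sum _ fun j _ => (tm j).pow 2, ← key_EE_cmul]
      refine key_EE_mono (Tree.Tame.sum _ fun j _ => (tm j).pow 2) ((hf.pow 2).const_mul _)
        (fun ω => ?_) k ω
      simp only [mul_pow]
      rw [← mul_sum, mul_comm]
      exact mul_le_mul_of_nonneg_right (key_sum_m_sq q ω) (sq_nonneg _)
    rw [← sq_le_sq, mul_pow, mul_pow, Real.sq_sqrt f0, Real.sq_sqrt (by positivity)]
    simp only [← mul_assoc]
    rw [← sum_mul, mul_pow]
    have a2 := (sum_mul_sq_le_sq_mul_sq T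
      (fun j => EE G ν S k (fun ω => f ω * EE G ν S q (xx G j) ω) ω)
      (fun j => key_Gv G S j ω)).trans (mul_le_mul_of_nonneg_right a1 G0)
    exact (mul_le_mul_of_nonneg_right a2 (sq_nonneg _)).trans (le_of_eq (by ring))
  · rw [key_E_congr (g := fun ω => (Fintype.card ι : ℝ) * ∑ j ∈ T, key_Gv G S j ω ^ 2) fun ω =>
      Real.sq_sqrt (mul_nonneg hN (sum_nonneg fun _ _ => sq_nonneg _)), key_E_cmul]
    have := mul_le_mul_of_nonneg_left (key_Gv_sq (ν := ν) htop hξ hξ1) hN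
    nlinarith [sq_nonneg (ξ * Fintype.card ι)]

theorem key_tqq (k : ℕ) : (tree G ν).Tame (qq G ν S T k) := by
  have := (Tree.Tame.sum T fun j _ =>
    (lin_xx (G := G) (ν := ν) j).tame.mul (key_tEE (S := S) (lin_xx j).tame k)).const_mul
      (T.card : ℝ)⁻¹
  simp only [← div_eq_inv_mul] at this
  exact this

theorem key_avg {u v : Pth ι → ℝ} (hu : (tree G ν).Tame u) (hv : (tree G ν).Tame v) (q : ℕ) :
    (∑ j ∈ T, E0 G ν S fun ω => u ω * v ω * (xx G j ω * EE G ν S q (xx G j) ω)) / T.card =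
      E0 G ν S fun ω => u ω * v ω * qq G ν S T q ω := by
  rw [← key_E_sum _ fun j _ => (hu.mul hv).mul ((lin_xx j).tame.mul (key_tEE (lin_xx j).tame q)),
    div_eq_inv_mul, ← key_E_cmul]
  refine key_E_congr fun ω => ?_
  rw [qq, ← mul_sum]
  ring

theorem key_repl {u v : Pth ι → ℝ} (hu : (tree G ν).Tame u) (hv : (tree G ν).Tame v) {M δ a : ℝ}
    (hM : 0 ≤ M) (hδ : 0 ≤ δ) (h1 : E0 G ν S (fun ω => u ω ^ 4) ≤ M ^ 4)
    (h2 : E0 G ν S (fun ω => v ω ^ 4) ≤ M ^ 4) {q : ℕ}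
    (h3 : E0 G ν S (fun ω => (qq G ν S T q ω - a) ^ 2) ≤ δ ^ 2) :
    |(∑ j ∈ T, E0 G ν S fun ω => u ω * v ω * (xx G j ω * EE G ν S q (xx G j) ω)) / T.card -
      a * E0 G ν S fun ω => u ω * v ω| ≤ M * M * δ := by
  have tq := (key_tqq (G := G) (ν := ν) (S := S) (T := T) q).sub (Tree.Tame.const a)
  rw [key_avg hu hv, ← key_E_cmul, ← key_E_sub ((hu.mul hv).mul (key_tqq q)) ((hu.mul hv).const_mul a),
    key_E_congr (g := fun ω => u ω * v ω * (qq G ν S T q ω - a)) fun ω => by ring]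
  exact (key_E_abs ((hu.mul hv).mul tq)).trans (holder442 hu hv tq hM hM hδ h1 h2 h3)

theorem key_main1 {f z : Pth ι → ℝ} (hf : (tree G ν).Tame f) (hz : (tree G ν).Tame z) {M δ a : ℝ}
    (hM : 0 ≤ M) (hδ : 0 ≤ δ) (h1 : E0 G ν S (fun ω => f ω ^ 4) ≤ M ^ 4)
    (h2 : E0 G ν S (fun ω => z ω ^ 4) ≤ M ^ 4) {q k : ℕ} (hqk : q ≤ k)
    (h3 : E0 G ν S (fun ω => (qq G ν S T q ω - a) ^ 2) ≤ δ ^ 2) :
    |(∑ j ∈ T, E0 G ν S fun ω => f ω * EE G ν S q (xx G j) ω *
        EE G ν S k (fun ω => xx G j ω * z ω) ω) / T.card -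
      a * E0 G ν S fun ω => EE G ν S k f ω * z ω| ≤ M * M * δ := by
  have e : ∀ j, E0 G ν S (fun ω => f ω * EE G ν S q (xx G j) ω *
      EE G ν S k (fun ω => xx G j ω * z ω) ω) =
      E0 G ν S fun ω => EE G ν S k f ω * z ω * (xx G j ω * EE G ν S q (xx G j) ω) := by
    intro j
    rw [key_E_congr (g := fun ω => f ω *
        EE G ν S k (fun ω => EE G ν S q (xx G j) ω * (xx G j ω * z ω)) ω) fun ω => by
          rw [key_EE_dep ((key_dEE _ q).mono hqk), mul_assoc], key_E_move]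
    exact key_E_congr fun ω => by ring
  simp only [e]
  exact key_repl (key_tEE hf k) hz hM hδ ((key_E_four hf k).trans h1) h2 h3

theorem key_main2 (hT : T.Nonempty) {f z Pur : Pth ι → ℝ} (hf : (tree G ν).Tame f)
    (hz : (tree G ν).Tame z) {M δ a : ℝ}
    (hM : 0 ≤ M) (hδ : 0 ≤ δ) (h1 : E0 G ν S (fun ω => f ω ^ 4) ≤ M ^ 4)
    (h2 : E0 G ν S (fun ω => z ω ^ 4) ≤ M ^ 4) {k : ℕ}
    (h3 : E0 G ν S (fun ω => (qq G ν S T k ω - a) ^ 2) ≤ δ ^ 2) (tP : (tree G ν).Tame Pur)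
    (P0 : ∀ ω, 0 ≤ Pur ω) (hP : ∀ (v : ι → ℝ) (ω : Pth ι), (∀ i, i ∉ T → v i = 0) →
      EE G ν S k (fun ω => xl G v ω ^ 2) ω - EE G ν S k (xl G v) ω ^ 2 ≤ (v ⬝ᵥ v) * Pur ω)
    (hP2 : E0 G ν S (fun ω => Pur ω ^ 2) ≤ (T.card * δ) ^ 2) :
    |(∑ j ∈ T, E0 G ν S fun ω => EE G ν S k (fun ω => f ω * xx G j ω) ω *
        EE G ν S k (fun ω => z ω * xx G j ω) ω) / T.card -
      a * E0 G ν S fun ω => EE G ν S k f ω * EE G ν S k z ω| ≤ 4 * (M * M) * δ := by
  have hτ : (0 : ℝ) < T.card := by exact_mod_cast hT.card_pos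
  have tx : ∀ j, (tree G ν).Tame (xx G j) := fun j => (lin_xx j).tame
  have tm : ∀ j, (tree G ν).Tame (EE G ν S k (xx G j)) := fun j => key_tEE (tx j) k
  have tf := key_tEE (S := S) hf k
  have tz := key_tEE (S := S) hz k
  have tA : ∀ j, (tree G ν).Tame (EE G ν S k fun ω => f ω * xx G j ω) := fun j =>
    key_tEE (hf.mul (tx j)) k
  have tB : ∀ j, (tree G ν).Tame (EE G ν S k fun ω => z ω * xx G j ω) := fun j =>
    key_tEE (hz.mul (tx j)) k
  have tc : ∀ j ∈ T, (tree G ν).Tame fun ω =>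
      (EE G ν S k (fun ω => f ω * xx G j ω) ω - EE G ν S k f ω * EE G ν S k (xx G j) ω) *
      (EE G ν S k (fun ω => z ω * xx G j ω) ω - EE G ν S k z ω * EE G ν S k (xx G j) ω) :=
    fun j _ => ((tA j).sub (tf.mul (tm j))).mul ((tB j).sub (tz.mul (tm j)))
  have dm : ∀ (u : Pth ι → ℝ) (j : ι), (tree G ν).Dep k
      fun ω => EE G ν S k u ω * EE G ν S k (xx G j) ω := fun u j =>
    (key_dEE u k).comp₂ (key_dEE _ k) (· * ·)
  have dfz : ∀ j : ι, (tree G ν).Dep k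
      fun ω => EE G ν S k f ω * EE G ν S k z ω * EE G ν S k (xx G j) ω := fun j =>
    ((key_dEE f k).comp₂ (key_dEE z k) (· * ·)).comp₂ (key_dEE _ k) (· * ·)
  have e : ∀ j ∈ T, E0 G ν S (fun ω => EE G ν S k (fun ω => f ω * xx G j ω) ω *
        EE G ν S k (fun ω => z ω * xx G j ω) ω) =
      E0 G ν S (fun ω => EE G ν S k f ω * z ω * (xx G j ω * EE G ν S k (xx G j) ω)) +
      E0 G ν S (fun ω => EE G ν S k z ω * f ω * (xx G j ω * EE G ν S k (xx G j) ω)) -
      E0 G ν S (fun ω => EE G ν S k f ω * EE G ν S k z ω * (xx G j ω * EE G ν S k (xx G j) ω)) +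
      E0 G ν S (fun ω =>
        (EE G ν S k (fun ω => f ω * xx G j ω) ω - EE G ν S k f ω * EE G ν S k (xx G j) ω) *
        (EE G ν S k (fun ω => z ω * xx G j ω) ω - EE G ν S k z ω * EE G ν S k (xx G j) ω)) := by
    intro j hj
    have p1 := key_E_pull (S := S) (dm f j) fun ω => z ω * xx G j ω
    have p2 := key_E_pull (S := S) (dm z j) fun ω => f ω * xx G j ω
    have p3 := key_E_pull (S := S) (dfz j) (xx G j)
    rw [key_E_congr (f := fun ω => EE G ν S k f ω * z ω * (xx G j ω * EE G ν S k (xx G j) ω))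
        (g := fun ω => EE G ν S k f ω * EE G ν S k (xx G j) ω * (z ω * xx G j ω)) fun ω => by ring,
      key_E_congr (f := fun ω => EE G ν S k z ω * f ω * (xx G j ω * EE G ν S k (xx G j) ω))
        (g := fun ω => EE G ν S k z ω * EE G ν S k (xx G j) ω * (f ω * xx G j ω)) fun ω => by ring,
      key_E_congr
        (f := fun ω => EE G ν S k f ω * EE G ν S k z ω * (xx G j ω * EE G ν S k (xx G j) ω))
        (g := fun ω => EE G ν S k f ω * EE G ν S k z ω * EE G ν S k (xx G j) ω * xx G j ω)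
        fun ω => by ring,
      ← p1, ← p2, ← p3, ← key_E_add ((tf.mul (tm j)).mul (tB j)) ((tz.mul (tm j)).mul (tA j)),
      ← key_E_sub (((tf.mul (tm j)).mul (tB j)).add ((tz.mul (tm j)).mul (tA j)))
        (((tf.mul tz).mul (tm j)).mul (tm j)),
      ← key_E_add ((((tf.mul (tm j)).mul (tB j)).add ((tz.mul (tm j)).mul (tA j))).sub
        (((tf.mul tz).mul (tm j)).mul (tm j))) (tc j hj)]
    exact key_E_congr fun ω => by ring
  have f4 := (key_E_four (S := S) hf k).trans h1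
  have z4 := (key_E_four (S := S) hz k).trans h2
  have r1 := key_repl tf hz hM hδ f4 h2 h3
  have r2 := key_repl tz hf hM hδ z4 h1 h3
  have r3 := key_repl tf tz hM hδ f4 z4 h3
  rw [← key_E_pull (key_dEE f k) z] at r1
  rw [← key_E_pull (key_dEE z k) f, key_E_congr (f := fun ω => EE G ν S k z ω * EE G ν S k f ω)
    (g := fun ω => EE G ν S k f ω * EE G ν S k z ω) fun ω => mul_comm _ _] at r2
  have sf := (key_tEE (S := S) (hf.pow 2) k).sqrt
  have sz := (key_tEE (S := S) (hz.pow 2) k).sqrt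
  have r4 : |(∑ j ∈ T, E0 G ν S (fun ω =>
      (EE G ν S k (fun ω => f ω * xx G j ω) ω - EE G ν S k f ω * EE G ν S k (xx G j) ω) *
      (EE G ν S k (fun ω => z ω * xx G j ω) ω - EE G ν S k z ω * EE G ν S k (xx G j) ω))) / T.card|
      ≤ M * M * δ := by
    rw [abs_div, abs_of_pos hτ, div_le_iff₀ hτ, ← key_E_sum _ tc]
    refine (key_E_abs (Tree.Tame.sum _ tc)).trans ((key_E_mono (Tree.Tame.sum _ tc).abs
      ((sf.mul sz).mul tP).abs fun ω => ?_).trans ((holder442 sf sz tP hM hM (by positivity)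
        ((key_E_sqrt_four hf k).trans h1) ((key_E_sqrt_four hz k).trans h2) hP2).trans
        (le_of_eq (by ring))))
    have f0 : 0 ≤ EE G ν S k (fun ω => f ω ^ 2) ω := key_EE_nonneg (fun _ => sq_nonneg _) k ω
    have z0 : 0 ≤ EE G ν S k (fun ω => z ω ^ 2) ω := key_EE_nonneg (fun _ => sq_nonneg _) k ω
    rw [← sq_le_sq, mul_pow, mul_pow, Real.sq_sqrt f0, Real.sq_sqrt z0]
    refine (sum_mul_sq_le_sq_mul_sq T _ _).trans ((mul_le_mul (cov_le hf (P0 ω) fun v => hP v ω)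
      (cov_le hz (P0 ω) fun v => hP v ω) (sum_nonneg fun _ _ => sq_nonneg _)
      (mul_nonneg f0 (P0 ω))).trans (le_of_eq (by ring)))
  rw [sum_congr rfl e, sum_add_distrib, sum_sub_distrib, sum_add_distrib, add_div, sub_div, add_div]
  rw [abs_le] at r1 r2 r3 r4 ⊢
  constructor <;> linarith [r1.1, r1.2, r2.1, r2.2, r3.1, r3.2, r4.1, r4.2]

theorem key : ∃ C : ℝ, 0 ≤ C ∧ ∀ (ι : Type) [Fintype ι] [DecidableEq ι] (G : Grid)
    (ν : ProbabilityMeasure (OG ι)) (S : Sys ι) (T : Finset ι) (a : ℕ → ℝ) (ā Δ ξ M lT : ℝ) (uT : ℕ → ℝ)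
    (ω ψ γ : ι → ℝ), LInv ν ω → T.Nonempty → Top G S T lT uT → (Fintype.card ι : ℝ) ≤ ā * T.card →
    G.IsPath a ā → KH G ν S T a Δ → |lT| + ∑ l ∈ Ico 1 (G.n - 1), |uT l| ≤ ξ → ξ ≤ 1 →
    (∀ j ∈ T, ω j = 0 ∧ ψ j = 0 ∧ γ j = 0) → γ ⬝ᵥ ω = 0 →
    (∀ l ∈ Ico 1 (G.n - 1), ∀ i, γ i ≠ 0 → S.u l i = 0) → 0 ≤ M → |ψ ⬝ᵥ γ| ≤ M ^ 2 →
    E0 G ν S (fun ω => xl G ψ ω ^ 4) ≤ M ^ 4 → E0 G ν S (fun ω => xl G γ ω ^ 4) ≤ M ^ 4 →
    E0 G ν S (fun ω => xl G (fun i => S.lam i * γ i) ω ^ 4) ≤ M ^ 4 →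
    G.nrm (fun i => ov G ν S (xl G ψ) (xl G γ) i - (ψ ⬝ᵥ γ) * a i -
      G.conv (ov G ν S (xl G ψ) (xl G fun i => S.lam i * γ i)) a i) ≤ C * M ^ 2 * (Δ + ā * ξ) := by
  refine ⟨32, by norm_num, ?_⟩
  intro ι _ _ G ν S T a ā Δ ξ M lT uT w ψ γ hν hT htop hcard _ hK hξ hξ1 hT0 hγw hu hM hc y4 g4 z4
  obtain ⟨δ, hδ, hΔ, hq, hP⟩ := hK
  have hτ : (0 : ℝ) < T.card := by exact_mod_cast hT.card_pos
  have hξ0 : 0 ≤ ξ :=
    (add_nonneg (abs_nonneg _) (sum_nonneg fun _ _ => abs_nonneg _)).trans hξ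
  have hā : 0 ≤ ā := nonneg_of_mul_nonneg_left ((Nat.cast_nonneg _).trans hcard) hτ
  set y := xl G ψ with hy
  set g := xl G γ with hg
  set z := xl G fun i => S.lam i * γ i with hz
  have ty : (tree G ν).Tame y := (lin_xl _).tame
  have tg : (tree G ν).Tame g := (lin_xl _).tame
  have tz : (tree G ν).Tame z := (lin_xl _).tame
  have tx : ∀ j, (tree G ν).Tame (xx G j) := fun j => (lin_xx j).tame
  have tη : ∀ j, (tree G ν).Tame (eta G S γ j) := fun j => ((tx j).mul tz).sub ((key_tGv j).mul tg)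
  set B : ℕ → ℕ → ℕ → ℝ := fun p q k => (∑ j ∈ T, E0 G ν S fun ω =>
    EE G ν S p y ω * EE G ν S q (xx G j) ω * EE G ν S k (eta G S γ j) ω) / T.card with hB
  have y4' : ∀ p, E0 G ν S (fun ω => EE G ν S p y ω ^ 4) ≤ M ^ 4 := fun p =>
    (key_E_four ty p).trans y4
  have dec : ∀ p q k, |B p q k - (∑ j ∈ T, E0 G ν S fun ω => EE G ν S p y ω *
      EE G ν S q (xx G j) ω * EE G ν S k (fun ω => xx G j ω * z ω) ω) / T.card|
      ≤ 2 * (M * M) * (ā * ξ) := by
    intro p q k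
    have e : ∀ j ∈ T, (E0 G ν S fun ω =>
        EE G ν S p y ω * EE G ν S q (xx G j) ω * EE G ν S k (eta G S γ j) ω) =
        (E0 G ν S fun ω => EE G ν S p y ω * EE G ν S q (xx G j) ω *
          EE G ν S k (fun ω => xx G j ω * z ω) ω) -
        E0 G ν S fun ω => EE G ν S p y ω * EE G ν S q (xx G j) ω *
          EE G ν S k (fun ω => key_Gv G S j ω * g ω) ω := by
      intro j _
      have t0 := (key_tEE (S := S) ty p).mul (key_tEE (S := S) (tx j) q)
      rw [← key_E_sub (t0.mul (key_tEE ((tx j).mul tz) k))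
        (t0.mul (key_tEE ((key_tGv j).mul tg) k))]
      refine key_E_congr fun ω => ?_
      rw [← mul_sub, ← key_EE_sub ((tx j).mul tz) ((key_tGv j).mul tg)]
      rfl
    simp only [hB]
    rw [sum_congr rfl e, sum_sub_distrib, sub_div, sub_sub_cancel_left, abs_neg, abs_div,
      abs_of_pos hτ, div_le_iff₀ hτ]
    refine (key_small htop hξ hξ1 (key_tEE ty p) tg hM (y4' p) g4 q k).trans ?_
    have := mul_le_mul_of_nonneg_left hcard (by positivity : 0 ≤ M * M * (2 * ξ))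
    linarith
  have hov : ∀ m, 2 ≤ m → ∀ f g : Pth ι → ℝ,
      ov G ν S f g m = E0 G ν S fun ω => EE G ν S m f ω * EE G ν S m g ω := fun m hm f g =>
    if_neg (by omega)
  have b1 : ∀ p q k, 2 ≤ p → 2 ≤ q → q ≤ k → k ≤ G.n →
      |B p q k - a q * ov G ν S y z (min p k)| ≤ M * M * δ q + 2 * (M * M) * (ā * ξ) := by
    intro p q k hp hq2 hqk hk
    have m1 := key_main1 (key_tEE ty p) tz hM (hδ q) (y4' p) z4 hqk (hq q hq2 (hqk.trans hk))
    rw [key_EE_EE, ← key_E_pull (key_dEE y (min p k)) z, ← hov _ (le_min hp (hq2.trans hqk))] at m1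
    have m2 := dec p q k
    rw [abs_le] at m1 m2 ⊢
    constructor <;> linarith [m1.1, m1.2, m2.1, m2.2]
  have b2 : ∀ i, i ≤ G.n → ∀ k, 2 ≤ k → k < i →
      |B i i k - a k * ov G ν S y z k| ≤ 4 * (M * M) * δ k + 2 * (M * M) * (ā * ξ) := by
    intro i hi k hk hki
    obtain ⟨Pur, tP, P0, hP1, hP2⟩ := hP k hk (by omega)
    have m1 := key_main2 hT (key_tEE ty i) tz hM (hδ k) (y4' i) z4 (hq k hk (by omega)) tP P0 hP1 hP2
    rw [key_EE_EE, min_eq_right hki.le, ← hov k hk] at m1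
    have m2 := dec i i k
    have e : ∀ j ∈ T, (E0 G ν S fun ω => EE G ν S i y ω * EE G ν S i (xx G j) ω *
        EE G ν S k (fun ω => xx G j ω * z ω) ω) =
        E0 G ν S fun ω => EE G ν S k (fun ω => EE G ν S i y ω * xx G j ω) ω *
          EE G ν S k (fun ω => z ω * xx G j ω) ω := by
      intro j _
      have d1 : (tree G ν).Dep i fun ω => EE G ν S i y ω * EE G ν S k (fun ω => z ω * xx G j ω) ω :=
        (key_dEE y i).comp₂ ((key_dEE _ k).mono hki.le) (· * ·)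
      have p1 := key_E_pull (S := S) d1 (xx G j)
      have p2 := key_E_pull (S := S) (key_dEE (G := G) (ν := ν) (S := S) (fun ω => z ω * xx G j ω) k)
        fun ω => EE G ν S i y ω * xx G j ω
      simp only [mul_comm (xx G j _) (z _)]
      calc _ = _ := key_E_congr fun ω => by ring
        _ = _ := p1
        _ = _ := key_E_congr fun ω => by ring
        _ = _ := p2.symm
        _ = _ := key_E_congr fun ω => by ring
    rw [sum_congr rfl e] at m2
    rw [abs_le] at m1 m2 ⊢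
    constructor <;> linarith [m1.1, m1.2, m2.1, m2.2]
  have main : ∀ i, 2 ≤ i → i ≤ G.n →
      |ov G ν S y g i - (ψ ⬝ᵥ γ) * a i - G.conv (ov G ν S y z) a i| ≤
        (6 * (M * M) * Δ + 16 * (M * M) * (ā * ξ)) + 7 * (M * M) * |δ i| := by
    intro i h2 hi
    set b : ι → ℕ → ℕ → ℕ → ℝ := fun j p q k => E0 G ν S fun ω =>
      EE G ν S p y ω * EE G ν S q (xx G j) ω * EE G ν S k (eta G S γ j) ω with hb
    have ex : ∀ j ∈ T, ov G ν S y g i =
        (ψ ⬝ᵥ γ) * E0 G ν S (fun ω => 1 * 1 * (xx G j ω * EE G ν S i (xx G j) ω)) +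
        ((b j G.n i G.n - ∑ k ∈ Ioo i G.n, G.w k * b j k i k - G.ζ i * b j i i i) +
          (b j i G.n G.n - ∑ k ∈ Ioo i G.n, G.w k * b j i k k - G.ζ i * b j i i i) + b j i i G.n -
          ∑ k ∈ Ioo 0 G.n, G.w k * b j i i k) := by
      intro j hj
      have E := key_exact (G := G) (S := S) hν (hT0 j hj).1 (hT0 j hj).2.1 (hT0 j hj).2.2 hγw hu
        (i := i) (by omega)
      have tm := key_tEE (S := S) (tx j) i
      have tyi := key_tEE (S := S) ty i
      have tgi := key_tEE (S := S) tg i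
      have c1 := Tree.tame_chi (lin_Ham G ν S) ty (tη j) i
      have c2 := Tree.tame_chi (lin_Ham G ν S) (tx j) (tη j) i
      rw [← hy, ← hg, key_E_congr (g := fun ω =>
          (ψ ⬝ᵥ γ) * (EE G ν S i (xx G j) ω * EE G ν S i (xx G j) ω) +
            EE G ν S i (xx G j) ω * (tree G ν).chi (Ham G S) i y (eta G S γ j) ω -
            EE G ν S i y ω * EE G ν S i g ω +
            EE G ν S i y ω * (tree G ν).chi (Ham G S) i (xx G j) (eta G S γ j) ω) fun ω => by ring,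
        key_E_add ((((tm.mul tm).const_mul _).add (tm.mul c1)).sub (tyi.mul tgi)) (tyi.mul c2),
        key_E_sub (((tm.mul tm).const_mul _).add (tm.mul c1)) (tyi.mul tgi),
        key_E_add ((tm.mul tm).const_mul _) (tm.mul c1), key_E_cmul,
        key_E_chi ty (tη j) tm (key_dEE _ i) hi, key_E_chi (tx j) (tη j) tyi (key_dEE _ i) hi,
        ← hov i h2 y g, key_E_pull (key_dEE (xx G j) i) (xx G j)] at E
      have r1 : ∀ p k, (E0 G ν S fun ω => EE G ν S i (xx G j) ω *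
          (EE G ν S p y ω * EE G ν S k (eta G S γ j) ω)) = b j p i k := fun p k =>
        key_E_congr fun ω => by ring
      have r2 : ∀ q k, (E0 G ν S fun ω => EE G ν S i y ω *
          (EE G ν S q (xx G j) ω * EE G ν S k (eta G S γ j) ω)) = b j i q k := fun q k =>
        key_E_congr fun ω => by ring
      have r3 := r1 G.n G.n
      have r4 := r2 G.n G.n
      have r5 : (E0 G ν S fun ω => EE G ν S i y ω * EE G ν S i (xx G j) ω * eta G S γ j ω)
          = b j i i G.n := by simp only [hb, key_EE_top]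
      have r6 : (E0 G ν S fun ω => EE G ν S i (xx G j) ω * xx G j ω) =
          E0 G ν S fun ω => 1 * 1 * (xx G j ω * EE G ν S i (xx G j) ω) :=
        key_E_congr fun ω => by ring
      simp only [key_EE_top] at r3 r4
      simp only [r1, r2, r3, r4, r5, r6] at E
      have r7 : ∀ k, (E0 G ν S fun ω => EE G ν S i y ω * EE G ν S i (xx G j) ω *
        EE G ν S k (eta G S γ j) ω) = b j i i k := fun k => rfl
      simp only [r7] at E
      linarith
    have sB : ∀ (s : Finset ℕ) (p q k : ℕ → ℕ), ∑ l ∈ s, G.w l * B (p l) (q l) (k l) =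
        (∑ j ∈ T, ∑ l ∈ s, G.w l * b j (p l) (q l) (k l)) / T.card := by
      intro s p q k
      rw [sum_comm, sum_div]
      exact sum_congr rfl fun l _ => by rw [← mul_sum, mul_div_assoc]
    have ex2 : ov G ν S y g i =
        (ψ ⬝ᵥ γ) * ((∑ j ∈ T, E0 G ν S (fun ω => 1 * 1 * (xx G j ω * EE G ν S i (xx G j) ω))) /
          T.card) +
        ((B G.n i G.n - ∑ k ∈ Ioo i G.n, G.w k * B k i k - G.ζ i * B i i i) +
          (B i G.n G.n - ∑ k ∈ Ioo i G.n, G.w k * B i k k - G.ζ i * B i i i) + B i i G.n -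
          ∑ k ∈ Ioo 0 G.n, G.w k * B i i k) := by
      have s1 := sum_congr rfl ex
      rw [sum_const, nsmul_eq_mul] at s1
      simp only [sum_add_distrib, sum_sub_distrib, ← mul_sum] at s1
      rw [sB _ (fun k => k) (fun _ => i) (fun k => k), sB _ (fun _ => i) (fun k => k) (fun k => k),
        sB _ (fun _ => i) (fun _ => i) (fun k => k)]
      have hB' : ∀ p q k, B p q k = (∑ j ∈ T, b j p q k) / T.card := fun _ _ _ => rfl
      simp only [hB']
      rw [← mul_div_cancel_left₀ (ov G ν S y g i) hτ.ne', s1]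
      ring
    have g1 := key_grid G B (ov G ν S y z) a δ (μ := M * M) (ε := 2 * (M * M) * (ā * ξ))
      (by positivity) (by positivity) hδ h2 hi b1 (b2 i hi)
    have g2 := key_repl (S := S) (T := T) (Tree.Tame.const (T := tree G ν) 1) (Tree.Tame.const 1)
      zero_le_one (hδ i) (by rw [key_E_const]) (by rw [key_E_const]) (hq i h2 hi)
    rw [key_E_const] at g2
    have g3 := mul_le_mul hc g2 (abs_nonneg _) (by positivity)
    rw [← abs_mul] at g3
    have g4 := mul_le_mul_of_nonneg_left hΔ (by positivity : 0 ≤ 6 * (M * M))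
    rw [abs_of_nonneg (hδ i), ex2]
    rw [abs_le] at g1 g3 ⊢
    constructor <;> nlinarith [g1.1, g1.2, g3.1, g3.2]
  have h3 := G.three_le
  have hΔ0 : 0 ≤ Δ := Grid.nrm_nonneg.trans hΔ
  have n1 := main G.n (by omega) le_rfl
  have n2 := key_sum_err G (Subset.refl _) (Y := fun _ => 0) (δ := δ)
    (X := fun i => |ov G ν S y g i - (ψ ⬝ᵥ γ) * a i - G.conv (ov G ν S y z) a i|)
    (c := 6 * (M * M) * Δ + 16 * (M * M) * (ā * ξ)) (μ := 7 * (M * M)) (by positivity)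
    (by positivity) fun k hk hk2 => by
      rw [sub_zero, abs_abs]
      exact main k hk2 (mem_Ioo.1 hk).2.le
  simp only [mul_zero, sum_const_zero, sub_zero] at n2
  have n3 := mul_le_mul_of_nonneg_left ((Grid.abs_top_le (G := G) (e := δ)).trans hΔ)
    (by positivity : 0 ≤ 7 * (M * M))
  have n4 := mul_le_mul_of_nonneg_left hΔ (by positivity : 0 ≤ 7 * (M * M))
  have n5 : 0 ≤ M * M * Δ := by positivity
  have n6 := (le_abs_self _).trans n2
  rw [Grid.nrm]
  nlinarith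

end Crest.Agent.R164
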