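import Crest.Agent.R164.Solve

/-!
Row 164, task R164-Solve2: `solve_fam` with general coefficients `c` (same proof as `solve_fam`: the diagonal entries are
`𝒟 k k = ρ_k d + ω_k² ρ_k² (Dτ - s1 d)/s1² + errors`, then sum against `c k` instead of `lam k`).
-/

set_option autoImplicit false

namespace Crest.Agent.R164

open Finset

namespace Solve2

open Solve

variable {𝒦 : Type} [Fintype 𝒦] [DecidableEq 𝒦]

/-- the coefficient of the error `ε a b` -/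
noncomputable def cf2 (ω lam c : 𝒦 → ℝ) (a b : 𝒦) (d : ℝ) : ℝ :=
  -((∑ k, ω k ^ 2 * (c k * ((1 - lam k * d)⁻¹ * (1 - lam k * d)⁻¹))) *
      ((∑ k, ω k ^ 2 * (1 - lam k * d)⁻¹)⁻¹ * (∑ k, ω k ^ 2 * (1 - lam k * d)⁻¹)⁻¹) *
      (ω a * ω b * (1 - lam b * d)⁻¹)) +
    (∑ k, ω k ^ 2 * (1 - lam k * d)⁻¹)⁻¹ *
      (ω a * ω b * (c b * ((1 - lam b * d)⁻¹ * (1 - lam b * d)⁻¹))) +
    -((∑ k, ω k ^ 2 * (1 - lam k * d)⁻¹)⁻¹ *
      (ω a * ω b * (c a * ((1 - lam a * d)⁻¹ * (1 - lam b * d)⁻¹)))) +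
    (if a = b then 1 else 0) * (c a * (1 - lam a * d)⁻¹)

theorem cf2_BL (a0 Λ : ℝ) : ∃ C : ℝ, ∀ (𝒦 : Type) [Fintype 𝒦] [DecidableEq 𝒦] (ω lam c : 𝒦 → ℝ),
    Atom (fun k => ω k ^ 2) lam a0 Λ → (∀ k, |c k| ≤ Λ) → ∀ a b, BL (cf2 ω lam c a b) C := by
  have hρ : ∀ (𝒦 : Type) [Fintype 𝒦] (ω lam : 𝒦 → ℝ), Atom (fun k => ω k ^ 2) lam a0 Λ → ∀ k,
      BL (fun d => (1 - lam k * d)⁻¹) (1 + |Λ|) := fun _ _ _ _ h k => BL.rho (h.mem k)
  have hl : ∀ (𝒦 : Type) (c : 𝒦 → ℝ), (∀ k, |c k| ≤ Λ) → ∀ k,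
      BL (fun _ => c k) |Λ| := fun _ c h k => BL.const ((h k).trans (le_abs_self Λ))
  have hω : ∀ (𝒦 : Type) [Fintype 𝒦] (ω lam : 𝒦 → ℝ), Atom (fun k => ω k ^ 2) lam a0 Λ → ∀ a b,
      BL (fun _ => ω a * ω b) 1 := fun _ _ ω _ h a b => BL.const (by
    have h1 : ∀ k, |ω k| ≤ 1 := fun k => by
      have := single_le_sum (f := fun k => ω k ^ 2) (fun k _ => h.nonneg k) (mem_univ k)
      rw [h.sum_one] at this
      exact (sq_le_one_iff_abs_le_one _).1 this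
    rw [abs_mul]
    exact mul_le_one₀ (h1 a) (abs_nonneg _) (h1 b))
  have hs : ∀ (𝒦 : Type) [Fintype 𝒦] (ω lam : 𝒦 → ℝ), Atom (fun k => ω k ^ 2) lam a0 Λ →
      BL (fun d => (∑ k, ω k ^ 2 * (1 - lam k * d)⁻¹)⁻¹) ((1 + |Λ|) / a0 ^ 2) := fun _ _ ω lam h =>
    (BL.avg h.nonneg h.sum_one (by positivity) (hρ _ ω lam h)).inv h.a0_pos h.a0_le_one
      (le_add_of_nonneg_right (abs_nonneg _)) fun d hd => by
        have := (h.s1_mem hd).1
        simpa only [s1, div_eq_mul_inv] using this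
  have hδ : ∀ (𝒦 : Type) [DecidableEq 𝒦] (a b : 𝒦), BL (fun _ => if a = b then (1 : ℝ) else 0) 1 :=
    fun _ _ a b => BL.const (by split_ifs <;> simp)
  exact ⟨_, fun 𝒦 _ _ ω lam c h hc a b =>
    (((((BL.avg h.nonneg h.sum_one (by positivity) fun k =>
      (hl _ c hc k).mul ((hρ _ ω lam h k).mul (hρ _ ω lam h k))).mul
        ((hs _ ω lam h).mul (hs _ ω lam h))).mul ((hω _ ω lam h a b).mul (hρ _ ω lam h b))).neg.add
      ((hs _ ω lam h).mul ((hω _ ω lam h a b).mul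
        ((hl _ c hc b).mul ((hρ _ ω lam h b).mul (hρ _ ω lam h b)))))).add
      ((hs _ ω lam h).mul ((hω _ ω lam h a b).mul
        ((hl _ c hc a).mul ((hρ _ ω lam h a).mul (hρ _ ω lam h b))))).neg).add
      ((hδ _ a b).mul ((hl _ c hc a).mul (hρ _ ω lam h a)))⟩

end Solve2

open Solve Solve2 in
theorem solve_fam2 (a0 Λ ā : ℝ) (nk : ℕ) : ∃ C : ℝ, 0 ≤ C ∧
    ∀ (G : Grid) (𝒦 : Type) [Fintype 𝒦] [DecidableEq 𝒦], Fintype.card 𝒦 ≤ nk →
    ∀ (ω lam c : 𝒦 → ℝ) (k1 : 𝒦) (a : ℕ → ℝ) (Q : 𝒦 → 𝒦 → ℕ → ℝ) (η : ℝ),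
      Atom (fun k => ω k ^ 2) lam a0 Λ → (∀ k, |c k| ≤ Λ) → ω k1 ≠ 0 → G.IsPath a ā →
      (∀ k k' i, Q k k' i = Q k' k i) → (∀ k k', Q k k' 0 = 0) →
      (∀ k k', G.nrm (fun i => (Q k k' i - ω k' / ω k1 * Q k k1 i) -
          ((if k = k' then 1 else 0) - ω k' / ω k1 * (if k = k1 then 1 else 0)) * a i -
          G.conv (fun j => lam k' * Q k k' j - ω k' / ω k1 * (lam k1 * Q k k1 j)) a i) ≤ η) →
      |∑ k, c k * Q k k G.n -
        (G.TT (fun i => ∑ k, c k * G.D a i / (1 - lam k * G.D a i) -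
            bet (fun k => ω k ^ 2) lam c (G.D a i) * s1 (fun k => ω k ^ 2) lam (G.D a i) * G.D a i) +
          G.TT (fun i => bet (fun k => ω k ^ 2) lam c (G.D a i) *
            G.D (fun j => ∑ k, ∑ k', ω k * ω k' * Q k k' j) i))| ≤ C * η := by
  obtain ⟨C, hC⟩ := cf2_BL a0 Λ
  refine ⟨(nk : ℝ) * (nk * (|C| + |C| * |ā|)), by positivity,
    fun G 𝒦 _ _ hcard ω lam c k1 a Q η hA hc hω ha hsymm hQ0 herr => ?_⟩
  set err : 𝒦 → 𝒦 → ℕ → ℝ := fun k k' i => (Q k k' i - ω k' / ω k1 * Q k k1 i) -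
    ((if k = k' then 1 else 0) - ω k' / ω k1 * (if k = k1 then 1 else 0)) * a i -
    G.conv (fun j => lam k' * Q k k' j - ω k' / ω k1 * (lam k1 * Q k k1 j)) a i with herrdef
  have hη : 0 ≤ η := Grid.nrm_nonneg.trans (herr k1 k1)
  have herr0 : ∀ k k', err k k' 0 = 0 := fun k k' => by
    simp [herrdef, Grid.conv, hQ0, ha.zero]
  have hpt : ∀ i, i ≤ G.n → G.D (fun j => ∑ k, c k * Q k k j) i =
      ((∑ k, c k * G.D a i / (1 - lam k * G.D a i) -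
          bet (fun k => ω k ^ 2) lam c (G.D a i) * s1 (fun k => ω k ^ 2) lam (G.D a i) * G.D a i) +
        bet (fun k => ω k ^ 2) lam c (G.D a i) *
            G.D (fun j => ∑ k, ∑ k', ω k * ω k' * Q k k' j) i) +
        ∑ k, ∑ k', cf2 ω lam c k k' (G.D a i) * G.D (err k k') i := by
    intro i hi
    have hd := (ha.D_mem i).1
    set d := G.D a i with hdd
    have hden : ∀ k, 1 - lam k * d ≠ 0 := fun k => by
      have := one_le_den (hA.mem k).2 hd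
      linarith
    have hs : ∑ k, ω k ^ 2 * (1 - lam k * d)⁻¹ = s1 (fun k => ω k ^ 2) lam d := by
      simp only [s1, div_eq_mul_inv]
    have hs0 : ∑ k, ω k ^ 2 * (1 - lam k * d)⁻¹ ≠ 0 := by
      rw [hs]
      exact (hA.a0_pos.trans_le (hA.s1_mem hd).1).ne'
    have key := algebra ω c (fun k => (1 - lam k * d)⁻¹)
      (fun k => ((1 - lam k1 * d) * G.D (Q k k1) i - (if k = k1 then 1 else 0) * d) / ω k1) d
      (fun k k' => G.D (Q k k') i) (fun k k' => G.D (err k k') i)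
      (fun k k' => by rw [show Q k k' = Q k' k from funext (hsymm k k')])
      (fun k k' => by
        have := hden k'
        simp only [herrdef]
        rw [Grid.D_sub, Grid.D_sub, Grid.D_sub, Grid.D_conv hi, Grid.D_sub, Grid.D_mul, Grid.D_mul,
          Grid.D_mul, Grid.D_mul, Grid.D_mul, ← hdd]
        field_simp
        ring) hs0
    have hb : bet (fun k => ω k ^ 2) lam c d =
        (∑ k, ω k ^ 2 * (c k * ((1 - lam k * d)⁻¹ * (1 - lam k * d)⁻¹))) *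
          ((∑ k, ω k ^ 2 * (1 - lam k * d)⁻¹)⁻¹ * (∑ k, ω k ^ 2 * (1 - lam k * d)⁻¹)⁻¹) := by
      rw [bet, hs, div_eq_mul_inv, sq, mul_inv]
      congr 1
      refine sum_congr rfl fun k _ => ?_
      rw [div_eq_mul_inv, sq (1 - lam k * d), mul_inv, mul_assoc]
    rw [Grid.D_sum, Grid.D_sum]
    simp only [Grid.D_sum, Grid.D_mul]
    rw [key, hb, ← hs]
    simp only [cf2, div_eq_mul_inv]
    ring
  have h1 : ∑ k, c k * Q k k G.n = G.TT (G.D fun j => ∑ k, c k * Q k k j) := by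
    rw [Grid.TT_D]
    simp [hQ0]
  rw [h1, Grid.TT_congr hpt, Grid.TT_add, Grid.TT_add, add_sub_cancel_left, Grid.TT_sum]
  simp only [Grid.TT_sum]
  have h2 : ∀ k k', |G.TT fun i => cf2 ω lam c k k' (G.D a i) * G.D (err k k') i| ≤
      (|C| + |C| * |ā|) * η := by
    intro k k'
    have hB := (hC 𝒦 ω lam c hA hc k k').mono (le_abs_self C)
    refine (ha.TT_err (hB.2 0 le_rfl).1 (fun d hd d' hd' => (hB.2 d hd.1).2 d' hd'.1) hB.1
      (herr0 k k')).trans ?_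
    refine mul_le_mul ?_ (herr k k') Grid.nrm_nonneg (by positivity)
    have := mul_le_mul_of_nonneg_left (le_abs_self ā) (abs_nonneg C)
    linarith
  have hk : (Fintype.card 𝒦 : ℝ) ≤ nk := by exact_mod_cast hcard
  have hP : 0 ≤ (|C| + |C| * |ā|) * η := by positivity
  refine (abs_sum_le_sum_abs _ _).trans ?_
  calc _ ≤ ∑ _k : 𝒦, ∑ _k' : 𝒦, (|C| + |C| * |ā|) * η :=
        sum_le_sum fun k _ => (abs_sum_le_sum_abs _ _).trans (sum_le_sum fun k' _ => h2 k k')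
    _ = Fintype.card 𝒦 * (Fintype.card 𝒦 * ((|C| + |C| * |ā|) * η)) := by
        simp only [sum_const, card_univ, nsmul_eq_mul]
    _ ≤ nk * (nk * ((|C| + |C| * |ā|) * η)) := by gcongr
    _ = _ := by ring

end Crest.Agent.R164
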