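import Crest.Agent.R164.FamA
import Crest.Agent.R164.Key
import Crest.Agent.R164.Solve2

/-!
Row 164, task R164-FamB: the energy of the special coordinates in the cavity family.

PLAN.  `S₁ = famSys Sb b sn R lam`, `T' = T.map some`.  (1) `pin_transfer` from `Sb` to `S₁`: `(famSys Sb …).add (dirL (ind T')) t = famSys (Sb.add (dirL (ind T)) t) …`
(same for `dirU`; prove equality of the `Ham`s or of the structures), the perturbed base still satisfies `FamD` because `T ∩ B = ∅`; `fam_crude` with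
`c = Phi …`.  Then `pin_KH`.  (2) `key` for `ψ = e_{R k}`, `γ = e_{R k'} - (ω k'/ω k1) e_{none}` where `ω k = Õ (R k) none`, vector `ω o = Õ o none`
(`IsHaar.linv_fam`); fourth moments from `fam_mom` (`|ω k'/ω k1| ≤ 1/√a0`), `S₁.lam (R k) = lam k`, `S₁.u l (R k) = 0`; `ov_xl` gives the hypothesis of
`solve_fam2` for `Q k k' = ov (xx (R k)) (xx (R k'))`.  (3) `Σ ω k ω k' Q k k' = ov σ_none σ_none` (`ov_xl`, `ov_fam`, `ω` supported on `range R`);
`TT_mul` with `ov_sg_top`, `IsPath.dh_zero`, `tl_top`, `D_top`.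
-/

set_option autoImplicit false

namespace Crest.Agent.R164

open MeasureTheory Finset Matrix

namespace FamBAux

section
variable {κ : Type} [Fintype κ] [DecidableEq κ] {G : Grid} {ν : ProbabilityMeasure (OG κ)} {S : Sys κ}

def vc2 (α : ℝ) (q : κ) (β : ℝ) (r : κ) : κ → ℝ := fun o => (if o = q then α else 0) + if o = r then β else 0

theorem vec_dot (α : ℝ) (q : κ) (β : ℝ) (r : κ) (w : κ → ℝ) : vc2 α q β r ⬝ᵥ w = α * w q + β * w r := by
  simp [vc2, dotProduct, add_mul, sum_add_distrib]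

theorem xl_vec (α : ℝ) (q : κ) (β : ℝ) (r : κ) (ω : Pth κ) :
    xl G (vc2 α q β r) ω = α * xx G q ω + β * xx G r ω := vec_dot _ _ _ _ _

theorem ov_vec (p : κ) (α : ℝ) (q : κ) (β : ℝ) (r : κ) (i : ℕ) :
    ov G ν S (xl G (vc2 1 p 0 p)) (xl G (vc2 α q β r)) i =
      α * ov G ν S (xx G p) (xx G q) i + β * ov G ν S (xx G p) (xx G r) i := by
  rw [ov_xl]
  simp [vc2, add_mul, sum_add_distrib]

theorem four_vec {α β L M : ℝ} {q r : κ} (hα : |α| ≤ L) (hβ : |β| ≤ L)
    (hq : E0 G ν S (fun ω => xx G q ω ^ 4) ≤ M ^ 4) (hr : E0 G ν S (fun ω => xx G r ω ^ 4) ≤ M ^ 4) :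
    E0 G ν S (fun ω => xl G (vc2 α q β r) ω ^ 4) ≤ (2 * L * M) ^ 4 := by
  have hH := lin_Ham G ν S
  have t1 := ((lin_xx (G := G) (ν := ν) q).tame.pow 4)
  have t2 := ((lin_xx (G := G) (ν := ν) r).tame.pow 4)
  have h4 : ∀ x : ℝ, |x| ≤ L → x ^ 4 ≤ L ^ 4 := fun x hx => by
    have := pow_le_pow_left₀ (abs_nonneg x) hx 4
    rwa [Even.pow_abs (by norm_num)] at this
  have h1 := Tree.Ex_mono hH ((lin_xl (vc2 α q β r)).tame.pow 4) ((t1.add t2).const_mul (8 * L ^ 4))
    (fun ω => by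
      rw [xl_vec]
      have a1 : (α * xx G q ω) ^ 4 ≤ L ^ 4 * xx G q ω ^ 4 := by
        rw [mul_pow]
        exact mul_le_mul_of_nonneg_right (h4 α hα) (by positivity)
      have a2 : (β * xx G r ω) ^ 4 ≤ L ^ 4 * xx G r ω ^ 4 := by
        rw [mul_pow]
        exact mul_le_mul_of_nonneg_right (h4 β hβ) (by positivity)
      generalize α * xx G q ω = x at a1 ⊢
      generalize β * xx G r ω = z at a2 ⊢
      have a3 : (x + z) ^ 4 ≤ 8 * (x ^ 4 + z ^ 4) := by
        nlinarith [sq_nonneg (x ^ 2 - z ^ 2), sq_nonneg ((x - z) ^ 2), mul_nonneg (sq_nonneg (x - z)) (sq_nonneg (x + z)),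
          mul_nonneg (sq_nonneg (x - z)) (sq_nonneg x), mul_nonneg (sq_nonneg (x - z)) (sq_nonneg z)]
      linarith) 0 pt0
  rw [Tree.Ex_const_mul, Tree.Ex_add hH t1 t2] at h1
  refine le_trans h1 ?_
  have h2 : (0 : ℝ) ≤ 8 * L ^ 4 := by positivity
  calc _ ≤ 8 * L ^ 4 * (M ^ 4 + M ^ 4) := mul_le_mul_of_nonneg_left (add_le_add hq hr) h2
    _ = _ := by ring

end

variable {ι 𝒦 : Type} [Fintype ι] [DecidableEq ι] [Fintype 𝒦] [DecidableEq 𝒦] {G : Grid} {Sb : Sys ι}
  {B T : Finset ι} {R : 𝒦 → Option ι} {k1 : 𝒦} {Õ : OG (Option ι)} {ā : ℝ}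

theorem ne_R (h : FamD G Sb B R k1 Õ ā) (hT : Disjoint T B) {i : ι} (hi : i ∈ T) (k : 𝒦) : some i ≠ R k := by
  intro e
  by_cases hk : k = k1
  · rw [hk, h.none] at e
    exact Option.some_ne_none _ e
  · obtain ⟨j, hj, e'⟩ := h.mem k hk
    rw [e', Option.some.injEq] at e
    exact disjoint_left.1 hT hi (e ▸ hj)

theorem ind_map (T : Finset ι) (o : Option ι) :
    ind (T.map Function.Embedding.some) o = o.elim 0 (ind T) := by
  cases o <;> simp [ind]

theorem add_dirL (b : ℝ) (sn : ℕ → ℝ) (lam : 𝒦 → ℝ) (t : ℝ) :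
    (famSys Sb b sn R lam).add (dirL (ind (T.map Function.Embedding.some))) t =
      famSys (Sb.add (dirL (ind T)) t) b sn R lam := by
  simp only [famSys, Sys.add, Sys.ext, dirL, ind_map, Sys.mk.injEq]
  refine ⟨funext fun o => ?_, funext fun σ => by ring, funext fun l => funext fun o => ?_,
    funext fun l => funext fun o => ?_⟩ <;> cases o <;> simp only [Option.elim] <;> ring

theorem add_dirU (b : ℝ) (sn : ℕ → ℝ) (lam : 𝒦 → ℝ) (l : ℕ) (t : ℝ) :
    (famSys Sb b sn R lam).add (dirU l (ind (T.map Function.Embedding.some))) t =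
      famSys (Sb.add (dirU l (ind T)) t) b sn R lam := by
  simp only [famSys, Sys.add, Sys.ext, dirL, dirU, ind_map, Sys.mk.injEq]
  refine ⟨funext fun o => ?_, funext fun σ => by ring, funext fun l => funext fun o => ?_,
    funext fun l => funext fun o => ?_⟩ <;> cases o <;> simp only [Option.elim, ite_self] <;> ring

theorem famD_add (h : FamD G Sb B R k1 Õ ā) {D : Sys ι} (hD : ∀ i ∈ B, D.lam i = 0 ∧ ∀ l, D.u l i = 0) (t : ℝ) :
    FamD G (Sb.add D t) B R k1 Õ ā :=
  ⟨h.inj, h.none, h.mem, fun i hi => ⟨by simp [Sys.add, (h.free i hi).1, (hD i hi).1],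
    fun l hl => by simp [Sys.add, (h.free i hi).2 l hl, (hD i hi).2]⟩, h.off, h.pos, h.card⟩

theorem lam_R (h : FamD G Sb B R k1 Õ ā) (b : ℝ) (sn : ℕ → ℝ) (lam : 𝒦 → ℝ) (k : 𝒦) :
    (famSys Sb b sn R lam).lam (R k) = lam k ∧
      ∀ l ∈ Ico 1 (G.n - 1), (famSys Sb b sn R lam).u l (R k) = 0 := by
  have h1 : ∑ k', (if R k = R k' then lam k' else 0) = lam k := by simp [h.inj.eq_iff]
  simp only [famSys, Sys.add, Sys.ext, dirL, h1]
  by_cases hk : k = k1
  · rw [hk, h.none]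
    simp
  · obtain ⟨j, hj, e⟩ := h.mem k hk
    rw [e]
    simp only [Option.elim, (h.free j hj).1, one_mul, zero_add, mul_zero, add_zero, true_and]
    exact (h.free j hj).2

theorem col_off (h : FamD G Sb B R k1 Õ ā) {o : Option ι} (ho : o ∉ Set.range R) : Õ.1 o none = 0 := by
  rw [h.off o none (Or.inl ho), if_neg]
  rintro rfl
  exact ho ⟨k1, h.none⟩

theorem sum_col (h : FamD G Sb B R k1 Õ ā) (F : Option ι → ℝ) :
    ∑ o, Õ.1 o none * F o = ∑ k, Õ.1 (R k) none * F (R k) :=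
  (Fintype.sum_of_injective R h.inj _ _ (fun o ho => by rw [col_off h ho, zero_mul]) fun _ => rfl).symm

end FamBAux
open FamBAux

theorem fam_energy (𝒦 : Type) [Fintype 𝒦] [DecidableEq 𝒦] {y a0 Λ ā η : ℝ} (hy : 0 < y) (hη : 0 < η) :
    ∃ η' : ℝ, 0 < η' ∧ ∀ (ι : Type) [Fintype ι] [DecidableEq ι] (G : Grid)
      (ν : ProbabilityMeasure (OG ι)) (Sb : Sys ι) (B T : Finset ι) (R : 𝒦 → Option ι) (k1 : 𝒦)
      (Õ : OG (Option ι)) (b : ℝ) (sn : ℕ → ℝ) (lam c : 𝒦 → ℝ) (a : ℕ → ℝ) (P : PP),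
      G.ζ 0 = y → IsHaar ν → FamD G Sb B R k1 Õ ā → Disjoint T B →
      (Fintype.card ι : ℝ) + 1 ≤ ā * T.card → Pin G ν Sb T a ā P η' →
      Atom (fun k => Õ.1 (R k) none ^ 2) lam a0 Λ → a0 ≤ Õ.1 none none ^ 2 → (∀ k, |c k| ≤ Λ) →
      (∀ l ∈ Ico 1 (G.n - 1), 0 ≤ sn l) →
      |∑ k, c k * ov G (famν Õ ν) (famSys Sb b sn R lam) (xx G (R k)) (xx G (R k)) G.n -
        (G.TT (fun i => ∑ k, c k * G.D a i / (1 - lam k * G.D a i) -
            bet (fun k => Õ.1 (R k) none ^ 2) lam c (G.D a i) *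
              s1 (fun k => Õ.1 (R k) none ^ 2) lam (G.D a i) * G.D a i) +
          ∑ l ∈ Ico 1 (G.n - 1), G.dh (fun i => bet (fun k => Õ.1 (R k) none ^ 2) lam c (G.D a i)) l *
            Tst G (famν Õ ν) (famSys Sb b sn R lam) (sg G none) l +
          G.dh (fun i => bet (fun k => Õ.1 (R k) none ^ 2) lam c (G.D a i)) (G.n - 1) +
          bet (fun k => Õ.1 (R k) none ^ 2) lam c 0)| ≤ η := by
  obtain ⟨C0, hC0, hcr⟩ := fam_crude Λ ā (Fintype.card 𝒦)
  obtain ⟨M0, hM0, hmom⟩ := fam_mom hy Λ ā (Fintype.card 𝒦)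
  obtain ⟨Ck, hCk, hkey⟩ := key
  obtain ⟨Cs, hCs, hsol⟩ := solve_fam2 a0 Λ ā (Fintype.card 𝒦)
  set K : ℝ := 1 + |1 / a0| with hK
  set L : ℝ := K * (1 + |Λ|) with hL
  have hK1 : 1 ≤ K := le_add_of_nonneg_right (abs_nonneg _)
  have hKL : K ≤ L := le_mul_of_one_le_right (by linarith) (le_add_of_nonneg_right (abs_nonneg _))
  have hΛL : K * |Λ| ≤ L := mul_le_mul_of_nonneg_left (by linarith) (by linarith)
  set M : ℝ := 2 * L * M0 with hM
  have hLM : 2 * L ≤ M := le_mul_of_one_le_right (by linarith) hM0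
  set A : ℝ := Cs * (Ck * M ^ 2 * (1 + |ā|)) with hA
  have hA0 : 0 ≤ A := by positivity
  have hη1 : 0 < min 1 (η / (A + 1)) := lt_min one_pos (by positivity)
  obtain ⟨η2, hη2, hη21, hKH⟩ := pin_KH (ā := ā) hy hη1
  obtain ⟨η3, hη3, -, C', -, htr⟩ := pin_transfer (ā := ā) hη2 hC0
  refine ⟨η3, hη3, ?_⟩
  intro ι _ _ G ν Sb B T R k1 Õ b sn lam c a P hG hν hD hTB hcard hpin hat ha0 hc hsn
  set S₁ := famSys Sb b sn R lam with hS₁
  set T' := T.map Function.Embedding.some with hT'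
  have hTc : T'.card = T.card := card_map _
  have htop : Top G S₁ T' P.lT P.uT := by
    refine ⟨fun o ho => ?_, fun l hl o ho => ?_⟩
    · obtain ⟨i, hi, rfl⟩ := mem_map.1 ho
      simp [hS₁, famSys, Sys.add, Sys.ext, dirL, ne_R hD hTB hi, hpin.top.lam i hi]
    · obtain ⟨i, hi, rfl⟩ := mem_map.1 ho
      simp [hS₁, famSys, Sys.add, Sys.ext, dirL, hpin.top.u l hl i hi]
  have hcard' : (Fintype.card (Option ι) : ℝ) ≤ ā * T'.card := by
    rw [hTc, Fintype.card_option]
    push_cast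
    exact hcard
  have hB : ∀ i ∈ B, ind T i = 0 := fun i hi => if_neg (disjoint_right.1 hTB hi)
  have hclose : ∀ D : Sys ι, (∀ i ∈ B, D.lam i = 0 ∧ ∀ l, D.u l i = 0) → ∀ t,
      |phi G (famν Õ ν) (famSys (Sb.add D t) b sn R lam) - phi G ν (Sb.add D t) -
        Phi (G.gl fun l => sn l ^ 2) b| ≤ C0 := fun D h t => by
    have := hcr ι 𝒦 G ν _ B R k1 Õ b sn lam le_rfl hν (famD_add hD h t) hat.mem hsn
    exact abs_le.2 ⟨this.1, this.2.trans hC0⟩
  have hpin' := htr ι (Option ι) G ν (famν Õ ν) Sb S₁ T T' a P (Phi (G.gl fun l => sn l ^ 2) b) hpin htop hcard'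
    (by rw [hTc, sub_self, abs_zero]; exact hC0) fun t _ => ⟨by
      rw [hS₁, hT', add_dirL]
      exact hclose _ (fun i hi => ⟨hB i hi, fun _ => rfl⟩) t, fun l _ => by
      rw [hS₁, hT', add_dirU]
      exact hclose _ (fun i hi => ⟨rfl, fun l' => by simp [dirU, hB i hi]⟩) t⟩
  have hkh := hKH _ G _ S₁ T' a _ hG hpin'
  have hξ : |P.lT| + ∑ l ∈ Ico 1 (G.n - 1), |P.uT l| ≤ min 1 (η / (A + 1)) := by
    rw [sum_congr rfl fun l hl => abs_of_nonneg (hpin'.tiny.umin_pos.le.trans (hpin'.tiny.umin_le l hl))]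
    exact hpin'.tiny.ξ.trans hη21
  have hTne : T'.Nonempty := by
    rw [← card_pos, hTc]
    rcases Nat.eq_zero_or_pos T.card with h0 | h0
    · rw [h0, Nat.cast_zero, mul_zero] at hcard
      have : (0 : ℝ) ≤ Fintype.card ι := Nat.cast_nonneg _
      linarith
    · exact h0
  set w : 𝒦 → ℝ := fun k => Õ.1 (R k) none with hw
  have ha0' := hat.a0_pos
  have hw1 : a0 ≤ w k1 ^ 2 := by rw [hw]; simpa only [hD.none] using ha0
  have hw0 : w k1 ≠ 0 := fun h0 => by
    rw [h0] at hw1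
    linarith
  have hρ : ∀ k, |w k / w k1| ≤ K := fun k => by
    have h1 : w k ^ 2 ≤ 1 := (sq_le_one_iff_abs_le_one _).2 (OG.abs_entry_le Õ _ _)
    have h2 : (w k / w k1) ^ 2 ≤ 1 / a0 := by
      rw [div_pow]
      exact div_le_div₀ zero_le_one h1 ha0' hw1
    rw [hK, abs_of_pos (a := 1 / a0) (by positivity)]
    nlinarith [sq_abs (w k / w k1), sq_nonneg (|w k / w k1| - 1)]
  have hlam : ∀ k, |lam k| ≤ |Λ| := fun k =>
    (abs_le.2 ⟨(hat.mem k).1, (hat.mem k).2.trans (by linarith [(hat.mem k).1, (hat.mem k).2])⟩).trans (le_abs_self Λ)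
  have hm := hmom ι 𝒦 G ν Sb B R k1 Õ b sn lam hG le_rfl hν hD hat.mem hsn
  have hs := hsol G 𝒦 le_rfl w lam c k1 a (fun k k' => ov G (famν Õ ν) S₁ (xx G (R k)) (xx G (R k')))
    (Ck * M ^ 2 * (min 1 (η / (A + 1)) + ā * min 1 (η / (A + 1)))) hat hc hw0 hpin.path
    (fun k k' i => ov_comm i) (fun k k' => if_pos rfl) fun k k' => by
      have e1 : (fun i => S₁.lam i * vc2 1 (R k') (-(w k' / w k1)) (R k1) i) =
          vc2 (lam k') (R k') (-(w k' / w k1 * lam k1)) (R k1) := by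
        funext o
        simp only [vc2, mul_add, mul_ite, mul_zero]
        congr 1 <;> split_ifs with ho <;> first | rfl | (rw [ho, hS₁, (lam_R hD b sn lam _).1]; ring)
      have e2 : vc2 1 (R k) 0 (R k) ⬝ᵥ vc2 1 (R k') (-(w k' / w k1)) (R k1) =
          (if k = k' then 1 else 0) - w k' / w k1 * (if k = k1 then 1 else 0) := by
        rw [vec_dot]
        simp only [vc2, hD.inj.eq_iff]
        split_ifs <;> ring
      have h := hkey _ G (famν Õ ν) S₁ T' a ā _ _ M P.lT P.uT (fun o => Õ.1 o none) (vc2 1 (R k) 0 (R k))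
        (vc2 1 (R k') (-(w k' / w k1)) (R k1)) (hν.linv_fam Õ) hTne htop hcard' hpin.path hkh hξ (min_le_left _ _)
        (fun o ho => by
          obtain ⟨i, hi, rfl⟩ := mem_map.1 ho
          refine ⟨col_off hD ?_, ?_, ?_⟩
          · rintro ⟨k, e⟩
            exact ne_R hD hTB hi k e.symm
          · simp [vc2, ne_R hD hTB hi]
          · simp [vc2, ne_R hD hTB hi])
        (by
          rw [vec_dot]
          change 1 * w k' + -(w k' / w k1) * w k1 = 0
          field_simp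
          ring)
        (fun l hl o ho => by
          by_cases h1 : o = R k'
          · rw [h1]
            exact (lam_R hD b sn lam _).2 l hl
          · by_cases h2 : o = R k1
            · rw [h2]
              exact (lam_R hD b sn lam _).2 l hl
            · simp [vc2, h1, h2] at ho)
        (by linarith)
        (by
          rw [e2]
          have h1 := abs_le.1 (hρ k')
          have h2 : M ≤ M ^ 2 := by nlinarith
          rw [abs_le]
          split_ifs <;> constructor <;> linarith)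
        (four_vec (by rw [abs_one]; linarith) (by rw [abs_zero]; linarith) (hm k) (hm k))
        (four_vec (by rw [abs_one]; linarith) (by rw [abs_neg]; linarith [hρ k']) (hm k') (hm k1))
        (by
          rw [e1]
          refine four_vec ?_ ?_ (hm k') (hm k1)
          · nlinarith [hlam k', abs_nonneg Λ]
          · rw [abs_neg, abs_mul]
            exact (mul_le_mul (hρ k') (hlam k1) (abs_nonneg _) (by linarith)).trans hΛL)
      rw [e1, e2] at h
      refine le_trans (le_of_eq ?_) h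
      congr 1
      funext i
      rw [ov_vec]
      congr 1
      · ring
      · congr 1
        funext j
        rw [ov_vec]
        ring
  have he : (fun j => ∑ k, ∑ k', w k * w k' * ov G (famν Õ ν) S₁ (xx G (R k)) (xx G (R k')) j) =
      ov G (famν Õ ν) S₁ (sg G none) (sg G none) := by
    funext j
    rw [← ov_fam, ov_xl]
    simp only [mul_assoc, ← mul_sum]
    rw [sum_col hD]
    exact sum_congr rfl fun k _ => by rw [sum_col hD]
  have h3 := G.three_le
  rw [he, Grid.TT_mul (β := fun i => bet (fun k => w k ^ 2) lam c (G.D a i)), ov_sg_top, Grid.D_top,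
    range_eq_Ico, sum_eq_sum_Ico_succ_bot (by omega), show G.n = G.n - 1 + 1 by omega,
    sum_Ico_succ_top (by omega), show G.n - 1 + 1 = G.n by omega, hpin.path.dh_zero, Grid.tl_top] at hs
  refine le_trans (le_of_eq ?_) (hs.trans ?_)
  · congr 1
    have h0 : ov G (famν Õ ν) S₁ (sg G none) (sg G none) 0 = 0 := if_pos rfl
    simp only [Tst, ov_sg_top, h0, zero_add, hw]
    ring
  · have h1 : min 1 (η / (A + 1)) ≤ η / (A + 1) := min_le_right _ _
    have h2 : A * (η / (A + 1)) ≤ η := by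
      rw [← mul_div_assoc, div_le_iff₀ (by positivity)]
      nlinarith
    calc _ = A * min 1 (η / (A + 1)) := by rw [hA, abs_of_pos hD.pos]; ring
      _ ≤ _ := (mul_le_mul_of_nonneg_left h1 hA0).trans h2

end Crest.Agent.R164
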