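import Mathlib

/-!
Row 164: auxiliary facts for the tasks R164-FinU and R164-FinL.
-/

set_option autoImplicit false

namespace Crest.Agent.R164.FinA

open MeasureTheory Finset Filter

theorem count_low (μ : Measure ℝ) [IsProbabilityMeasure μ] (eig : (N : ℕ) → Fin N → ℝ)
    (hweak : ∀ φ : ℝ → ℝ, Continuous φ → (∃ C : ℝ, ∀ x, |φ x| ≤ C) →
      Tendsto (fun N : ℕ => (1 / (N : ℝ)) * ∑ i : Fin N, φ (eig N i)) atTop (nhds (∫ x, φ x ∂μ)))
    (t : ℝ) {ε η : ℝ} (hε : 0 < ε) (hη : 0 < η) : ∀ᶠ N : ℕ in atTop,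
      (μ.real (Set.Ici t) - η) * N ≤ (univ.filter fun i : Fin N => t - ε < eig N i).card := by
  set φ : ℝ → ℝ := fun x => max 0 (min 1 ((x - (t - ε)) / ε)) with hφ
  have hc : Continuous φ := by fun_prop
  have h0 : ∀ x, 0 ≤ φ x := fun x => le_max_left _ _
  have h1 : ∀ x, φ x ≤ 1 := fun x => max_le zero_le_one (min_le_left _ _)
  have hb : ∀ x, |φ x| ≤ 1 := fun x => by rw [abs_of_nonneg (h0 x)]; exact h1 x
  have hi : Integrable φ μ := (integrable_const 1).mono' hc.aestronglyMeasurable (Eventually.of_forall hb)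
  have h2 : μ.real (Set.Ici t) ≤ ∫ x, φ x ∂μ := by
    rw [← integral_indicator_one measurableSet_Ici]
    refine integral_mono ((integrable_const _).indicator measurableSet_Ici) hi fun x => ?_
    by_cases hx : x ∈ Set.Ici t
    · rw [Set.indicator_of_mem hx]
      refine le_max_of_le_right (le_min le_rfl ?_)
      rw [Pi.one_apply, le_div_iff₀ hε]
      linarith [Set.mem_Ici.1 hx]
    · rw [Set.indicator_of_notMem hx]
      exact h0 x
  filter_upwards [(hweak φ hc ⟨1, hb⟩).eventually_const_lt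
    (show μ.real (Set.Ici t) - η < ∫ x, φ x ∂μ by linarith), eventually_gt_atTop 0] with N hN hN0
  have hN0' : (0 : ℝ) < N := by exact_mod_cast hN0
  rw [one_div_mul_eq_div, lt_div_iff₀ hN0'] at hN
  refine hN.le.trans ?_
  rw [card_filter, Nat.cast_sum]
  refine sum_le_sum fun i _ => ?_
  split_ifs with h
  · exact (h1 _).trans (by norm_num)
  · refine max_le (by norm_num) ((min_le_right _ _).trans ?_)
    rw [Nat.cast_zero]
    exact div_nonpos_of_nonpos_of_nonneg (by linarith [not_lt.1 h]) hε.le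

theorem ev_le_exp (C : ℝ) {κ : ℝ} (hκ : 0 < κ) : ∀ᶠ N : ℕ in atTop, C ≤ Real.exp (κ * N) :=
  (Real.tendsto_exp_atTop.comp (tendsto_natCast_atTop_atTop.const_mul_atTop hκ)).eventually_ge_atTop C

theorem exp_small_sum {α : Type} (s : Finset α) (f : α → ℕ → ℝ)
    (h : ∀ a ∈ s, ∃ κ : ℝ, 0 < κ ∧ ∀ᶠ N : ℕ in atTop, f a N ≤ Real.exp (-κ * N)) :
    ∃ κ : ℝ, 0 < κ ∧ ∀ᶠ N : ℕ in atTop, ∑ a ∈ s, f a N ≤ Real.exp (-κ * N) := by
  classical
  induction s using Finset.induction_on with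
  | empty => exact ⟨1, one_pos, Eventually.of_forall fun N => by simpa using (Real.exp_pos _).le⟩
  | insert a s ha ih =>
    obtain ⟨κ₁, h1, e1⟩ := h a (mem_insert_self _ _)
    obtain ⟨κ₂, h2, e2⟩ := ih fun b hb => h b (mem_insert_of_mem hb)
    have h3 : 0 < min κ₁ κ₂ / 2 := by positivity
    refine ⟨min κ₁ κ₂ / 2, h3, ?_⟩
    filter_upwards [e1, e2, ev_le_exp 2 h3] with N b1 b2 b3
    have hN : (0 : ℝ) ≤ N := Nat.cast_nonneg _
    have c1 : Real.exp (-κ₁ * N) ≤ Real.exp (-min κ₁ κ₂ * N) :=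
      Real.exp_le_exp.2 (mul_le_mul_of_nonneg_right (neg_le_neg (min_le_left _ _)) hN)
    have c2 : Real.exp (-κ₂ * N) ≤ Real.exp (-min κ₁ κ₂ * N) :=
      Real.exp_le_exp.2 (mul_le_mul_of_nonneg_right (neg_le_neg (min_le_right _ _)) hN)
    rw [sum_insert ha]
    calc f a N + ∑ x ∈ s, f x N ≤ 2 * Real.exp (-min κ₁ κ₂ * N) := by linarith
      _ ≤ Real.exp (min κ₁ κ₂ / 2 * N) * Real.exp (-min κ₁ κ₂ * N) := by gcongr
      _ = _ := by rw [← Real.exp_add]; congr 1; ring

theorem le_of_add_lt {x : EReal} {a s b : ℝ} (h : (a : EReal) + (x + (s : EReal)) < (b : EReal)) :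
    x ≤ ((b - a - s : ℝ) : EReal) := by
  induction x with
  | bot => exact bot_le
  | top => simp at h
  | coe x =>
    have : a + (x + s) < b := by exact_mod_cast h
    exact EReal.coe_le_coe_iff.2 (by linarith)

theorem lt_sub_of_add_lt {x : EReal} {a b : ℝ} (h : (a : EReal) + x < (b : EReal)) :
    x < ((b - a : ℝ) : EReal) := by
  induction x with
  | bot => exact EReal.bot_lt_coe _
  | top => simp at h
  | coe x =>
    have : a + x < b := by exact_mod_cast h
    exact EReal.coe_lt_coe_iff.2 (by linarith)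

theorem le_sub_of_add_lt {x : EReal} {s b : ℝ} (h : x + (s : EReal) < (b : EReal)) :
    x ≤ ((b - s : ℝ) : EReal) := by
  induction x with
  | bot => exact bot_le
  | top => simp at h
  | coe x =>
    have : x + s < b := by exact_mod_cast h
    exact EReal.coe_le_coe_iff.2 (by linarith)

theorem sub_lt_of_lt_add {x : EReal} {a b : ℝ} (h : (b : EReal) < (a : EReal) + x) :
    ((b - a : ℝ) : EReal) < x := by
  induction x with
  | bot => simp at h
  | top => exact EReal.coe_lt_top _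
  | coe x =>
    have : b < a + x := by exact_mod_cast h
    exact EReal.coe_lt_coe_iff.2 (by linarith)

theorem le_add_of_le {x : EReal} {I I' s s' : ℝ} (h : (I : EReal) ≤ x + (s : EReal)) (h' : I' + s ≤ I + s') :
    (I' : EReal) ≤ x + (s' : EReal) := by
  induction x with
  | bot => simp at h
  | top => simp
  | coe x =>
    have : I ≤ x + s := by exact_mod_cast h
    have : I' ≤ x + s' := by linarith
    exact_mod_cast this

theorem sum_lab {ι κ : Type} [Fintype ι] [Fintype κ] [DecidableEq κ] (lab : ι → κ) (c : κ → ℝ) (x : ι → ℝ) :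
    ∑ i, c (lab i) * x i = ∑ j, c j * ∑ i ∈ univ.filter (fun i => lab i = j), x i := by
  rw [← sum_fiberwise univ lab]
  refine sum_congr rfl fun j _ => ?_
  rw [mul_sum]
  exact sum_congr rfl fun i hi => by rw [(mem_filter.1 hi).2]

theorem exists_rat {κ : Type} [Fintype κ] [DecidableEq κ] (p : κ → ℝ) (h0 : ∀ k, 0 ≤ p k) (h1 : ∑ k, p k = 1)
    {k0 kb : κ} (hne : k0 ≠ kb) {θ : ℝ} (hθ : 0 < θ) (hθp : 3 * θ ≤ p k0) :
    ∃ α : κ → ℚ, (∀ k, (0 : ℝ) < α k) ∧ ∑ k, (α k : ℝ) = 1 ∧ (∀ k, |(α k : ℝ) - p k| ≤ 3 * θ) ∧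
      ∀ S : Finset κ, k0 ∈ S → kb ∉ S → ∑ k ∈ S, (α k : ℝ) ≤ ∑ k ∈ S, p k - 2 * θ := by
  have hK : (1 : ℝ) ≤ Fintype.card κ := by exact_mod_cast Fintype.card_pos_iff.2 ⟨k0⟩
  set τ := θ / Fintype.card κ with hτ
  have hτ0 : 0 < τ := by positivity
  have hτ1 : Fintype.card κ * τ = θ := by rw [hτ]; field_simp
  have hτ2 : τ ≤ θ := div_le_self hθ.le hK
  set b : κ → ℝ := fun k => p k - if k = k0 then 3 * θ else 0 with hb
  have hb0 : ∀ k, 0 ≤ b k := fun k => by
    simp only [hb]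
    split_ifs with h
    · rw [h]; linarith
    · simpa using h0 k
  choose ρ hρ1 hρ2 using fun k => exists_rat_btwn (lt_add_of_pos_right (b k) hτ0)
  have sb : ∀ S : Finset κ, k0 ∈ S → ∑ k ∈ S, b k = ∑ k ∈ S, p k - 3 * θ := fun S hS => by
    simp only [hb, sum_sub_distrib, sum_ite_eq', if_pos hS]
  have s1 : ∀ S : Finset κ, k0 ∈ S → ∑ k ∈ S, (ρ k : ℝ) ≤ ∑ k ∈ S, p k - 2 * θ := fun S hS => by
    have a1 : ∑ k ∈ S, (ρ k : ℝ) ≤ ∑ k ∈ S, (b k + τ) := sum_le_sum fun k _ => (hρ2 k).le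
    have a2 : (S.card : ℝ) ≤ Fintype.card κ := by exact_mod_cast card_le_univ S
    rw [sum_add_distrib, sb S hS, sum_const, nsmul_eq_mul] at a1
    nlinarith
  have hk : k0 ∈ univ.erase kb := mem_erase.2 ⟨hne, mem_univ _⟩
  have s2 := s1 _ hk
  have s3 : ∑ k ∈ univ.erase kb, p k - 3 * θ ≤ ∑ k ∈ univ.erase kb, (ρ k : ℝ) :=
    (sb _ hk).ge.trans (sum_le_sum fun k _ => (hρ1 k).le)
  have s4 := add_sum_erase univ p (mem_univ kb)
  refine ⟨Function.update ρ kb (1 - ∑ k ∈ univ.erase kb, ρ k), fun k => ?_, ?_, fun k => ?_, fun S a1 a2 => ?_⟩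
  · by_cases h : k = kb
    · rw [h, Function.update_self]
      push_cast
      linarith [h0 kb]
    · rw [Function.update_of_ne h]
      exact (hb0 k).trans_lt (hρ1 k)
  · have e : ∀ x : ℚ, ∑ k ∈ univ.erase kb, ((Function.update ρ kb x k : ℚ) : ℝ) = ∑ k ∈ univ.erase kb, (ρ k : ℝ) :=
      fun x => sum_congr rfl fun k hk => by rw [Function.update_of_ne (ne_of_mem_erase hk)]
    rw [← add_sum_erase univ _ (mem_univ kb), Function.update_self, e]
    push_cast
    ring
  · by_cases h : k = kb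
    · rw [h, Function.update_self, abs_le]
      push_cast
      constructor <;> linarith
    · rw [Function.update_of_ne h, abs_le]
      have a1 := hρ1 k
      have a2 := hρ2 k
      simp only [hb] at a1 a2
      split_ifs at a1 a2 <;> constructor <;> linarith
  · exact (sum_congr rfl fun k hk => by rw [Function.update_of_ne (ne_of_mem_of_not_mem hk a2)]).trans_le
      (s1 S a1)

end Crest.Agent.R164.FinA
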