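import Crest.Agent.R164.RT

/-!
Row 164, task R164-RTcmp: comparison of the atomic R-transform with `rTransform`.

PLAN.  `Gμ b = ∫ (b - λ)⁻¹ dμ` is continuous and strictly decreasing on `(λ₊, ∞)`, between `1/(b - λ₋)` and
`1/(b - λ₊)` (μ-a.e. `λ ∈ [λ₋, λ₊]`).  So the solution set is empty or a singleton; if empty then `Gμ b < x` for all
`b > λ₊` (intermediate values).  `lt_of_res_lt`, `rT_mem` follow; `resolventPoint` is antitone on `(0,∞)`
so `rTransform` is measurable on `(0,∞)`; `deficit` is continuous.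
`rt_upper`: pointwise `∀ᶠ N, Rf_N x + top ≤ rT x + 3δ + η/2` (`top = hi + δ`; `Rf_le` with `b = resolventPoint + 3δ + η/2 - top > 0`,
`b' = resolventPoint + δ + η/2 > hi + δ`,
`hweak` for the bounded continuous test function `λ ↦ (b' - min λ (λ₊ + δ))⁻¹`; at `x = 0` use `Rf_zero` and a clipped
identity), then dominated convergence for the positive part `(Rf_N + top - rT - 3δ - η/2)_+ → 0`
(`tendsto_integral_filter_of_dominated_convergence`; make the integrand `0` for those `N` where the hypotheses fail,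
or use `Filter.Eventually` versions).
`rt_lower`: `le_Rf` with `b = resolventPoint - δ - top`; `Σ_k α_k f(val k) = ∫ f (val (dn λ)) dμ`.
-/

set_option autoImplicit false

namespace Crest.Agent.R164

open MeasureTheory Finset Filter Crest.ProbabilityR.InvariantGlass

variable {μ : Measure ℝ} [IsProbabilityMeasure μ] {lo hi : ℝ}

namespace RTc

theorem ae_mem (hsupp : μ (Set.Icc lo hi) = 1) : ∀ᵐ x ∂μ, x ∈ Set.Icc lo hi :=
  (mem_ae_iff_prob_eq_one measurableSet_Icc).2 hsupp

theorem integrable_of_bd (hsupp : μ (Set.Icc lo hi) = 1) {f : ℝ → ℝ} (hf : Measurable f) (C : ℝ)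
    (h : ∀ x ∈ Set.Icc lo hi, |f x| ≤ C) : Integrable f μ :=
  (integrable_const C).mono' hf.aestronglyMeasurable ((ae_mem hsupp).mono h)

theorem abs_inv_le {b b0 x : ℝ} (h0 : hi < b0) (hb : b0 ≤ b) (hx : x ∈ Set.Icc lo hi) :
    |(b - x)⁻¹| ≤ (b0 - hi)⁻¹ := by
  have := hx.2
  rw [abs_of_pos (inv_pos.2 (by linarith))]
  exact inv_anti₀ (by linarith) (by linarith)

theorem integrable_res (hsupp : μ (Set.Icc lo hi) = 1) {b : ℝ} (hb : hi < b) :
    Integrable (fun x => (b - x)⁻¹) μ :=
  integrable_of_bd hsupp (by fun_prop) _ fun _ hx => abs_inv_le hb le_rfl hx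

theorem G_anti (hsupp : μ (Set.Icc lo hi) = 1) {b b' : ℝ} (hb : hi < b) (h : b ≤ b') :
    ∫ x, (b' - x)⁻¹ ∂μ ≤ ∫ x, (b - x)⁻¹ ∂μ := by
  refine integral_mono_ae (integrable_res hsupp (by linarith)) (integrable_res hsupp hb) ?_
  filter_upwards [ae_mem hsupp] with x hx
  exact inv_anti₀ (by linarith [hx.2]) (by linarith)

theorem G_le (hsupp : μ (Set.Icc lo hi) = 1) {b : ℝ} (hb : hi < b) :
    ∫ x, (b - x)⁻¹ ∂μ ≤ (b - hi)⁻¹ := by
  have := integral_mono_ae (integrable_res hsupp hb) (integrable_const (b - hi)⁻¹) (by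
    filter_upwards [ae_mem hsupp] with x hx
    exact inv_anti₀ (by linarith) (by linarith [hx.2]))
  simpa using this

theorem le_G (hsupp : μ (Set.Icc lo hi) = 1) {b : ℝ} (hb : hi < b) :
    (b - lo)⁻¹ ≤ ∫ x, (b - x)⁻¹ ∂μ := by
  have := integral_mono_ae (integrable_const (b - lo)⁻¹) (integrable_res hsupp hb) (by
    filter_upwards [ae_mem hsupp] with x hx
    exact inv_anti₀ (by linarith [hx.2]) (by linarith [hx.1]))
  simpa using this

theorem G_cont (hsupp : μ (Set.Icc lo hi) = 1) {b b' : ℝ} (hb : hi < b) :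
    ContinuousOn (fun s => ∫ x, (s - x)⁻¹ ∂μ) (Set.Icc b b') := by
  refine continuousOn_of_dominated (bound := fun _ => (b - hi)⁻¹)
    (fun s _ => (by fun_prop : Measurable fun x : ℝ => (s - x)⁻¹).aestronglyMeasurable)
    (fun s hs => ?_) (integrable_const _) ?_
  · filter_upwards [ae_mem hsupp] with x hx
    exact abs_inv_le hb hs.1 hx
  · filter_upwards [ae_mem hsupp] with x hx
    exact (continuousOn_id.sub continuousOn_const).inv₀ fun s hs => by
      have := hs.1; have := hx.2
      exact (by linarith : 0 < s - x).ne'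

omit [IsProbabilityMeasure μ] in
theorem hi_le_res (x : ℝ) : hi ≤ resolventPoint μ hi x := by
  unfold resolventPoint
  split_ifs with h
  · exact le_csInf h fun b hb => hb.1.le
  · exact le_rfl

theorem G_le_of_lt (hsupp : μ (Set.Icc lo hi) = 1) {x b : ℝ} (hx : 0 < x)
    (hb : resolventPoint μ hi x < b) : ∫ y, (b - y)⁻¹ ∂μ ≤ x := by
  have hb' : hi < b := (hi_le_res x).trans_lt hb
  unfold resolventPoint at hb
  split_ifs at hb with h
  · obtain ⟨s, hs, hsb⟩ := exists_lt_of_csInf_lt h hb
    exact (G_anti hsupp hs.1 hsb.le).trans hs.2.le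
  · by_contra hc
    push Not at hc
    have h1 : b ≤ b + x⁻¹ := by have := inv_pos.2 hx; linarith
    have h2 : ∫ y, (b + x⁻¹ - y)⁻¹ ∂μ ≤ x := by
      refine (G_le hsupp (by linarith)).trans ?_
      rw [inv_le_comm₀ (by linarith [inv_pos.2 hx]) hx]
      linarith
    obtain ⟨s, hs, hsx⟩ := intermediate_value_Icc' h1 (G_cont hsupp hb') ⟨h2, hc.le⟩
    exact h ⟨s, hb'.trans_le hs.1, hsx⟩

theorem le_G_of_lt (hsupp : μ (Set.Icc lo hi) = 1) {x b : ℝ} (h1 : hi < b)
    (hb : b < resolventPoint μ hi x) : x ≤ ∫ y, (b - y)⁻¹ ∂μ := by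
  unfold resolventPoint at hb
  split_ifs at hb with h
  · obtain ⟨s, hs⟩ := h
    have : sInf {b : ℝ | hi < b ∧ ∫ lam, (b - lam)⁻¹ ∂μ = x} ≤ s :=
      csInf_le ⟨hi, fun b hb => hb.1.le⟩ hs
    exact hs.2.ge.trans (G_anti hsupp h1 (by linarith))
  · linarith

theorem G_lt_of_lt (hle : lo ≤ hi) (hsupp : μ (Set.Icc lo hi) = 1) {x b : ℝ} (hx : 0 < x)
    (hb : resolventPoint μ hi x < b) : ∫ y, (b - y)⁻¹ ∂μ < x := by
  obtain ⟨c, hc1, hc2⟩ := exists_between hb
  have hc : hi < c := (hi_le_res x).trans_lt hc1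
  have h1 := G_le_of_lt hsupp hx hc1
  have hθ : (c - lo) / (b - lo) < 1 := by rw [div_lt_one (by linarith)]; linarith
  have hθ0 : 0 ≤ (c - lo) / (b - lo) := div_nonneg (by linarith) (by linarith)
  have h2 : ∫ y, (b - y)⁻¹ ∂μ ≤ (c - lo) / (b - lo) * ∫ y, (c - y)⁻¹ ∂μ := by
    rw [← integral_const_mul]
    refine integral_mono_ae (integrable_res hsupp (by linarith))
      ((integrable_res hsupp hc).const_mul _) ?_
    filter_upwards [ae_mem hsupp] with y hy
    have a1 : 0 < b - y := by linarith [hy.2]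
    have a2 : 0 < c - y := by linarith [hy.2]
    have a3 : 0 < b - lo := by linarith
    rw [← div_eq_mul_inv, div_div, inv_eq_one_div, div_le_div_iff₀ a1 (by positivity)]
    nlinarith [hy.1]
  calc _ ≤ _ := h2
    _ ≤ (c - lo) / (b - lo) * x := by gcongr
    _ < 1 * x := by gcongr
    _ = x := one_mul x

theorem res_anti (hsupp : μ (Set.Icc lo hi) = 1) : Antitone fun t => resolventPoint μ hi (Real.exp t) := by
  intro s t hst
  by_contra hc
  push Not at hc
  obtain ⟨b, h1, h2⟩ := exists_between hc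
  have a1 := G_le_of_lt hsupp (Real.exp_pos s) h1
  have a2 := le_G_of_lt hsupp ((hi_le_res _).trans_lt h1) h2
  have : t ≤ s := Real.exp_le_exp.1 (a2.trans a1)
  rw [le_antisymm hst this] at hc
  exact lt_irrefl _ hc

theorem measurable_rT (hsupp : μ (Set.Icc lo hi) = 1) : Measurable (rTransform μ hi) := by
  have e : rTransform μ hi = fun x => if 0 < x then
      resolventPoint μ hi (Real.exp (Real.log x)) - 1 / x else ∫ lam, lam ∂μ := by
    funext x
    unfold rTransform
    split_ifs with h
    · rw [Real.exp_log h]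
    · rfl
  rw [e]
  exact Measurable.ite measurableSet_Ioi
    (((res_anti hsupp).measurable.comp Real.measurable_log).sub (by fun_prop)) measurable_const

theorem measurable_deficit {q : ℝ → ℝ} (hq : IsTrialPath q) : Measurable (deficit q) := by
  have hm := hq.1
  have h : StronglyMeasurable fun p : ℝ × ℝ => max (q p.2 - p.1) 0 :=
    Measurable.stronglyMeasurable (by fun_prop)
  exact (measurable_const.sub measurable_id).sub
    (h.integral_prod_right' (ν := volume.restrict (Set.Ioo (0 : ℝ) 1))).measurable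

theorem deficit_nonneg {q : ℝ → ℝ} (hq : IsTrialPath q) {r : ℝ} (hr : r ∈ Set.Ioo (0 : ℝ) 1) :
    0 ≤ deficit q r := by
  have h : ∫ s in Set.Ioo (0 : ℝ) 1, max (q s - r) 0 ≤ ∫ _s in Set.Ioo (0 : ℝ) 1, (1 - r) := by
    refine integral_mono_of_nonneg (Eventually.of_forall fun _ => le_max_right _ _)
      (integrable_const _) ?_
    filter_upwards [ae_restrict_mem measurableSet_Ioo] with s hs
    exact max_le (by linarith [(hq.2.2 s hs).2]) (by linarith [hr.2])
  simp only [integral_const, MeasurableSet.univ, measureReal_restrict_apply, Set.univ_inter,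
    Real.volume_real_Ioo, sub_zero, zero_le_one, sup_of_le_left, smul_eq_mul, one_mul] at h
  unfold deficit
  linarith

theorem sum_blk {𝒦 : Type} [Fintype 𝒦] [DecidableEq 𝒦] {N : ℕ} (blk : Fin N → 𝒦) (f : 𝒦 → ℝ) :
    ∑ k, ((univ.filter fun i => blk i = k).card : ℝ) / N * f k = (1 / (N : ℝ)) * ∑ i, f (blk i) := by
  rw [← sum_fiberwise univ blk, mul_sum]
  refine sum_congr rfl fun k _ => ?_
  rw [sum_congr rfl (g := fun _ => f k) fun i hi => by rw [(mem_filter.1 hi).2], sum_const, nsmul_eq_mul]
  ring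

theorem int_le_sum (hsupp : μ (Set.Icc lo hi) = 1) {𝒦 : Type} [Fintype 𝒦]
    (A : 𝒦 → Set ℝ) (hA : ∀ k, MeasurableSet (A k))
    (hdisj : Pairwise (Function.onFun Disjoint A)) (hcov : Set.Icc lo hi ⊆ ⋃ k, A k)
    {f : ℝ → ℝ} (hf : Integrable f μ) (c : 𝒦 → ℝ)
    (h : ∀ k, ∀ x ∈ A k, x ∈ Set.Icc lo hi → f x ≤ c k) : ∫ x, f x ∂μ ≤ ∑ k, μ.real (A k) * c k := by
  have hi' : ∀ k, Integrable ((A k).indicator fun _ => c k) μ := fun k =>
    (integrable_const _).indicator (hA k)
  calc ∫ x, f x ∂μ ≤ ∫ x, ∑ k, (A k).indicator (fun _ => c k) x ∂μ := by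
        refine integral_mono_ae hf (integrable_finset_sum _ fun k _ => hi' k) ?_
        filter_upwards [ae_mem hsupp] with x hx
        obtain ⟨k, hk⟩ := Set.mem_iUnion.1 (hcov hx)
        rw [sum_eq_single k, Set.indicator_of_mem hk]
        · exact h k x hk hx
        · intro j _ hj
          exact Set.indicator_of_notMem (fun hj' => Set.disjoint_left.1 (hdisj hj) hj' hk) _
        · simp
    _ = _ := by
        rw [integral_finset_sum _ fun k _ => hi' k]
        exact sum_congr rfl fun k _ => by rw [integral_indicator_const _ (hA k), smul_eq_mul]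

theorem integrable_id' (hsupp : μ (Set.Icc lo hi) = 1) : Integrable (fun x => x) μ :=
  integrable_of_bd hsupp measurable_id (|lo| + |hi|) fun x hx => by
    rw [abs_le]
    constructor <;> linarith [hx.1, hx.2, neg_abs_le lo, le_abs_self hi, abs_nonneg lo, abs_nonneg hi]

end RTc

open RTc

theorem rT_mem (hle : lo ≤ hi) (hsupp : μ (Set.Icc lo hi) = 1) (x : ℝ) :
    rTransform μ hi x ∈ Set.Icc lo hi := by
  unfold rTransform
  split_ifs with hx
  · constructor
    · rw [le_sub_iff_add_le]
      refine le_of_forall_gt_imp_ge_of_dense fun b hb => ?_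
      have hb' : hi < b := (hi_le_res x).trans_lt hb
      have := (le_G hsupp hb').trans (G_le_of_lt hsupp hx hb)
      rw [inv_le_comm₀ (by linarith) hx] at this
      rw [one_div]
      linarith
    · rw [sub_le_iff_le_add]
      by_contra hc
      push Not at hc
      obtain ⟨b, h1, h2⟩ := exists_between hc
      have h0 : 0 < 1 / x := by positivity
      have := (le_G_of_lt hsupp (by linarith) h2).trans (G_le hsupp (by linarith))
      rw [le_inv_comm₀ hx (by linarith)] at this
      rw [one_div] at h1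
      linarith
  · constructor
    · simpa using integral_mono_ae (integrable_const lo) (integrable_id' hsupp)
        ((ae_mem hsupp).mono fun x hx => hx.1)
    · simpa using integral_mono_ae (integrable_id' hsupp) (integrable_const hi)
        ((ae_mem hsupp).mono fun x hx => hx.2)

theorem rT_integrableOn (hle : lo ≤ hi) (hsupp : μ (Set.Icc lo hi) = 1) {q : ℝ → ℝ} (hq : IsTrialPath q) :
    IntegrableOn (fun r => rTransform μ hi (deficit q r)) (Set.Ioo 0 1) := by
  refine (integrable_const (|lo| + |hi|)).mono'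
    ((measurable_rT hsupp).comp (measurable_deficit hq)).aestronglyMeasurable
    (Eventually.of_forall fun r => ?_)
  have hx := rT_mem hle hsupp (deficit q r)
  rw [Real.norm_eq_abs, abs_le]
  constructor <;> linarith [hx.1, hx.2, neg_abs_le lo, le_abs_self hi, abs_nonneg lo, abs_nonneg hi]

theorem rt_upper (hle : lo ≤ hi) (hsupp : μ (Set.Icc lo hi) = 1) (eig : (N : ℕ) → Fin N → ℝ)
    (hweak : ∀ φ : ℝ → ℝ, Continuous φ → (∃ C : ℝ, ∀ x, |φ x| ≤ C) →
      Tendsto (fun N : ℕ => (1 / (N : ℝ)) * ∑ i : Fin N, φ (eig N i)) atTop (nhds (∫ x, φ x ∂μ)))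
    {𝒦 : Type} [Fintype 𝒦] [DecidableEq 𝒦] (m : 𝒦 → ℝ) (blk : (N : ℕ) → Fin N → 𝒦) {a0 Λ δ : ℝ} (hδ : 0 < δ)
    (h : ∀ᶠ N : ℕ in atTop,
      Atom (fun k => ((univ.filter fun i => blk N i = k).card : ℝ) / N) m a0 Λ ∧
      ∀ i, lo - δ ≤ eig N i ∧ eig N i ≤ hi + δ ∧ m (blk N i) + (hi + δ) ≤ eig N i + 2 * δ)
    {q : ℝ → ℝ} (hq : IsTrialPath q) {η : ℝ} (hη : 0 < η) :
    ∀ᶠ N : ℕ in atTop, (∫ r in Set.Ioo (0 : ℝ) 1,
      Rf (fun k => ((univ.filter fun i => blk N i = k).card : ℝ) / N) m (deficit q r)) + (hi + δ) ≤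
      2 * spectralPart μ hi q + 3 * δ + η := by
  set α : ℕ → 𝒦 → ℝ := fun N k => ((univ.filter fun i => blk N i = k).card : ℝ) / N with hα
  have pt : ∀ x : ℝ, 0 ≤ x → ∀ᶠ N : ℕ in atTop,
      Rf (α N) m x + (hi + δ) ≤ rTransform μ hi x + 3 * δ + η / 2 := by
    intro x hx
    rcases hx.eq_or_lt with rfl | hx
    · have hw := hweak (fun y => max (lo - δ) (min y (hi + δ))) (by fun_prop)
        ⟨|lo - δ| + |hi + δ|, fun y => by
          rw [abs_le]
          constructor
          · refine le_trans ?_ (le_max_left _ _)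
            linarith [neg_abs_le (lo - δ), abs_nonneg (hi + δ)]
          · refine max_le ?_ ((min_le_right _ _).trans ?_)
            · linarith [le_abs_self (lo - δ), abs_nonneg (hi + δ)]
            · linarith [le_abs_self (hi + δ), abs_nonneg (lo - δ)]⟩
      have e : ∫ y, max (lo - δ) (min y (hi + δ)) ∂μ = ∫ y, y ∂μ := by
        refine integral_congr_ae ?_
        filter_upwards [ae_mem hsupp] with y hy
        rw [min_eq_left (by linarith [hy.2]), max_eq_right (by linarith [hy.1])]
      rw [e] at hw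
      filter_upwards [h, hw.eventually_lt_const (lt_add_of_pos_right _ (half_pos hη)),
        eventually_gt_atTop 0] with N hN h1 hN0
      have hN0' : (0 : ℝ) < N := by exact_mod_cast hN0
      rw [hN.1.Rf_zero, sum_blk, rTransform, if_neg (lt_irrefl _)]
      have h2 : ∑ i, m (blk N i) ≤ ∑ i, (max (lo - δ) (min (eig N i) (hi + δ)) + (δ - hi)) :=
        sum_le_sum fun i _ => by
          obtain ⟨a, b, c⟩ := hN.2 i
          rw [min_eq_left b, max_eq_right a]
          linarith
      rw [sum_add_distrib, sum_const, card_univ, Fintype.card_fin, nsmul_eq_mul] at h2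
      have h3 := mul_le_mul_of_nonneg_left h2 (one_div_pos.2 hN0').le
      rw [mul_add, ← mul_assoc, one_div_mul_cancel hN0'.ne', one_mul] at h3
      linarith
    · set r := resolventPoint μ hi x with hr
      have hr0 : hi ≤ r := hi_le_res x
      have hpos : ∀ y, η / 2 ≤ r + δ + η / 2 - min y (hi + δ) := fun y => by
        linarith [min_le_right y (hi + δ)]
      have hw := hweak (fun y => (r + δ + η / 2 - min y (hi + δ))⁻¹)
        (Continuous.inv₀ (by fun_prop) fun y => (lt_of_lt_of_le (half_pos hη) (hpos y)).ne')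
        ⟨(η / 2)⁻¹, fun y => by
          rw [abs_of_pos (inv_pos.2 (lt_of_lt_of_le (half_pos hη) (hpos y)))]
          exact inv_anti₀ (half_pos hη) (hpos y)⟩
      have e : ∫ y, (r + δ + η / 2 - min y (hi + δ))⁻¹ ∂μ = ∫ y, (r + δ + η / 2 - y)⁻¹ ∂μ := by
        refine integral_congr_ae ?_
        filter_upwards [ae_mem hsupp] with y hy
        rw [min_eq_left (by linarith [hy.2])]
      rw [e] at hw
      filter_upwards [h, hw.eventually_lt_const
        (G_lt_of_lt hle hsupp hx (by linarith : r < r + δ + η / 2))] with N hN h1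
      have h2 := hN.1.Rf_le hx (b := r - hi + 2 * δ + η / 2) (by linarith) (by
        simp only [div_eq_mul_inv _ (_ - m _)]
        rw [sum_blk]
        refine le_trans ?_ h1.le
        refine mul_le_mul_of_nonneg_left (sum_le_sum fun i _ => ?_) (by positivity)
        obtain ⟨a, b, c⟩ := hN.2 i
        refine inv_anti₀ (lt_of_lt_of_le (half_pos hη) (hpos _)) ?_
        rw [min_eq_left b]
        linarith)
      rw [rTransform, if_pos hx, ← hr]
      linarith
  have hmeas : ∀ᶠ N : ℕ in atTop, Measurable fun r => Rf (α N) m (max (deficit q r) 0) := by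
    filter_upwards [h] with N hN
    have : Monotone fun x => Rf (α N) m (max x 0) := fun x y hxy =>
      hN.1.Rf_mono (le_max_right x 0) (le_max_right y 0) (max_le_max hxy le_rfl)
    exact this.measurable.comp (measurable_deficit hq)
  have hT := (measurable_rT hsupp).comp (measurable_deficit hq)
  have lim := tendsto_integral_filter_of_dominated_convergence (μ := volume.restrict (Set.Ioo (0 : ℝ) 1))
    (l := atTop) (F := fun (N : ℕ) r => max (Rf (α N) m (max (deficit q r) 0) + (hi + δ) -
      rTransform μ hi (deficit q r) - 3 * δ - η / 2) 0) (f := fun _ => 0) (fun _ => hi - lo)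
    (by
      filter_upwards [hmeas] with N hN
      exact (((((hN.add_const _).sub hT).sub_const _).sub_const _).max
        measurable_const).aestronglyMeasurable)
    (by
      filter_upwards [h] with N hN
      refine Eventually.of_forall fun r => ?_
      rw [Real.norm_eq_abs, abs_of_nonneg (le_max_right _ _)]
      have a1 := (hN.1.Rf_mem (max (deficit q r) 0)).2
      have a2 := (rT_mem hle hsupp (deficit q r)).1
      exact max_le (by linarith) (by linarith))
    (integrable_const _)
    (by
      filter_upwards [ae_restrict_mem measurableSet_Ioo] with r hr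
      refine tendsto_const_nhds.congr' ?_
      filter_upwards [pt _ (deficit_nonneg hq hr)] with N hN
      rw [max_eq_left (deficit_nonneg hq hr), max_eq_right (by linarith)])
  rw [integral_zero] at lim
  filter_upwards [h, hmeas, lim.eventually_lt_const (half_pos hη)] with N hN hm h1
  have i1 : Integrable (fun r => Rf (α N) m (max (deficit q r) 0))
      (volume.restrict (Set.Ioo (0 : ℝ) 1)) :=
    (integrable_const Λ).mono' hm.aestronglyMeasurable (Eventually.of_forall fun r => by
      have a1 := hN.1.Rf_mem (max (deficit q r) 0)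
      rw [Real.norm_eq_abs, abs_le]
      exact ⟨a1.1, a1.2.trans hN.1.Λ_nonneg⟩)
  have i2 : Integrable (fun r => rTransform μ hi (deficit q r))
      (volume.restrict (Set.Ioo (0 : ℝ) 1)) := rT_integrableOn hle hsupp hq
  have i3 : Integrable (fun r => Rf (α N) m (max (deficit q r) 0) + (hi + δ) -
      rTransform μ hi (deficit q r) - 3 * δ - η / 2) (volume.restrict (Set.Ioo (0 : ℝ) 1)) :=
    (((i1.add (integrable_const _)).sub i2).sub (integrable_const _)).sub (integrable_const _)
  have h2 := integral_mono i3 i3.pos_part fun r => le_max_left _ _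
  have e1 : ∫ r in Set.Ioo (0 : ℝ) 1, Rf (α N) m (deficit q r) =
      ∫ r in Set.Ioo (0 : ℝ) 1, Rf (α N) m (max (deficit q r) 0) :=
    setIntegral_congr_fun measurableSet_Ioo fun r hr => by
      simp only [max_eq_left (deficit_nonneg hq hr)]
  have e2 : (fun r => Rf (α N) m (max (deficit q r) 0) + (hi + δ) -
      rTransform μ hi (deficit q r) - 3 * δ - η / 2) = fun r => (Rf (α N) m (max (deficit q r) 0) -
      rTransform μ hi (deficit q r)) + (hi + δ - 3 * δ - η / 2) := funext fun r => by ring
  have i4 : Integrable (fun r => Rf (α N) m (max (deficit q r) 0) - rTransform μ hi (deficit q r))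
      (volume.restrict (Set.Ioo (0 : ℝ) 1)) := i1.sub i2
  replace h2 := h2.trans h1.le
  rw [e2, integral_add i4 (integrable_const _), integral_sub i1 i2] at h2
  simp only [integral_const, MeasurableSet.univ, measureReal_restrict_apply, Set.univ_inter,
    Real.volume_real_Ioo, sub_zero, zero_le_one, sup_of_le_left, smul_eq_mul, one_mul] at h2
  rw [e1, spectralPart]
  linarith

theorem rt_lower (hle : lo ≤ hi) (hsupp : μ (Set.Icc lo hi) = 1) {𝒦 : Type} [Fintype 𝒦]
    (m : 𝒦 → ℝ) (A : 𝒦 → Set ℝ) (hA : ∀ k, MeasurableSet (A k))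
    (hdisj : Pairwise (Function.onFun Disjoint A)) (hcov : Set.Icc lo hi ⊆ ⋃ k, A k)
    {a0 Λ δ top : ℝ} (hat : Atom (fun k => μ.real (A k)) m a0 Λ) (htop : hi - δ ≤ top)
    (hval : ∀ k, ∀ x ∈ A k, x ∈ Set.Icc lo hi → x - δ ≤ m k + top) {x : ℝ} (hx : 0 ≤ x) :
    rTransform μ hi x ≤ Rf (fun k => μ.real (A k)) m x + top + δ := by
  rcases hx.eq_or_lt with rfl | hx
  · rw [hat.Rf_zero, rTransform, if_neg (lt_irrefl _)]
    have := int_le_sum hsupp A hA hdisj hcov (integrable_id' hsupp) (fun k => m k + (top + δ))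
      fun k y h1 h2 => by linarith [hval k y h1 h2]
    simp only [mul_add, sum_add_distrib, ← sum_mul, hat.sum_one, one_mul] at this
    linarith
  · rw [rTransform, if_pos hx]
    refine le_of_forall_pos_le_add fun ε hε => ?_
    have := hat.le_Rf hx (b := resolventPoint μ hi x - ε - δ - top) fun hb => by
      have h1 : hi < resolventPoint μ hi x - ε := by linarith
      refine (le_G_of_lt hsupp h1 (by linarith)).trans ?_
      simp only [div_eq_mul_inv]
      refine int_le_sum hsupp A hA hdisj hcov (integrable_res hsupp h1) _ fun k y h2 h3 => ?_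
      exact inv_anti₀ (by linarith [(hat.mem k).2]) (by linarith [hval k y h2 h3])
    linarith

end Crest.Agent.R164
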