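import Crest.Agent.R164.Low
import Crest.Agent.R164.Conc
import Crest.Agent.R164.RTcmp
import Crest.Agent.R164.FinA

/-!
Row 164, task R164-FinL: lower tail for a general spectral law.

PLAN.  Pick `m` and a real `I` with `r < Σ γ c m + I - 10 δ`, `I ≤ centropy γ m q + spectralPart μ hi q` for all trial `q` (`lt_iSup_iff`, `EReal.lt_iff_exists_real_btwn`).
`exists_disc` (discretisation from below) gives the model.  With `top = hi - 2δ`: `spectralPart q ≤ ½ ∫ Rf α μ' (deficit q) + top/2 + δ` (`deficit_mem`, `rT_integrableOn`,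
`integrableOn_comp_deficit`), so `I₀ = I - top/2 - δ` is allowed in `low`.  `exists_per` for `α` and `γ` with a common period (`Per` for `n₀` implies `Per` for multiples, or choose a common denominator).
`conc` with `η ≤ min η₀ δ`, `lam i = min (eig i - top) 0`, `lam' i = μ' (bs i)`, `pot = Σ c (lab N r) σ_r` (counting hypothesis: `exists_disc`, `Per.cnt_close`);
`fN (eig) ≥ fN lam + N top/2` (`fN_shift`, `fN_le`); change the labels from `lab N` to `ls` with `exists_perm_close`, `IsHaar.re` (`e₁ = refl`), `fN_reOG`, `fN_le`, cost `2 max|c| Σ_j |cnt - cnt'| = o(N)`.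
`exists_disc`: `𝒦 = Fin (Kq + 3)` or `Option (Option (Fin (Kq+1)))`: classes `k ≤ Kq` with sets `A 0 = [hi - δ, ∞)`, `A k = [hi - (k+1)δ, hi - kδ)`, atoms `-kδ` (value `top - kδ`),
a class `k1` (empty set, atom `0`) and a bottom class (empty set, atom `-Λ`, `Λ = (Kq + 2) δ + 1`); `rt_lower` (with `2δ`... values are within `2δ` below the points of `A k`), `small` to pass from `μ.real (A k)` to positive rationals
`α k ∈ ((1-β) μ(A k), (1-β) μ(A k) + τ)` for the non-bottom classes, `(Kq+2) τ ≤ β μ(A 0)/2`, the bottom class gets the rest; tails: `Σ_{atom ≥ t} α ≤ μ [hi - (k+1)δ, ∞) - β μ(A 0)/2`, while by `hweak`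
(continuous bump) eventually `#{eig ≥ top - kδ}/N ≥ μ [hi - (k+1) δ, ∞) - η₀`.
-/

set_option autoImplicit false

namespace Crest.Agent.R164

open MeasureTheory Finset Matrix Filter Crest.ProbabilityR.InvariantGlass

theorem exists_per {κ : Type} [Fintype κ] [DecidableEq κ] (w : κ → ℚ) (h0 : ∀ k, 0 ≤ w k) (h1 : ∑ k, w k = 1) :
    ∃ n₁ : ℕ, 0 < n₁ ∧ ∃ f : ℕ → κ, ∀ n₀ : ℕ, n₁ ∣ n₀ → Per f n₀ fun k => (w k : ℝ) := by
  set n₁ : ℕ := ∏ k, (w k).den with hn
  have hpos : 0 < n₁ := prod_pos fun k _ => (w k).den_pos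
  have h2 : ∀ k, ∃ m : ℕ, (m : ℚ) = w k * n₁ := fun k => by
    obtain ⟨t, ht⟩ : (w k).den ∣ n₁ := dvd_prod_of_mem _ (mem_univ k)
    refine ⟨(w k).num.toNat * t, ?_⟩
    have : (((w k).num.toNat : ℕ) : ℚ) = (w k).num := by
      exact_mod_cast Int.toNat_of_nonneg (Rat.num_nonneg.2 (h0 k))
    rw [ht, Nat.cast_mul, Nat.cast_mul, this, ← mul_assoc, Rat.mul_den_eq_num]
  choose m hm using h2
  have h3 : Fintype.card (Fin n₁) = Fintype.card (Σ k, Fin (m k)) := by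
    have : ((∑ k, m k : ℕ) : ℚ) = n₁ := by
      rw [Nat.cast_sum, sum_congr rfl fun k _ => hm k, ← sum_mul, h1, one_mul]
    simp only [Fintype.card_fin, Fintype.card_sigma]
    exact_mod_cast this.symm
  obtain ⟨e⟩ := Fintype.card_eq.1 h3
  refine ⟨n₁, hpos, fun i => (e ⟨i % n₁, Nat.mod_lt _ hpos⟩).1, ?_⟩
  rintro _ ⟨t, rfl⟩ N k
  have one : ∀ N, ((Ico N (N + n₁)).filter fun i => (e ⟨i % n₁, Nat.mod_lt _ hpos⟩).1 = k).card = m k := by
    intro N
    have per : Function.Periodic (fun i => (e ⟨i % n₁, Nat.mod_lt _ hpos⟩).1 = k) n₁ := fun i => by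
      simp only [Nat.add_mod_right]
    rw [Nat.filter_Ico_card_eq_of_periodic _ _ _ per, Nat.count_eq_card_filter_range]
    refine Eq.trans ?_ (Fintype.card_fin (m k))
    symm
    refine card_bij (fun x _ => (e.symm ⟨k, x⟩).val) (fun x _ => ?_) (fun x _ y _ h => ?_) fun i hi => ?_
    · refine mem_filter.2 ⟨mem_range.2 (e.symm ⟨k, x⟩).2, ?_⟩
      simp only [Nat.mod_eq_of_lt (e.symm ⟨k, x⟩).2, Fin.eta, Equiv.apply_symm_apply]
    · simpa using e.symm.injective (Fin.ext h)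
    · obtain ⟨a1, a2⟩ := mem_filter.1 hi
      subst a2
      refine ⟨(e ⟨i % n₁, Nat.mod_lt _ hpos⟩).2, mem_univ _, ?_⟩
      simp only [Sigma.eta, Equiv.symm_apply_apply, Nat.mod_eq_of_lt (mem_range.1 a1)]
  have all : ∀ t, ((Ico N (N + n₁ * t)).filter fun i => (e ⟨i % n₁, Nat.mod_lt _ hpos⟩).1 = k).card = m k * t := by
    intro t
    induction t with
    | zero => simp
    | succ t ih =>
      rw [mul_add_one, mul_add_one, ← ih, ← one (N + n₁ * t), card_filter, card_filter, card_filter, ← add_assoc,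
        sum_Ico_consecutive _ (Nat.le_add_right _ _) (Nat.le_add_right _ _)]
  have h4 : (m k : ℝ) = w k * n₁ := by exact_mod_cast hm k
  rw [all, Nat.cast_mul, Nat.cast_mul, h4, mul_assoc]

theorem exists_perm_close {N J : ℕ} (f g : Fin N → Fin J) : ∃ e : Fin N ≃ Fin N,
    ((univ.filter fun r => f (e r) ≠ g r).card : ℝ) ≤ ∑ j, |(cnt f j : ℝ) - cnt g j| := by
  have key : ∀ (n : Fin J → ℕ) (h : Fin N → Fin J), (∀ j, n j ≤ cnt h j) →
      ∃ F : (Σ j, Fin (n j)) → Fin N, Function.Injective F ∧ ∀ a, h (F a) = a.1 := by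
    intro n h hn
    have : ∀ j, Nonempty (Fin (n j) ↪ fib h j) := fun j =>
      Function.Embedding.nonempty_of_card_le (by simpa [cnt] using hn j)
    have emb := fun j => (this j).some
    have hF : ∀ a : Σ j, Fin (n j), h (emb a.1 a.2).1 = a.1 := fun a => (mem_filter.1 (emb a.1 a.2).2).2
    refine ⟨fun a => (emb a.1 a.2).1, ?_, hF⟩
    rintro ⟨j, t⟩ ⟨j', t'⟩ e
    obtain rfl : j = j' := (hF ⟨j, t⟩).symm.trans ((congrArg h e).trans (hF ⟨j', t'⟩))
    obtain rfl : t = t' := (emb j).injective (Subtype.ext e)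
    rfl
  obtain ⟨F, hF, hF'⟩ := key (fun j => min (cnt f j) (cnt g j)) g fun j => min_le_right _ _
  obtain ⟨F', hG, hG'⟩ := key (fun j => min (cnt f j) (cnt g j)) f fun j => min_le_left _ _
  obtain ⟨e, he⟩ := Equiv.Perm.exists_extending_pair F F' hF hG
  refine ⟨e, ?_⟩
  have h1 : (univ.filter fun r => f (e r) ≠ g r) ⊆ (univ.image F)ᶜ := fun r hr => by
    rw [mem_compl, mem_image]
    rintro ⟨a, -, rfl⟩
    exact (mem_filter.1 hr).2 (by rw [he, hG', hF'])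
  have h2 := card_le_card h1
  have h3 := card_compl_add_card (univ.image F)
  rw [card_image_of_injective _ hF, card_univ, Fintype.card_sigma, ← sum_cnt g] at h3
  simp only [Fintype.card_fin] at h3
  have h4 : (((univ.image F)ᶜ.card : ℕ) : ℝ) = ∑ j, ((cnt g j : ℝ) - (min (cnt f j) (cnt g j) : ℕ)) := by
    rw [sum_sub_distrib, ← Nat.cast_sum, ← Nat.cast_sum, ← h3, Nat.cast_add, add_sub_cancel_right]
  refine (Nat.cast_le.2 h2).trans (h4.trans_le (sum_le_sum fun j _ => ?_))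
  rw [Nat.cast_min, sub_le_comm, le_min_iff]
  constructor <;> linarith [abs_nonneg ((cnt f j : ℝ) - cnt g j), neg_abs_le ((cnt f j : ℝ) - cnt g j)]

theorem exists_disc (μ : Measure ℝ) [IsProbabilityMeasure μ] {lo hi : ℝ} (hle : lo ≤ hi)
    (hsupp : μ (Set.Icc lo hi) = 1) (hedge : ∀ ε : ℝ, 0 < ε → 0 < μ (Set.Icc (hi - ε) hi))
    (eig : (N : ℕ) → Fin N → ℝ)
    (hweak : ∀ φ : ℝ → ℝ, Continuous φ → (∃ C : ℝ, ∀ x, |φ x| ≤ C) →
      Tendsto (fun N : ℕ => (1 / (N : ℝ)) * ∑ i : Fin N, φ (eig N i)) atTop (nhds (∫ x, φ x ∂μ)))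
    {δ : ℝ} (hδ : 0 < δ) : ∃ (K : ℕ) (α : Fin K → ℚ) (at' : Fin K → ℝ) (k0 k1 : Fin K) (a0 Λ η₀ : ℝ),
      Atom (fun k => (α k : ℝ)) at' a0 Λ ∧ k0 ≠ k1 ∧ at' k0 = 0 ∧ at' k1 = 0 ∧ (∀ k, a0 ≤ (α k : ℝ)) ∧ 1 ≤ Λ ∧
      hi - lo + 1 ≤ Λ ∧ 0 < η₀ ∧
      (∀ x ∈ Set.Icc (0 : ℝ) 1, rTransform μ hi x ≤ Rf (fun k => (α k : ℝ)) at' x + (hi - 2 * δ) + 3 * δ) ∧
      ∀ᶠ N : ℕ in atTop, ∀ k, -Λ < at' k →
        (∑ k' ∈ univ.filter (fun k' => at' k ≤ at' k'), (α k' : ℝ) + η₀) * N ≤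
          (univ.filter fun i : Fin N => at' k ≤ eig N i - (hi - 2 * δ)).card := by
  obtain ⟨Kq, hK⟩ := exists_nat_ge ((hi - lo + 1) / δ)
  have hΛ : hi - lo + 1 ≤ (Kq + 1 : ℕ) * δ := by
    rw [div_le_iff₀ hδ] at hK
    push_cast
    linarith
  let cl : ℝ → Fin (Kq + 3) := fun x => ⟨min (Kq + 2) (⌊(hi - x) / δ⌋₊ + 1), by omega⟩
  have hcl : Measurable cl :=
    (measurable_from_top (f := fun n : ℕ => (⟨min (Kq + 2) (n + 1), by omega⟩ : Fin (Kq + 3)))).comp
      (Measurable.nat_floor (by fun_prop))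
  have hA : ∀ k, MeasurableSet (cl ⁻¹' {k}) := fun k => hcl (measurableSet_singleton k)
  let at' : Fin (Kq + 3) → ℝ := fun k => -((k.val - 1 : ℕ) * δ)
  let p : Fin (Kq + 3) → ℝ := fun k => μ.real (cl ⁻¹' {k})
  have hsum : ∀ S : Finset (Fin (Kq + 3)), ∑ k ∈ S, p k = μ.real (cl ⁻¹' S) := fun S =>
    sum_measureReal_preimage_singleton S fun k _ => hA k
  have hp1 : ∑ k, p k = 1 := by rw [hsum]; simp
  have hp0 : ∀ k, 0 ≤ p k := fun k => measureReal_nonneg
  have hmem : ∀ k, at' k ∈ Set.Icc (-((Kq + 1 : ℕ) * δ)) 0 := fun k => by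
    have : ((k.val - 1 : ℕ) : ℝ) ≤ (Kq + 1 : ℕ) := by exact_mod_cast (by omega : k.val - 1 ≤ Kq + 1)
    exact ⟨neg_le_neg (by gcongr), neg_nonpos.2 (by positivity)⟩
  let k0 : Fin (Kq + 3) := ⟨1, by omega⟩
  let k1 : Fin (Kq + 3) := ⟨0, by omega⟩
  let kb : Fin (Kq + 3) := ⟨Kq + 2, by omega⟩
  have at0 : at' k0 = 0 := by simp [at', k0]
  have hpk : 0 < p k0 := by
    refine ENNReal.toReal_pos ((hedge _ (half_pos hδ)).trans_le (measure_mono fun x hx => ?_)).ne'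
      (measure_ne_top _ _)
    have : ⌊(hi - x) / δ⌋₊ = 0 := by
      rw [Nat.floor_eq_zero, div_lt_one hδ]
      linarith [hx.1]
    refine Fin.ext ?_
    simp only [cl, k0, this]
    omega
  obtain ⟨η', hη', hsm⟩ := small (Fin (Kq + 3)) (p k0 / 2) ((Kq + 1 : ℕ) * δ) 1 δ hδ
  obtain ⟨θ, hθ, θ1, θ2⟩ : ∃ θ : ℝ, 0 < θ ∧ 3 * θ ≤ η' ∧ 6 * θ ≤ p k0 :=
    ⟨min (η' / 3) (p k0 / 6), by positivity, by linarith [min_le_left (η' / 3) (p k0 / 6)],
      by linarith [min_le_right (η' / 3) (p k0 / 6)]⟩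
  obtain ⟨α, α0, α1, α2, α3⟩ := FinA.exists_rat p hp0 hp1 (k0 := k0) (kb := kb) (by simp [k0, kb]) hθ (by linarith)
  obtain ⟨km, -, hkm⟩ := exists_min_image univ (fun k => (α k : ℝ)) univ_nonempty
  have A1 : Atom p at' (p k0 / 2) ((Kq + 1 : ℕ) * δ) := ⟨half_pos hpk, hp0, hp1, hmem, k0, at0, half_le_self hpk.le⟩
  have A2 : Atom (fun k => (α k : ℝ)) at' (p k0 / 2) ((Kq + 1 : ℕ) * δ) :=
    ⟨half_pos hpk, fun k => (α0 k).le, α1, hmem, k0, at0, by linarith [(abs_le.1 (α2 k0)).1]⟩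
  refine ⟨Kq + 3, α, at', k0, k1, α km, (Kq + 1 : ℕ) * δ, θ,
    ⟨α0 km, fun k => (α0 k).le, α1, hmem, k0, at0, hkm k0 (mem_univ _)⟩, by simp [k0, k1], at0, by simp [at', k1],
    fun k => hkm k (mem_univ _), by linarith, hΛ, hθ, fun x hx => ?_, ?_⟩
  · have b1 := rt_lower hle hsupp at' (fun k => cl ⁻¹' {k}) hA
      (fun k k' hk => Disjoint.preimage cl (Set.disjoint_singleton.2 hk))
      (fun x _ => Set.mem_iUnion.2 ⟨cl x, rfl⟩) A1 (δ := 2 * δ) (top := hi - 2 * δ) le_rfl (fun k y hy hy' => by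
        obtain rfl : cl y = k := hy
        have c1 : 0 ≤ (hi - y) / δ := div_nonneg (by linarith [hy'.2]) hδ.le
        have c2 := (le_div_iff₀ hδ).1 (Nat.floor_le c1)
        have c3 : ((min (Kq + 2) (⌊(hi - y) / δ⌋₊ + 1) - 1 : ℕ) : ℝ) ≤ ⌊(hi - y) / δ⌋₊ := by
          exact_mod_cast (by omega : min (Kq + 2) (⌊(hi - y) / δ⌋₊ + 1) - 1 ≤ ⌊(hi - y) / δ⌋₊)
        have c4 := mul_le_mul_of_nonneg_right c3 hδ.le
        simp only [at', cl]
        linarith) hx.1
    have b2 := (hsm p at' _ at' A1 A2 (fun k => by rw [abs_sub_comm]; exact (α2 k).trans θ1)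
      (fun k => by simpa using hη'.le)).2.2.2.2 x hx
    linarith [(abs_le.1 b2).2]
  · refine eventually_all.2 fun k => ?_
    filter_upwards [FinA.count_low μ eig hweak (hi - δ + at' k) hδ hθ] with N hN hk
    have hk' : k.val - 1 < Kq + 1 := by
      have : ((k.val - 1 : ℕ) : ℝ) < (Kq + 1 : ℕ) := lt_of_mul_lt_mul_right (neg_lt_neg_iff.1 hk) hδ.le
      exact_mod_cast this
    have hle' : ∀ k', at' k ≤ at' k' → k'.val - 1 ≤ k.val - 1 := fun k' h => by
      have : ((k'.val - 1 : ℕ) : ℝ) ≤ (k.val - 1 : ℕ) := le_of_mul_le_mul_right (neg_le_neg_iff.1 h) hδ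
      exact_mod_cast this
    have b1 := α3 (univ.filter fun k' => at' k ≤ at' k') (mem_filter.2 ⟨mem_univ _, at0 ▸ (hmem k).2⟩) fun h => by
      have := hle' _ (mem_filter.1 h).2
      simp only [kb] at this
      omega
    have b2 : ∑ k' ∈ univ.filter (fun k' => at' k ≤ at' k'), p k' ≤ μ.real (Set.Ici (hi - δ + at' k)) := by
      rw [hsum]
      refine measureReal_mono (fun x hx => ?_) (measure_ne_top _ _)
      have c1 := hle' (cl x) (mem_filter.1 (mem_coe.1 (Set.mem_preimage.1 hx))).2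
      simp only [cl] at c1
      have c2 : ((⌊(hi - x) / δ⌋₊ : ℕ) : ℝ) ≤ (k.val - 1 : ℕ) := by
        exact_mod_cast (by omega : ⌊(hi - x) / δ⌋₊ ≤ k.val - 1)
      have c3 := (div_lt_iff₀ hδ).1 (Nat.lt_floor_add_one ((hi - x) / δ))
      have c4 := mul_le_mul_of_nonneg_right c2 hδ.le
      simp only [at', Set.mem_Ici]
      linarith
    refine le_trans (mul_le_mul_of_nonneg_right (by linarith) (Nat.cast_nonneg _))
      (hN.trans (Nat.cast_le.2 (card_le_card fun i hi' => mem_filter.2 ⟨mem_univ _, ?_⟩)))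
    linarith [(mem_filter.1 hi').2]

theorem fin_lower (μ : Measure ℝ) [IsProbabilityMeasure μ] {lo hi : ℝ} (hle : lo ≤ hi)
    (hsupp : μ (Set.Icc lo hi) = 1) (hedge : ∀ ε : ℝ, 0 < ε → 0 < μ (Set.Icc (hi - ε) hi))
    (eig : (N : ℕ) → Fin N → ℝ)
    (hweak : ∀ φ : ℝ → ℝ, Continuous φ → (∃ C : ℝ, ∀ x, |φ x| ≤ C) →
      Tendsto (fun N : ℕ => (1 / (N : ℝ)) * ∑ i : Fin N, φ (eig N i)) atTop (nhds (∫ x, φ x ∂μ)))
    (hext : ∀ ε : ℝ, 0 < ε → ∀ᶠ N : ℕ in atTop, ∀ i : Fin N, lo - ε ≤ eig N i ∧ eig N i ≤ hi + ε)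
    {J : ℕ} (c : Fin J → ℝ) (γ : Fin J → ℚ) (hγ : ∀ j, 0 < γ j) (hγ1 : ∑ j, γ j = 1)
    (lab : (N : ℕ) → Fin N → Fin J)
    (hprop : ∀ j : Fin J, Tendsto
      (fun N : ℕ => ((univ.filter fun r : Fin N => lab N r = j).card : ℝ) / (N : ℝ)) atTop (nhds (γ j : ℝ)))
    {νs : (N : ℕ) → ProbabilityMeasure (OG (Fin N))} (hν : ∀ N, IsHaar (νs N)) {r : ℝ}
    (hr : (r : EReal) < magneticValue μ hi c γ) : ∃ κ : ℝ, 0 < κ ∧ ∀ᶠ N : ℕ in atTop,
      (νs N : Measure (OG (Fin N))).real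
        {U | fN (eig N) (fun σ => ∑ i, c (lab N i) * sp σ i) U ≤ N * r} ≤ Real.exp (-κ * N) := by
  obtain ⟨m, h1⟩ := lt_iSup_iff.1 hr
  obtain ⟨hm, h2⟩ := lt_iSup_iff.1 h1
  obtain ⟨I, h3, h4⟩ := EReal.lt_iff_exists_real_btwn.1 (FinA.sub_lt_of_lt_add h2)
  set A := ∑ j : Fin J, ((γ j : ℚ) : ℝ) * c j * ((m j : ℚ) : ℝ) with hA
  have h3' : r - A < I := by exact_mod_cast h3
  obtain ⟨δ, hδ, hδr⟩ : ∃ δ : ℝ, 0 < δ ∧ r = A + I - 8 * δ := ⟨(A + I - r) / 8, by linarith, by ring⟩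
  obtain ⟨K, α, at', k0, k1, a0, Λ, η₀, hat, hne, at0, at1, hα, hΛ1, hΛ, hη₀, hR, hcount⟩ :=
    exists_disc μ hle hsupp hedge eig hweak hδ
  obtain ⟨n₁, hn₁, bs, hbs⟩ := exists_per α (fun k => by exact_mod_cast hat.nonneg k)
    (by exact_mod_cast hat.sum_one)
  obtain ⟨n₂, hn₂, ls, hls⟩ := exists_per γ (fun j => (hγ j).le) hγ1
  have hb := hbs _ (dvd_mul_right n₁ n₂)
  have hl := hls _ (dvd_mul_left n₂ n₁)
  have hn := mul_pos hn₁ hn₂
  generalize n₁ * n₂ = n₀ at hb hl hn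
  let M : Mod (Fin K) J := ⟨at', fun k => α k, k0, k1, γ, m, c, Λ, a0⟩
  have hM : M.OK := ⟨hat, hne, at0, at1, hα, hΛ1, hγ, hγ1,
    fun j => abs_lt.2 ⟨by exact_mod_cast (hm j).1, by exact_mod_cast (hm j).2⟩⟩
  obtain ⟨η, hη, η1, η2⟩ : ∃ η : ℝ, 0 < η ∧ 4 * η ≤ η₀ ∧ η ≤ δ :=
    ⟨min (η₀ / 4) δ, by positivity, by linarith [min_le_left (η₀ / 4) δ], min_le_right _ _⟩
  obtain ⟨y, hy, hy1, κ, hκ, N₀, hconc⟩ := conc (Λ := Λ) (by linarith) hη
  have hlow := low hM hν hn hb hl (I₀ := I - (hi - 2 * δ) / 2 - 3 * δ / 2) (fun q hq => by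
    refine FinA.le_add_of_le (h4.le.trans (iInf₂_le q hq)) ?_
    have i1 : IntegrableOn (fun r => Rf (fun k => (α k : ℝ)) at' (deficit q r)) (Set.Ioo 0 1) := by
      simpa using integrableOn_comp_deficit hq hat.Rf_mono le_rfl
    have b1 := setIntegral_mono_on (rT_integrableOn hle hsupp hq)
      (i1.add (integrable_const (hi - 2 * δ + 3 * δ))) measurableSet_Ioo fun x hx =>
        (hR _ (deficit_mem hq ⟨hx.1.le, hx.2.le⟩)).trans (add_assoc _ _ _).le
    rw [integral_add' i1 (integrable_const _)] at b1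
    simp only [integral_const, MeasurableSet.univ, measureReal_restrict_apply, Set.univ_inter,
      Real.volume_real_Ioo, sub_zero, zero_le_one, sup_of_le_left, smul_eq_mul, one_mul] at b1
    unfold spectralPart
    simp only [M]
    linarith) hy hy1 hδ
  set C := ∑ j, |c j| with hC
  have hC0 : 0 ≤ C := sum_nonneg fun _ _ => abs_nonneg _
  have hCj : ∀ j, |c j| ≤ C := fun j => single_le_sum (f := fun j => |c j|) (fun _ _ => abs_nonneg _) (mem_univ j)
  have lim : Tendsto (fun N : ℕ => 2 * C * ∑ j,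
      (|((univ.filter fun r : Fin N => lab N r = j).card : ℝ) / N - γ j| + n₀ / N)) atTop
      (nhds (2 * C * ∑ j : Fin J, (|(γ j : ℝ) - γ j| + 0))) :=
    (tendsto_finset_sum _ fun j _ => ((hprop j).sub_const _).abs.add
      (tendsto_const_div_atTop_nhds_zero_nat _)).const_mul _
  simp only [sub_self, abs_zero, add_zero, sum_const_zero, mul_zero] at lim
  refine ⟨κ, hκ, ?_⟩
  filter_upwards [hlow, hcount, hext 1 one_pos, eventually_ge_atTop N₀, eventually_gt_atTop 0,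
    lim.eventually_lt_const hδ, (tendsto_natCast_atTop_atTop.const_mul_atTop hη).eventually_ge_atTop
      ((K : ℝ) * n₀)] with N c1 c2 c3 c4 hN c5 c6
  have hN' : (0 : ℝ) < N := by exact_mod_cast hN
  have c7 := hconc N c4 (νs N) (hν N) (fun i => min (eig N i - (hi - 2 * δ)) 0) (fun i => at' (bs i.val))
    (fun σ => ∑ r : Fin N, c (ls r.val) * sp σ r)
    (fun i => ⟨le_min (by linarith [(c3 i).1]) (by linarith), min_le_right _ _⟩) (fun i => hat.mem _)
    fun i' hi' => by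
      have b1 := c2 _ hi'
      have b2 : ((univ.filter fun i : Fin N => at' (bs i'.val) ≤ at' (bs i.val)).card : ℝ) ≤
          ∑ k' ∈ univ.filter (fun k' => at' (bs i'.val) ≤ at' k'), ((α k' : ℝ) * N + n₀) := by
        rw [card_eq_sum_card_fiberwise (f := fun i : Fin N => bs i.val)
          (t := univ.filter fun k' => at' (bs i'.val) ≤ at' k')
          (fun i hi => mem_coe.2 (mem_filter.2 ⟨mem_univ _, (mem_filter.1 (mem_coe.1 hi)).2⟩)), Nat.cast_sum]
        refine sum_le_sum fun k _ => le_trans (Nat.cast_le.2 (card_le_card ?_))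
          (sub_le_iff_le_add'.1 (abs_le.1 (hb.cnt_close hn N k)).2)
        exact filter_subset_filter _ (subset_univ _)
      have b3 : (((univ.filter fun k' => at' (bs i'.val) ≤ at' k').card : ℕ) : ℝ) ≤ K := by
        exact_mod_cast (card_le_univ _).trans (Fintype.card_fin K).le
      rw [sum_add_distrib, ← sum_mul, sum_const, nsmul_eq_mul] at b2
      have b4 := mul_le_mul_of_nonneg_right b3 (Nat.cast_nonneg (α := ℝ) n₀)
      have b5 := mul_le_mul_of_nonneg_right η1 hN'.le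
      simp only [le_min_iff, (hat.mem _).2, and_true]
      linarith
  obtain ⟨e, he⟩ := exists_perm_close (lab N) fun r : Fin N => ls r.val
  rw [← ((hν N).re (hν N) (Equiv.refl _) e).measureReal_preimage
    (measurableSet_le (measurable_fN _ _) measurable_const).nullMeasurableSet]
  refine (measureReal_mono (fun U hU => ?_) (measure_ne_top _ _)).trans c7
  have d1 : fN (eig N) (fun σ => ∑ i, c (lab N i) * sp σ i) (reOG (Equiv.refl _) e U) ≤ N * r := hU
  rw [fN_reOG] at d1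
  have d2 : 2 * C * ((univ.filter fun r => lab N (e r) ≠ ls r.val).card : ℝ) ≤ δ * N := by
    refine le_trans ?_ (mul_le_mul_of_nonneg_right c5.le hN'.le)
    rw [mul_assoc (2 * C), sum_mul]
    refine mul_le_mul_of_nonneg_left (he.trans (sum_le_sum fun j _ => ?_)) (by positivity)
    rw [add_mul, div_mul_cancel₀ _ hN'.ne', ← abs_of_pos hN', ← abs_mul, abs_of_pos hN', sub_mul,
      div_mul_cancel₀ _ hN'.ne']
    refine (abs_sub_le _ ((γ j : ℝ) * N) _).trans (add_le_add le_rfl ?_)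
    rw [abs_sub_comm]
    exact hl.cnt_close hn N j
  have d3 := fN_le (lam := fun i => min (eig N i - (hi - 2 * δ)) 0) (lam' := fun i => eig N (Equiv.refl _ i))
    (A := -(hi - 2 * δ)) (B := δ * N) (pot := fun σ => ∑ r : Fin N, c (ls r.val) * sp σ r)
    (pot' := fun σ => ∑ i, c (lab N i) * sp (fun j => σ (e.symm j)) i) (fun i => min_le_left _ _) (fun σ => by
      refine le_trans ?_ (add_le_add le_rfl d2)
      rw [← Equiv.sum_comp e fun i => c (lab N i) * sp (fun j => σ (e.symm j)) i, card_filter, Nat.cast_sum, mul_sum, ← sum_add_distrib]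
      refine sum_le_sum fun r _ => ?_
      have b1 : sp (fun j => σ (e.symm j)) (e r) = sp σ r := by simp [sp]
      rw [b1]
      split_ifs with h
      · have b2 : ∀ j, |c j * sp σ r| ≤ C := fun j => by rw [abs_mul, abs_sp, mul_one]; exact hCj j
        have b3 := (abs_le.1 (b2 (ls r.val))).2
        have b4 := (abs_le.1 (b2 (lab N (e r)))).1
        push_cast
        linarith
      · rw [not_not.1 h]
        simp) U
  rw [Fintype.card_fin] at d3
  have d4 := mul_le_mul_of_nonneg_right η2 hN'.le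
  have d5 := mul_pos hδ hN'
  rw [hδr] at d1
  simp only [M, ← hA] at c1
  rw [Set.mem_setOf_eq]
  linarith

end Crest.Agent.R164
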