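import Crest.Agent.R164.Up
import Crest.Agent.R164.RTcmp
import Crest.Agent.R164.FinA

/-!
Row 164, task R164-FinU: upper tail for a general spectral law.

PLAN.  Pick reals `r₁ < r` with `magneticValue < r₁`, `δ` small w.r.t. `r - r₁` and `Σ |c j|`.  Cells: `Mq ≥ 1/δ`, `m j = k j / Mq` with `k : Fin J → Finset.Ioo (-Mq) Mq` (finite type).
For each cell there is a trial path `q` with `Σ γ c m + (centropy γ m q + spectralPart) < r₁` (`iInf_lt_iff`); `centropy ≠ ⊥` (`le_centropy` with `v = 0` on some grid from `exists_unif`, or the one-step field),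
so it is a real `S₀`.  Spectrum: `𝒦 = Fin (Kq+1)`, atoms `-k δ`, `top = hi + δ`, `blk N i = min Kq (⌊(top - eig)/δ⌋₊ - 1)`, `Kq δ ≥ hi - lo + 3δ`; eventually
`eig ≤ top + atom ≤ eig + 2δ`, and `frac (blk N) 0 ≥ a0 := μ [hi - δ/2, hi] / 2` (`hweak` with a continuous bump equal to `1` on `[hi - δ/2, ∞)`, `0` on `(-∞, hi - δ]`).
`cell_cover`: every `σ` lies in a cell with `|mg j σ - cnt j * m j| ≤ cnt j / Mq`; so `exp (fN …) ≤ exp (N top/2) Σ_cells exp (Σ_j c j cnt j m j + N Σ|c|/Mq) Zc`.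
If `N r ≤ fN` then some cell has `Zc ≥ exp (N (S₀ + ½∫Rf + δ))` (`rt_upper`, `hprop`, `log #cells ≤ δ N`); union bound with `up_cell`.
-/

set_option autoImplicit false

namespace Crest.Agent.R164

open MeasureTheory Finset Matrix Filter Crest.ProbabilityR.InvariantGlass

private theorem round_pos {Mq : ℕ} (hM : 0 < Mq) {g n : ℝ} (h0 : 0 ≤ g) (h1 : g ≤ n) :
    ∃ k : ℕ, k < Mq ∧ n * (k / Mq) ≤ g ∧ g ≤ n * (k / Mq) + n / Mq := by
  have hM' : (0 : ℝ) < Mq := by exact_mod_cast hM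
  rcases (h0.trans h1).eq_or_lt with rfl | hn
  · exact ⟨0, hM, by simpa using h0, by simpa using h1⟩
  have e : ∀ k : ℝ, n * (k / Mq) + n / Mq = n * ((k + 1) / Mq) := fun k => by ring
  have hx : 0 ≤ g / n * Mq := by positivity
  have a1 : ∀ k : ℝ, k ≤ g / n * Mq → n * (k / Mq) ≤ g := fun k hk => by
    rw [← le_div_iff₀' hn, div_le_iff₀ hM']
    exact hk
  by_cases h : ⌊g / n * Mq⌋₊ < Mq
  · refine ⟨_, h, a1 _ (Nat.floor_le hx), ?_⟩
    rw [e, ← div_le_iff₀' hn, le_div_iff₀ hM']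
    exact (Nat.lt_floor_add_one _).le
  · refine ⟨Mq - 1, by omega, a1 _ (le_trans ?_ (Nat.floor_le hx)), ?_⟩
    · exact_mod_cast (by omega : Mq - 1 ≤ ⌊g / n * Mq⌋₊)
    · rw [e, Nat.cast_pred hM, sub_add_cancel, div_self hM'.ne', mul_one]
      exact h1

private theorem round_cell {Mq : ℕ} (hM : 0 < Mq) {g n : ℝ} (h : |g| ≤ n) :
    ∃ k : ℤ, k ∈ Finset.Ioo (-(Mq : ℤ)) Mq ∧ 0 ≤ ((k : ℝ) / Mq) * (g - n * ((k : ℝ) / Mq)) ∧
      |g - n * ((k : ℝ) / Mq)| ≤ n / Mq := by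
  have hn : 0 ≤ n / Mq := div_nonneg ((abs_nonneg _).trans h) (Nat.cast_nonneg _)
  rcases le_total 0 g with h0 | h0
  · obtain ⟨k, a1, a2, a3⟩ := round_pos hM h0 (le_of_abs_le h)
    refine ⟨k, mem_Ioo.2 ⟨by omega, by omega⟩, ?_, ?_⟩
    · exact mul_nonneg (by positivity) (by simpa using a2)
    · rw [Int.cast_natCast, abs_le]
      constructor <;> linarith
  · obtain ⟨k, a1, a2, a3⟩ := round_pos hM (neg_nonneg.2 h0) (neg_le.1 (neg_le_of_abs_le h))
    have a4 : (0 : ℝ) ≤ k / Mq := by positivity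
    refine ⟨-k, mem_Ioo.2 ⟨by omega, by omega⟩, ?_, ?_⟩
    · rw [Int.cast_neg, Int.cast_natCast, neg_div]
      exact mul_nonneg_of_nonpos_of_nonpos (by linarith) (by linarith)
    · rw [Int.cast_neg, Int.cast_natCast, neg_div, abs_le]
      constructor <;> linarith

theorem cell_cover {ι : Type} [Fintype ι] [DecidableEq ι] {J : ℕ} (lab : ι → Fin J) {Mq : ℕ} (hM : 0 < Mq)
    (σ : ι → Bool) : ∃ k : Fin J → ℤ, (∀ j, k j ∈ Finset.Ioo (-(Mq : ℤ)) Mq) ∧
      Cell lab (fun j => (k j : ℚ) / Mq) σ ∧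
      ∀ j, |mg lab j σ - cnt lab j * ((k j : ℝ) / Mq)| ≤ cnt lab j / Mq := by
  choose k h1 h2 h3 using fun j => round_cell hM (abs_mg_le (lab := lab) j σ)
  refine ⟨k, h1, fun j => ?_, h3⟩
  push_cast
  exact h2 j

private theorem exists_blk (μ : Measure ℝ) [IsProbabilityMeasure μ] {lo hi : ℝ}
    (hedge : ∀ ε : ℝ, 0 < ε → 0 < μ (Set.Icc (hi - ε) hi)) (eig : (N : ℕ) → Fin N → ℝ)
    (hweak : ∀ φ : ℝ → ℝ, Continuous φ → (∃ C : ℝ, ∀ x, |φ x| ≤ C) →
      Tendsto (fun N : ℕ => (1 / (N : ℝ)) * ∑ i : Fin N, φ (eig N i)) atTop (nhds (∫ x, φ x ∂μ)))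
    (hext : ∀ ε : ℝ, 0 < ε → ∀ᶠ N : ℕ in atTop, ∀ i : Fin N, lo - ε ≤ eig N i ∧ eig N i ≤ hi + ε)
    {δ : ℝ} (hδ : 0 < δ) : ∃ (K : ℕ) (at' : Fin (K + 1) → ℝ) (blk : (N : ℕ) → Fin N → Fin (K + 1)) (a0 Λ : ℝ),
      at' 0 = 0 ∧ ∀ᶠ N : ℕ in atTop,
        Atom (fun k => ((univ.filter fun i => blk N i = k).card : ℝ) / N) at' a0 Λ ∧
        a0 ≤ ((univ.filter fun i => blk N i = 0).card : ℝ) / N ∧
        ∀ i, (lo - δ ≤ eig N i ∧ eig N i ≤ hi + δ ∧ at' (blk N i) + (hi + δ) ≤ eig N i + 2 * δ) ∧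
          eig N i ≤ at' (blk N i) + (hi + δ) := by
  obtain ⟨K, hK⟩ := exists_nat_ge ((hi - lo + 2 * δ) / δ)
  have hp : 0 < μ.real (Set.Ici (hi - δ / 2)) :=
    ENNReal.toReal_pos ((hedge _ (half_pos hδ)).trans_le (measure_mono Set.Icc_subset_Ici_self)).ne'
      (measure_ne_top _ _)
  refine ⟨K, fun k => -(k.val * δ), fun N i => ⟨min K (⌊(hi + δ - eig N i) / δ⌋₊ - 1), by omega⟩,
    μ.real (Set.Ici (hi - δ / 2)) / 2, K * δ, by simp, ?_⟩
  filter_upwards [hext δ hδ, FinA.count_low μ eig hweak (hi - δ / 2) (half_pos hδ) (half_pos hp),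
    eventually_gt_atTop 0] with N h1 h2 hN
  have hN' : (0 : ℝ) < N := by exact_mod_cast hN
  have top : μ.real (Set.Ici (hi - δ / 2)) / 2 ≤ ((univ.filter fun i : Fin N =>
      (⟨min K (⌊(hi + δ - eig N i) / δ⌋₊ - 1), by omega⟩ : Fin (K + 1)) = 0).card : ℝ) / N := by
    rw [le_div_iff₀ hN']
    refine le_trans (le_of_eq (by ring)) (h2.trans (Nat.cast_le.2 (card_le_card fun i hi' => ?_)))
    have a1 := (mem_filter.1 hi').2
    have a2 : ⌊(hi + δ - eig N i) / δ⌋₊ < 2 := by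
      rw [Nat.floor_lt' two_ne_zero, div_lt_iff₀ hδ]
      push_cast
      linarith
    refine mem_filter.2 ⟨mem_univ _, Fin.ext ?_⟩
    simp only [Fin.val_zero]
    omega
  refine ⟨⟨half_pos hp, fun k => by positivity, ?_, fun k => ⟨?_, ?_⟩, 0, by simp, top⟩, top, fun i => ?_⟩
  · rw [← sum_div, ← Nat.cast_sum, ← card_eq_sum_card_fiberwise (fun _ _ => mem_univ _), card_univ,
      Fintype.card_fin, div_self hN'.ne']
  · have : (k.val : ℝ) ≤ K := by exact_mod_cast Nat.lt_succ_iff.1 k.2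
    exact neg_le_neg (by gcongr)
  · exact neg_nonpos.2 (by positivity)
  · obtain ⟨a1, a2⟩ := h1 i
    have a3 : 0 ≤ (hi + δ - eig N i) / δ := div_nonneg (by linarith) hδ.le
    have a4 := (le_div_iff₀ hδ).1 (Nat.floor_le a3)
    have a5 := (div_lt_iff₀ hδ).1 (Nat.lt_floor_add_one ((hi + δ - eig N i) / δ))
    have a6 : ⌊(hi + δ - eig N i) / δ⌋₊ ≤ K :=
      Nat.floor_le_of_le (le_trans (div_le_div_of_nonneg_right (by linarith) hδ.le) hK)
    generalize ⌊(hi + δ - eig N i) / δ⌋₊ = n at *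
    have a7 : ((min K (n - 1) : ℕ) : ℝ) ≤ n := by exact_mod_cast (by omega : min K (n - 1) ≤ n)
    have a8 : (n : ℝ) ≤ (min K (n - 1) : ℕ) + 1 := by exact_mod_cast (by omega : n ≤ min K (n - 1) + 1)
    have a9 := mul_le_mul_of_nonneg_right a7 hδ.le
    have a10 := mul_le_mul_of_nonneg_right a8 hδ.le
    exact ⟨⟨a1, a2, by linarith⟩, by linarith⟩

private theorem exp_fN_le {N J Mq : ℕ} (hM : 0 < Mq) (lam : Fin N → ℝ) (c : Fin J → ℝ) (lab : Fin N → Fin J)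
    (U : OG (Fin N)) : Real.exp (fN lam (fun σ => ∑ i, c (lab i) * sp σ i) U) ≤
      ∑ k ∈ Fintype.piFinset fun _ : Fin J => Finset.Ioo (-(Mq : ℤ)) Mq,
        Real.exp (∑ j, (c j * (cnt lab j * ((k j : ℝ) / Mq)) + |c j| * (cnt lab j / Mq))) *
          Zc lam lab (fun j => (k j : ℚ) / Mq) U := by
  classical
  unfold fN Zc
  rw [Real.exp_log (mul_pos (by positivity) (sum_pos (fun _ _ => Real.exp_pos _) univ_nonempty))]
  simp only [mul_left_comm _ ((1 / 2 : ℝ) ^ Fintype.card (Fin N)), ← mul_sum]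
  refine mul_le_mul_of_nonneg_left ?_ (by positivity)
  simp only [mul_sum (s := (univ : Finset (Fin N → Bool)))]
  rw [sum_comm]
  refine sum_le_sum fun σ _ => ?_
  obtain ⟨k, h1, h2, h3⟩ := cell_cover lab hM σ
  refine le_trans ?_ (single_le_sum (fun k _ => by positivity) (Fintype.mem_piFinset.2 h1))
  rw [if_pos h2, ← Real.exp_add, add_comm, FinA.sum_lab]
  refine Real.exp_le_exp.2 (add_le_add (sum_le_sum fun j _ => ?_) le_rfl)
  have a1 := mul_le_mul_of_nonneg_left (h3 j) (abs_nonneg (c j))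
  rw [← abs_mul] at a1
  have a2 := (abs_le.1 a1).2
  change c j * mg lab j σ ≤ _
  linarith

theorem fin_upper (μ : Measure ℝ) [IsProbabilityMeasure μ] {lo hi : ℝ} (hle : lo ≤ hi)
    (hsupp : μ (Set.Icc lo hi) = 1) (hedge : ∀ ε : ℝ, 0 < ε → 0 < μ (Set.Icc (hi - ε) hi))
    (eig : (N : ℕ) → Fin N → ℝ)
    (hweak : ∀ φ : ℝ → ℝ, Continuous φ → (∃ C : ℝ, ∀ x, |φ x| ≤ C) →
      Tendsto (fun N : ℕ => (1 / (N : ℝ)) * ∑ i : Fin N, φ (eig N i)) atTop (nhds (∫ x, φ x ∂μ)))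
    (hext : ∀ ε : ℝ, 0 < ε → ∀ᶠ N : ℕ in atTop, ∀ i : Fin N, lo - ε ≤ eig N i ∧ eig N i ≤ hi + ε)
    {J : ℕ} (c : Fin J → ℝ) (γ : Fin J → ℚ) (lab : (N : ℕ) → Fin N → Fin J)
    (hprop : ∀ j : Fin J, Tendsto
      (fun N : ℕ => ((univ.filter fun r : Fin N => lab N r = j).card : ℝ) / (N : ℝ)) atTop (nhds (γ j : ℝ)))
    {νs : (N : ℕ) → ProbabilityMeasure (OG (Fin N))} (hν : ∀ N, IsHaar (νs N)) {r : ℝ}
    (hr : magneticValue μ hi c γ < (r : EReal)) : ∃ κ : ℝ, 0 < κ ∧ ∀ᶠ N : ℕ in atTop,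
      (νs N : Measure (OG (Fin N))).real
        {U | N * r ≤ fN (eig N) (fun σ => ∑ i, c (lab N i) * sp σ i) U} ≤ Real.exp (-κ * N) := by
  obtain ⟨r₁, h1, h2⟩ := EReal.lt_iff_exists_real_btwn.1 hr
  have h2' : r₁ < r := by exact_mod_cast h2
  obtain ⟨δ, hδ, hδr⟩ : ∃ δ : ℝ, 0 < δ ∧ r = r₁ + 7 * δ := ⟨(r - r₁) / 7, by linarith, by ring⟩
  set C := ∑ j, |c j| with hC
  have hC0 : 0 ≤ C := sum_nonneg fun _ _ => abs_nonneg _
  obtain ⟨Mq, hMq⟩ := exists_nat_gt (C / δ)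
  have hM' : (0 : ℝ) < Mq := lt_of_le_of_lt (by positivity) hMq
  have hM : 0 < Mq := by exact_mod_cast hM'
  obtain ⟨K, at', blk, a0, Λ, hat0, hblk⟩ := exists_blk μ hedge eig hweak hext hδ
  have hfr : ∀ {κ : Type} [DecidableEq κ] (N : ℕ) (b : Fin N → κ),
      frac b = fun k => ((univ.filter fun i => b i = k).card : ℝ) / N := fun N b => by
    funext k
    simp [frac]
  have hlab : ∀ β : ℝ, 0 < β → ∀ᶠ N : ℕ in atTop, ∀ j,
      |((univ.filter fun r : Fin N => lab N r = j).card : ℝ) / N - γ j| ≤ β := fun β hβ =>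
    eventually_all.2 fun j => ((Metric.tendsto_nhds.1 (hprop j)) β hβ).mono fun N hN => le_of_lt hN
  set Cells := Fintype.piFinset fun _ : Fin J => Finset.Ioo (-(Mq : ℤ)) Mq with hCells
  let A : (Fin J → ℤ) → ℝ := fun k => ∑ j, (γ j : ℝ) * c j * (((k j : ℚ) / Mq : ℚ) : ℝ)
  let E : (Fin J → ℤ) → (N : ℕ) → Set (OG (Fin N)) := fun k N =>
    {U | Real.exp (N * (r₁ - A k - (hi + δ) / 2 + 3 * δ)) ≤
      Zc (fun i => at' (blk N i)) (lab N) (fun j => (k j : ℚ) / Mq) U}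
  have hcell : ∀ k ∈ Cells, ∃ κ : ℝ, 0 < κ ∧ ∀ᶠ N : ℕ in atTop,
      (νs N : Measure (OG (Fin N))).real (E k N) ≤ Real.exp (-κ * N) := by
    intro k hk
    have hk' : ∀ j, (-1 : ℚ) < (k j : ℚ) / Mq ∧ (k j : ℚ) / Mq < 1 := fun j => by
      obtain ⟨b1, b2⟩ := mem_Ioo.1 (Fintype.mem_piFinset.1 hk j)
      have b3 : (0 : ℚ) < Mq := by exact_mod_cast hM
      rw [lt_div_iff₀ b3, div_lt_one b3, neg_one_mul]
      exact ⟨by exact_mod_cast b1, by exact_mod_cast b2⟩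
    have b1 := FinA.lt_sub_of_add_lt ((le_iSup₂_of_le (f := fun (m : Fin J → ℚ) (_ : ∀ j, (-1 : ℚ) < m j ∧ m j < 1) =>
      ((∑ j : Fin J, ((γ j : ℚ) : ℝ) * c j * ((m j : ℚ) : ℝ) : ℝ) : EReal) +
        ⨅ (p : ℝ → ℝ) (_ : IsTrialPath p), constrainedEntropyPart γ m p + ((spectralPart μ hi p : ℝ) : EReal))
      _ hk' le_rfl).trans_lt h1)
    obtain ⟨q, b2⟩ := iInf_lt_iff.1 b1
    obtain ⟨hq, b3⟩ := iInf_lt_iff.1 b2
    obtain ⟨κ, hκ, β, hβ, N₀, hup⟩ := up_cell (Fin (K + 1)) γ (fun j => (k j : ℚ) / Mq)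
      (fun j => abs_lt.2 ⟨by exact_mod_cast (hk' j).1, by exact_mod_cast (hk' j).2⟩) hq
      (FinA.le_sub_of_add_lt b3) a0 Λ hδ
    refine ⟨κ, hκ, ?_⟩
    filter_upwards [hblk, hlab β hβ, eventually_ge_atTop N₀,
      rt_upper hle hsupp eig hweak at' blk hδ (hblk.mono fun N hN => ⟨hN.1, fun i => (hN.2.2 i).1⟩) hq hδ]
      with N c1 c2 c3 c4
    have c5 := hup (Fin N) (νs N) at' (blk N) 0 (lab N) (by simpa using c3) (hν N) (by rw [hfr]; exact c1.1) hat0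
      (by rw [hfr]; exact c1.2.1) (by rw [hfr]; exact c2)
    rw [Fintype.card_fin, hfr] at c5
    refine (measureReal_mono (fun U hU => ?_) (measure_ne_top _ _)).trans c5
    refine le_trans (Real.exp_le_exp.2 (mul_le_mul_of_nonneg_left ?_ (Nat.cast_nonneg _))) hU
    simp only [A]
    linarith
  obtain ⟨κ, hκ, hsum⟩ := FinA.exp_small_sum Cells (fun k N => (νs N : Measure (OG (Fin N))).real (E k N)) hcell
  refine ⟨κ, hκ, ?_⟩
  filter_upwards [hsum, hblk, hlab (δ / (C + 1)) (by positivity), FinA.ev_le_exp Cells.card hδ,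
    eventually_gt_atTop 0] with N c1 c2 c3 c4 hN
  have hN' : (0 : ℝ) < N := by exact_mod_cast hN
  refine le_trans ((measureReal_mono (fun U hU => ?_) (measure_ne_top _ _)).trans
    (measureReal_biUnion_finset_le Cells fun k => E k N)) c1
  by_contra hn
  simp only [Set.mem_iUnion, not_exists, E, Set.mem_setOf_eq, not_le] at hn
  have d1 := fN_le (lam := eig N) (lam' := fun i => at' (blk N i)) (A := hi + δ) (B := 0)
    (pot := fun σ => ∑ i, c (lab N i) * sp σ i) (pot' := fun σ => ∑ i, c (lab N i) * sp σ i)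
    (fun i => (c2.2.2 i).2) (fun σ => by simp) U
  have d2 := (exp_fN_le hM (fun i => at' (blk N i)) c (lab N) U).trans (sum_le_card_nsmul Cells _
    (Real.exp (N * (r₁ - (hi + δ) / 2 + 5 * δ))) fun k hk => by
      refine (mul_le_mul_of_nonneg_left (hn k hk).le (Real.exp_pos _).le).trans ?_
      rw [← Real.exp_add]
      refine Real.exp_le_exp.2 ?_
      have e1 : ∀ j, c j * (cnt (lab N) j * ((k j : ℝ) / Mq)) + |c j| * (cnt (lab N) j / Mq) ≤
          N * ((γ j : ℝ) * c j * (((k j : ℚ) / Mq : ℚ) : ℝ)) + |c j| * (N * (δ / (C + 1)) + N / Mq) := by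
        intro j
        obtain ⟨b1, b2⟩ := mem_Ioo.1 (Fintype.mem_piFinset.1 hk j)
        have b3 : |(k j : ℝ) / Mq| ≤ 1 := by
          rw [abs_div, abs_of_pos hM', div_le_one hM', abs_le]
          exact ⟨by exact_mod_cast b1.le, by exact_mod_cast b2.le⟩
        have b4 : |(cnt (lab N) j : ℝ) - N * γ j| ≤ N * (δ / (C + 1)) := by
          have := mul_le_mul_of_nonneg_left (c3 j) hN'.le
          rw [← abs_of_pos hN', ← abs_mul, abs_of_pos hN', mul_sub, mul_div_cancel₀ _ hN'.ne'] at this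
          exact this
        have b5 : (cnt (lab N) j : ℝ) ≤ N := by
          exact_mod_cast (card_le_univ _).trans (Fintype.card_fin N).le
        have b6 : |c j * ((cnt (lab N) j - N * γ j) * ((k j : ℝ) / Mq))| ≤ |c j| * (N * (δ / (C + 1)) * 1) := by
          rw [abs_mul, abs_mul]
          gcongr
        have b7 : |c j| * (cnt (lab N) j / Mq) ≤ |c j| * (N / Mq) := by gcongr
        have b8 := (abs_le.1 b6).2
        push_cast
        linarith
      refine (add_le_add (sum_le_sum fun j _ => e1 j) le_rfl).trans ?_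
      rw [sum_add_distrib, ← mul_sum, ← sum_mul, ← hC]
      have e2 : C * (δ / (C + 1)) ≤ δ := by
        rw [← mul_div_assoc, div_le_iff₀ (by positivity)]
        nlinarith
      have e3 : C / Mq ≤ δ := by
        rw [div_le_iff₀' hM', ← div_le_iff₀ hδ]
        exact hMq.le
      have e4 : C * (N * (δ / (C + 1)) + N / Mq) = N * (C * (δ / (C + 1)) + C / Mq) := by ring
      have e5 := mul_le_mul_of_nonneg_left (add_le_add e2 e3) hN'.le
      simp only [A]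
      linarith)
  rw [nsmul_eq_mul] at d2
  have d3 := d2.trans (mul_le_mul_of_nonneg_right c4 (Real.exp_pos _).le)
  rw [← Real.exp_add, Real.exp_le_exp] at d3
  have d4 : (N : ℝ) * r ≤ _ := hU
  rw [Fintype.card_fin] at d1
  have d5 := mul_pos hN' hδ
  rw [hδr] at d4
  linarith

end Crest.Agent.R164
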