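import Crest.Agent.R164.SSV

/-!
Row 164, task R164-Flag: regularised projections on the span of the first columns of a matrix, and orthogonal matrices
adapted to flags (deterministic linear algebra).

PLAN.  `exists_flag`: induction on `k ≤ N` building an orthonormal basis `b_0, …` (as rows of `O`) whose first `k` vectors are
chosen greedily: (a) `flag_sup`: Gram-Schmidt, `V k` = span of the first `k` columns has dimension `≤ k`: choose a complete flag
`V k ≤ F k`, `dim F k = k`; (b) `flag_sub`: `F k ≤ W k`.  A complete flag has an adapted orthonormal basis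
(`F (k+1) ⊓ (F k)ᗮ ≠ ⊥`; work in `EuclideanSpace ℝ (Fin N)`).
`qreg_le`: if `A z ∈ span (rows < M)` then `|σ - A z|² ≥ Σ_{i ≥ M} (O σ)_i²`.
`le_qreg`: choose `z ∈ G` with `A z = Σ_{i<k} (Oσ)_i row_i`, `c N |z|² ≤ |A z|² ≤ N`.
`qreg_lip`: `h A = ⨅ √(…)` is `1/√δ`-Lipschitz (near optimal `z` has `δ N |z|² ≤ N + ε`), `h ≤ √N`.
Abel summation: `Σ_k (l' k - l' (k+1)) Σ_{i<k+1} x_i² = Σ_i (l' i - l' N) x_i²`.
-/

set_option autoImplicit false

namespace Crest.Agent.R164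

open MeasureTheory Finset Matrix

variable {N : ℕ}

noncomputable def qreg (δ : ℝ) (M : ℕ) (A : Fin N × Fin N → ℝ) (σ : Fin N → ℝ) : ℝ :=
  N - ⨅ z : {z : Fin N → ℝ // ∀ j : Fin N, M ≤ j.val → z j = 0},
    (∑ i, (σ i - mv A z.1 i) ^ 2 + δ * N * ∑ j, z.1 j ^ 2)

/-- the regularised log-partition function; `l'` is the sorted spectrum -/
noncomputable def freg (δ Λ : ℝ) (r : ℕ) (l' : ℕ → ℝ) (pot : (Fin N → Bool) → ℝ)
    (A : Fin N × Fin N → ℝ) : ℝ :=
  Real.log ((1 / 2) ^ N * ∑ σ : Fin N → Bool, Real.exp ((1 / 2) * (-Λ * N +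
    ∑ k ∈ range N, (l' k - l' (k + 1)) * qreg δ (k + 1 + r) A (sp σ)) + pot σ))

/-- `Uᵀ A` -/
def rotA (U : OG (Fin N)) (A : Fin N × Fin N → ℝ) : Fin N × Fin N → ℝ :=
  fun p => ∑ k, U.1 k p.1 * A (k, p.2)

theorem rotA_mp (U : OG (Fin N)) :
    MeasurePreserving (rotA U) (gam (Fin N × Fin N)) (gam (Fin N × Fin N)) := by
  have hO : (Matrix.kroneckerMap (· * ·) U.1ᵀ (1 : Matrix (Fin N) (Fin N) ℝ)) ∈
      Matrix.orthogonalGroup (Fin N × Fin N) ℝ := by
    rw [Matrix.mem_orthogonalGroup_iff, ← Matrix.kroneckerMap_transpose,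
      ← Matrix.mul_kronecker_mul, Matrix.transpose_transpose, Matrix.transpose_one, Matrix.one_mul,
      (Matrix.mem_orthogonalGroup_iff' _ _).1 U.2, Matrix.one_kronecker_one]
  have h := gam_rot (⟨_, hO⟩ : OG (Fin N × Fin N))
  have e : rotA U = fun g => (Matrix.kroneckerMap (· * ·) U.1ᵀ (1 : Matrix (Fin N) (Fin N) ℝ)) *ᵥ g := by
    funext A p
    simp [rotA, Matrix.mulVec, dotProduct, Fintype.sum_prod_type, Matrix.one_apply]
  rw [e]
  exact h

theorem measurable_rotA : Measurable fun p : OG (Fin N) × (Fin N × Fin N → ℝ) => rotA p.1 p.2 := by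
  refine measurable_pi_lambda _ fun q => Finset.measurable_sum _ fun k _ => ?_
  exact ((measurable_entry k q.1).comp measurable_fst).mul
    ((measurable_pi_apply _).comp measurable_snd)

theorem flag_sup (A : Fin N × Fin N → ℝ) : ∃ O : OG (Fin N), ∀ (M : ℕ) (z : Fin N → ℝ),
    (∀ j : Fin N, M ≤ j.val → z j = 0) → ∀ i : Fin N, M ≤ i.val → (O.1 *ᵥ mv A z) i = 0 := by
  exact ssv_qr A

theorem flag_sub (W : ℕ → Submodule ℝ (Fin N → ℝ)) (hW : Monotone W) {K : ℕ}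
    (hd : ∀ k, k ≤ K → k ≤ Module.finrank ℝ (W k)) :
    ∃ O : OG (Fin N), ∀ i : Fin N, i.val < K → O.1 i ∈ W (i.val + 1) := by
  exact ssvA_sub W hd

theorem flag_val_nonneg {δ : ℝ} (hδ : 0 ≤ δ) (A : Fin N × Fin N → ℝ) (σ z : Fin N → ℝ) :
    0 ≤ ∑ i, (σ i - mv A z i) ^ 2 + δ * N * ∑ j, z j ^ 2 :=
  add_nonneg (Finset.sum_nonneg fun _ _ => sq_nonneg _)
    (mul_nonneg (by positivity) (Finset.sum_nonneg fun _ _ => sq_nonneg _))

theorem flag_le_qreg {δ : ℝ} (hδ : 0 ≤ δ) (M : ℕ) (A : Fin N × Fin N → ℝ) (σ z : Fin N → ℝ)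
    (hz : ∀ j : Fin N, M ≤ j.val → z j = 0) :
    N - (∑ i, (σ i - mv A z i) ^ 2 + δ * N * ∑ j, z j ^ 2) ≤ qreg δ M A σ := by
  unfold qreg
  refine sub_le_sub_left ?_ _
  exact ciInf_le (f := fun z : {z : Fin N → ℝ // ∀ j : Fin N, M ≤ j.val → z j = 0} =>
    ∑ i, (σ i - mv A z.1 i) ^ 2 + δ * N * ∑ j, z.1 j ^ 2)
    ⟨0, by rintro _ ⟨z, rfl⟩; exact flag_val_nonneg hδ A σ z.1⟩ ⟨z, hz⟩

theorem flag_qreg_le (δ : ℝ) (M : ℕ) (A : Fin N × Fin N → ℝ) (σ : Fin N → ℝ) (b : ℝ)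
    (h : ∀ z : Fin N → ℝ, (∀ j : Fin N, M ≤ j.val → z j = 0) →
      b ≤ ∑ i, (σ i - mv A z i) ^ 2 + δ * N * ∑ j, z j ^ 2) : qreg δ M A σ ≤ N - b := by
  unfold qreg
  refine sub_le_sub_left ?_ _
  have : Nonempty {z : Fin N → ℝ // ∀ j : Fin N, M ≤ j.val → z j = 0} := ⟨⟨0, fun _ _ => rfl⟩⟩
  exact le_ciInf fun z => h z.1 z.2

theorem flag_lse {κ : Type} [Fintype κ] [Nonempty κ] {c : ℝ} (hc : 0 < c) (F F' : κ → ℝ) (B : ℝ)
    (h : ∀ σ, F σ ≤ F' σ + B) :
    Real.log (c * ∑ σ, Real.exp (F σ)) ≤ Real.log (c * ∑ σ, Real.exp (F' σ)) + B := by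
  have h1 : 0 < c * ∑ σ, Real.exp (F σ) :=
    mul_pos hc (Finset.sum_pos (fun _ _ => Real.exp_pos _) Finset.univ_nonempty)
  have h2 : 0 < c * ∑ σ, Real.exp (F' σ) :=
    mul_pos hc (Finset.sum_pos (fun _ _ => Real.exp_pos _) Finset.univ_nonempty)
  have h3 : c * ∑ σ, Real.exp (F σ) ≤ (c * ∑ σ, Real.exp (F' σ)) * Real.exp B := by
    rw [mul_assoc, Finset.sum_mul]
    refine mul_le_mul_of_nonneg_left (Finset.sum_le_sum fun σ _ => ?_) hc.le
    rw [← Real.exp_add]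
    exact Real.exp_le_exp.2 (h σ)
  refine (Real.log_le_log h1 h3).trans (le_of_eq ?_)
  rw [Real.log_mul h2.ne' (Real.exp_pos _).ne', Real.log_exp]

theorem flag_abel (l : ℕ → ℝ) (r : ℕ) (x : Fin N → ℝ) :
    ∑ k ∈ range N, (l k - l (k + 1)) *
        ∑ i ∈ Finset.univ.filter (fun i : Fin N => i.val < k + 1 + r), x i =
      ∑ i : Fin N, (l (i.val - r) - l N) * x i := by
  simp only [Finset.sum_filter, Finset.mul_sum]
  rw [Finset.sum_comm]
  refine Finset.sum_congr rfl fun i _ => ?_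
  have hi : i.val - r ≤ N := by have := i.2; omega
  have e : l (i.val - r) - l N = ∑ k ∈ Finset.Ico (i.val - r) N, (l k - l (k + 1)) := by
    rw [Finset.sum_Ico_eq_sub _ hi, Finset.sum_range_sub', Finset.sum_range_sub']
    ring
  rw [e, Finset.sum_mul]
  simp only [mul_ite, mul_zero]
  rw [← Finset.sum_filter]
  refine Finset.sum_congr ?_ fun _ _ => rfl
  ext k
  simp only [Finset.mem_filter, Finset.mem_range, Finset.mem_Ico]
  omega

theorem flag_mv_rotA (U : OG (Fin N)) (A : Fin N × Fin N → ℝ) (z : Fin N → ℝ) :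
    mv (rotA U A) z = U.1ᵀ *ᵥ mv A z := by
  funext i
  simp only [mv, rotA, Matrix.mulVec, dotProduct, Matrix.transpose_apply, Finset.sum_mul,
    Finset.mul_sum]
  rw [Finset.sum_comm]
  exact Finset.sum_congr rfl fun k _ => Finset.sum_congr rfl fun j _ => by ring

theorem flag_dist (O U : OG (Fin N)) (A : Fin N × Fin N → ℝ) (s z : Fin N → ℝ) :
    ∑ i, (s i - mv (rotA U A) z i) ^ 2 =
      ∑ i, (((O * U).1 *ᵥ s) i - (O.1 *ᵥ mv A z) i) ^ 2 := by
  have h := OG.sum_sq_mulVec (O * U) (s - mv (rotA U A) z)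
  have e : (O * U).1 *ᵥ mv (rotA U A) z = O.1 *ᵥ mv A z := by
    rw [flag_mv_rotA, Matrix.mulVec_mulVec, Submonoid.coe_mul, Matrix.mul_assoc,
      (Matrix.mem_orthogonalGroup_iff _ _).1 U.2, Matrix.mul_one]
  rw [Matrix.mulVec_sub, e] at h
  exact h.symm

theorem flag_sum_sp (σ : Fin N → Bool) : ∑ i, sp σ i ^ 2 = N := by simp [sp_sq]

theorem flag_split (M : ℕ) (x : Fin N → ℝ) :
    ∑ i ∈ Finset.univ.filter (fun i : Fin N => i.val < M), x i +
      ∑ i ∈ Finset.univ.filter (fun i : Fin N => ¬ i.val < M), x i = ∑ i, x i :=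
  Finset.sum_filter_add_sum_filter_not _ _ _

theorem flag_real {n a ε h : ℝ} (ha : 0 ≤ a) (hε : 0 ≤ ε) (han : a ≤ n) (h1 : h ≤ n ^ 2)
    (h2 : h ≤ a ^ 2 + 2 * a * ε + ε ^ 2) : h ≤ a ^ 2 + 2 * n * ε := by
  rcases le_total (a + ε) n with h3 | h3
  · nlinarith
  · nlinarith

theorem flag_qreg_lip {δ : ℝ} (hδ : 0 < δ) (M : ℕ) (A A' : Fin N × Fin N → ℝ) (s : Fin N → ℝ)
    (hs : ∑ i, s i ^ 2 = N) :
    qreg δ M A s ≤ qreg δ M A' s + 2 * Real.sqrt (N / δ) * Real.sqrt (∑ p, (A p - A' p) ^ 2) := by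
  set D := Real.sqrt (∑ p, (A p - A' p) ^ 2) with hD
  have hD0 : 0 ≤ D := Real.sqrt_nonneg _
  have hK : 0 ≤ 2 * Real.sqrt (N / δ) * D := by positivity
  have h0 : 0 ≤ qreg δ M A' s := by
    have := flag_le_qreg hδ.le M A' s 0 fun _ _ => rfl
    simpa [mv, hs] using this
  have key := flag_qreg_le δ M A s (N - qreg δ M A' s - 2 * Real.sqrt (N / δ) * D) fun z hz => by
    set v := ∑ i, (s i - mv A z i) ^ 2 + δ * N * ∑ j, z j ^ 2 with hv
    have hv0 : 0 ≤ v := flag_val_nonneg hδ.le A s z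
    rcases le_total (N : ℝ) v with hN | hN
    · linarith
    have hx0 : 0 ≤ ∑ i, (s i - mv A z i) ^ 2 := Finset.sum_nonneg fun _ _ => sq_nonneg _
    have hz0 : 0 ≤ ∑ j, z j ^ 2 := Finset.sum_nonneg fun _ _ => sq_nonneg _
    have hR0 : 0 ≤ δ * N * ∑ j, z j ^ 2 := by positivity
    have hz2 : ∑ j, z j ^ 2 ≤ 1 / δ := by
      rcases Nat.eq_zero_or_pos N with h | h
      · subst h
        simp only [Finset.univ_eq_empty, Finset.sum_empty]
        positivity
      · have hN0 : (0 : ℝ) < N := by exact_mod_cast h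
        rw [le_div_iff₀ hδ]
        by_contra hcon
        push Not at hcon
        nlinarith
    set e : Fin N → ℝ := fun i => mv A z i - mv A' z i with he
    have he2 : ∑ i, e i ^ 2 ≤ (D / Real.sqrt δ) ^ 2 := by
      rw [div_pow, Real.sq_sqrt hδ.le, hD, Real.sq_sqrt (Finset.sum_nonneg fun _ _ => sq_nonneg _),
        Fintype.sum_prod_type, Finset.sum_div]
      refine Finset.sum_le_sum fun i _ => ?_
      have e1 : e i = ∑ j, (A (i, j) - A' (i, j)) * z j := by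
        simp only [he, mv, sub_mul, Finset.sum_sub_distrib]
      rw [e1, div_eq_mul_one_div]
      exact (Finset.sum_mul_sq_le_sq_mul_sq _ _ _).trans
        (mul_le_mul_of_nonneg_left hz2 (Finset.sum_nonneg fun _ _ => sq_nonneg _))
    have hε0 : 0 ≤ D / Real.sqrt δ := by positivity
    have he3 : Real.sqrt (∑ i, e i ^ 2) ≤ D / Real.sqrt δ := Real.sqrt_le_iff.2 ⟨hε0, he2⟩
    have hx3 : Real.sqrt (∑ i, (s i - mv A z i) ^ 2) ≤ Real.sqrt v :=
      Real.sqrt_le_sqrt (by linarith)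
    have hcs := (Real.sum_mul_le_sqrt_mul_sqrt Finset.univ (fun i => s i - mv A z i) e).trans
      (mul_le_mul hx3 he3 (Real.sqrt_nonneg _) (Real.sqrt_nonneg _))
    have h1 := flag_le_qreg hδ.le M A' s z hz
    have e2 : ∑ i, (s i - mv A' z i) ^ 2 = ∑ i, (s i - mv A z i) ^ 2 +
        2 * ∑ i, (s i - mv A z i) * e i + ∑ i, e i ^ 2 := by
      rw [Finset.mul_sum, ← Finset.sum_add_distrib, ← Finset.sum_add_distrib]
      exact Finset.sum_congr rfl fun i _ => by simp only [he]; ring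
    have h2 := flag_real (n := Real.sqrt N) (a := Real.sqrt v) (ε := D / Real.sqrt δ)
      (h := N - qreg δ M A' s) (Real.sqrt_nonneg _) hε0 (Real.sqrt_le_sqrt hN)
      (by rw [Real.sq_sqrt (Nat.cast_nonneg N)]; linarith)
      (by rw [Real.sq_sqrt hv0]; linarith)
    rw [Real.sq_sqrt hv0] at h2
    have e3 : 2 * Real.sqrt N * (D / Real.sqrt δ) = 2 * Real.sqrt (N / δ) * D := by
      rw [Real.sqrt_div (Nat.cast_nonneg N)]; ring
    linarith
  linarith

theorem flag_freg_le {δ Λ : ℝ} (hδ : 0 < δ) (r : ℕ) {l' : ℕ → ℝ} (hl : Antitone l')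
    (hm : ∀ k, l' k ∈ Set.Icc (-Λ) 0) (pot : (Fin N → Bool) → ℝ) (A A' : Fin N × Fin N → ℝ) :
    freg δ Λ r l' pot A ≤ freg δ Λ r l' pot A' +
      Λ * Real.sqrt (N / δ) * Real.sqrt (∑ p, (A p - A' p) ^ 2) := by
  refine flag_lse (by positivity) _ _ _ fun σ => ?_
  set K := 2 * Real.sqrt (N / δ) * Real.sqrt (∑ p, (A p - A' p) ^ 2) with hK
  have hK0 : 0 ≤ K := by positivity
  have h1 : ∑ k ∈ range N, (l' k - l' (k + 1)) * qreg δ (k + 1 + r) A (sp σ) ≤
      ∑ k ∈ range N, (l' k - l' (k + 1)) * qreg δ (k + 1 + r) A' (sp σ) + (l' 0 - l' N) * K := by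
    rw [← Finset.sum_range_sub' l' N, Finset.sum_mul, ← Finset.sum_add_distrib]
    refine Finset.sum_le_sum fun k _ => ?_
    rw [← mul_add]
    exact mul_le_mul_of_nonneg_left (flag_qreg_lip hδ _ A A' _ (flag_sum_sp σ))
      (sub_nonneg.2 (hl (Nat.le_succ k)))
  have h2 : (l' 0 - l' N) * K ≤ Λ * K :=
    mul_le_mul_of_nonneg_right (by linarith [(hm 0).2, (hm N).1]) hK0
  have h3 : Λ * Real.sqrt (N / δ) * Real.sqrt (∑ p, (A p - A' p) ^ 2) = Λ * K / 2 := by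
    rw [hK]; ring
  rw [h3]
  linarith

theorem freg_lip {δ Λ : ℝ} (hδ : 0 < δ) (r : ℕ) {l' : ℕ → ℝ} (hl : Antitone l')
    (hm : ∀ k, l' k ∈ Set.Icc (-Λ) 0) (pot : (Fin N → Bool) → ℝ) (A A' : Fin N × Fin N → ℝ) :
    |freg δ Λ r l' pot A - freg δ Λ r l' pot A'| ≤
      Λ * Real.sqrt (N / δ) * Real.sqrt (∑ p, (A p - A' p) ^ 2) := by
  have h1 := flag_freg_le hδ r hl hm pot A A'
  have h2 := flag_freg_le hδ r hl hm pot A' A
  have e : ∑ p, (A' p - A p) ^ 2 = ∑ p, (A p - A' p) ^ 2 :=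
    Finset.sum_congr rfl fun p _ => by ring
  rw [e] at h2
  rw [abs_le]
  constructor <;> linarith

theorem freg_le {δ Λ : ℝ} (hδ : 0 < δ) (r : ℕ) {l l' : ℕ → ℝ} (hl : Antitone l) (hl' : Antitone l')
    (hm : ∀ k, l k ∈ Set.Icc (-Λ) 0) (hm' : ∀ k, l' k ∈ Set.Icc (-Λ) 0)
    (h1 : ∀ k, N ≤ k + 2 * r → l' k = -Λ) (h2 : ∀ k, l' k ≤ l (k + r))
    (pot : (Fin N → Bool) → ℝ) (A : Fin N × Fin N → ℝ) :
    ∃ O : OG (Fin N), ∀ U : OG (Fin N),
      freg δ Λ r l' pot (rotA U A) ≤ fN (fun i : Fin N => l i.val) pot (O * U) := by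
  obtain ⟨O, hO⟩ := flag_sup A
  refine ⟨O, fun U => ?_⟩
  rw [← add_zero (fN _ _ _)]
  unfold freg fN
  rw [Fintype.card_fin]
  refine flag_lse (by positivity) _ _ _ fun σ => ?_
  set x := (O * U).1 *ᵥ sp σ with hx
  have hxN : ∑ i, x i ^ 2 = N := by rw [hx, OG.sum_sq_mulVec, flag_sum_sp]
  have hq : ∀ M, qreg δ M (rotA U A) (sp σ) ≤
      ∑ i ∈ Finset.univ.filter (fun i : Fin N => i.val < M), x i ^ 2 := by
    intro M
    have h3 := flag_qreg_le δ M (rotA U A) (sp σ)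
      (∑ i ∈ Finset.univ.filter (fun i : Fin N => ¬ i.val < M), x i ^ 2) fun z hz => by
        rw [flag_dist O U]
        have h4 : 0 ≤ δ * N * ∑ j, z j ^ 2 :=
          mul_nonneg (by positivity) (Finset.sum_nonneg fun _ _ => sq_nonneg _)
        refine le_trans ?_ (le_add_of_nonneg_right h4)
        calc ∑ i ∈ Finset.univ.filter (fun i : Fin N => ¬ i.val < M), x i ^ 2
            = ∑ i ∈ Finset.univ.filter (fun i : Fin N => ¬ i.val < M),
                (x i - (O.1 *ᵥ mv A z) i) ^ 2 :=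
              Finset.sum_congr rfl fun i hi => by
                rw [hO M z hz i (not_lt.1 (Finset.mem_filter.1 hi).2), sub_zero]
          _ ≤ _ := Finset.sum_le_sum_of_subset_of_nonneg (Finset.subset_univ _)
              fun _ _ _ => sq_nonneg _
    have h4 := flag_split M fun i => x i ^ 2
    linarith
  have h3 : ∑ k ∈ range N, (l' k - l' (k + 1)) * qreg δ (k + 1 + r) (rotA U A) (sp σ) ≤
      ∑ i : Fin N, (l' (i.val - r) - l' N) * x i ^ 2 := by
    rw [← flag_abel]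
    exact Finset.sum_le_sum fun k _ =>
      mul_le_mul_of_nonneg_left (hq _) (sub_nonneg.2 (hl' (Nat.le_succ k)))
  have h4 : ∑ i : Fin N, (l' (i.val - r) - l' N) * x i ^ 2 ≤
      ∑ i : Fin N, l i.val * x i ^ 2 + Λ * N := by
    rw [← hxN, Finset.mul_sum, ← Finset.sum_add_distrib, h1 N (by omega)]
    refine Finset.sum_le_sum fun i _ => ?_
    have h5 : l' (i.val - r) ≤ l i.val := (h2 _).trans (hl (by omega))
    nlinarith [sq_nonneg (x i)]
  linarith

theorem le_freg {δ Λ c η : ℝ} (hδ : 0 < δ) (hc : 0 < c) {r : ℕ} (hr : η * N ≤ r) {l' : ℕ → ℝ}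
    (hl' : Antitone l') (hm' : ∀ k, l' k ∈ Set.Icc (-Λ) 0) (h1 : ∀ k, N ≤ k + 2 * r → l' k = -Λ)
    (pot : (Fin N → Bool) → ℝ) (A : Fin N × Fin N → ℝ) (G : Submodule ℝ (Fin N → ℝ))
    (hG1 : ∀ z ∈ G, ∀ j : Fin N, N - r ≤ j.val → z j = 0)
    (hG2 : ((N - r : ℕ) : ℝ) ≤ Module.finrank ℝ G + η * N)
    (hG3 : ∀ z ∈ G, c * N * ∑ j, z j ^ 2 ≤ ∑ i, mv A z i ^ 2) :
    ∃ O : OG (Fin N), ∀ U : OG (Fin N),
      fN (fun i : Fin N => l' i.val) pot (O * U) - Λ * δ / (2 * c) * N ≤ freg δ Λ r l' pot (rotA U A) := by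
  classical
  let T : (Fin N → ℝ) →ₗ[ℝ] (Fin N → ℝ) := Matrix.mulVecLin (Matrix.of fun i j => A (i, j))
  have hT : ∀ z, T z = mv A z := fun z => rfl
  let φ : ∀ k : ℕ, G →ₗ[ℝ] ({j : Fin N // k + r ≤ j.val ∧ j.val < N - r} → ℝ) := fun k =>
    (LinearMap.pi fun j => LinearMap.proj j.1).comp G.subtype
  let W : ℕ → Submodule ℝ (Fin N → ℝ) := fun k => (LinearMap.ker (φ k)).map (T.comp G.subtype)
  have hinj : Function.Injective (T.comp G.subtype) := by
    rw [← LinearMap.ker_eq_bot, LinearMap.ker_eq_bot']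
    intro z hz
    have h2 := hG3 z.1 z.2
    have h3 : mv A z.1 = 0 := hz
    rw [h3] at h2
    ext j
    have hN0 : (0 : ℝ) < N := by exact_mod_cast (Nat.zero_lt_of_lt j.2)
    have h4 : z.1 j ^ 2 ≤ ∑ j, z.1 j ^ 2 :=
      Finset.single_le_sum (f := fun j => z.1 j ^ 2) (fun _ _ => sq_nonneg _) (Finset.mem_univ j)
    have h5 : c * N * ∑ j, z.1 j ^ 2 ≤ 0 := by simpa using h2
    have h6 : ∑ j, z.1 j ^ 2 ≤ 0 := by
      by_contra hcon
      push Not at hcon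
      have : 0 < c * N * ∑ j, z.1 j ^ 2 := by positivity
      linarith
    simpa using pow_eq_zero_iff (two_ne_zero) |>.1 (le_antisymm (h4.trans h6) (sq_nonneg _))
  have hd : ∀ k, k ≤ N - 2 * r → k ≤ Module.finrank ℝ (W k) := by
    intro k hk
    have h2 : Module.finrank ℝ (W k) = Module.finrank ℝ (LinearMap.ker (φ k)) :=
      (Submodule.equivMapOfInjective _ hinj _).finrank_eq.symm
    have h3 := (φ k).finrank_range_add_finrank_ker
    have h4 : Module.finrank ℝ (LinearMap.range (φ k)) ≤ N - r - (k + r) := by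
      refine (Submodule.finrank_le _).trans ?_
      rw [Module.finrank_fintype_fun_eq_card, ← Nat.card_Ico (k + r) (N - r), ← Fintype.card_coe]
      refine Fintype.card_le_of_injective (fun j => ⟨j.1.val, Finset.mem_Ico.2 j.2⟩) ?_
      intro j j' h
      exact Subtype.ext (Fin.ext (congrArg Subtype.val h))
    have h5 : N - r ≤ Module.finrank ℝ G + r := by
      have : ((N - r : ℕ) : ℝ) ≤ Module.finrank ℝ G + r := by linarith
      exact_mod_cast this
    omega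
  have hW : Monotone W := fun k k' hk => Submodule.map_mono fun z hz => by
    rw [LinearMap.mem_ker] at hz ⊢
    funext j
    exact congrFun hz ⟨j.1, by omega, j.2.2⟩
  obtain ⟨O, hO⟩ := flag_sub W hW hd
  refine ⟨O, fun U => ?_⟩
  rw [sub_le_iff_le_add]
  unfold freg fN
  rw [Fintype.card_fin]
  refine flag_lse (by positivity) _ _ _ fun σ => ?_
  set x := (O * U).1 *ᵥ sp σ with hx
  have hxN : ∑ i, x i ^ 2 = N := by rw [hx, OG.sum_sq_mulVec, flag_sum_sp]
  have hq : ∀ k, k + 1 ≤ N - 2 * r →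
      ∑ i ∈ Finset.univ.filter (fun i : Fin N => i.val < k + 1), x i ^ 2 - δ * N / c ≤
        qreg δ (k + 1 + r) (rotA U A) (sp σ) := by
    intro k hk
    set y : Fin N → ℝ := fun i => if i.val < k + 1 then x i else 0 with hy
    have hy1 : ∀ i : Fin N, i.val < k + 1 → y i = x i := fun i hi => if_pos hi
    have hy0 : ∀ i : Fin N, ¬ i.val < k + 1 → y i = 0 := fun i hi => if_neg hi
    have hyW : O.1ᵀ *ᵥ y ∈ W (k + 1) := by
      have e : O.1ᵀ *ᵥ y = ∑ i, y i • O.1 i := by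
        funext j
        simp [Matrix.mulVec, dotProduct, mul_comm]
      rw [e]
      refine Submodule.sum_mem _ fun i _ => ?_
      by_cases hi : i.val < k + 1
      · exact Submodule.smul_mem _ _ (hW (by omega) (hO i (by omega)))
      · rw [hy0 i hi, zero_smul]; exact Submodule.zero_mem _
    obtain ⟨z, hz1, hz2⟩ := hyW
    have hz3 : mv A z.1 = O.1ᵀ *ᵥ y := hz2
    have hz4 : O.1 *ᵥ mv A z.1 = y := by
      rw [hz3, Matrix.mulVec_mulVec, (Matrix.mem_orthogonalGroup_iff _ _).1 O.2, Matrix.one_mulVec]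
    have hz5 : ∀ j : Fin N, k + 1 + r ≤ j.val → z.1 j = 0 := fun j hj => by
      by_cases h : j.val < N - r
      · exact congrFun (LinearMap.mem_ker.1 hz1) ⟨j, hj, h⟩
      · exact hG1 z.1 z.2 j (not_lt.1 h)
    have h2 := flag_le_qreg hδ.le (k + 1 + r) (rotA U A) (sp σ) z.1 hz5
    rw [flag_dist O U, hz4, ← hx] at h2
    have h3 : ∑ i, (x i - y i) ^ 2 =
        ∑ i ∈ Finset.univ.filter (fun i : Fin N => ¬ i.val < k + 1), x i ^ 2 := by
      rw [Finset.sum_filter]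
      refine Finset.sum_congr rfl fun i _ => ?_
      by_cases hi : i.val < k + 1
      · rw [hy1 i hi, if_neg (not_not.2 hi), sub_self]; norm_num
      · rw [hy0 i hi, if_pos hi, sub_zero]
    have h4 := flag_split (k + 1) fun i => x i ^ 2
    have h5 := hG3 z.1 z.2
    rw [← OG.sum_sq_mulVec O (mv A z.1), hz4] at h5
    have h6 : ∑ i, y i ^ 2 ≤ ∑ i, x i ^ 2 := Finset.sum_le_sum fun i _ => by
      by_cases hi : i.val < k + 1
      · rw [hy1 i hi]
      · rw [hy0 i hi]; simpa using sq_nonneg (x i)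
    have h7 : δ * N * ∑ j, z.1 j ^ 2 ≤ δ * N / c := by
      rw [le_div_iff₀ hc]
      have := mul_le_mul_of_nonneg_left (h5.trans (h6.trans hxN.le)) hδ.le
      linarith
    linarith
  have h3 : ∑ i : Fin N, (l' (i.val - 0) - l' N) * x i ^ 2 - (l' 0 - l' N) * (δ * N / c) ≤
      ∑ k ∈ range N, (l' k - l' (k + 1)) * qreg δ (k + 1 + r) (rotA U A) (sp σ) := by
    rw [← flag_abel, ← Finset.sum_range_sub' l' N, Finset.sum_mul, ← Finset.sum_sub_distrib]
    refine Finset.sum_le_sum fun k _ => ?_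
    rw [← mul_sub]
    by_cases hk : k + 1 ≤ N - 2 * r
    · exact mul_le_mul_of_nonneg_left (hq k hk) (sub_nonneg.2 (hl' (Nat.le_succ k)))
    · rw [h1 k (by omega), h1 (k + 1) (by omega)]
      simp
  have h4 : ∑ i : Fin N, (l' (i.val - 0) - l' N) * x i ^ 2 =
      ∑ i : Fin N, l' i.val * x i ^ 2 + Λ * N := by
    rw [← hxN, Finset.mul_sum, ← Finset.sum_add_distrib, h1 N (by omega)]
    exact Finset.sum_congr rfl fun i _ => by rw [Nat.sub_zero]; ring
  have h5 : (l' 0 - l' N) * (δ * N / c) ≤ Λ * (δ * N / c) :=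
    mul_le_mul_of_nonneg_right (by linarith [(hm' 0).2, (hm' N).1]) (by positivity)
  have h6 : Λ * δ / (2 * c) * N = Λ * (δ * N / c) / 2 := by field_simp
  rw [h6]
  linarith

end Crest.Agent.R164
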