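import Crest.Agent.R164.Haar

/-!
Row 164, task R164-Gam: standard Gaussian vectors: rotation invariance, Cameron-Martin.

PLAN.  `gam_rot`: `stdGaussian_map`-type lemma / characteristic functions (`Measure.ext_of_charFunDual`, or
`ProbabilityTheory.map_pi_eq_stdGaussian` and `LinearIsometryEquiv`), `gam_cm`: density w.r.t. Lebesgue measure
(`gaussianReal_of_var_ne_zero`, `Measure.pi` of `withDensity`) and translation invariance, or induction on the dimension,
or one-dimensional Cameron-Martin + rotation.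
-/

set_option autoImplicit false

namespace Crest.Agent.R164

open MeasureTheory Finset Matrix ProbabilityTheory

variable {ι : Type} [Fintype ι] [DecidableEq ι]

/-! ### Gaussian vectors -/

theorem gam_rot (O : OG ι) : MeasurePreserving (fun g => O.1 *ᵥ g) (gam ι) (gam ι) := by
  have hO : O.1ᵀ * O.1 = 1 := by
    have := (Matrix.mem_orthogonalGroup_iff' ι ℝ).1 O.2
    exact this
  let A : EuclideanSpace ℝ ι →ₗ[ℝ] EuclideanSpace ℝ ι := Matrix.toLpLin 2 2 O.1
  have hA : ∀ x y, inner ℝ (A x) (A y) = inner ℝ x y := by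
    intro x y
    rw [EuclideanSpace.inner_eq_star_dotProduct, EuclideanSpace.inner_eq_star_dotProduct]
    simp only [star_trivial]
    change (O.1 *ᵥ y.ofLp) ⬝ᵥ (O.1 *ᵥ x.ofLp) = _
    rw [dotProduct_mulVec, ← mulVec_transpose, mulVec_mulVec, hO, one_mulVec]
  let e := (A.isometryOfInner hA).toLinearIsometryEquiv rfl
  have hm : Measurable fun g : ι → ℝ => O.1 *ᵥ g := (Continuous.matrix_mulVec continuous_const continuous_id).measurable
  refine ⟨hm, ?_⟩
  have h1 : (gam ι).map (WithLp.toLp 2) = stdGaussian (EuclideanSpace ℝ ι) := map_pi_eq_stdGaussian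
  have h2 : (fun g : ι → ℝ => O.1 *ᵥ g) = WithLp.ofLp ∘ e ∘ WithLp.toLp 2 := rfl
  have m1 : Measurable (WithLp.ofLp : EuclideanSpace ℝ ι → ι → ℝ) := by fun_prop
  have m2 : Measurable (WithLp.toLp 2 : (ι → ℝ) → EuclideanSpace ℝ ι) := by fun_prop
  have m3 : Measurable e := e.continuous.measurable
  rw [h2, ← Measure.map_map m1 (m3.comp m2), ← Measure.map_map m3 m2, h1, stdGaussian_map e, ← h1,
    Measure.map_map m1 m2]
  exact Measure.map_id
theorem gam_exp (c : ℝ) : Integrable (fun g : ι → ℝ => Real.exp (c * ∑ i, |g i|)) (gam ι) := by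
  simp only [mul_sum, Real.exp_sum]
  exact Integrable.fintype_prod (f := fun (_ : ι) (x : ℝ) => Real.exp (c * |x|)) fun _ =>
    integrable_exp_mul_abs (X := fun x : ℝ => x) (integrable_exp_mul_gaussianReal c)
      (integrable_exp_mul_gaussianReal (-c))
private theorem cm_int (w : ℝ) : Integrable (fun x : ℝ => Real.exp (w * x - w ^ 2 / 2)) (gaussianReal 0 1) := by
  simp only [Real.exp_sub]
  exact (integrable_exp_mul_gaussianReal w).div_const _

private theorem cm_one (w : ℝ) :
    gaussianReal w 1 = (gaussianReal 0 1).withDensity fun x => ENNReal.ofReal (Real.exp (w * x - w ^ 2 / 2)) := by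
  rw [gaussianReal_of_var_ne_zero w one_ne_zero, gaussianReal_of_var_ne_zero 0 one_ne_zero,
    ← withDensity_mul _ (measurable_gaussianPDF _ _) (by fun_prop)]
  congr 1
  funext x
  simp only [Pi.mul_apply, gaussianPDF]
  rw [← ENNReal.ofReal_mul (gaussianPDFReal_nonneg _ _ _)]
  congr 1
  unfold gaussianPDFReal
  rw [mul_assoc _ (Real.exp _), ← Real.exp_add]
  congr 2
  simp only [NNReal.coe_one]
  ring

private theorem cm_meas (w : ι → ℝ) : (gam ι).map (fun g => g + w) =
    (gam ι).withDensity fun g => ENNReal.ofReal (∏ i, Real.exp (w i * g i - w i ^ 2 / 2)) := by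
  have h1 : (gam ι).map (fun g => g + w) = Measure.pi fun i => gaussianReal (w i) 1 := by
    have h := Measure.pi_map_pi (μ := fun _ : ι => gaussianReal 0 1) (f := fun i (x : ℝ) => x + w i)
      (fun i => (measurable_add_const (w i)).aemeasurable)
    simp only [gaussianReal_map_add_const, zero_add] at h
    exact h
  rw [h1]
  refine Measure.pi_eq fun s hs => ?_
  rw [withDensity_apply _ (MeasurableSet.univ_pi hs)]
  unfold gam
  rw [Measure.restrict_pi_pi, ← ofReal_integral_eq_lintegral_ofReal
    (Integrable.fintype_prod (f := fun i (x : ℝ) => Real.exp (w i * x - w i ^ 2 / 2))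
      fun i => (cm_int (w i)).restrict)
    (ae_of_all _ fun g => prod_nonneg fun i _ => (Real.exp_pos _).le),
    integral_fintype_prod_eq_prod (f := fun i (x : ℝ) => Real.exp (w i * x - w i ^ 2 / 2)),
    ENNReal.ofReal_prod_of_nonneg fun i _ => integral_nonneg fun x => (Real.exp_pos _).le]
  refine prod_congr rfl fun i _ => ?_
  rw [cm_one (w i), withDensity_apply _ (hs i), ofReal_integral_eq_lintegral_ofReal (cm_int (w i)).restrict
    (ae_of_all _ fun x => (Real.exp_pos _).le)]

theorem gam_cm (v : ι → ℝ) (t : ℝ) (f : (ι → ℝ) → ℝ) (hf : Measurable f) :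
    ∫ g, f (g + t • v) ∂gam ι =
      ∫ g, f g * Real.exp (t * (v ⬝ᵥ g) - t ^ 2 * (v ⬝ᵥ v) / 2) ∂gam ι := by
  rw [← integral_map (φ := fun g => g + t • v) (measurable_add_const _).aemeasurable hf.aestronglyMeasurable,
    cm_meas, integral_withDensity_eq_integral_toReal_smul (by fun_prop) (ae_of_all _ fun _ => ENNReal.ofReal_lt_top)]
  refine integral_congr_ae (ae_of_all _ fun g => ?_)
  simp only
  rw [ENNReal.toReal_ofReal (prod_nonneg fun i _ => (Real.exp_pos _).le), smul_eq_mul, mul_comm, ← Real.exp_sum]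
  congr 2
  simp only [dotProduct, Pi.smul_apply, smul_eq_mul, mul_sum, sum_div, ← sum_sub_distrib]
  refine sum_congr rfl fun i _ => ?_
  ring

end Crest.Agent.R164
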