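import Crest.Agent.R164.OneSys
import Crest.Agent.R164.CFin

/-!
Row 164, task R164-Grad: gradient inequality for the constrained one-site value.

PLAN.  (0) Raise the exponents of `L'` that are `< ζ 1` … only exponent `0` is a problem: replace each exponent `z` by `max z z₀` with `0 < z₀ ≤ ζ 1` (`Phi_mono_exp`;
the tails do not change by `tail_stepOf_low`); in fact one may take `z₀ = ζ 1`.  So WLOG all exponents of `L'` are in `[ζ 1, 1)`.
(1) `exists_merge`: a sorted list `Z` of triples `(z, v0, v1)` with `Phi (seg Z 0) = Phi (gl v)`, `Phi (seg Z 1) = Phi L'` etc. (insert the entries of `L'` one by one as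
`(z, 0, v')` into `gl v` viewed as `(ζ l, v l, 0)`; `Phi_filter`, `vs_filter`).  More convenient: index `Z` by a grid `G'` (`n' = length + 2`, `ζ' 0 = ζ' 1 = ζ 1`,
`ζ' i = z_{i-1}`, `1` from `n'-1` on), `v0 v1 : ℕ → ℝ`, and a strictly monotone `φ : Ico 1 (n-1) → Ico 1 (n'-1)` with `ζ' (φ l) = ζ l`, `v0 (φ l) = v l`, `v0 = 0` off the range.
(2) Right derivative at `s = 0` of `s ↦ Phi (gl' ((1-s) v0 + s v1)) b₀` is `½ Σ_i (v1 i - v0 i) T1' i` (change one coordinate at a time: `probe_one`, `T1_lip_v`; error `O(s^{3/2})`).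
Concavity (`concave_ellm`): `F 1 - F 0 ≤ (F s - F 0)/s ≤ (ell (seg s) b₀ - ell (seg 0) b₀)/s` (`ellm_le`), let `s → 0`: `F 1 - F 0 ≤ -½ Σ (v1 i - v0 i) P' i`, `P' i = 1 - T1' i = tl' p1' i`.
(3) `P' (φ l) = P l` (both are right derivatives of the same function `δ ↦ Phi (…v l + δ…) b₀`, by `Phi_filter`), and `P' i ≥ tail (stepOf p1) (ζ' i)`: between two consecutive
points of the range of `φ` (or the last one and the top, where `P = 0`, `ζ = 1`) `P'` is a concave function of `ζ'` (its slopes `-p1'` decrease, `p1_step`, `tl_step`), the tail is affine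
(`tail_stepOf_mid`) with the same end values; for indices `i` before `φ 1` (there `ζ' i = ζ 1`) `P' i ≥ P' (φ 1)`.
-/

set_option autoImplicit false

namespace Crest.Agent.R164

open MeasureTheory Finset

namespace GradAux

theorem le_of_sqrt {x y C : ℝ} (h : ∀ s, 0 < s → s ≤ 1 → x ≤ y + C * Real.sqrt s) : x ≤ y := by
  refine le_of_forall_pos_le_add fun ε hε => ?_
  have ht : 0 < min 1 (ε / (|C| + 1)) := lt_min one_pos (by positivity)
  have h1 := h _ (pow_pos ht 2) (pow_le_one₀ ht.le (min_le_left _ _))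
  rw [Real.sqrt_sq ht.le] at h1
  have h2 : min 1 (ε / (|C| + 1)) * (|C| + 1) ≤ ε := by
    rw [← le_div_iff₀ (by positivity)]
    exact min_le_right _ _
  nlinarith [le_abs_self C]

theorem multi {G : Grid} {v δ : ℕ → ℝ} {B ε : ℝ} (b : ℝ) (hB : 0 ≤ B)
    (h : ∀ l ∈ Ico 1 (G.n - 1), 0 ≤ v l ∧ v l ≤ B ^ 2 ∧ 0 ≤ v l + δ l ∧ v l + δ l ≤ B ^ 2 ∧ |δ l| ≤ ε)
    (hε : 0 ≤ ε) (S : Finset ℕ) (hS : S ⊆ Ico 1 (G.n - 1)) :
    (∀ l', |T1 G (fun l => if l ∈ S then v l + δ l else v l) b l' - T1 G v b l'| ≤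
      #S * (3 * (1 + B) * Real.sqrt ε)) ∧
    |Phi (G.gl fun l => if l ∈ S then v l + δ l else v l) b - Phi (G.gl v) b - ∑ l ∈ S, δ l / 2 * T1 G v b l| ≤
      (#S : ℝ) ^ 2 * (3 * (1 + B) * Real.sqrt ε * ε) := by
  induction S using Finset.induction_on with
  | empty => simp
  | insert a S ha ih =>
    obtain ⟨i1, i2⟩ := ih ((subset_insert a S).trans hS)
    have haI := hS (mem_insert_self a S)
    obtain ⟨a1, a2, a3, a4, a5⟩ := h a haI
    set u : ℕ → ℝ := fun l => if l ∈ S then v l + δ l else v l with hu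
    have hua : u a = v a := if_neg ha
    have e : (fun l => if l ∈ insert a S then v l + δ l else v l) = Function.update u a (u a + δ a) := by
      funext l
      by_cases hl : l = a
      · subst hl
        simp [hua]
      · simp [hl, hu]
    have hu0 : ∀ l ∈ Ico 1 (G.n - 1), 0 ≤ u l := fun l hl => by
      simp only [hu]
      split_ifs
      exacts [(h l hl).2.2.1, (h l hl).1]
    have b1 := T1_lip_v (b := b) hu0 haI hB (δ := δ a) (hua ▸ a3) (hua ▸ a2) (hua ▸ a4)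
    have b2 := probe_one (b := b) hu0 haI hB (δ := δ a) (hua ▸ a3) (hua ▸ a2) (hua ▸ a4)
    have c1 : 3 * (1 + B) * Real.sqrt |δ a| ≤ 3 * (1 + B) * Real.sqrt ε :=
      mul_le_mul_of_nonneg_left (Real.sqrt_le_sqrt a5) (by positivity)
    have c0 : 0 ≤ 3 * (1 + B) * Real.sqrt ε := by positivity
    have c2 : 3 * (1 + B) * |δ a| * Real.sqrt |δ a| ≤ 3 * (1 + B) * Real.sqrt ε * ε := by
      rw [mul_right_comm]
      exact mul_le_mul c1 a5 (abs_nonneg _) c0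
    have c3 : |δ a / 2 * (T1 G u b a - T1 G v b a)| ≤ ε * (#S * (3 * (1 + B) * Real.sqrt ε)) := by
      rw [abs_mul]
      refine mul_le_mul ?_ (i1 a) (abs_nonneg _) hε
      rw [abs_div, abs_two]
      linarith
    rw [e, card_insert_of_notMem ha, sum_insert ha]
    push_cast
    generalize 3 * (1 + B) * Real.sqrt ε = c at *
    refine ⟨fun l' => ?_, ?_⟩
    · have := abs_le.1 ((b1 l').trans c1)
      have := abs_le.1 (i1 l')
      rw [abs_le]
      constructor <;> linarith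
    · have d1 := abs_le.1 (b2.trans c2)
      have d2 := abs_le.1 i2
      have d3 := abs_le.1 c3
      have d4 : 0 ≤ (#S : ℝ) * (c * ε) := by positivity
      rw [abs_le]
      constructor <;> nlinarith

theorem grad_grid {G : Grid} {v0 v1 : ℕ → ℝ} (hlt : ∀ l ∈ Ico 1 (G.n - 1), G.ζ l < 1)
    (h0 : ∀ l ∈ Ico 1 (G.n - 1), 0 ≤ v0 l) (h1 : ∀ l ∈ Ico 1 (G.n - 1), 0 ≤ v1 l) {m b : ℝ} (hm : |m| < 1)
    (hb : ellm (G.gl v0) m = ell (G.gl v0) b - b * m) :
    ellm (G.gl v1) m + (1 / 2) * ∑ l ∈ Ico 1 (G.n - 1), v1 l * G.tl (p1 G v0 b) l ≤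
      ellm (G.gl v0) m + (1 / 2) * ∑ l ∈ Ico 1 (G.n - 1), v0 l * G.tl (p1 G v0 b) l := by
  have h3 := G.three_le
  set Z : List (ℝ × ℝ × ℝ) := (List.range' 1 (G.n - 1 - 1)).map fun i => (G.ζ i, v0 i, v1 i) with hZ
  have hseg : ∀ s, seg Z s = G.gl fun i => (1 - s) * v0 i + s * v1 i := fun s => by
    simp only [seg, hZ, List.map_map, Grid.gl, Grid.glFrom]
    rfl
  have hc := concave_ellm Z (fun t ht => by
    obtain ⟨i, hi, rfl⟩ := List.mem_map.1 ht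
    rw [List.mem_range'_1] at hi
    have hi' : i ∈ Ico 1 (G.n - 1) := mem_Ico.2 ⟨hi.1, by omega⟩
    exact ⟨G.pos i, hlt i hi', h0 i hi', h1 i hi'⟩) (by
    rw [hZ, List.pairwise_map]
    exact (List.pairwise_lt_range' ..).imp fun h => G.mono h.le) hm
  set D : ℝ := ∑ l ∈ Ico 1 (G.n - 1), (v0 l + v1 l) with hD
  have hD0 : 0 ≤ D := sum_nonneg fun l hl => add_nonneg (h0 l hl) (h1 l hl)
  have hDl : ∀ l ∈ Ico 1 (G.n - 1), v0 l + v1 l ≤ D := fun l hl =>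
    single_le_sum (f := fun l => v0 l + v1 l) (fun l hl => add_nonneg (h0 l hl) (h1 l hl)) hl
  refine le_of_sqrt (C := (#(Ico 1 (G.n - 1)) : ℝ) ^ 2 * (3 * (1 + Real.sqrt D) * Real.sqrt D * D)) fun s hs hs1 => ?_
  have k1 := hc.2 (x := 0) (y := 1) ⟨le_rfl, zero_le_one⟩ ⟨zero_le_one, le_rfl⟩ (sub_nonneg.2 hs1) hs.le
    (by ring)
  simp only [smul_eq_mul, mul_zero, mul_one, zero_add, hseg, sub_zero, one_mul, zero_mul, add_zero, sub_self] at k1
  have k2 := (multi (v := v0) (δ := fun l => s * (v1 l - v0 l)) (B := Real.sqrt D) (ε := s * D) b (Real.sqrt_nonneg _)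
    (fun l hl => by
      have a0 := h0 l hl
      have a1 := h1 l hl
      have a2 := hDl l hl
      rw [Real.sq_sqrt hD0, abs_mul, abs_of_pos hs]
      refine ⟨a0, by linarith, by nlinarith, by nlinarith, mul_le_mul_of_nonneg_left ?_ hs.le⟩
      rw [abs_le]
      constructor <;> linarith) (by positivity) _ Subset.rfl).2
  have e1 : (G.gl fun l => if l ∈ Ico 1 (G.n - 1) then v0 l + s * (v1 l - v0 l) else v0 l) =
      G.gl fun i => (1 - s) * v0 i + s * v1 i := by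
    simp only [Grid.gl, Grid.glFrom]
    refine List.map_congr_left fun i hi => ?_
    rw [List.mem_range'_1] at hi
    rw [if_pos (mem_Ico.2 ⟨hi.1, by omega⟩)]
    congr 1
    ring
  rw [e1] at k2
  have k3 := ellm_le (L := G.gl fun i => (1 - s) * v0 i + s * v1 i) (G.adm_glFrom fun l hl =>
    add_nonneg (mul_nonneg (sub_nonneg.2 hs1) (h0 l hl)) (mul_nonneg hs.le (h1 l hl))) hm b
  simp only [ell, Grid.vs_gl] at k3 hb
  have e2 : ∑ l ∈ Ico 1 (G.n - 1), ((1 - s) * v0 l + s * v1 l) / 1 = (1 - s) * ∑ l ∈ Ico 1 (G.n - 1), v0 l +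
      s * ∑ l ∈ Ico 1 (G.n - 1), v1 l := by
    simp only [div_one, sum_add_distrib, mul_sum]
  simp only [div_one] at e2
  have e3 : ∑ l ∈ Ico 1 (G.n - 1), s * (v1 l - v0 l) / 2 * T1 G v0 b l = s / 2 *
      (∑ l ∈ Ico 1 (G.n - 1), v1 l - ∑ l ∈ Ico 1 (G.n - 1), v0 l -
        ∑ l ∈ Ico 1 (G.n - 1), v1 l * G.tl (p1 G v0 b) l + ∑ l ∈ Ico 1 (G.n - 1), v0 l * G.tl (p1 G v0 b) l) := by
    simp only [T1_eq, ← sum_sub_distrib, ← sum_add_distrib, mul_sum]
    exact sum_congr rfl fun l _ => by ring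
  rw [e2] at k3
  rw [e3, Real.sqrt_mul hs.le] at k2
  have k4 := (abs_le.1 k2).2
  refine le_of_mul_le_mul_left ?_ hs
  nlinarith

def insF (j : ℕ) (x : ℝ) (f : ℕ → ℝ) (i : ℕ) : ℝ := if i ≤ j then f i else if i = j + 1 then x else f (i - 1)
def φ (j l : ℕ) : ℕ := if l ≤ j then l else l + 1

theorem insF_φ (j : ℕ) (x : ℝ) (f : ℕ → ℝ) (l : ℕ) : insF j x f (φ j l) = f l := by
  unfold insF φ
  split_ifs <;> first | rfl | omega

theorem insF_new (j : ℕ) (x : ℝ) (f : ℕ → ℝ) : insF j x f (j + 1) = x := by simp [insF]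

theorem insF_lo {j i : ℕ} (h : i ≤ j) (x : ℝ) (f : ℕ → ℝ) : insF j x f i = f i := if_pos h

theorem insF_hi {j i : ℕ} (h : j + 1 ≤ i) (x : ℝ) (f : ℕ → ℝ) : insF j x f (i + 1) = f i := by
  rw [insF, if_neg (by omega), if_neg (by omega), Nat.add_sub_cancel]

theorem idx_cases (j i : ℕ) : i ≤ j ∨ i = j + 1 ∨ ∃ k, j + 1 ≤ k ∧ i = k + 1 := by
  rcases le_or_gt i j with h | h
  · exact Or.inl h
  · by_cases h' : i = j + 1
    · exact Or.inr (Or.inl h')
    · exact Or.inr (Or.inr ⟨i - 1, by omega, by omega⟩)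

theorem sum_ins (F : ℕ → ℝ) {j N : ℕ} (h : j + 1 ≤ N) :
    ∑ l ∈ Ico 1 (N + 1), F l = ∑ l ∈ Ico 1 N, F (φ j l) + F (j + 1) := by
  induction N, h using Nat.le_induction with
  | base =>
    rw [sum_Ico_succ_top (by omega)]
    congr 1
    exact sum_congr rfl fun l hl => by rw [φ, if_pos (by have := (mem_Ico.1 hl).2; omega)]
  | succ N hN ih =>
    rw [sum_Ico_succ_top (by omega), ih, sum_Ico_succ_top (a := 1) (b := N) (by omega), φ, if_neg (by omega)]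
    ring

theorem exists_ins (G : Grid) {j : ℕ} {z : ℝ} (h1 : 1 ≤ j) (h2 : j + 1 < G.n) (h3 : G.ζ j ≤ z)
    (h4 : z ≤ G.ζ (j + 1)) : ∃ G' : Grid, G'.n = G.n + 1 ∧ G'.ζ = insF j z G.ζ := by
  refine ⟨⟨G.n + 1, insF j z G.ζ, by omega, fun l => ?_, fun l => ?_, monotone_nat_of_le_succ fun l => ?_, ?_, ?_⟩,
    rfl, rfl⟩
  · unfold insF
    split_ifs
    exacts [G.pos _, (G.pos _).trans_le h3, G.pos _]
  · unfold insF
    split_ifs
    exacts [G.le_one _, h4.trans (G.le_one _), G.le_one _]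
  · rcases idx_cases j l with h | rfl | ⟨k, hk, rfl⟩
    · rcases h.eq_or_lt with rfl | h'
      · rw [insF_lo le_rfl, insF_new]
        exact h3
      · rw [insF_lo h, insF_lo h']
        exact G.mono (Nat.le_succ _)
    · rw [insF_new, insF_hi le_rfl]
      exact h4
    · rw [insF_hi hk, insF_hi (by omega)]
      exact G.mono (Nat.le_succ _)
  · rw [Nat.add_sub_cancel, show G.n = G.n - 1 + 1 by omega, insF_hi (by omega), G.top]
  · rw [insF_lo (Nat.zero_le _), insF_lo h1, G.root]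

theorem Phi_skip (G : Grid) {v : ℕ → ℝ} {j : ℕ} (h2 : j + 1 < G.n) (h : ∀ l, 1 ≤ l → l ≤ j → v l = 0) :
    Phi (G.gl v) = Phi (G.glFrom v (j + 1)) := by
  refine Grid.down (P := fun i => 1 ≤ i → Phi (G.glFrom v i) = Phi (G.glFrom v (j + 1))) (n := j + 1)
    (fun _ => rfl) (fun i hi ih h1 => ?_) 1 (by omega) le_rfl
  rw [G.glFrom_step v (by omega), Phi_cons, h i h1 (by omega), gaussOp_zero_var, ih (by omega)]

section
variable {G G' : Grid} {j : ℕ} {z : ℝ} (hn : G'.n = G.n + 1) (hζ : G'.ζ = insF j z G.ζ) (h2 : j + 1 < G.n)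
include hn hζ h2

theorem gl_hi (x : ℝ) (v : ℕ → ℝ) : G'.glFrom (insF j x v) (j + 1) = (z, x) :: G.glFrom v (j + 1) := by
  have key := Grid.down (P := fun i => j + 1 ≤ i → G'.glFrom (insF j x v) (i + 1) = G.glFrom v i) (n := G.n - 1)
    (fun _ => by rw [G.glFrom_top, show G.n - 1 + 1 = G'.n - 1 by omega, G'.glFrom_top])
    (fun i hi ih h1 => by
      rw [G.glFrom_step v (by omega), G'.glFrom_step _ (by omega), ih (by omega), hζ, insF_hi h1, insF_hi h1])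
    (j + 1) (by omega) le_rfl
  rw [G'.glFrom_step _ (by omega), key, hζ, insF_new, insF_new]

theorem Phi_ins (v : ℕ → ℝ) : Phi (G'.gl (insF j 0 v)) = Phi (G.gl v) := by
  refine Grid.down (P := fun i => Phi (G'.glFrom (insF j 0 v) i) = Phi (G.glFrom v i)) (n := j + 1) ?_
    (fun i hi ih => ?_) 1 (by omega)
  · rw [gl_hi hn hζ h2, Phi_cons, gaussOp_zero_var]
  · rw [G.glFrom_step v (by omega), G'.glFrom_step _ (by omega), Phi_cons, Phi_cons, ih, hζ, insF_lo (by omega),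
      insF_lo (by omega)]

omit hζ in
theorem ins_mem {P : ℝ → Prop} {x : ℝ} {f : ℕ → ℝ} (hx : P x) (hf : ∀ l ∈ Ico 1 (G.n - 1), P (f l)) :
    ∀ l ∈ Ico 1 (G'.n - 1), P (insF j x f l) := by
  intro l hl
  rw [mem_Ico] at hl
  rcases idx_cases j l with h | rfl | ⟨k, hk, rfl⟩
  · rw [insF_lo h]
    exact hf l (mem_Ico.2 ⟨hl.1, by omega⟩)
  · rwa [insF_new]
  · rw [insF_hi hk]
    exact hf k (mem_Ico.2 ⟨by omega, by omega⟩)

theorem tl_ins {v : ℕ → ℝ} (hv : ∀ l ∈ Ico 1 (G.n - 1), 0 ≤ v l) (b : ℝ) {l : ℕ} (hl : l ∈ Ico 1 G.n) :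
    G'.tl (p1 G' (insF j 0 v) b) (φ j l) = G.tl (p1 G v b) l := by
  rw [mem_Ico] at hl
  rcases (show l = G.n - 1 ∨ l < G.n - 1 by omega) with rfl | hl'
  · rw [φ, if_neg (by omega), show G.n - 1 + 1 = G'.n - 1 by omega, Grid.tl_top, Grid.tl_top]
  have hI : l ∈ Ico 1 (G.n - 1) := mem_Ico.2 ⟨hl.1, hl'⟩
  have hI' : φ j l ∈ Ico 1 (G'.n - 1) := by
    rw [mem_Ico, φ]
    split_ifs <;> omega
  have hv' := ins_mem hn h2 (P := fun x => 0 ≤ x) le_rfl hv
  have hl0 := hv l hI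
  have key : ∀ s, 0 < s → s ≤ 1 →
      |T1 G' (insF j 0 v) b (φ j l) - T1 G v b l| ≤ 12 * (1 + (v l + 1)) * Real.sqrt s := fun s hs hs1 => by
    have a1 := probe_one (b := b) hv hI (δ := s) (B := v l + 1) (by linarith) (by linarith) (by nlinarith)
      (by nlinarith)
    have a2 := probe_one (b := b) hv' hI' (δ := s) (B := v l + 1) (by linarith) (by rw [insF_φ]; linarith)
      (by rw [insF_φ]; nlinarith) (by rw [insF_φ]; nlinarith)
    have e : Function.update (insF j 0 v) (φ j l) (insF j 0 v (φ j l) + s) =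
        insF j 0 (Function.update v l (v l + s)) := by
      rw [insF_φ]
      funext i
      simp only [Function.update_apply, insF, φ]
      split_ifs <;> first | rfl | omega
    rw [e, Phi_ins hn hζ h2, Phi_ins hn hζ h2] at a2
    rw [abs_of_pos hs, abs_le] at a1 a2
    rw [abs_le]
    constructor <;> refine le_of_mul_le_mul_left ?_ hs <;> nlinarith
  have b1 : T1 G' (insF j 0 v) b (φ j l) ≤ T1 G v b l :=
    le_of_sqrt (C := 12 * (1 + (v l + 1))) fun s hs hs1 => by linarith [(abs_le.1 (key s hs hs1)).2]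
  have b2 : T1 G v b l ≤ T1 G' (insF j 0 v) b (φ j l) :=
    le_of_sqrt (C := 12 * (1 + (v l + 1))) fun s hs hs1 => by linarith [(abs_le.1 (key s hs hs1)).1]
  rw [T1_eq, T1_eq] at b1 b2
  linarith

end

structure Inv (q A : ℝ → ℝ) (V S b : ℝ) (L : List (ℝ × ℝ)) (G : Grid) (v0 v1 : ℕ → ℝ) : Prop where
  lt : ∀ l ∈ Ico 1 (G.n - 1), G.ζ l < 1
  n0 : ∀ l ∈ Ico 1 (G.n - 1), 0 ≤ v0 l
  n1 : ∀ l ∈ Ico 1 (G.n - 1), 0 ≤ v1 l
  phi0 : Phi (G.gl v0) = A
  vs0 : ∑ l ∈ Ico 1 (G.n - 1), v0 l = V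
  s0 : ∑ l ∈ Ico 1 (G.n - 1), v0 l * G.tl (p1 G v0 b) l = S
  phi1 : ∀ x, Phi L x ≤ Phi (G.gl v1) x
  vs1 : ∑ l ∈ Ico 1 (G.n - 1), v1 l = vs L
  s1 : (L.map fun p => p.2 * q p.1).sum ≤ ∑ l ∈ Ico 1 (G.n - 1), v1 l * G.tl (p1 G v0 b) l
  aff : ∀ i ∈ Ico 1 (G.n - 1), ∃ α β : ℝ, ∀ z ∈ Set.Icc (G.ζ i) (G.ζ (i + 1)), q z = α + β * z
  node : ∀ i ∈ Ico 1 G.n, q (G.ζ i) ≤ G.tl (p1 G v0 b) i
  low : ∀ z, 0 ≤ z → z ≤ G.ζ 1 → q z = q (G.ζ 1)
  one : v1 1 = 0
  sup : ∀ z, (∀ p ∈ L, z ≤ p.1) → ∀ l, G.ζ l < z → v1 l = 0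

theorem Inv.step {q A : ℝ → ℝ} {V S b : ℝ} {L : List (ℝ × ℝ)} {G : Grid} {v0 v1 : ℕ → ℝ}
    (h : Inv q A V S b L G v0 v1) {p : ℝ × ℝ} (hA : Adm (p :: L)) (hp : ∀ p' ∈ L, p.1 ≤ p'.1) (hp1 : p.1 < 1) :
    ∃ G' v0' v1', Inv q A V S b (p :: L) G' v0' v1' := by
  have h3 := G.three_le
  obtain ⟨z0, u⟩ := p
  obtain ⟨p0, -, hu⟩ := hA.head
  dsimp only at p0 hu hp hp1
  obtain ⟨j, z, j1, j2, z1, z2, z3, z4, z5, hz⟩ : ∃ j z, 1 ≤ j ∧ j + 1 < G.n ∧ G.ζ j ≤ z ∧ z ≤ G.ζ (j + 1) ∧ z0 ≤ z ∧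
      z < 1 ∧ q z0 = q z ∧ ∀ l, 1 ≤ l → l ≤ j → v1 l = 0 := by
    rcases le_or_gt z0 (G.ζ 1) with hc | hc
    · exact ⟨1, G.ζ 1, le_rfl, by omega, le_rfl, G.mono (by omega), hc, h.lt 1 (mem_Ico.2 ⟨le_rfl, by omega⟩),
        h.low _ p0 hc, fun l a1 a2 => by rw [le_antisymm a2 a1, h.one]⟩
    · obtain ⟨i, i1, i2, i3, i4⟩ := Grid.locate hc hp1.le
      refine ⟨i - 1, z0, by omega, by omega, i3.le, by rwa [show i - 1 + 1 = i by omega], le_rfl, hp1, rfl,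
        fun l _ a2 => h.sup z0 hp l ((G.mono a2).trans_lt i3)⟩
  obtain ⟨G', hn, hζ⟩ := exists_ins G j1 j2 z1 z2
  have hN : G'.n - 1 = G.n - 1 + 1 := by omega
  have htl := fun l hl => tl_ins hn hζ j2 h.n0 b (l := l) hl
  have hsub : ∀ l ∈ Ico 1 (G.n - 1), l ∈ Ico 1 G.n := fun l hl =>
    mem_Ico.2 ⟨(mem_Ico.1 hl).1, by have := (mem_Ico.1 hl).2; omega⟩
  have hnew : q z ≤ G'.tl (p1 G' (insF j 0 v0) b) (j + 1) := by
    obtain ⟨α, β, hq⟩ := h.aff j (mem_Ico.2 ⟨j1, by omega⟩)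
    have a0 := h.node j (mem_Ico.2 ⟨j1, by omega⟩)
    have a2 := h.node (j + 1) (mem_Ico.2 ⟨by omega, j2⟩)
    rw [← htl _ (mem_Ico.2 ⟨j1, by omega⟩), hq _ ⟨le_rfl, z1.trans z2⟩, φ, if_pos le_rfl,
      Grid.tl_step (by omega)] at a0
    rw [← htl _ (mem_Ico.2 ⟨by omega, j2⟩), hq _ ⟨z1.trans z2, le_rfl⟩, φ, if_neg (by omega)] at a2
    have a1 := Grid.tl_step (G := G') (Q := p1 G' (insF j 0 v0) b) (l := j + 1) (by omega)
    have a3 := p1_step (G := G') (v := insF j 0 v0) (b := b) (j + 1)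
    simp only [Grid.w, hζ, Nat.add_sub_cancel, insF_new, insF_lo (le_refl j), insF_hi (le_refl (j + 1))] at a0 a1
    rw [hq z ⟨z1, z2⟩]
    rcases le_total (-β) (p1 G' (insF j 0 v0) b (j + 1 + 1)) with hc | hc
    · nlinarith [mul_le_mul_of_nonneg_left hc (sub_nonneg.2 z2)]
    · nlinarith [mul_le_mul_of_nonneg_left (a3.trans hc) (sub_nonneg.2 z1)]
  refine ⟨G', insF j 0 v0, insF j u v1, ?_, ins_mem hn j2 (P := fun x => 0 ≤ x) le_rfl h.n0,
    ins_mem hn j2 (P := fun x => 0 ≤ x) hu h.n1, (Phi_ins hn hζ j2 v0).trans h.phi0, ?_, ?_, fun x => ?_, ?_, ?_,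
    fun i hi => ?_, fun i hi => ?_, ?_, ?_, fun z' hz' l hl => ?_⟩
  · rw [hζ]
    exact ins_mem hn j2 (P := fun x => x < 1) z4 h.lt
  · rw [hN, sum_ins _ (j := j) (by omega), insF_new, add_zero, ← h.vs0]
    simp only [insF_φ]
  · rw [hN, sum_ins _ (j := j) (by omega), insF_new, zero_mul, add_zero, ← h.s0]
    exact sum_congr rfl fun l hl => by rw [insF_φ, htl l (hsub l hl)]
  · rw [Phi_skip G' (j := j) (by omega) fun l a1 a2 => by rw [insF_lo a2, hz l a1 a2], gl_hi hn hζ j2, Phi_cons,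
      Phi_cons, ← Phi_skip G j2 hz]
    have l1 := Phi_lip (G.adm_glFrom h.n1)
    have := gaussOp_le_add (Phi_lip hA.tail) l1 p0 (c := 0) (fun x => by rw [add_zero]; exact h.phi1 x) u x
    rw [add_zero] at this
    exact this.trans (gaussOp_mono_exp l1 p0 z3 u x)
  · rw [hN, sum_ins _ (j := j) (by omega), insF_new, vs_cons, ← h.vs1, add_comm]
    simp only [insF_φ]
  · rw [hN, sum_ins _ (j := j) (by omega), insF_new, List.map_cons, List.sum_cons, add_comm,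
      sum_congr rfl fun l hl => by rw [insF_φ, htl l (hsub l hl)]]
    exact add_le_add h.s1 (mul_le_mul_of_nonneg_left (z5 ▸ hnew) hu)
  · rw [mem_Ico] at hi
    rw [hζ]
    rcases idx_cases j i with h1 | rfl | ⟨k, hk, rfl⟩
    · rcases h1.eq_or_lt with rfl | h'
      · rw [insF_lo le_rfl, insF_new]
        obtain ⟨α, β, hq⟩ := h.aff i (mem_Ico.2 ⟨j1, by omega⟩)
        exact ⟨α, β, fun t ht => hq t ⟨ht.1, ht.2.trans z2⟩⟩
      · rw [insF_lo h1, insF_lo h']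
        exact h.aff i (mem_Ico.2 ⟨hi.1, by omega⟩)
    · rw [insF_new, insF_hi le_rfl]
      obtain ⟨α, β, hq⟩ := h.aff j (mem_Ico.2 ⟨j1, by omega⟩)
      exact ⟨α, β, fun t ht => hq t ⟨z1.trans ht.1, ht.2⟩⟩
    · rw [insF_hi hk, insF_hi (by omega)]
      exact h.aff k (mem_Ico.2 ⟨by omega, by omega⟩)
  · rw [mem_Ico] at hi
    rw [hζ]
    rcases idx_cases j i with h1 | rfl | ⟨k, hk, rfl⟩
    · have hI : i ∈ Ico 1 G.n := mem_Ico.2 ⟨hi.1, by omega⟩
      have := htl i hI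
      rw [φ, if_pos h1] at this
      rw [insF_lo h1, this]
      exact h.node i hI
    · rw [insF_new]
      exact hnew
    · have hI : k ∈ Ico 1 G.n := mem_Ico.2 ⟨by omega, by omega⟩
      have := htl k hI
      rw [φ, if_neg (by omega)] at this
      rw [insF_hi hk, this]
      exact h.node k hI
  · rw [hζ, insF_lo j1]
    exact h.low
  · rw [insF_lo j1, h.one]
  · have b1 : z' ≤ z0 := hz' _ List.mem_cons_self
    have b2 := h.sup z' fun p hp => hz' p (List.mem_cons_of_mem _ hp)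
    rw [hζ] at hl
    rcases idx_cases j l with h1 | rfl | ⟨k, hk, rfl⟩
    · rw [insF_lo h1] at hl ⊢
      exact b2 l hl
    · rw [insF_new] at hl
      linarith
    · rw [insF_hi hk] at hl ⊢
      exact b2 k hl

end GradAux
open GradAux

theorem grad {G : Grid} {ϖ : ℝ} (hG : G.Unif ϖ) {v : ℕ → ℝ} (hv : ∀ l ∈ Ico 1 (G.n - 1), 0 ≤ v l) {m b₀ : ℝ}
    (hm : |m| < 1) (hb : ellm (G.gl v) m = ell (G.gl v) b₀ - b₀ * m) (L' : List (ℝ × ℝ)) (h1 : Adm L')
    (h2 : Srt L') (h3 : ∀ p ∈ L', p.1 < 1) :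
    ellm L' m + (1 / 2) * (L'.map fun p => p.2 * tail (G.stepOf (p1 G v b₀)) p.1).sum ≤
      ellm (G.gl v) m + (1 / 2) * ∑ l ∈ Ico 1 (G.n - 1), v l * G.tl (p1 G v b₀) l := by
  have hn := G.three_le
  have key : ∃ G' v0 v1, Inv (tail (G.stepOf (p1 G v b₀))) (Phi (G.gl v)) (∑ l ∈ Ico 1 (G.n - 1), v l)
      (∑ l ∈ Ico 1 (G.n - 1), v l * G.tl (p1 G v b₀) l) b₀ L' G' v0 v1 := by
    induction L' with
    | nil =>
      refine ⟨G, v, fun _ => 0, fun l hl => ?_, hv, fun _ _ => le_rfl, rfl, rfl, rfl,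
        lc_le_Phi (G.adm_glFrom fun _ _ => le_rfl), by simp [vs], by simp, fun i hi => ?_, fun i hi => ?_,
        fun z a1 a2 => ?_, rfl, fun _ _ _ _ => rfl⟩
      · rw [mem_Ico] at hl
        have a1 := hG.2 (l + 1) (by omega) (by omega)
        have a2 := G.le_one (l + 1)
        have a3 := hG.1
        simp only [Grid.w, Nat.add_sub_cancel] at a1
        linarith
      · rw [mem_Ico] at hi
        refine ⟨G.tl (p1 G v b₀) (i + 1) + G.ζ (i + 1) * p1 G v b₀ (i + 1), -p1 G v b₀ (i + 1), fun z hz => ?_⟩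
        rw [Grid.tail_stepOf_mid hi.1 (by omega) hz]
        ring
      · exact (Grid.tail_stepOf (mem_Ico.1 hi).1 (mem_Ico.1 hi).2).le
      · rw [Grid.tail_stepOf_low a1 a2, Grid.tail_stepOf le_rfl (by omega)]
    | cons p L ih =>
      obtain ⟨G', v0, v1, h⟩ := ih h1.tail (List.pairwise_cons.1 h2).2 fun p hp => h3 p (List.mem_cons_of_mem _ hp)
      exact h.step h1 (List.pairwise_cons.1 h2).1 (h3 p List.mem_cons_self)
  obtain ⟨G', v0, v1, h⟩ := key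
  have e : ell (G'.gl v0) = ell (G.gl v) := by
    funext x
    rw [ell, ell, h.phi0, Grid.vs_gl, Grid.vs_gl, h.vs0]
  have e' : ellm (G'.gl v0) m = ellm (G.gl v) m := by rw [ellm, ellm, e]
  have a1 := grad_grid h.lt h.n0 h.n1 hm (b := b₀) (by rw [e, e', hb])
  obtain ⟨x, hx, -⟩ := exists_min (L := G'.gl v1) (G'.adm_glFrom h.n1) hm
  have a2 := ellm_le h1 hm x
  have a3 := h.phi1 x
  have a4 := h.s1
  rw [ell, Grid.vs_gl, h.vs1] at hx
  rw [ell] at a2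
  rw [e', h.s0] at a1
  linarith

end Crest.Agent.R164
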