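import Crest.Prelude.Def_InvariantGlass

/-!
Row 164, task R164-Grid: discrete "replica algebra" on a grid of exponents (pure finite sums + 1D integrals).

PLAN.  `D_step : D Q i = ζ i (Q (i+1) - Q i) + D Q (i+1)`; `D_eq` by Abel summation (downward induction);
`D_conv` by downward induction (`ring` after `D_step`, `sum_Ioo` splitting; case `i = 0` separately, `w 0 = 0`).
`eq_of_D`: `ζ i (Q (i+1) - Q i) = D Q i - D Q (i+1)`.  `TT_mul`: termwise identity + telescoping.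
`nrm_err`: put `k = pathOf (f (D a) - f 0)`, then `D k i = f (D a i) - f 0` (`D a n = 0`), so
`e' = f 0 * e + conv k e` on `[0,n]` by `D_conv`, `eq_of_D`; bound `|k| ≤ L ā`, `|D k| ≤ L ā`,
`|D e i| ≤ nrm e + |e i|`, `Σ w ≤ 1`.
`TT_int`: substitution `x = p n - tl p i - ζ i r` (`intervalIntegral.integral_comp_sub_mul` or similar).
`deficit_le`, `deficit_eq`: `∫ (p - r)_+ ≥ ∫_{(z,1)} (p - r)`, equality for `z = sSup ({0} ∪ {s ∈ (0,1) | p s ≤ r})`.
`D_min`: for `r ∈ [p i, p (i+1)]` the map `j ↦ - tl p j - ζ j r` decreases up to `i` and increases after `i`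
(`tl p j = w (j+1) p (j+1) + tl p (j+1)` for `j + 1 < n`).
`TT_le_int`, `int_le_TT`: combine; `Σ ∫_{p i}^{p (i+1)} = ∫_0^{p n}` (`sum_integral_adjacent_intervals`);
`deficit p` is continuous, antitone, in `[0,1]` on `[0,1]`; monotone bounded functions are integrable.
-/

set_option autoImplicit false

namespace Crest.Agent.R164

open MeasureTheory Finset Crest.ProbabilityR.InvariantGlass

structure Grid where
  n : ℕ
  ζ : ℕ → ℝ
  three_le : 3 ≤ n
  pos : ∀ l, 0 < ζ l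
  le_one : ∀ l, ζ l ≤ 1
  mono : Monotone ζ
  top : ζ (n - 1) = 1
  root : ζ 0 = ζ 1

/-- `|f 0| ≤ η` and `f` is `η`-Lipschitz on `[0, ā]` -/
def Small (f : ℝ → ℝ) (η ā : ℝ) : Prop :=
  |f 0| ≤ η ∧ ∀ d ∈ Set.Icc 0 ā, ∀ d' ∈ Set.Icc 0 ā, |f d - f d'| ≤ η * |d - d'|

/-- tail integral of a trial path -/
noncomputable def tail (p : ℝ → ℝ) (z : ℝ) : ℝ := ∫ s in Set.Ioo z 1, p s

namespace Grid

variable (G : Grid)

def w (i : ℕ) : ℝ := G.ζ i - G.ζ (i - 1)
def D (Q : ℕ → ℝ) (i : ℕ) : ℝ := ∑ k ∈ Ico i G.n, G.ζ k * (Q (k + 1) - Q k)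
def tl (Q : ℕ → ℝ) (l : ℕ) : ℝ := ∑ i ∈ Ioo l G.n, G.w i * Q i
noncomputable def dh (β : ℕ → ℝ) (l : ℕ) : ℝ := (β l - β (l + 1)) / G.ζ l
noncomputable def TT (f : ℕ → ℝ) : ℝ := ∑ i ∈ range G.n, G.dh f i
noncomputable def pathOf (β : ℕ → ℝ) (i : ℕ) : ℝ := ∑ j ∈ range i, G.dh β j
def conv (Q a : ℕ → ℝ) (i : ℕ) : ℝ :=
  a i * G.D Q i + Q i * G.D a i + G.ζ (i - 1) * (a i * Q i) - ∑ k ∈ Ioo 0 i, G.w k * (Q k * a k)
def nrm (e : ℕ → ℝ) : ℝ := |e G.n| + ∑ i ∈ Ioo 0 G.n, G.w i * |e i|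

structure IsPath (a : ℕ → ℝ) (ā : ℝ) : Prop where
  zero : a 0 = 0
  one : a 1 = 0
  step : ∀ i, i < G.n → a i ≤ a (i + 1)
  top : a G.n ≤ ā

/-- equally spaced exponents above the root exponent -/
def Unif (ϖ : ℝ) : Prop := 0 < ϖ ∧ ∀ i, 2 ≤ i → i < G.n → G.w i = ϖ

/-- the step function with value `p i` on `(ζ (i-1), ζ i]`, `2 ≤ i < n`, and `0` on `(0, ζ 1]` -/
noncomputable def stepOf (p : ℕ → ℝ) (s : ℝ) : ℝ :=
  ∑ i ∈ Ioo 1 G.n, if G.ζ (i - 1) < s ∧ s ≤ G.ζ i then p i else 0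

theorem down {P : ℕ → Prop} {n : ℕ} (top : P n) (step : ∀ i, i < n → P (i + 1) → P i) :
    ∀ i, i ≤ n → P i := fun _ hi => Nat.decreasingInduction (fun k hk ih => step k hk ih) top hi

theorem Ioo_eq (l m : ℕ) : Ioo l m = Ico (l + 1) m := by ext; simp only [mem_Ioo, mem_Ico]; omega

theorem Ioo_top (m : ℕ) : Ioo (m - 1) m = ∅ := by ext; simp only [mem_Ioo]; simp; omega

theorem sum_Ioo_bot {l m : ℕ} (h : l + 1 < m) (f : ℕ → ℝ) :
    ∑ i ∈ Ioo l m, f i = f (l + 1) + ∑ i ∈ Ioo (l + 1) m, f i := by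
  rw [Ioo_eq, Ioo_eq, Finset.sum_eq_sum_Ico_succ_bot h]

theorem exists_unif {y : ℝ} (hy : 0 < y) (hy1 : y < 1) (K : ℕ) (hK : 0 < K) :
    ∃ G : Grid, G.n = K + 2 ∧ G.ζ 0 = y ∧ G.Unif ((1 - y) / K) := by
  have hK' : (0 : ℝ) < K := by exact_mod_cast hK
  have hϖ : 0 < (1 - y) / K := div_pos (by linarith) hK'
  have hle : ∀ j : ℕ, j ≤ K → y + (j : ℝ) * ((1 - y) / K) ≤ 1 := by
    intro j hj
    have h1 : (j : ℝ) ≤ K := by exact_mod_cast hj
    have h2 : (K : ℝ) * ((1 - y) / K) = 1 - y := by field_simp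
    nlinarith [mul_le_mul_of_nonneg_right h1 hϖ.le]
  refine ⟨⟨K + 2, fun i => min 1 (y + ((i - 1 : ℕ) : ℝ) * ((1 - y) / K)), by omega, fun l => ?_,
    fun l => min_le_left _ _, fun i j hij => ?_, ?_, by simp⟩, rfl, ?_, hϖ, fun i h2 hi => ?_⟩
  · exact lt_min one_pos (by positivity)
  · refine min_le_min le_rfl ?_
    have : ((i - 1 : ℕ) : ℝ) ≤ ((j - 1 : ℕ) : ℝ) := by exact_mod_cast Nat.sub_le_sub_right hij 1
    nlinarith [mul_le_mul_of_nonneg_right this hϖ.le]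
  · have : K + 2 - 1 - 1 = K := by omega
    simp only [this]
    have h2 : (K : ℝ) * ((1 - y) / K) = 1 - y := by field_simp
    rw [h2]; simp
  · simp [hy1.le]
  · obtain ⟨j, rfl⟩ : ∃ j, i = j + 2 := ⟨i - 2, by omega⟩
    have hj : j + 2 < K + 2 := hi
    simp only [w]
    have e1 : j + 2 - 1 = j + 1 := by omega
    have e2 : j + 1 - 1 = j := by omega
    rw [e1, e2, min_eq_right (hle (j + 1) (by omega)), min_eq_right (hle j (by omega))]
    push_cast; ring

variable {G} {Q R a e e' p β : ℕ → ℝ} {ā L F0 : ℝ} {i l : ℕ} {f : ℝ → ℝ}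

theorem w_nonneg (i : ℕ) : 0 ≤ G.w i := by
  exact sub_nonneg.2 (G.mono (Nat.sub_le _ _))
theorem w_one : G.w 1 = 0 := by
  simp [w, G.root]
theorem sum_w (h : l < G.n) : ∑ i ∈ Ioo l G.n, G.w i = 1 - G.ζ l := by
  have key : ∀ l, l ≤ G.n - 1 → ∑ i ∈ Ioo l G.n, G.w i = 1 - G.ζ l := by
    refine down ?_ ?_
    · rw [G.top, Ioo_top]; simp
    · intro i hi ih
      rw [sum_Ioo_bot (by omega), ih]; simp [w]
  exact key l (by omega)
theorem sum_w_le (l : ℕ) : ∑ i ∈ Ioo l G.n, G.w i ≤ 1 := by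
  by_cases h : l < G.n
  · rw [sum_w h]; linarith [G.pos l]
  · rw [Finset.Ioo_eq_empty_of_le (by omega)]; simp
theorem Unif.mul_le {ϖ : ℝ} (h : G.Unif ϖ) : ((G.n : ℝ) - 2) * ϖ ≤ 1 := by
  have h3 := G.three_le
  have h1 := sum_w_le (G := G) 1
  rw [Finset.sum_congr rfl (fun i hi => h.2 i (by simp at hi; omega) (by simp at hi; omega))] at h1
  simp only [sum_const, Nat.card_Ioo, nsmul_eq_mul] at h1
  have : ((G.n - 1 - 1 : ℕ) : ℝ) = (G.n : ℝ) - 2 := by
    obtain ⟨m, hm⟩ : ∃ m, G.n = m + 2 := ⟨G.n - 2, by omega⟩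
    rw [hm]; simp
  rwa [this] at h1
theorem D_step (h : i < G.n) : G.D Q i = G.ζ i * (Q (i + 1) - Q i) + G.D Q (i + 1) := by
  exact Finset.sum_eq_sum_Ico_succ_bot h _
theorem D_top : G.D Q G.n = 0 := by
  simp [D]
theorem D_ge (h : G.n ≤ i) : G.D Q i = 0 := by rw [D, Finset.Ico_eq_empty_of_le h]; simp

theorem D_eq (h : l < G.n) : G.D Q l = Q G.n - G.ζ l * Q l - G.tl Q l := by
  have h3 := G.three_le
  have key : ∀ l, l ≤ G.n - 1 → G.D Q l = Q G.n - G.ζ l * Q l - G.tl Q l := by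
    refine down ?_ ?_
    · rw [D_step (by omega), Nat.sub_add_cancel (by omega), D_top, G.top, tl, Ioo_top]; simp
    · intro i hi ih
      rw [D_step (by omega), ih, tl, tl, sum_Ioo_bot (l := i) (by omega)]
      simp only [w, Nat.add_sub_cancel]; ring
  exact key l (by omega)
theorem D_add (i : ℕ) : G.D (fun k => Q k + R k) i = G.D Q i + G.D R i := by
  simp only [D, ← sum_add_distrib]; exact sum_congr rfl fun k _ => by ring
theorem D_sub (i : ℕ) : G.D (fun k => Q k - R k) i = G.D Q i - G.D R i := by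
  simp only [D, ← sum_sub_distrib]; exact sum_congr rfl fun k _ => by ring
theorem D_mul (c : ℝ) (i : ℕ) : G.D (fun k => c * Q k) i = c * G.D Q i := by
  simp only [D, mul_sum]; exact sum_congr rfl fun k _ => by ring
theorem D_sum {ι : Type*} (s : Finset ι) (F : ι → ℕ → ℝ) (i : ℕ) :
    G.D (fun k => ∑ j ∈ s, F j k) i = ∑ j ∈ s, G.D (F j) i := by
  simp only [D]
  rw [sum_comm]
  exact sum_congr rfl fun k _ => by rw [← sum_sub_distrib, mul_sum]
theorem D_conv (h : i ≤ G.n) : G.D (G.conv Q a) i = G.D Q i * G.D a i := by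
  refine down (P := fun i => G.D (G.conv Q a) i = G.D Q i * G.D a i) ?_ ?_ i h
  · simp [D_top]
  · intro i hi ih
    have hs : ∑ k ∈ Ioo 0 (i + 1), G.w k * (Q k * a k) =
        ∑ k ∈ Ioo 0 i, G.w k * (Q k * a k) + G.w i * (Q i * a i) := by
      rcases Nat.eq_zero_or_pos i with rfl | h0
      · simp [w, Ioo_eq]
      · rw [Ioo_eq, Ioo_eq, Finset.sum_Ico_succ_top (by omega)]
    rw [D_step hi, ih]
    simp only [conv, hs, Nat.add_sub_cancel]
    rw [D_step (Q := Q) hi, D_step (Q := a) hi]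
    simp only [w]; ring
theorem eq_of_D (h0 : Q 0 = R 0) (h : ∀ i, i ≤ G.n → G.D Q i = G.D R i) (hi : i ≤ G.n) : Q i = R i := by
  induction i with
  | zero => exact h0
  | succ i ih =>
    have h1 := D_step (G := G) (Q := Q) (i := i) (by omega)
    have h2 := D_step (G := G) (Q := R) (i := i) (by omega)
    rw [h i (by omega), h (i + 1) hi, ih (by omega)] at h1
    have h4 : G.ζ i * (Q (i + 1) - R (i + 1)) = 0 := by linarith
    rcases mul_eq_zero.1 h4 with h5 | h5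
    · exact absurd h5 (G.pos i).ne'
    · linarith
theorem tl_step (h : l + 1 < G.n) : G.tl Q l = G.w (l + 1) * Q (l + 1) + G.tl Q (l + 1) := by
  exact sum_Ioo_bot h _
theorem tl_top : G.tl Q (G.n - 1) = 0 := by
  rw [tl, Ioo_top]; simp
theorem abs_tl_le (l : ℕ) : |G.tl e l| ≤ ∑ i ∈ Ioo 0 G.n, G.w i * |e i| := by
  refine (abs_sum_le_sum_abs _ _).trans (le_trans (le_of_eq ?_)
    (sum_le_sum_of_subset_of_nonneg (Ioo_subset_Ioo (Nat.zero_le l) le_rfl)
      fun j _ _ => mul_nonneg (w_nonneg j) (abs_nonneg _)))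
  exact sum_congr rfl fun i _ => by rw [abs_mul, abs_of_nonneg (w_nonneg i)]

theorem abs_tl_sub_le (l : ℕ) : |G.tl Q l - G.tl R l| ≤ G.nrm fun i => Q i - R i := by
  have : G.tl Q l - G.tl R l = G.tl (fun i => Q i - R i) l := by
    simp only [tl, ← sum_sub_distrib]; exact sum_congr rfl fun k _ => by ring
  rw [this]
  exact (abs_tl_le l).trans (le_add_of_nonneg_left (abs_nonneg _))
theorem abs_top_le : |e G.n| ≤ G.nrm e := by
  exact le_add_of_nonneg_right (sum_nonneg fun i _ => mul_nonneg (w_nonneg i) (abs_nonneg _))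
theorem nrm_nonneg : 0 ≤ G.nrm e := by
  exact (abs_nonneg _).trans abs_top_le
theorem nrm_add_le : G.nrm (fun i => e i + e' i) ≤ G.nrm e + G.nrm e' := by
  simp only [nrm]
  have h1 : ∑ i ∈ Ioo 0 G.n, G.w i * |e i + e' i| ≤
      ∑ i ∈ Ioo 0 G.n, G.w i * |e i| + ∑ i ∈ Ioo 0 G.n, G.w i * |e' i| := by
    rw [← sum_add_distrib]
    exact sum_le_sum fun i _ => by
      rw [← mul_add]; exact mul_le_mul_of_nonneg_left (abs_add_le _ _) (w_nonneg i)
  linarith [abs_add_le (e G.n) (e' G.n)]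
theorem nrm_mul (c : ℝ) : G.nrm (fun i => c * e i) = |c| * G.nrm e := by
  simp only [nrm, abs_mul, mul_add, mul_sum]
  congr 1
  exact sum_congr rfl fun k _ => by ring
theorem nrm_sum_le {ι : Type*} (s : Finset ι) (F : ι → ℕ → ℝ) :
    G.nrm (fun i => ∑ j ∈ s, F j i) ≤ ∑ j ∈ s, G.nrm (F j) := by
  classical
  induction s using Finset.induction_on with
  | empty => simp [nrm]
  | insert j s hj ih =>
    simp only [sum_insert hj]
    exact nrm_add_le.trans (by linarith)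
/-- the index `1` has weight zero -/
theorem nrm_congr (h : ∀ i, 2 ≤ i → i ≤ G.n → e i = e' i) : G.nrm e = G.nrm e' := by
  have h3 := G.three_le
  simp only [nrm]
  rw [h G.n (by omega) le_rfl]
  congr 1
  refine sum_congr rfl fun i hi => ?_
  simp only [mem_Ioo] at hi
  by_cases h1 : i = 1
  · subst h1; simp [w_one]
  · rw [h i (by omega) (by omega)]
theorem nrm_le_of_bdd {c : ℝ} (h : ∀ i, 2 ≤ i → i ≤ G.n → |e i| ≤ c) : G.nrm e ≤ 2 * c := by
  have h3 := G.three_le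
  have h1 := h G.n (by omega) le_rfl
  have hc : 0 ≤ c := (abs_nonneg _).trans h1
  have h2 : ∑ i ∈ Ioo 0 G.n, G.w i * |e i| ≤ ∑ i ∈ Ioo 0 G.n, G.w i * c := by
    refine sum_le_sum fun i hi => ?_
    simp only [mem_Ioo] at hi
    by_cases h1 : i = 1
    · subst h1; simp [w_one]
    · exact mul_le_mul_of_nonneg_left (h i (by omega) (by omega)) (w_nonneg i)
  rw [← sum_mul] at h2
  have h4 := mul_le_mul_of_nonneg_right (sum_w_le (G := G) 0) hc
  simp only [nrm]; linarith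
theorem TT_congr (h : ∀ i, i ≤ G.n → Q i = R i) : G.TT Q = G.TT R := by
  refine sum_congr rfl fun i hi => ?_
  simp only [mem_range] at hi
  simp only [dh, h i (by omega), h (i + 1) (by omega)]
theorem TT_add : G.TT (fun i => Q i + R i) = G.TT Q + G.TT R := by
  simp only [TT, dh, ← sum_add_distrib]; exact sum_congr rfl fun k _ => by ring
theorem TT_sub : G.TT (fun i => Q i - R i) = G.TT Q - G.TT R := by
  simp only [TT, dh, ← sum_sub_distrib]; exact sum_congr rfl fun k _ => by ring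
theorem TT_const_mul (c : ℝ) : G.TT (fun i => c * Q i) = c * G.TT Q := by
  simp only [TT, dh, mul_sum]; exact sum_congr rfl fun k _ => by ring
theorem TT_const (c : ℝ) : G.TT (fun _ => c) = 0 := by
  simp [TT, dh]
theorem TT_sum {ι : Type*} (s : Finset ι) (F : ι → ℕ → ℝ) :
    G.TT (fun i => ∑ j ∈ s, F j i) = ∑ j ∈ s, G.TT (F j) := by
  simp only [TT, dh]
  rw [sum_comm]
  exact sum_congr rfl fun k _ => by rw [← sum_sub_distrib, sum_div]
theorem TT_D : G.TT (G.D Q) = Q G.n - Q 0 := by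
  rw [← Finset.sum_range_sub Q]
  refine sum_congr rfl fun i hi => ?_
  simp only [mem_range] at hi
  have := (G.pos i).ne'
  simp only [dh]; rw [D_step hi]; field_simp; ring
theorem TT_mul : G.TT (fun i => β i * G.D e i) =
    ∑ i ∈ range G.n, G.dh β i * (e G.n - G.tl e i) + β G.n * e G.n - β 0 * e 0 := by
  rw [add_sub_assoc, ← Finset.sum_range_sub (fun i => β i * e i), ← sum_add_distrib]
  refine sum_congr rfl fun i hi => ?_
  simp only [mem_range] at hi
  have := (G.pos i).ne'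
  have h1 := D_step (Q := e) hi
  have h2 := D_eq (Q := e) hi
  have h3 : G.D e (i + 1) = e G.n - G.tl e i - G.ζ i * e (i + 1) := by linarith
  simp only [dh]; rw [h2, h3]; field_simp; ring
theorem D_pathOf (h : i ≤ G.n) : G.D (G.pathOf β) i = β i - β G.n := by
  refine down (P := fun i => G.D (G.pathOf β) i = β i - β G.n) ?_ ?_ i h
  · simp [D_top]
  · intro i hi ih
    have := (G.pos i).ne'
    rw [D_step hi, ih]
    simp only [pathOf, sum_range_succ, dh]; field_simp; ring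
theorem pathOf_top : G.pathOf β G.n = G.TT β := rfl
theorem pathOf_zero : G.pathOf β 0 = 0 := by simp [pathOf]

theorem IsPath.mono (h : G.IsPath a ā) {i j : ℕ} (hij : i ≤ j) (hj : j ≤ G.n) : a i ≤ a j := by
  induction hij with
  | refl => exact le_rfl
  | step hk ih => exact (ih (by omega)).trans (h.step _ (by omega))
theorem IsPath.mem (h : G.IsPath a ā) (hi : i ≤ G.n) : a i ∈ Set.Icc 0 ā := by
  exact ⟨h.zero ▸ h.mono (Nat.zero_le i) hi, (h.mono hi le_rfl).trans h.top⟩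
theorem IsPath.D_mem (h : G.IsPath a ā) (i : ℕ) : G.D a i ∈ Set.Icc 0 ā := by
  by_cases hi : i ≤ G.n
  · have key : ∀ i, i ≤ G.n → 0 ≤ G.D a i ∧ G.D a i ≤ a G.n - a i := by
      refine down ?_ ?_
      · simp [D_top]
      · intro i hi ih
        have h1 := sub_nonneg.2 (h.step i hi)
        have h2 := mul_nonneg (G.pos i).le h1
        have h3 := mul_le_mul_of_nonneg_right (G.le_one i) h1
        rw [D_step hi]; constructor <;> linarith [ih.1, ih.2]
    exact ⟨(key i hi).1, by linarith [(key i hi).2, h.top, (h.mem hi).1]⟩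
  · rw [D_ge (by omega)]
    exact ⟨le_rfl, (h.mem le_rfl).1.trans h.top⟩
theorem IsPath.D_succ_le (h : G.IsPath a ā) (i : ℕ) : G.D a (i + 1) ≤ G.D a i := by
  by_cases hi : i < G.n
  · rw [D_step hi]
    exact le_add_of_nonneg_left (mul_nonneg (G.pos i).le (sub_nonneg.2 (h.step i hi)))
  · rw [D_ge (by omega), D_ge (by omega)]
theorem IsPath.D_zero (h : G.IsPath a ā) : G.D a 0 = G.D a 1 := by
  have h3 := G.three_le
  rw [D_step (by omega)]; simp [h.zero, h.one]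
theorem IsPath.dh_zero (h : G.IsPath a ā) (f : ℝ → ℝ) : G.dh (fun i => f (G.D a i)) 0 = 0 := by
  simp [dh, h.D_zero]
theorem IsPath.T_mem (h : G.IsPath a ā) (l : ℕ) : a G.n - G.tl a l ∈ Set.Icc 0 ā := by
  have h1 : 0 ≤ G.tl a l := sum_nonneg fun i hi => mul_nonneg (w_nonneg i)
    (h.mem (by simp at hi; omega)).1
  have h2 : G.tl a l ≤ ∑ i ∈ Ioo l G.n, G.w i * a G.n := sum_le_sum fun i hi =>
    mul_le_mul_of_nonneg_left (h.mono (by simp at hi; omega) le_rfl) (w_nonneg i)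
  rw [← sum_mul] at h2
  have h3 := mul_le_mul_of_nonneg_right (sum_w_le (G := G) l) (h.mem le_rfl).1
  exact ⟨by linarith, by linarith [h.top]⟩
theorem IsPath.dh_nonneg (h : G.IsPath a ā) (hf : MonotoneOn f (Set.Ici 0)) (i : ℕ) :
    0 ≤ G.dh (fun i => f (G.D a i)) i := by
  exact div_nonneg (sub_nonneg.2 (hf (h.D_mem _).1 (h.D_mem _).1 (h.D_succ_le i))) (G.pos i).le
theorem IsPath.sum_abs_dh (h : G.IsPath a ā)
    (hf : ∀ d ∈ Set.Icc 0 ā, ∀ d' ∈ Set.Icc 0 ā, |f d - f d'| ≤ L * |d - d'|) (hL : 0 ≤ L) :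
    ∑ i ∈ range G.n, |G.dh (fun i => f (G.D a i)) i| ≤ L * ā := by
  have h1 : ∑ i ∈ range G.n, |G.dh (fun i => f (G.D a i)) i| ≤
      ∑ i ∈ range G.n, L * (a (i + 1) - a i) := by
    refine sum_le_sum fun i hi => ?_
    simp only [mem_range] at hi
    have h2 := hf _ (h.D_mem i) _ (h.D_mem (i + 1))
    have h3 : G.D a i - G.D a (i + 1) = G.ζ i * (a (i + 1) - a i) := by rw [D_step hi]; ring
    rw [h3, abs_of_nonneg (mul_nonneg (G.pos i).le (sub_nonneg.2 (h.step i hi)))] at h2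
    simp only [dh]
    rw [abs_div, abs_of_pos (G.pos i), div_le_iff₀ (G.pos i)]
    linarith
  rw [← mul_sum, Finset.sum_range_sub a, h.zero, sub_zero] at h1
  exact h1.trans (mul_le_mul_of_nonneg_left h.top hL)
theorem IsPath.abs_pathOf (h : G.IsPath a ā)
    (hf : ∀ d ∈ Set.Icc 0 ā, ∀ d' ∈ Set.Icc 0 ā, |f d - f d'| ≤ L * |d - d'|) (hL : 0 ≤ L)
    (hi : i ≤ G.n) : |G.pathOf (fun i => f (G.D a i)) i| ≤ L * ā := by
  refine (abs_sum_le_sum_abs _ _).trans (le_trans ?_ (h.sum_abs_dh hf hL))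
  exact sum_le_sum_of_subset_of_nonneg (range_subset_range.2 hi) fun _ _ _ => abs_nonneg _
theorem IsPath.pathOf (h : G.IsPath a ā) (hm : MonotoneOn f (Set.Ici 0))
    (hf : ∀ d ∈ Set.Icc 0 ā, ∀ d' ∈ Set.Icc 0 ā, |f d - f d'| ≤ L * |d - d'|) (hL : 0 ≤ L) :
    G.IsPath (G.pathOf fun i => f (G.D a i)) (L * ā) := by
  refine ⟨pathOf_zero, ?_, fun i _ => ?_, (le_abs_self _).trans (h.abs_pathOf hf hL le_rfl)⟩
  · simp [Grid.pathOf, h.dh_zero]
  · simp only [Grid.pathOf, sum_range_succ]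
    exact le_add_of_nonneg_right (h.dh_nonneg hm i)
theorem IsPath.TT_err (h : G.IsPath a ā) (h0 : |f 0| ≤ F0)
    (hf : ∀ d ∈ Set.Icc 0 ā, ∀ d' ∈ Set.Icc 0 ā, |f d - f d'| ≤ L * |d - d'|) (hL : 0 ≤ L)
    (he : e 0 = 0) : |G.TT fun i => f (G.D a i) * G.D e i| ≤ (F0 + L * ā) * G.nrm e := by
  rw [TT_mul (β := fun i => f (G.D a i)), he, mul_zero, sub_zero, D_top]
  have hN := nrm_nonneg (G := G) (e := e)
  have h1 : |∑ i ∈ range G.n, G.dh (fun i => f (G.D a i)) i * (e G.n - G.tl e i)| ≤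
      ∑ i ∈ range G.n, |G.dh (fun i => f (G.D a i)) i| * G.nrm e := by
    refine (abs_sum_le_sum_abs _ _).trans (sum_le_sum fun i _ => ?_)
    rw [abs_mul]
    refine mul_le_mul_of_nonneg_left ((abs_sub _ _).trans ?_) (abs_nonneg _)
    simp only [nrm]; linarith [abs_tl_le (G := G) (e := e) i]
  rw [← sum_mul] at h1
  have h2 := mul_le_mul_of_nonneg_right (h.sum_abs_dh hf hL) hN
  have h3 : |f 0 * e G.n| ≤ F0 * G.nrm e := by
    rw [abs_mul]; exact mul_le_mul h0 abs_top_le (abs_nonneg _) ((abs_nonneg _).trans h0)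
  refine (abs_add_le _ _).trans ?_
  linarith
theorem IsPath.nrm_err (h : G.IsPath a ā) (h0 : |f 0| ≤ F0)
    (hf : ∀ d ∈ Set.Icc 0 ā, ∀ d' ∈ Set.Icc 0 ā, |f d - f d'| ≤ L * |d - d'|) (hL : 0 ≤ L)
    (he : e 0 = 0) (he' : e' 0 = 0) (hD : ∀ i, i ≤ G.n → G.D e' i = f (G.D a i) * G.D e i) :
    G.nrm e' ≤ (F0 + 8 * L * ā) * G.nrm e := by
  set k := G.pathOf (fun i => f (G.D a i)) with hk
  have hā : 0 ≤ ā := (h.mem le_rfl).1.trans h.top
  have hM : 0 ≤ L * ā := mul_nonneg hL hā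
  have hN := nrm_nonneg (G := G) (e := e)
  have hDk : ∀ i, i ≤ G.n → G.D k i = f (G.D a i) - f 0 := fun i hi => by
    rw [hk, D_pathOf hi, D_top]
  have hk0 : k 0 = 0 := pathOf_zero
  have heq : ∀ i, i ≤ G.n → e' i = f 0 * e i + G.conv k e i := by
    intro i hi
    refine eq_of_D (G := G) (Q := e') (R := fun i => f 0 * e i + G.conv k e i) ?_ ?_ hi
    · simp [conv, he, he', hk0]
    · intro j hj
      rw [D_add, D_mul, D_conv hj, hD j hj, hDk j hj]; ring
  have hc : ∀ i, i ≤ G.n → |G.conv k e i| ≤ L * ā * (3 * |e i| + 2 * G.nrm e) := by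
    intro i hi
    have b1 : |k i| ≤ L * ā := h.abs_pathOf hf hL hi
    have b2 : |G.D k i| ≤ L * ā := by
      rw [hDk i hi]
      refine (hf _ (h.D_mem i) _ ⟨le_rfl, hā⟩).trans (mul_le_mul_of_nonneg_left ?_ hL)
      rw [sub_zero, abs_of_nonneg (h.D_mem i).1]; exact (h.D_mem i).2
    have b3 : |G.D e i| ≤ G.nrm e + |e i| := by
      rcases hi.lt_or_eq with hi | rfl
      · rw [D_eq hi]
        have c1 := abs_tl_le (G := G) (e := e) i
        have c2 : |G.ζ i * e i| ≤ |e i| := by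
          rw [abs_mul, abs_of_pos (G.pos i)]
          exact mul_le_of_le_one_left (abs_nonneg _) (G.le_one i)
        have c3 := abs_sub (e G.n - G.ζ i * e i) (G.tl e i)
        have c4 := abs_sub (e G.n) (G.ζ i * e i)
        simp only [nrm]; linarith
      · rw [D_top, abs_zero]; positivity
    have b4 : |∑ j ∈ Ioo 0 i, G.w j * (k j * e j)| ≤ L * ā * G.nrm e := by
      have c1 : |∑ j ∈ Ioo 0 i, G.w j * (k j * e j)| ≤ ∑ j ∈ Ioo 0 i, L * ā * (G.w j * |e j|) := by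
        refine (abs_sum_le_sum_abs _ _).trans (sum_le_sum fun j hj => ?_)
        simp only [mem_Ioo] at hj
        have c2 : |k j| ≤ L * ā := h.abs_pathOf hf hL (by omega)
        rw [abs_mul, abs_mul, abs_of_nonneg (w_nonneg j)]
        nlinarith [mul_le_mul_of_nonneg_right c2 (mul_nonneg (w_nonneg (G := G) j) (abs_nonneg (e j)))]
      rw [← mul_sum] at c1
      refine c1.trans (mul_le_mul_of_nonneg_left ?_ hM)
      refine le_trans (sum_le_sum_of_subset_of_nonneg (Ioo_subset_Ioo le_rfl hi)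
        fun j _ _ => mul_nonneg (w_nonneg j) (abs_nonneg _)) ?_
      exact le_add_of_nonneg_left (abs_nonneg _)
    have d1 : |e i * G.D k i| ≤ L * ā * |e i| := by
      rw [abs_mul, mul_comm]; exact mul_le_mul_of_nonneg_right b2 (abs_nonneg _)
    have d2 : |k i * G.D e i| ≤ L * ā * (G.nrm e + |e i|) := by
      rw [abs_mul]; exact mul_le_mul b1 b3 (abs_nonneg _) hM
    have d3 : |G.ζ (i - 1) * (e i * k i)| ≤ L * ā * |e i| := by
      rw [abs_mul, abs_of_pos (G.pos _)]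
      refine (mul_le_of_le_one_left (abs_nonneg _) (G.le_one _)).trans ?_
      rw [abs_mul, mul_comm]; exact mul_le_mul_of_nonneg_right b1 (abs_nonneg _)
    simp only [conv]
    have e1 := abs_sub (e i * G.D k i + k i * G.D e i + G.ζ (i - 1) * (e i * k i))
      (∑ j ∈ Ioo 0 i, G.w j * (k j * e j))
    have e2 := abs_add_le (e i * G.D k i + k i * G.D e i) (G.ζ (i - 1) * (e i * k i))
    have e3 := abs_add_le (e i * G.D k i) (k i * G.D e i)
    linarith
  have hcn : G.nrm (G.conv k e) ≤ 7 * (L * ā) * G.nrm e := by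
    have c1 : ∑ i ∈ Ioo 0 G.n, G.w i * |G.conv k e i| ≤
        ∑ i ∈ Ioo 0 G.n, (3 * (L * ā) * (G.w i * |e i|) + G.w i * (2 * (L * ā) * G.nrm e)) := by
      refine sum_le_sum fun i hi => ?_
      simp only [mem_Ioo] at hi
      have := mul_le_mul_of_nonneg_left (hc i hi.2.le) (w_nonneg (G := G) i)
      linarith
    rw [sum_add_distrib, ← mul_sum, ← sum_mul] at c1
    have c2 := mul_le_mul_of_nonneg_right (sum_w_le (G := G) 0)
      (show 0 ≤ 2 * (L * ā) * G.nrm e by positivity)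
    have c3 := hc G.n le_rfl
    have c4 : G.nrm e = |e G.n| + ∑ i ∈ Ioo 0 G.n, G.w i * |e i| := rfl
    have c5 : 3 * (L * ā) * G.nrm e =
        3 * (L * ā) * |e G.n| + 3 * (L * ā) * ∑ i ∈ Ioo 0 G.n, G.w i * |e i| := by rw [c4]; ring
    rw [nrm]; linarith
  rw [nrm_congr (e' := fun i => f 0 * e i + G.conv k e i) fun i _ hi => heq i hi]
  refine nrm_add_le.trans ?_
  rw [nrm_mul]
  have c1 := mul_le_mul_of_nonneg_right h0 hN
  have c2 := mul_nonneg hM hN
  linarith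

/-! ### integrals -/

theorem IsPath.TT_int (h : G.IsPath p ā) {E ρ : ℝ → ℝ} (hρ : MonotoneOn ρ (Set.Ici 0))
    (hE : ∀ x x', 0 ≤ x' → x' ≤ x → E x - E x' = ∫ t in x'..x, ρ t) :
    G.TT (fun i => E (G.D p i)) =
      ∑ i ∈ range G.n, ∫ r in p i..p (i + 1), ρ (p G.n - G.tl p i - G.ζ i * r) := by
  refine sum_congr rfl fun i hi => ?_
  simp only [mem_range] at hi
  have h1 := D_step (Q := p) hi
  have h2 := D_eq (Q := p) hi
  rw [intervalIntegral.integral_comp_sub_mul ρ (G.pos i).ne']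
  have e1 : p G.n - G.tl p i - G.ζ i * p (i + 1) = G.D p (i + 1) := by linarith
  have e2 : p G.n - G.tl p i - G.ζ i * p i = G.D p i := by linarith
  rw [e1, e2, ← hE _ _ (h.D_mem _).1 (h.D_succ_le i)]
  simp only [dh, smul_eq_mul]; ring

theorem IsPath.D_min (h : G.IsPath p ā) {i j : ℕ} (hi : i < G.n) (hj : j < G.n) {r : ℝ}
    (hr : r ∈ Set.Icc (p i) (p (i + 1))) :
    0 ≤ p G.n - G.tl p i - G.ζ i * r ∧
      p G.n - G.tl p i - G.ζ i * r ≤ p G.n - G.tl p j - G.ζ j * r := by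
  have hs : ∀ j, j + 1 < G.n → p G.n - G.tl p (j + 1) - G.ζ (j + 1) * r =
      p G.n - G.tl p j - G.ζ j * r + G.w (j + 1) * (p (j + 1) - r) := by
    intro j hj
    rw [tl_step hj]; simp only [w, Nat.add_sub_cancel]; ring
  constructor
  · have h1 := D_step (Q := p) hi
    have h2 := D_eq (Q := p) hi
    have h3 := mul_nonneg (G.pos i).le (sub_nonneg.2 hr.2)
    have h4 := (h.D_mem (i + 1)).1
    linarith
  · rcases le_total j i with hji | hij
    · refine down (P := fun j => p G.n - G.tl p i - G.ζ i * r ≤ p G.n - G.tl p j - G.ζ j * r)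
        le_rfl ?_ j hji
      intro j hj ih
      rw [hs j (by omega)] at ih
      have h1 : p (j + 1) ≤ r := (h.mono (by omega) hi.le).trans hr.1
      have := mul_nonneg (w_nonneg (G := G) (j + 1)) (sub_nonneg.2 h1)
      linarith
    · induction hij with
      | refl => exact le_rfl
      | @step j hk ih =>
        have hk' : i ≤ j := hk
        have hj' : j + 1 < G.n := hj
        have h1 : r ≤ p (j + 1) := hr.2.trans (h.mono (by omega) hj'.le)
        have := mul_nonneg (w_nonneg (G := G) (j + 1)) (sub_nonneg.2 h1)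
        have h2 := ih (by omega)
        have h3 := hs j hj'
        simp only [Nat.succ_eq_add_one]
        linarith

end Grid

variable {q : ℝ → ℝ}

theorem trial_int (hq : IsTrialPath q) : IntegrableOn q (Set.Ioo 0 1) := by
  refine Measure.integrableOn_of_bounded (M := 1) (by simp) hq.1.aestronglyMeasurable ?_
  refine (ae_restrict_iff' measurableSet_Ioo).2 (Filter.Eventually.of_forall fun s hs => ?_)
  rw [Real.norm_eq_abs, abs_of_nonneg (hq.2.2 s hs).1]; exact (hq.2.2 s hs).2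

theorem split_Ioo {f : ℝ → ℝ} {a b c : ℝ} (hf : IntegrableOn f (Set.Ioo a c)) (hab : a ≤ b)
    (hbc : b ≤ c) : ∫ s in Set.Ioo a c, f s = (∫ s in Set.Ioo a b, f s) + ∫ s in Set.Ioo b c, f s := by
  have i1 : IntervalIntegrable f volume a b :=
    (intervalIntegrable_iff_integrableOn_Ioo_of_le hab).2 (hf.mono_set (Set.Ioo_subset_Ioo le_rfl hbc))
  have i2 : IntervalIntegrable f volume b c :=
    (intervalIntegrable_iff_integrableOn_Ioo_of_le hbc).2 (hf.mono_set (Set.Ioo_subset_Ioo hab le_rfl))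
  have := intervalIntegral.integral_add_adjacent_intervals i1 i2
  rw [intervalIntegral.integral_of_le hab, intervalIntegral.integral_of_le hbc,
    intervalIntegral.integral_of_le (hab.trans hbc), integral_Ioc_eq_integral_Ioo,
    integral_Ioc_eq_integral_Ioo, integral_Ioc_eq_integral_Ioo] at this
  exact this.symm

theorem tail_sub' (hq : IsTrialPath q) {z z' : ℝ} (h0 : 0 ≤ z) (h : z ≤ z') (h1 : z' ≤ 1) :
    tail q z - tail q z' ∈ Set.Icc 0 (z' - z) := by
  have hs : Set.Ioo z z' ⊆ Set.Ioo 0 1 := Set.Ioo_subset_Ioo h0 h1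
  simp only [tail]
  rw [split_Ioo ((trial_int hq).mono_set (Set.Ioo_subset_Ioo h0 le_rfl)) h h1, add_sub_cancel_right]
  refine ⟨setIntegral_nonneg measurableSet_Ioo fun s hs' => (hq.2.2 s (hs hs')).1, ?_⟩
  have := setIntegral_mono_on ((trial_int hq).mono_set hs) (integrable_const (1 : ℝ))
    measurableSet_Ioo fun s hs' => (hq.2.2 s (hs hs')).2
  simpa [max_eq_left (sub_nonneg.2 h)] using this

theorem tail_sub_const (hq : IsTrialPath q) {z : ℝ} (hz : z ∈ Set.Icc (0 : ℝ) 1) (r : ℝ) :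
    ∫ s in Set.Ioo z 1, (q s - r) = tail q z - (1 - z) * r := by
  rw [integral_sub ((trial_int hq).mono_set (Set.Ioo_subset_Ioo hz.1 le_rfl)) (integrable_const r)]
  simp [tail, max_eq_left (sub_nonneg.2 hz.2)]

theorem tail_one (q : ℝ → ℝ) : tail q 1 = 0 := by
  simp [tail]
theorem tail_mem (hq : IsTrialPath q) {z : ℝ} (hz : z ∈ Set.Icc (0 : ℝ) 1) : tail q z ∈ Set.Icc (0 : ℝ) 1 := by
  have h := tail_sub' hq hz.1 hz.2 le_rfl
  rw [tail_one, sub_zero] at h
  exact ⟨h.1, by linarith [h.2, hz.1]⟩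
theorem tail_sub (hq : IsTrialPath q) {z z' : ℝ} (h0 : 0 ≤ z) (h : z ≤ z') (h1 : z' ≤ 1) :
    tail q z - tail q z' ∈ Set.Icc 0 (z' - z) := by
  exact tail_sub' hq h0 h h1
theorem deficit_le (hq : IsTrialPath q) {z : ℝ} (hz : z ∈ Set.Icc (0 : ℝ) 1) (r : ℝ) :
    deficit q r ≤ 1 - tail q z - z * r := by
  have i1 : IntegrableOn (fun s => max (q s - r) 0) (Set.Ioo 0 1) :=
    ((trial_int hq).sub (integrable_const r)).sup (integrable_const 0)
  have hs : Set.Ioo z 1 ⊆ Set.Ioo 0 1 := Set.Ioo_subset_Ioo hz.1 le_rfl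
  have h1 : ∫ s in Set.Ioo z 1, (q s - r) ≤ ∫ s in Set.Ioo z 1, max (q s - r) 0 :=
    setIntegral_mono_on (((trial_int hq).mono_set hs).sub (integrable_const r)) (i1.mono_set hs)
      measurableSet_Ioo fun s _ => le_max_left _ _
  have h2 : ∫ s in Set.Ioo z 1, max (q s - r) 0 ≤ ∫ s in Set.Ioo (0 : ℝ) 1, max (q s - r) 0 :=
    setIntegral_mono_set i1 (Filter.Eventually.of_forall fun s => le_max_right _ _) hs.eventuallyLE
  rw [tail_sub_const hq hz] at h1
  simp only [deficit]; linarith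
theorem deficit_eq (hq : IsTrialPath q) (r : ℝ) :
    ∃ z ∈ Set.Icc (0 : ℝ) 1, deficit q r = 1 - tail q z - z * r := by
  set S : Set ℝ := insert 0 {s | s ∈ Set.Ioo (0 : ℝ) 1 ∧ q s ≤ r} with hS
  have hb : ∀ s ∈ S, s ≤ 1 := by
    rintro s (rfl | hs)
    · exact zero_le_one
    · exact hs.1.2.le
  have hne : S.Nonempty := ⟨0, Set.mem_insert _ _⟩
  have hbd : BddAbove S := ⟨1, hb⟩
  have hz : sSup S ∈ Set.Icc (0 : ℝ) 1 := ⟨le_csSup hbd (Set.mem_insert _ _), csSup_le hne hb⟩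
  refine ⟨sSup S, hz, ?_⟩
  have i1 : IntegrableOn (fun s => max (q s - r) 0) (Set.Ioo 0 1) :=
    ((trial_int hq).sub (integrable_const r)).sup (integrable_const 0)
  have h1 : ∫ s in Set.Ioo (0 : ℝ) 1, max (q s - r) 0 = ∫ s in Set.Ioo (sSup S) 1, (q s - r) := by
    rw [split_Ioo i1 hz.1 hz.2]
    have a1 : ∫ s in Set.Ioo 0 (sSup S), max (q s - r) 0 = 0 := by
      rw [setIntegral_congr_fun (g := fun _ => 0) measurableSet_Ioo, integral_zero]
      intro s hs
      obtain ⟨s', hs', hlt⟩ := exists_lt_of_lt_csSup hne hs.2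
      rcases hs' with rfl | hs'
      · exact absurd hs.1 hlt.not_gt
      · have := hq.2.1 ⟨hs.1, hlt.trans hs'.1.2⟩ hs'.1 hlt.le
        exact max_eq_right (by linarith [hs'.2])
    rw [a1, zero_add]
    refine setIntegral_congr_fun measurableSet_Ioo fun s hs => ?_
    refine max_eq_left ?_
    by_contra hlt
    have : s ∈ S := Or.inr ⟨⟨hz.1.trans_lt hs.1, hs.2⟩, by linarith⟩
    exact absurd (le_csSup hbd this) hs.1.not_ge
  simp only [deficit]
  rw [h1, tail_sub_const hq hz]; ring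
theorem deficit_mem (hq : IsTrialPath q) {r : ℝ} (hr : r ∈ Set.Icc (0 : ℝ) 1) :
    deficit q r ∈ Set.Icc (0 : ℝ) 1 := by
  constructor
  · obtain ⟨z, hz, he⟩ := deficit_eq hq r
    have h := tail_sub hq hz.1 hz.2 le_rfl
    rw [tail_one, sub_zero] at h
    have := mul_nonneg hz.1 (sub_nonneg.2 hr.2)
    rw [he]; linarith [h.2]
  · have h := deficit_le hq (z := 1) ⟨zero_le_one, le_rfl⟩ r
    rw [tail_one] at h; linarith [hr.1]
theorem continuous_deficit (hq : IsTrialPath q) : Continuous (deficit q) := by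
  refine (LipschitzWith.of_le_add fun x y => ?_).continuous
  obtain ⟨z, hz, he⟩ := deficit_eq hq y
  have h1 := deficit_le hq hz x
  have h2 : z * (y - x) ≤ dist x y := by
    rw [Real.dist_eq, abs_sub_comm]
    calc z * (y - x) ≤ z * |y - x| := mul_le_mul_of_nonneg_left (le_abs_self _) hz.1
      _ ≤ |y - x| := mul_le_of_le_one_left (abs_nonneg _) hz.2
  linarith
theorem deficit_anti (hq : IsTrialPath q) : Antitone (deficit q) := fun x y hxy => by
  obtain ⟨z, hz, he⟩ := deficit_eq hq x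
  have h1 := deficit_le hq hz y
  have := mul_le_mul_of_nonneg_left hxy hz.1
  linarith

theorem integrableOn_comp_deficit (hq : IsTrialPath q) {ρ : ℝ → ℝ} (hρ : MonotoneOn ρ (Set.Ici 0))
    {c : ℝ} (hc : 0 ≤ c) : IntegrableOn (fun r => ρ (deficit q r + c)) (Set.Ioo 0 1) := by
  have : AntitoneOn (fun r => ρ (deficit q r + c)) (Set.Icc 0 1) := fun x hx y hy hxy =>
    hρ (add_nonneg (deficit_mem hq hy).1 hc) (add_nonneg (deficit_mem hq hx).1 hc)
      (by linarith [deficit_anti hq hxy])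
  exact (this.integrableOn_isCompact isCompact_Icc).mono_set Set.Ioo_subset_Icc_self

namespace Grid

variable {G : Grid} {p : ℕ → ℝ} {ā : ℝ}

theorem locate {s : ℝ} (h1 : G.ζ 1 < s) (h2 : s ≤ 1) :
    ∃ i, 2 ≤ i ∧ i < G.n ∧ G.ζ (i - 1) < s ∧ s ≤ G.ζ i := by
  classical
  have h3 := G.three_le
  have hex : ∃ i, s ≤ G.ζ i := ⟨G.n - 1, by rw [G.top]; exact h2⟩
  have ha := Nat.find_spec hex
  have hb : Nat.find hex ≤ G.n - 1 := Nat.find_min' hex (by rw [G.top]; exact h2)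
  have hc : 2 ≤ Nat.find hex := by
    by_contra hlt
    have := G.mono (show Nat.find hex ≤ 1 by omega)
    linarith
  exact ⟨_, hc, by omega, not_le.1 (Nat.find_min hex (by omega)), ha⟩

theorem Phi_anti (hq : IsTrialPath q) {ρ : ℝ → ℝ} (hρ : MonotoneOn ρ (Set.Ici 0)) {c : ℝ}
    (hc : 0 ≤ c) : AntitoneOn (fun r => ρ (deficit q (min r 1) + c)) (Set.Ici 0) :=
  fun _ hx _ hy hxy =>
    hρ (add_nonneg (deficit_mem hq ⟨le_min hy zero_le_one, min_le_right _ _⟩).1 hc)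
      (add_nonneg (deficit_mem hq ⟨le_min hx zero_le_one, min_le_right _ _⟩).1 hc)
      (by linarith [deficit_anti hq (min_le_min_right 1 hxy)])

theorem anti_int {Φ : ℝ → ℝ} (hA : AntitoneOn Φ (Set.Ici 0)) {a b : ℝ} (ha : 0 ≤ a) (hb : 0 ≤ b) :
    IntervalIntegrable Φ volume a b :=
  (hA.mono fun _ hx => (le_min ha hb).trans hx.1).intervalIntegrable

theorem IsPath.int_anti (h : G.IsPath p ā) {Φ : ℝ → ℝ} (hA : AntitoneOn Φ (Set.Ici 0)) {i : ℕ}
    (hi : i < G.n) : IntervalIntegrable Φ volume (p i) (p (i + 1)) :=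
  anti_int hA (h.mem hi.le).1 (h.mem hi).1

theorem IsPath.sum_int (h : G.IsPath p ā) {Φ : ℝ → ℝ} (hA : AntitoneOn Φ (Set.Ici 0)) :
    ∑ i ∈ range G.n, ∫ r in p i..p (i + 1), Φ r = ∫ r in (0 : ℝ)..p G.n, Φ r := by
  rw [intervalIntegral.sum_integral_adjacent_intervals (a := p) fun i hi => h.int_anti hA hi, h.zero]

theorem IsPath.int_g (h : G.IsPath p ā) {ρ : ℝ → ℝ} (hρ : MonotoneOn ρ (Set.Ici 0)) {i : ℕ}
    (hi : i < G.n) :
    IntervalIntegrable (fun r => ρ (p G.n - G.tl p i - G.ζ i * r)) volume (p i) (p (i + 1)) := by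
  refine AntitoneOn.intervalIntegrable ?_
  rw [Set.uIcc_of_le (h.step i hi)]
  intro x hx y hy hxy
  exact hρ (h.D_min hi hi hy).1 (h.D_min hi hi hx).1
    (by linarith [mul_le_mul_of_nonneg_left hxy (G.pos i).le])

theorem Phi_end (hq : IsTrialPath q) {ρ : ℝ → ℝ} {Λ δ c b : ℝ} (hρ : MonotoneOn ρ (Set.Ici 0))
    (hb : ∀ x, 0 ≤ x → ρ x ∈ Set.Icc (-Λ) 0) (hc : 0 ≤ c) (hb0 : 0 ≤ b) (h2 : |b - 1| ≤ δ) :
    |(∫ r in (0 : ℝ)..b, ρ (deficit q (min r 1) + c)) -
      ∫ r in Set.Ioo (0 : ℝ) 1, ρ (deficit q r + c)| ≤ Λ * δ := by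
  have hA := Phi_anti hq hρ hc
  have hΛ : 0 ≤ Λ := by have := hb 0 le_rfl; linarith [this.1, this.2]
  have e1 : ∫ r in Set.Ioo (0 : ℝ) 1, ρ (deficit q r + c) =
      ∫ r in (0 : ℝ)..1, ρ (deficit q (min r 1) + c) := by
    rw [intervalIntegral.integral_of_le zero_le_one, integral_Ioc_eq_integral_Ioo]
    exact setIntegral_congr_fun measurableSet_Ioo fun s hs => by simp only [min_eq_left hs.2.le]
  rw [e1, intervalIntegral.integral_interval_sub_left (anti_int hA le_rfl hb0)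
    (anti_int hA le_rfl zero_le_one)]
  have := intervalIntegral.norm_integral_le_of_norm_le_const (a := 1) (b := b) (C := Λ)
    (f := fun r => ρ (deficit q (min r 1) + c)) fun x hx => by
      have hx0 : 0 ≤ x := (le_min zero_le_one hb0).trans hx.1.le
      have := hb _ (add_nonneg (deficit_mem hq ⟨le_min hx0 zero_le_one, min_le_right _ _⟩).1 hc)
      rw [Real.norm_eq_abs, abs_le]; exact ⟨this.1, this.2.trans hΛ⟩
  exact this.trans (mul_le_mul_of_nonneg_left h2 hΛ)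

theorem IsPath.TT_le_int (h : G.IsPath p ā) (hq : IsTrialPath q) {E ρ : ℝ → ℝ} {Λ δ₁ δ₂ : ℝ}
    (hρ : MonotoneOn ρ (Set.Ici 0)) (hb : ∀ x, 0 ≤ x → ρ x ∈ Set.Icc (-Λ) 0)
    (hE : ∀ x x', 0 ≤ x' → x' ≤ x → E x - E x' = ∫ t in x'..x, ρ t)
    (h1 : ∀ l ∈ Ico 1 (G.n - 1), tail q (G.ζ l) - δ₁ ≤ G.tl p l) (h2 : |p G.n - 1| ≤ δ₁)
    (hy : G.ζ 0 ≤ δ₂) (hw : ∀ i, i < G.n → G.w i ≤ δ₂) :
    G.TT (fun i => E (G.D p i)) ≤
      (∫ r in Set.Ioo (0 : ℝ) 1, ρ (deficit q r + (2 * δ₁ + δ₂))) + Λ * δ₁ := by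
  have h3 := G.three_le
  have hδ₁ : 0 ≤ δ₁ := (abs_nonneg _).trans h2
  have hδ₂ : 0 ≤ δ₂ := (G.pos 0).le.trans hy
  have hc : 0 ≤ 2 * δ₁ + δ₂ := by positivity
  have hp := abs_le.1 h2
  rw [h.TT_int hρ hE]
  have hA := Phi_anti hq hρ hc
  have hsum := h.sum_int hA
  have hend := Phi_end hq hρ hb hc (h.mem le_rfl).1 h2
  have hle : ∑ i ∈ range G.n, ∫ r in p i..p (i + 1), ρ (p G.n - G.tl p i - G.ζ i * r) ≤
      ∑ i ∈ range G.n, ∫ r in p i..p (i + 1), ρ (deficit q (min r 1) + (2 * δ₁ + δ₂)) := by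
    refine sum_le_sum fun i hi => ?_
    simp only [mem_range] at hi
    refine intervalIntegral.integral_mono_on (h.step i hi) (h.int_g hρ hi) (h.int_anti hA hi)
      fun r hr => ?_
    have hr0 : 0 ≤ r := (h.mem hi.le).1.trans hr.1
    have hr' : min r 1 ∈ Set.Icc (0 : ℝ) 1 := ⟨le_min hr0 zero_le_one, min_le_right _ _⟩
    obtain ⟨z, hz, he⟩ := deficit_eq hq (min r 1)
    obtain ⟨j, hj1, hjn, hzj, hjz⟩ : ∃ j, 1 ≤ j ∧ j < G.n ∧ z ≤ G.ζ j ∧ G.ζ j ≤ z + δ₂ := by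
      by_cases hz1 : z ≤ G.ζ 1
      · exact ⟨1, le_rfl, by omega, hz1, by rw [← G.root]; linarith [hz.1]⟩
      · obtain ⟨j, hj1, hjn, ha, hb⟩ := locate (G := G) (not_le.1 hz1) hz.2
        have := hw j hjn
        simp only [w] at this
        exact ⟨j, by omega, hjn, hb, by linarith⟩
    have hm := h.D_min hi hjn hr
    refine hρ hm.1 (add_nonneg (deficit_mem hq hr').1 hc) (hm.2.trans ?_)
    have a1 : tail q (G.ζ j) - δ₁ ≤ G.tl p j := by
      by_cases hj : j < G.n - 1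
      · exact h1 j (mem_Ico.2 ⟨hj1, hj⟩)
      · have : j = G.n - 1 := by omega
        rw [this, G.top, tail_one, tl_top]; linarith
    have a2 := (tail_sub hq hz.1 hzj (G.le_one j)).2
    have a3 : z * min r 1 ≤ G.ζ j * r := mul_le_mul hzj (min_le_left _ _) hr'.1 (G.pos j).le
    rw [he]; linarith [hp.2]
  rw [hsum] at hle
  linarith [(abs_le.1 hend).2]

theorem IsPath.int_le_TT (h : G.IsPath p ā) (hq : IsTrialPath q) {E ρ : ℝ → ℝ} {Λ L δ₁ : ℝ}
    (hρ : MonotoneOn ρ (Set.Ici 0)) (hb : ∀ x, 0 ≤ x → ρ x ∈ Set.Icc (-Λ) 0)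
    (hL : ∀ x x', 0 ≤ x → 0 ≤ x' → |ρ x - ρ x'| ≤ L * |x - x'|) (hL0 : 0 ≤ L)
    (hE : ∀ x x', 0 ≤ x' → x' ≤ x → E x - E x' = ∫ t in x'..x, ρ t)
    (h1 : ∀ l ∈ Ico 1 (G.n - 1), G.tl p l - δ₁ ≤ tail q (G.ζ l)) (h2 : |p G.n - 1| ≤ δ₁) :
    (∫ r in Set.Ioo (0 : ℝ) 1, ρ (deficit q r)) ≤
      G.TT (fun i => E (G.D p i)) + (4 * L + Λ) * δ₁ + 2 * L * δ₁ ^ 2 := by
  have h3 := G.three_le
  have hδ₁ : 0 ≤ δ₁ := (abs_nonneg _).trans h2
  have hp := abs_le.1 h2
  rw [h.TT_int hρ hE]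
  have hA := Phi_anti hq hρ le_rfl
  have hsum := h.sum_int hA
  have hend := Phi_end hq hρ hb le_rfl (h.mem le_rfl).1 h2
  have hle : ∑ i ∈ range G.n, ∫ r in p i..p (i + 1), ρ (deficit q (min r 1) + 0) ≤
      ∑ i ∈ range G.n, ((∫ r in p i..p (i + 1), ρ (p G.n - G.tl p i - G.ζ i * r)) +
        (p (i + 1) - p i) * (2 * L * δ₁)) := by
    refine sum_le_sum fun i hi => ?_
    simp only [mem_range] at hi
    have e1 : (∫ r in p i..p (i + 1), ρ (p G.n - G.tl p i - G.ζ i * r)) +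
        (p (i + 1) - p i) * (2 * L * δ₁) =
        ∫ r in p i..p (i + 1), (ρ (p G.n - G.tl p i - G.ζ i * r) + 2 * L * δ₁) := by
      rw [intervalIntegral.integral_add (h.int_g hρ hi) intervalIntegrable_const,
        intervalIntegral.integral_const, smul_eq_mul]
    rw [e1]
    refine intervalIntegral.integral_mono_on (h.step i hi) (h.int_anti hA hi)
      ((h.int_g hρ hi).add intervalIntegrable_const) fun r hr => ?_
    have hr0 : 0 ≤ r := (h.mem hi.le).1.trans hr.1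
    have hrn : r ≤ p G.n := hr.2.trans (h.mono hi le_rfl)
    have hr' : min r 1 ∈ Set.Icc (0 : ℝ) 1 := ⟨le_min hr0 zero_le_one, min_le_right _ _⟩
    have hm := (h.D_min hi hi hr).1
    have a0 := deficit_le hq (z := G.ζ i) ⟨(G.pos i).le, G.le_one i⟩ (min r 1)
    have a1 : G.tl p i - δ₁ ≤ tail q (G.ζ i) := by
      rcases Nat.eq_zero_or_pos i with rfl | hi0
      · rw [tl_step (by omega), G.root]
        simpa [w_one] using h1 1 (mem_Ico.2 ⟨le_rfl, by omega⟩)
      · by_cases hj : i < G.n - 1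
        · exact h1 i (mem_Ico.2 ⟨hi0, hj⟩)
        · have : i = G.n - 1 := by omega
          rw [this, G.top, tail_one, tl_top]; linarith
    have a2 : 1 - p G.n + G.ζ i * (r - min r 1) ≤ δ₁ := by
      rcases le_total r 1 with hr1 | hr1
      · rw [min_eq_left hr1]; linarith [hp.1]
      · rw [min_eq_right hr1]
        have := mul_le_of_le_one_left (sub_nonneg.2 hr1) (G.le_one i)
        linarith
    have a3 : deficit q (min r 1) + 0 ≤ p G.n - G.tl p i - G.ζ i * r + 2 * δ₁ := by linarith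
    have a4 := hρ (add_nonneg (deficit_mem hq hr').1 le_rfl)
      (show 0 ≤ p G.n - G.tl p i - G.ζ i * r + 2 * δ₁ by positivity) a3
    have a5 := hL (p G.n - G.tl p i - G.ζ i * r + 2 * δ₁) _ (by positivity) hm
    rw [add_sub_cancel_left, abs_of_nonneg (show 0 ≤ 2 * δ₁ by positivity)] at a5
    linarith [(abs_le.1 a5).2]
  rw [hsum, sum_add_distrib, ← sum_mul, Finset.sum_range_sub p, h.zero, sub_zero] at hle
  simp only [add_zero] at hle hend
  have b1 : p G.n * (2 * L * δ₁) ≤ (1 + δ₁) * (2 * L * δ₁) :=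
    mul_le_mul_of_nonneg_right (by linarith [hp.2]) (by positivity)
  have b2 : 0 ≤ L * δ₁ := by positivity
  nlinarith [(abs_le.1 hend).1]

theorem stepOf_low {s : ℝ} (h : s ≤ G.ζ 1) : G.stepOf p s = 0 := by
  refine sum_eq_zero fun i hi => if_neg fun hh => ?_
  simp only [mem_Ioo] at hi
  have := G.mono (show 1 ≤ i - 1 by omega)
  linarith [hh.1]

theorem stepOf_at {s : ℝ} {i : ℕ} (h1 : 2 ≤ i) (hn : i < G.n) (ha : G.ζ (i - 1) < s)
    (hb : s ≤ G.ζ i) : G.stepOf p s = p i := by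
  rw [stepOf, sum_eq_single_of_mem i (mem_Ioo.2 ⟨h1, hn⟩), if_pos ⟨ha, hb⟩]
  intro j _ hji
  refine if_neg fun hh => ?_
  rcases lt_or_gt_of_ne hji with h | h
  · have := G.mono (show j ≤ i - 1 by omega)
    linarith [hh.2]
  · have := G.mono (show i ≤ j - 1 by omega)
    linarith [hh.1]

theorem tail_ite {a b c z : ℝ} (hb : b ≤ 1) :
    ∫ s in Set.Ioo z 1, (if a < s ∧ s ≤ b then c else 0) = max (b - max z a) 0 * c := by
  have e1 : (fun s => if a < s ∧ s ≤ b then c else 0) = (Set.Ioc a b).indicator fun _ => c := by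
    ext s; simp [Set.indicator]
  rw [e1, setIntegral_indicator measurableSet_Ioc, setIntegral_const, smul_eq_mul]
  congr 1
  have h1 : volume (Set.Ioo z 1 ∩ Set.Ioc a b) = ENNReal.ofReal (b - max z a) := by
    apply le_antisymm
    · rw [← Real.volume_Ioc]
      exact measure_mono fun s hs => ⟨max_lt hs.1.1 hs.2.1, hs.2.2⟩
    · rw [← Real.volume_Ioo]
      exact measure_mono fun s hs => ⟨⟨(le_max_left _ _).trans_lt hs.1, hs.2.trans_le hb⟩,
        (le_max_right _ _).trans_lt hs.1, hs.2.le⟩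
  rw [Measure.real, h1, ENNReal.toReal_ofReal']

theorem tail_stepOf_gen (z : ℝ) : tail (G.stepOf p) z =
    ∑ i ∈ Ioo 1 G.n, max (G.ζ i - max z (G.ζ (i - 1))) 0 * p i := by
  simp only [tail, stepOf]
  rw [integral_finset_sum]
  · exact sum_congr rfl fun i _ => tail_ite (G.le_one i)
  · intro i _
    have e1 : (fun s => if G.ζ (i - 1) < s ∧ s ≤ G.ζ i then p i else 0) =
        (Set.Ioc (G.ζ (i - 1)) (G.ζ i)).indicator fun _ => p i := by
      ext s; simp [Set.indicator]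
    rw [e1]
    exact (integrable_const _).indicator measurableSet_Ioc

theorem tail_stepOf_mid' {l : ℕ} (h1 : 1 ≤ l) (hl : l + 1 < G.n) {z : ℝ}
    (hz : z ∈ Set.Icc (G.ζ l) (G.ζ (l + 1))) :
    tail (G.stepOf p) z = G.tl p (l + 1) + (G.ζ (l + 1) - z) * p (l + 1) := by
  rw [tail_stepOf_gen, ← sum_subset (Ioo_subset_Ioo h1 le_rfl), sum_Ioo_bot hl, add_comm]
  · congr 1
    · refine sum_congr rfl fun i hi => ?_
      simp only [mem_Ioo] at hi
      rw [max_eq_right (hz.2.trans (G.mono (show l + 1 ≤ i - 1 by omega)))]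
      exact congrArg (· * p i) (max_eq_left (w_nonneg (G := G) i))
    · rw [Nat.add_sub_cancel, max_eq_left hz.1, max_eq_left (sub_nonneg.2 hz.2)]
  · intro i hi hi'
    simp only [mem_Ioo] at hi hi'
    have := G.mono (show i ≤ l by omega)
    rw [max_eq_right (by linarith [le_max_left z (G.ζ (i - 1)), hz.1]), zero_mul]

theorem trial_stepOf (h0 : ∀ i, 2 ≤ i → i < G.n → p i ∈ Set.Icc (0 : ℝ) 1)
    (hm : ∀ i, 2 ≤ i → i + 1 < G.n → p i ≤ p (i + 1)) : IsTrialPath (G.stepOf p) := by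
  have hval : ∀ s ∈ Set.Ioo (0 : ℝ) 1, 0 ≤ G.stepOf p s ∧ G.stepOf p s ≤ 1 := by
    intro s hs
    by_cases h1 : s ≤ G.ζ 1
    · rw [stepOf_low h1]; exact ⟨le_rfl, zero_le_one⟩
    · obtain ⟨i, hi1, hin, ha, hb⟩ := locate (G := G) (not_le.1 h1) hs.2.le
      rw [stepOf_at hi1 hin ha hb]; exact h0 i hi1 hin
  refine ⟨?_, fun s hs s' hs' hss => ?_, hval⟩
  · refine Finset.measurable_sum _ fun i _ => ?_
    exact Measurable.ite (measurableSet_Ioc (a := G.ζ (i - 1)) (b := G.ζ i)) measurable_const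
      measurable_const
  · by_cases h1 : s ≤ G.ζ 1
    · rw [stepOf_low h1]; exact (hval s' hs').1
    · obtain ⟨i, hi1, hin, ha, hb⟩ := locate (G := G) (not_le.1 h1) hs.2.le
      obtain ⟨j, hj1, hjn, ha', hb'⟩ := locate (G := G) ((not_le.1 h1).trans_le hss) hs'.2.le
      rw [stepOf_at hi1 hin ha hb, stepOf_at hj1 hjn ha' hb']
      have hij : i ≤ j := by
        by_contra hlt
        have := G.mono (show j ≤ i - 1 by omega)
        linarith
      clear ha' hb'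
      induction hij with
      | refl => exact le_rfl
      | @step j hk ih =>
        have hk' : i ≤ j := hk
        exact (ih (by omega) (by omega)).trans (hm j (by omega) hjn)
theorem tail_stepOf {l : ℕ} (h1 : 1 ≤ l) (hl : l < G.n) : tail (G.stepOf p) (G.ζ l) = G.tl p l := by
  by_cases h : l + 1 < G.n
  · rw [tail_stepOf_mid' h1 h ⟨le_rfl, G.mono (Nat.le_succ l)⟩, tl_step h]
    simp only [w, Nat.add_sub_cancel]; ring
  · have : l = G.n - 1 := by omega
    rw [this, G.top, tail_one, tl_top]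
theorem tail_stepOf_low {z : ℝ} (h0 : 0 ≤ z) (hz : z ≤ G.ζ 1) : tail (G.stepOf p) z = G.tl p 1 := by
  rw [tail_stepOf_gen]
  refine sum_congr rfl fun i hi => ?_
  simp only [mem_Ioo] at hi
  rw [max_eq_right (hz.trans (G.mono (show 1 ≤ i - 1 by omega)))]
  exact congrArg (· * p i) (max_eq_left (w_nonneg (G := G) i))
theorem tail_stepOf_mid {l : ℕ} (h1 : 1 ≤ l) (hl : l + 1 < G.n) {z : ℝ} (hz : z ∈ Set.Icc (G.ζ l) (G.ζ (l + 1))) :
    tail (G.stepOf p) z = G.tl p (l + 1) + (G.ζ (l + 1) - z) * p (l + 1) := by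
  exact tail_stepOf_mid' h1 hl hz
theorem tail_stepOf_sum {ι : Type*} (s : Finset ι) (c : ι → ℝ) (P : ι → ℕ → ℝ) (z : ℝ) :
    tail (G.stepOf fun i => ∑ j ∈ s, c j * P j i) z = ∑ j ∈ s, c j * tail (G.stepOf (P j)) z := by
  simp only [tail_stepOf_gen, mul_sum]
  rw [sum_comm]
  exact sum_congr rfl fun j _ => sum_congr rfl fun i _ => by ring

end Grid

end Crest.Agent.R164
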