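import Mathlib

/-!
Row 164, task R164-Haar: Haar measure on the orthogonal group (only invariance is used) and standard Gaussian vectors.

PLAN.  Measurability: matrix entries are measurable, `Measurable.subtype_mk`, `measurable_pi_lambda`.
`IsHaar.unique'`: for right invariant `ν`, `ν'`; `ν'' = ν'.map inv` is left invariant; compute `∫∫ 1_A (U V) dν(U) dν''(V)` in
two ways (Fubini, `Measure.prod_apply`, `Measure.prod_apply_symm`) to get `ν = ν''`; apply it with `ν' = ν` too.
`IsHaar.re`: the push-forward is right invariant, then uniqueness.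
-/

set_option autoImplicit false
set_option linter.unusedSectionVars false

namespace Crest.Agent.R164

open MeasureTheory Finset Matrix ProbabilityTheory

instance matMeas {ι κ : Type} : MeasurableSpace (Matrix ι κ ℝ) :=
  inferInstanceAs (MeasurableSpace (ι → κ → ℝ))

abbrev OG (ι : Type) [Fintype ι] [DecidableEq ι] : Type := ↥(Matrix.orthogonalGroup ι ℝ)

variable {ι ι' : Type} [Fintype ι] [DecidableEq ι] [Fintype ι'] [DecidableEq ι']

/-- right invariant probability measure -/
def IsHaar (ν : ProbabilityMeasure (OG ι)) : Prop :=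
  ∀ O : OG ι, (ν : Measure (OG ι)).map (fun U => U * O) = ν

/-- invariance under left multiplication by the stabiliser of `ω` -/
def LInv (ν : ProbabilityMeasure (OG ι)) (ω : ι → ℝ) : Prop :=
  ∀ O : OG ι, O.1 *ᵥ ω = ω → (ν : Measure (OG ι)).map (fun U => O * U) = ν

noncomputable def gam (ι : Type) [Fintype ι] : Measure (ι → ℝ) := Measure.pi fun _ => gaussianReal 0 1

instance : IsProbabilityMeasure (gam ι) := by unfold gam; infer_instance

def sp (b : ι → Bool) (i : ι) : ℝ := if b i then 1 else -1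

/-- log-partition function -/
noncomputable def fN (lam : ι → ℝ) (pot : (ι → Bool) → ℝ) (U : OG ι) : ℝ :=
  Real.log ((1 / 2) ^ Fintype.card ι * ∑ σ : ι → Bool,
    Real.exp ((1 / 2) * ∑ i, lam i * (U.1 *ᵥ sp σ) i ^ 2 + pot σ))

theorem measurable_entry (i j : ι) : Measurable fun U : OG ι => U.1 i j := by
  have h : Measurable fun M : ι → ι → ℝ => M i j := (measurable_pi_apply j).comp (measurable_pi_apply i)
  exact h.comp measurable_subtype_coe

theorem Haar.measurable_to {α : Type*} [MeasurableSpace α] {f : α → OG ι}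
    (h : ∀ i j, Measurable fun a => (f a).1 i j) : Measurable f := by
  have h1 : Measurable fun a => ((f a).1 : ι → ι → ℝ) :=
    measurable_pi_lambda _ fun i => measurable_pi_lambda _ fun j => h i j
  exact Measurable.subtype_mk (p := fun M => M ∈ Matrix.orthogonalGroup ι ℝ) h1

theorem measurable_mul_OG : Measurable fun p : OG ι × OG ι => p.1 * p.2 := by
  refine Haar.measurable_to fun i j => ?_
  simp only [Submonoid.coe_mul, Matrix.mul_apply]
  exact Finset.measurable_sum _ fun k _ =>
    ((measurable_entry i k).comp measurable_fst).mul ((measurable_entry k j).comp measurable_snd)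

theorem Haar.measurable_mulVec (v : ι → ℝ) (i : ι) : Measurable fun U : OG ι => (U.1 *ᵥ v) i := by
  simp only [Matrix.mulVec, dotProduct]
  exact Finset.measurable_sum _ fun k _ => (measurable_entry i k).mul_const _

theorem Haar.measurable_left (O : OG ι) : Measurable fun U : OG ι => O * U :=
  measurable_mul_OG.comp (measurable_const.prodMk measurable_id)

theorem Haar.measurable_right (O : OG ι) : Measurable fun U : OG ι => U * O :=
  measurable_mul_OG.comp (measurable_id.prodMk measurable_const)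

theorem Haar.measurable_inv : Measurable fun U : OG ι => U⁻¹ := by
  refine Haar.measurable_to fun i j => ?_
  have : (fun U : OG ι => (U⁻¹).1 i j) = fun U => U.1 j i := by
    funext U
    simp [Matrix.star_apply]
  rw [this]
  exact measurable_entry j i

theorem Haar.tmul (U : OG ι) : U.1ᵀ * U.1 = 1 := (Matrix.mem_orthogonalGroup_iff' ι ℝ).1 U.2

theorem Haar.mult (U : OG ι) : U.1 * U.1ᵀ = 1 := (Matrix.mem_orthogonalGroup_iff ι ℝ).1 U.2

theorem measurable_fN (lam : ι → ℝ) (pot : (ι → Bool) → ℝ) : Measurable (fN lam pot) := by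
  unfold fN
  refine Measurable.log (Measurable.const_mul (Finset.measurable_sum _ fun σ _ => Measurable.exp
    (Measurable.add_const (Measurable.const_mul (Finset.measurable_sum _ fun i _ =>
      Measurable.const_mul ((Haar.measurable_mulVec _ i).pow_const 2) _) _) _)) _)
theorem sp_sq (b : ι → Bool) (i : ι) : sp b i ^ 2 = 1 := by
  unfold sp; split_ifs <;> norm_num
theorem abs_sp (b : ι → Bool) (i : ι) : |sp b i| = 1 := by
  unfold sp; split_ifs <;> norm_num
theorem OG.dot_mulVec (U : OG ι) (v v' : ι → ℝ) : (U.1 *ᵥ v) ⬝ᵥ (U.1 *ᵥ v') = v ⬝ᵥ v' := by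
  rw [Matrix.dotProduct_mulVec, Matrix.vecMul_mulVec, Haar.tmul, Matrix.vecMul_one]
theorem OG.sum_sq_mulVec (U : OG ι) (v : ι → ℝ) : ∑ i, (U.1 *ᵥ v) i ^ 2 = ∑ i, v i ^ 2 := by
  have := OG.dot_mulVec U v v
  simpa only [dotProduct, sq] using this
theorem OG.sum_sq_sp (U : OG ι) (b : ι → Bool) : ∑ i, (U.1 *ᵥ sp b) i ^ 2 = Fintype.card ι := by
  rw [OG.sum_sq_mulVec]
  simp [sp_sq]
theorem OG.abs_entry_le (U : OG ι) (i j : ι) : |U.1 i j| ≤ 1 := by
  have h : ∑ k, U.1 k j ^ 2 = 1 := by
    have := congrFun (congrFun (Haar.tmul U) j) j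
    simpa [Matrix.mul_apply, sq] using this
  have h2 : U.1 i j ^ 2 ≤ 1 :=
    h ▸ Finset.single_le_sum (f := fun k => U.1 k j ^ 2) (fun k _ => sq_nonneg _) (mem_univ i)
  exact (sq_le_one_iff_abs_le_one _).1 h2
theorem OG.sum_sq_col (U : OG ι) (j : ι) : ∑ i, U.1 i j ^ 2 = 1 := by
  have := congrFun (congrFun (Haar.tmul U) j) j
  simpa [Matrix.mul_apply, sq] using this
theorem OG.sum_sq_row (U : OG ι) (i : ι) : ∑ j, U.1 i j ^ 2 = 1 := by
  have := congrFun (congrFun (Haar.mult U) i) i
  simpa [Matrix.mul_apply, sq] using this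

theorem Haar.fN_le {lam lam' : ι → ℝ} {pot pot' : (ι → Bool) → ℝ} {A B : ℝ}
    (h1 : ∀ i, lam i ≤ lam' i + A) (h2 : ∀ σ, pot σ ≤ pot' σ + B) (U : OG ι) :
    fN lam pot U ≤ fN lam' pot' U + (A / 2 * Fintype.card ι + B) := by
  unfold fN
  have hpos : ∀ (lam : ι → ℝ) (pot : (ι → Bool) → ℝ), 0 < (1 / 2 : ℝ) ^ Fintype.card ι *
      ∑ σ : ι → Bool, Real.exp ((1 / 2) * ∑ i, lam i * (U.1 *ᵥ sp σ) i ^ 2 + pot σ) :=
    fun lam pot => mul_pos (by positivity) (Finset.sum_pos (fun _ _ => Real.exp_pos _) univ_nonempty)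
  rw [← Real.log_exp (A / 2 * Fintype.card ι + B), ← Real.log_mul (hpos _ _).ne' (Real.exp_pos _).ne']
  refine Real.log_le_log (hpos _ _) ?_
  rw [mul_assoc, Finset.sum_mul]
  refine mul_le_mul_of_nonneg_left (Finset.sum_le_sum fun σ _ => ?_) (by positivity)
  rw [← Real.exp_add]
  refine Real.exp_le_exp.2 ?_
  have h3 : ∑ i, lam i * (U.1 *ᵥ sp σ) i ^ 2 ≤
      ∑ i, lam' i * (U.1 *ᵥ sp σ) i ^ 2 + A * Fintype.card ι := by
    rw [← OG.sum_sq_sp U σ, Finset.mul_sum, ← Finset.sum_add_distrib]
    refine Finset.sum_le_sum fun i _ => ?_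
    rw [← add_mul]
    exact mul_le_mul_of_nonneg_right (h1 i) (sq_nonneg _)
  linarith [h2 σ]

theorem Haar.fN_zero (U : OG ι) : fN (fun _ => 0) (fun _ => 0) U = 0 := by
  simp [fN]

/-- crude bounds for the log-partition function -/
theorem abs_fN_le {lam : ι → ℝ} {pot : (ι → Bool) → ℝ} {A B : ℝ} (h1 : ∀ i, |lam i| ≤ A)
    (h2 : ∀ σ, |pot σ| ≤ B) (U : OG ι) : |fN lam pot U| ≤ A / 2 * Fintype.card ι + B := by
  have h3 := Haar.fN_le (lam := lam) (lam' := fun _ => 0) (pot := pot) (pot' := fun _ => 0)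
    (A := A) (B := B) (fun i => by linarith [le_abs_self (lam i), h1 i])
    (fun σ => by linarith [le_abs_self (pot σ), h2 σ]) U
  have h4 := Haar.fN_le (lam' := lam) (lam := fun _ => 0) (pot' := pot) (pot := fun _ => 0)
    (A := A) (B := B) (fun i => by linarith [neg_abs_le (lam i), h1 i])
    (fun σ => by linarith [neg_abs_le (pot σ), h2 σ]) U
  rw [Haar.fN_zero] at h3 h4
  rw [abs_le]; constructor <;> linarith
theorem fN_le {lam lam' : ι → ℝ} {pot pot' : (ι → Bool) → ℝ} {A B : ℝ} (h1 : ∀ i, lam i ≤ lam' i + A)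
    (h2 : ∀ σ, pot σ ≤ pot' σ + B) (U : OG ι) :
    fN lam pot U ≤ fN lam' pot' U + (A / 2 * Fintype.card ι + B) := by
  exact Haar.fN_le h1 h2 U
theorem fN_shift (lam : ι → ℝ) (pot : (ι → Bool) → ℝ) (A : ℝ) (U : OG ι) :
    fN (fun i => lam i + A) pot U = fN lam pot U + A / 2 * Fintype.card ι := by
  have h3 := Haar.fN_le (lam := fun i => lam i + A) (lam' := lam) (pot := pot) (pot' := pot)
    (A := A) (B := 0) (fun i => le_rfl) (fun σ => by simp) U
  have h4 := Haar.fN_le (lam' := fun i => lam i + A) (lam := lam) (pot := pot) (pot' := pot)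
    (A := -A) (B := 0) (fun i => by simp) (fun σ => by simp) U
  linarith

theorem Haar.eq_map_inv {ν ν' : ProbabilityMeasure (OG ι)} (h : IsHaar ν) (h' : IsHaar ν') :
    (ν : Measure (OG ι)) = (ν' : Measure (OG ι)).map (fun U => U⁻¹) := by
  ext A hA
  have hm : Measurable fun p : OG ι × OG ι => p.1⁻¹ * p.2 :=
    measurable_mul_OG.comp ((Haar.measurable_inv.comp measurable_fst).prodMk measurable_snd)
  have hm' : Measurable fun p : OG ι × OG ι => p.2 * p.1⁻¹ :=
    measurable_mul_OG.comp (measurable_snd.prodMk (Haar.measurable_inv.comp measurable_fst))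
  have hS : MeasurableSet ((fun p : OG ι × OG ι => p.2 * p.1⁻¹) ⁻¹' A) := hm' hA
  have e1 := Measure.prod_apply (μ := (ν' : Measure (OG ι))) (ν := (ν : Measure (OG ι))) hS
  have e2 := Measure.prod_apply_symm (μ := (ν' : Measure (OG ι))) (ν := (ν : Measure (OG ι))) hS
  have f1 : ∀ V : OG ι, (ν : Measure (OG ι))
      (Prod.mk V ⁻¹' ((fun p : OG ι × OG ι => p.2 * p.1⁻¹) ⁻¹' A)) = (ν : Measure (OG ι)) A := by
    intro V
    conv_rhs => rw [← h V⁻¹, Measure.map_apply (Haar.measurable_right _) hA]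
    rfl
  have f2 : ∀ U : OG ι, (ν' : Measure (OG ι))
      ((fun V => (V, U)) ⁻¹' ((fun p : OG ι × OG ι => p.2 * p.1⁻¹) ⁻¹' A)) =
        (ν' : Measure (OG ι)) ((fun V => V⁻¹) ⁻¹' A) := by
    intro U
    conv_rhs => rw [← h' U⁻¹, Measure.map_apply (Haar.measurable_right _) (Haar.measurable_inv hA)]
    congr 1
    ext V
    simp
  rw [Measure.map_apply Haar.measurable_inv hA]
  simp only [f1, lintegral_const, measure_univ, mul_one] at e1
  simp only [f2, lintegral_const, measure_univ, mul_one] at e2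
  rw [← e1, e2]

theorem Haar.left {ν : ProbabilityMeasure (OG ι)} (h : IsHaar ν) (O : OG ι) :
    (ν : Measure (OG ι)).map (fun U => O * U) = ν := by
  have e := Haar.eq_map_inv h h
  conv_lhs => rw [e, Measure.map_map (Haar.measurable_left O) Haar.measurable_inv]
  conv_rhs => rw [e, ← h O⁻¹, Measure.map_map Haar.measurable_inv (Haar.measurable_right _)]
  congr 1
  funext U
  simp

theorem IsHaar.unique {ν ν' : ProbabilityMeasure (OG ι)} (h : IsHaar ν) (h' : IsHaar ν') : ν = ν' := by
  apply Subtype.ext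
  exact (Haar.eq_map_inv h h').trans (Haar.eq_map_inv h' h').symm
theorem IsHaar.linv {ν : ProbabilityMeasure (OG ι)} (h : IsHaar ν) (ω : ι → ℝ) : LInv ν ω := by
  exact fun O _ => Haar.left h O

/-- independent relabelling of rows and columns -/
def reOG (e₁ e₂ : ι ≃ ι') (U : OG ι) : OG ι' :=
  ⟨U.1.submatrix e₁.symm e₂.symm, by
    rw [Matrix.mem_orthogonalGroup_iff, Matrix.transpose_submatrix,
      Matrix.submatrix_mul_equiv, Haar.mult, Matrix.submatrix_one_equiv]⟩

theorem reOG_mulVec (e₁ e₂ : ι ≃ ι') (U : OG ι) (v : ι' → ℝ) (i : ι') :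
    ((reOG e₁ e₂ U).1 *ᵥ v) i = (U.1 *ᵥ fun j => v (e₂ j)) (e₁.symm i) := by
  simp only [reOG, Matrix.mulVec, dotProduct, Matrix.submatrix_apply]
  exact Fintype.sum_equiv e₂.symm _ _ fun j => by simp

theorem Haar.measurable_re (e₁ e₂ : ι ≃ ι') : Measurable (reOG e₁ e₂) :=
  Haar.measurable_to fun i j => measurable_entry (e₁.symm i) (e₂.symm j)

theorem Haar.isHaar_re {ν : ProbabilityMeasure (OG ι)} (h : IsHaar ν) (e₁ e₂ : ι ≃ ι') :
    IsHaar (ν.map (Haar.measurable_re e₁ e₂).aemeasurable) := by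
  intro O
  rw [ProbabilityMeasure.toMeasure_map, Measure.map_map (Haar.measurable_right O)
    (Haar.measurable_re e₁ e₂)]
  conv_rhs => rw [← h (reOG e₂.symm e₂.symm O), Measure.map_map (Haar.measurable_re e₁ e₂)
    (Haar.measurable_right _)]
  congr 1
  funext U
  apply Subtype.ext
  ext i j
  simp only [Function.comp, reOG, Submonoid.coe_mul, Matrix.mul_apply, Matrix.submatrix_apply,
    Equiv.symm_symm, Equiv.apply_symm_apply]
  exact Fintype.sum_equiv e₂.symm _ _ fun k => by simp

theorem IsHaar.re {ν : ProbabilityMeasure (OG ι)} {ν' : ProbabilityMeasure (OG ι')} (h : IsHaar ν)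
    (h' : IsHaar ν') (e₁ e₂ : ι ≃ ι') : MeasurePreserving (reOG e₁ e₂) ν ν' := by
  refine ⟨Haar.measurable_re e₁ e₂, ?_⟩
  rw [← (Haar.isHaar_re h e₁ e₂).unique h', ProbabilityMeasure.toMeasure_map]

theorem IsHaar.exists_of_equiv {ν : ProbabilityMeasure (OG ι)} (h : IsHaar ν) (e : ι ≃ ι') :
    ∃ ν' : ProbabilityMeasure (OG ι'), IsHaar ν' := by
  exact ⟨_, Haar.isHaar_re h e e⟩

theorem fN_reOG (e₁ e₂ : ι ≃ ι') (lam : ι' → ℝ) (pot : (ι' → Bool) → ℝ) (U : OG ι) :
    fN lam pot (reOG e₁ e₂ U) = fN (fun i => lam (e₁ i)) (fun σ => pot fun j => σ (e₂.symm j)) U := by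
  unfold fN
  rw [Fintype.card_congr e₁]
  congr 2
  refine Fintype.sum_equiv (Equiv.arrowCongr e₂.symm (Equiv.refl Bool)) _ _ fun σ => ?_
  congr 2
  · congr 1
    refine Fintype.sum_equiv e₁.symm _ _ fun i => ?_
    rw [reOG_mulVec]
    simp only [Equiv.apply_symm_apply]
    rfl
  · beta_reduce
    congr 1
    funext j
    simp

/-- `1 ⊕ U` -/
def ext1 (U : OG ι) : OG (Option ι) :=
  ⟨Matrix.of fun o o' => match o, o' with
    | none, none => 1
    | some i, some j => U.1 i j
    | _, _ => 0, by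
    rw [Matrix.mem_orthogonalGroup_iff]
    have h := Haar.mult U
    ext o o'
    rcases o with _ | i <;> rcases o' with _ | j
    · simp [Matrix.mul_apply, Fintype.sum_option]
    · simp [Matrix.mul_apply, Fintype.sum_option]
    · simp [Matrix.mul_apply, Fintype.sum_option]
    · have := congrFun (congrFun h i) j
      simpa [Matrix.mul_apply, Fintype.sum_option, Matrix.one_apply] using this⟩

theorem ext1_mulVec_none (U : OG ι) (v : Option ι → ℝ) : ((ext1 U).1 *ᵥ v) none = v none := by
  simp [ext1, Matrix.mulVec, dotProduct, Fintype.sum_option]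
theorem ext1_mulVec_some (U : OG ι) (v : Option ι → ℝ) (i : ι) :
    ((ext1 U).1 *ᵥ v) (some i) = (U.1 *ᵥ fun j => v (some j)) i := by
  simp [ext1, Matrix.mulVec, dotProduct, Fintype.sum_option]
theorem ext1_mul (U V : OG ι) : ext1 (U * V) = ext1 U * ext1 V := by
  apply Subtype.ext
  ext o o'
  rcases o with _ | i <;> rcases o' with _ | j <;>
    simp [ext1, Matrix.mul_apply, Fintype.sum_option]
theorem measurable_ext1 : Measurable (ext1 : OG ι → OG (Option ι)) := by
  refine Haar.measurable_to fun o o' => ?_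
  rcases o with _ | i <;> rcases o' with _ | j
  · exact measurable_const
  · exact measurable_const
  · exact measurable_const
  · exact measurable_entry i j
theorem exists_ext1 (V : OG (Option ι)) (h : V.1 none none = 1) : ∃ U : OG ι, V = ext1 U := by
  have h1 : ∀ i, V.1 (some i) none = 0 := by
    have h2 := OG.sum_sq_col V none
    rw [Fintype.sum_option, h, one_pow, add_eq_left,
      Finset.sum_eq_zero_iff_of_nonneg fun _ _ => sq_nonneg _] at h2
    exact fun i => pow_eq_zero_iff two_ne_zero |>.1 (h2 i (mem_univ i))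
  have h3 : ∀ j, V.1 none (some j) = 0 := by
    have h2 := OG.sum_sq_row V none
    rw [Fintype.sum_option, h, one_pow, add_eq_left,
      Finset.sum_eq_zero_iff_of_nonneg fun _ _ => sq_nonneg _] at h2
    exact fun i => pow_eq_zero_iff two_ne_zero |>.1 (h2 i (mem_univ i))
  refine ⟨⟨Matrix.of fun i j => V.1 (some i) (some j), ?_⟩, ?_⟩
  · rw [Matrix.mem_orthogonalGroup_iff]
    ext i j
    have := congrFun (congrFun (Haar.mult V) (some i)) (some j)
    simpa [Matrix.mul_apply, Fintype.sum_option, Matrix.one_apply, h1] using this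
  · apply Subtype.ext
    ext o o'
    rcases o with _ | i <;> rcases o' with _ | j <;> simp [ext1, h, h1, h3]

/-- the law of `Õ (1 ⊕ U)` -/
noncomputable def famν (Õ : OG (Option ι)) (ν : ProbabilityMeasure (OG ι)) :
    ProbabilityMeasure (OG (Option ι)) :=
  ν.map (f := fun U => Õ * ext1 U) (by
    exact ((Haar.measurable_left Õ).comp measurable_ext1).aemeasurable)

theorem famν_mp (Õ : OG (Option ι)) (ν : ProbabilityMeasure (OG ι)) :
    MeasurePreserving (fun U => Õ * ext1 U) ν (famν Õ ν) := by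
  exact ⟨(Haar.measurable_left Õ).comp measurable_ext1, rfl⟩

theorem IsHaar.linv_fam {ν : ProbabilityMeasure (OG ι)} (h : IsHaar ν) (Õ : OG (Option ι)) :
    LInv (famν Õ ν) fun o => Õ.1 o none := by
  intro O hO
  obtain ⟨W, hW⟩ := exists_ext1 (Õ⁻¹ * O * Õ) (by
    have h1 : ∀ o, (O.1 * Õ.1) o none = Õ.1 o none := fun o => congrFun hO o
    have h2 := congrFun (congrFun (Haar.tmul Õ) none) none
    rw [mul_assoc, Submonoid.coe_mul, Submonoid.coe_mul, Matrix.mul_apply]
    simp only [h1]
    simpa [Matrix.mul_apply, Matrix.star_apply] using h2)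
  have hm : Measurable fun U => Õ * ext1 U := (Haar.measurable_left Õ).comp measurable_ext1
  rw [← (famν_mp Õ ν).map_eq, Measure.map_map (Haar.measurable_left O) hm]
  conv_rhs => rw [← Haar.left h W, Measure.map_map hm (Haar.measurable_left W)]
  congr 1
  funext U
  simp only [Function.comp, ext1_mul, ← hW]
  group

/-- the law of the random matrices of the statements -/
theorem exists_haar {Ω : Type} [MeasurableSpace Ω] (P : Measure Ω) [IsProbabilityMeasure P] {N : ℕ}
    (Us : Ω → Fin N → Fin N → ℝ) (hmeas : Measurable Us)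
    (horth : ∀ᵐ ω ∂P, Matrix.of (Us ω) ∈ Matrix.orthogonalGroup (Fin N) ℝ)
    (hHaar : ∀ O : Matrix (Fin N) (Fin N) ℝ, O ∈ Matrix.orthogonalGroup (Fin N) ℝ →
      P.map (fun ω => fun i j => (Matrix.of (Us ω) * O) i j) = P.map Us) :
    ∃ (ν : ProbabilityMeasure (OG (Fin N))) (V : Ω → OG (Fin N)), IsHaar ν ∧ MeasurePreserving V P ν ∧
      ∀ᵐ ω ∂P, (V ω).1 = Matrix.of (Us ω) := by
  classical
  have hS : MeasurableSet {M : Fin N → Fin N → ℝ | Matrix.of M ∈ Matrix.orthogonalGroup (Fin N) ℝ} := by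
    have : {M : Fin N → Fin N → ℝ | Matrix.of M ∈ Matrix.orthogonalGroup (Fin N) ℝ} =
        ⋂ i, ⋂ j, {M | ∑ k, M i k * M j k = if i = j then 1 else 0} := by
      ext M
      simp only [Set.mem_ofPred_eq, Matrix.mem_orthogonalGroup_iff, Set.mem_iInter]
      constructor
      · intro h i j
        simpa [Matrix.mul_apply, Matrix.one_apply] using congrFun (congrFun h i) j
      · intro h
        ext i j
        simpa [Matrix.mul_apply, Matrix.one_apply] using h i j
    rw [this]
    refine MeasurableSet.iInter fun i => MeasurableSet.iInter fun j => ?_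
    exact measurableSet_eq_fun (by fun_prop) measurable_const
  set V : Ω → OG (Fin N) := fun ω =>
    if h : Matrix.of (Us ω) ∈ Matrix.orthogonalGroup (Fin N) ℝ then ⟨_, h⟩ else 1 with hV
  have hVm : Measurable V := by
    refine Haar.measurable_to fun i j => ?_
    have : (fun ω => (V ω).1 i j) = fun ω =>
        if Matrix.of (Us ω) ∈ Matrix.orthogonalGroup (Fin N) ℝ then Us ω i j
        else (1 : Matrix (Fin N) (Fin N) ℝ) i j := by
      funext ω
      simp only [hV]
      split_ifs <;> rfl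
    rw [this]
    exact Measurable.ite (hmeas hS) (by fun_prop) measurable_const
  have hae : ∀ᵐ ω ∂P, (V ω).1 = Matrix.of (Us ω) := by
    filter_upwards [horth] with ω hω
    simp only [hV, dif_pos hω]
  have hemb : MeasurableEmbedding (Subtype.val : OG (Fin N) → Matrix (Fin N) (Fin N) ℝ) :=
    MeasurableEmbedding.subtype_coe hS
  refine ⟨⟨P.map V, Measure.isProbabilityMeasure_map hVm.aemeasurable⟩, V, fun O => ?_,
    ⟨hVm, rfl⟩, hae⟩
  apply hemb.map_injective
  show ((P.map V).map (fun U => U * O)).map Subtype.val = (P.map V).map Subtype.val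
  rw [Measure.map_map (Haar.measurable_right O) hVm,
    Measure.map_map hemb.measurable ((Haar.measurable_right O).comp hVm),
    Measure.map_map hemb.measurable hVm]
  have e1 : P.map (Subtype.val ∘ (fun U => U * O) ∘ V) =
      P.map (fun ω => fun i j => (Matrix.of (Us ω) * O.1) i j) := by
    refine Measure.map_congr ?_
    filter_upwards [hae] with ω hω
    simp only [Function.comp, Submonoid.coe_mul, hω]
  have e2 : P.map (Subtype.val ∘ V) = P.map Us := by
    refine Measure.map_congr ?_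
    filter_upwards [hae] with ω hω
    exact hω
  exact e1.trans ((hHaar O.1 O.2).trans e2.symm)

end Crest.Agent.R164
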