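import Crest.Agent.R164.Haar

/-!
Row 164, task R164-Haar2: Householder reflections, moments of a column of a Haar matrix.

PLAN.  Householder: `1 - 2 u uᵀ / |u|²` with `u = v - v'` (`1` if `u = 0`).  `exists_blockrot`: product over `k` of the
block Householders (induction on a finset of blocks), or the single matrix `1 - Σ_k 2 u_k u_kᵀ/|u_k|²` (disjoint supports).
`col_tail`: Chebyshev; with `a_i = U i j`: left invariance under permutation matrices and under the rotation by 45 degrees in the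
plane `(i,i')` give `E a_i² = 1/N`, `E a_i⁴ = 3 E a_i² a_i'²` (also use the sign flip `a_i' ↦ -a_i'`), and `Σ a_i² = 1`.
-/

set_option autoImplicit false
set_option linter.unusedSectionVars false

namespace Crest.Agent.R164

open MeasureTheory Finset Matrix ProbabilityTheory

variable {ι : Type} [Fintype ι] [DecidableEq ι]

theorem exists_house (B : Finset ι) {v v' : ι → ℝ} (hv : ∀ i, i ∉ B → v i = v' i)
    (h : ∑ i, v i ^ 2 = ∑ i, v' i ^ 2) :
    ∃ O : OG ι, O.1 *ᵥ v = v' ∧ ∀ i j, i ∉ B ∨ j ∉ B → O.1 i j = if i = j then 1 else 0 := by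
  set u : ι → ℝ := v - v' with hu
  have huv : u ⬝ᵥ u = 2 * (u ⬝ᵥ v) := by
    have h' : v ⬝ᵥ v = v' ⬝ᵥ v' := by simpa only [dotProduct, sq] using h
    simp only [hu, sub_dotProduct, dotProduct_sub, dotProduct_comm v' v]
    linarith
  refine ⟨⟨1 - (2 / (u ⬝ᵥ u)) • Matrix.vecMulVec u u, ?_⟩, ?_, ?_⟩
  · rw [Matrix.mem_orthogonalGroup_iff]
    have ht : (1 - (2 / (u ⬝ᵥ u)) • Matrix.vecMulVec u u)ᵀ =
        1 - (2 / (u ⬝ᵥ u)) • Matrix.vecMulVec u u := by
      simp [Matrix.transpose_sub, Matrix.transpose_vecMulVec]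
    rw [ht, sub_mul, mul_sub, mul_sub, one_mul, one_mul, mul_one, Matrix.smul_mul, Matrix.mul_smul,
      Matrix.vecMulVec_mul_vecMulVec, Matrix.vecMulVec_smul, smul_smul, smul_smul]
    have : 2 / (u ⬝ᵥ u) * (2 / (u ⬝ᵥ u)) * (u ⬝ᵥ u) = 2 / (u ⬝ᵥ u) + 2 / (u ⬝ᵥ u) := by
      by_cases h0 : u ⬝ᵥ u = 0
      · simp [h0]
      · field_simp; ring
    rw [this, add_smul]
    abel
  · show (1 - (2 / (u ⬝ᵥ u)) • Matrix.vecMulVec u u) *ᵥ v = v'
    rw [Matrix.sub_mulVec, Matrix.one_mulVec, Matrix.smul_mulVec, Matrix.vecMulVec_mulVec]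
    by_cases h0 : u ⬝ᵥ u = 0
    · have : u = 0 := dotProduct_self_eq_zero.1 h0
      rw [h0, div_zero, zero_smul, sub_zero]
      exact sub_eq_zero.1 this
    · have h1 : u ⬝ᵥ v ≠ 0 := fun h1 => h0 (by rw [huv, h1, mul_zero])
      ext i
      simp only [Pi.sub_apply, Pi.smul_apply, smul_eq_mul, MulOpposite.smul_eq_mul_unop,
        MulOpposite.unop_op]
      rw [huv]
      have : u i = v i - v' i := rfl
      field_simp
      linarith
  · intro i j hij
    show (1 - (2 / (u ⬝ᵥ u)) • Matrix.vecMulVec u u) i j = _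
    have : u i * u j = 0 := by
      rcases hij with hi | hj
      · simp [hu, hv i hi]
      · simp [hu, hv j hj]
    simp [Matrix.vecMulVec_apply, this, Matrix.one_apply]

theorem exists_blockrot {𝒦 : Type} [Fintype 𝒦] [DecidableEq 𝒦] (blk : ι → 𝒦) (R : 𝒦 → ι)
    (hR : ∀ k, blk (R k) = k) (z : ι → ℝ) :
    ∃ W : OG ι, (∀ i j, blk i ≠ blk j → W.1 i j = 0) ∧
      ∀ i, (W.1 *ᵥ z) i =
        if i = R (blk i) then Real.sqrt (∑ j ∈ univ.filter (fun j => blk j = blk i), z j ^ 2) else 0 := by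
  have key : ∀ k : 𝒦, ∃ O : OG ι,
      (O.1 *ᵥ fun j => if blk j = k then z j else 0) =
        (fun i => if i = R k then Real.sqrt (∑ j ∈ univ.filter (fun j => blk j = k), z j ^ 2) else 0) ∧
      ∀ i j, i ∉ univ.filter (fun j => blk j = k) ∨ j ∉ univ.filter (fun j => blk j = k) →
        O.1 i j = if i = j then 1 else 0 := by
    intro k
    refine exists_house _ (fun i hi => ?_) ?_
    · have hi' : blk i ≠ k := by simpa using hi
      have : i ≠ R k := fun h => hi' (h ▸ hR k)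
      simp [hi', this]
    · have h0 : 0 ≤ ∑ j ∈ univ.filter (fun j => blk j = k), z j ^ 2 :=
        Finset.sum_nonneg fun _ _ => sq_nonneg _
      simp only [ite_pow, Finset.sum_ite_eq', mem_univ, if_true, Real.sq_sqrt h0, ne_eq,
        OfNat.ofNat_ne_zero, not_false_eq_true, zero_pow]
      rw [Finset.sum_filter]
  choose O hO1 hO2 using key
  have hz : ∀ i j, blk i ≠ blk j → (O (blk i)).1 i j = 0 := by
    intro i j hij
    rw [hO2 (blk i) i j (Or.inr (by simpa using hij.symm)), if_neg]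
    rintro rfl
    exact hij rfl
  refine ⟨⟨Matrix.of fun i j => (O (blk i)).1 i j, ?_⟩, hz, fun i => ?_⟩
  · rw [Matrix.mem_orthogonalGroup_iff]
    ext i i'
    simp only [Matrix.mul_apply, Matrix.transpose_apply, Matrix.of_apply]
    by_cases hb : blk i = blk i'
    · have := congrFun (congrFun (Haar.mult (O (blk i))) i) i'
      rw [← hb]
      simpa only [Matrix.mul_apply, Matrix.transpose_apply] using this
    · rw [Matrix.one_apply_ne (fun h => hb (by rw [h]))]
      refine Finset.sum_eq_zero fun j _ => ?_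
      by_cases hj : blk i = blk j
      · rw [hz i' j (fun h => hb (hj.trans h.symm)), mul_zero]
      · rw [hz i j hj, zero_mul]
  · have := congrFun (hO1 (blk i)) i
    beta_reduce at this
    rw [← this]
    simp only [Matrix.mulVec, dotProduct, Matrix.of_apply]
    refine Finset.sum_congr rfl fun j _ => ?_
    by_cases hj : blk j = blk i
    · rw [if_pos hj]
    · rw [if_neg hj, hz i j (Ne.symm hj), zero_mul, zero_mul]

theorem Haar2.unit_law {ν : ProbabilityMeasure (OG ι)} (h : IsHaar ν) (j : ι) {w : ι → ℝ}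
    (hw : ∑ k, w k ^ 2 = 1) (n : ℕ) :
    ∫ U, (∑ k, w k * U.1 k j) ^ n ∂(ν : Measure (OG ι)) =
      ∫ U, U.1 j j ^ n ∂(ν : Measure (OG ι)) := by
  obtain ⟨O, hO, -⟩ := exists_house (univ : Finset ι) (v := Pi.single j 1) (v' := w)
    (fun i hi => absurd (mem_univ i) hi) (by
      rw [hw]; simp [Pi.single_apply])
  have hO' : ∀ k, O.1 k j = w k := fun k => by
    have := congrFun hO k
    simpa using this
  conv_rhs => rw [← Haar.left h O⁻¹, integral_map (Haar.measurable_left _).aemeasurable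
    ((measurable_entry j j).pow_const n).aestronglyMeasurable]
  congr 1
  funext U
  congr 1
  simp [Matrix.mul_apply, Matrix.star_apply, hO']

theorem Haar2.integrable {ν : ProbabilityMeasure (OG ι)} {f : OG ι → ℝ} (hf : Measurable f) (C : ℝ)
    (hC : ∀ U, |f U| ≤ C) : Integrable f (ν : Measure (OG ι)) :=
  Integrable.of_bound hf.aestronglyMeasurable C (Filter.Eventually.of_forall hC)

theorem Haar2.integrable_mon {ν : ProbabilityMeasure (OG ι)} (i i' j : ι) (a b : ℕ) :
    Integrable (fun U : OG ι => U.1 i j ^ a * U.1 i' j ^ b) (ν : Measure (OG ι)) := by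
  refine Haar2.integrable (((measurable_entry i j).pow_const a).mul
    ((measurable_entry i' j).pow_const b)) 1 fun U => ?_
  rw [abs_mul, abs_pow, abs_pow]
  exact mul_le_one₀ (pow_le_one₀ (abs_nonneg _) (OG.abs_entry_le U i j)) (by positivity)
    (pow_le_one₀ (abs_nonneg _) (OG.abs_entry_le U i' j))

theorem Haar2.entry_law {ν : ProbabilityMeasure (OG ι)} (h : IsHaar ν) (i j : ι) (n : ℕ) :
    ∫ U, U.1 i j ^ n ∂(ν : Measure (OG ι)) = ∫ U, U.1 j j ^ n ∂(ν : Measure (OG ι)) := by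
  have := Haar2.unit_law h j (w := Pi.single i 1) (by simp [Pi.single_apply]) n
  simpa [Pi.single_apply] using this

theorem Haar2.sq_sq {ν : ProbabilityMeasure (OG ι)} (h : IsHaar ν) (i i' j : ι) :
    ∫ U, U.1 i j ^ 2 * U.1 i' j ^ 2 ∂(ν : Measure (OG ι)) =
      (∫ U, U.1 j j ^ 4 ∂(ν : Measure (OG ι))) / 3 * (1 + if i = i' then 2 else 0) := by
  by_cases hii : i = i'
  · subst hii
    rw [← Haar2.entry_law h i j 4, if_pos rfl]
    have : (fun U : OG ι => U.1 i j ^ 2 * U.1 i j ^ 2) = fun U => U.1 i j ^ 4 := by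
      funext U; ring
    rw [this]; ring
  · have hs : (Real.sqrt 2)⁻¹ ^ 2 = 1 / 2 := by
      rw [inv_pow, Real.sq_sqrt (by norm_num)]; norm_num
    have key : ∀ s : ℝ, s ^ 2 = 1 → ∫ U, ((Real.sqrt 2)⁻¹ * U.1 i j +
        s * (Real.sqrt 2)⁻¹ * U.1 i' j) ^ 4 ∂(ν : Measure (OG ι)) =
          ∫ U, U.1 j j ^ 4 ∂(ν : Measure (OG ι)) := by
      intro s hs1
      have := Haar2.unit_law h j
        (w := fun k => (if k = i then (Real.sqrt 2)⁻¹ else 0) +
          (if k = i' then s * (Real.sqrt 2)⁻¹ else 0)) (by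
          have e : ∀ k, ((if k = i then (Real.sqrt 2)⁻¹ else 0) +
              (if k = i' then s * (Real.sqrt 2)⁻¹ else 0)) ^ 2 =
              (if k = i then (1 / 2 : ℝ) else 0) + (if k = i' then (1 / 2 : ℝ) else 0) := by
            intro k
            by_cases h1 : k = i
            · have h2 : k ≠ i' := fun h2 => hii (h1.symm.trans h2)
              simp only [if_pos h1, if_neg h2, add_zero, hs]
            · by_cases h2 : k = i'
              · simp only [if_pos h2, if_neg h1, zero_add, mul_pow, hs, hs1, one_mul]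
              · simp [h1, h2]
          simp only [e, Finset.sum_add_distrib, Finset.sum_ite_eq', mem_univ, if_true]
          norm_num) 4
      simpa only [add_mul, ite_mul, zero_mul, Finset.sum_add_distrib, Finset.sum_ite_eq', mem_univ,
        if_true] using this
    have k1 := key 1 (by norm_num)
    have k2 := key (-1) (by norm_num)
    have hI : ∀ s : ℝ, Integrable (fun U : OG ι => ((Real.sqrt 2)⁻¹ * U.1 i j +
        s * (Real.sqrt 2)⁻¹ * U.1 i' j) ^ 4) (ν : Measure (OG ι)) := by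
      intro s
      refine Haar2.integrable ((((measurable_entry i j).const_mul _).add
        ((measurable_entry i' j).const_mul _)).pow_const 4)
        ((|(Real.sqrt 2)⁻¹| + |s * (Real.sqrt 2)⁻¹|) ^ 4) fun U => ?_
      rw [abs_pow]
      refine pow_le_pow_left₀ (abs_nonneg _) ((abs_add_le _ _).trans ?_) 4
      rw [abs_mul _ (U.1 i j), abs_mul _ (U.1 i' j)]
      exact add_le_add (mul_le_of_le_one_right (abs_nonneg _) (OG.abs_entry_le U i j))
        (mul_le_of_le_one_right (abs_nonneg _) (OG.abs_entry_le U i' j))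
    have hsum := integral_add (hI 1) (hI (-1))
    rw [k1, k2] at hsum
    have e : (fun U : OG ι => ((Real.sqrt 2)⁻¹ * U.1 i j + 1 * (Real.sqrt 2)⁻¹ * U.1 i' j) ^ 4 +
        ((Real.sqrt 2)⁻¹ * U.1 i j + -1 * (Real.sqrt 2)⁻¹ * U.1 i' j) ^ 4) =
        fun U => (1 / 2 * (U.1 i j ^ 4 * U.1 i j ^ 0) + 1 / 2 * (U.1 i' j ^ 4 * U.1 i' j ^ 0)) +
          3 * (U.1 i j ^ 2 * U.1 i' j ^ 2) := by
      funext U
      have h4 : (Real.sqrt 2)⁻¹ ^ 4 = 1 / 4 := by
        rw [show (4 : ℕ) = 2 * 2 from rfl, pow_mul, hs]; norm_num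
      linear_combination (2 * U.1 i j ^ 4 + 12 * U.1 i j ^ 2 * U.1 i' j ^ 2 + 2 * U.1 i' j ^ 4) * h4
    have i12 : Integrable (fun U : OG ι => 1 / 2 * (U.1 i j ^ 4 * U.1 i j ^ 0) +
        1 / 2 * (U.1 i' j ^ 4 * U.1 i' j ^ 0)) (ν : Measure (OG ι)) :=
      ((Haar2.integrable_mon i i j 4 0).const_mul _).add ((Haar2.integrable_mon i' i' j 4 0).const_mul _)
    rw [e, integral_add i12 ((Haar2.integrable_mon i i' j 2 2).const_mul _),
      integral_add ((Haar2.integrable_mon i i j 4 0).const_mul _)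
        ((Haar2.integrable_mon i' i' j 4 0).const_mul _),
      integral_const_mul, integral_const_mul, integral_const_mul] at hsum
    simp only [pow_zero, mul_one] at hsum
    rw [Haar2.entry_law h i j 4, Haar2.entry_law h i' j 4] at hsum
    rw [if_neg hii]
    linarith

theorem Haar2.sum_sq_sq {ν : ProbabilityMeasure (OG ι)} (h : IsHaar ν) (B : Finset ι) (j : ι) :
    ∫ U, (∑ i ∈ B, U.1 i j ^ 2) ^ 2 ∂(ν : Measure (OG ι)) =
      (∫ U, U.1 j j ^ 4 ∂(ν : Measure (OG ι))) / 3 * ((B.card : ℝ) ^ 2 + 2 * B.card) := by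
  simp only [sq (∑ i ∈ B, _), Finset.sum_mul_sum]
  rw [integral_finsetSum _ fun i _ => integrable_finsetSum _ fun i' _ =>
    Haar2.integrable_mon i i' j 2 2]
  have : ∀ i ∈ B, ∫ U, ∑ i' ∈ B, U.1 i j ^ 2 * U.1 i' j ^ 2 ∂(ν : Measure (OG ι)) =
      (∫ U, U.1 j j ^ 4 ∂(ν : Measure (OG ι))) / 3 * (B.card + 2) := by
    intro i hi
    rw [integral_finsetSum _ fun i' _ => Haar2.integrable_mon i i' j 2 2]
    simp only [Haar2.sq_sq h]
    rw [← Finset.mul_sum, Finset.sum_add_distrib, Finset.sum_ite_eq, if_pos hi]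
    simp
  rw [Finset.sum_congr rfl this, Finset.sum_const, nsmul_eq_mul]
  ring

theorem Haar2.sum_sq {ν : ProbabilityMeasure (OG ι)} (h : IsHaar ν) (B : Finset ι) (j : ι) :
    ∫ U, ∑ i ∈ B, U.1 i j ^ 2 ∂(ν : Measure (OG ι)) =
      B.card * ∫ U, U.1 j j ^ 2 ∂(ν : Measure (OG ι)) := by
  rw [integral_finsetSum _ fun i _ => by simpa using Haar2.integrable_mon (ν := ν) i i j 2 0]
  simp only [Haar2.entry_law h _ j 2]
  rw [Finset.sum_const, nsmul_eq_mul]

theorem IsHaar.col_tail {ν : ProbabilityMeasure (OG ι)} (h : IsHaar ν) (B : Finset ι) (j : ι) {η : ℝ}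
    (hη : 0 < η) :
    (ν : Measure (OG ι)).real {U | η ≤ |∑ i ∈ B, U.1 i j ^ 2 - (B.card : ℝ) / Fintype.card ι|} ≤
      3 / (Fintype.card ι * η ^ 2) := by
  have hN : (0 : ℝ) < Fintype.card ι := by
    have : Nonempty ι := ⟨j⟩
    exact_mod_cast Fintype.card_pos
  set N : ℝ := (Fintype.card ι : ℝ) with hNdef
  set m : ℝ := (B.card : ℝ) with hm
  have hm0 : 0 ≤ m := Nat.cast_nonneg _
  have hmN : m ≤ N := by rw [hm, hNdef]; exact_mod_cast B.card_le_univ
  have h1 := Haar2.sum_sq h univ j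
  have h2 := Haar2.sum_sq_sq h univ j
  simp only [OG.sum_sq_col, integral_const, probReal_univ, one_pow, smul_eq_mul, mul_one,
    Finset.card_univ] at h1 h2
  have h3 := Haar2.sum_sq h B j
  have h4 := Haar2.sum_sq_sq h B j
  set α := (∫ U, U.1 j j ^ 4 ∂(ν : Measure (OG ι))) / 3
  set γ := ∫ U, U.1 j j ^ 2 ∂(ν : Measure (OG ι))
  have hγ : γ = 1 / N := by field_simp; linarith
  have hα : α = 1 / (N ^ 2 + 2 * N) := by field_simp; linarith
  have hSm : Measurable fun U : OG ι => ∑ i ∈ B, U.1 i j ^ 2 :=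
    Finset.measurable_sum _ fun i _ => (measurable_entry i j).pow_const 2
  have hSb : ∀ U : OG ι, |∑ i ∈ B, U.1 i j ^ 2| ≤ 1 := fun U => by
    rw [abs_of_nonneg (Finset.sum_nonneg fun _ _ => sq_nonneg _), ← OG.sum_sq_col U j]
    exact Finset.sum_le_sum_of_subset_of_nonneg (subset_univ _) fun _ _ _ => sq_nonneg _
  have i1 : Integrable (fun U : OG ι => ∑ i ∈ B, U.1 i j ^ 2) (ν : Measure (OG ι)) :=
    Haar2.integrable hSm 1 hSb
  have i2 : Integrable (fun U : OG ι => (∑ i ∈ B, U.1 i j ^ 2) ^ 2) (ν : Measure (OG ι)) :=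
    Haar2.integrable (hSm.pow_const 2) 1 fun U => by
      rw [abs_pow]; exact pow_le_one₀ (abs_nonneg _) (hSb U)
  have e : (fun U : OG ι => (∑ i ∈ B, U.1 i j ^ 2 - m / N) ^ 2) = fun U =>
      ((∑ i ∈ B, U.1 i j ^ 2) ^ 2 - 2 * (m / N) * ∑ i ∈ B, U.1 i j ^ 2) + (m / N) ^ 2 := by
    funext U; ring
  have i3 : Integrable (fun U : OG ι => (∑ i ∈ B, U.1 i j ^ 2 - m / N) ^ 2) (ν : Measure (OG ι)) := by
    rw [e]; exact (i2.sub (i1.const_mul _)).add (integrable_const _)
  have hvar : ∫ U, (∑ i ∈ B, U.1 i j ^ 2 - m / N) ^ 2 ∂(ν : Measure (OG ι)) ≤ 3 / N := by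
    have i4 : Integrable (fun U : OG ι => (∑ i ∈ B, U.1 i j ^ 2) ^ 2 -
        2 * (m / N) * ∑ i ∈ B, U.1 i j ^ 2) (ν : Measure (OG ι)) := i2.sub (i1.const_mul _)
    rw [e, integral_add i4 (integrable_const _),
      integral_sub i2 (i1.const_mul _), integral_const_mul, h3, h4, hγ, hα]
    simp only [integral_const, probReal_univ, smul_eq_mul, one_mul]
    have : 1 / (N ^ 2 + 2 * N) * (m ^ 2 + 2 * m) - 2 * (m / N) * (m * (1 / N)) + (m / N) ^ 2 =
        2 * m * (N - m) / (N ^ 2 * (N + 2)) := by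
      field_simp; ring
    rw [this, div_le_div_iff₀ (by positivity) hN]
    nlinarith [mul_nonneg hm0 hm0, mul_pos hN hN, mul_le_mul_of_nonneg_left hmN hN.le,
      mul_nonneg (mul_nonneg hm0 hm0) hN.le, mul_le_mul_of_nonneg_left hmN (mul_pos hN hN).le]
  have hM := mul_meas_ge_le_integral_of_nonneg (μ := (ν : Measure (OG ι)))
    (Filter.Eventually.of_forall fun U : OG ι => sq_nonneg (∑ i ∈ B, U.1 i j ^ 2 - m / N)) i3 (η ^ 2)
  have hset : {U : OG ι | η ≤ |∑ i ∈ B, U.1 i j ^ 2 - m / N|} =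
      {U | η ^ 2 ≤ (∑ i ∈ B, U.1 i j ^ 2 - m / N) ^ 2} := by
    ext U
    simp only [Set.mem_ofPred_eq]
    rw [sq_le_sq, abs_of_pos hη]
  rw [hset, le_div_iff₀ (by positivity)]
  have := (le_div_iff₀ hN).1 (hM.trans hvar)
  linarith

end Crest.Agent.R164
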