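import Crest.Agent.R164.Deriv

/-!
Row 164, task R164-IBP: Gaussian integration by parts at one level (from the Cameron-Martin formula), purity,
and transport of trees along measure preserving maps.

PLAN.  `ibp`: put `H_t = H + t φ`.  By downward induction (levels `> l`; `update` at different indices commutes)
`X H (l+1) (S.on l t ω) = X H_t (l+1) ω` and `Ex H (l+1) f (S.on l t ω) = Ex H_t (l+1) f ω` (this is `loc`-like; the
hypotheses say `H ∘ on t = H_t`, `f ∘ on t = f`).  Apply `cm` to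
`e ↦ exp (ζ X H (l+1) (update ω l e)) * Ex H (l+1) f (update ω l e)` and differentiate both sides at `t = 0`
(left: `LFam.line`, `LFam.X`, `TFam.Ex` and differentiation under the integral; right: dominated differentiation);
divide by `exp (ζ X H l ω)`; `Ex l (gc * f) = P l (gc * Ex (l+1) f)` since `gc (ω l)` is `Dep (l+1)`.
`ibp_sq`: same with the extra factor `gc e` (`gc (sh t e) = gc e + t κ`), `f = 1`.
`pure`: with `m = Ex (l+1) φ`, `G = gc (ω l)`: `Cov_l (m, G) = chi l φ φ` (`ibp`, `ibp` for `f = 1`, `chi_step`),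
`Var_l G = κ + ζ chi l φ φ`, Cauchy-Schwarz.
`map`: downward induction on the level, generalising the nodes; `MeasurePreserving.integral_comp'`-like step via
`integral_map` (integrands are measurable by `lin_X`, `tame_Ex`).
-/

set_option autoImplicit false

namespace Crest.Agent.R164

open MeasureTheory Finset

namespace Tree

variable {E : Type} [MeasurableSpace E]

/-- a Gaussian direction of the noise: shifts with the Cameron-Martin density -/
structure Shift (T : Tree E) where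
  sh : ℝ → E → E
  gc : E → ℝ
  κ : ℝ
  κ_nonneg : 0 ≤ κ
  meas_sh : ∀ t, Measurable (sh t)
  meas_gc : Measurable gc
  sh_zero : ∀ e, sh 0 e = e
  gc_sh : ∀ t e, gc (sh t e) = gc e + t * κ
  gc_le : ∃ C : ℝ, ∀ e, |gc e| ≤ C * T.ρ e
  ρ_sh : ∃ C : ℝ, ∀ t e, T.ρ (sh t e) ≤ T.ρ e + C * |t|
  cm : ∀ (t : ℝ) (f : E → ℝ), Measurable f → (∃ C : ℝ, ∀ e, |f e| ≤ C * Real.exp (C * T.ρ e)) →
    ∫ e, f (sh t e) ∂T.γ = ∫ e, f e * Real.exp (t * gc e - t ^ 2 * κ / 2) ∂T.γ

variable {T : Tree E}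

/-- shift of the coordinate `l` -/
def Shift.on (S : T.Shift) (l : ℕ) (t : ℝ) (ω : ℕ → E) : ℕ → E := Function.update ω l (S.sh t (ω l))

variable {H f φ : (ℕ → E) → ℝ} {l : ℕ}

theorem ibp_rho_le (hl : l < T.n) (ω : ℕ → E) : T.ρ (ω l) ≤ T.sz ω :=
  single_le_sum (f := fun i => T.ρ (ω i)) (fun _ _ => T.ρ_nonneg _) (mem_range.2 hl)

theorem ibp_sz_update (ω : ℕ → E) (l : ℕ) (e : E) :
    T.sz (Function.update ω l e) ≤ T.sz ω + T.ρ e := by
  unfold sz
  have h1 : ∑ i ∈ range T.n, T.ρ (Function.update ω l e i) ≤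
      ∑ i ∈ range T.n, (T.ρ (ω i) + if i = l then T.ρ e else 0) := by
    refine sum_le_sum fun i _ => ?_
    by_cases h : i = l
    · subst h; simp [T.ρ_nonneg]
    · simp [h]
  rw [sum_add_distrib, sum_ite_eq'] at h1
  refine h1.trans ?_
  split_ifs
  · exact le_rfl
  · linarith [T.ρ_nonneg e]

theorem ibp_meas_update (hf : Measurable f) (ω : ℕ → E) (l : ℕ) :
    Measurable fun e => f (Function.update ω l e) := hf.comp (measurable_update ω)

theorem ibp_bound_update (hf : T.Tame f) (ω : ℕ → E) (l : ℕ) :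
    ∃ C : ℝ, ∀ e, |f (Function.update ω l e)| ≤ C * Real.exp (C * T.ρ e) := by
  obtain ⟨-, C, hC⟩ := hf
  have hC0 : 0 ≤ C := by
    have := (abs_nonneg _).trans (hC ω)
    exact nonneg_of_mul_nonneg_left this (Real.exp_pos _)
  have h1 : 1 ≤ Real.exp (C * T.sz ω) := Real.one_le_exp (mul_nonneg hC0 (sz_nonneg ω))
  refine ⟨C * Real.exp (C * T.sz ω), fun e => (hC _).trans ?_⟩
  rw [mul_assoc C (Real.exp _) (Real.exp _), ← Real.exp_add]
  refine mul_le_mul_of_nonneg_left (Real.exp_le_exp.2 ?_) hC0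
  have h2 := mul_le_mul_of_nonneg_left (ibp_sz_update (T := T) ω l e) hC0
  have h3 : C * T.ρ e ≤ C * Real.exp (C * T.sz ω) * T.ρ e := by
    have := mul_le_mul_of_nonneg_left h1 (mul_nonneg hC0 (T.ρ_nonneg e))
    linarith
  linarith

/-- un-normalised form of one step -/
theorem ibp_exp_mul_Ex (hl : l < T.n) (H f : (ℕ → E) → ℝ) (ω : ℕ → E) :
    Real.exp (T.ζ l * T.X H l ω) * T.Ex H l f ω =
      ∫ e, Real.exp (T.ζ l * T.X H (l + 1) (Function.update ω l e)) *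
        T.Ex H (l + 1) f (Function.update ω l e) ∂T.γ := by
  rw [Ex_step hl]
  unfold P wt
  rw [← integral_const_mul]
  congr 1
  funext e
  rw [dep_X H l l le_rfl hl, ← mul_assoc, ← Real.exp_add]
  congr 2; ring

/-- a map commuting with the updates of the higher levels -/
theorem ibp_comp (τ : (ℕ → E) → ℕ → E) (l : ℕ)
    (hτ : ∀ i, l ≤ i → ∀ ω e, τ (Function.update ω i e) = Function.update (τ ω) i e)
    (H f : (ℕ → E) → ℝ) (ω : ℕ → E) :
    T.X H l (τ ω) = T.X (fun ω => H (τ ω)) l ω ∧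
      T.Ex H l f (τ ω) = T.Ex (fun ω => H (τ ω)) l (fun ω => f (τ ω)) ω := by
  rcases le_total T.n l with h | h
  · simp [X_of_le h, Ex_of_le h]
  induction h using Nat.decreasingInduction generalizing ω with
  | self => simp [X_of_le le_rfl, Ex_of_le le_rfl]
  | of_succ k hk ih =>
    have ih' := ih (fun i hi => hτ i (Nat.le_of_succ_le hi))
    have hX : ∀ ω, T.X H k (τ ω) = T.X (fun ω => H (τ ω)) k ω := by
      intro ω
      rw [X_step hk, X_step hk]
      simp only [← hτ k le_rfl, fun ω => (ih' ω).1]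
    refine ⟨hX ω, ?_⟩
    rw [Ex_step hk, Ex_step hk]
    unfold P wt
    simp only [← hτ k le_rfl, fun ω => (ih' ω).1, fun ω => (ih' ω).2, hX]

theorem TFam.ibp_of_bound {F F' : ℝ → (ℕ → E) → ℝ} {B : (ℕ → E) → ℝ} {t₀ δ : ℝ} (hδ : 0 < δ)
    (hB : T.Tame B) (h : ∀ t, |t - t₀| < δ → Measurable (F t) ∧ Measurable (F' t) ∧
      ∀ ω, HasDerivAt (fun s => F s ω) (F' t ω) t ∧ |F t ω| ≤ B ω ∧ |F' t ω| ≤ B ω) :
    T.TFam F F' t₀ := by
  obtain ⟨-, C, hC⟩ := hB
  refine ⟨δ, hδ, C, fun t ht => ⟨(h t ht).1, (h t ht).2.1, fun ω => ?_⟩⟩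
  obtain ⟨a, b, c⟩ := (h t ht).2.2 ω
  exact ⟨a, b.trans ((le_abs_self _).trans (hC ω)), c.trans ((le_abs_self _).trans (hC ω))⟩

theorem Shift.lin_gc (S : T.Shift) (hl : l < T.n) : T.Lin fun ω => S.gc (ω l) := by
  obtain ⟨C, hC⟩ := S.gc_le
  refine ⟨S.meas_gc.comp (measurable_pi_apply l), |C|, fun ω => (hC _).trans ?_⟩
  have h1 := ibp_rho_le hl ω
  have h2 := T.ρ_nonneg (ω l)
  calc C * T.ρ (ω l) ≤ |C| * T.ρ (ω l) := mul_le_mul_of_nonneg_right (le_abs_self C) h2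
    _ ≤ |C| * (1 + T.sz ω) := mul_le_mul_of_nonneg_left (by linarith) (abs_nonneg C)

theorem Shift.dep_gc (S : T.Shift) (l : ℕ) : T.Dep (l + 1) fun ω => S.gc (ω l) := by
  intro i hi _ ω e
  have : l ≠ i := by omega
  simp [Function.update_of_ne this]

/-- the Cameron-Martin formula for the tilted expectations -/
theorem Shift.cm_Ex (S : T.Shift) (hl : l < T.n) (hH : T.Lin H) (hf : T.Tame f) (t : ℝ) (ω : ℕ → E) :
    Real.exp (T.ζ l * T.X (fun ω => H (S.on l t ω)) l ω) *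
        T.Ex (fun ω => H (S.on l t ω)) l (fun ω => f (S.on l t ω)) ω =
      Real.exp (T.ζ l * T.X H l ω) *
        T.Ex H l (fun ω => Real.exp (t * S.gc (ω l) - t ^ 2 * S.κ / 2) * f ω) ω := by
  rw [ibp_exp_mul_Ex hl, ibp_exp_mul_Ex hl]
  have hτ : ∀ i, l + 1 ≤ i → ∀ ω e, S.on l t (Function.update ω i e) =
      Function.update (S.on l t ω) i e := by
    intro i hi ω e
    have h1 : l ≠ i := by omega
    unfold Shift.on
    rw [Function.update_of_ne h1, Function.update_comm h1]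
  have hon : ∀ e, S.on l t (Function.update ω l e) = Function.update ω l (S.sh t e) := by
    intro e; simp [Shift.on]
  have hu : T.Tame fun ω => Real.exp (T.ζ l * T.X H (l + 1) ω) * T.Ex H (l + 1) f ω :=
    ((lin_X hH _).const_mul _).exp.mul (tame_Ex hH hf _)
  have hcm := S.cm t _ (ibp_meas_update hu.1 ω l) (ibp_bound_update hu ω l)
  simp only [← fun ω => (ibp_comp (T := T) (S.on l t) (l + 1) hτ H f ω).1,
    ← fun ω => (ibp_comp (T := T) (S.on l t) (l + 1) hτ H f ω).2, hon]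
  rw [hcm]
  congr 1
  funext e
  rw [Ex_mul_dep H f ((S.dep_gc l).comp fun x => Real.exp (t * x - t ^ 2 * S.κ / 2))]
  simp only [Function.update_self]
  ring

theorem Shift.tfam_dens (S : T.Shift) (hl : l < T.n) :
    T.TFam (fun t ω => Real.exp (t * S.gc (ω l) - t ^ 2 * S.κ / 2))
      (fun t ω => Real.exp (t * S.gc (ω l) - t ^ 2 * S.κ / 2) * (S.gc (ω l) - t * S.κ)) 0 := by
  have hG := S.lin_gc hl
  have hκ := S.κ_nonneg
  refine TFam.ibp_of_bound (B := fun ω => Real.exp |S.gc (ω l)| * (1 + |S.gc (ω l)| + S.κ)) one_pos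
    (hG.abs.exp.mul (((Tame.const 1).add hG.abs.tame).add (Tame.const _))) fun t ht => ?_
  rw [sub_zero] at ht
  have hm := hG.1
  have m1 : Measurable fun ω : ℕ → E => Real.exp (t * S.gc (ω l) - t ^ 2 * S.κ / 2) :=
    ((hm.const_mul t).sub_const _).exp
  refine ⟨m1, m1.mul (hm.sub_const _), fun ω => ⟨?_, ?_⟩⟩
  · have d1 : HasDerivAt (fun s : ℝ => s * S.gc (ω l) - s ^ 2 * S.κ / 2) (S.gc (ω l) - t * S.κ) t := by
      have := ((hasDerivAt_id t).mul_const (S.gc (ω l))).sub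
        (((hasDerivAt_pow 2 t).mul_const S.κ).div_const 2)
      have e : S.gc (ω l) - t * S.κ = 1 * S.gc (ω l) - ((2 : ℕ) : ℝ) * t ^ (2 - 1) * S.κ / 2 := by
        push_cast; ring
      rw [e]; exact this
    exact d1.exp
  · have a1 : t * S.gc (ω l) - t ^ 2 * S.κ / 2 ≤ |S.gc (ω l)| := by
      have b1 : t * S.gc (ω l) ≤ |t| * |S.gc (ω l)| := by rw [← abs_mul]; exact le_abs_self _
      have b2 : |t| * |S.gc (ω l)| ≤ |S.gc (ω l)| := mul_le_of_le_one_left (abs_nonneg _) ht.le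
      have b3 : 0 ≤ t ^ 2 * S.κ / 2 := by positivity
      linarith
    have a2 := Real.exp_le_exp.2 a1
    have a3 : |S.gc (ω l) - t * S.κ| ≤ 1 + |S.gc (ω l)| + S.κ := by
      have b1 := abs_sub (S.gc (ω l)) (t * S.κ)
      rw [abs_mul, abs_of_nonneg hκ] at b1
      have b2 : |t| * S.κ ≤ S.κ := mul_le_of_le_one_left hκ ht.le
      linarith
    have a4 : 0 ≤ |S.gc (ω l)| := abs_nonneg _
    constructor
    · rw [abs_of_pos (Real.exp_pos _)]
      refine a2.trans (le_mul_of_one_le_right (Real.exp_pos _).le (by linarith))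
    · rw [abs_mul, abs_of_pos (Real.exp_pos _)]
      exact mul_le_mul a2 a3 (abs_nonneg _) (Real.exp_pos _).le

/-- general form of the integration by parts -/
theorem Shift.ibp_gen (S : T.Shift) (hl : l < T.n) (hH : T.Lin H) (hφ : T.Lin φ) (hf : T.Tame f)
    {f' : (ℕ → E) → ℝ} (hf' : T.Tame f')
    (h1 : ∀ t ω, H (S.on l t ω) = H ω + t * φ ω) (h3 : ∀ t ω, f (S.on l t ω) = f ω + t * f' ω)
    (ω : ℕ → E) :
    T.Ex H l (fun ω => S.gc (ω l) * f ω) ω =
      T.Ex H l f' ω + T.chi H l f φ ω + T.ζ l * (T.Ex H l f ω * T.Ex H l φ ω) := by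
  have hL : T.LFam (fun t ω => H ω + t * φ ω) (fun _ => φ) 0 := LFam.line hH hφ
  have hL0 : T.LFam (fun t ω => H ω + t * (fun _ => (0 : ℝ)) ω) (fun _ => fun _ => 0) 0 :=
    LFam.line hH (Lin.const 0)
  have hid : T.TFam (fun t (_ : ℕ → E) => t) (fun _ _ => 1) 0 :=
    TFam.scalar (c := fun t => t) (c' := fun _ => 1) one_pos (fun t _ => hasDerivAt_id t)
      continuousAt_const
  have hF := (TFam.const (t₀ := 0) hf).add (hid.mul (TFam.const hf'))
  have d1 := ((hL.X l).1.hasDerivAt ω).const_mul (T.ζ l)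
  have d2 := (TFam.Ex hL hF l).hasDerivAt ω
  have d3 := (d1.exp).mul d2
  have d4 := ((TFam.Ex hL0 ((S.tfam_dens hl).mul (TFam.const hf)) l).hasDerivAt ω).const_mul
    (Real.exp (T.ζ l * T.X H l ω))
  simp only [mul_zero, add_zero] at d4
  have heq : ((fun s => Real.exp (T.ζ l * T.X (fun ω => H ω + s * φ ω) l ω)) *
      fun s => T.Ex (fun ω => H ω + s * φ ω) l (fun ω => f ω + s * f' ω) ω) =
      fun y => Real.exp (T.ζ l * T.X H l ω) *
        T.Ex H l (fun ω => Real.exp (y * S.gc (ω l) - y ^ 2 * S.κ / 2) * f ω) ω := by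
    funext t
    rw [← S.cm_Ex hl hH hf t ω]
    simp only [h1, h3, Pi.mul_apply]
  rw [heq] at d3
  have hu := d3.unique d4
  rw [chi_dep_right hH ?_ (Dep.const 0)] at hu
  · simp only [zero_mul, add_zero, one_mul, zero_add, mul_zero, sub_zero, ne_eq, OfNat.ofNat_ne_zero,
      not_false_eq_true, zero_pow, zero_div, Real.exp_zero] at hu
    have hp := Real.exp_pos (T.ζ l * T.X H l ω)
    apply mul_left_cancel₀ hp.ne'
    rw [← hu]
    ring
  · exact ((S.tfam_dens hl).mul (TFam.const hf)).tame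

theorem Shift.ibp_inv (S : T.Shift) (hl : l < T.n) (hH : T.Lin H) (hφ : T.Lin φ) (hf : T.Tame f)
    (h1 : ∀ t ω, H (S.on l t ω) = H ω + t * φ ω) (h3 : ∀ t ω, f (S.on l t ω) = f ω) (ω : ℕ → E) :
    T.Ex H l (fun ω => S.gc (ω l) * f ω) ω =
      T.chi H l f φ ω + T.ζ l * (T.Ex H l f ω * T.Ex H l φ ω) := by
  rw [S.ibp_gen hl hH hφ hf (Tame.const 0) h1 (by simpa using h3), Ex_const hH, zero_add]

theorem Shift.ibp (S : T.Shift) (hl : l < T.n) (hH : T.Lin H) (hφ : T.Lin φ) (hf : T.Tame f)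
    (h1 : ∀ t ω, H (S.on l t ω) = H ω + t * φ ω) (h3 : ∀ t ω, f (S.on l t ω) = f ω) (ω : ℕ → E) :
    T.Ex H l (fun ω => S.gc (ω l) * f ω) ω = T.Ex H l (T.chi H (l + 1) f φ) ω +
      T.ζ l * T.Ex H l (fun ω => T.Ex H (l + 1) f ω * T.Ex H (l + 1) φ ω) ω := by
  rw [S.ibp_inv hl hH hφ hf h1 h3, chi_step hH hf hφ.tame hl]
  ring

theorem Shift.ibp_sq (S : T.Shift) (hl : l < T.n) (hH : T.Lin H) (hφ : T.Lin φ)
    (h1 : ∀ t ω, H (S.on l t ω) = H ω + t * φ ω) (ω : ℕ → E) :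
    T.Ex H l (fun ω => S.gc (ω l) ^ 2) ω =
      S.κ + T.ζ l * T.Ex H l (fun ω => S.gc (ω l) * φ ω) ω := by
  have hG := S.lin_gc hl
  have h := S.ibp_gen hl hH hφ hG.tame (Tame.const S.κ) h1
    (fun t ω => by simp [Shift.on, S.gc_sh]) ω
  rw [chi_step hH hG.tame hφ.tame hl, Ex_const hH] at h
  have e0 : T.chi H (l + 1) (fun ω => S.gc (ω l)) φ = fun _ => 0 := by
    funext ω
    rw [chi_comm, chi_dep_right hH hφ.tame (S.dep_gc l)]
  have e1 : (fun ω => T.Ex H (l + 1) (fun ω => S.gc (ω l)) ω * T.Ex H (l + 1) φ ω) =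
      T.Ex H (l + 1) (fun ω => S.gc (ω l) * φ ω) := by
    funext ω
    rw [Ex_of_dep hH (S.dep_gc l), Ex_mul_dep H φ (S.dep_gc l)]
  rw [e0, e1, Ex_const hH, Ex_tower hH _ (Nat.le_succ l)] at h
  simp only [sq]
  rw [h]; ring

/-- `ibp` for `f = φ`, in the form used for the systems (top exponent one) -/
theorem Shift.ibp_self (S : T.Shift) (hl : l + 1 < T.n) (htop : T.ζ (T.n - 1) = 1) (hH : T.Lin H)
    (hφ : T.Lin φ) (h1 : ∀ t ω, H (S.on l t ω) = H ω + t * φ ω) (hf : T.Tame f)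
    (h3 : ∀ t ω, f (S.on l t ω) = f ω) (ω : ℕ → E) :
    T.Ex H l (fun ω => S.gc (ω l) * f ω) ω = T.Ex H l (fun ω => f ω * φ ω) ω -
      ∑ i ∈ Ioo l T.n, (T.ζ i - T.ζ (i - 1)) *
        T.Ex H l (fun ω => T.Ex H i f ω * T.Ex H i φ ω) ω := by
  have hl' : l < T.n := by omega
  rw [S.ibp_inv hl' hH hφ hf h1 h3, chi_eq hH hf hφ.tame hl', htop]
  ring

theorem Shift.sq_le (S : T.Shift) (hl : l < T.n) (hH : T.Lin H) (hφ : T.Lin φ)
    (h1 : ∀ t ω, H (S.on l t ω) = H ω + t * φ ω) (h2 : ∀ t ω, φ (S.on l t ω) = φ ω) (ω : ℕ → E) :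
    T.Ex H l (fun ω => S.gc (ω l) ^ 2) ω ≤ S.κ + T.Ex H l (fun ω => φ ω ^ 2) ω := by
  rw [S.ibp_sq hl hH hφ h1, S.ibp_inv hl hH hφ hφ.tame h1 h2]
  have a1 := chi_le hH hφ.tame l ω
  have a2 := chi_nonneg hH hφ.tame l ω
  have z0 := T.ζ_pos l
  have z1 := T.ζ_le l
  have a3 : T.ζ l * (T.Ex H l φ ω * T.Ex H l φ ω) ≤ T.Ex H l φ ω * T.Ex H l φ ω :=
    mul_le_of_le_one_left (mul_self_nonneg _) z1
  have a4 : 0 ≤ T.ζ l * (T.Ex H l φ ω * T.Ex H l φ ω) := mul_nonneg z0.le (mul_self_nonneg _)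
  have a5 : T.ζ l * (T.chi H l φ φ ω + T.ζ l * (T.Ex H l φ ω * T.Ex H l φ ω)) ≤
      T.chi H l φ φ ω + T.ζ l * (T.Ex H l φ ω * T.Ex H l φ ω) :=
    mul_le_of_le_one_left (by linarith) z1
  nlinarith

theorem Shift.pure (S : T.Shift) (hl : l < T.n) (hH : T.Lin H) (hφ : T.Lin φ)
    (h1 : ∀ t ω, H (S.on l t ω) = H ω + t * φ ω) (h2 : ∀ t ω, φ (S.on l t ω) = φ ω) (ω : ℕ → E) :
    T.chi H l φ φ ω ^ 2 ≤
      T.Ex H l (fun ω' => (T.Ex H (l + 1) φ ω' - T.Ex H l φ ω') ^ 2) ω * (S.κ + T.chi H l φ φ ω) := by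
  have hG := S.lin_gc hl
  have tφ := hφ.tame
  have e1 := S.ibp_sq hl hH hφ h1 ω
  have e2 := S.ibp_inv hl hH hφ tφ h1 h2 ω
  have e3 := S.ibp_inv hl hH hφ (Tame.const 1) h1 (fun _ _ => rfl) ω
  rw [chi_comm, chi_dep_right hH tφ (Dep.const 1), Ex_const hH] at e3
  simp only [mul_one, zero_add, one_mul] at e3
  set c := T.Ex H l (fun ω => S.gc (ω l)) ω with hc
  have t1 := tame_Ex hH tφ (l + 1)
  have t0 := tame_Ex hH tφ l
  have cs := Ex_cs hH (t1.sub t0) (hG.tame.sub (Tame.const c)) l ω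
  have f1 : T.Ex H l (fun ω' => (T.Ex H (l + 1) φ ω' - T.Ex H l φ ω') * (S.gc (ω' l) - c)) ω =
      T.chi H l φ φ ω := by
    have g1 : (fun ω' => (T.Ex H (l + 1) φ ω' - T.Ex H l φ ω') * (S.gc (ω' l) - c)) = fun ω' =>
        (T.Ex H (l + 1) (fun ω => S.gc (ω l) * φ ω) ω' - c * T.Ex H (l + 1) φ ω') -
          T.Ex H l φ ω' * (S.gc (ω' l) - c) := by
      funext ω'
      rw [Ex_mul_dep H φ (S.dep_gc l)]; ring
    rw [g1, Ex_sub hH ((tame_Ex hH (hG.tame.mul tφ) _).sub (t1.const_mul c))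
      (t0.mul (hG.tame.sub (Tame.const c))), Ex_sub hH (tame_Ex hH (hG.tame.mul tφ) _) (t1.const_mul c),
      Ex_const_mul, Ex_tower hH _ (Nat.le_succ l), Ex_tower hH _ (Nat.le_succ l),
      Ex_mul_dep H _ (dep_Ex H φ l), Ex_sub hH hG.tame (Tame.const c), Ex_const hH, ← hc, e2, e3]
    ring
  have f2 : T.Ex H l (fun ω' => (S.gc (ω' l) - c) ^ 2) ω = S.κ + T.ζ l * T.chi H l φ φ ω := by
    have g1 : (fun ω' : ℕ → E => (S.gc (ω' l) - c) ^ 2) = fun ω' =>
        (S.gc (ω' l) ^ 2 - (2 * c) * S.gc (ω' l)) + c ^ 2 := by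
      funext ω'; ring
    rw [g1, Ex_add hH ((hG.tame.pow 2).sub (hG.tame.const_mul _)) (Tame.const _),
      Ex_sub hH (hG.tame.pow 2) (hG.tame.const_mul _), Ex_const_mul, Ex_const hH, ← hc, e1, e2, e3]
    ring
  rw [f1, f2] at cs
  refine cs.trans (mul_le_mul_of_nonneg_left ?_ (Ex_nonneg H (fun _ => sq_nonneg _) l ω))
  have := mul_le_of_le_one_left (chi_nonneg hH tφ l ω) (T.ζ_le l)
  linarith

/-! ### transport along measure preserving maps -/

variable {E' : Type} [MeasurableSpace E'] {T' : Tree E'}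

theorem map (hn : T'.n = T.n) (hζ : T'.ζ = T.ζ) (π : ℕ → E' → E) (l₀ : ℕ)
    (hπ : ∀ i, l₀ ≤ i → i < T.n → MeasurePreserving (π i) T'.γ T.γ) (hH : T.Lin H) (hf : T.Tame f)
    {H' f' : (ℕ → E') → ℝ} (ω : ℕ → E) (ω' : ℕ → E')
    (h : ∀ ω'' : ℕ → E', (∀ i, i < l₀ ∨ T.n ≤ i → ω'' i = ω' i) →
      H' ω'' = H (fun i => if l₀ ≤ i ∧ i < T.n then π i (ω'' i) else ω i) ∧
      f' ω'' = f (fun i => if l₀ ≤ i ∧ i < T.n then π i (ω'' i) else ω i)) :
    T'.X H' l₀ ω' = T.X H l₀ ω ∧ T'.Ex H' l₀ f' ω' = T.Ex H l₀ f ω := by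
  have base : ∀ l₀, T.n ≤ l₀ → ∀ (ω : ℕ → E) (ω' : ℕ → E'),
      (∀ ω'' : ℕ → E', (∀ i, i < l₀ ∨ T.n ≤ i → ω'' i = ω' i) →
      H' ω'' = H (fun i => if l₀ ≤ i ∧ i < T.n then π i (ω'' i) else ω i) ∧
      f' ω'' = f (fun i => if l₀ ≤ i ∧ i < T.n then π i (ω'' i) else ω i)) →
      T'.X H' l₀ ω' = T.X H l₀ ω ∧ T'.Ex H' l₀ f' ω' = T.Ex H l₀ f ω := by
    intro l₀ hl ω ω' h
    have e : (fun i => if l₀ ≤ i ∧ i < T.n then π i (ω' i) else ω i) = ω := by
      funext i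
      rw [if_neg (by omega)]
    have := h ω' (fun _ _ => rfl)
    rw [e] at this
    rw [X_of_le hl, Ex_of_le hl, X_of_le (hn.le.trans hl), Ex_of_le (hn.le.trans hl)]
    exact this
  rcases le_total T.n l₀ with hl | hl
  · exact base l₀ hl ω ω' h
  induction hl using Nat.decreasingInduction generalizing ω ω' with
  | self => exact base _ le_rfl ω ω' h
  | of_succ k hk ih =>
    have hk' : k < T'.n := hn ▸ hk
    have ih' : ∀ e', T'.X H' (k + 1) (Function.update ω' k e') =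
          T.X H (k + 1) (Function.update ω k (π k e')) ∧
        T'.Ex H' (k + 1) f' (Function.update ω' k e') =
          T.Ex H (k + 1) f (Function.update ω k (π k e')) := by
      intro e'
      refine ih (fun i hi => hπ i (Nat.le_of_succ_le hi)) _ _ fun ω'' hω => ?_
      have e : (fun i => if k + 1 ≤ i ∧ i < T.n then π i (ω'' i)
          else Function.update ω k (π k e') i) =
          fun i => if k ≤ i ∧ i < T.n then π i (ω'' i) else ω i := by
        funext i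
        by_cases hi : i = k
        · subst hi
          rw [if_neg (by omega), if_pos ⟨le_rfl, hk⟩, hω i (Or.inl (Nat.lt_succ_self i))]
          simp
        · rw [Function.update_of_ne hi]
          refine if_congr ?_ rfl rfl
          constructor <;> intro h <;> omega
      rw [e]
      refine h ω'' fun i hi => ?_
      rw [hω i (by omega), Function.update_of_ne (by omega)]
    have hmp := hπ k le_rfl hk
    have tr : ∀ u : (ℕ → E) → ℝ, Measurable u →
        ∫ e', u (Function.update ω k (π k e')) ∂T'.γ = ∫ e, u (Function.update ω k e) ∂T.γ := by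
      intro u hu
      rw [← hmp.map_eq, integral_map hmp.measurable.aemeasurable
        (ibp_meas_update hu ω k).aestronglyMeasurable]
    have hX : T'.X H' k ω' = T.X H k ω := by
      rw [X_step hk, X_step hk', hζ]
      simp only [fun e' => (ih' e').1]
      rw [tr _ ((lin_X hH (k + 1)).const_mul (T.ζ k)).exp.1]
    refine ⟨hX, ?_⟩
    apply mul_left_cancel₀ (Real.exp_pos (T.ζ k * T.X H k ω)).ne'
    rw [ibp_exp_mul_Ex hk]
    have := ibp_exp_mul_Ex hk' H' f' ω'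
    rw [hζ, hX] at this
    rw [this]
    simp only [fun e' => (ih' e').1, fun e' => (ih' e').2]
    exact tr _ (((lin_X hH (k + 1)).const_mul (T.ζ k)).exp.mul (tame_Ex hH hf (k + 1))).1

theorem map_all (hn : T'.n = T.n) (hζ : T'.ζ = T.ζ) (π : ℕ → E' → E)
    (hπ : ∀ i, MeasurePreserving (π i) T'.γ T.γ) (hH : T.Lin H) (hf : T.Tame f) (l : ℕ)
    (ω' : ℕ → E') :
    T'.X (fun ω => H fun i => π i (ω i)) l ω' = T.X H l (fun i => π i (ω' i)) ∧
      T'.Ex (fun ω => H fun i => π i (ω i)) l (fun ω => f fun i => π i (ω i)) ω' =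
        T.Ex H l f (fun i => π i (ω' i)) := by
  refine map hn hζ π l (fun i _ _ => hπ i) hH hf _ ω' fun ω'' hω => ?_
  have e : (fun i => if l ≤ i ∧ i < T.n then π i (ω'' i) else π i (ω' i)) = fun i => π i (ω'' i) := by
    funext i
    split_ifs with hi
    · rfl
    · rw [hω i (by omega)]
  rw [e]
  exact ⟨rfl, rfl⟩

end Tree

end Crest.Agent.R164
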