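import Crest.Agent.R164.Probe
import Crest.Agent.R164.Fact

/-!
Row 164, task R164-OneSys: the one-site recursion as a system with one spin.

PLAN.  `phi_one` from `phi_prod`.  `one v (b + t)` has the Hamiltonian of `(one v b).add (dirP fun σ => sp σ ()) t`; `one (update v l (v l + δ)) b` that of
`(one v b).add (dirS l (Pi.single () 1)) (√(v l + δ) - √(v l))`, `|√(v+δ) - √v| ≤ √|δ|`; use `Probe`.
`M1_strong`: `M1' = chi 0 σ σ ≥ E0 (chi (n-1) σ σ)` (`chi_step`, `chi_nonneg`-like: the extra terms are variances), and at level `n-1`: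
`chi (n-1) σ σ ω = 1 - tanh² x = 1/cosh² x ≥ exp (-2|x|)` with `x = b + Gs ω`, `Gs = Σ_l s_l gs_l`; Jensen (`exp_Ex_le`) gives `≥ exp (-2 E0|x|)`.
Bound `E0 |Gs|`: either `E0 Gs² ≤ …` by integration by parts (`Shift.ibp`: `E0 (g_l f)`), or: `X (H ± Gs) 0 - X H 0 ≤ 3V/2` (downward induction, completing the square with
`Shift.cm`/`gam_cm`, `Phi` is 1-Lipschitz) and `X_add_ge`, so `y E0|Gs| ≤ log 2 + 3 y V/2`.  A simpler way: `x`-moments through `E0 |Gs| ≤ √(E0 Gs²)` where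
`E0 (g_l g_k) s_l s_k ≤ 2 s_l² s_k²·…` for `k < l` follows from `Shift.ibp` at level `l` with `f = g_k` (`f` is `Dep l`): `EE l (g_l) = ζ s_l EE l σ`, `|·| ≤ s_l`;
thus `Gs = Σ s_l (g_l - EE l g_l) + Σ s_l EE l g_l` = martingale (orthogonal increments, second moment `≤ Σ s_l² (1 + s_l²)`) + drift bounded by `V`.
-/

set_option autoImplicit false

namespace Crest.Agent.R164

open MeasureTheory Finset

noncomputable def ν1 : ProbabilityMeasure (OG Unit) := ⟨Measure.dirac 1, inferInstance⟩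

noncomputable def one (v : ℕ → ℝ) (b : ℝ) : Sys Unit where
  lam := fun _ => 0
  pot := fun σ => b * sp σ ()
  s := fun l _ => Real.sqrt (v l)
  u := fun _ _ => 0

noncomputable def M1 (G : Grid) (v : ℕ → ℝ) (b : ℝ) : ℝ := E0 G ν1 (one v b) (sg G ())
noncomputable def p1 (G : Grid) (v : ℕ → ℝ) (b : ℝ) (i : ℕ) : ℝ := ov G ν1 (one v b) (sg G ()) (sg G ()) i
noncomputable def T1 (G : Grid) (v : ℕ → ℝ) (b : ℝ) (l : ℕ) : ℝ := Tst G ν1 (one v b) (sg G ()) l

variable {G : Grid} {v : ℕ → ℝ} {b b' m : ℝ} {l : ℕ}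

theorem Grid.gl_congr (G : Grid) {v v' : ℕ → ℝ} (h : ∀ l ∈ Ico 1 (G.n - 1), v l = v' l) : G.gl v = G.gl v' := by
  unfold Grid.gl Grid.glFrom
  refine List.map_congr_left fun i hi => ?_
  rw [List.mem_range'_1] at hi
  rw [h i (mem_Ico.2 ⟨hi.1, by omega⟩)]

theorem Sys.ext' {ι : Type} {S S' : Sys ι} (h1 : S.lam = S'.lam) (h2 : S.pot = S'.pot) (h3 : S.s = S'.s)
    (h4 : S.u = S'.u) : S = S' := by
  cases S
  cases S'
  simp_all

theorem one_add_b (v : ℕ → ℝ) (b t : ℝ) : (one v b).add (dirP fun σ => sp σ ()) t = one v (b + t) := by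
  refine Sys.ext' ?_ ?_ ?_ ?_
  · funext i; simp [one, Sys.add, dirP]
  · funext σ; simp [one, Sys.add, dirP]; ring
  · funext l i; simp [one, Sys.add, dirP]
  · funext l i; simp [one, Sys.add, dirP]

theorem one_add_v (v : ℕ → ℝ) (b : ℝ) (l : ℕ) (x : ℝ) :
    (one v b).add (dirS l (Pi.single () 1)) (Real.sqrt x - Real.sqrt (v l)) = one (Function.update v l x) b := by
  refine Sys.ext' ?_ ?_ ?_ ?_
  · funext i; simp [one, Sys.add, dirS]
  · funext σ; simp [one, Sys.add, dirS]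
  · funext l' i
    by_cases h : l' = l
    · subst h; simp [one, Sys.add, dirS]
    · simp [one, Sys.add, dirS, h]
  · funext l i; simp [one, Sys.add, dirS]

theorem abs_sqrt_sub_le {x y : ℝ} (hx : 0 ≤ x) (hy : 0 ≤ y) :
    |Real.sqrt x - Real.sqrt y| ≤ Real.sqrt |x - y| := by
  refine Real.le_sqrt_of_sq_le ?_
  have h1 : x - y = (Real.sqrt x - Real.sqrt y) * (Real.sqrt x + Real.sqrt y) := by
    nlinarith [Real.mul_self_sqrt hx, Real.mul_self_sqrt hy]
  rw [h1, abs_mul, sq]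
  refine mul_le_mul_of_nonneg_left ?_ (abs_nonneg _)
  have := Real.sqrt_nonneg x
  have := Real.sqrt_nonneg y
  rw [abs_of_nonneg (by positivity : 0 ≤ Real.sqrt x + Real.sqrt y), abs_le]
  constructor <;> linarith

theorem phi_one (hv : ∀ l ∈ Ico 1 (G.n - 1), 0 ≤ v l) (b : ℝ) : phi G ν1 (one v b) = Phi (G.gl v) b := by
  have h := phi_prod (G := G) (ν := ν1) (S := one v b) (b := fun _ => b) (c := 0) (fun _ => rfl)
    (fun σ => by simp [one]) (fun l _ i => ⟨Real.sqrt_nonneg _, rfl⟩)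
  rw [h, Fintype.sum_unique, add_zero]
  congr 1
  exact G.gl_congr fun l hl => Real.sq_sqrt (hv l hl)
theorem p1_mem (i : ℕ) : p1 G v b i ∈ Set.Icc (0 : ℝ) 1 := by
  refine ⟨ov_nonneg i, ?_⟩
  have h := ov_le_top (G := G) (ν := ν1) (S := one v b) (lin_sg ()).tame i
  rwa [ov_sg_top] at h
theorem p1_step (i : ℕ) : p1 G v b i ≤ p1 G v b (i + 1) := by
  exact ov_step (lin_sg ()).tame i
theorem T1_eq (l : ℕ) : T1 G v b l = 1 - G.tl (p1 G v b) l := by
  unfold T1 Tst
  rw [ov_sg_top]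
  rfl
theorem probe_one_b' (hv : ∀ l ∈ Ico 1 (G.n - 1), 0 ≤ v l) {t : ℝ} (ht : |t| ≤ 1) :
    |Phi (G.gl v) (b + t) - Phi (G.gl v) b - t * M1 G v b| ≤ t ^ 2 := by
  have h := probe_pot (G := G) (ν := ν1) (S := one v b) () ht
  rwa [one_add_b, phi_one hv, phi_one hv] at h

theorem hasDerivAt_Phi (hv : ∀ l ∈ Ico 1 (G.n - 1), 0 ≤ v l) (b : ℝ) :
    HasDerivAt (Phi (G.gl v)) (M1 G v b) b := by
  rw [hasDerivAt_iff_isLittleO_nhds_zero]
  refine Asymptotics.IsBigO.trans_isLittleO (g := fun t : ℝ => t ^ 2) ?_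
    (Asymptotics.isLittleO_pow_id (by norm_num))
  refine Asymptotics.IsBigO.of_bound 1 ?_
  filter_upwards [Metric.closedBall_mem_nhds (0 : ℝ) one_pos] with t ht
  have ht' : |t| ≤ 1 := by simpa using ht
  have h := probe_one_b' (b := b) hv ht'
  rw [one_mul, Real.norm_eq_abs, Real.norm_eq_abs, abs_of_nonneg (sq_nonneg t), smul_eq_mul]
  exact h
theorem M1_min (hv : ∀ l ∈ Ico 1 (G.n - 1), 0 ≤ v l) (hm : |m| < 1)
    (h : ellm (G.gl v) m = ell (G.gl v) b - b * m) : M1 G v b = m := by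
  have hd : HasDerivAt (fun x => ell (G.gl v) x - x * m) (M1 G v b - 1 * m) b :=
    ((hasDerivAt_Phi hv b).sub_const _).sub ((hasDerivAt_id b).mul_const m)
  have hmin : IsLocalMin (fun x => ell (G.gl v) x - x * m) b :=
    Filter.Eventually.of_forall fun x => by
      have := ellm_le (G.adm_glFrom hv) hm x
      change ell (G.gl v) b - b * m ≤ ell (G.gl v) x - x * m
      rw [← h]
      exact this
  have := hmin.hasDerivAt_eq_zero hd
  linarith
theorem hasDerivAt_M1 (G : Grid) (v : ℕ → ℝ) (b : ℝ) : HasDerivAt (M1 G v)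
    ((tree G ν1).chi (Ham G (one v b)) 0 (sg G ()) (sg G ()) pt0) b := by
  have h := E0_sg_deriv (G := G) (ν := ν1) (S := one v 0) (D := dirP fun σ => sp σ ()) () b
  have e : Ham G (dirP fun σ : Unit → Bool => sp σ ()) = sg G () := funext fun ω => Ham_dirP _ ω
  simp only [one_add_b, zero_add, e] at h
  exact h

theorem one_int (F : (Unit → Bool) → ℝ) :
    ∫ e, F e.2.2.2 ∂(tree G ν1).γ = (F (fun _ => true) + F fun _ => false) / 2 := by
  have hm : MeasurePreserving (fun e : Noise Unit => e.2.2.2) (tree G ν1).γ (unif Unit) :=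
    (measurePreserving_snd.comp measurePreserving_snd).comp measurePreserving_snd
  have h1 := integral_map (μ := (tree G ν1).γ) (φ := fun e : Noise Unit => e.2.2.2) (f := F)
    hm.measurable.aemeasurable (measurable_of_finite F).aestronglyMeasurable
  rw [← h1, hm.map_eq, integral_unif, ← (Equiv.funUnique Unit Bool).symm.sum_comp, Fintype.sum_bool]
  simp only [Fintype.card_unique, pow_one]
  change 1 / 2 * (F (fun _ => true) + F fun _ => false) = _
  ring

/-- the total field -/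
noncomputable def fld (G : Grid) (v : ℕ → ℝ) (b : ℝ) (ω : Pth Unit) : ℝ :=
  b + ∑ l ∈ Ico 1 (G.n - 1), Real.sqrt (v l) * gs l () ω

theorem Ham_one (ω : Pth Unit) : Ham G (one v b) ω = fld G v b ω * sg G () ω := by
  simp only [Ham, one, fld, zero_mul, sum_const_zero, mul_zero, zero_add, add_zero, Fintype.sum_unique, add_mul,
    sum_mul, mul_assoc]
  rfl

theorem Ex_top (ω : Pth Unit) : (tree G ν1).Ex (Ham G (one v b)) (G.n - 1) (sg G ()) ω =
    (Real.exp (fld G v b ω) - Real.exp (-fld G v b ω)) / (Real.exp (fld G v b ω) + Real.exp (-fld G v b ω)) := by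
  have h3 := G.three_le
  have hl : G.n - 1 < (tree G ν1).n := by change G.n - 1 < G.n; omega
  have hl' : (tree G ν1).n ≤ G.n - 1 + 1 := by change G.n ≤ _; omega
  have hz : (tree G ν1).ζ (G.n - 1) = 1 := G.top
  have hs : ∀ e : Noise Unit, sg G () (Function.update ω (G.n - 1) e) = sp e.2.2.2 () := by
    intro e
    simp [sg, sb]
  have hf : ∀ e : Noise Unit, fld G v b (Function.update ω (G.n - 1) e) = fld G v b ω := by
    intro e
    unfold fld gs
    congr 1
    refine sum_congr rfl fun l hl => ?_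
    rw [Function.update_of_ne (by have := (mem_Ico.1 hl).2; omega)]
  rw [Tree.Ex_step hl, Tree.Ex_of_le hl', Tree.P_eq hl, Tree.exp_X_step (lin_Ham G ν1 _) hl, Tree.X_of_le hl', hz]
  simp only [Ham_one, hs, hf, one_mul]
  rw [one_int (fun σ => Real.exp (fld G v b ω * sp σ ())),
    one_int (fun σ => Real.exp (fld G v b ω * sp σ ()) * sp σ ())]
  have h1 := Real.exp_pos (fld G v b ω)
  have h2 := Real.exp_pos (-fld G v b ω)
  simp only [sp, if_true, mul_one, Bool.false_eq_true, if_false, mul_neg]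
  field_simp
  ring

theorem tanh_gap (x s : ℝ) (hs : s = 1 ∨ s = -1) :
    Real.exp (-4 * |x * s|) ≤ (s - (Real.exp x - Real.exp (-x)) / (Real.exp x + Real.exp (-x))) ^ 2 := by
  have h1 := Real.exp_pos x
  have h2 := Real.exp_pos (-x)
  have h3 : Real.exp x ≤ Real.exp |x| := Real.exp_le_exp.2 (le_abs_self x)
  have h4 : Real.exp (-x) ≤ Real.exp |x| := Real.exp_le_exp.2 (neg_le_abs x)
  have h5 : Real.exp (-|x|) ≤ Real.exp x := Real.exp_le_exp.2 (neg_abs_le x)
  have h6 : Real.exp (-|x|) ≤ Real.exp (-x) := Real.exp_le_exp.2 (neg_le_neg (le_abs_self x))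
  have h7 : Real.exp (-2 * |x|) * Real.exp |x| = Real.exp (-|x|) := by
    rw [← Real.exp_add]; congr 1; ring
  have h8 := Real.exp_pos (-2 * |x|)
  have e : |x * s| = |x| := by rcases hs with rfl | rfl <;> simp
  have e2 : Real.exp (-4 * |x|) = Real.exp (-2 * |x|) ^ 2 := by
    rw [← Real.exp_nat_mul]; congr 1; push_cast; ring
  rw [e, e2]
  rcases hs with rfl | rfl
  · refine pow_le_pow_left₀ h8.le ?_ 2
    rw [le_sub_comm, div_le_iff₀ (by positivity)]
    nlinarith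
  · rw [← neg_sq (-1 - _)]
    refine pow_le_pow_left₀ h8.le ?_ 2
    rw [neg_sub, sub_neg_eq_add, ← sub_le_iff_le_add, le_div_iff₀ (by positivity)]
    nlinarith

theorem E0_abs_Ham {V : ℝ} (hv : ∀ l ∈ Ico 1 (G.n - 1), 0 ≤ v l) (hV : ∑ l ∈ Ico 1 (G.n - 1), v l ≤ V) (b : ℝ) :
    E0 G ν1 (one v b) (fun ω => |Ham G (one v b) ω|) ≤ |b| + (3 * V / 2 + Real.log 2 / G.ζ 0) := by
  have e1 : (one v b).add (one v 0) 1 = one (fun l => 4 * v l) b := by
    refine Sys.ext' ?_ ?_ ?_ ?_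
    · funext i; simp [one, Sys.add]
    · funext σ; simp [one, Sys.add]
    · funext l i
      have : Real.sqrt 4 = 2 := by
        rw [show (4 : ℝ) = 2 ^ 2 by norm_num, Real.sqrt_sq (by norm_num)]
      simp only [one, Sys.add]
      rw [Real.sqrt_mul (by norm_num), this]
      ring
    · funext l i; simp [one, Sys.add]
  have e2 : (one v b).add (one v 0) (-1) = one (fun _ => 0) b := by
    refine Sys.ext' ?_ ?_ ?_ ?_
    · funext i; simp [one, Sys.add]
    · funext σ; simp [one, Sys.add]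
    · funext l i; simp [one, Sys.add]
    · funext l i; simp [one, Sys.add]
  have hv4 : ∀ l ∈ Ico 1 (G.n - 1), 0 ≤ 4 * v l := fun l hl => by linarith [hv l hl]
  have hV0 : 0 ≤ ∑ l ∈ Ico 1 (G.n - 1), v l := sum_nonneg hv
  have hsec : Sec G ν1 (one v b) (one v 0) 0 1 (3 * V / 2) := by
    constructor
    · rw [e1, phi_one hv4, phi_one hv]
      have h := (abs_le.1 (G.Phi_gl_lip hv4 hv b)).2
      have h2 : ∑ l ∈ Ico 1 (G.n - 1), |4 * v l - v l| = 3 * ∑ l ∈ Ico 1 (G.n - 1), v l := by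
        rw [mul_sum]
        refine sum_congr rfl fun l hl => ?_
        rw [abs_of_nonneg (by linarith [hv l hl])]
        ring
      linarith
    · rw [e2, phi_one (fun _ _ => le_rfl), phi_one hv]
      have h := (abs_le.1 (G.Phi_gl_lip (v := fun _ => 0) (fun _ _ => le_rfl) hv b)).2
      have h2 : ∑ l ∈ Ico 1 (G.n - 1), |0 - v l| = ∑ l ∈ Ico 1 (G.n - 1), v l := by
        refine sum_congr rfl fun l hl => ?_
        rw [zero_sub, abs_neg, abs_of_nonneg (hv l hl)]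
      linarith
  have h := hsec.det one_pos G.n
  have e3 : EE G ν1 (one v b) G.n (Ham G (one v 0)) = Ham G (one v 0) := Tree.Ex_of_le le_rfl
  simp only [e3, sub_zero, div_one] at h
  have hH := lin_Ham G ν1 (one v b)
  have h0 := (lin_Ham G ν1 (one v 0)).abs.tame
  calc _ ≤ E0 G ν1 (one v b) (fun ω => |b| + |Ham G (one v 0) ω|) := by
        refine Tree.Ex_mono hH hH.abs.tame ((Tree.Tame.const _).add h0) (fun ω => ?_) _ _
        have e4 : Ham G (one v b) ω = b * sg G () ω + Ham G (one v 0) ω := by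
          simp only [Ham_one, fld]
          ring
        rw [e4]
        refine (abs_add_le _ _).trans (le_of_eq ?_)
        rw [abs_mul, abs_sg, mul_one]
    _ = |b| + E0 G ν1 (one v b) (fun ω => |Ham G (one v 0) ω|) := by
        unfold E0 EE
        rw [Tree.Ex_add hH (Tree.Tame.const _) h0, Tree.Ex_const hH]
    _ ≤ _ := by linarith

theorem chi_low {V : ℝ} (hv : ∀ l ∈ Ico 1 (G.n - 1), 0 ≤ v l) (hV : ∑ l ∈ Ico 1 (G.n - 1), v l ≤ V) (b : ℝ) :
    Real.exp (-4 * (|b| + (3 * V / 2 + Real.log 2 / G.ζ 0))) ≤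
      (tree G ν1).chi (Ham G (one v b)) 0 (sg G ()) (sg G ()) pt0 := by
  have h3 := G.three_le
  have hH := lin_Ham G ν1 (one v b)
  have hs := (lin_sg (G := G) (ν := ν1) ()).tame
  rw [Tree.chi_self_eq hH hs]
  have hl' : (tree G ν1).n ≤ G.n - 1 + 1 := by change G.n ≤ _; omega
  have hz : (tree G ν1).ζ (G.n - 1) = 1 := G.top
  refine le_trans ?_ (single_le_sum (a := G.n - 1) (fun i _ => mul_nonneg ((tree G ν1).ζ_pos i).le
    (Tree.Ex_nonneg _ (fun ω => sq_nonneg _) _ _)) (mem_Ico.2 ⟨Nat.zero_le _, by change _ < G.n; omega⟩))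
  simp only [hz, one_mul, Tree.Ex_of_le hl']
  have hL : (tree G ν1).Lin fun ω => -4 * |Ham G (one v b) ω| := hH.abs.const_mul _
  calc _ ≤ Real.exp ((tree G ν1).Ex (Ham G (one v b)) 0 (fun ω => -4 * |Ham G (one v b) ω|) pt0) := by
        rw [Tree.Ex_const_mul]
        have := E0_abs_Ham hv hV b
        unfold E0 EE at this
        exact Real.exp_le_exp.2 (by linarith)
    _ ≤ _ := Tree.exp_Ex_le hH hL.tame hL.exp 0 pt0
    _ ≤ _ := by
        refine Tree.Ex_mono hH hL.exp ((hs.sub (Tree.tame_Ex hH hs _)).pow 2) (fun ω => ?_) _ _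
        rw [Ex_top, Ham_one]
        refine tanh_gap _ _ ?_
        unfold sg sp
        split_ifs <;> simp

theorem M1_mono : Monotone (M1 G v) := by
  refine monotone_of_deriv_nonneg (fun b => (hasDerivAt_M1 G v b).differentiableAt) fun b => ?_
  rw [(hasDerivAt_M1 G v b).deriv]
  exact Tree.chi_nonneg (lin_Ham G ν1 _) (lin_sg ()).tame _ _
theorem M1_strong {y : ℝ} (hy : 0 < y) (V B : ℝ) : ∃ c : ℝ, 0 < c ∧ ∀ (G : Grid) (v : ℕ → ℝ) (b b' : ℝ),
    G.ζ 0 = y → (∀ l ∈ Ico 1 (G.n - 1), 0 ≤ v l) → ∑ l ∈ Ico 1 (G.n - 1), v l ≤ V → -B ≤ b → b ≤ b' →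
    b' ≤ B → c * (b' - b) ≤ M1 G v b' - M1 G v b := by
  refine ⟨Real.exp (-4 * (|B| + (3 * V / 2 + Real.log 2 / y))), Real.exp_pos _, ?_⟩
  intro G v b b' hG hv hV h1 h2 h3
  refine (convex_Icc (-B) B).mul_sub_le_image_sub_of_le_deriv
    (fun x _ => (hasDerivAt_M1 G v x).continuousAt.continuousWithinAt)
    (fun x _ => (hasDerivAt_M1 G v x).differentiableAt.differentiableWithinAt) (fun x hx => ?_)
    b ⟨h1, h2.trans h3⟩ b' ⟨h1.trans h2, h3⟩ h2
  rw [(hasDerivAt_M1 G v x).deriv]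
  refine le_trans ?_ (chi_low hv hV x)
  have hx' := interior_subset hx
  have : |x| ≤ |B| := (abs_le.2 hx').trans (le_abs_self B)
  rw [hG]
  exact Real.exp_le_exp.2 (by linarith)
theorem T1_lip_b (b b' : ℝ) (l : ℕ) : |T1 G v b l - T1 G v b' l| ≤ 3 * |b - b'| := by
  have h := Tst_lip_b (G := G) (ν := ν1) (S := one v b') () () (b - b') l
  rwa [one_add_b, add_sub_cancel] at h
theorem probe_one (hv : ∀ l ∈ Ico 1 (G.n - 1), 0 ≤ v l) (hl : l ∈ Ico 1 (G.n - 1)) {δ B : ℝ}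
    (hB : 0 ≤ B) (h0 : 0 ≤ v l + δ) (h1 : v l ≤ B ^ 2) (h2 : v l + δ ≤ B ^ 2) :
    |Phi (G.gl (Function.update v l (v l + δ))) b - Phi (G.gl v) b - δ / 2 * T1 G v b l| ≤
      3 * (1 + B) * |δ| * Real.sqrt |δ| := by
  have hs : (one v b).s l () = Real.sqrt (v l) := rfl
  have hv' : ∀ l' ∈ Ico 1 (G.n - 1), 0 ≤ Function.update v l (v l + δ) l' := by
    intro l' hl'
    by_cases h : l' = l
    · subst h; simpa using h0
    · rw [Function.update_of_ne h]; exact hv l' hl'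
  have h := probe (G := G) (ν := ν1) (S := one v b) hl () (t := Real.sqrt (v l + δ) - Real.sqrt (v l)) (B := B)
    (by rw [hs]; exact ⟨Real.sqrt_nonneg _, Real.sqrt_le_iff.2 ⟨hB, h1⟩⟩)
    (by rw [hs, add_sub_cancel]; exact ⟨Real.sqrt_nonneg _, Real.sqrt_le_iff.2 ⟨hB, h2⟩⟩)
  rw [one_add_v, phi_one hv', phi_one hv, hs, add_sub_cancel, Real.sq_sqrt h0, Real.sq_sqrt (hv l hl),
    add_sub_cancel_left] at h
  refine h.trans (mul_le_mul_of_nonneg_left ?_ (by positivity))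
  have := abs_sqrt_sub_le h0 (hv l hl)
  rwa [add_sub_cancel_left] at this
theorem T1_lip_v (hv : ∀ l ∈ Ico 1 (G.n - 1), 0 ≤ v l) (hl : l ∈ Ico 1 (G.n - 1)) {δ B : ℝ}
    (hB : 0 ≤ B) (h0 : 0 ≤ v l + δ) (h1 : v l ≤ B ^ 2) (h2 : v l + δ ≤ B ^ 2) (l' : ℕ) :
    |T1 G (Function.update v l (v l + δ)) b l' - T1 G v b l'| ≤ 3 * (1 + B) * Real.sqrt |δ| := by
  have hs : (one v b).s l () = Real.sqrt (v l) := rfl
  have h := Tst_lip_s (G := G) (ν := ν1) (S := one v b) hl () () (t := Real.sqrt (v l + δ) - Real.sqrt (v l))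
    (B := B) (by rw [hs, abs_of_nonneg (Real.sqrt_nonneg _)]; exact Real.sqrt_le_iff.2 ⟨hB, h1⟩)
    (by rw [hs, add_sub_cancel, abs_of_nonneg (Real.sqrt_nonneg _)]; exact Real.sqrt_le_iff.2 ⟨hB, h2⟩) l'
  rw [one_add_v] at h
  refine h.trans (mul_le_mul_of_nonneg_left ?_ (by positivity))
  have := abs_sqrt_sub_le h0 (hv l hl)
  rwa [add_sub_cancel_left] at this
theorem probe_one_b (hv : ∀ l ∈ Ico 1 (G.n - 1), 0 ≤ v l) {t : ℝ} (ht : |t| ≤ 1) :
    |Phi (G.gl v) (b + t) - Phi (G.gl v) b - t * M1 G v b| ≤ t ^ 2 := by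
  exact probe_one_b' hv ht

end Crest.Agent.R164
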