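import Crest.Agent.R164.CavFam
import Crest.Agent.R164.OneSys

/-!
Row 164, task R164-Inc: increments and consistency equations relative to a reference system.

PLAN.  All systems below satisfy `Reg` and have counts within `Cn + card 𝒦 + 2` of the reference when `N0 ≥ 1/η'` is large.
`exists_option`: transport along an equivalence `Option ι ≃ ι'` sending `none` to a given point (cardinalities; `Equiv.swap`).
`inc`: realise `(blk', lab')` on `Option ι` (`blk⁺ none = k1`, `lab⁺ none = j'`, representatives `R k`, `R k1 = none`), `ν⁺` from `HaarAll.exists`; by `cls_re` the big system is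
`cls blk⁺ lab⁺` and the small one is `cls (fun i => if R k' = some i then k1 else blk⁺ (some i)) (lab⁺ ∘ some)`; `cls_pin` gives `Pin`, `Sec` for the base system; `cav_fam` (with `probe_self`) and `term2`.
`prb`: realise the reference system itself on `Option ι`, `card ι = N0 - 1`, `lab⁺ none = j`; `cav_fam` for `(v,t) = (ε², 0)`, `(update ε² l (ε² + δ), 0)`, `(ε², δ)`;
`probe` (the probed system is `S.add (dirS l (Pi.single none 1)) (√(ε²+δ) - ε)`), `probe_pot`, `probe_one`, `probe_one_b` (`h l ≤ V`: `sum_abs_dh`, `Bf_lip`), `cls_exch`, `cls_re`, and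
`Sec.det` (level `n`) for `|E0 mg - z j| ≤ η' N0`.  First choose `δ` (errors `C √δ`), then the precision of `cav_fam` `≪ η δ`.
-/

set_option autoImplicit false

namespace Crest.Agent.R164

open MeasureTheory Finset Matrix

variable {𝒦 : Type} [Fintype 𝒦] [DecidableEq 𝒦] {J : ℕ} {M : Mod 𝒦 J}

/-- a pinned reference system with exact proportions -/
structure RefD (M : Mod 𝒦 J) (G : Grid) (Q : CP) (θ : ℕ ⊕ Fin J → ℝ) {ι : Type} [Fintype ι] [DecidableEq ι]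
    (ν : ProbabilityMeasure (OG ι)) (blk : ι → 𝒦) (lab : ι → Fin J) (a : ℕ → ℝ) (P : PP) (z : Fin J → ℝ)
    (η' : ℝ) : Prop where
  ok : Q.OK G
  box : Box1 θ
  haar : IsHaar ν
  card : (Fintype.card ι : ℝ) = Q.N0
  big : 1 / η' ≤ Q.N0
  cblk : ∀ k, (cnt blk k : ℝ) = M.α k * Q.N0
  clab : ∀ j, (cnt lab j : ℝ) = M.γ j * Q.N0
  σ_le : P.σ ≤ Q.ε / 2
  pin : Pin G ν (cls M G Q blk lab θ) (fib blk M.k0) a (4 / M.a0) P η'
  sec : ∀ j, Sec G ν (cls M G Q blk lab θ) (dirP (mg lab j)) (z j) P.σ P.e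
  z_le : ∀ j, |z j| ≤ Q.N0

noncomputable def ybar (M : Mod 𝒦 J) (Q : CP) (z : Fin J → ℝ) (j : Fin J) : ℝ := z j - M.γ j * Q.N0 * M.m j

theorem exists_option {ι ι' : Type} [Fintype ι] [Fintype ι'] (h : Fintype.card ι' = Fintype.card ι + 1) (x : ι') :
    ∃ e : Option ι ≃ ι', e none = x := by
  have e : Option ι ≃ ι' := Fintype.equivOfCardEq (by rw [Fintype.card_option, h])
  classical
  exact ⟨e.trans (Equiv.swap (e none) x), by simp⟩

namespace IncA

open CavA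

section
variable {ι ι' κ : Type} [Fintype ι] [Fintype ι'] [DecidableEq κ]

theorem cnt_eq (f : ι → κ) (k : κ) : cnt f k = ∑ i, if f i = k then 1 else 0 := card_filter _ _

theorem cnt_equiv (f : ι' → κ) (e : ι ≃ ι') (k : κ) : cnt (fun i => f (e i)) k = cnt f k := by
  rw [cnt_eq, cnt_eq]
  exact Equiv.sum_comp e fun i => if f i = k then 1 else 0

theorem cnt_some (f : Option ι → κ) (k : κ) :
    cnt (fun i => f (some i)) k + (if f none = k then 1 else 0) = cnt f k := by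
  rw [cnt_eq, cnt_eq, Fintype.sum_option, add_comm]

theorem cnt_update [DecidableEq ι] (f : ι → κ) (x : ι) (c k : κ) :
    cnt (Function.update f x c) k + (if f x = k then 1 else 0) = cnt f k + if c = k then 1 else 0 := by
  rw [cnt_eq, cnt_eq, ← add_sum_erase _ _ (mem_univ x), ← add_sum_erase _ _ (mem_univ x), Function.update_self,
    sum_congr rfl fun i hi => by rw [Function.update_of_ne (ne_of_mem_erase hi)]]
  ring

theorem ex_of_cnt {f : ι → κ} {k : κ} (h : (0 : ℝ) < cnt f k) : ∃ i, f i = k := by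
  obtain ⟨i, hi⟩ := card_pos.1 (show 0 < cnt f k by exact_mod_cast h)
  exact ⟨i, (mem_filter.1 hi).2⟩

end

theorem reg_close (hM : M.OK) {ι : Type} [Fintype ι] [DecidableEq ι] {Q : CP} {f : ι → 𝒦} {C : ℝ}
    (hN : 0 < Q.N0) (h : ∀ k, |(cnt f k : ℝ) - M.α k * Q.N0| ≤ C)
    (h1 : 2 * C * (1 + Fintype.card 𝒦) ≤ M.a0 * Q.N0) :
    Reg M Q f ∧ (∀ k, (0 : ℝ) < cnt f k) ∧
      ∀ η₁ : ℝ, 2 * C * (1 + Fintype.card 𝒦) ≤ η₁ * Q.N0 → ∀ k, |frac f k - M.α k| ≤ η₁ := by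
  have hC : 0 ≤ C := (abs_nonneg _).trans (h M.k0)
  have hK : (0 : ℝ) ≤ Fintype.card 𝒦 := Nat.cast_nonneg _
  have ha := hM.atom.a0_pos
  have ha1 := hM.atom.a0_le_one
  have e1 : (Fintype.card ι : ℝ) - Q.N0 = ∑ k, ((cnt f k : ℝ) - M.α k * Q.N0) := by
    rw [sum_sub_distrib, ← sum_mul, hM.atom.sum_one, one_mul, ← Nat.cast_sum, sum_cnt]
  have e2 : |(Fintype.card ι : ℝ) - Q.N0| ≤ Fintype.card 𝒦 * C := by
    rw [e1]
    refine (abs_sum_le_sum_abs _ _).trans ((sum_le_sum fun k _ => h k).trans ?_)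
    rw [sum_const, card_univ, nsmul_eq_mul]
  have e3 := abs_le.1 e2
  have e4 : M.a0 * Q.N0 ≤ Q.N0 := mul_le_of_le_one_left hN.le ha1
  have e5 : 0 ≤ Fintype.card 𝒦 * C := mul_nonneg hK hC
  have lo : Q.N0 / 2 ≤ Fintype.card ι := by nlinarith [e3.1]
  have hb : ∀ k, M.a0 / 2 * Fintype.card ι ≤ cnt f k := fun k => by
    have a1 := (abs_le.1 (h k)).1
    have a2 := mul_le_mul_of_nonneg_right (hM.α_ge k) hN.le
    have a3 := mul_le_mul_of_nonneg_left e3.2 ha.le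
    have a4 := mul_le_of_le_one_left e5 ha1
    nlinarith
  have hc : (0 : ℝ) < Fintype.card ι := by linarith
  refine ⟨⟨lo, by nlinarith [e3.2], hb⟩, fun k => lt_of_lt_of_le (by positivity) (hb k), fun η₁ h2 k => ?_⟩
  have a0 : M.α k ≤ 1 := by
    rw [← hM.atom.sum_one]
    exact single_le_sum (fun k _ => hM.atom.nonneg k) (mem_univ k)
  have a1 : frac f k - M.α k = ((cnt f k - M.α k * Q.N0) - M.α k * (Fintype.card ι - Q.N0)) / Fintype.card ι := by
    change (cnt f k : ℝ) / _ - _ = _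
    field_simp
    ring
  have a2 : |M.α k * (Fintype.card ι - Q.N0)| ≤ Fintype.card 𝒦 * C := by
    rw [abs_mul, abs_of_nonneg (hM.atom.nonneg k)]
    exact (mul_le_of_le_one_left (abs_nonneg _) a0).trans e2
  have hη₁ : 0 ≤ η₁ := by
    by_contra hneg
    have := mul_neg_of_neg_of_pos (not_le.1 hneg) hN
    nlinarith
  rw [a1, abs_div, abs_of_pos hc, div_le_iff₀ hc]
  refine (abs_sub _ _).trans ((add_le_add (h k) a2).trans ?_)
  nlinarith [mul_le_mul_of_nonneg_left lo hη₁]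

theorem box_of {θ : ℕ ⊕ Fin J → ℝ} (h : Box1 θ) : Box θ := fun d =>
  ⟨by linarith [(h d).1], by linarith [(h d).2]⟩

theorem sum_eps {G : Grid} {Q : CP} (hQ : Q.OK G) : ∑ _l ∈ Ico 1 (G.n - 1), Q.ε ^ 2 ≤ 1 ∧ Q.ε ≤ 1 := by
  have h3 : (3 : ℝ) ≤ G.n := by exact_mod_cast G.three_le
  have h1 := hQ.ε_le
  have h2 := hQ.ε_pos
  have h4 : Q.ε ≤ 1 := by nlinarith
  refine ⟨?_, h4⟩
  rw [sum_const, Nat.card_Ico, nsmul_eq_mul]
  have h8 : ((G.n - 1 - 1 : ℕ) : ℝ) ≤ G.n := by exact_mod_cast (by omega)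
  have h9 := mul_le_mul_of_nonneg_right h8 (sq_nonneg Q.ε)
  have h10 := mul_le_mul_of_nonneg_left h1 h2.le
  nlinarith [mul_nonneg (by linarith : (0 : ℝ) ≤ G.n) (sq_nonneg Q.ε)]

theorem gam_le (hM : M.OK) (j : Fin J) : 0 < (M.γ j : ℝ) ∧ (M.γ j : ℝ) ≤ 1 := by
  refine ⟨by exact_mod_cast hM.γ_pos j, ?_⟩
  have : M.γ j ≤ 1 := by
    rw [← hM.γ_sum]
    exact single_le_sum (fun j _ => (hM.γ_pos j).le) (mem_univ j)
  exact_mod_cast this

theorem core (hM : M.OK) (hH : HaarAll) {y η : ℝ} (hy : 0 < y) (hη : 0 < η) (L : ℝ) (Cn : ℕ) :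
    ∃ η' : ℝ, 0 < η' ∧ 2 * (Cn + 1) * (1 + Fintype.card 𝒦) * η' ≤ M.a0 ∧
      ∀ (ι₀ ι : Type) [Fintype ι₀] [DecidableEq ι₀] [Fintype ι] [DecidableEq ι]
      (G : Grid) (Q : CP) (θ : ℕ ⊕ Fin J → ℝ)
      (ν₀ : ProbabilityMeasure (OG ι₀)) (blk₀ : ι₀ → 𝒦) (lab₀ : ι₀ → Fin J) (a : ℕ → ℝ) (P : PP)
      (z : Fin J → ℝ) (ν : ProbabilityMeasure (OG ι)) (ν' : ProbabilityMeasure (OG (Option ι)))
      (blk : Option ι → 𝒦) (lab : Option ι → Fin J),
      G.ζ 0 = y → Q.L = L → RefD M G Q θ ν₀ blk₀ lab₀ a P z η' → IsHaar ν → IsHaar ν' → blk none = M.k1 →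
      (∀ k, |(cnt blk k : ℝ) - cnt blk₀ k| ≤ Cn) → (∀ j, |(cnt lab j : ℝ) - cnt lab₀ j| ≤ Cn) →
      ∃ R : 𝒦 → Option ι, (∀ k, blk (R k) = k) ∧
        (∀ (v : ℕ → ℝ) (t : ℝ), (∀ l ∈ Ico 1 (G.n - 1), 0 < v l) → ∑ l ∈ Ico 1 (G.n - 1), v l ≤ 2 → |t| ≤ 1 →
          |phi G ν' ((cls M G Q blk lab θ).probe v t) -
            phi G ν (cls M G Q (baseBlk blk R M.k1) (fun i => lab (some i)) θ) -
            (famA G M.α M.μ a v (beff M Q θ (lab none) (ybar M Q z (lab none)) + t) +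
              Q.L * ybar M Q z (lab none) / Q.N0 * M.m (lab none))| ≤ η) ∧
        ∀ k', phi G ν (cls M G Q (fun i => if R k' = some i then M.k1 else blk (some i))
            (fun i => lab (some i)) θ) ≤
          phi G ν (cls M G Q (baseBlk blk R M.k1) (fun i => lab (some i)) θ) +
          (1 / 2) * G.TT (fun i => -∑ k ∈ univ.erase k', Real.log (1 - M.μ k * G.D a i)) + η := by
  have ha := hM.atom.a0_pos
  set Cn' : ℕ := Cn + Fintype.card 𝒦 + 2 with hCn'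
  obtain ⟨η₁, hη₁, hcav⟩ := cav_fam hM hy hη L Cn'
  obtain ⟨η₂, hη₂, hterm⟩ := term2 hM hy hη
  obtain ⟨η₃, hη₃, hη₃le, C', hC', hpin⟩ := cls_pin hM hH L Cn' (lt_min hη₁ hη₂)
  set K : ℝ := 2 * Cn' * (1 + Fintype.card 𝒦) with hK
  have hK0 : 0 < K := by positivity
  obtain ⟨η', h0, h1, h2, h3, -⟩ := ex7 hη₃ (div_pos ha hK0) (div_pos hη₁ hK0) one_pos one_pos one_pos one_pos
  have hcast : (Cn' : ℝ) = Cn + Fintype.card 𝒦 + 2 := by rw [hCn']; push_cast; ring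
  have hKc : (0 : ℝ) ≤ Fintype.card 𝒦 := Nat.cast_nonneg _
  rw [le_div_iff₀ hK0] at h2 h3
  refine ⟨η', h0, ?_, fun ι₀ ι _ _ _ _ G Q θ ν₀ blk₀ lab₀ a P z ν ν' blk lab hGy hL hR hν hν' hb0 hcb hcl => ?_⟩
  · refine le_trans ?_ h2
    rw [mul_comm η', hK, hcast]
    have : (Cn : ℝ) + 1 ≤ Cn + Fintype.card 𝒦 + 2 := by linarith
    gcongr
  have hN0 : 0 < Q.N0 := one_pos.trans_le hR.ok.N0_ge
  have hbig : ∀ x : ℝ, η' * K ≤ x → K ≤ x * Q.N0 := fun x hx => by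
    have e1 := hR.big
    rw [div_le_iff₀ h0] at e1
    nlinarith [mul_le_mul_of_nonneg_left e1 hK0.le, mul_le_mul_of_nonneg_right hx hN0.le]
  have hbig' : ∀ x : ℝ, η' ≤ x → 1 / x ≤ Q.N0 := fun x hx =>
    (one_div_le_one_div_of_le h0 hx).trans hR.big
  have r0 := reg_close hM (f := blk₀) (C := Cn') hN0
    (fun k => by rw [hR.cblk, sub_self, abs_zero]; positivity) (hbig _ h2)
  have r1 := reg_close hM (f := blk) (C := Cn') hN0
    (fun k => by rw [← hR.cblk]; linarith [hcb k]) (hbig _ h2)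
  choose R₀ hR₀ using fun k => ex_of_cnt (r1.2.1 k)
  set R : 𝒦 → Option ι := Function.update R₀ M.k1 none with hRdef
  have hRk : ∀ k, blk (R k) = k := fun k => by
    by_cases hk : k = M.k1
    · rw [hRdef, hk, Function.update_self, hb0]
    · rw [hRdef, Function.update_of_ne hk, hR₀]
  have hn : R M.k1 = none := Function.update_self _ _ _
  have c1 : ∀ k, |(cnt blk₀ k : ℝ) - cnt (baseBlk blk R M.k1) k| ≤ Cn' := fun k => by
    have e1 := abs_le.1 (hcb k)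
    rw [cnt_baseBlk hRk hn, abs_le]
    split_ifs <;> constructor <;> linarith
  have c2 : ∀ j, |(cnt lab₀ j : ℝ) - cnt (fun i => lab (some i)) j| ≤ Cn' := fun j => by
    have e1 := abs_le.1 (hcl j)
    have e2 : (cnt (fun i => lab (some i)) j : ℝ) + (if lab none = j then 1 else 0) = cnt lab j := by
      exact_mod_cast cnt_some lab j
    rw [abs_le]
    split_ifs at e2 <;> constructor <;> linarith
  have r2 := reg_close hM (f := baseBlk blk R M.k1) (C := Cn') hN0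
    (fun k => by rw [← hR.cblk, abs_sub_comm]; exact c1 k) (hbig _ h2)
  obtain ⟨p1, p2⟩ := hpin ι₀ ι G Q θ ν₀ ν blk₀ lab₀ _ _ a P hR.ok hL (hbig' _ h1) hR.box hR.σ_le hR.haar hν
    r0.1 r2.1 c1 c2 (pin_mono hR.pin h0 h1)
  have hθ := box_of hR.box
  refine ⟨R, hRk, fun v t hv hv2 ht => ?_, fun k' => ?_⟩
  · have hm := hM.m_lt (lab none)
    have hγ := gam_le hM (lab none)
    refine hcav ι G Q θ ν ν' blk lab R a v _ t (z (lab none)) _ hGy hR.ok hL
      (hbig' _ (h1.trans (hη₃le.trans (min_le_left _ _)))) hθ hν hν' hRk hn r1.1 (r1.2.2 _ (hbig _ h3))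
      (pin_mono p1 (lt_min hη₁ hη₂) (min_le_left _ _)) (p2 _ _ (hR.sec _)) ?_ ?_ hv hv2 ht
    · rw [ybar, ← hR.clab, show ∀ a b c d : ℝ, a - b * d - (a - c * d) = -((b - c) * d) from fun _ _ _ _ => by ring,
        abs_neg, abs_mul]
      exact (mul_le_of_le_one_right (abs_nonneg _) hm.le).trans (c2 _)
    · rw [ybar]
      refine (abs_sub _ _).trans ?_
      have e1 : |(M.γ (lab none) : ℝ) * Q.N0 * M.m (lab none)| ≤ Q.N0 := by
        rw [abs_mul, abs_of_nonneg (mul_nonneg hγ.1.le hN0.le)]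
        exact (mul_le_of_le_one_right (mul_nonneg hγ.1.le hN0.le) hm.le).trans
          (mul_le_of_le_one_left hN0.le hγ.2)
      linarith [hR.z_le (lab none)]
  · exact hterm ι G Q θ ν blk _ R a _ k' hGy hR.ok (hbig' _ (h1.trans (hη₃le.trans (min_le_right _ _)))) hθ hν
      hRk hn r1.1 (pin_mono p1 (lt_min hη₁ hη₂) (min_le_right _ _))

variable {ι : Type} [Fintype ι] [DecidableEq ι] {G : Grid} {Q : CP} {θ : ℕ ⊕ Fin J → ℝ} {blk : Option ι → 𝒦}
  {lab : Option ι → Fin J}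

theorem probe_P (hε : 0 ≤ Q.ε) (t : ℝ) : (cls M G Q blk lab θ).probe (fun _ => Q.ε ^ 2) t =
    (cls M G Q blk lab θ).add (dirP fun σ => sp σ none) t := by
  simp only [Sys.probe, Sys.add, dirP, mul_zero, add_zero, Sys.mk.injEq, true_and, and_true]
  funext l o
  cases o <;> simp [cls, Real.sqrt_sq hε]

theorem probe_S (hε : 0 ≤ Q.ε) (l : ℕ) (δ : ℝ) :
    (cls M G Q blk lab θ).probe (Function.update (fun _ => Q.ε ^ 2) l (Q.ε ^ 2 + δ)) 0 =
      (cls M G Q blk lab θ).add (dirS l (Pi.single none 1)) (Real.sqrt (Q.ε ^ 2 + δ) - Q.ε) := by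
  simp only [Sys.probe, Sys.add, dirS, mul_zero, zero_mul, add_zero, Sys.mk.injEq, true_and, and_true]
  funext l' o
  by_cases h : l' = l
  · subst h
    cases o <;> simp [cls]
  · cases o <;> simp [cls, h, Real.sqrt_sq hε]

end IncA

open IncA in
theorem inc (hM : M.OK) (hH : HaarAll) {y η : ℝ} (hy : 0 < y) (hη : 0 < η) (L : ℝ) (Cn : ℕ) :
    ∃ η' : ℝ, 0 < η' ∧ ∀ (ι₀ ι ι' : Type) [Fintype ι₀] [DecidableEq ι₀] [Fintype ι] [DecidableEq ι]
      [Fintype ι'] [DecidableEq ι'] (G : Grid) (Q : CP) (θ : ℕ ⊕ Fin J → ℝ)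
      (ν₀ : ProbabilityMeasure (OG ι₀)) (blk₀ : ι₀ → 𝒦) (lab₀ : ι₀ → Fin J) (a : ℕ → ℝ) (P : PP)
      (z : Fin J → ℝ) (ν : ProbabilityMeasure (OG ι)) (blk : ι → 𝒦) (lab : ι → Fin J)
      (ν' : ProbabilityMeasure (OG ι')) (blk' : ι' → 𝒦) (lab' : ι' → Fin J) (k' : 𝒦) (j' : Fin J),
      G.ζ 0 = y → Q.L = L → RefD M G Q θ ν₀ blk₀ lab₀ a P z η' → IsHaar ν → IsHaar ν' →
      (∀ k, |(cnt blk k : ℝ) - cnt blk₀ k| ≤ Cn) → (∀ j, |(cnt lab j : ℝ) - cnt lab₀ j| ≤ Cn) →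
      (∀ k, cnt blk' k = cnt blk k + if k = k' then 1 else 0) →
      (∀ j, cnt lab' j = cnt lab j + if j = j' then 1 else 0) →
      famA G M.α M.μ a (fun _ => Q.ε ^ 2) (beff M Q θ j' (ybar M Q z j')) +
          Q.L * ybar M Q z j' / Q.N0 * M.m j' -
          (1 / 2) * G.TT (fun i => -∑ k ∈ univ.erase k', Real.log (1 - M.μ k * G.D a i)) - η ≤
        phi G ν' (cls M G Q blk' lab' θ) - phi G ν (cls M G Q blk lab θ) := by
  obtain ⟨η', h0, h1, hcore⟩ := core hM hH hy (half_pos hη) L (Cn + 1)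
  refine ⟨η', h0, fun ι₀ ι ι' _ _ _ _ _ _ G Q θ ν₀ blk₀ lab₀ a P z ν blk lab ν' blk' lab' k' j' hGy hL hR hν hν'
    hcb hcl hb' hl' => ?_⟩
  have hN0 : 0 < Q.N0 := one_pos.trans_le hR.ok.N0_ge
  have hcard : Fintype.card ι' = Fintype.card ι + 1 := by
    rw [← sum_cnt lab', ← sum_cnt lab]
    simp [hl', sum_add_distrib]
  have c1 : ∀ k, |(cnt blk' k : ℝ) - cnt blk₀ k| ≤ (Cn + 1 : ℕ) := fun k => by
    have e1 := abs_le.1 (hcb k)
    rw [hb', abs_le]
    push_cast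
    split_ifs <;> constructor <;> linarith
  have c2 : ∀ j, |(cnt lab' j : ℝ) - cnt lab₀ j| ≤ (Cn + 1 : ℕ) := fun j => by
    have e1 := abs_le.1 (hcl j)
    rw [hl', abs_le]
    push_cast
    split_ifs <;> constructor <;> linarith
  have r1 := reg_close hM (f := blk') (C := (Cn + 1 : ℕ)) hN0
    (fun k => by rw [← hR.cblk]; exact c1 k) (by
      have e1 := hR.big
      rw [div_le_iff₀ h0] at e1
      have e2 : (0 : ℝ) ≤ 2 * (Cn + 1 : ℕ) * (1 + Fintype.card 𝒦) := by positivity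
      have e3 : (0 : ℝ) ≤ (1 + Fintype.card 𝒦) * η' * Q.N0 := by positivity
      nlinarith [mul_le_mul_of_nonneg_left e1 e2, mul_le_mul_of_nonneg_right h1 hN0.le])
  obtain ⟨x₁, hx₁⟩ := ex_of_cnt (r1.2.1 M.k1)
  obtain ⟨x₂, hx₂⟩ := ex_of_cnt (f := lab') (k := j') (by rw [hl', if_pos rfl]; positivity)
  obtain ⟨e₁, he₁⟩ := exists_option hcard x₁
  obtain ⟨e₂, he₂⟩ := exists_option hcard x₂
  obtain ⟨νp, hνp⟩ := hH.exists (Option ι)
  obtain ⟨R, hRk, k1, k2⟩ := hcore ι₀ ι G Q θ ν₀ blk₀ lab₀ a P z ν νp (fun o => blk' (e₁ o)) (fun o => lab' (e₂ o))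
    hGy hL hR hν hνp (by simp only [he₁, hx₁]) (fun k => by rw [cnt_equiv]; exact c1 k)
    (fun j => by rw [cnt_equiv]; exact c2 j)
  have hs := sum_eps hR.ok
  have k3 := k1 (fun _ => Q.ε ^ 2) 0 (fun _ _ => pow_pos hR.ok.ε_pos 2) (by linarith [hs.1]) (by simp)
  rw [probe_self hR.ok.ε_pos.le, add_zero] at k3
  simp only [he₂, hx₂] at k3
  have q1 := (cls_re (M := M) (G := G) (Q := Q) (θ := θ) hνp hν' (cnt_equiv blk' e₁) (cnt_equiv lab' e₂)).1
  have q2 := (cls_re (M := M) (G := G) (Q := Q) (θ := θ) hν hν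
    (blk := fun i => if R k' = some i then M.k1 else blk' (e₁ (some i))) (lab := fun i => lab' (e₂ (some i)))
    (blk' := blk) (lab' := lab) (fun k => by
      have a1 := cnt_update (fun o => blk' (e₁ o)) (R k') M.k1 k
      have a2 := cnt_some (Function.update (fun o => blk' (e₁ o)) (R k') M.k1) k
      have a3 : Function.update (fun o => blk' (e₁ o)) (R k') M.k1 none = M.k1 := by
        rw [Function.update_apply]
        split_ifs
        · rfl
        · simp only [he₁, hx₁]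
      have a4 : (fun i => Function.update (fun o => blk' (e₁ o)) (R k') M.k1 (some i)) =
          fun i => if R k' = some i then M.k1 else blk' (e₁ (some i)) := by
        funext i
        simp only [Function.update_apply, eq_comm (a := some i)]
      have a5 := hRk k'
      rw [a3, a4] at a2
      simp only [a5, cnt_equiv, hb', eq_comm (a := k')] at a1
      omega) (fun j => by
      have a2 := cnt_some (fun o => lab' (e₂ o)) j
      simp only [he₂, hx₂, cnt_equiv, hl', eq_comm (a := j')] at a2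
      omega)).1
  linarith [(abs_le.1 k3).1, k2 k']

open IncA CavA in
theorem prb (hM : M.OK) (hH : HaarAll) {y η : ℝ} (hy : 0 < y) (hη : 0 < η) (L : ℝ) :
    ∃ η' : ℝ, 0 < η' ∧ ∀ (ι₀ : Type) [Fintype ι₀] [DecidableEq ι₀] (G : Grid) (Q : CP) (θ : ℕ ⊕ Fin J → ℝ)
      (ν₀ : ProbabilityMeasure (OG ι₀)) (blk₀ : ι₀ → 𝒦) (lab₀ : ι₀ → Fin J) (a : ℕ → ℝ) (P : PP)
      (z : Fin J → ℝ) (h : ℕ → ℝ),
      G.ζ 0 = y → Q.L = L → RefD M G Q θ ν₀ blk₀ lab₀ a P z η' →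
      (h = fun l => Q.ε ^ 2 + G.dh (fun i => Bf M.α M.μ (G.D a i)) l) → ∀ j,
      |z j / (M.γ j * Q.N0) - M1 G h (beff M Q θ j (ybar M Q z j))| ≤ η ∧
      ∀ l ∈ Ico 1 (G.n - 1),
        |(∑ r ∈ fib lab₀ j, Tst G ν₀ (cls M G Q blk₀ lab₀ θ) (sg G r) l) / (M.γ j * Q.N0) -
          T1 G h (beff M Q θ j (ybar M Q z j)) l| ≤ η := by
  have ha := hM.atom.a0_pos
  set B : ℝ := 2 + M.Λ ^ 2 * (4 / M.a0) with hB
  have hB2 : 2 ≤ B := le_add_of_nonneg_right (by positivity)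
  set s : ℝ := min 1 (η / (24 * (1 + B))) with hs
  have hs0 : 0 < s := by positivity
  have hs1 : s ≤ 1 := min_le_left _ _
  have hs2 : 24 * (1 + B) * s ≤ η := by
    have := min_le_right 1 (η / (24 * (1 + B)))
    rw [← hs, le_div_iff₀ (by positivity)] at this
    linarith
  set δ := s ^ 2 with hδ
  have hδ0 : 0 < δ := by positivity
  have hδ1 : δ ≤ s := by nlinarith
  obtain ⟨η₁, hη₁, -, hcore⟩ := core hM hH hy (η := η * δ / 8) (by positivity) L 0
  set Γ : ℝ := ∑ j, (M.γ j : ℝ)⁻¹ with hΓ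
  have hΓ0 : 0 ≤ Γ := sum_nonneg fun j _ => inv_nonneg.2 (gam_le hM j).1.le
  have hlog : 0 ≤ Real.log 2 := Real.log_nonneg one_le_two
  obtain ⟨η', h0, h1, h2, h3, h4, -⟩ := ex7 hη₁ one_pos (c := 1 / (Real.log 2 / y + 1)) (d := η / 4 / (Γ + 1))
    (by positivity) (by positivity) one_pos one_pos one_pos
  refine ⟨η', h0, fun ι₀ _ _ G Q θ ν₀ blk₀ lab₀ a P z h hGy hL hR hh j => ?_⟩
  have hN0 : 0 < Q.N0 := one_pos.trans_le hR.ok.N0_ge
  have hγ := gam_le hM j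
  have hγN : 0 < (M.γ j : ℝ) * Q.N0 := mul_pos hγ.1 hN0
  have hε := hR.ok.ε_pos
  have hse := sum_eps hR.ok
  have hR1 : RefD M G Q θ ν₀ blk₀ lab₀ a P z η₁ :=
    ⟨hR.ok, hR.box, hR.haar, hR.card, (one_div_le_one_div_of_le h0 h1).trans hR.big, hR.cblk, hR.clab, hR.σ_le,
      pin_mono hR.pin h0 h1, hR.sec, hR.z_le⟩
  obtain ⟨x₁, hx₁⟩ := ex_of_cnt (f := blk₀) (k := M.k1) (by
    rw [hR.cblk]; exact mul_pos (ha.trans_le (hM.α_ge _)) hN0)
  obtain ⟨x₂, hx₂⟩ := ex_of_cnt (f := lab₀) (k := j) (by rw [hR.clab]; exact hγN)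
  have hcard : Fintype.card ι₀ = Fintype.card (Fin (Fintype.card ι₀ - 1)) + 1 := by
    have : 0 < Fintype.card ι₀ := Fintype.card_pos_iff.2 ⟨x₁⟩
    rw [Fintype.card_fin]; omega
  obtain ⟨e₁, he₁⟩ := exists_option hcard x₁
  obtain ⟨e₂, he₂⟩ := exists_option hcard x₂
  obtain ⟨ν, hν⟩ := hH.exists (Fin (Fintype.card ι₀ - 1))
  obtain ⟨νp, hνp⟩ := hH.exists (Option (Fin (Fintype.card ι₀ - 1)))
  obtain ⟨R, -, k1, -⟩ := hcore ι₀ _ G Q θ ν₀ blk₀ lab₀ a P z ν νp (fun o => blk₀ (e₁ o)) (fun o => lab₀ (e₂ o))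
    hGy hL hR1 hν hνp (by simp only [he₁, hx₁]) (fun k => by rw [cnt_equiv]; simp)
    (fun j => by rw [cnt_equiv]; simp)
  simp only [he₂, hx₂] at k1
  obtain ⟨-, q1, q2⟩ := cls_re (M := M) (G := G) (Q := Q) (θ := θ) hνp hR.haar (cnt_equiv blk₀ e₁)
    (cnt_equiv lab₀ e₂)
  obtain ⟨q3, q4⟩ := cls_exch (M := M) (G := G) (Q := Q) (θ := θ) (blk := fun o => blk₀ (e₁ o))
    (lab := fun o => lab₀ (e₂ o)) hνp none
  simp only [he₂, hx₂, cnt_equiv, hR.clab] at q3 q4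
  set S := cls M G Q (fun o => blk₀ (e₁ o)) (fun o => lab₀ (e₂ o)) θ with hS
  set b := beff M Q θ j (ybar M Q z j) with hb
  have hpath := hR.pin.path
  have hh0 : ∀ l, 0 ≤ h l := fun l => by
    rw [hh]
    exact add_nonneg (sq_nonneg _) (hpath.dh_nonneg hM.atom.Bf_mono l)
  have k0 := k1 (fun _ => Q.ε ^ 2) 0 (fun _ _ => pow_pos hε 2) (by linarith [hse.1]) (by simp)
  rw [probe_self hε.le, add_zero, famA, ← hh] at k0
  refine ⟨?_, fun l hl => ?_⟩
  · have hδa : |δ| ≤ 1 := by rw [abs_of_pos hδ0]; linarith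
    have k2 := k1 (fun _ => Q.ε ^ 2) δ (fun _ _ => pow_pos hε 2) (by linarith [hse.1]) hδa
    rw [probe_P hε.le, famA, ← hh] at k2
    have p1 := probe_pot (G := G) (ν := νp) (S := S) none hδa
    have p2 := probe_one_b (G := G) (v := h) (b := b) (fun l _ => hh0 l) hδa
    have p3 : |E0 G νp S (sg G none) - M1 G h b| ≤ η / 4 + 2 * δ := by
      refine le_of_mul_le_mul_left ?_ hδ0
      rw [← abs_of_pos hδ0, ← abs_mul, abs_of_pos hδ0]
      rw [abs_le] at k0 k2 p1 p2 ⊢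
      constructor <;> nlinarith [k0.1, k0.2, k2.1, k2.2, p1.1, p1.2, p2.1, p2.2]
    have d1 := (hR.sec j).det hR.pin.tiny.σ_pos G.n
    have d2 : EE G ν₀ (cls M G Q blk₀ lab₀ θ) G.n (Ham G (dirP (mg lab₀ j))) = fun ω => mg lab₀ j (sb G ω) := by
      rw [EE, Tree.Ex_of_le (T := tree G ν₀) (l := G.n) le_rfl]
      funext ω
      exact Ham_dirP _ ω
    rw [d2] at d1
    have d3 := tiny_err (C := Real.log 2 / G.ζ 0) hR.pin.tiny h0 h2 (hR.sec j).nonneg (by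
      rw [hGy, le_div_iff₀ h0]
      rw [le_div_iff₀ (by positivity)] at h3
      nlinarith)
    have d4 : ((fib blk₀ M.k0).card : ℝ) ≤ Q.N0 := by
      rw [← hR.card]; exact_mod_cast card_le_univ _
    have hH0 := lin_Ham G ν₀ (cls M G Q blk₀ lab₀ θ)
    have t1 := (lin_spin (G := G) (ν := ν₀) (mg lab₀ j)).tame
    have d5 := Tree.abs_Ex_le hH0 (t1.sub (Tree.Tame.const (z j))) 0 pt0
    rw [Tree.Ex_sub hH0 t1 (Tree.Tame.const _), Tree.Ex_const hH0] at d5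
    have d6 : |E0 G ν₀ (cls M G Q blk₀ lab₀ θ) (fun ω => mg lab₀ j (sb G ω)) - z j| ≤ η' * Q.N0 :=
      d5.trans (d1.trans (d3.trans (mul_le_mul_of_nonneg_left d4 h0.le)))
    rw [← q1 j, q3] at d6
    have d7 : |z j / (M.γ j * Q.N0) - E0 G νp S (sg G none)| ≤ η / 4 := by
      rw [div_sub' hγN.ne', abs_div, abs_of_pos hγN, div_le_iff₀ hγN, abs_sub_comm]
      refine d6.trans ?_
      rw [← mul_assoc]
      refine mul_le_mul_of_nonneg_right ?_ hN0.le
      have e1 : (M.γ j : ℝ)⁻¹ ≤ Γ :=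
        single_le_sum (f := fun j => (M.γ j : ℝ)⁻¹) (fun j _ => inv_nonneg.2 (gam_le hM j).1.le) (mem_univ j)
      rw [le_div_iff₀ (by positivity)] at h4
      have e2 : η' * (M.γ j : ℝ)⁻¹ ≤ η / 4 := by nlinarith [mul_le_mul_of_nonneg_left e1 h0.le]
      rwa [← div_eq_mul_inv, div_le_iff₀ hγ.1] at e2
    have := abs_sub_le (z j / (M.γ j * Q.N0)) (E0 G νp S (sg G none)) (M1 G h b)
    nlinarith
  · have hsum : ∑ l' ∈ Ico 1 (G.n - 1), Function.update (fun _ => Q.ε ^ 2) l (Q.ε ^ 2 + δ) l' ≤ 2 := by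
      rw [sum_update_of_mem hl]
      have e1 := hse.1
      rw [← add_sum_erase _ _ hl, ← sdiff_singleton_eq_erase] at e1
      linarith
    have k2 := k1 (Function.update (fun _ => Q.ε ^ 2) l (Q.ε ^ 2 + δ)) 0 (fun l' _ => by
      rw [Function.update_apply]; split_ifs <;> positivity) hsum (by simp)
    have hv : (fun l' => Function.update (fun _ => Q.ε ^ 2) l (Q.ε ^ 2 + δ) l' +
        G.dh (fun i => Bf M.α M.μ (G.D a i)) l') = Function.update h l (h l + δ) := by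
      funext l'
      by_cases hl' : l' = l
      · rw [hl', Function.update_self, Function.update_self, hh]; ring
      · rw [Function.update_of_ne hl', Function.update_of_ne hl', hh]
    rw [probe_S hε.le, add_zero, famA, hv] at k2
    have hSs : S.s l none = Q.ε := rfl
    have hsq : Real.sqrt (Q.ε ^ 2 + δ) ^ 2 = Q.ε ^ 2 + δ := Real.sq_sqrt (by positivity)
    have hq1 : Q.ε ≤ Real.sqrt (Q.ε ^ 2 + δ) := Real.le_sqrt_of_sq_le (by linarith)
    have hq2 : Real.sqrt (Q.ε ^ 2 + δ) ≤ Q.ε + s := Real.sqrt_le_iff.2 ⟨by positivity, by nlinarith⟩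
    have p1 := probe (G := G) (ν := νp) (S := S) hl none (t := Real.sqrt (Q.ε ^ 2 + δ) - Q.ε) (B := B)
      (by rw [hSs]; constructor <;> linarith [hse.2])
      (by rw [hSs, add_sub_cancel]; constructor <;> linarith [hse.2])
    rw [hSs, add_sub_cancel, hsq, add_sub_cancel_left, abs_of_pos hδ0,
      abs_of_nonneg (sub_nonneg.2 hq1)] at p1
    have hhl : h l + δ ≤ B ^ 2 := by
      have e1 := hpath.sum_abs_dh (f := Bf M.α M.μ) (L := M.Λ ^ 2)
        (fun d hd d' hd' => hM.atom.Bf_lip hd.1 hd'.1) (sq_nonneg _)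
      have e2 := single_le_sum (f := fun i => |G.dh (fun i => Bf M.α M.μ (G.D a i)) i|)
        (fun _ _ => abs_nonneg _) (mem_range.2 (show l < G.n by have := (mem_Ico.1 hl).2; omega))
      have e3 := le_abs_self (G.dh (fun i => Bf M.α M.μ (G.D a i)) l)
      have e4 : h l + δ ≤ B := by
        rw [hh, hB]
        nlinarith [hse.2]
      nlinarith
    have p2 := probe_one (G := G) (v := h) (b := b) (fun l _ => hh0 l) hl (δ := δ) (B := B) (by linarith)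
      (by linarith [hh0 l]) (by linarith) hhl
    rw [abs_of_pos hδ0, hδ, Real.sqrt_sq hs0.le, ← hδ] at p2
    have p3 : 3 * (1 + B) * δ * (Real.sqrt (Q.ε ^ 2 + δ) - Q.ε) ≤ 3 * (1 + B) * δ * s :=
      mul_le_mul_of_nonneg_left (by linarith) (by positivity)
    have p4 : 3 * (1 + B) * δ * s ≤ δ * η / 8 := by nlinarith [mul_le_mul_of_nonneg_left hs2 hδ0.le]
    rw [← q2 j l, q4 l, mul_div_cancel_left₀ _ hγN.ne']
    refine le_of_mul_le_mul_left ?_ (half_pos hδ0)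
    rw [← abs_of_pos (half_pos hδ0), ← abs_mul, abs_of_pos (half_pos hδ0)]
    rw [abs_le] at k0 k2 p1 p2 ⊢
    constructor <;> nlinarith [k0.1, k0.2, k2.1, k2.2, p1.1, p1.2, p2.1, p2.2]

end Crest.Agent.R164
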