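import Crest.Agent.R164.Sym_A
import Crest.Agent.R164.Haar2

/-!
Row 164, task R164-Sym: symmetries of the systems (relabelling, rotations), the root value, sub-Gaussian bound in a free block.

PLAN.  All from `Tree.map_all` / `Tree.map` with a measure preserving map of the noise (`MeasurePreserving.prod`, `IsHaar.re`,
`measurePreserving_piCongrLeft`/`arrowCongr'` for the Gaussian and spin coordinates, `gam_rot`), and `base_indep`.
`Xr`: compare `tree G ν` with `tree G (dirac 1)` by `Tree.map` with `l₀ = 1`, `π e = (1, e.2)`; `exp_X_step` at level `0`;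
`X H 1 ω` only depends on `(ω 0).1` (use `Tree.map`/`loc`).
`block_exp`: for signs `ε : B' → ±1` let `v_ε = |v|/√|B'| Σ ε_i e_i`; the Householder reflection `O = 1 - 2 w wᵀ/|w|²`, `w = v - v_ε`, is
the identity outside `B`, fixes `ω`, exchanges `v` and `v_ε`; so `E0 exp (v ⬝ x) = E0 exp (v_ε ⬝ x)` (`E0_rot`); average over
`ε` (`Ex_sum`): `Π cosh (c x_i) ≤ exp (c² |x|²/2)` (`Real.cosh_le_exp_half_sq`).
`block_four`: `t⁴ z⁴/24 ≤ cosh (t z)`, with `t² |v|² N = |B'|`.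
-/

set_option autoImplicit false

namespace Crest.Agent.R164

open MeasureTheory Finset Matrix ProbabilityTheory SymA

variable {ι ι' : Type} [Fintype ι] [DecidableEq ι] [Fintype ι'] [DecidableEq ι']
variable {G : Grid} {ν : ProbabilityMeasure (OG ι)} {ν' : ProbabilityMeasure (OG ι')}

/-- pull back along relabellings of the coordinates (`e₁`) and of the sites (`e₂`) -/
def Sys.re (S : Sys ι') (e₁ e₂ : ι ≃ ι') : Sys ι where
  lam := fun i => S.lam (e₁ i)
  pot := fun σ => S.pot fun j => σ (e₂.symm j)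
  s := fun l r => S.s l (e₂ r)
  u := fun l i => S.u l (e₁ i)

namespace SymA

theorem map_sys {S : Sys ι} {S' : Sys ι'} (π : Noise ι → Noise ι')
    (hπ : MeasurePreserving π (tree G ν).γ (tree G ν').γ)
    (hH : ∀ ω, Ham G S ω = Ham G S' fun i => π (ω i)) {f : Pth ι' → ℝ} (hf : (tree G ν').Tame f) :
    (∀ l ω, EE G ν S l (fun ω => f fun i => π (ω i)) ω = EE G ν' S' l f fun i => π (ω i)) ∧
      phi G ν S = phi G ν' S' ∧
      (Loc G f → E0 G ν S (fun ω => f fun i => π (ω i)) = E0 G ν' S' f) := by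
  have key := fun l ω => Tree.map_all (T := tree G ν') (T' := tree G ν) rfl rfl (fun _ => π) (fun _ => hπ)
    (lin_Ham G ν' S') hf l ω
  simp only [← hH] at key
  refine ⟨fun l ω => (key l ω).2, (key 0 pt0).1.trans
    (base_indep (Tree.Tame.const 0) (fun _ _ _ => rfl) _).1, fun hl => (key 0 pt0).2.trans ?_⟩
  exact (base_indep hf hl _).2

theorem mp_re {X : Type} [MeasurableSpace X] (μ : Measure X) [IsProbabilityMeasure μ] (e : ι ≃ ι') :
    MeasurePreserving (fun (g : ι → X) (j : ι') => g (e.symm j)) (Measure.pi fun _ => μ)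
      (Measure.pi fun _ => μ) :=
  measurePreserving_arrowCongr' (fun _ => μ) (fun _ => μ) e (MeasurableEquiv.refl X)
    fun _ => MeasurePreserving.id μ

def reN (e₁ e₂ : ι ≃ ι') (e : Noise ι) : Noise ι' :=
  (reOG e₁ e₂ e.1, fun j => e.2.1 (e₂.symm j), fun j => e.2.2.1 (e₁.symm j), fun j => e.2.2.2 (e₂.symm j))

theorem mp_reN (h : IsHaar ν) (h' : IsHaar ν') (e₁ e₂ : ι ≃ ι') :
    MeasurePreserving (reN e₁ e₂) (tree G ν).γ (tree G ν').γ :=
  (h.re h' e₁ e₂).prod ((mp_re _ e₂).prod ((mp_re _ e₁).prod (mp_re _ e₂)))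

theorem sg_reN (e₁ e₂ : ι ≃ ι') (r : ι) (ω : Pth ι) :
    sg G (e₂ r) (fun i => reN e₁ e₂ (ω i)) = sg G r ω := by
  simp [sg, sb, reN, sp]

theorem Ham_re (S : Sys ι') (e₁ e₂ : ι ≃ ι') (ω : Pth ι) :
    Ham G (S.re e₁ e₂) ω = Ham G S fun i => reN e₁ e₂ (ω i) := by
  have hx : ∀ r, xx G (e₁ r) (fun i => reN e₁ e₂ (ω i)) = xx G r ω := fun r => by
    change ((reOG e₁ e₂ (ω 0).1).1 *ᵥ _) _ = _
    rw [reOG_mulVec, e₁.symm_apply_apply]
    exact congrArg (fun v => ((ω 0).1.1 *ᵥ v) r) (funext fun j => sg_reN e₁ e₂ j ω)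
  unfold Ham
  simp only [sum_add_distrib, ← e₁.sum_comp fun i => S.lam i * _, ← e₂.sum_comp fun i => S.s _ i * _,
    ← e₁.sum_comp fun i => S.u _ i * _, hx, sg_reN]
  simp only [gs, gx, reN, Equiv.symm_apply_apply]
  rfl

end SymA

theorem phi_re (h : IsHaar ν) (h' : IsHaar ν') (S : Sys ι') (e₁ e₂ : ι ≃ ι') :
    phi G ν (S.re e₁ e₂) = phi G ν' S := by
  exact (map_sys _ (mp_reN h h' e₁ e₂) (Ham_re S e₁ e₂) (Tree.Tame.const 0)).2.1
theorem E0_re (h : IsHaar ν) (h' : IsHaar ν') (S : Sys ι') (e₁ e₂ : ι ≃ ι') (F : (ι' → Bool) → ℝ) :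
    E0 G ν (S.re e₁ e₂) (fun ω => F fun j => sb G ω (e₂.symm j)) = E0 G ν' S fun ω => F (sb G ω) := by
  exact (map_sys _ (mp_reN h h' e₁ e₂) (Ham_re S e₁ e₂) (lin_spin F).tame).2.2 (loc_sb F)
theorem ov_re (h : IsHaar ν) (h' : IsHaar ν') (S : Sys ι') (e₁ e₂ : ι ≃ ι') (r : ι) (i : ℕ) :
    ov G ν (S.re e₁ e₂) (sg G r) (sg G r) i = ov G ν' S (sg G (e₂ r)) (sg G (e₂ r)) i := by
  unfold ov
  split_ifs
  · rfl
  have h1 := (map_sys _ (mp_reN (G := G) h h' e₁ e₂) (Ham_re S e₁ e₂) (lin_sg (e₂ r)).tame).1 i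
  simp only [sg_reN] at h1
  have t1 : (tree G ν').Tame (EE G ν' S i (sg G (e₂ r))) := Tree.tame_Ex (lin_Ham G ν' S) (lin_sg _).tame i
  have l1 : Loc G (EE G ν' S i (sg G (e₂ r))) := (loc_sb fun σ => sp σ (e₂ r)).EE i
  rw [← (map_sys _ (mp_reN h h' e₁ e₂) (Ham_re S e₁ e₂) (t1.mul t1)).2.2
    fun ω ω' hω => by simp only [l1 ω ω' hω]]
  simp only [← h1]

variable {S : Sys ι}

/-- `O` commutes with the spectrum and with the field strengths -/
def Comm (G : Grid) (S : Sys ι) (O : OG ι) : Prop :=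
  ∀ i j, O.1 i j ≠ 0 → S.lam i = S.lam j ∧ ∀ l ∈ Ico 1 (G.n - 1), S.u l i = S.u l j

namespace SymA

theorem sum_rot {O : OG ι} {d : ι → ℝ} (h : ∀ i j, O.1 i j ≠ 0 → d i = d j) (a b : ι → ℝ) :
    ∑ i, d i * ((O.1 *ᵥ a) i * (O.1 *ᵥ b) i) = ∑ i, d i * (a i * b i) := by
  have e : ∀ i, d i * (O.1 *ᵥ a) i = (O.1 *ᵥ fun j => d j * a j) i := fun i => by
    simp only [mulVec, dotProduct, mul_sum]
    refine sum_congr rfl fun j _ => ?_
    by_cases h0 : O.1 i j = 0
    · simp [h0]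
    · rw [h i j h0]; ring
  simp only [← mul_assoc, e]
  exact OG.dot_mulVec O _ _

def rotN (O : OG ι) (e : Noise ι) : Noise ι := (O * e.1, e.2.1, O.1 *ᵥ e.2.2.1, e.2.2.2)

theorem xv_rot (O : OG ι) (ω : Pth ι) : xv G (fun i => rotN O (ω i)) = O.1 *ᵥ xv G ω := by
  change (O * (ω 0).1).1 *ᵥ _ = _
  rw [Submonoid.coe_mul, ← mulVec_mulVec]
  rfl

theorem Ham_rot {O : OG ι} (hc : Comm G S O) (ω : Pth ι) : Ham G S ω = Ham G S fun i => rotN O (ω i) := by
  unfold Ham xx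
  simp only [xv_rot, sq, sum_add_distrib]
  rw [sum_rot fun i j h => (hc i j h).1]
  congr 2
  refine sum_congr rfl fun l hl => ?_
  exact (sum_rot (fun i j h => (hc i j h).2 l hl) _ _).symm

end SymA

theorem E0_rot {O : OG ι} (hO : (ν : Measure (OG ι)).map (fun U => O * U) = ν) (hc : Comm G S O)
    {F : (ι → ℝ) → ℝ} (hF : Continuous F) :
    E0 G ν S (fun ω => F (O.1 *ᵥ xv G ω)) = E0 G ν S fun ω => F (xv G ω) := by
  have hπ : MeasurePreserving (rotN O) (tree G ν).γ (tree G ν).γ :=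
    MeasurePreserving.prod ⟨Haar.measurable_left O, hO⟩
      ((MeasurePreserving.id _).prod ((gam_rot O).prod (MeasurePreserving.id _)))
  rw [← (map_sys _ hπ (Ham_rot hc) (lin_xv hF).tame).2.2 (loc_xv F)]
  simp only [xv_rot]

/-- left multiplication of the matrix component -/
def rootMul (O : OG ι) (e : Noise ι) : Noise ι := (O * e.1, e.2)

theorem rootMul_mp {O : OG ι} (hO : (ν : Measure (OG ι)).map (fun U => O * U) = ν) :
    MeasurePreserving (rootMul O) (tree G ν).γ (tree G ν).γ := by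
  exact MeasurePreserving.prod ⟨Haar.measurable_left O, hO⟩ (MeasurePreserving.id _)

/-- the value after integrating all levels except the root -/
noncomputable def Xr (G : Grid) (S : Sys ι) (U : OG ι) : ℝ :=
  (tree G ⟨Measure.dirac 1, inferInstance⟩).X (Ham G S) 1 fun _ => (U, 0, 0, fun _ => true)

theorem X_one (ω : Pth ι) : (tree G ν).X (Ham G S) 1 ω = Xr G S (ω 0).1 := by
  refine (Tree.map (T := tree G ⟨Measure.dirac 1, inferInstance⟩) (T' := tree G ν) rfl rfl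
    (fun _ e => (1, e.2)) 1 (fun _ _ _ => ?_) (lin_Ham G _ S) (Tree.Tame.const 0) (f' := fun _ => 0) _ ω
    fun ω'' h => ⟨Ham_eq_of S ?_ fun l h1 h2 => ?_, rfl⟩).1
  · exact MeasurePreserving.prod (f := fun _ => 1) ⟨measurable_const, by simp⟩ (MeasurePreserving.id _)
  · simp [h 0 (Or.inl one_pos)]
  · rw [if_pos ⟨h1, h2⟩]
theorem measurable_Xr : Measurable (Xr G S) := by
  exact (Tree.lin_X (lin_Ham G _ S) 1).1.comp
    (measurable_pi_lambda _ fun _ => measurable_id.prodMk measurable_const)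
theorem Xr_bdd : ∃ C : ℝ, ∀ U, |Xr G S U| ≤ C := by
  obtain ⟨-, C, hC⟩ := Tree.lin_X (lin_Ham G ⟨Measure.dirac 1, inferInstance⟩ S) 1
  exact ⟨C * (1 + (tree G ⟨Measure.dirac 1, inferInstance⟩).sz pt0), fun U => hC _⟩
theorem exp_phi : Real.exp (G.ζ 0 * phi G ν S) =
    ∫ U, Real.exp (G.ζ 0 * Xr G S U) ∂(ν : Measure (OG ι)) := by
  refine (Tree.exp_X_step (T := tree G ν) (lin_Ham G ν S) (n0 G) pt0).trans ?_
  simp only [zero_add, X_one, Function.update_self]
  exact int_root fun U => Real.exp (G.ζ 0 * Xr G S U)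
theorem Xr_rot {O : OG ι} (hc : Comm G S O) (U : OG ι) : Xr G S (O * U) = Xr G S U := by
  refine (Tree.map (T := tree G ⟨Measure.dirac 1, inferInstance⟩) (T' := tree G ⟨Measure.dirac 1, inferInstance⟩)
    rfl rfl (fun _ e => (e.1, e.2.1, O.1 *ᵥ e.2.2.1, e.2.2.2)) 1 (fun _ _ _ => ?_) (lin_Ham G _ S)
    (Tree.Tame.const 0) (f' := fun _ => 0) _ _
    fun ω'' h => ⟨(Ham_rot hc ω'').trans (Ham_eq_of S ?_ fun l h1 h2 => ?_), rfl⟩).1.symm
  · exact (MeasurePreserving.id _).prod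
      ((MeasurePreserving.id _).prod ((gam_rot O).prod (MeasurePreserving.id _)))
  · simp [h 0 (Or.inl one_pos), rotN]
  · rw [if_pos ⟨h1, h2⟩]
    rfl
theorem Xr_nofield (h : ∀ l ∈ Ico 1 (G.n - 1), ∀ i, S.s l i = 0 ∧ S.u l i = 0) (U : OG ι) :
    Xr G S U = fN S.lam S.pot U := by
  have hH : ∀ ω : Pth ι, Ham G S ω =
      (1 / 2) * ∑ i, S.lam i * ((ω 0).1.1 *ᵥ sp (sb G ω)) i ^ 2 + S.pot (sb G ω) := fun ω => by
    unfold Ham
    rw [sum_eq_zero fun l hl => sum_eq_zero fun i _ => by rw [(h l hl i).1, (h l hl i).2]; simp, add_zero]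
    rfl
  have key : ∀ l, l ≤ G.n - 1 → 1 ≤ l → ∀ ω : Pth ι,
      (tree G ⟨Measure.dirac 1, inferInstance⟩).X (Ham G S) l ω = fN S.lam S.pot (ω 0).1 := by
    intro l hl
    induction hl using Nat.decreasingInduction with
    | self =>
      intro h1 ω
      rw [Tree.X_step (n1 G), Tree.X_of_le (by change G.n ≤ _; omega)]
      change (G.ζ (G.n - 1))⁻¹ * Real.log (∫ e, Real.exp (G.ζ (G.n - 1) * _) ∂_) = _
      simp only [G.top, inv_one, one_mul, hH, sb, Function.update_self,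
        Function.update_of_ne (show 0 ≠ G.n - 1 by omega)]
      rw [int_spin (F := fun σ => Real.exp ((1 / 2) * ∑ i, S.lam i * ((ω 0).1.1 *ᵥ sp σ) i ^ 2 + S.pot σ))]
      rfl
    | of_succ k hk ih =>
      intro h1 ω
      have := (tree G (⟨Measure.dirac 1, inferInstance⟩ : ProbabilityMeasure (OG ι))).prob
      rw [Tree.X_step (show k < G.n by omega)]
      simp only [ih (by omega), Function.update_of_ne (show 0 ≠ k by omega), integral_const, probReal_univ,
        one_smul, Real.log_exp]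
      rw [← mul_assoc, inv_mul_cancel₀ (Tree.ζ_pos _ k).ne', one_mul]
  exact key 1 (n2 G) le_rfl _
theorem phi_nofield (h : ∀ l ∈ Ico 1 (G.n - 1), ∀ i, S.s l i = 0 ∧ S.u l i = 0) :
    phi G ν S = (G.ζ 0)⁻¹ * Real.log (∫ U, Real.exp (G.ζ 0 * fN S.lam S.pot U) ∂(ν : Measure (OG ι))) := by
  simp only [← Xr_nofield h]
  rw [← exp_phi, Real.log_exp, ← mul_assoc, inv_mul_cancel₀ (G.pos 0).ne', one_mul]

theorem SymA.ae_fam {ν : ProbabilityMeasure (OG ι)} (Õ : OG (Option ι)) :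
    ∀ᵐ e ∂(tree G (famν Õ ν)).γ, e ∈ {e : Noise (Option ι) |
      ∀ σ, (fun o => Õ.1 o none) ⬝ᵥ (e.1.1 *ᵥ sp σ) = sp σ none} := by
  have h1 : ∀ᵐ U ∂(famν Õ ν : Measure (OG (Option ι))),
      ∀ σ, (fun o => Õ.1 o none) ⬝ᵥ (U.1 *ᵥ sp σ) = sp σ none := by
    rw [ae_all_iff]
    intro σ
    rw [← (famν_mp Õ ν).map_eq, ae_map_iff (famν_mp Õ ν).measurable.aemeasurable]
    · refine Filter.Eventually.of_forall fun U => ?_
      have e : (fun o => Õ.1 o none) = Õ.1 *ᵥ Pi.single none 1 := by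
        funext o; simp
      rw [e, Submonoid.coe_mul, ← mulVec_mulVec, OG.dot_mulVec, single_dotProduct, one_mul, ext1_mulVec_none]
    · exact measurableSet_eq_fun (Finset.measurable_sum _ fun o _ =>
        (Haar.measurable_mulVec _ o).const_mul _) measurable_const
  exact (measurePreserving_fst.quasiMeasurePreserving).ae h1

/-- for the root law `Õ (1 ⊕ U)` the first column of `Õ` reads off the cavity spin -/
theorem ov_fam {ν : ProbabilityMeasure (OG ι)} (Õ : OG (Option ι)) (S : Sys (Option ι)) (i : ℕ) :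
    ov G (famν Õ ν) S (xl G fun o => Õ.1 o none) (xl G fun o => Õ.1 o none) i =
      ov G (famν Õ ν) S (sg G none) (sg G none) i := by
  unfold ov
  split_ifs with hi
  · rfl
  refine (Tree.root_congr (T := tree G (famν Õ ν)) (n0 G) (ae_fam Õ) (fun ω hω => ⟨rfl, ?_⟩) pt0).2
  have := (Tree.loc (T := tree G (famν Õ ν)) (H := Ham G S) (H' := Ham G S) (f := xl G fun o => Õ.1 o none)
    (f' := sg G none) i ω fun ω' h => ⟨rfl, by
      have h1 := hω (sb G ω')
      rw [← h 0 (Or.inl (by omega))] at h1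
      exact h1⟩).2
  unfold EE
  rw [this]
theorem E0_fam {ν : ProbabilityMeasure (OG ι)} (Õ : OG (Option ι)) (S : Sys (Option ι))
    {F : ℝ → (Option ι → ℝ) → ℝ} (hF : Continuous (Function.uncurry F)) :
    E0 G (famν Õ ν) S (fun ω => F (xl G (fun o => Õ.1 o none) ω) (xv G ω)) =
      E0 G (famν Õ ν) S fun ω => F (sg G none ω) (xv G ω) := by
  have _ := hF
  refine (Tree.root_congr (T := tree G (famν Õ ν)) (n0 G) (ae_fam Õ) (fun ω hω => ⟨rfl, ?_⟩) pt0).2
  exact congrArg (fun x => F x (xv G ω)) (hω (sb G ω))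

theorem SymA.house (B : Finset ι) {v v' : ι → ℝ} (hv : ∀ i, i ∉ B → v i = v' i)
    (h : v ⬝ᵥ v = v' ⬝ᵥ v') :
    ∃ O : OG ι, O.1 *ᵥ v = v' ∧ (∀ i j, i ∉ B ∨ j ∉ B → O.1 i j = if i = j then 1 else 0) ∧
      ∀ w, (v - v') ⬝ᵥ w = 0 → O.1 *ᵥ w = w := by
  set u : ι → ℝ := v - v' with hu
  have huv : u ⬝ᵥ u = 2 * (u ⬝ᵥ v) := by
    simp only [hu, sub_dotProduct, dotProduct_sub, dotProduct_comm v' v]
    linarith
  refine ⟨⟨1 - (2 / (u ⬝ᵥ u)) • Matrix.vecMulVec u u, ?_⟩, ?_, ?_, ?_⟩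
  · rw [Matrix.mem_orthogonalGroup_iff]
    have ht : (1 - (2 / (u ⬝ᵥ u)) • Matrix.vecMulVec u u)ᵀ =
        1 - (2 / (u ⬝ᵥ u)) • Matrix.vecMulVec u u := by
      simp [Matrix.transpose_sub, Matrix.transpose_vecMulVec]
    rw [ht, sub_mul, mul_sub, mul_sub, one_mul, one_mul, mul_one, Matrix.smul_mul, Matrix.mul_smul,
      Matrix.vecMulVec_mul_vecMulVec, Matrix.vecMulVec_smul, smul_smul, smul_smul]
    have : 2 / (u ⬝ᵥ u) * (2 / (u ⬝ᵥ u)) * (u ⬝ᵥ u) = 2 / (u ⬝ᵥ u) + 2 / (u ⬝ᵥ u) := by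
      by_cases h0 : u ⬝ᵥ u = 0
      · simp [h0]
      · field_simp; ring
    rw [this, add_smul]
    abel
  · show (1 - (2 / (u ⬝ᵥ u)) • Matrix.vecMulVec u u) *ᵥ v = v'
    rw [Matrix.sub_mulVec, Matrix.one_mulVec, Matrix.smul_mulVec, Matrix.vecMulVec_mulVec]
    by_cases h0 : u ⬝ᵥ u = 0
    · have : u = 0 := dotProduct_self_eq_zero.1 h0
      rw [h0, div_zero, zero_smul, sub_zero]
      exact sub_eq_zero.1 this
    · have h1 : u ⬝ᵥ v ≠ 0 := fun h1 => h0 (by rw [huv, h1, mul_zero])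
      ext i
      simp only [Pi.sub_apply, Pi.smul_apply, smul_eq_mul, MulOpposite.smul_eq_mul_unop,
        MulOpposite.unop_op]
      rw [huv]
      have : u i = v i - v' i := rfl
      field_simp
      linarith
  · intro i j hij
    show (1 - (2 / (u ⬝ᵥ u)) • Matrix.vecMulVec u u) i j = _
    have : u i * u j = 0 := by
      rcases hij with hi | hj
      · simp [hu, hv i hi]
      · simp [hu, hv j hj]
    simp [Matrix.vecMulVec_apply, this, Matrix.one_apply]
  · intro w hw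
    show (1 - (2 / (u ⬝ᵥ u)) • Matrix.vecMulVec u u) *ᵥ w = w
    rw [Matrix.sub_mulVec, Matrix.one_mulVec, Matrix.smul_mulVec, Matrix.vecMulVec_mulVec, hw]
    simp

theorem block_exp {ω : ι → ℝ} (hν : LInv ν ω) {B B' : Finset ι} (hB : B' ⊆ B) (hne : B'.Nonempty)
    (hc : ∀ i ∈ B, ∀ j ∈ B, S.lam i = S.lam j ∧ ∀ l ∈ Ico 1 (G.n - 1), S.u l i = S.u l j)
    (hω : ∀ i ∈ B', ω i = 0) {v : ι → ℝ} (hv : ∀ i, i ∉ B → v i = 0) (hvω : v ⬝ᵥ ω = 0) :
    E0 G ν S (fun ω => Real.exp (xl G v ω)) ≤ Real.exp ((v ⬝ᵥ v) * Fintype.card ι / (2 * B'.card)) := by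
  have hk : (0 : ℝ) < B'.card := Nat.cast_pos.2 hne.card_pos
  have hvv : 0 ≤ v ⬝ᵥ v := sum_nonneg fun i _ => mul_self_nonneg _
  set c : ι → ℝ := fun i => if i ∈ B' then Real.sqrt (v ⬝ᵥ v / B'.card) else 0 with hcd
  have hc2 : ∀ i, c i ^ 2 = if i ∈ B' then v ⬝ᵥ v / B'.card else 0 := fun i => by
    simp only [hcd]
    split_ifs
    · exact Real.sq_sqrt (by positivity)
    · simp
  have tm : ∀ w : ι → ℝ, (tree G ν).Tame fun ω => Real.exp (xl G w ω) := fun w => (lin_xl w).exp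
  have h1 : ∀ ε : ι → Bool, E0 G ν S (fun ω => Real.exp (xl G v ω)) =
      E0 G ν S (fun ω => Real.exp (xl G (fun i => c i * sp ε i) ω)) := by
    intro ε
    obtain ⟨O, o1, o2, o3⟩ := house B (v := v) (v' := fun i => c i * sp ε i)
      (fun i hi => by simp only [hv i hi, hcd, if_neg fun h => hi (hB h), zero_mul]) (by
        have : ∀ i, c i * sp ε i * (c i * sp ε i) = if i ∈ B' then v ⬝ᵥ v / B'.card else 0 := fun i => by
          rw [← hc2, ← sq, mul_pow, sp_sq, mul_one]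
        change _ = ∑ i, c i * sp ε i * (c i * sp ε i)
        simp only [this, sum_ite_mem, univ_inter, sum_const, nsmul_eq_mul]
        field_simp)
    have hO := hν O (o3 ω (by
      rw [sub_dotProduct, hvω, zero_sub, neg_eq_zero]
      refine sum_eq_zero fun i _ => ?_
      by_cases hi : i ∈ B'
      · rw [hω i hi, mul_zero]
      · simp only [hcd, if_neg hi, zero_mul]))
    have hC : Comm G S O := fun i j hij => by
      by_cases h : i ∈ B ∧ j ∈ B
      · exact hc i h.1 j h.2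
      · rw [o2 i j (not_and_or.1 h)] at hij
        have : i = j := by simpa using hij
        subst this
        exact ⟨rfl, fun _ _ => rfl⟩
    have := E0_rot hO hC (F := fun x => Real.exp ((fun i => c i * sp ε i) ⬝ᵥ x)) (by fun_prop)
    refine Eq.trans ?_ this
    simp only [← o1, OG.dot_mulVec, xl]
  have h2 : E0 G ν S (fun ω => Real.exp (xl G v ω)) = E0 G ν S (fun ω => (1 / 2 : ℝ) ^ Fintype.card ι *
      ∑ ε : ι → Bool, Real.exp (xl G (fun i => c i * sp ε i) ω)) := by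
    unfold E0 EE at h1 ⊢
    rw [Tree.Ex_const_mul, Tree.Ex_sum (lin_Ham G ν S) _ fun ε _ => tm _]
    simp only [← h1]
    simp
  rw [h2]
  unfold E0 EE
  refine (Tree.Ex_mono (lin_Ham G ν S) ((Tree.Tame.sum _ fun ε _ => tm _).const_mul _) (Tree.Tame.const _)
    (fun ω' => ?_) _ _).trans (Tree.Ex_const (lin_Ham G ν S) _ _ _).le
  have e : ∀ ε : ι → Bool, xl G (fun i => c i * sp ε i) ω' = ∑ i, (c i * xx G i ω') * sp ε i := fun ε =>
    sum_congr rfl fun i _ => by unfold xx; ring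
  simp only [e]
  rw [sum_exp_sp]
  refine (prod_le_prod (fun i _ => (Real.cosh_pos _).le) fun i _ => Real.cosh_le_exp_half_sq _).trans ?_
  rw [← Real.exp_sum, Real.exp_le_exp, ← sum_xx_sq (G := G) ω', mul_sum, sum_div]
  refine sum_le_sum fun i _ => ?_
  rw [mul_pow, hc2]
  split_ifs
  · apply le_of_eq; field_simp
  · rw [zero_mul, zero_div]; positivity

theorem block_four {ω : ι → ℝ} (hν : LInv ν ω) {B B' : Finset ι} (hB : B' ⊆ B) (hne : B'.Nonempty)
    (hc : ∀ i ∈ B, ∀ j ∈ B, S.lam i = S.lam j ∧ ∀ l ∈ Ico 1 (G.n - 1), S.u l i = S.u l j)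
    (hω : ∀ i ∈ B', ω i = 0) {v : ι → ℝ} (hv : ∀ i, i ∉ B → v i = 0) (hvω : v ⬝ᵥ ω = 0) :
    E0 G ν S (fun ω => xl G v ω ^ 4) ≤ 40 * ((v ⬝ᵥ v) * Fintype.card ι / B'.card) ^ 2 := by
  have hk : (0 : ℝ) < B'.card := Nat.cast_pos.2 hne.card_pos
  have hN : (0 : ℝ) < Fintype.card ι := Nat.cast_pos.2 (Fintype.card_pos_iff.2 ⟨hne.choose⟩)
  have hvv : 0 ≤ v ⬝ᵥ v := sum_nonneg fun i _ => mul_self_nonneg _
  rcases hvv.eq_or_lt with h0 | h0
  · have : v = 0 := dotProduct_self_eq_zero.1 h0.symm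
    subst this
    simp only [xl, zero_dotProduct, E0, EE, Tree.Ex_const (lin_Ham G ν S)]
    simp
  set A : ℝ := (v ⬝ᵥ v) * Fintype.card ι / B'.card with hA
  have hA0 : 0 < A := by positivity
  have key : ∀ t : ℝ, t ^ 2 = 2 / A → E0 G ν S (fun ω => Real.exp (t * xl G v ω)) ≤ Real.exp 1 := by
    intro t ht
    have := block_exp (G := G) hν hB hne hc hω (v := t • v) (fun i hi => by rw [Pi.smul_apply, hv i hi, smul_zero])
      (by rw [smul_dotProduct, hvω, smul_zero])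
    have e : ∀ ω', xl G (t • v) ω' = t * xl G v ω' := fun ω' => smul_dotProduct _ _ _
    simp only [e] at this
    rw [smul_dotProduct, dotProduct_smul, smul_eq_mul, smul_eq_mul] at this
    refine this.trans (le_of_eq ?_)
    congr 1
    rw [← mul_assoc, ← sq, ht, hA]
    field_simp
  set t := Real.sqrt (2 / A)
  have ht : t ^ 2 = 2 / A := Real.sq_sqrt (by positivity)
  have k1 := key t ht
  have k2 := key (-t) (by rw [neg_sq, ht])
  have t1 : (tree G ν).Tame fun ω => Real.exp (t * xl G v ω) := ((lin_xl v).const_mul t).exp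
  have t2 : (tree G ν).Tame fun ω => Real.exp (-t * xl G v ω) := ((lin_xl v).const_mul (-t)).exp
  have h1 := Tree.Ex_mono (lin_Ham G ν S) ((lin_xl (G := G) v).tame.pow 4) ((t1.add t2).const_mul (6 * A ^ 2))
    (fun ω' => by
      have a1 := Real.pow_div_factorial_le_exp _ (abs_nonneg (t * xl G v ω')) 4
      have a2 : Real.exp |t * xl G v ω'| ≤ Real.exp (t * xl G v ω') + Real.exp (-t * xl G v ω') := by
        rcases abs_choice (t * xl G v ω') with h | h <;> rw [h]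
        · linarith [Real.exp_pos (-t * xl G v ω')]
        · rw [neg_mul]; linarith [Real.exp_pos (t * xl G v ω')]
      have a3 : |t * xl G v ω'| ^ 4 = (2 / A) ^ 2 * xl G v ω' ^ 4 := by
        rw [show (4 : ℕ) = 2 * 2 from rfl, pow_mul, sq_abs, mul_pow, ht]; ring
      rw [a3] at a1
      have a4 : xl G v ω' ^ 4 = 6 * A ^ 2 * ((2 / A) ^ 2 * xl G v ω' ^ 4 / (Nat.factorial 4 : ℕ)) := by
        simp only [Nat.factorial]; push_cast; field_simp; ring
      rw [a4]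
      exact mul_le_mul_of_nonneg_left (a1.trans a2) (mul_nonneg (by norm_num) (sq_nonneg A))) 0 pt0
  rw [Tree.Ex_const_mul, Tree.Ex_add (lin_Ham G ν S) t1 t2] at h1
  refine h1.trans ?_
  have := Real.exp_one_lt_d9
  unfold E0 EE at k1 k2
  nlinarith [sq_nonneg A]

end Crest.Agent.R164
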