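import Crest.Agent.R164.Pin
import Crest.Agent.R164.Sym

/-!
Row 164, helper for `Key`: the rational rotation in the plane `(γ, e_j)` and families along it.
-/

set_option autoImplicit false

namespace Crest.Agent.R164

open MeasureTheory Finset Matrix

namespace Tree

variable {E : Type} [MeasurableSpace E] {T : Tree E}

/-- a family of Hamiltonians with prescribed derivative at `0` -/
def LF (T : Tree E) (H : ℝ → (ℕ → E) → ℝ) (η : (ℕ → E) → ℝ) : Prop :=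
  ∃ H', T.LFam H H' 0 ∧ H' 0 = η

variable {H K : ℝ → (ℕ → E) → ℝ} {η κ f : (ℕ → E) → ℝ}

theorem LF.const (hf : T.Lin f) : T.LF (fun _ => f) fun _ => 0 :=
  ⟨fun _ _ => 0, lfam_iff.2 ⟨TFam.const hf.tame, UL.const hf⟩, rfl⟩

theorem LF.add (h : T.LF H η) (h' : T.LF K κ) :
    T.LF (fun t ω => H t ω + K t ω) fun ω => η ω + κ ω := by
  obtain ⟨H', a, rfl⟩ := h
  obtain ⟨K', b, rfl⟩ := h'
  exact ⟨_, a.add b, rfl⟩

theorem LF.const_mul (c : ℝ) (h : T.LF H η) : T.LF (fun t ω => c * H t ω) fun ω => c * η ω := by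
  obtain ⟨H', a, rfl⟩ := h
  exact ⟨_, a.const_mul c, rfl⟩

theorem LF.sum {α : Type*} (s : Finset α) {A : α → ℝ → (ℕ → E) → ℝ} {B : α → (ℕ → E) → ℝ}
    (h : ∀ i ∈ s, T.LF (A i) (B i)) :
    T.LF (fun t ω => ∑ i ∈ s, A i t ω) fun ω => ∑ i ∈ s, B i ω := by
  classical
  induction s using Finset.induction_on with
  | empty => simpa using LF.const (T := T) (Lin.const 0)
  | insert a s ha ih =>
    simp only [sum_insert ha]
    exact (h a (mem_insert_self _ _)).add (ih fun i hi => h i (mem_insert_of_mem hi))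

theorem LF.scal {c : ℝ → ℝ} (hc : ContDiff ℝ 1 c) {d : ℝ} (hd : HasDerivAt c d 0) (hf : T.Lin f) :
    T.LF (fun t ω => c t * f ω) fun ω => d * f ω := by
  have h := LFam.comb (T := T) (t₀ := 0) ({()} : Finset Unit) (c := fun _ => c)
    (c' := fun _ => deriv c) (f := fun _ => f) one_pos
    (fun _ _ t _ => (hc.differentiable one_ne_zero t).hasDerivAt)
    (fun _ _ => (hc.continuous_deriv le_rfl).continuousAt) (fun _ _ => hf)
  simp only [sum_singleton] at h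
  exact ⟨_, h, by simp only [hd.deriv]⟩

theorem LF.mul (h : T.LF H η) (h' : T.LF K κ) {C : ℝ} (hC : ∀ t ω, |K t ω| ≤ C) :
    T.LF (fun t ω => H t ω * K t ω) fun ω => η ω * K 0 ω + H 0 ω * κ ω := by
  obtain ⟨H', a, rfl⟩ := h
  obtain ⟨K', b, rfl⟩ := h'
  refine ⟨_, lfam_iff.2 ⟨a.1.mul b.1, ?_⟩, rfl⟩
  obtain ⟨D, hD0, hD⟩ := (lfam_iff.1 a).2
  obtain ⟨D', -, hD'⟩ := (lfam_iff.1 b).2
  refine ⟨D * max C 0, by positivity, ?_⟩
  filter_upwards [hD, hD'] with t h1 h2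
  refine ⟨h1.1.mul h2.1, fun ω => ?_⟩
  have := T.sz_nonneg ω
  rw [abs_mul, mul_right_comm]
  exact mul_le_mul (h1.2 ω) ((hC t ω).trans (le_max_left _ _)) (abs_nonneg _) (by positivity)

theorem LF.congr (h : T.LF H η) (h1 : ∀ t ω, K t ω = H t ω) (h2 : ∀ ω, κ ω = η ω) : T.LF K κ := by
  obtain rfl : K = H := funext fun t => funext (h1 t)
  obtain rfl : κ = η := funext h2
  exact h

end Tree

variable {ι : Type} [Fintype ι] [DecidableEq ι]

noncomputable def key_a (g t : ℝ) : ℝ := t / (1 + g * t ^ 2 / 4)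
noncomputable def key_b (g t : ℝ) : ℝ := (t ^ 2 / 2) / (1 + g * t ^ 2 / 4)

theorem key_den {g : ℝ} (hg : 0 ≤ g) (t : ℝ) : 1 + g * t ^ 2 / 4 ≠ 0 := by positivity

theorem key_ab {g : ℝ} (hg : 0 ≤ g) (t : ℝ) :
    2 * key_b g t - key_a g t ^ 2 - g * key_b g t ^ 2 = 0 := by
  have := key_den hg t
  unfold key_a key_b
  field_simp
  ring

theorem key_a_cd {g : ℝ} (hg : 0 ≤ g) : ContDiff ℝ 1 (key_a g) :=
  ContDiff.div contDiff_id (by fun_prop) (key_den hg)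

theorem key_b_cd {g : ℝ} (hg : 0 ≤ g) : ContDiff ℝ 1 (key_b g) :=
  ContDiff.div (by fun_prop) (by fun_prop) (key_den hg)

theorem key_den_d (g : ℝ) : HasDerivAt (fun t : ℝ => 1 + g * t ^ 2 / 4) 0 0 := by
  simpa using ((((hasDerivAt_id (0 : ℝ)).pow 2).const_mul g).div_const 4).const_add 1

theorem key_a_d (g : ℝ) : HasDerivAt (key_a g) 1 0 := by
  exact ((hasDerivAt_id (0 : ℝ)).div (key_den_d g) (by simp)).congr_deriv (by simp)

theorem key_b_d (g : ℝ) : HasDerivAt (key_b g) 0 0 := by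
  exact ((((hasDerivAt_id (0 : ℝ)).pow 2).div_const 2).div (key_den_d g) (by simp)).congr_deriv
    (by simp)

/-- the infinitesimal rotation -/
def key_A (γ : ι → ℝ) (j : ι) : Matrix ι ι ℝ :=
  vecMulVec γ (Pi.single j 1) - vecMulVec (Pi.single j 1) γ

theorem key_A_mulVec (γ : ι → ℝ) (j : ι) (x : ι → ℝ) :
    key_A γ j *ᵥ x = x j • γ - (γ ⬝ᵥ x) • (Pi.single j 1 : ι → ℝ) := by
  simp [key_A, sub_mulVec, vecMulVec_mulVec]

theorem key_A_transpose (γ : ι → ℝ) (j : ι) : (key_A γ j)ᵀ = -key_A γ j := by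
  simp [key_A]

theorem key_A_cube {γ : ι → ℝ} {j : ι} (hγ : γ j = 0) :
    key_A γ j * key_A γ j * key_A γ j = -(γ ⬝ᵥ γ) • key_A γ j := by
  refine Matrix.toLin'.injective (LinearMap.ext fun x => ?_)
  simp only [toLin'_apply, ← mulVec_mulVec, key_A_mulVec, smul_mulVec, Pi.sub_apply, Pi.smul_apply,
    hγ, Pi.single_eq_same, dotProduct_sub, dotProduct_smul, dotProduct_single, smul_eq_mul]
  module

/-- the rotation -/
noncomputable def key_R {γ : ι → ℝ} {j : ι} (hγ : γ j = 0) (t : ℝ) : OG ι :=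
  ⟨1 + key_a (γ ⬝ᵥ γ) t • key_A γ j + key_b (γ ⬝ᵥ γ) t • (key_A γ j * key_A γ j), by
    rw [Matrix.mem_orthogonalGroup_iff]
    have h3 := key_A_cube hγ
    have h4 : key_A γ j * key_A γ j * (key_A γ j * key_A γ j)
        = -(γ ⬝ᵥ γ) • (key_A γ j * key_A γ j) := by
      rw [← Matrix.mul_assoc, h3, Matrix.smul_mul]
    have h3' : key_A γ j * (key_A γ j * key_A γ j) = -(γ ⬝ᵥ γ) • key_A γ j := by
      rw [← Matrix.mul_assoc, h3]
    have hab := key_ab (g := γ ⬝ᵥ γ) (Finset.sum_nonneg fun _ _ => mul_self_nonneg _) t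
    simp only [transpose_add, transpose_smul, transpose_mul, transpose_one, key_A_transpose,
      Matrix.neg_mul, Matrix.mul_neg, neg_neg, Matrix.add_mul, Matrix.mul_add, Matrix.smul_mul,
      Matrix.mul_smul, Matrix.one_mul, Matrix.mul_one, h3, h3', h4]
    have : (2 * key_b (γ ⬝ᵥ γ) t - key_a (γ ⬝ᵥ γ) t ^ 2 - (γ ⬝ᵥ γ) * key_b (γ ⬝ᵥ γ) t ^ 2) •
      (key_A γ j * key_A γ j) = 0 := by rw [hab, zero_smul]
    linear_combination (norm := module) this⟩

theorem key_R_mulVec {γ : ι → ℝ} {j : ι} (hγ : γ j = 0) (t : ℝ) (x : ι → ℝ) :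
    (key_R hγ t).1 *ᵥ x = x + key_a (γ ⬝ᵥ γ) t • (key_A γ j *ᵥ x)
      + key_b (γ ⬝ᵥ γ) t • (key_A γ j *ᵥ (key_A γ j *ᵥ x)) := by
  simp only [key_R, add_mulVec, one_mulVec, smul_mulVec, mulVec_mulVec]

theorem key_R_zero {γ : ι → ℝ} {j : ι} (hγ : γ j = 0) : key_R hγ 0 = 1 := by
  apply Subtype.ext
  simp [key_R, key_a, key_b]

theorem key_R_fix {γ w : ι → ℝ} {j : ι} (hγ : γ j = 0) (hw : w j = 0) (hγw : γ ⬝ᵥ w = 0) (t : ℝ) :
    (key_R hγ t).1 *ᵥ w = w := by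
  have : key_A γ j *ᵥ w = 0 := by simp [key_A_mulVec, hw, hγw]
  simp [key_R_mulVec, this]

/-- the rotated path -/
def key_rot (O : OG ι) (ω : Pth ι) : Pth ι := fun i => rootMul O (ω i)

theorem key_rot_one (ω : Pth ι) : key_rot 1 ω = ω := by
  funext i
  simp [key_rot, rootMul]

variable {G : Grid} {ν : ProbabilityMeasure (OG ι)} {S : Sys ι}

theorem key_xv_rot (O : OG ι) (ω : Pth ι) : xv G (key_rot O ω) = O.1 *ᵥ xv G ω := by
  simp only [xv, mulVec_mulVec]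
  rfl

theorem key_xx_bd (k : ι) (ω : Pth ι) : |xx G k ω| ≤ Fintype.card ι + 1 := by
  have h1 : xx G k ω ^ 2 ≤ Fintype.card ι := by
    rw [← sum_xx_sq (G := G) ω]
    exact single_le_sum (f := fun i => xx G i ω ^ 2) (fun _ _ => sq_nonneg _) (mem_univ k)
  refine abs_le_of_sq_le_sq' ?_ (by positivity) |> abs_le.2
  nlinarith [(Nat.cast_nonneg (Fintype.card ι) : (0 : ℝ) ≤ _)]

theorem key_LF_xx {γ : ι → ℝ} {j : ι} (hγ : γ j = 0) (k : ι) :
    (tree G ν).LF (fun t ω => xx G k (key_rot (key_R hγ t) ω))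
      fun ω => xx G j ω * γ k - xl G γ ω * (Pi.single j 1 : ι → ℝ) k := by
  have hg : 0 ≤ γ ⬝ᵥ γ := Finset.sum_nonneg fun _ _ => mul_self_nonneg _
  have l1 : (tree G ν).Lin fun ω => (key_A γ j *ᵥ xv G ω) k :=
    lin_xv (F := fun x => (key_A γ j *ᵥ x) k) (by fun_prop)
  have l2 : (tree G ν).Lin fun ω => (key_A γ j *ᵥ (key_A γ j *ᵥ xv G ω)) k :=
    lin_xv (F := fun x => (key_A γ j *ᵥ (key_A γ j *ᵥ x)) k) (by fun_prop)
  refine (((Tree.LF.const (lin_xx k)).add (Tree.LF.scal (key_a_cd hg) (key_a_d _) l1)).add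
    (Tree.LF.scal (key_b_cd hg) (key_b_d _) l2)).congr (fun t ω => ?_) fun ω => ?_
  · simp only [xx, key_xv_rot, key_R_mulVec, Pi.add_apply, Pi.smul_apply, smul_eq_mul]
  · simp [key_A_mulVec, xx, xl]

theorem key_loc_xl (v : ι → ℝ) : Loc G (xl G v) := by
  intro ω ω' h
  have h3 := G.three_le
  simp only [xl, xv, sb, h 0 (by omega), h (G.n - 1) (by omega)]

theorem key_loc_xx (k : ι) : Loc G (xx G k) := by
  rw [← xl_single]
  exact key_loc_xl _

end Crest.Agent.R164
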