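import Crest.Agent.R164.Key_A

/-!
Row 164, helper for `Key`: linearity wrappers for `E0`, `EE`, and the grid bookkeeping.
-/

set_option autoImplicit false

namespace Crest.Agent.R164

open MeasureTheory Finset Matrix

variable {ι : Type} [Fintype ι] [DecidableEq ι]
variable {G : Grid} {ν : ProbabilityMeasure (OG ι)} {S : Sys ι} {T : Finset ι}
variable {f g h : Pth ι → ℝ}

theorem key_tEE (hf : (tree G ν).Tame f) (k : ℕ) : (tree G ν).Tame (EE G ν S k f) :=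
  Tree.tame_Ex (lin_Ham G ν S) hf k

theorem key_dEE (f : Pth ι → ℝ) (k : ℕ) : (tree G ν).Dep k (EE G ν S k f) := Tree.dep_Ex _ _ k

theorem key_EE_add (hf : (tree G ν).Tame f) (hg : (tree G ν).Tame g) (k : ℕ) (ω : Pth ι) :
    EE G ν S k (fun ω => f ω + g ω) ω = EE G ν S k f ω + EE G ν S k g ω :=
  Tree.Ex_add (lin_Ham G ν S) hf hg k ω

theorem key_EE_sub (hf : (tree G ν).Tame f) (hg : (tree G ν).Tame g) (k : ℕ) (ω : Pth ι) :
    EE G ν S k (fun ω => f ω - g ω) ω = EE G ν S k f ω - EE G ν S k g ω :=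
  Tree.Ex_sub (lin_Ham G ν S) hf hg k ω

theorem key_EE_cmul (c : ℝ) (f : Pth ι → ℝ) (k : ℕ) (ω : Pth ι) :
    EE G ν S k (fun ω => c * f ω) ω = c * EE G ν S k f ω := Tree.Ex_const_mul _ _ c k ω

theorem key_EE_const (c : ℝ) (k : ℕ) (ω : Pth ι) : EE G ν S k (fun _ => c) ω = c :=
  Tree.Ex_const (lin_Ham G ν S) c k ω

theorem key_EE_sum {α : Type*} (s : Finset α) {F : α → Pth ι → ℝ}
    (hF : ∀ i ∈ s, (tree G ν).Tame (F i)) (k : ℕ) (ω : Pth ι) :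
    EE G ν S k (fun ω => ∑ i ∈ s, F i ω) ω = ∑ i ∈ s, EE G ν S k (F i) ω :=
  Tree.Ex_sum (lin_Ham G ν S) s hF k ω

theorem key_EE_dep {k : ℕ} (hg : (tree G ν).Dep k g) (f : Pth ι → ℝ) (ω : Pth ι) :
    EE G ν S k (fun ω => g ω * f ω) ω = g ω * EE G ν S k f ω := Tree.Ex_mul_dep _ f hg ω

theorem key_EE_mono (hf : (tree G ν).Tame f) (hg : (tree G ν).Tame g) (hle : ∀ ω, f ω ≤ g ω)
    (k : ℕ) (ω : Pth ι) : EE G ν S k f ω ≤ EE G ν S k g ω :=
  Tree.Ex_mono (lin_Ham G ν S) hf hg hle k ω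

theorem key_EE_nonneg (h0 : ∀ ω, 0 ≤ f ω) (k : ℕ) (ω : Pth ι) : 0 ≤ EE G ν S k f ω :=
  Tree.Ex_nonneg _ h0 k ω

theorem key_sq_EE (hf : (tree G ν).Tame f) (k : ℕ) (ω : Pth ι) :
    EE G ν S k f ω ^ 2 ≤ EE G ν S k (fun ω => f ω ^ 2) ω := Tree.sq_Ex_le (lin_Ham G ν S) hf k ω

theorem key_EE_cs (hf : (tree G ν).Tame f) (hg : (tree G ν).Tame g) (k : ℕ) (ω : Pth ι) :
    EE G ν S k (fun ω => f ω * g ω) ω ^ 2 ≤
      EE G ν S k (fun ω => f ω ^ 2) ω * EE G ν S k (fun ω => g ω ^ 2) ω :=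
  Tree.Ex_cs (lin_Ham G ν S) hf hg k ω

theorem key_EE_top (f : Pth ι → ℝ) : EE G ν S G.n f = f := Tree.Ex_of_le (T := tree G ν) le_rfl

theorem key_EE_EE (f : Pth ι → ℝ) (k p : ℕ) :
    EE G ν S k (EE G ν S p f) = EE G ν S (min p k) f := by
  funext ω
  rcases le_total k p with hle | hle
  · rw [min_eq_right hle]
    exact Tree.Ex_tower (lin_Ham G ν S) f hle ω
  · rw [min_eq_left hle]
    exact Tree.Ex_of_dep (lin_Ham G ν S) ((key_dEE f p).mono hle) ω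

theorem key_E_add (hf : (tree G ν).Tame f) (hg : (tree G ν).Tame g) :
    E0 G ν S (fun ω => f ω + g ω) = E0 G ν S f + E0 G ν S g := key_EE_add hf hg 0 _

theorem key_E_sub (hf : (tree G ν).Tame f) (hg : (tree G ν).Tame g) :
    E0 G ν S (fun ω => f ω - g ω) = E0 G ν S f - E0 G ν S g := key_EE_sub hf hg 0 _

theorem key_E_cmul (c : ℝ) (f : Pth ι → ℝ) : E0 G ν S (fun ω => c * f ω) = c * E0 G ν S f :=
  key_EE_cmul c f 0 _

theorem key_E_const (c : ℝ) : E0 G ν S (fun _ => c) = c := key_EE_const c 0 _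

theorem key_E_sum {α : Type*} (s : Finset α) {F : α → Pth ι → ℝ}
    (hF : ∀ i ∈ s, (tree G ν).Tame (F i)) :
    E0 G ν S (fun ω => ∑ i ∈ s, F i ω) = ∑ i ∈ s, E0 G ν S (F i) := key_EE_sum s hF 0 _

theorem key_E_mono (hf : (tree G ν).Tame f) (hg : (tree G ν).Tame g) (hle : ∀ ω, f ω ≤ g ω) :
    E0 G ν S f ≤ E0 G ν S g := key_EE_mono hf hg hle 0 _

theorem key_E_abs (hf : (tree G ν).Tame f) : |E0 G ν S f| ≤ E0 G ν S fun ω => |f ω| :=
  Tree.abs_Ex_le (lin_Ham G ν S) hf 0 _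

theorem key_E_congr (hfg : ∀ ω, f ω = g ω) : E0 G ν S f = E0 G ν S g := by rw [funext hfg]

/-- pulling a function of the node inside -/
theorem key_E_pull {k : ℕ} (hg : (tree G ν).Dep k g) (f : Pth ι → ℝ) :
    E0 G ν S (fun ω => g ω * EE G ν S k f ω) = E0 G ν S fun ω => g ω * f ω := by
  rw [← E0_EE (fun ω => g ω * f ω) k]
  exact key_E_congr fun ω => (key_EE_dep hg f ω).symm

/-- `EE k` is self-adjoint -/
theorem key_E_move (f g : Pth ι → ℝ) (k : ℕ) :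
    E0 G ν S (fun ω => f ω * EE G ν S k g ω) = E0 G ν S fun ω => EE G ν S k f ω * g ω := by
  rw [← key_E_pull (key_dEE f k) g, key_E_congr fun ω => mul_comm (f ω) _,
    ← key_E_pull (key_dEE g k) f]
  exact key_E_congr fun ω => mul_comm _ _

theorem key_E_sq_sq (hf : (tree G ν).Tame f) (k : ℕ) :
    E0 G ν S (fun ω => EE G ν S k (fun ω => f ω ^ 2) ω ^ 2) ≤ E0 G ν S fun ω => f ω ^ 4 := by
  rw [← E0_EE (fun ω => f ω ^ 4) k]
  refine key_E_mono ((key_tEE (hf.pow 2) k).pow 2) (key_tEE (hf.pow 4) k) fun ω => ?_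
  refine (key_sq_EE (hf.pow 2) k ω).trans (le_of_eq ?_)
  simp only [← pow_mul]

theorem key_E_four (hf : (tree G ν).Tame f) (k : ℕ) :
    E0 G ν S (fun ω => EE G ν S k f ω ^ 4) ≤ E0 G ν S fun ω => f ω ^ 4 := by
  refine (key_E_mono ((key_tEE hf k).pow 4) ((key_tEE (hf.pow 2) k).pow 2) fun ω => ?_).trans
    (key_E_sq_sq hf k)
  calc EE G ν S k f ω ^ 4 = (EE G ν S k f ω ^ 2) ^ 2 := by ring
    _ ≤ _ := pow_le_pow_left₀ (sq_nonneg _) (key_sq_EE hf k ω) 2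

theorem key_E_sqrt_four (hf : (tree G ν).Tame f) (k : ℕ) :
    E0 G ν S (fun ω => √(EE G ν S k (fun ω => f ω ^ 2) ω) ^ 4) ≤ E0 G ν S fun ω => f ω ^ 4 := by
  refine (le_of_eq (key_E_congr fun ω => ?_)).trans (key_E_sq_sq hf k)
  rw [show (4 : ℕ) = 2 * 2 from rfl, pow_mul, Real.sq_sqrt (key_EE_nonneg (fun _ => sq_nonneg _) k ω)]

theorem key_zeta_top : G.ζ G.n = 1 :=
  le_antisymm (G.le_one _) (G.top ▸ G.mono (Nat.sub_le _ _))

/-- expansion of a susceptibility against a function of the node -/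
theorem key_E_chi {η φ : Pth ι → ℝ} (hf : (tree G ν).Tame f) (hη : (tree G ν).Tame η)
    (hφ : (tree G ν).Tame φ) {i : ℕ} (hd : (tree G ν).Dep i φ) (hi : i ≤ G.n) :
    E0 G ν S (fun ω => φ ω * (tree G ν).chi (Ham G S) i f η ω) =
      E0 G ν S (fun ω => φ ω * (f ω * η ω)) -
        ∑ k ∈ Ioo i G.n, G.w k * E0 G ν S (fun ω => φ ω * (EE G ν S k f ω * EE G ν S k η ω)) -
        G.ζ i * E0 G ν S (fun ω => φ ω * (EE G ν S i f ω * EE G ν S i η ω)) := by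
  have e : ∀ ω, (tree G ν).chi (Ham G S) i f η ω = EE G ν S i (fun ω => f ω * η ω) ω -
      ∑ k ∈ Ioo i G.n, G.w k * EE G ν S i (fun ω => EE G ν S k f ω * EE G ν S k η ω) ω -
      G.ζ i * (EE G ν S i f ω * EE G ν S i η ω) := by
    intro ω
    rcases hi.eq_or_lt with rfl | hlt
    · rw [Tree.chi_of_le (T := tree G ν) (l := G.n) le_rfl, key_zeta_top]
      simp [key_EE_top]
    · have := Tree.chi_eq (lin_Ham G ν S) hf hη (l := i) hlt ω
      rw [show (tree G ν).ζ ((tree G ν).n - 1) = 1 from G.top, one_mul] at this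
      exact this
  have t1 : ∀ k, (tree G ν).Tame fun ω => EE G ν S k f ω * EE G ν S k η ω := fun k =>
    (key_tEE hf k).mul (key_tEE hη k)
  have t2 : ∀ k ∈ Ioo i G.n, (tree G ν).Tame fun ω =>
      G.w k * (φ ω * EE G ν S i (fun ω => EE G ν S k f ω * EE G ν S k η ω) ω) := fun k _ =>
    (hφ.mul (key_tEE (t1 k) i)).const_mul _
  rw [key_E_congr (g := fun ω => φ ω * EE G ν S i (fun ω => f ω * η ω) ω -
      ∑ k ∈ Ioo i G.n, G.w k * (φ ω * EE G ν S i (fun ω => EE G ν S k f ω * EE G ν S k η ω) ω) -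
      G.ζ i * (φ ω * (EE G ν S i f ω * EE G ν S i η ω))) fun ω => by
        rw [e, mul_sub, mul_sub, mul_sum, mul_left_comm (φ ω) (G.ζ i)]
        simp only [mul_left_comm (φ ω) (G.w _)],
    key_E_sub ((hφ.mul (key_tEE (hf.mul hη) i)).sub (Tree.Tame.sum _ t2))
      ((hφ.mul (t1 i)).const_mul _),
    key_E_sub (hφ.mul (key_tEE (hf.mul hη) i)) (Tree.Tame.sum _ t2), key_E_sum _ t2, key_E_cmul,
    key_E_pull hd]
  simp only [key_E_cmul, key_E_pull hd]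

theorem key_sum_err (G : Grid) {s : Finset ℕ} (hs : s ⊆ Ioo 0 G.n) {X Y δ : ℕ → ℝ} {c μ : ℝ}
    (hc : 0 ≤ c) (hμ : 0 ≤ μ) (h : ∀ k ∈ s, 2 ≤ k → |X k - Y k| ≤ c + μ * |δ k|) :
    |∑ k ∈ s, G.w k * X k - ∑ k ∈ s, G.w k * Y k| ≤ c + μ * G.nrm δ := by
  have h1 : |∑ k ∈ s, G.w k * X k - ∑ k ∈ s, G.w k * Y k| ≤ ∑ k ∈ s, G.w k * (c + μ * |δ k|) := by
    rw [← sum_sub_distrib]
    refine (abs_sum_le_sum_abs _ _).trans (sum_le_sum fun k hk => ?_)
    rw [← mul_sub, abs_mul, abs_of_nonneg (Grid.w_nonneg k)]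
    by_cases h1 : k = 1
    · subst h1; simp [Grid.w_one]
    · have := (mem_Ioo.1 (hs hk)).1
      exact mul_le_mul_of_nonneg_left (h k hk (by omega)) (Grid.w_nonneg k)
  have h2 : ∑ k ∈ s, G.w k * (c + μ * |δ k|) ≤ ∑ k ∈ Ioo 0 G.n, G.w k * (c + μ * |δ k|) :=
    sum_le_sum_of_subset_of_nonneg hs fun k _ _ => mul_nonneg (Grid.w_nonneg k) (by positivity)
  have h3 : ∑ k ∈ Ioo 0 G.n, G.w k * (c + μ * |δ k|)
      = (∑ k ∈ Ioo 0 G.n, G.w k) * c + μ * ∑ k ∈ Ioo 0 G.n, G.w k * |δ k| := by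
    rw [sum_mul, mul_sum, ← sum_add_distrib]
    exact sum_congr rfl fun k _ => by ring
  have h4 := mul_le_mul_of_nonneg_right (Grid.sum_w_le (G := G) 0) hc
  have h5 : μ * ∑ k ∈ Ioo 0 G.n, G.w k * |δ k| ≤ μ * G.nrm δ :=
    mul_le_mul_of_nonneg_left (le_add_of_nonneg_left (abs_nonneg _)) hμ
  linarith

theorem key_conv (G : Grid) (Q a : ℕ → ℝ) {i : ℕ} (h1 : 1 ≤ i) (hi : i ≤ G.n) :
    G.conv Q a i = (a i * Q G.n - ∑ k ∈ Ioo i G.n, G.w k * (a i * Q k) - G.ζ i * (a i * Q i)) +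
      (a G.n * Q i - ∑ k ∈ Ioo i G.n, G.w k * (a k * Q i) - G.ζ i * (a i * Q i)) + a i * Q i -
      ∑ k ∈ Ioo 0 G.n, G.w k * (if k < i then a k * Q k else a i * Q i) := by
  have hD : ∀ R : ℕ → ℝ, G.D R i = R G.n - G.ζ i * R i - G.tl R i := by
    intro R
    rcases hi.eq_or_lt with rfl | hlt
    · rw [Grid.D_top, key_zeta_top, Grid.tl]; simp
    · exact Grid.D_eq hlt
  have hsplit : Ioo 0 G.n = Ioo 0 i ∪ Ioo (i - 1) G.n := by
    ext k; simp only [mem_Ioo, mem_union]; omega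
  have hdisj : Disjoint (Ioo 0 i) (Ioo (i - 1) G.n) := by
    rw [disjoint_left]; intro k; simp only [mem_Ioo]; omega
  have e1 : ∑ k ∈ Ioo 0 i, G.w k * (if k < i then a k * Q k else a i * Q i)
      = ∑ k ∈ Ioo 0 i, G.w k * (Q k * a k) :=
    sum_congr rfl fun k hk => by rw [if_pos (mem_Ioo.1 hk).2, mul_comm (a k)]
  have e2 : ∑ k ∈ Ioo (i - 1) G.n, G.w k * (if k < i then a k * Q k else a i * Q i)
      = (1 - G.ζ (i - 1)) * (a i * Q i) := by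
    rw [← Grid.sum_w (by omega), sum_mul]
    exact sum_congr rfl fun k hk => by rw [if_neg (by have := (mem_Ioo.1 hk).1; omega)]
  have e3 : ∑ k ∈ Ioo i G.n, G.w k * (a i * Q k) = a i * G.tl Q i := by
    rw [Grid.tl, mul_sum]; exact sum_congr rfl fun k _ => by ring
  have e4 : ∑ k ∈ Ioo i G.n, G.w k * (a k * Q i) = Q i * G.tl a i := by
    rw [Grid.tl, mul_sum]; exact sum_congr rfl fun k _ => by ring
  rw [hsplit, sum_union hdisj, e1, e2, e3, e4, Grid.conv, hD, hD]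
  ring

theorem key_grid (G : Grid) (B : ℕ → ℕ → ℕ → ℝ) (Q a δ : ℕ → ℝ) {μ ε : ℝ} (hμ : 0 ≤ μ) (hε : 0 ≤ ε)
    (hδ : ∀ k, 0 ≤ δ k) {i : ℕ} (h2 : 2 ≤ i) (hi : i ≤ G.n)
    (b1 : ∀ p q k, 2 ≤ p → 2 ≤ q → q ≤ k → k ≤ G.n → |B p q k - a q * Q (min p k)| ≤ μ * δ q + ε)
    (b2 : ∀ k, 2 ≤ k → k < i → |B i i k - a k * Q k| ≤ 4 * μ * δ k + ε) :
    |(B G.n i G.n - ∑ k ∈ Ioo i G.n, G.w k * B k i k - G.ζ i * B i i i) +
      (B i G.n G.n - ∑ k ∈ Ioo i G.n, G.w k * B i k k - G.ζ i * B i i i) + B i i G.n -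
      ∑ k ∈ Ioo 0 G.n, G.w k * B i i k - G.conv Q a i| ≤ 6 * μ * δ i + 6 * μ * G.nrm δ + 8 * ε := by
  have hsub : Ioo i G.n ⊆ Ioo 0 G.n := Ioo_subset_Ioo (Nat.zero_le i) le_rfl
  have hdi := mul_nonneg hμ (hδ i)
  have t1 := b1 G.n i G.n (by omega) h2 hi le_rfl
  have t2 := key_sum_err G hsub (X := fun k => B k i k) (Y := fun k => a i * Q k) (δ := δ)
    (c := μ * δ i + ε) (μ := 0) (by positivity) le_rfl fun k hk _ => by
      have hk' := mem_Ioo.1 hk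
      simpa using b1 k i k (by omega) h2 hk'.1.le hk'.2.le
  have t3 := b1 i i i h2 h2 le_rfl hi
  have t4 := b1 i G.n G.n h2 (by omega) le_rfl le_rfl
  have t5 := key_sum_err G hsub (X := fun k => B i k k) (Y := fun k => a k * Q i) (δ := δ)
    (c := ε) (μ := μ) hε hμ fun k hk hk2 => by
      have hk' := mem_Ioo.1 hk
      have := b1 i k k h2 hk2 le_rfl hk'.2.le
      rwa [min_eq_left hk'.1.le, add_comm, ← abs_of_nonneg (hδ k)] at this
  have t6 := b1 i i G.n h2 h2 hi le_rfl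
  have t7 := key_sum_err G (Subset.refl _) (X := fun k => B i i k)
    (Y := fun k => if k < i then a k * Q k else a i * Q i) (δ := δ)
    (c := μ * δ i + ε) (μ := 4 * μ) (by positivity) (by positivity) fun k hk hk2 => by
      have hk' := mem_Ioo.1 hk
      rw [abs_of_nonneg (hδ k)]
      have hdk := mul_nonneg hμ (hδ k)
      split_ifs with hki
      · have := b2 k hk2 hki
        linarith
      · have := b1 i i k h2 h2 (by omega) hk'.2.le
        rw [min_eq_left (by omega)] at this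
        linarith
  rw [min_self] at t1 t3
  rw [min_eq_left hi] at t4 t6
  have t3' : |G.ζ i * B i i i - G.ζ i * (a i * Q i)| ≤ μ * δ i + ε := by
    rw [← mul_sub, abs_mul, abs_of_pos (G.pos i)]
    exact (mul_le_of_le_one_left (abs_nonneg _) (G.le_one i)).trans t3
  have t8 : μ * δ G.n ≤ μ * G.nrm δ :=
    mul_le_mul_of_nonneg_left ((le_abs_self _).trans Grid.abs_top_le) hμ
  rw [key_conv G Q a (by omega) hi]
  rw [abs_le] at t1 t2 t3' t4 t5 t6 t7 ⊢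
  constructor <;> linarith [t1.1, t1.2, t2.1, t2.2, t3'.1, t3'.2, t4.1, t4.2, t5.1, t5.2, t6.1,
    t6.2, t7.1, t7.2]

end Crest.Agent.R164
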