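import Mathlib

/-!
Row 164, task R164-Lim: from exponential tails to almost sure convergence and convergence of the means.

PLAN.  `V ≠ ⊤`: otherwise take `r = C + 1`: eventually `P {X N ≤ r} = 1 ≤ exp (-κ N) < 1`.  Same for `⊥`.  Borel-Cantelli (`ae_eventually_notMem` / `measure_limsup_atTop_eq_zero`, after
discarding finitely many `N`; summable geometric series) for `r = F ± 1/(k+1)`; `tendsto_integral_filter_of_dominated_convergence` with the constant bound.
-/

set_option autoImplicit false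

namespace Crest.Agent.R164

open MeasureTheory Filter

theorem lim_bc {Ω : Type} [MeasurableSpace Ω] (P : Measure Ω) [IsProbabilityMeasure P]
    (s : ℕ → Set Ω) {κ : ℝ} (hκ : 0 < κ)
    (h : ∀ᶠ N : ℕ in atTop, P.real (s N) ≤ Real.exp (-κ * N)) :
    ∀ᵐ ω ∂P, ∀ᶠ N in atTop, ω ∉ s N := by
  obtain ⟨N0, hN0⟩ := eventually_atTop.1 h
  have hs : Summable fun N : ℕ => Real.exp (-κ * N) := by
    simpa only [mul_comm] using Real.summable_exp_nat_mul_iff.2 (neg_lt_zero.2 hκ)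
  have h1 : ∑' N, P (if N0 ≤ N then s N else ∅) ≠ ⊤ := by
    refine ne_top_of_le_ne_top hs.tsum_ofReal_ne_top (ENNReal.tsum_le_tsum fun N => ?_)
    split_ifs with hN
    · rw [← ofReal_measureReal]
      exact ENNReal.ofReal_le_ofReal (hN0 N hN)
    · simp
  filter_upwards [ae_eventually_notMem h1] with ω hω
  filter_upwards [hω, eventually_ge_atTop N0] with N h2 h3
  rwa [if_pos h3] at h2

theorem lim_not {Ω : Type} [MeasurableSpace Ω] (P : Measure Ω) [IsProbabilityMeasure P]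
    (s : ℕ → Set Ω) {κ : ℝ} (hκ : 0 < κ)
    (h : ∀ᶠ N : ℕ in atTop, P.real (s N) ≤ Real.exp (-κ * N))
    (h' : ∀ᶠ N : ℕ in atTop, ∀ᵐ ω ∂P, ω ∈ s N) : False := by
  obtain ⟨N, h1, h2, h3⟩ := (h.and (h'.and (eventually_ge_atTop 1))).exists
  have e : P.real (s N) = 1 := by
    rw [measureReal_congr (t := Set.univ) (by
      filter_upwards [h2] with ω hω
      exact propext ⟨fun _ => trivial, fun _ => hω⟩), probReal_univ]
  have : (1 : ℝ) ≤ N := by exact_mod_cast h3
  rw [e] at h1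
  exact absurd (Real.one_le_exp_iff.1 h1) (by nlinarith)

theorem limit_of_tails {Ω : Type} [MeasurableSpace Ω] (P : Measure Ω) [IsProbabilityMeasure P]
    (X : ℕ → Ω → ℝ) (hX : ∀ N, AEMeasurable (X N) P) {C : ℝ}
    (hC : ∀ᶠ N : ℕ in atTop, ∀ᵐ ω ∂P, |X N ω| ≤ C) (V : EReal)
    (hu : ∀ r : ℝ, V < (r : EReal) → ∃ κ : ℝ, 0 < κ ∧ ∀ᶠ N : ℕ in atTop,
      P.real {ω | r ≤ X N ω} ≤ Real.exp (-κ * N))
    (hl : ∀ r : ℝ, (r : EReal) < V → ∃ κ : ℝ, 0 < κ ∧ ∀ᶠ N : ℕ in atTop,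
      P.real {ω | X N ω ≤ r} ≤ Real.exp (-κ * N)) :
    ∃ F : ℝ, V = (F : EReal) ∧ Tendsto (fun N => ∫ ω, X N ω ∂P) atTop (nhds F) ∧
      ∀ᵐ ω ∂P, Tendsto (fun N => X N ω) atTop (nhds F) := by
  induction V with
  | bot =>
    obtain ⟨κ, hκ, h⟩ := hu (-C) (EReal.bot_lt_coe _)
    exact (lim_not P _ hκ h (hC.mono fun N hN => hN.mono fun ω hω => (abs_le.1 hω).1)).elim
  | top =>
    obtain ⟨κ, hκ, h⟩ := hl C (EReal.coe_lt_top _)
    exact (lim_not P _ hκ h (hC.mono fun N hN => hN.mono fun ω hω => (abs_le.1 hω).2)).elim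
  | coe F =>
    have hae : ∀ᵐ ω ∂P, Tendsto (fun N => X N ω) atTop (nhds F) := by
      have key : ∀ k : ℕ, ∀ᵐ ω ∂P, ∀ᶠ N in atTop, |X N ω - F| < 1 / ((k : ℝ) + 1) := by
        intro k
        have hk : (0 : ℝ) < 1 / ((k : ℝ) + 1) := Nat.one_div_pos_of_nat
        obtain ⟨κ, hκ, h⟩ := hu (F + 1 / ((k : ℝ) + 1)) (EReal.coe_lt_coe_iff.2 (by linarith))
        obtain ⟨κ', hκ', h'⟩ := hl (F - 1 / ((k : ℝ) + 1)) (EReal.coe_lt_coe_iff.2 (by linarith))
        filter_upwards [lim_bc P _ hκ h, lim_bc P _ hκ' h'] with ω h1 h2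
        filter_upwards [h1, h2] with N h3 h4
        simp only [Set.mem_ofPred_eq, not_le] at h3 h4
        exact abs_lt.2 ⟨by linarith, by linarith⟩
      filter_upwards [ae_all_iff.2 key] with ω hω
      rw [Metric.tendsto_nhds]
      intro ε hε
      obtain ⟨k, hk⟩ := exists_nat_one_div_lt hε
      exact (hω k).mono fun N hN => by rw [Real.dist_eq]; exact hN.trans hk
    refine ⟨F, rfl, ?_, hae⟩
    have := tendsto_integral_filter_of_dominated_convergence (μ := P) (l := atTop) (F := X)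
      (f := fun _ => F) (fun _ => C) (Eventually.of_forall fun N => (hX N).aestronglyMeasurable)
      hC (integrable_const C) hae
    simpa using this

end Crest.Agent.R164
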