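import Crest.Agent.R164.Step

/-!
Row 164, task R164-Low: averaging over the perturbation parameters and summation of the increments.

PLAN.  `grid_avg`: for fixed `d` and fixed other coordinates the second differences telescope (`≤ 2 Lp / mm`); Markov + union bound (sum over `g : D → Fin mm`
fibrewise, e.g. `Equiv.piSplitAt`/`Fintype.sum_prod_type`, or `Function.update` reindexing).
`low`: `η = δ/4`; `L, η'` from `step`; `C, N₁` from `step_crude`; `β` with `β (C + n₀ |V|) ≤ n₀ η`; grid `G` from `exists_unif` with `(1-y)/K ≤ η'`; `ε` with `n ε ≤ η'`, `13 n ε ≤ 1`, `4 ε ≤ η`;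
`D = Fin (n+1) ⊕ Fin J`, `θ_g = emb (gp g)`; `σ = 1/mm` with `e = 2 ε N σ² card D / β` and `n e ≤ η' ε² σ N / 2`; `q` large.  (For `d = inl l`, `l > n`, the second difference is `0 ≤ e`:
the system does not depend on that coordinate, `Ham_congr`.)  `ψ q` = average over `g` of `phiN ⟨ε, L, n₀ q⟩ (n₀ q) θ_g`; `cls_monoN0`, `step`, `step_crude`, `cls_lip`, `cls_convex`, `grid_avg` give
`ψ (q+1) ≥ ψ q + n₀ (V - 2η)`; induction; for general `N` put `q = N / n₀`, `step_crude`, `cls_le_plain` (valid for every `g`, hence for the average).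
-/

set_option autoImplicit false

namespace Crest.Agent.R164

open MeasureTheory Finset Matrix Filter Crest.ProbabilityR.InvariantGlass

/-- grid points in `[1,2)^D` -/
noncomputable def gp {D : Type} {mm : ℕ} (g : D → Fin mm) (d : D) : ℝ := 1 + (g d : ℝ) / mm

theorem low_sum_update {D κ : Type} [Fintype D] [DecidableEq D] [Fintype κ] [DecidableEq κ] (d : D)
    (f : (D → κ) → ℝ) :
    ∑ g : D → κ, ∑ k, f (Function.update g d k) = Fintype.card κ * ∑ g, f g := by
  have hinv : Function.Involutive fun p : (D → κ) × κ => (Function.update p.1 d p.2, p.1 d) := by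
    intro p
    simp
  have h := Fintype.sum_equiv hinv.toPerm (fun p => f (Function.update p.1 d p.2))
    (fun p => f p.1) fun p => rfl
  rw [Fintype.sum_prod_type, Fintype.sum_prod_type] at h
  rw [h, mul_sum]
  simp

theorem low_gp_update {D : Type} [DecidableEq D] {mm : ℕ} (g : D → Fin mm) (d : D) (k : Fin mm) :
    gp (Function.update g d k) = Function.update (gp g) d (1 + (k : ℝ) / mm) := by
  funext d'
  by_cases h : d' = d
  · subst h; simp [gp]
  · simp [gp, Function.update_of_ne h]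

theorem low_gp_mem {D : Type} {mm : ℕ} (g : D → Fin mm) (d : D) : gp g d ∈ Set.Icc (1 : ℝ) 2 := by
  have h0 : (0 : ℝ) < mm := by exact_mod_cast (g d).pos
  have h1 : (g d : ℝ) / mm ≤ 1 := (div_le_one h0).2 (by exact_mod_cast (g d).2.le)
  have h2 : 0 ≤ (g d : ℝ) / mm := by positivity
  exact ⟨by unfold gp; linarith, by unfold gp; linarith⟩

theorem low_tele (φ : ℝ → ℝ) (σ : ℝ) (n : ℕ) :
    ∑ k ∈ range n, (φ (1 + k * σ + σ) + φ (1 + k * σ - σ) - 2 * φ (1 + k * σ)) =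
      (φ (1 + n * σ) - φ (1 + n * σ - σ)) - (φ 1 - φ (1 - σ)) := by
  induction n with
  | zero => simp
  | succ n ih =>
    rw [sum_range_succ, ih]
    push_cast
    rw [show 1 + ((n : ℝ) + 1) * σ = 1 + n * σ + σ by ring, add_sub_cancel_right]
    ring

theorem grid_avg {D : Type} [Fintype D] [DecidableEq D] {mm : ℕ} (hm : 2 ≤ mm) (F : (D → ℝ) → ℝ) {Lp e β : ℝ}
    (he : 0 < e)
    (hL : ∀ θ : D → ℝ, (∀ d, θ d ∈ Set.Icc (1 / 2 : ℝ) (5 / 2)) → ∀ d, ∀ t ∈ Set.Icc (1 / 2 : ℝ) (5 / 2),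
      |F (Function.update θ d t) - F θ| ≤ Lp * |t - θ d|)
    (hc : ∀ (θ : D → ℝ) d, 0 ≤ F (Function.update θ d (θ d + 1 / mm)) + F (Function.update θ d (θ d - 1 / mm)) -
      2 * F θ)
    (hβ : 2 * Lp * (1 / (mm : ℝ)) ^ 2 * Fintype.card D ≤ β * e) :
    ((univ.filter fun g : D → Fin mm => ∃ d, e < F (Function.update (gp g) d (gp g d + 1 / mm)) +
      F (Function.update (gp g) d (gp g d - 1 / mm)) - 2 * F (gp g)).card : ℝ) ≤
      β * Fintype.card (D → Fin mm) := by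
  have hm0 : (0 : ℝ) < mm := by exact_mod_cast (by omega : 0 < mm)
  have hm2 : (2 : ℝ) ≤ mm := by exact_mod_cast hm
  set σ : ℝ := 1 / mm with hσ
  have hσ0 : 0 < σ := by positivity
  have hσ2 : σ ≤ 1 / 2 := one_div_le_one_div_of_le two_pos hm2
  have hmσ : mm * σ = 1 := by rw [hσ]; field_simp
  set Δ : (D → Fin mm) → D → ℝ := fun g d => F (Function.update (gp g) d (gp g d + σ)) +
    F (Function.update (gp g) d (gp g d - σ)) - 2 * F (gp g) with hΔ
  have hbox : ∀ (g : D → Fin mm) d t, t ∈ Set.Icc (1 / 2 : ℝ) (5 / 2) →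
      ∀ d', Function.update (gp g) d t d' ∈ Set.Icc (1 / 2 : ℝ) (5 / 2) := by
    intro g d t ht d'
    by_cases h : d' = d
    · rw [h, Function.update_self]; exact ht
    · rw [Function.update_of_ne h]
      have := low_gp_mem g d'
      exact ⟨by linarith [this.1], by linarith [this.2]⟩
  have h1 : ∀ (g : D → Fin mm) d, ∑ k, Δ (Function.update g d k) d ≤ 2 * Lp * σ := by
    intro g d
    have h2 : ∑ k, Δ (Function.update g d k) d = ∑ k ∈ range mm,
        (F (Function.update (gp g) d (1 + k * σ + σ)) + F (Function.update (gp g) d (1 + k * σ - σ)) -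
          2 * F (Function.update (gp g) d (1 + k * σ))) := by
      rw [← Fin.sum_univ_eq_sum_range (fun k => F (Function.update (gp g) d (1 + k * σ + σ)) +
        F (Function.update (gp g) d (1 + k * σ - σ)) - 2 * F (Function.update (gp g) d (1 + k * σ)))]
      refine sum_congr rfl fun k _ => ?_
      simp only [hΔ, low_gp_update, Function.update_idem, Function.update_self, hσ, mul_one_div]
    rw [h2, low_tele (fun t => F (Function.update (gp g) d t)), hmσ]
    have h3 := hL _ (hbox g d (1 + 1 - σ) ⟨by linarith, by linarith⟩) d (1 + 1)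
      ⟨by norm_num, by norm_num⟩
    have h4 := hL _ (hbox g d 1 ⟨by norm_num, by norm_num⟩) d (1 - σ) ⟨by linarith, by linarith⟩
    rw [Function.update_idem, Function.update_self] at h3 h4
    rw [show (1 : ℝ) + 1 - (1 + 1 - σ) = σ by ring, abs_of_pos hσ0] at h3
    rw [show (1 : ℝ) - σ - 1 = -σ by ring, abs_neg, abs_of_pos hσ0] at h4
    linarith [(abs_le.1 h3).2, (abs_le.1 h4).2]
  have h5 : ∀ d, ∑ g, Δ g d ≤ 2 * Lp * σ ^ 2 * Fintype.card (D → Fin mm) := by
    intro d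
    have h6 := low_sum_update d (fun g => Δ g d)
    have h7 : ∑ g : D → Fin mm, ∑ k, Δ (Function.update g d k) d ≤
        ∑ g : D → Fin mm, 2 * Lp * σ := sum_le_sum fun g _ => h1 g d
    rw [h6, Fintype.card_fin, sum_const, card_univ, nsmul_eq_mul] at h7
    have h8 := mul_le_mul_of_nonneg_left h7 hσ0.le
    rw [← mul_assoc, mul_comm σ, hmσ, one_mul] at h8
    linarith
  have h9 : ((univ.filter fun g : D → Fin mm => ∃ d, e < Δ g d).card : ℝ) * e ≤ ∑ g, ∑ d, Δ g d := by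
    rw [← nsmul_eq_mul, ← sum_const]
    refine (sum_le_sum fun g hg => ?_).trans (sum_le_sum_of_subset_of_nonneg (filter_subset _ _)
      fun g _ _ => sum_nonneg fun d _ => hc _ d)
    obtain ⟨d, hd⟩ := (mem_filter.1 hg).2
    exact hd.le.trans (single_le_sum (f := fun d => Δ g d) (fun d _ => hc _ d) (mem_univ d))
  rw [sum_comm] at h9
  have h10 := h9.trans (sum_le_sum fun d _ => h5 d)
  rw [sum_const, card_univ, nsmul_eq_mul] at h10
  have h11 := mul_le_mul_of_nonneg_right hβ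
    (show (0 : ℝ) ≤ Fintype.card (D → Fin mm) by positivity)
  refine le_of_mul_le_mul_right ?_ he
  linarith

theorem low_avg {Γ : Type} [Fintype Γ] [DecidableEq Γ] [Nonempty Γ] (a b : Γ → ℝ) (Bd : Finset Γ)
    {β X C Y : ℝ} (hC : 0 ≤ C) (hB : (Bd.card : ℝ) ≤ β * Fintype.card Γ)
    (h1 : ∀ g, g ∉ Bd → a g + X ≤ b g) (h2 : ∀ g, a g - C ≤ b g) (hY : β * (C + |X|) ≤ Y) :
    (∑ g, a g) / Fintype.card Γ + (X - Y) ≤ (∑ g, b g) / Fintype.card Γ := by
  have hc : (0 : ℝ) < Fintype.card Γ := by exact_mod_cast Fintype.card_pos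
  have h3 : ∑ g, (a g + X - (C + |X|) * if g ∈ Bd then 1 else 0) ≤ ∑ g, b g := by
    refine sum_le_sum fun g _ => ?_
    split_ifs with hg
    · linarith [h2 g, le_abs_self X]
    · linarith [h1 g hg]
  rw [sum_sub_distrib, sum_add_distrib, ← mul_sum, sum_boole] at h3
  simp only [sum_const, card_univ, nsmul_eq_mul, filter_mem_eq_inter, univ_inter] at h3
  have h4 : (C + |X|) * Bd.card ≤ Y * Fintype.card Γ := by
    calc _ ≤ (C + |X|) * (β * Fintype.card Γ) := mul_le_mul_of_nonneg_left hB (by positivity)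
      _ = β * (C + |X|) * Fintype.card Γ := by ring
      _ ≤ _ := mul_le_mul_of_nonneg_right hY hc.le
  rw [div_add' _ _ _ hc.ne', div_le_div_iff_of_pos_right hc]
  linarith

theorem low_seq {n₀ q₀ : ℕ} (hn : 0 < n₀) (ψ R : ℕ → ℝ) {A C η : ℝ} (hη : 0 < η)
    (h1 : ∀ q, q₀ ≤ q → ψ q + n₀ * A ≤ ψ (q + 1)) (h2 : ∀ N, q₀ ≤ N / n₀ → ψ (N / n₀) - C ≤ R N) :
    ∀ᶠ N : ℕ in atTop, N * (A - η) ≤ R N := by
  have h3 : ∀ q, q₀ ≤ q → ψ q₀ + ((q : ℝ) - q₀) * (n₀ * A) ≤ ψ q := by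
    intro q hq
    induction q, hq using Nat.le_induction with
    | base => simp
    | succ q hq ih =>
      have := h1 q hq
      push_cast
      linarith
  obtain ⟨N₂, hN₂⟩ := exists_nat_ge ((|ψ q₀| + (n₀ + q₀ * n₀) * |A| + C) / η)
  filter_upwards [eventually_ge_atTop N₂, eventually_ge_atTop (q₀ * n₀)] with N hN hN'
  have hq : q₀ ≤ N / n₀ := (Nat.le_div_iff_mul_le hn).2 hN'
  have h4 := h3 _ hq
  have h5 := h2 N hq
  have h6 : (N : ℝ) = n₀ * (N / n₀ : ℕ) + (N % n₀ : ℕ) := by exact_mod_cast (Nat.div_add_mod N n₀).symm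
  have h7 : ((N % n₀ : ℕ) : ℝ) ≤ n₀ := by exact_mod_cast (Nat.mod_lt N hn).le
  have h8 : |ψ q₀| + (n₀ + q₀ * n₀) * |A| + C ≤ N * η := by
    rw [← div_le_iff₀ hη]
    exact hN₂.trans (by exact_mod_cast hN)
  have h9 : (((N % n₀ : ℕ) : ℝ) + q₀ * n₀) * A ≤ (n₀ + q₀ * n₀) * |A| :=
    (mul_le_mul_of_nonneg_left (le_abs_self A) (by positivity)).trans
      (mul_le_mul_of_nonneg_right (by linarith) (abs_nonneg A))
  have h10 : (N : ℝ) * A = (((N / n₀ : ℕ) : ℝ) - q₀) * (n₀ * A) +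
      (((N % n₀ : ℕ) : ℝ) + q₀ * n₀) * A := by
    conv_lhs => rw [h6]
    ring
  linarith [neg_abs_le (ψ q₀)]

/-- extension of the parameters by `1` -/
noncomputable def lowEmb {J : ℕ} (n : ℕ) (x : Fin (n + 1) ⊕ Fin J → ℝ) : ℕ ⊕ Fin J → ℝ :=
  Sum.elim (fun l => if h : l < n + 1 then x (.inl ⟨l, h⟩) else 1) fun j => x (.inr j)

theorem lowEmb_map {J n : ℕ} (x : Fin (n + 1) ⊕ Fin J → ℝ) (d : Fin (n + 1) ⊕ Fin J) :
    lowEmb n x (Sum.map Fin.val id d) = x d := by
  rcases d with l | j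
  · exact dif_pos l.2
  · simp [lowEmb]

theorem lowEmb_update {J n : ℕ} (x : Fin (n + 1) ⊕ Fin J → ℝ) (d : Fin (n + 1) ⊕ Fin J) (t : ℝ) :
    lowEmb n (Function.update x d t) = Function.update (lowEmb n x) (Sum.map Fin.val id d) t := by
  funext d'
  by_cases h : d' = Sum.map Fin.val id d
  · rw [h, lowEmb_map, Function.update_self, Function.update_self]
  · rw [Function.update_of_ne h]
    rcases d' with l | j
    · simp only [lowEmb, Sum.elim_inl]
      split_ifs with hl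
      · refine Function.update_of_ne ?_ _ _
        rintro rfl
        exact h rfl
      · rfl
    · simp only [lowEmb, Sum.elim_inr]
      refine Function.update_of_ne ?_ _ _
      rintro rfl
      exact h rfl

theorem lowEmb_mem {J n : ℕ} {x : Fin (n + 1) ⊕ Fin J → ℝ} {A : Set ℝ} (h1 : (1 : ℝ) ∈ A)
    (h : ∀ d, x d ∈ A) (d : ℕ ⊕ Fin J) : lowEmb n x d ∈ A := by
  rcases d with l | j
  · simp only [lowEmb, Sum.elim_inl]
    split_ifs
    exacts [h _, h1]
  · exact h _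

variable {𝒦 : Type} [Fintype 𝒦] [DecidableEq 𝒦] {J : ℕ} {M : Mod 𝒦 J}

theorem low_indep (G : Grid) (Q : CP) (νs : (N : ℕ) → ProbabilityMeasure (OG (Fin N)))
    (bs : ℕ → 𝒦) (ls : ℕ → Fin J) (N : ℕ) (θ : ℕ ⊕ Fin J → ℝ) {l : ℕ} (hl : G.n < l) (t : ℝ) :
    phiN M G Q νs bs ls N (Function.update θ (.inl l) t) = phiN M G Q νs bs ls N θ := by
  unfold phiN phi
  rw [Ham_congr]
  · funext i
    simp only [cls]
    rw [Function.update_of_ne (by simp; omega)]
  · funext σ
    simp [cls]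
  · intro l' hl'
    refine ⟨rfl, funext fun i => ?_⟩
    simp only [cls]
    rw [Function.update_of_ne (by simp at hl' ⊢; omega)]

theorem low (hM : M.OK) {νs : (N : ℕ) → ProbabilityMeasure (OG (Fin N))} (hν : ∀ N, IsHaar (νs N))
    {n₀ : ℕ} (hn : 0 < n₀) {bs : ℕ → 𝒦} {ls : ℕ → Fin J} (hb : Per bs n₀ M.α)
    (hl : Per ls n₀ fun j => (M.γ j : ℝ)) {I₀ : ℝ}
    (hI : ∀ q : ℝ → ℝ, IsTrialPath q → (I₀ : EReal) ≤ constrainedEntropyPart M.γ M.m q +
      (((1 / 2) * ∫ r in Set.Ioo (0 : ℝ) 1, Rf M.α M.μ (deficit q r) : ℝ) : EReal))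
    {y δ : ℝ} (hy : 0 < y) (hy1 : y < 1) (hδ : 0 < δ) :
    ∀ᶠ N : ℕ in atTop, N * (∑ j, (M.γ j : ℝ) * M.c j * M.m j + I₀ - δ) ≤
      y⁻¹ * Real.log (∫ U, Real.exp (y * fN (fun i : Fin N => M.μ (bs i.val))
        (fun σ => ∑ r : Fin N, M.c (ls r.val) * sp σ r) U) ∂(νs N : Measure (OG (Fin N)))) := by
  set V : ℝ := ∑ j, (M.γ j : ℝ) * M.c j * M.m j + I₀ with hV
  have hη : 0 < δ / 4 := by positivity
  set η : ℝ := δ / 4 with hηδ
  obtain ⟨L, hL, η', hη', hstep⟩ := step hM hν hn hb hl hI hy hη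
  obtain ⟨C, hC, N₁, hcr⟩ := step_crude hM hν hn hb hl L
  have hn0 : (0 : ℝ) < n₀ := by exact_mod_cast hn
  set β : ℝ := n₀ * η / (C + |n₀ * (V - η)| + 1) with hβ
  have hβ0 : 0 < β := by positivity
  have hβ1 : β * (C + |n₀ * (V - η)|) ≤ n₀ * η := by
    rw [hβ, div_mul_eq_mul_div, div_le_iff₀ (by positivity)]
    exact mul_le_mul_of_nonneg_left (by linarith) (by positivity)
  obtain ⟨K, hK⟩ := exists_nat_gt ((1 - y) / η')
  have hK0 : (0 : ℝ) < K := lt_trans (div_pos (by linarith) hη') hK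
  obtain ⟨G, -, hGy, hGu⟩ := Grid.exists_unif hy hy1 K (by exact_mod_cast hK0)
  have hϖ : (1 - y) / K ≤ η' := by
    rw [div_le_iff₀ hK0]
    rw [div_lt_iff₀ hη'] at hK
    linarith
  have hGn : (0 : ℝ) < G.n := by exact_mod_cast (by have := G.three_le; omega : 0 < G.n)
  obtain ⟨ε, hε0, hε1, hε2, hε3⟩ : ∃ ε : ℝ, 0 < ε ∧ G.n * ε ≤ η' ∧ 13 * G.n * ε ≤ 1 ∧ 4 * ε ≤ η := by
    refine ⟨min (η' / G.n) (min (1 / (13 * G.n)) (η / 4)), by positivity, ?_, ?_, ?_⟩
    · rw [← le_div_iff₀' hGn]; exact min_le_left _ _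
    · rw [← le_div_iff₀' (by positivity)]; exact (min_le_right _ _).trans (min_le_left _ _)
    · rw [← le_div_iff₀' (by positivity)]; exact (min_le_right _ _).trans (min_le_right _ _)
  set cD : ℝ := (Fintype.card (Fin (G.n + 1) ⊕ Fin J) : ℝ) with hcD
  have hcD0 : 0 < cD := by rw [hcD]; exact_mod_cast Fintype.card_pos
  obtain ⟨mm, hmm⟩ := exists_nat_ge (max 2 (4 * G.n * cD / (η' * ε * β)))
  have hm2 : (2 : ℝ) ≤ mm := (le_max_left _ _).trans hmm
  have hm0 : (0 : ℝ) < mm := by linarith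
  have hm2' : 2 ≤ mm := by exact_mod_cast hm2
  haveI : NeZero mm := ⟨by omega⟩
  set σ : ℝ := 1 / mm with hσ
  have hσ0 : 0 < σ := by positivity
  have hσ2 : σ ≤ 1 / 2 := one_div_le_one_div_of_le two_pos hm2
  have hσ3 : 4 * G.n * cD * σ ≤ η' * ε * β := by
    have := (le_max_right _ _).trans hmm
    rw [div_le_iff₀ (by positivity)] at this
    rw [hσ, mul_one_div, div_le_iff₀ hm0]
    linarith
  obtain ⟨q₁, hq₁⟩ := exists_nat_ge (max (1 / (η' * ε ^ 2)) (2 * G.n / (η' * (η' * (ε * σ) * ε))))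
  set F : ℕ → ℕ → (Fin (G.n + 1) ⊕ Fin J → ℝ) → ℝ := fun q N x =>
    phiN M G ⟨ε, L, (n₀ * q : ℕ)⟩ νs bs ls N (lowEmb G.n x) with hF
  have hle : ∀ q, q ≤ n₀ * q := fun q => Nat.le_mul_of_pos_left q hn
  have hOK : ∀ q, q₁ + N₁ + 1 ≤ q → CP.OK ⟨ε, L, (n₀ * q : ℕ)⟩ G := fun q hq =>
    ⟨hε0, hε2, hL, by
      have : 1 ≤ n₀ * q := le_trans (by omega) (hle q)
      exact Nat.one_le_cast.2 this⟩
  have hbox1 : ∀ g : Fin (G.n + 1) ⊕ Fin J → Fin mm, Box1 (lowEmb G.n (gp g)) := fun g =>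
    lowEmb_mem ⟨le_rfl, one_le_two⟩ (low_gp_mem g)
  have hbox : ∀ g : Fin (G.n + 1) ⊕ Fin J → Fin mm, Box (lowEmb G.n (gp g)) := fun g d =>
    ⟨by linarith [(hbox1 g d).1], by linarith [(hbox1 g d).2]⟩
  have hcr' : ∀ q N, q₁ + N₁ + 1 ≤ q → n₀ * q ≤ N → N ≤ n₀ * q + n₀ →
      ∀ g : Fin (G.n + 1) ⊕ Fin J → Fin mm, F q (n₀ * q) (gp g) - C ≤ F q N (gp g) := by
    intro q N hq h1 h2 g
    have := hcr G _ (n₀ * q) N _ (hOK q hq) rfl rfl (le_trans (by omega) (hle q)) h1 h2 (hbox g)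
    simp only [hF]
    linarith [(abs_le.1 this).1]
  have key := low_seq (q₀ := q₁ + N₁ + 1) hn
    (fun q => (∑ g : Fin (G.n + 1) ⊕ Fin J → Fin mm, F q (n₀ * q) (gp g)) /
      Fintype.card (Fin (G.n + 1) ⊕ Fin J → Fin mm))
    (fun N => y⁻¹ * Real.log (∫ U, Real.exp (y * fN (fun i : Fin N => M.μ (bs i.val))
        (fun σ => ∑ r : Fin N, M.c (ls r.val) * sp σ r) U) ∂(νs N : Measure (OG (Fin N)))) +
        4 * ε * N) (A := V - 2 * η) (C := C) hη ?_ ?_
  · filter_upwards [key] with N hN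
    have h1 : 4 * ε * N ≤ η * N := mul_le_mul_of_nonneg_right hε3 (by positivity)
    have h2 : V - δ = V - 2 * η - η - η := by rw [hηδ]; ring
    rw [h2]
    linarith
  · intro q hq
    have hQ := hOK q hq
    set N : ℝ := ((n₀ * q : ℕ) : ℝ) with hN
    have hN1 : 1 ≤ N := hQ.N0_ge
    have hN2 : (q₁ : ℝ) ≤ N := by
      have : q₁ ≤ n₀ * q := le_trans (by omega) (hle q)
      rw [hN]; exact_mod_cast this
    set e : ℝ := 2 * (ε * N) * σ ^ 2 * cD / β with he
    have he0 : 0 < e := by positivity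
    have hbad := grid_avg hm2' (F q (n₀ * q)) (Lp := ε * N) (β := β) he0 ?_ ?_ ?_
    rotate_left
    · intro θ hθ d t ht
      have := cls_lip (M := M) (blk := fun i : Fin (n₀ * q) => bs i.val)
        (lab := fun i : Fin (n₀ * q) => ls i.val) (ν := νs (n₀ * q)) hQ
        (lowEmb_mem (n := G.n) ⟨by norm_num, by norm_num⟩ hθ) (Sum.map Fin.val id d) ht
      rw [lowEmb_map, Fintype.card_fin] at this
      simp only [hF, lowEmb_update]
      exact this
    · intro θ d
      have := cls_convex (M := M) (θ := lowEmb G.n θ) (blk := fun i : Fin (n₀ * q) => bs i.val)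
        (lab := fun i : Fin (n₀ * q) => ls i.val) (ν := νs (n₀ * q)) hQ (Sum.map Fin.val id d) σ
      rw [lowEmb_map] at this
      simp only [hF, lowEmb_update]
      exact this
    · rw [he, mul_div_cancel₀ _ hβ0.ne']
    have hmono : ∀ g : Fin (G.n + 1) ⊕ Fin J → Fin mm,
        F q (n₀ * q + n₀) (gp g) ≤ F (q + 1) (n₀ * (q + 1)) (gp g) := by
      intro g
      have := cls_monoN0 (M := M) (θ := lowEmb G.n (gp g))
        (blk := fun i : Fin (n₀ * q + n₀) => bs i.val)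
        (lab := fun i : Fin (n₀ * q + n₀) => ls i.val) (ν := νs (n₀ * q + n₀)) hQ
        (N0' := (n₀ * (q + 1) : ℕ)) (Nat.cast_le.2 (Nat.mul_le_mul_left n₀ (Nat.le_succ q)))
      exact this
    have h := low_avg (fun g => F q (n₀ * q) (gp g)) (fun g => F (q + 1) (n₀ * (q + 1)) (gp g)) _ hC
      hbad (X := n₀ * (V - η)) ?_
      (fun g => (hcr' q _ hq (Nat.le_add_right _ _) le_rfl g).trans (hmono g)) hβ1
    · rw [show (n₀ : ℝ) * (V - 2 * η) = n₀ * (V - η) - n₀ * η by ring]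
      exact h
    intro g hg
    refine le_trans ?_ (hmono g)
    have h1 : 1 ≤ η' * ε ^ 2 * N := by
      have := ((le_max_left _ _).trans hq₁).trans hN2
      rwa [div_le_iff₀' (by positivity)] at this
    have h2 : G.n * (e + 1 / η') ≤ η' * (ε * σ) * ε * N := by
      have h3 := ((le_max_right _ _).trans hq₁).trans hN2
      rw [div_le_iff₀' (by positivity)] at h3
      have h4 : G.n * (1 / η') ≤ η' * (ε * σ) * ε * N / 2 := by
        rw [mul_one_div, div_le_iff₀ hη']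
        linarith
      have h5 : G.n * e ≤ η' * (ε * σ) * ε * N / 2 := by
        rw [he, ← mul_div_assoc, div_le_iff₀ hβ0]
        have := mul_le_mul_of_nonneg_right hσ3 (show 0 ≤ ε * σ * N / 2 by positivity)
        linarith
      linarith
    have h6 := hstep G _ ε σ e q (lowEmb G.n (gp g)) hGy hGu hϖ hε0 hε1 hσ0 hσ2 h1 h2 (hbox1 g) ?_
    · simp only [hF]
      linarith
    intro d
    by_cases hd : ∃ d' : Fin (G.n + 1) ⊕ Fin J, d = Sum.map Fin.val id d'
    · obtain ⟨d', rfl⟩ := hd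
      rw [mem_filter, not_and, not_exists] at hg
      have h7 := not_lt.1 (hg (mem_univ g) d')
      simp only [hF, lowEmb_update] at h7
      rw [lowEmb_map]
      exact h7
    · rcases d with l | j
      · have hl' : G.n < l := by
          by_contra h
          exact hd ⟨.inl ⟨l, by omega⟩, rfl⟩
        rw [low_indep G _ νs bs ls _ _ hl', low_indep G _ νs bs ls _ _ hl']
        linarith
      · exact absurd ⟨.inr j, rfl⟩ hd
  · intro N hq
    have hc : (0 : ℝ) < Fintype.card (Fin (G.n + 1) ⊕ Fin J → Fin mm) := by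
      exact_mod_cast Fintype.card_pos
    rw [sub_le_iff_le_add, div_le_iff₀' hc, ← card_univ, ← nsmul_eq_mul]
    refine sum_le_card_nsmul _ _ _ fun g _ => ?_
    have h1 := hcr' _ N hq (Nat.mul_div_le N n₀) (by
      have := Nat.div_add_mod N n₀
      have := Nat.mod_lt N hn
      omega) g
    have h2 := cls_le_plain (blk := fun i : Fin N => bs i.val) (lab := fun i : Fin N => ls i.val)
      (ν := νs N) hM (hOK _ hq) (hbox g)
    rw [hGy, Fintype.card_fin] at h2
    simp only [hF, phiN] at h1 ⊢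
    linarith

end Crest.Agent.R164
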