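import Crest.Agent.R164.Grid

/-!
Row 164, task R164-RT: the R-transform of an atomic law with atoms `μ k ≤ 0` and an atom at `0`.
With `b = 1/d`: `Σ α/(b - μ) = gf d`, so `R (gf d) = 1/d - 1/gf d = Bf d`.

PLAN.  Everything is calculus for finite sums of `ρ_k d = 1/(1 - μ k d) ∈ (0,1]` (`d ≥ 0`), `ρ_k' = μ ρ²`.
`gf' = Σ α ρ² ∈ [a0, 1]`; for two-point estimates one can avoid derivatives:
`d ρ(d) - d' ρ(d') = (d - d') ρ(d) ρ(d')`.  `dinv`: intermediate values (`gf d ≥ a0 d`).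
`Bf' = Cov_π (μ, μ ρ)` with `π ∝ α ρ` (Chebyshev: `Σ_{k,l} π π (μ_k - μ_l)(μ_k ρ_k - μ_l ρ_l) / 2`, in `[0, Λ²]`),
similarly `rho` (weights `α ρ²`).  `int_rhoX`, `int_Rf`: `dinv` is differentiable (`HasDerivAt.of_local_left_inverse`
on `x > 0`, continuity at `0`) or substitute `x = gf d` (`intervalIntegral.integral_comp_mul_deriv`).
`Gam' = Bf * gf'`, `Ef' = rho * gf'`.
`riemann`: for `x > 0` let `b t = 1 / dinv α (t μ) x`; tangent inequality `b t' ≥ b t + (t' - t) rho_t` for `t ≤ t'`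
(convexity of `1/u`: `1/(u+h) ≥ 1/u - h/u²`), `b 0 = 1/x`, `b (1/M) ≥ b 0 - Λ/M`, last term `≤ 0`.
`bet_mono`: with `S u = Σ α/(1 - λ u)`, `bet = S'(r d)/S(r d)²`, derivative sign `S S'' ≥ 2 S'²` (Cauchy-Schwarz).
`small`: mean value theorem + uniform continuity of the `d`-derivatives on the compact set of parameters
(`IsCompact.uniformContinuousOn_of_continuous`; there `s1 ≥ 1/(1 + Λ ā)`), or explicit bounds.
-/

set_option autoImplicit false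

namespace Crest.Agent.R164

open MeasureTheory Finset Crest.ProbabilityR.InvariantGlass

variable {𝒦 : Type} [Fintype 𝒦]

structure Atom (α μ : 𝒦 → ℝ) (a0 Λ : ℝ) : Prop where
  a0_pos : 0 < a0
  nonneg : ∀ k, 0 ≤ α k
  sum_one : ∑ k, α k = 1
  mem : ∀ k, μ k ∈ Set.Icc (-Λ) 0
  top : ∃ k, μ k = 0 ∧ a0 ≤ α k

noncomputable def s1 (α μ : 𝒦 → ℝ) (d : ℝ) : ℝ := ∑ k, α k / (1 - μ k * d)
noncomputable def gf (α μ : 𝒦 → ℝ) (d : ℝ) : ℝ := d * s1 α μ d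
noncomputable def Bf (α μ : 𝒦 → ℝ) (d : ℝ) : ℝ := (∑ k, α k * μ k / (1 - μ k * d)) / s1 α μ d
noncomputable def dinv (α μ : 𝒦 → ℝ) (x : ℝ) : ℝ := sInf {d | 0 ≤ d ∧ x ≤ gf α μ d}
noncomputable def Rf (α μ : 𝒦 → ℝ) (x : ℝ) : ℝ := Bf α μ (dinv α μ x)
noncomputable def rho (α μ ν : 𝒦 → ℝ) (d : ℝ) : ℝ :=
  (∑ k, α k * ν k / (1 - μ k * d) ^ 2) / ∑ k, α k / (1 - μ k * d) ^ 2
noncomputable def rhoX (α μ ν : 𝒦 → ℝ) (x : ℝ) : ℝ := rho α μ ν (dinv α μ x)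
noncomputable def Ef (α μ ν : 𝒦 → ℝ) (d : ℝ) : ℝ := ∑ k, α k * ν k * d / (1 - μ k * d)
noncomputable def Gam (α μ : 𝒦 → ℝ) (d : ℝ) : ℝ :=
  s1 α μ d - 1 - ∑ k, α k * Real.log (1 - μ k * d) - Real.log (s1 α μ d)
noncomputable def bet (α μ ν : 𝒦 → ℝ) (d : ℝ) : ℝ :=
  (∑ k, α k * ν k / (1 - μ k * d) ^ 2) / s1 α μ d ^ 2

/-- moments -/
noncomputable def mo (α μ ν : 𝒦 → ℝ) (n : ℕ) (d : ℝ) : ℝ := ∑ k, α k * ν k / (1 - μ k * d) ^ n

namespace RTA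

variable {α μ ν : 𝒦 → ℝ} {d d' : ℝ}

theorem s1_eq : s1 α μ = mo α μ (fun _ => 1) 1 := by funext d; simp [s1, mo]
theorem Bf_eq : Bf α μ d = mo α μ μ 1 d / s1 α μ d := by simp [Bf, mo]
theorem rho_eq : rho α μ ν d = mo α μ ν 2 d / mo α μ (fun _ => 1) 2 d := by simp [rho, mo]
theorem bet_eq : bet α μ ν d = mo α μ ν 2 d / s1 α μ d ^ 2 := rfl
theorem Ef_eq : Ef α μ ν = fun d => d * mo α μ ν 1 d := by
  funext d
  simp only [Ef, mo, mul_sum, pow_one]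
  exact sum_congr rfl fun k _ => by ring

theorem mo_scale (r : ℝ) (n : ℕ) : mo α (fun k => r * μ k) ν n d = mo α μ ν n (r * d) :=
  sum_congr rfl fun k _ => by ring_nf

theorem mo_mul (r : ℝ) (n : ℕ) : mo α μ (fun k => r * ν k) n d = r * mo α μ ν n d := by
  simp only [mo, mul_sum]
  exact sum_congr rfl fun k _ => by ring

theorem s1_scale (r : ℝ) : s1 α (fun k => r * μ k) d = s1 α μ (r * d) := by
  rw [s1_eq, s1_eq, mo_scale]

theorem mo_succ (h : ∀ k, 1 - μ k * d ≠ 0) (n : ℕ) :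
    mo α μ ν n d + d * mo α μ (fun k => ν k * μ k) (n + 1) d = mo α μ ν (n + 1) d := by
  simp only [mo, mul_sum, ← sum_add_distrib]
  refine sum_congr rfl fun k _ => ?_
  have := h k
  field_simp
  ring

theorem hd_mo (h : ∀ k, 1 - μ k * d ≠ 0) (n : ℕ) :
    HasDerivAt (mo α μ ν n) (n * mo α μ (fun k => ν k * μ k) (n + 1) d) d := by
  unfold mo
  rw [mul_sum]
  refine HasDerivAt.fun_sum fun k _ => ?_
  have h1 : HasDerivAt (fun d => 1 - μ k * d) (-μ k) d := by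
    simpa using ((hasDerivAt_id d).const_mul (μ k)).const_sub 1
  have := h k
  refine ((hasDerivAt_const d (α k * ν k)).fun_div (h1.fun_pow n) (pow_ne_zero n this)).congr_deriv ?_
  generalize 1 - μ k * d = u at this ⊢
  rcases n with _ | n
  · simp
  · simp only [Nat.add_sub_cancel]
    field_simp
    ring

theorem hd_s1 (h : ∀ k, 1 - μ k * d ≠ 0) : HasDerivAt (s1 α μ) (mo α μ μ 2 d) d := by
  rw [s1_eq]
  simpa using hd_mo (α := α) (ν := fun _ => 1) h 1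

theorem hd_mo_r {r : ℝ} (h : ∀ k, 1 - μ k * (r * d) ≠ 0) (n : ℕ) :
    HasDerivAt (fun r => mo α μ ν n (r * d)) (n * mo α μ (fun k => ν k * μ k) (n + 1) (r * d) * d) r :=
  HasDerivAt.comp (h₂ := mo α μ ν n) (h := fun r => r * d) r (hd_mo h n) (hasDerivAt_mul_const d)

theorem hd_s1_r {r : ℝ} (h : ∀ k, 1 - μ k * (r * d) ≠ 0) :
    HasDerivAt (fun r => s1 α μ (r * d)) (mo α μ μ 2 (r * d) * d) r :=
  HasDerivAt.comp (h₂ := s1 α μ) (h := fun r => r * d) r (hd_s1 h) (hasDerivAt_mul_const d)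

theorem hd_Ef (h : ∀ k, 1 - μ k * d ≠ 0) : HasDerivAt (Ef α μ ν) (mo α μ ν 2 d) d := by
  rw [Ef_eq, ← mo_succ h 1]
  simpa using (hasDerivAt_id d).fun_mul (hd_mo (α := α) (ν := ν) h 1)

theorem s2_eq (h : ∀ k, 1 - μ k * d ≠ 0) :
    s1 α μ d + d * mo α μ μ 2 d = mo α μ (fun _ => 1) 2 d := by
  rw [s1_eq, ← mo_succ (ν := fun _ => 1) h 1]
  simp

theorem hd_gf (h : ∀ k, 1 - μ k * d ≠ 0) : HasDerivAt (gf α μ) (mo α μ (fun _ => 1) 2 d) d := by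
  rw [← s2_eq h]
  exact ((hasDerivAt_id d).fun_mul (hd_s1 (α := α) h)).congr_deriv (by simp)

omit [Fintype 𝒦] in
theorem hd_log (k : 𝒦) (h : 1 - μ k * d ≠ 0) :
    HasDerivAt (fun d => Real.log (1 - μ k * d)) (-μ k / (1 - μ k * d)) d := by
  have h1 : HasDerivAt (fun d => 1 - μ k * d) (-μ k) d := by
    simpa using ((hasDerivAt_id d).const_mul (μ k)).const_sub 1
  exact h1.log h

theorem cheb (w w' ν : 𝒦 → ℝ) : 2 * ((∑ k, w k * ν k) * (∑ k, w' k) - (∑ k, w' k * ν k) * ∑ k, w k) =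
    ∑ k, ∑ l, (ν k - ν l) * (w k * w' l - w' k * w l) := by
  have e1 : ∑ k, ∑ l, ν l * (w k * w' l) = (∑ k, w' k * ν k) * ∑ k, w k := by
    rw [sum_comm, sum_mul_sum]; exact sum_congr rfl fun k _ => sum_congr rfl fun l _ => by ring
  have e2 : ∑ k, ∑ l, ν l * (w' k * w l) = (∑ k, w k * ν k) * ∑ k, w' k := by
    rw [sum_comm, sum_mul_sum]; exact sum_congr rfl fun k _ => sum_congr rfl fun l _ => by ring
  have e3 : ∑ k, ∑ l, ν k * (w k * w' l) = (∑ k, w k * ν k) * ∑ k, w' k := by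
    rw [sum_mul_sum]; exact sum_congr rfl fun k _ => sum_congr rfl fun l _ => by ring
  have e4 : ∑ k, ∑ l, ν k * (w' k * w l) = (∑ k, w' k * ν k) * ∑ k, w k := by
    rw [sum_mul_sum]; exact sum_congr rfl fun k _ => sum_congr rfl fun l _ => by ring
  simp only [sub_mul, mul_sub, sum_sub_distrib, e1, e2, e3, e4]
  ring

omit [Fintype 𝒦] in
theorem den_ge (h : ∀ k, μ k ≤ 0) (hd : 0 ≤ d) (k : 𝒦) : 1 ≤ 1 - μ k * d := by
  nlinarith [h k]

omit [Fintype 𝒦] in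
theorem den_ne (h : ∀ k, μ k ≤ 0) (hd : 0 ≤ d) (k : 𝒦) : 1 - μ k * d ≠ 0 :=
  (zero_lt_one.trans_le (den_ge h hd k)).ne'

theorem mo_pos (h : ∀ k, μ k ≤ 0) (h0 : ∀ k, 0 ≤ α k) (h1 : ∑ k, α k = 1) (hd : 0 ≤ d) (n : ℕ) :
    0 < mo α μ (fun _ => 1) n d := by
  obtain ⟨k, -, hk⟩ := exists_ne_zero_of_sum_ne_zero (h1 ▸ one_ne_zero : ∑ k, α k ≠ 0)
  have hp := fun k => zero_lt_one.trans_le (den_ge h hd k)
  refine sum_pos' (fun k _ => ?_) ⟨k, mem_univ _, ?_⟩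
  · have := h0 k
    have := hp k
    positivity
  · have := lt_of_le_of_ne (h0 k) hk.symm
    have := hp k
    positivity

theorem mean_mem {Λ : ℝ} (h : ∀ k, μ k ≤ 0) (h0 : ∀ k, 0 ≤ α k) (h1 : ∑ k, α k = 1) (hd : 0 ≤ d) (n : ℕ)
    (hν : ∀ k, ν k ∈ Set.Icc (-Λ) 0) : mo α μ ν n d / mo α μ (fun _ => 1) n d ∈ Set.Icc (-Λ) 0 := by
  have hp := mo_pos h h0 h1 hd n
  have hq := fun k => pow_pos (zero_lt_one.trans_le (den_ge h hd k)) n
  constructor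
  · rw [le_div_iff₀ hp, ← mo_mul]
    refine sum_le_sum fun k _ => div_le_div_of_nonneg_right ?_ (hq k).le
    exact mul_le_mul_of_nonneg_left (by simpa using (hν k).1) (h0 k)
  · refine div_nonpos_of_nonpos_of_nonneg (sum_nonpos fun k _ => ?_) hp.le
    exact div_nonpos_of_nonpos_of_nonneg (mul_nonpos_of_nonneg_of_nonpos (h0 k) (hν k).2) (hq k).le

theorem co_mo (h : ∀ k, μ k ≤ 0) (n : ℕ) : ContinuousOn (mo α μ ν n) (Set.Ici 0) := fun _ hd =>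
  (hd_mo (den_ne h hd) n).continuousAt.continuousWithinAt

end RTA

namespace Atom

variable {α μ : 𝒦 → ℝ} {a0 Λ d d' x x' t r : ℝ}

theorem Λ_nonneg (h : Atom α μ a0 Λ) : 0 ≤ Λ := by
  obtain ⟨k, hk, -⟩ := h.top
  have := (h.mem k).1
  linarith
theorem a0_le_one (h : Atom α μ a0 Λ) : a0 ≤ 1 := by
  obtain ⟨k, -, hk⟩ := h.top
  exact hk.trans (h.sum_one ▸ single_le_sum (fun k _ => h.nonneg k) (mem_univ k))
theorem scale (h : Atom α μ a0 Λ) (ht : t ∈ Set.Icc (0 : ℝ) 1) : Atom α (fun k => t * μ k) a0 Λ := by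
  refine ⟨h.a0_pos, h.nonneg, h.sum_one, fun k => ⟨?_, ?_⟩, ?_⟩
  · nlinarith [(h.mem k).1, (h.mem k).2, ht.1, ht.2]
  · exact mul_nonpos_of_nonneg_of_nonpos ht.1 (h.mem k).2
  · obtain ⟨k, hk, hk'⟩ := h.top
    exact ⟨k, by rw [hk, mul_zero], hk'⟩
theorem s1_mem (h : Atom α μ a0 Λ) (hd : 0 ≤ d) : s1 α μ d ∈ Set.Icc a0 1 := by
  have h1 := RTA.den_ge (fun k => (h.mem k).2) hd
  constructor
  · obtain ⟨k, hk, hk'⟩ := h.top
    refine le_trans ?_ (single_le_sum (f := fun k => α k / (1 - μ k * d))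
      (fun k _ => div_nonneg (h.nonneg k) (by linarith [h1 k])) (mem_univ k))
    simpa [hk] using hk'
  · exact (sum_le_sum fun k _ => div_le_self (h.nonneg k) (h1 k)).trans h.sum_one.le
theorem s1_zero (h : Atom α μ a0 Λ) : s1 α μ 0 = 1 := by
  simp [s1, h.sum_one]
theorem s1_sub_one (h : Atom α μ a0 Λ) (hd : 0 ≤ d) : s1 α μ d - 1 = Bf α μ d * gf α μ d := by
  have h1 := (h.a0_pos.trans_le (h.s1_mem hd).1).ne'
  have h2 := RTA.mo_succ (α := α) (ν := fun _ => 1) (RTA.den_ne (fun k => (h.mem k).2) hd) 0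
  have h3 : mo α μ (fun _ => 1) 0 d = 1 := by simp [mo, h.sum_one]
  simp only [one_mul, zero_add, h3, ← RTA.s1_eq] at h2
  rw [RTA.Bf_eq, gf, ← h2]
  rw [← h2] at h1
  field_simp
  ring
theorem gf_zero : gf α μ 0 = 0 := by simp [gf]
theorem np (h : Atom α μ a0 Λ) (k : 𝒦) : μ k ≤ 0 := (h.mem k).2
theorem s1_pos (h : Atom α μ a0 Λ) (hd : 0 ≤ d) : 0 < s1 α μ d := h.a0_pos.trans_le (h.s1_mem hd).1
theorem gf_sub (h : Atom α μ a0 Λ) (hd : 0 ≤ d) (hd' : 0 ≤ d') :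
    ∃ Q ∈ Set.Icc a0 1, gf α μ d - gf α μ d' = Q * (d - d') := by
  have h1 := RTA.den_ge h.np hd
  have h2 := RTA.den_ge h.np hd'
  refine ⟨∑ k, α k / ((1 - μ k * d) * (1 - μ k * d')), ⟨?_, ?_⟩, ?_⟩
  · obtain ⟨k, hk, hk'⟩ := h.top
    refine le_trans ?_ (single_le_sum (f := fun k => α k / ((1 - μ k * d) * (1 - μ k * d')))
      (fun k _ => div_nonneg (h.nonneg k) (by nlinarith [h1 k, h2 k])) (mem_univ k))
    simpa [hk] using hk'
  · exact (sum_le_sum fun k _ => div_le_self (h.nonneg k) (by nlinarith [h1 k, h2 k])).trans h.sum_one.le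
  · simp only [gf, s1, mul_sum, sum_mul, ← sum_sub_distrib]
    refine sum_congr rfl fun k _ => ?_
    have p := RTA.den_ne h.np hd k
    have p' := RTA.den_ne h.np hd' k
    generalize hu : 1 - μ k * d = u at p ⊢
    generalize hu' : 1 - μ k * d' = u' at p' ⊢
    field_simp
    subst hu hu'
    ring
theorem gf_smono (h : Atom α μ a0 Λ) : StrictMonoOn (gf α μ) (Set.Ici 0) := by
  intro d hd d' hd' hlt
  obtain ⟨Q, hQ, e⟩ := h.gf_sub hd' hd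
  nlinarith [mul_pos (h.a0_pos.trans_le hQ.1) (sub_pos.2 hlt)]
theorem gf_low (h : Atom α μ a0 Λ) (hd : 0 ≤ d) (hd' : 0 ≤ d') :
    a0 * |d - d'| ≤ |gf α μ d - gf α μ d'| := by
  obtain ⟨Q, hQ, e⟩ := h.gf_sub hd hd'
  rw [e, abs_mul, abs_of_pos (h.a0_pos.trans_le hQ.1)]
  exact mul_le_mul_of_nonneg_right hQ.1 (abs_nonneg _)
theorem gf_nonneg (h : Atom α μ a0 Λ) (hd : 0 ≤ d) : 0 ≤ gf α μ d := mul_nonneg hd (h.s1_pos hd).le
theorem dinv_gf' (h : Atom α μ a0 Λ) (hd : 0 ≤ d) : dinv α μ (gf α μ d) = d := by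
  have : {d' | 0 ≤ d' ∧ gf α μ d ≤ gf α μ d'} = Set.Ici d := by
    ext d'
    exact ⟨fun h' => (h.gf_smono.le_iff_le hd h'.1).1 h'.2,
      fun h' => ⟨hd.trans h', (h.gf_smono.le_iff_le hd (hd.trans h')).2 h'⟩⟩
  rw [dinv, this, csInf_Ici]

theorem gf_mono (h : Atom α μ a0 Λ) : MonotoneOn (gf α μ) (Set.Ici 0) := by
  exact h.gf_smono.monotoneOn
theorem gf_lip (h : Atom α μ a0 Λ) (hd : 0 ≤ d) (hd' : 0 ≤ d') :
    |gf α μ d - gf α μ d'| ≤ 1 * |d - d'| := by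
  obtain ⟨Q, hQ, e⟩ := h.gf_sub hd hd'
  rw [e, abs_mul, abs_of_pos (h.a0_pos.trans_le hQ.1)]
  exact mul_le_mul_of_nonneg_right hQ.2 (abs_nonneg _)
theorem dinv_nonneg : 0 ≤ dinv α μ x := by
  exact Real.sInf_nonneg fun _ h => h.1
theorem gf_dinv (h : Atom α μ a0 Λ) (hx : 0 ≤ x) : gf α μ (dinv α μ x) = x := by
  have h0 : 0 ≤ x / a0 := div_nonneg hx h.a0_pos.le
  have hc : ContinuousOn (gf α μ) (Set.Icc 0 (x / a0)) := fun d hd =>
    (RTA.hd_gf (RTA.den_ne h.np hd.1)).continuousAt.continuousWithinAt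
  obtain ⟨d, hd, e⟩ := intermediate_value_Icc h0 hc (show x ∈ _ from ⟨gf_zero.le.trans hx, by
    have := mul_le_mul_of_nonneg_left (h.s1_mem h0).1 h0
    rwa [div_mul_cancel₀ _ h.a0_pos.ne'] at this⟩)
  rw [← e, h.dinv_gf' hd.1]
theorem dinv_gf (h : Atom α μ a0 Λ) (hd : 0 ≤ d) : dinv α μ (gf α μ d) = d := by
  exact h.dinv_gf' hd
theorem Bf_mem (h : Atom α μ a0 Λ) (hd : 0 ≤ d) : Bf α μ d ∈ Set.Icc (-Λ) 0 := by
  rw [RTA.Bf_eq, RTA.s1_eq]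
  exact RTA.mean_mem h.np h.nonneg h.sum_one hd 1 h.mem
theorem dinv_mono (h : Atom α μ a0 Λ) : MonotoneOn (dinv α μ) (Set.Ici 0) := fun x hx x' hx' hle =>
  (h.gf_smono.le_iff_le dinv_nonneg dinv_nonneg).1 (by rwa [h.gf_dinv hx, h.gf_dinv hx'])
theorem dinv_lip (h : Atom α μ a0 Λ) (hx : 0 ≤ x) (hx' : 0 ≤ x') :
    |dinv α μ x - dinv α μ x'| ≤ 1 / a0 * |x - x'| := by
  have := h.gf_low (dinv_nonneg (α := α) (μ := μ) (x := x)) (dinv_nonneg (α := α) (μ := μ) (x := x'))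
  rw [h.gf_dinv hx, h.gf_dinv hx'] at this
  rwa [one_div, inv_mul_eq_div, le_div_iff₀' h.a0_pos]
theorem dinv_zero (h : Atom α μ a0 Λ) : dinv α μ 0 = 0 := by
  simpa [gf_zero] using h.dinv_gf le_rfl
theorem dinv_pos (h : Atom α μ a0 Λ) (hx : 0 < x) : 0 < dinv α μ x := by
  refine lt_of_le_of_ne dinv_nonneg fun e => ?_
  have := h.gf_dinv hx.le
  rw [← e, gf_zero] at this
  exact hx.ne this
theorem dinv_cont (h : Atom α μ a0 Λ) : ContinuousOn (dinv α μ) (Set.Ici 0) :=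
  (LipschitzOnWith.of_dist_le' (K := 1 / a0) fun _ hx _ hx' => h.dinv_lip hx hx').continuousOn
theorem Bf_sub (h : Atom α μ a0 Λ) (hd : 0 ≤ d) (hd' : 0 ≤ d') :
    ∃ Q ∈ Set.Icc 0 (Λ ^ 2), Bf α μ d - Bf α μ d' = Q * (d - d') := by
  have h1 := RTA.den_ge h.np hd
  have h2 := RTA.den_ge h.np hd'
  have p1 := h.s1_pos hd
  have p2 := h.s1_pos hd'
  refine ⟨(∑ k, ∑ l, (μ k - μ l) ^ 2 * (α k / (1 - μ k * d) * (α l / (1 - μ l * d'))) /
    ((1 - μ k * d') * (1 - μ l * d))) / (2 * (s1 α μ d * s1 α μ d')), ⟨?_, ?_⟩, ?_⟩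
  · refine div_nonneg (sum_nonneg fun k _ => sum_nonneg fun l _ => ?_) (by positivity)
    have := h.nonneg k
    have := h.nonneg l
    have := zero_lt_one.trans_le (h1 k)
    have := zero_lt_one.trans_le (h1 l)
    have := zero_lt_one.trans_le (h2 k)
    have := zero_lt_one.trans_le (h2 l)
    positivity
  · rw [div_le_iff₀ (by positivity)]
    refine le_trans (b := Λ ^ 2 * (s1 α μ d * s1 α μ d')) ?_ (by nlinarith [mul_pos p1 p2, sq_nonneg Λ])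
    simp only [s1]
    rw [sum_mul_sum, mul_sum]
    refine sum_le_sum fun k _ => ?_
    rw [mul_sum]
    refine sum_le_sum fun l _ => ?_
    have a1 : 0 ≤ α k / (1 - μ k * d) * (α l / (1 - μ l * d')) :=
      mul_nonneg (div_nonneg (h.nonneg k) (by linarith [h1 k])) (div_nonneg (h.nonneg l) (by linarith [h2 l]))
    refine (div_le_self (mul_nonneg (sq_nonneg _) a1) (by nlinarith [h2 k, h1 l])).trans
      (mul_le_mul_of_nonneg_right (sq_le_sq' ?_ ?_) a1)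
    · linarith [(h.mem k).1, (h.mem l).2]
    · linarith [(h.mem k).2, (h.mem l).1]
  · have e := RTA.cheb (fun k => α k / (1 - μ k * d)) (fun k => α k / (1 - μ k * d')) μ
    have e1 : ∀ d, ∑ k, α k / (1 - μ k * d) * μ k = ∑ k, α k * μ k / (1 - μ k * d) := fun d =>
      sum_congr rfl fun k _ => by ring
    have e2 : ∑ k, ∑ l, (μ k - μ l) * (α k / (1 - μ k * d) * (α l / (1 - μ l * d')) -
        α k / (1 - μ k * d') * (α l / (1 - μ l * d))) =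
        (∑ k, ∑ l, (μ k - μ l) ^ 2 * (α k / (1 - μ k * d) * (α l / (1 - μ l * d'))) /
          ((1 - μ k * d') * (1 - μ l * d))) * (d - d') := by
      simp only [sum_mul]
      refine sum_congr rfl fun k _ => sum_congr rfl fun l _ => ?_
      have q1 := RTA.den_ne h.np hd k
      have q2 := RTA.den_ne h.np hd' k
      have q3 := RTA.den_ne h.np hd l
      have q4 := RTA.den_ne h.np hd' l
      generalize h1 : 1 - μ k * d = u1 at q1 ⊢
      generalize h2 : 1 - μ k * d' = u2 at q2 ⊢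
      generalize h3 : 1 - μ l * d = u3 at q3 ⊢
      generalize h4 : 1 - μ l * d' = u4 at q4 ⊢
      field_simp
      subst h1 h2 h3 h4
      ring
    rw [e1, e1, e2] at e
    rw [div_mul_eq_mul_div, ← e]
    change _ = 2 * (_ * s1 α μ d' - _ * s1 α μ d) / _
    unfold Bf
    generalize ∑ k, α k * μ k / (1 - μ k * d) = A
    generalize ∑ k, α k * μ k / (1 - μ k * d') = A'
    field_simp

theorem Bf_mono (h : Atom α μ a0 Λ) : MonotoneOn (Bf α μ) (Set.Ici 0) := by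
  intro d hd d' hd' hle
  obtain ⟨Q, hQ, e⟩ := h.Bf_sub hd' hd
  nlinarith [mul_nonneg hQ.1 (sub_nonneg.2 hle)]
theorem Bf_lip (h : Atom α μ a0 Λ) (hd : 0 ≤ d) (hd' : 0 ≤ d') :
    |Bf α μ d - Bf α μ d'| ≤ Λ ^ 2 * |d - d'| := by
  obtain ⟨Q, hQ, e⟩ := h.Bf_sub hd hd'
  rw [e, abs_mul, abs_of_nonneg hQ.1]
  exact mul_le_mul_of_nonneg_right hQ.2 (abs_nonneg _)
theorem Rf_mem (h : Atom α μ a0 Λ) (x : ℝ) : Rf α μ x ∈ Set.Icc (-Λ) 0 := by
  exact h.Bf_mem dinv_nonneg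
theorem Rf_mono (h : Atom α μ a0 Λ) : MonotoneOn (Rf α μ) (Set.Ici 0) := by
  exact fun x hx x' hx' hle => h.Bf_mono dinv_nonneg dinv_nonneg (h.dinv_mono hx hx' hle)
theorem Rf_lip (h : Atom α μ a0 Λ) (hx : 0 ≤ x) (hx' : 0 ≤ x') :
    |Rf α μ x - Rf α μ x'| ≤ Λ ^ 2 / a0 * |x - x'| := by
  refine (h.Bf_lip dinv_nonneg dinv_nonneg).trans ((mul_le_mul_of_nonneg_left (h.dinv_lip hx hx')
    (sq_nonneg _)).trans (le_of_eq (by ring)))
theorem Rf_zero (h : Atom α μ a0 Λ) : Rf α μ 0 = ∑ k, α k * μ k := by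
  rw [Rf, h.dinv_zero, Bf, h.s1_zero]
  simp
theorem Rf_eq (h : Atom α μ a0 Λ) (hx : 0 < x) : Rf α μ x = 1 / dinv α μ x - 1 / x := by
  have h1 := h.s1_sub_one (dinv_nonneg (α := α) (μ := μ) (x := x))
  have h2 := h.gf_dinv hx.le
  have h3 := h.dinv_pos hx
  rw [h2] at h1
  unfold gf at h2
  unfold Rf
  field_simp
  linear_combination (-dinv α μ x) * h1 + h2
omit [Fintype 𝒦] in
theorem term_inv {b : ℝ} (hb : 0 < b) (a m : ℝ) : a / (b - m) = 1 / b * (a / (1 - m * (1 / b))) := by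
  rw [show 1 - m * (1 / b) = (b - m) / b by field_simp]
  by_cases h : b - m = 0
  · simp [h]
  · field_simp
theorem gf_inv {b : ℝ} (hb : 0 < b) : ∑ k, α k / (b - μ k) = gf α μ (1 / b) := by
  rw [gf, s1, mul_sum]
  exact sum_congr rfl fun k _ => term_inv hb _ _

theorem Rf_le (h : Atom α μ a0 Λ) (hx : 0 < x) {b : ℝ} (hb : 0 < b) (hle : ∑ k, α k / (b - μ k) ≤ x) :
    Rf α μ x ≤ b - 1 / x := by
  rw [gf_inv hb, ← h.gf_dinv hx.le] at hle
  have h1 := (h.gf_smono.le_iff_le (one_div_pos.2 hb).le dinv_nonneg).1 hle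
  rw [h.Rf_eq hx]
  exact sub_le_sub_right ((one_div_le (h.dinv_pos hx) hb).2 h1) _
theorem le_Rf (h : Atom α μ a0 Λ) (hx : 0 < x) {b : ℝ} (hle : 0 < b → x ≤ ∑ k, α k / (b - μ k)) :
    b - 1 / x ≤ Rf α μ x := by
  rw [h.Rf_eq hx]
  refine sub_le_sub_right ?_ _
  rcases le_or_gt b 0 with hb | hb
  · exact hb.trans (one_div_pos.2 (h.dinv_pos hx)).le
  · have h0 := hle hb
    rw [gf_inv hb, ← h.gf_dinv hx.le] at h0
    have h1 := (h.gf_smono.le_iff_le dinv_nonneg (one_div_pos.2 hb).le).1 h0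
    exact (le_one_div hb (h.dinv_pos hx)).2 h1
theorem int_comp (h : Atom α μ a0 Λ) {F φ : ℝ → ℝ} (hφ : ContinuousOn φ (Set.Ici 0))
    (hF : ∀ d, 0 ≤ d → HasDerivAt F (φ d * mo α μ (fun _ => 1) 2 d) d) (h0 : 0 ≤ x') (hx : x' ≤ x) :
    F (dinv α μ x) - F (dinv α μ x') = ∫ t in x'..x, φ (dinv α μ t) := by
  have hs : Set.uIcc (dinv α μ x') (dinv α μ x) ⊆ Set.Ici 0 := fun d hd =>
    (le_min dinv_nonneg dinv_nonneg).trans hd.1
  have e := intervalIntegral.integral_comp_mul_deriv'' (a := dinv α μ x') (b := dinv α μ x)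
    (f := gf α μ) (f' := mo α μ (fun _ => 1) 2) (g := fun t => φ (dinv α μ t))
    (fun d hd => (RTA.hd_gf (RTA.den_ne h.np (hs hd))).continuousAt.continuousWithinAt)
    (fun d hd => (RTA.hd_gf (RTA.den_ne h.np (hs (Set.Ioo_subset_Icc_self hd)))).hasDerivWithinAt)
    ((RTA.co_mo h.np 2).mono hs)
    ((hφ.comp h.dinv_cont fun _ _ => dinv_nonneg).mono (by
      rintro _ ⟨d, hd, rfl⟩
      exact h.gf_nonneg (hs hd)))
  rw [h.gf_dinv h0, h.gf_dinv (h0.trans hx)] at e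
  rw [← e, ← intervalIntegral.integral_eq_sub_of_hasDerivAt (fun d hd => hF d (hs hd))
    (((hφ.mul (RTA.co_mo h.np 2)).mono hs).intervalIntegrable)]
  refine intervalIntegral.integral_congr fun d hd => ?_
  simp only [Function.comp_apply, h.dinv_gf (hs hd)]
theorem s2_pos (h : Atom α μ a0 Λ) (hd : 0 ≤ d) : 0 < mo α μ (fun _ => 1) 2 d :=
  RTA.mo_pos h.np h.nonneg h.sum_one hd 2
theorem s1_sub_one' (h : Atom α μ a0 Λ) (hd : 0 ≤ d) : s1 α μ d - 1 = d * mo α μ μ 1 d := by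
  have := (h.s1_pos hd).ne'
  rw [h.s1_sub_one hd, RTA.Bf_eq, gf]
  field_simp

theorem int_Rf (h : Atom α μ a0 Λ) (h0 : 0 ≤ x') (hx : x' ≤ x) :
    Gam α μ (dinv α μ x) - Gam α μ (dinv α μ x') = ∫ t in x'..x, Rf α μ t := by
  refine h.int_comp (φ := Bf α μ) (F := Gam α μ)
    (LipschitzOnWith.of_dist_le' (K := Λ ^ 2) fun _ hx _ hx' => h.Bf_lip hx hx').continuousOn
    (fun d hd => ?_) h0 hx
  have hn := RTA.den_ne h.np hd
  have hp := (h.s1_pos hd).ne'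
  have h1 := (((RTA.hd_s1 (α := α) hn).sub_const 1).fun_sub (HasDerivAt.fun_sum (u := univ)
    fun k _ => (RTA.hd_log k (hn k)).const_mul (α k))).fun_sub ((RTA.hd_s1 (α := α) hn).log hp)
  have e : ∑ k, α k * (-μ k / (1 - μ k * d)) = -mo α μ μ 1 d := by
    rw [mo, ← sum_neg_distrib]
    exact sum_congr rfl fun k _ => by ring
  rw [e] at h1
  refine h1.congr_deriv ?_
  rw [RTA.Bf_eq, ← RTA.s2_eq hn]
  have h2 := h.s1_sub_one' hd
  field_simp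
  linear_combination (mo α μ μ 2 d) * h2
theorem rhoX_mem (h : Atom α μ a0 Λ) (ht : t ∈ Set.Icc (0 : ℝ) 1) (x : ℝ) :
    rhoX α (fun k => t * μ k) μ x ∈ Set.Icc (-Λ) 0 := by
  have a := h.scale ht
  rw [rhoX, RTA.rho_eq]
  exact RTA.mean_mem a.np h.nonneg h.sum_one dinv_nonneg 2 h.mem
theorem rhoX_mono (h : Atom α μ a0 Λ) (ht : t ∈ Set.Icc (0 : ℝ) 1) :
    MonotoneOn (rhoX α (fun k => t * μ k) μ) (Set.Ici 0) := by
  have a := h.scale ht
  intro x hx x' hx' hle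
  have hdd := a.dinv_mono hx hx' hle
  unfold rhoX
  have hd : 0 ≤ dinv α (fun k => t * μ k) x := dinv_nonneg
  have hd' : 0 ≤ dinv α (fun k => t * μ k) x' := dinv_nonneg
  set d := dinv α (fun k => t * μ k) x
  set d' := dinv α (fun k => t * μ k) x'
  rw [RTA.rho_eq, RTA.rho_eq, div_le_div_iff₀ (a.s2_pos hd) (a.s2_pos hd')]
  have e := RTA.cheb (fun k => α k / (1 - t * μ k * d') ^ 2) (fun k => α k / (1 - t * μ k * d) ^ 2) μ
  have e1 : ∀ d, ∑ k, α k / (1 - t * μ k * d) ^ 2 * μ k = mo α (fun k => t * μ k) μ 2 d := fun d =>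
    sum_congr rfl fun k _ => by ring
  have e2 : ∀ d, ∑ k, α k / (1 - t * μ k * d) ^ 2 = mo α (fun k => t * μ k) (fun _ => 1) 2 d := fun d =>
    sum_congr rfl fun k _ => by ring
  rw [e1, e1, e2, e2] at e
  refine sub_nonneg.1 (nonneg_of_mul_nonneg_right (a := 2) ?_ two_pos)
  rw [e]
  refine sum_nonneg fun k _ => sum_nonneg fun l _ => ?_
  have p1 := zero_lt_one.trans_le (RTA.den_ge a.np hd k)
  have p2 := zero_lt_one.trans_le (RTA.den_ge a.np hd l)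
  have p3 := zero_lt_one.trans_le (RTA.den_ge a.np hd' k)
  have p4 := zero_lt_one.trans_le (RTA.den_ge a.np hd' l)
  have e3 : (μ k - μ l) * (α k / (1 - t * μ k * d') ^ 2 * (α l / (1 - t * μ l * d) ^ 2) -
      α k / (1 - t * μ k * d) ^ 2 * (α l / (1 - t * μ l * d') ^ 2)) =
      α k * α l * (t * (d' - d) * (μ k - μ l) ^ 2) * ((1 - t * μ k * d) * (1 - t * μ l * d') +
        (1 - t * μ k * d') * (1 - t * μ l * d)) / ((1 - t * μ k * d') ^ 2 * (1 - t * μ l * d) ^ 2 *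
          (1 - t * μ k * d) ^ 2 * (1 - t * μ l * d') ^ 2) := by
    generalize h1 : 1 - t * μ k * d = u1 at p1 ⊢
    generalize h2 : 1 - t * μ l * d = u2 at p2 ⊢
    generalize h3 : 1 - t * μ k * d' = u3 at p3 ⊢
    generalize h4 : 1 - t * μ l * d' = u4 at p4 ⊢
    field_simp
    subst h1 h2 h3 h4
    ring
  rw [e3]
  have := h.nonneg k
  have := h.nonneg l
  have := ht.1
  have := sub_nonneg.2 hdd
  positivity
theorem int_rhoX (h : Atom α μ a0 Λ) (ν : 𝒦 → ℝ) (h0 : 0 ≤ x') (hx : x' ≤ x) :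
    Ef α μ ν (dinv α μ x) - Ef α μ ν (dinv α μ x') = ∫ t in x'..x, rhoX α μ ν t := by
  refine h.int_comp (φ := rho α μ ν) (F := Ef α μ ν) ?_ (fun d hd => ?_) h0 hx
  · simp only [funext fun d => RTA.rho_eq (α := α) (μ := μ) (ν := ν) (d := d)]
    exact (RTA.co_mo h.np 2).div (RTA.co_mo h.np 2) fun d hd => (h.s2_pos hd).ne'
  · rw [RTA.rho_eq, div_mul_cancel₀ _ (h.s2_pos hd).ne']
    exact RTA.hd_Ef (RTA.den_ne h.np hd)
theorem tangent (h : Atom α μ a0 Λ) {t' : ℝ} (ht : t ∈ Set.Icc (0 : ℝ) 1) (ht' : t' ∈ Set.Icc (0 : ℝ) 1)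
    (hx : 0 < x) : (t' - t) * rhoX α (fun k => t * μ k) μ x ≤
      1 / dinv α (fun k => t' * μ k) x - 1 / dinv α (fun k => t * μ k) x := by
  have a := h.scale ht
  have a' := h.scale ht'
  have p := a.dinv_pos hx
  have p' := a'.dinv_pos hx
  have e := a.gf_dinv hx.le
  have e' := a'.gf_dinv hx.le
  unfold rhoX
  set d := dinv α (fun k => t * μ k) x
  set d' := dinv α (fun k => t' * μ k) x
  have q := a.s2_pos p.le
  rw [RTA.rho_eq, ← mul_div_assoc, div_le_iff₀ q]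
  have key : gf α (fun k => t * μ k) d - d ^ 2 * ((1 / d' - 1 / d) * mo α (fun k => t * μ k) (fun _ => 1) 2 d -
      (t' - t) * mo α (fun k => t * μ k) μ 2 d) ≤ gf α (fun k => t' * μ k) d' := by
    simp only [gf, s1, mo, mul_sum, ← sum_sub_distrib]
    refine sum_le_sum fun k _ => ?_
    have u := zero_lt_one.trans_le (RTA.den_ge a.np p.le k)
    have u' := zero_lt_one.trans_le (RTA.den_ge a'.np p'.le k)
    have : d' * (α k / (1 - t' * μ k * d')) - (d * (α k / (1 - t * μ k * d)) - d ^ 2 * ((1 / d' - 1 / d) *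
        (α k * 1 / (1 - t * μ k * d) ^ 2) - (t' - t) * (α k * μ k / (1 - t * μ k * d) ^ 2))) =
        α k * (d' * (1 - t * μ k * d) - d * (1 - t' * μ k * d')) ^ 2 /
          (d' * (1 - t' * μ k * d') * (1 - t * μ k * d) ^ 2) := by
      generalize h1 : 1 - t * μ k * d = u1 at u ⊢
      generalize h2 : 1 - t' * μ k * d' = u2 at u' ⊢
      field_simp
      subst h1 h2
      ring
    have h2 : 0 ≤ α k * (d' * (1 - t * μ k * d) - d * (1 - t' * μ k * d')) ^ 2 /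
          (d' * (1 - t' * μ k * d') * (1 - t * μ k * d) ^ 2) := by
      have := h.nonneg k
      positivity
    linarith
  rw [e, e'] at key
  have h3 := pow_pos p 2
  by_contra hc
  push Not at hc
  nlinarith [mul_pos h3 (sub_pos.2 hc)]

theorem riemann (h : Atom α μ a0 Λ) {M : ℕ} (hM : 0 < M) (hx : 0 ≤ x) :
    ∑ i ∈ range M, (1 / (M : ℝ)) * rhoX α (fun k => ((i + 1 : ℕ) : ℝ) / M * μ k) μ x ≤
      Rf α μ x + Λ / M := by
  have hM' : (0 : ℝ) < M := Nat.cast_pos.2 hM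
  have hm : ∀ i : ℕ, i ≤ M → (i : ℝ) / M ∈ Set.Icc (0 : ℝ) 1 := fun i hi =>
    ⟨by positivity, (div_le_one hM').2 (Nat.cast_le.2 hi)⟩
  rcases hx.eq_or_lt with rfl | hx
  · have e : ∀ i ∈ range M, (1 / (M : ℝ)) * rhoX α (fun k => ((i + 1 : ℕ) : ℝ) / M * μ k) μ 0 =
        1 / (M : ℝ) * ∑ k, α k * μ k := fun i hi => by
      rw [rhoX, (h.scale (hm _ (mem_range.1 hi))).dinv_zero]
      simp [rho, h.sum_one]
    rw [sum_congr rfl e, sum_const, card_range, nsmul_eq_mul, h.Rf_zero, ← mul_assoc,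
      mul_one_div_cancel hM'.ne', one_mul]
    exact le_add_of_nonneg_right (div_nonneg h.Λ_nonneg hM'.le)
  · obtain ⟨M, rfl⟩ : ∃ M', M = M' + 1 := ⟨M - 1, by omega⟩
    set b : ℕ → ℝ := fun i => 1 / dinv α (fun k => (i : ℝ) / (M + 1 : ℕ) * μ k) x with hb
    set ρ : ℕ → ℝ := fun i => rhoX α (fun k => (i : ℝ) / (M + 1 : ℕ) * μ k) μ x with hρ
    have key : ∀ i, i ≤ M → 1 / ((M + 1 : ℕ) : ℝ) * ρ i ≤ b (i + 1) - b i := fun i hi => by
      have := h.tangent (hm i (by omega)) (hm (i + 1) (by omega)) hx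
      rwa [show ((i + 1 : ℕ) : ℝ) / (M + 1 : ℕ) - (i : ℝ) / (M + 1 : ℕ) = 1 / ((M + 1 : ℕ) : ℝ) by
        rw [← sub_div]; simp] at this
    have h1 : ∑ i ∈ range (M + 1), 1 / ((M + 1 : ℕ) : ℝ) * ρ i ≤ b (M + 1) - b 0 := by
      rw [← sum_range_sub b]
      exact sum_le_sum fun i hi => key i (Nat.lt_succ_iff.1 (mem_range.1 hi))
    have h2 : b (M + 1) - b 0 = Rf α μ x := by
      have a := h.scale (t := 0) ⟨le_rfl, zero_le_one⟩
      have e := a.gf_dinv hx.le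
      simp only [gf, s1, zero_mul, sub_zero, div_one, h.sum_one, mul_one] at e
      simp only [hb, div_self hM'.ne', one_mul, Nat.cast_zero, zero_div, zero_mul, e, h.Rf_eq hx]
    have h3 := (h.rhoX_mem (hm 0 (by omega)) x).1
    have h4 := (h.rhoX_mem (hm (M + 1) le_rfl) x).2
    change ∑ i ∈ range (M + 1), 1 / ((M + 1 : ℕ) : ℝ) * ρ (i + 1) ≤ _
    rw [sum_range_succ'] at h1
    rw [sum_range_succ]
    have h5 := mul_le_mul_of_nonneg_left h3 (one_div_pos.2 hM').le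
    have h6 := mul_le_mul_of_nonneg_left h4 (one_div_pos.2 hM').le
    change _ ≤ _ * ρ 0 at h5
    change _ * ρ (M + 1) ≤ _ at h6
    have h7 : Λ / ((M + 1 : ℕ) : ℝ) = 1 / ((M + 1 : ℕ) : ℝ) * Λ := by ring
    linarith

/-! ### scaling the atoms -/

theorem hasDerivAt_Bf (h : Atom α μ a0 Λ) (hd : 0 ≤ d) (hr : 0 ≤ r) :
    HasDerivAt (fun r => Bf α (fun k => r * μ k) d) (bet α (fun k => r * μ k) μ d) r := by
  have hu := mul_nonneg hr hd
  have hn := RTA.den_ne h.np hu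
  have hp := (h.s1_pos hu).ne'
  have h1 := ((hasDerivAt_id r).fun_mul (RTA.hd_mo_r (α := α) (ν := μ) hn 1)).fun_div
    (RTA.hd_s1_r (α := α) hn) hp
  simp only [RTA.Bf_eq, RTA.bet_eq, RTA.mo_mul, RTA.mo_scale, RTA.s1_scale]
  refine h1.congr_deriv ?_
  have h2 := h.s1_sub_one' hu
  have h3 := RTA.mo_succ (α := α) (ν := μ) hn 1
  simp only [id, Nat.cast_one, one_mul]
  congr 1
  linear_combination (mo α μ μ 2 (r * d)) * h2 + s1 α μ (r * d) * h3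
theorem continuousAt_bet (h : Atom α μ a0 Λ) (hd : 0 ≤ d) (hr : 0 ≤ r) :
    ContinuousAt (fun r => bet α (fun k => r * μ k) μ d) r := by
  have hu := mul_nonneg hr hd
  have hn := RTA.den_ne h.np hu
  simp only [RTA.bet_eq, RTA.mo_scale, RTA.s1_scale]
  exact (RTA.hd_mo_r (α := α) (ν := μ) hn 2).continuousAt.div
    ((RTA.hd_s1_r (α := α) hn).continuousAt.pow 2) (pow_ne_zero 2 (h.s1_pos hu).ne')
theorem bet_mono (h : Atom α μ a0 Λ) (hr : 0 ≤ r) :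
    MonotoneOn (bet α (fun k => r * μ k) μ) (Set.Ici 0) := by
  have hD : ∀ u, 0 ≤ u → HasDerivAt (fun u => mo α μ μ 2 u / s1 α μ u ^ 2)
      (((2 : ℕ) * mo α μ (fun k => μ k * μ k) (2 + 1) u * s1 α μ u ^ 2 -
        mo α μ μ 2 u * ((2 : ℕ) * s1 α μ u ^ (2 - 1) * mo α μ μ 2 u)) / (s1 α μ u ^ 2) ^ 2) u :=
    fun u hu => (RTA.hd_mo (RTA.den_ne h.np hu) 2).fun_div ((RTA.hd_s1 (RTA.den_ne h.np hu)).fun_pow 2)
      (pow_ne_zero 2 (h.s1_pos hu).ne')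
  have hm : MonotoneOn (fun u => mo α μ μ 2 u / s1 α μ u ^ 2) (Set.Ici 0) := by
    refine monotoneOn_of_hasDerivWithinAt_nonneg (convex_Ici 0)
      (fun u hu => (hD u hu).continuousAt.continuousWithinAt)
      (fun u hu => (hD u (interior_subset hu)).hasDerivWithinAt) fun u hu => ?_
    have hu' : 0 ≤ u := interior_subset hu
    refine div_nonneg ?_ (sq_nonneg _)
    have p := fun k => zero_lt_one.trans_le (RTA.den_ge h.np hu' k)
    have cs : mo α μ μ 2 u ^ 2 ≤ mo α μ (fun k => μ k * μ k) 3 u * s1 α μ u :=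
      sum_sq_le_sum_mul_sum_of_sq_le_mul _
        (fun k _ => div_nonneg (mul_nonneg (h.nonneg k) (mul_self_nonneg _)) (pow_pos (p k) 3).le)
        (fun k _ => div_nonneg (h.nonneg k) (p k).le) fun k _ => le_of_eq (by
          have := (p k).ne'
          field_simp)
    have := mul_le_mul_of_nonneg_left cs (h.s1_pos hu').le
    norm_num
    nlinarith
  intro d hd d' hd' hle
  simp only [RTA.bet_eq, RTA.mo_scale, RTA.s1_scale]
  exact hm (mul_nonneg hr hd) (mul_nonneg hr hd') (mul_le_mul_of_nonneg_left hle hr)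
theorem hasDerivAt_log_s1 (h : Atom α μ a0 Λ) (hd : 0 ≤ d) (hr : 0 ≤ r) :
    HasDerivAt (fun r => Real.log (s1 α (fun k => r * μ k) d))
      (bet α (fun k => r * μ k) μ d * s1 α (fun k => r * μ k) d * d) r := by
  have hu := mul_nonneg hr hd
  have hn := RTA.den_ne h.np hu
  have hp := (h.s1_pos hu).ne'
  simp only [RTA.bet_eq, RTA.mo_scale, RTA.s1_scale]
  refine ((RTA.hd_s1_r (α := α) hn).log hp).congr_deriv ?_
  field_simp
theorem hasDerivAt_log (h : Atom α μ a0 Λ) (hd : 0 ≤ d) (hr : 0 ≤ r) (k : 𝒦) :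
    HasDerivAt (fun r => -Real.log (1 - r * μ k * d)) (μ k * d / (1 - r * μ k * d)) r := by
  have hn : 1 - r * μ k * d ≠ 0 := by
    have := RTA.den_ne h.np (mul_nonneg hr hd) k
    rwa [show μ k * (r * d) = r * μ k * d by ring] at this
  have h1 : HasDerivAt (fun r : ℝ => 1 - r * μ k * d) (-(μ k * d)) r := by
    simpa using (((hasDerivAt_id r).mul_const (μ k)).mul_const d).const_sub 1
  exact (h1.log hn).fun_neg.congr_deriv (by ring)
/-- the increments of `Bf` grow with the scale -/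
theorem Bf_incr (h : Atom α μ a0 Λ) (h0 : 0 ≤ d') (hd : d' ≤ d) (hr : r ∈ Set.Icc (0 : ℝ) 1) :
    Bf α (fun k => r * μ k) d - Bf α (fun k => r * μ k) d' ≤ Bf α μ d - Bf α μ d' := by
  have hd0 := h0.trans hd
  have hD : ∀ r, 0 ≤ r → HasDerivAt (fun r => Bf α (fun k => r * μ k) d - Bf α (fun k => r * μ k) d')
      (bet α (fun k => r * μ k) μ d - bet α (fun k => r * μ k) μ d') r := fun r hr =>
    (h.hasDerivAt_Bf hd0 hr).fun_sub (h.hasDerivAt_Bf h0 hr)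
  have hm := monotoneOn_of_hasDerivWithinAt_nonneg (convex_Ici 0)
    (fun u hu => (hD u hu).continuousAt.continuousWithinAt)
    (fun u hu => (hD u (interior_subset hu)).hasDerivWithinAt)
    fun u hu => sub_nonneg.2 (h.bet_mono (interior_subset hu) h0 hd0 hd)
  simpa using hm hr.1 (Set.mem_Ici.2 zero_le_one) hr.2

end Atom

namespace RTA

/-- the compact set of parameters -/
def PK (𝒦 : Type) [Fintype 𝒦] (Λ A : ℝ) : Set ((𝒦 → ℝ) × (𝒦 → ℝ) × ℝ) :=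
  stdSimplex ℝ 𝒦 ×ˢ (Set.univ.pi fun _ => Set.Icc (-Λ) 0) ×ˢ Set.Icc 0 A

theorem unif {a0 Λ A η : ℝ} (hη : 0 < η) (F : (𝒦 → ℝ) → (𝒦 → ℝ) → ℝ → ℝ)
    (hF : ContinuousOn (fun z : (𝒦 → ℝ) × (𝒦 → ℝ) × ℝ => F z.1 z.2.1 z.2.2) (PK 𝒦 Λ A)) :
    ∀ᶠ η' in nhdsWithin 0 (Set.Ioi 0), ∀ α μ α' μ' : 𝒦 → ℝ, Atom α μ a0 Λ → Atom α' μ' a0 Λ →
      (∀ k, |α k - α' k| ≤ η') → (∀ k, |μ k - μ' k| ≤ η') → ∀ d ∈ Set.Icc 0 A,
      |F α μ d - F α' μ' d| ≤ η := by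
  have hK : IsCompact (PK 𝒦 Λ A) := (isCompact_stdSimplex ℝ 𝒦).prod
    ((isCompact_univ_pi fun _ => isCompact_Icc).prod isCompact_Icc)
  obtain ⟨δ, hδ, h⟩ := Metric.uniformContinuousOn_iff.1 (hK.uniformContinuousOn_of_continuous hF) η hη
  filter_upwards [Ioo_mem_nhdsGT hδ] with η' hη' α μ α' μ' a a' h1 h2 d hd
  refine (h (α, μ, d) ⟨⟨a.nonneg, a.sum_one⟩, fun k _ => a.mem k, hd⟩
    (α', μ', d) ⟨⟨a'.nonneg, a'.sum_one⟩, fun k _ => a'.mem k, hd⟩ ?_).le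
  simp only [Prod.dist_eq, dist_self, max_lt_iff]
  exact ⟨((dist_pi_le_iff hη'.1.le).2 h1).trans_lt hη'.2,
    ((dist_pi_le_iff hη'.1.le).2 h2).trans_lt hη'.2, hδ⟩

theorem PK_den {Λ A : ℝ} {z : (𝒦 → ℝ) × (𝒦 → ℝ) × ℝ} (hz : z ∈ PK 𝒦 Λ A) (k : 𝒦) :
    1 - z.2.1 k * z.2.2 ≠ 0 := den_ne (fun k => (hz.2.1 k trivial).2) hz.2.2.1 k

theorem PK_mo {Λ A : ℝ} (ν : (𝒦 → ℝ) → 𝒦 → ℝ) (hν : ∀ k, Continuous fun μ => ν μ k) (n : ℕ) :
    ContinuousOn (fun z : (𝒦 → ℝ) × (𝒦 → ℝ) × ℝ => mo z.1 z.2.1 (ν z.2.1) n z.2.2) (PK 𝒦 Λ A) := by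
  unfold mo
  refine continuousOn_finsetSum _ fun k _ => ContinuousOn.div ?_ (by fun_prop)
    fun z hz => pow_ne_zero _ (PK_den hz k)
  have := hν k
  fun_prop

theorem PK_s1 {Λ A : ℝ} :
    ContinuousOn (fun z : (𝒦 → ℝ) × (𝒦 → ℝ) × ℝ => s1 z.1 z.2.1 z.2.2) (PK 𝒦 Λ A) := by
  simp only [s1_eq]
  exact PK_mo (fun _ _ => 1) (fun _ => continuous_const) 1

theorem PK_s1_ne {Λ A : ℝ} (z : (𝒦 → ℝ) × (𝒦 → ℝ) × ℝ) (hz : z ∈ PK 𝒦 Λ A) : s1 z.1 z.2.1 z.2.2 ≠ 0 := by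
  rw [s1_eq]
  exact (mo_pos (fun k => (hz.2.1 k trivial).2) hz.1.1 hz.1.2 hz.2.2.1 1).ne'

theorem small_of {a0 Λ ā η : ℝ} (hη : 0 < η) (F F' : (𝒦 → ℝ) → (𝒦 → ℝ) → ℝ → ℝ)
    (hF : ContinuousOn (fun z : (𝒦 → ℝ) × (𝒦 → ℝ) × ℝ => F z.1 z.2.1 z.2.2) (PK 𝒦 Λ 0))
    (hF' : ContinuousOn (fun z : (𝒦 → ℝ) × (𝒦 → ℝ) × ℝ => F' z.1 z.2.1 z.2.2) (PK 𝒦 Λ ā))
    (hd : ∀ α μ d, Atom α μ a0 Λ → 0 ≤ d → HasDerivAt (F α μ) (F' α μ d) d) :
    ∀ᶠ η' in nhdsWithin 0 (Set.Ioi 0), ∀ α μ α' μ' : 𝒦 → ℝ, Atom α μ a0 Λ → Atom α' μ' a0 Λ →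
      (∀ k, |α k - α' k| ≤ η') → (∀ k, |μ k - μ' k| ≤ η') →
      Small (fun d => F α μ d - F α' μ' d) η ā := by
  filter_upwards [unif (a0 := a0) hη F hF, unif (a0 := a0) hη F' hF'] with η' h1 h2 α μ α' μ' a a' b b'
  refine ⟨h1 α μ α' μ' a a' b b' 0 ⟨le_rfl, le_rfl⟩, fun d hd1 d' hd2 => ?_⟩
  exact (convex_Icc 0 ā).norm_image_sub_le_of_norm_hasDerivWithin_le
    (f := fun d => F α μ d - F α' μ' d) (f' := fun d => F' α μ d - F' α' μ' d)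
    (fun d h => ((hd α μ d a h.1).fun_sub (hd α' μ' d a' h.1)).hasDerivWithinAt)
    (fun d h => h2 α μ α' μ' a a' b b' d h) hd2 hd1

end RTA

/-- continuity in the atoms -/
theorem small (𝒦 : Type) [Fintype 𝒦] (a0 Λ ā η : ℝ) (hη : 0 < η) : ∃ η' : ℝ, 0 < η' ∧
    ∀ α μ α' μ' : 𝒦 → ℝ, Atom α μ a0 Λ → Atom α' μ' a0 Λ → (∀ k, |α k - α' k| ≤ η') →
      (∀ k, |μ k - μ' k| ≤ η') →
      Small (fun d => Bf α μ d - Bf α' μ' d) η ā ∧ Small (fun d => gf α μ d - gf α' μ' d) η ā ∧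
      Small (fun d => Real.log (s1 α μ d) - Real.log (s1 α' μ' d)) η ā ∧
      Small (fun d => ∑ k, Real.log (1 - μ k * d) - ∑ k, Real.log (1 - μ' k * d)) η ā ∧
      ∀ x ∈ Set.Icc (0 : ℝ) 1, |Rf α μ x - Rf α' μ' x| ≤ η := by
  rcases le_or_gt a0 0 with ha | ha
  · exact ⟨1, one_pos, fun α μ _ _ h => absurd h.a0_pos (not_lt.2 ha)⟩
  have cB : ∀ A, ContinuousOn (fun z : (𝒦 → ℝ) × (𝒦 → ℝ) × ℝ => Bf z.1 z.2.1 z.2.2) (RTA.PK 𝒦 Λ A) :=
    fun A => by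
      simp only [RTA.Bf_eq]
      exact (RTA.PK_mo (fun μ => μ) (fun _ => by fun_prop) 1).div RTA.PK_s1 RTA.PK_s1_ne
  have cg : ∀ A, ContinuousOn (fun z : (𝒦 → ℝ) × (𝒦 → ℝ) × ℝ => gf z.1 z.2.1 z.2.2) (RTA.PK 𝒦 Λ A) :=
    fun A => ContinuousOn.mul (by fun_prop) RTA.PK_s1
  have E1 := RTA.small_of (𝒦 := 𝒦) (a0 := a0) (Λ := Λ) (ā := ā) hη Bf
    (fun α μ d => ((1 : ℕ) * mo α μ (fun k => μ k * μ k) (1 + 1) d * s1 α μ d -
      mo α μ μ 1 d * mo α μ μ 2 d) / s1 α μ d ^ 2) (cB 0)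
    ((((continuousOn_const.mul (RTA.PK_mo (fun μ k => μ k * μ k) (fun _ => by fun_prop) _)).mul
      RTA.PK_s1).sub ((RTA.PK_mo (fun μ => μ) (fun _ => by fun_prop) 1).mul
        (RTA.PK_mo (fun μ => μ) (fun _ => by fun_prop) 2))).div (RTA.PK_s1.pow 2)
      fun z hz => pow_ne_zero 2 (RTA.PK_s1_ne z hz))
    (fun α μ d h hd => by
      simp only [funext fun d => RTA.Bf_eq (α := α) (μ := μ) (d := d)]
      exact (RTA.hd_mo (RTA.den_ne h.np hd) 1).fun_div (RTA.hd_s1 (RTA.den_ne h.np hd)) (h.s1_pos hd).ne')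
  have E2 := RTA.small_of (𝒦 := 𝒦) (a0 := a0) (Λ := Λ) (ā := ā) hη gf
    (fun α μ d => mo α μ (fun _ => 1) 2 d) (cg 0) (RTA.PK_mo (fun _ _ => 1) (fun _ => continuous_const) 2)
    fun α μ d h hd => RTA.hd_gf (RTA.den_ne h.np hd)
  have E3 := RTA.small_of (𝒦 := 𝒦) (a0 := a0) (Λ := Λ) (ā := ā) hη (fun α μ d => Real.log (s1 α μ d))
    (fun α μ d => mo α μ μ 2 d / s1 α μ d) (RTA.PK_s1.log RTA.PK_s1_ne)
    ((RTA.PK_mo (fun μ => μ) (fun _ => by fun_prop) 2).div RTA.PK_s1 RTA.PK_s1_ne)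
    fun α μ d h hd => (RTA.hd_s1 (RTA.den_ne h.np hd)).log (h.s1_pos hd).ne'
  have E4 := RTA.small_of (𝒦 := 𝒦) (a0 := a0) (Λ := Λ) (ā := ā) hη
    (fun _ μ d => ∑ k, Real.log (1 - μ k * d)) (fun _ μ d => ∑ k, -μ k / (1 - μ k * d))
    (continuousOn_finsetSum _ fun k _ => ContinuousOn.log (by fun_prop) fun z hz => RTA.PK_den hz k)
    (continuousOn_finsetSum _ fun k _ => ContinuousOn.div (by fun_prop) (by fun_prop)
      fun z hz => RTA.PK_den hz k)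
    fun α μ d h hd => HasDerivAt.fun_sum fun k _ => RTA.hd_log k (RTA.den_ne h.np hd k)
  have E5 := RTA.unif (a0 := a0) (half_pos hη) Bf (cB (1 / a0))
  have E6 := RTA.unif (a0 := a0) (show 0 < η / 2 * a0 / (Λ ^ 2 + 1) by positivity) gf (cg (1 / a0))
  obtain ⟨η', ⟨⟨⟨⟨⟨⟨e1, e2⟩, e3⟩, e4⟩, e5⟩, e6⟩, e0⟩⟩ :=
    ((((((E1.and E2).and E3).and E4).and E5).and E6).and self_mem_nhdsWithin).exists
  refine ⟨η', e0, fun α μ α' μ' a a' b b' => ⟨e1 _ _ _ _ a a' b b', e2 _ _ _ _ a a' b b',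
    e3 _ _ _ _ a a' b b', e4 _ _ _ _ a a' b b', fun x hx => ?_⟩⟩
  have hd : dinv α μ x ∈ Set.Icc 0 (1 / a0) := by
    refine ⟨Atom.dinv_nonneg, ?_⟩
    have := a.dinv_lip hx.1 le_rfl
    rw [a.dinv_zero, sub_zero, sub_zero, abs_of_nonneg hx.1] at this
    exact (le_abs_self _).trans (this.trans (mul_le_of_le_one_right (one_div_pos.2 ha).le hx.2))
  have h1 := e5 _ _ _ _ a a' b b' _ hd
  have h2 := e6 _ _ _ _ a a' b b' _ hd
  have h3 := a'.gf_low (Atom.dinv_nonneg (α := α') (μ := μ') (x := x)) hd.1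
  rw [a.gf_dinv hx.1] at h2
  rw [a'.gf_dinv hx.1] at h3
  have h4 := a'.Bf_lip hd.1 (Atom.dinv_nonneg (α := α') (μ := μ') (x := x))
  have h5 : (Λ ^ 2 + 1) * |dinv α' μ' x - dinv α μ x| ≤ η / 2 := by
    have := (le_div_iff₀ (by positivity)).1 (h3.trans h2)
    nlinarith
  rw [abs_sub_comm (dinv α μ x)] at h4
  have h6 := abs_sub_le (Bf α μ (dinv α μ x)) (Bf α' μ' (dinv α μ x)) (Bf α' μ' (dinv α' μ' x))
  have h7 := abs_nonneg (dinv α' μ' x - dinv α μ x)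
  unfold Rf
  nlinarith

end Crest.Agent.R164
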