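import Crest.Agent.R164.Grad
import Crest.Agent.R164.RT

/-!
Row 164, task R164-LowAn: the approximate fixed point equations give a lower bound for the cavity increment.

PLAN.  `h = v + Δh`, `Σ h ≤ V = 1 + Λ² ā` (`sum_abs_dh`, `Bf_lip`), `h ≥ 0` (`dh_nonneg`).  `b₀ j` from `exists_min` (`|b₀ j| ≤ B₀`), `M1 b₀ = m` (`M1_min`).
If `b j > b₀ j + η₁` then `M1 (b j) - m j ≥ c η₁` (`M1_mono`, `M1_strong` with `B = B₀ + 1`), so `b j ≤ Cb - L γ c η₁/2 < -B₀`: contradiction for `L` large, `η' ≤ γ_min c η₁/2`; symmetric.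
`q = stepOf (Σ γ j p1 h (b₀ j))` (`trial_stepOf`), `tail q (ζ l) = Σ γ (1 - T1 (b₀ j) l)` is within `δ₁ = 2η' + 3η₁` of `tl pa l` (`T1_lip_b`).
`centropy_le` + `grad` + `tail_stepOf_sum`; `IsPath.int_le_TT` with `E = Gam ∘ dinv`, `ρ = Rf` (`D_pathOf`, `dinv_gf`, `int_Rf`); identity
`TT (s1 ∘ d - 1) = TT (Bf ∘ d * D pa) = Σ_i dh (Bf ∘ d) i (pa n - tl pa i) + Bf 0 * pa n` (`s1_sub_one`, `TT_mul`).
-/

set_option autoImplicit false

namespace Crest.Agent.R164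

open MeasureTheory Finset Crest.ProbabilityR.InvariantGlass

theorem lowan_close {M : ℝ → ℝ} (hM : Monotone M) {c B b b₀ m e e' g γ L Cb c' : ℝ} (hc : 0 < c) (he : 0 < e)
    (he1 : e ≤ 1) (hg : 0 < g) (hγ : g ≤ γ) (hb₀ : |b₀| ≤ B) (hm : M b₀ = m)
    (hs : ∀ b b', -(B + 1) ≤ b → b ≤ b' → b' ≤ B + 1 → c * (b' - b) ≤ M b' - M b)
    (he' : e' ≤ g * c * e / 2) (hL : 2 * (|Cb| + (B + 1)) / (g * c * e) ≤ L) (hc' : |c'| ≤ Cb)
    (h : |c' - b - L * γ * (M b - m)| ≤ L * e') : |b - b₀| ≤ e := by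
  have hp : 0 < g * c * e := by positivity
  have hB : 0 ≤ B := (abs_nonneg _).trans hb₀
  have hL0 : 0 < L := lt_of_lt_of_le (by positivity) hL
  rw [div_le_iff₀ hp] at hL
  obtain ⟨b1, b2⟩ := abs_le.1 hb₀
  obtain ⟨c1, c2⟩ := abs_le.1 hc'
  obtain ⟨h1, h2⟩ := abs_le.1 h
  have h3 := mul_le_mul_of_nonneg_left he' hL0.le
  have h4 := le_abs_self Cb
  have h5 : L * g * (c * e) ≤ L * γ * (c * e) := by gcongr
  have hLγ : 0 ≤ L * γ := (mul_pos hL0 (hg.trans_le hγ)).le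
  rw [abs_le]
  constructor
  · by_contra h6
    have h7 := hM (show b ≤ b₀ - e by linarith)
    have h8 := hs (b₀ - e) b₀ (by linarith) (by linarith) (by linarith)
    have h9 := mul_le_mul_of_nonneg_left (show c * e ≤ m - M b by linarith) hLγ
    linarith
  · by_contra h6
    have h7 := hM (show b₀ + e ≤ b by linarith)
    have h8 := hs b₀ (b₀ + e) (by linarith) (by linarith) (by linarith)
    have h9 := mul_le_mul_of_nonneg_left (show c * e ≤ M b - m by linarith) hLγ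
    linarith

theorem lowan_list {J : ℕ} (γ : Fin J → ℝ) (F : Fin J → ℝ → ℝ) (L : List (ℝ × ℝ)) :
    (L.map fun p => p.2 * ∑ j, γ j * F j p.1).sum = ∑ j, γ j * (L.map fun p => p.2 * F j p.1).sum := by
  induction L with
  | nil => simp
  | cons p L ih =>
    simp only [List.map_cons, List.sum_cons, ih, mul_add, Finset.sum_add_distrib]
    congr 1
    rw [Finset.mul_sum]
    exact Finset.sum_congr rfl fun j _ => by ring

theorem low_an {𝒦 : Type} [Fintype 𝒦] {α μ : 𝒦 → ℝ} {a0 Λ : ℝ} (hat : Atom α μ a0 Λ) {J : ℕ}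
    (γ m : Fin J → ℚ) (hγ : ∀ j, 0 < γ j) (hγ1 : ∑ j, γ j = 1) (hm : ∀ j, |(m j : ℝ)| < 1)
    {y : ℝ} (hy : 0 < y) (ā Cb : ℝ) {η : ℝ} (hη : 0 < η) :
    ∃ L₀ : ℝ, 0 < L₀ ∧ ∃ η' : ℝ, 0 < η' ∧ ∀ (L : ℝ) (G : Grid) (ϖ : ℝ) (a v h pa : ℕ → ℝ) (b c' : Fin J → ℝ),
      L₀ ≤ L → G.ζ 0 = y → G.Unif ϖ → G.IsPath a ā → (∀ l ∈ Ico 1 (G.n - 1), 0 ≤ v l) →
      ∑ l ∈ Ico 1 (G.n - 1), v l ≤ η' → (h = fun l => v l + G.dh (fun i => Bf α μ (G.D a i)) l) →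
      (pa = G.pathOf fun i => gf α μ (G.D a i)) → |pa G.n - 1| ≤ η' → (∀ j, |c' j| ≤ Cb) →
      (∀ j, |c' j - b j - L * γ j * (M1 G h (b j) - m j)| ≤ L * η') →
      (∀ l ∈ Ico 1 (G.n - 1), |∑ j, (γ j : ℝ) * T1 G h (b j) l - (pa G.n - G.tl pa l)| ≤ η') →
      ∃ q : ℝ → ℝ, IsTrialPath q ∧ constrainedEntropyPart γ m q ≤
        ((∑ j, (γ j : ℝ) * ellm (G.gl h) (m j) +
          (1 / 2) * G.TT (fun i => Gam α μ (G.D a i) - (s1 α μ (G.D a i) - 1) + Bf α μ (G.D a i)) +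
          (1 / 2) * Bf α μ 0 + η -
          (1 / 2) * ∫ r in Set.Ioo (0 : ℝ) 1, Rf α μ (deficit q r) : ℝ) : EReal) := by
  have hΛ := hat.Λ_nonneg
  have ha0 := hat.a0_pos
  have hγ' : ∀ j, (0 : ℝ) < γ j := fun j => by exact_mod_cast hγ j
  have hγ1' : ∑ j, (γ j : ℝ) = 1 := by exact_mod_cast hγ1
  set K := Λ ^ 2 * |ā| with hK
  have hK0 : 0 ≤ K := by positivity
  set Lp := Λ ^ 2 / a0 with hLp
  have hLp0 : 0 ≤ Lp := by positivity
  set δ := min 1 (η / (1 + 2 * K + 2 * Λ + 6 * Lp)) with hδ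
  have hδ0 : 0 < δ := lt_min one_pos (by positivity)
  have hδ1 : δ ≤ 1 := min_le_left _ _
  have hδη : δ * (1 + 2 * K + 2 * Λ + 6 * Lp) ≤ η := (le_div_iff₀ (by positivity)).1 (min_le_right _ _)
  have hlog : 0 < Real.log 2 := Real.log_pos one_lt_two
  have hm1 : ∀ j, 0 < 1 - |(m j : ℝ)| := fun j => sub_pos.2 (hm j)
  set B := ∑ j, (Real.log 2 + (1 + K) / 2) / (1 - |(m j : ℝ)|) with hB
  have hBj : ∀ j, 0 ≤ (Real.log 2 + (1 + K) / 2) / (1 - |(m j : ℝ)|) := fun j => by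
    have := hm1 j
    positivity
  have hB0 : 0 ≤ B := Finset.sum_nonneg fun j _ => hBj j
  obtain ⟨c, hc, hstr⟩ := M1_strong hy (1 + K) (B + 1)
  obtain ⟨g, hg, hgγ⟩ : ∃ g : ℝ, 0 < g ∧ ∀ j, g ≤ γ j := by
    have h1 : ∀ j, (0 : ℝ) ≤ (γ j : ℝ)⁻¹ := fun j => (inv_pos.2 (hγ' j)).le
    have h2 : 0 ≤ ∑ j, (γ j : ℝ)⁻¹ := Finset.sum_nonneg fun j _ => h1 j
    refine ⟨(∑ j, (γ j : ℝ)⁻¹ + 1)⁻¹, by positivity, fun j => ?_⟩
    rw [inv_le_comm₀ (by positivity) (hγ' j)]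
    linarith [Finset.single_le_sum (f := fun j => (γ j : ℝ)⁻¹) (fun j _ => h1 j) (Finset.mem_univ j)]
  refine ⟨2 * (|Cb| + (B + 1)) / (g * c * (δ / 5)), by positivity, min (δ / 5) (g * c * (δ / 5) / 2),
    lt_min (by positivity) (by positivity), ?_⟩
  intro L G ϖ a v h pa b c' hL hy0 hG ha hv hvs hh hpa hpn hc' hb hT
  have e1 : min (δ / 5) (g * c * (δ / 5) / 2) ≤ δ / 5 := min_le_left _ _
  have e2 : min (δ / 5) (g * c * (δ / 5) / 2) ≤ g * c * (δ / 5) / 2 := min_le_right _ _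
  generalize min (δ / 5) (g * c * (δ / 5) / 2) = η' at *
  have hd : ∀ i, 0 ≤ G.D a i := fun i => (ha.D_mem i).1
  set Δ := G.dh fun i => Bf α μ (G.D a i) with hΔ
  have hΔ0 : ∀ i, 0 ≤ Δ i := ha.dh_nonneg hat.Bf_mono
  have hΔK : ∑ i ∈ range G.n, Δ i ≤ K := by
    have h1 := ha.sum_abs_dh (f := Bf α μ) (L := Λ ^ 2) (fun d h1 d' h2 => hat.Bf_lip h1.1 h2.1)
      (by positivity)
    refine (Finset.sum_le_sum fun i _ => le_abs_self _).trans (h1.trans ?_)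
    exact mul_le_mul_of_nonneg_left (le_abs_self _) (by positivity)
  have hsub : Ico 1 (G.n - 1) ⊆ range G.n := fun i hi => by
    simp only [Finset.mem_Ico, Finset.mem_range] at hi ⊢
    omega
  have hΔK' : ∑ i ∈ Ico 1 (G.n - 1), Δ i ≤ K :=
    (Finset.sum_le_sum_of_subset_of_nonneg hsub fun i _ _ => hΔ0 i).trans hΔK
  have hh0 : ∀ l ∈ Ico 1 (G.n - 1), 0 ≤ h l := fun l hl => by
    rw [hh]
    exact add_nonneg (hv l hl) (hΔ0 l)
  have hhs : ∑ l ∈ Ico 1 (G.n - 1), h l ≤ 1 + K := by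
    rw [hh, Finset.sum_add_distrib]
    linarith
  have hadm : Adm (G.gl h) := G.adm_glFrom hh0
  choose b₀ hb₀ _ _ hb₁ using fun j => exists_min hadm (hm j)
  have hcl : ∀ j, |b j - b₀ j| ≤ δ / 5 := fun j => by
    refine lowan_close M1_mono hc (by positivity) (by linarith) hg (hgγ j) (B := B) ?_
      (M1_min hh0 (hm j) (hb₀ j)) (fun b b' => hstr G h b b' hy0 hh0 hhs) e2 hL (hc' j) (hb j)
    refine le_trans ?_ (Finset.single_le_sum (fun j _ => hBj j) (Finset.mem_univ j))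
    rw [le_div_iff₀ (hm1 j)]
    have h1 := hb₁ j
    rw [G.vs_gl] at h1
    linarith
  set P : ℕ → ℝ := fun i => ∑ j, (γ j : ℝ) * p1 G h (b₀ j) i with hP
  have hq : IsTrialPath (G.stepOf P) := by
    refine Grid.trial_stepOf (fun i _ _ => ⟨Finset.sum_nonneg fun j _ => mul_nonneg (hγ' j).le (p1_mem i).1,
      ?_⟩) fun i _ _ => Finset.sum_le_sum fun j _ => mul_le_mul_of_nonneg_left (p1_step i) (hγ' j).le
    rw [← hγ1']
    exact Finset.sum_le_sum fun j _ => mul_le_of_le_one_right (hγ' j).le (p1_mem i).2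
  have htail : ∀ l ∈ Ico 1 (G.n - 1),
      tail (G.stepOf P) (G.ζ l) = ∑ j, (γ j : ℝ) * G.tl (p1 G h (b₀ j)) l := fun l hl => by
    rw [hP, Grid.tail_stepOf_sum]
    exact Finset.sum_congr rfl fun j _ => by
      rw [Grid.tail_stepOf (Finset.mem_Ico.1 hl).1 (Finset.mem_range.1 (hsub hl))]
  have hτ : ∀ l ∈ Ico 1 (G.n - 1), |tail (G.stepOf P) (G.ζ l) - G.tl pa l| ≤ δ := fun l hl => by
    have h1 : tail (G.stepOf P) (G.ζ l) = 1 - ∑ j, (γ j : ℝ) * T1 G h (b₀ j) l := by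
      rw [htail l hl]
      simp only [T1_eq, mul_sub, mul_one, Finset.sum_sub_distrib, hγ1']
      ring
    have h2 : |∑ j, (γ j : ℝ) * T1 G h (b j) l - ∑ j, (γ j : ℝ) * T1 G h (b₀ j) l| ≤ 3 * (δ / 5) := by
      rw [← Finset.sum_sub_distrib]
      refine (Finset.abs_sum_le_sum_abs _ _).trans ?_
      calc _ ≤ ∑ j, (γ j : ℝ) * (3 * (δ / 5)) := Finset.sum_le_sum fun j _ => by
            rw [← mul_sub, abs_mul, abs_of_pos (hγ' j)]
            refine mul_le_mul_of_nonneg_left ((T1_lip_b _ _ l).trans ?_) (hγ' j).le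
            linarith [hcl j]
        _ = _ := by rw [← Finset.sum_mul, hγ1', one_mul]
    have h3 := abs_le.1 (hT l hl)
    have h4 := abs_le.1 hpn
    have h5 := abs_le.1 h2
    rw [h1, abs_le]
    constructor <;> linarith
  have hpp : G.IsPath pa (1 * ā) := by
    rw [hpa]
    exact ha.pathOf hat.gf_mono (fun d h1 d' h2 => hat.gf_lip h1.1 h2.1) zero_le_one
  have hD : ∀ i, i ≤ G.n → G.D pa i = gf α μ (G.D a i) := fun i hi => by
    rw [hpa, Grid.D_pathOf hi, Grid.D_top, Atom.gf_zero, sub_zero]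
  have hint := hpp.int_le_TT hq (E := fun x => Gam α μ (dinv α μ x)) (L := Lp) (δ₁ := δ) hat.Rf_mono
    (fun x _ => hat.Rf_mem x) (fun x x' h1 h2 => hat.Rf_lip h1 h2) hLp0
    (fun x x' h1 h2 => hat.int_Rf h1 h2) (fun l hl => by linarith [(abs_le.1 (hτ l hl)).1])
    (hpn.trans (by linarith))
  rw [Grid.TT_congr (R := fun i => Gam α μ (G.D a i)) fun i hi => by
    rw [hD i hi, hat.dinv_gf (hd i)]] at hint
  have hs1 : G.TT (fun i => s1 α μ (G.D a i) - 1) =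
      ∑ i ∈ range G.n, Δ i * (pa G.n - G.tl pa i) + Bf α μ 0 * pa G.n := by
    rw [Grid.TT_congr (R := fun i => Bf α μ (G.D a i) * G.D pa i) fun i hi => by
      rw [hD i hi, hat.s1_sub_one (hd i)], Grid.TT_mul, hpp.zero, Grid.D_top, mul_zero, sub_zero]
  have hTB : G.TT (fun i => Bf α μ (G.D a i)) = ∑ i ∈ range G.n, Δ i := rfl
  have htl : ∀ i, 0 ≤ G.tl pa i := fun i => Finset.sum_nonneg fun k hk =>
    mul_nonneg (Grid.w_nonneg k) (hpp.mem (Finset.mem_Ioo.1 hk).2.le).1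
  have hmain : ∑ l ∈ Ico 1 (G.n - 1), h l * tail (G.stepOf P) (G.ζ l) ≤
      η' + ∑ i ∈ range G.n, Δ i * G.tl pa i + δ * K := by
    have h1 : ∑ l ∈ Ico 1 (G.n - 1), h l * tail (G.stepOf P) (G.ζ l) ≤
        ∑ l ∈ Ico 1 (G.n - 1), (v l + Δ l * G.tl pa l + δ * Δ l) := Finset.sum_le_sum fun l hl => by
      have h2 := (tail_mem hq ⟨(G.pos l).le, G.le_one l⟩).2
      have h3 := mul_le_mul_of_nonneg_left (abs_le.1 (hτ l hl)).2 (hΔ0 l)
      have h4 := mul_le_mul_of_nonneg_left h2 (hv l hl)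
      have h5 : h l = v l + Δ l := by rw [hh]
      rw [h5]
      linarith only [h3, h4]
    rw [Finset.sum_add_distrib, Finset.sum_add_distrib, ← Finset.mul_sum] at h1
    have h2 := Finset.sum_le_sum_of_subset_of_nonneg (f := fun l => Δ l * G.tl pa l) hsub
      fun i _ _ => mul_nonneg (hΔ0 i) (htl i)
    have h3 := mul_le_mul_of_nonneg_left hΔK' hδ0.le
    linarith
  refine ⟨G.stepOf P, hq, centropy_le γ m hm hq fun L' l1 l2 l3 => ?_⟩
  have h1 : ∑ j, (γ j : ℝ) * (ellm L' (m j) +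
      (1 / 2) * (L'.map fun p => p.2 * tail (G.stepOf (p1 G h (b₀ j))) p.1).sum) ≤
      ∑ j, (γ j : ℝ) * (ellm (G.gl h) (m j) +
        (1 / 2) * ∑ l ∈ Ico 1 (G.n - 1), h l * G.tl (p1 G h (b₀ j)) l) :=
    Finset.sum_le_sum fun j _ => mul_le_mul_of_nonneg_left
      (grad hG hh0 (hm j) (hb₀ j) L' l1 l2 l3) (hγ' j).le
  have h2 : (L'.map fun p => p.2 * tail (G.stepOf P) p.1).sum =
      ∑ j, (γ j : ℝ) * (L'.map fun p => p.2 * tail (G.stepOf (p1 G h (b₀ j))) p.1).sum := by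
    rw [← lowan_list]
    simp only [hP, Grid.tail_stepOf_sum]
  have h3 : ∑ l ∈ Ico 1 (G.n - 1), h l * tail (G.stepOf P) (G.ζ l) =
      ∑ j, (γ j : ℝ) * ∑ l ∈ Ico 1 (G.n - 1), h l * G.tl (p1 G h (b₀ j)) l := by
    rw [Finset.sum_congr rfl fun l hl => by rw [htail l hl, Finset.mul_sum], Finset.sum_comm]
    refine Finset.sum_congr rfl fun j _ => ?_
    rw [Finset.mul_sum]
    exact Finset.sum_congr rfl fun l _ => by ring
  simp only [mul_add, Finset.sum_add_distrib, mul_left_comm _ (1 / 2 : ℝ), ← Finset.mul_sum] at h1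
  rw [← h2, ← h3] at h1
  rw [Grid.TT_add, Grid.TT_sub, hs1, hTB]
  have h4 : ∑ i ∈ range G.n, Δ i * (pa G.n - G.tl pa i) =
      (∑ i ∈ range G.n, Δ i) * pa G.n - ∑ i ∈ range G.n, Δ i * G.tl pa i := by
    simp only [mul_sub, Finset.sum_sub_distrib, Finset.sum_mul]
  rw [h4]
  have h5 : 0 ≤ ∑ i ∈ range G.n, Δ i := Finset.sum_nonneg fun i _ => hΔ0 i
  have h6 := abs_le.1 (hpn.trans (e1.trans (show δ / 5 ≤ δ by linarith)))
  have h7 := hat.Bf_mem (le_refl (0 : ℝ))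
  have h8 : (∑ i ∈ range G.n, Δ i) * (pa G.n - 1) ≤ δ * K := by
    linarith only [mul_le_mul_of_nonneg_left h6.2 h5, mul_le_mul_of_nonneg_left hΔK hδ0.le]
  have h9 : Bf α μ 0 * (pa G.n - 1) ≤ Λ * δ := by
    linarith only [mul_le_mul_of_nonneg_left h6.1 (neg_nonneg.2 h7.2),
      mul_le_mul_of_nonneg_left h7.1 hδ0.le]
  have h10 : Lp * δ ^ 2 ≤ Lp * δ := mul_le_mul_of_nonneg_left
    (by rw [pow_two]; exact mul_le_of_le_one_left hδ0.le hδ1) hLp0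
  linarith only [h1, h8, h9, h10, hmain, hint, hδη, e1, hδ0, hη]

end Crest.Agent.R164
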