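import Crest.Agent.R164.FinU
import Crest.Agent.R164.FinL
import Crest.Agent.R164.Lim

/-!
Row 164: assembly of the finite-alphabet statement and of the zero-field statement.
-/

set_option autoImplicit false

namespace Crest.Agent.R164

open MeasureTheory Finset Matrix Filter Crest.ProbabilityR.InvariantGlass

theorem pressure_eq {N : ℕ} (eig c : Fin N → ℝ) (U : OG (Fin N)) :
    pressureFieldN eig U.1 c = (1 / (N : ℝ)) * fN eig (fun σ => ∑ i, c i * sp σ i) U := by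
  unfold pressureFieldN fN
  simp only [Fintype.card_fin]
  rfl

theorem main_fin (μ : Measure ℝ) [IsProbabilityMeasure μ] {lo hi : ℝ} (hle : lo ≤ hi)
    (hsupp : μ (Set.Icc lo hi) = 1) (hedge : ∀ ε : ℝ, 0 < ε → 0 < μ (Set.Icc (hi - ε) hi))
    (eig : (N : ℕ) → Fin N → ℝ)
    (hweak : ∀ φ : ℝ → ℝ, Continuous φ → (∃ C : ℝ, ∀ x, |φ x| ≤ C) →
      Tendsto (fun N : ℕ => (1 / (N : ℝ)) * ∑ i : Fin N, φ (eig N i)) atTop (nhds (∫ x, φ x ∂μ)))
    (hext : ∀ ε : ℝ, 0 < ε → ∀ᶠ N : ℕ in atTop, ∀ i : Fin N, lo - ε ≤ eig N i ∧ eig N i ≤ hi + ε)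
    {J : ℕ} (c : Fin J → ℝ) (γ : Fin J → ℚ) (hγ : ∀ j, 0 < γ j) (hγ1 : ∑ j, γ j = 1)
    (lab : (N : ℕ) → Fin N → Fin J)
    (hprop : ∀ j : Fin J, Tendsto
      (fun N : ℕ => ((univ.filter fun r : Fin N => lab N r = j).card : ℝ) / (N : ℝ)) atTop (nhds (γ j : ℝ)))
    {Ω : Type} [MeasurableSpace Ω] (P : Measure Ω) [IsProbabilityMeasure P]
    (Us : (N : ℕ) → Ω → (Fin N → Fin N → ℝ)) (hmeas : ∀ N, Measurable (Us N))
    (horth : ∀ N, ∀ᵐ ω ∂P, Matrix.of (Us N ω) ∈ Matrix.orthogonalGroup (Fin N) ℝ)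
    (hHaar : ∀ (N : ℕ) (O : Matrix (Fin N) (Fin N) ℝ), O ∈ Matrix.orthogonalGroup (Fin N) ℝ →
      P.map (fun ω => fun i j => (Matrix.of (Us N ω) * O) i j) = P.map (Us N)) :
    ∃ F : ℝ, magneticValue μ hi c γ = (F : EReal) ∧
      Tendsto (fun N : ℕ => ∫ ω, pressureFieldN (eig N) (Matrix.of (Us N ω)) (fun r => c (lab N r)) ∂P)
        atTop (nhds F) ∧
      ∀ᵐ ω ∂P, Tendsto (fun N : ℕ => pressureFieldN (eig N) (Matrix.of (Us N ω)) (fun r => c (lab N r)))
        atTop (nhds F) := by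
  choose νs V hν hV hVe using fun N => exists_haar P (Us N) (hmeas N) (horth N) (hHaar N)
  set f : (N : ℕ) → OG (Fin N) → ℝ := fun N => fN (eig N) (fun σ => ∑ i, c (lab N i) * sp σ i) with hf
  have hfm : ∀ N, Measurable (f N) := fun N => measurable_fN _ _
  have hXe : ∀ N, (fun ω => pressureFieldN (eig N) (Matrix.of (Us N ω)) (fun r => c (lab N r))) =ᵐ[P]
      fun ω => (1 / (N : ℝ)) * f N (V N ω) := by
    intro N
    filter_upwards [hVe N] with ω h
    rw [← h, pressure_eq]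
  refine limit_of_tails P (fun N ω => pressureFieldN (eig N) (Matrix.of (Us N ω)) (fun r => c (lab N r)))
    (fun N => ?_) (C := (|lo| + |hi| + 1) / 2 + ∑ j, |c j|) ?_ _ (fun r hr => ?_) (fun r hr => ?_)
  · exact (((hfm N).comp (hV N).measurable).const_mul _).aemeasurable.congr (hXe N).symm
  · filter_upwards [hext 1 one_pos, eventually_gt_atTop 0] with N hN hN0
    filter_upwards [hXe N] with ω h
    rw [h]
    have hN0' : (0 : ℝ) < N := by exact_mod_cast hN0
    have h1 : ∀ i, |eig N i| ≤ |lo| + |hi| + 1 := fun i => by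
      have := hN i
      rw [abs_le]
      constructor <;> cases abs_cases lo <;> cases abs_cases hi <;> linarith
    have h2 : ∀ σ : Fin N → Bool, |∑ i, c (lab N i) * sp σ i| ≤ N * ∑ j, |c j| := fun σ => by
      calc |∑ i, c (lab N i) * sp σ i| ≤ ∑ i, |c (lab N i) * sp σ i| := abs_sum_le_sum_abs _ _
        _ ≤ ∑ _i : Fin N, ∑ j, |c j| := sum_le_sum fun i _ => by
            rw [abs_mul, abs_sp, mul_one]
            exact single_le_sum (f := fun j => |c j|) (fun j _ => abs_nonneg _) (mem_univ _)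
        _ = N * ∑ j, |c j| := by simp
    have h3 := abs_fN_le h1 h2 (V N ω)
    rw [Fintype.card_fin] at h3
    rw [abs_mul, abs_of_pos (by positivity : (0 : ℝ) < 1 / N)]
    rw [one_div, inv_mul_le_iff₀ hN0']
    calc |f N (V N ω)| ≤ _ := h3
      _ = _ := by ring
  · obtain ⟨κ, hκ, h⟩ := fin_upper μ hle hsupp hedge eig hweak hext c γ lab hprop hν hr
    refine ⟨κ, hκ, ?_⟩
    filter_upwards [h, eventually_gt_atTop 0] with N hN hN0
    have hN0' : (0 : ℝ) < N := by exact_mod_cast hN0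
    refine le_trans (le_of_eq ?_) hN
    have hs : MeasurableSet {U | N * r ≤ f N U} := measurableSet_le measurable_const (hfm N)
    rw [← (hV N).measureReal_preimage hs.nullMeasurableSet]
    refine measureReal_congr ?_
    filter_upwards [hXe N] with ω h
    change (r ≤ _) = ((N : ℝ) * r ≤ f N (V N ω))
    rw [h, one_div, le_inv_mul_iff₀ hN0']
  · obtain ⟨κ, hκ, h⟩ := fin_lower μ hle hsupp hedge eig hweak hext c γ hγ hγ1 lab hprop hν hr
    refine ⟨κ, hκ, ?_⟩
    filter_upwards [h, eventually_gt_atTop 0] with N hN hN0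
    have hN0' : (0 : ℝ) < N := by exact_mod_cast hN0
    refine le_trans (le_of_eq ?_) hN
    have hs : MeasurableSet {U | f N U ≤ N * r} := measurableSet_le (hfm N) measurable_const
    rw [← (hV N).measureReal_preimage hs.nullMeasurableSet]
    refine measureReal_congr ?_
    filter_upwards [hXe N] with ω h
    change (_ ≤ r) = (f N (V N ω) ≤ (N : ℝ) * r)
    rw [h, one_div, inv_mul_le_iff₀ hN0']

theorem main_zero (μ : Measure ℝ) [IsProbabilityMeasure μ] {lo hi : ℝ} (hle : lo ≤ hi)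
    (hsupp : μ (Set.Icc lo hi) = 1) (hedge : ∀ ε : ℝ, 0 < ε → 0 < μ (Set.Icc (hi - ε) hi))
    (eig : (N : ℕ) → Fin N → ℝ)
    (hweak : ∀ φ : ℝ → ℝ, Continuous φ → (∃ C : ℝ, ∀ x, |φ x| ≤ C) →
      Tendsto (fun N : ℕ => (1 / (N : ℝ)) * ∑ i : Fin N, φ (eig N i)) atTop (nhds (∫ x, φ x ∂μ)))
    (hext : ∀ ε : ℝ, 0 < ε → ∀ᶠ N : ℕ in atTop, ∀ i : Fin N, lo - ε ≤ eig N i ∧ eig N i ≤ hi + ε)
    {Ω : Type} [MeasurableSpace Ω] (P : Measure Ω) [IsProbabilityMeasure P]
    (Us : (N : ℕ) → Ω → (Fin N → Fin N → ℝ)) (hmeas : ∀ N, Measurable (Us N))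
    (horth : ∀ N, ∀ᵐ ω ∂P, Matrix.of (Us N ω) ∈ Matrix.orthogonalGroup (Fin N) ℝ)
    (hHaar : ∀ (N : ℕ) (O : Matrix (Fin N) (Fin N) ℝ), O ∈ Matrix.orthogonalGroup (Fin N) ℝ →
      P.map (fun ω => fun i j => (Matrix.of (Us N ω) * O) i j) = P.map (Us N)) :
    ∃ F : ℝ, variationalValue μ hi = (F : EReal) ∧
      Tendsto (fun N : ℕ => ∫ ω, pressureN (eig N) (Matrix.of (Us N ω)) ∂P) atTop (nhds F) ∧
      ∀ᵐ ω ∂P, Tendsto (fun N : ℕ => pressureN (eig N) (Matrix.of (Us N ω))) atTop (nhds F) := by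
  have key := main_fin μ hle hsupp hedge eig hweak hext (J := 1) (fun _ => (0 : ℝ)) (fun _ => 1)
    (fun _ => one_pos) (by simp) (fun _ _ => 0) (fun j => ?_) P Us hmeas horth hHaar
  · rw [magnetic_zero] at key
    have e : ∀ (N : ℕ) (U : Matrix (Fin N) (Fin N) ℝ),
        pressureFieldN (eig N) U (fun _ => (0 : ℝ)) = pressureN (eig N) U := by
      intro N U
      simp [pressureFieldN, pressureN]
    simpa only [e] using key
  · refine tendsto_const_nhds.congr' ?_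
    filter_upwards [eventually_gt_atTop 0] with N hN
    have hN0' : (N : ℝ) ≠ 0 := by exact_mod_cast hN.ne'
    have : (univ.filter fun r : Fin N => (0 : Fin 1) = j) = univ := by
      ext r; simp [Subsingleton.elim (0 : Fin 1) j]
    rw [this]
    simp [hN0']

end Crest.Agent.R164
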