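import Crest.Prelude.Def_InvariantGlass

/-!
Row 164, task R164-W1: first-moment transport on the line (only the easy half of Kantorovich duality is used).

PLAN.  `lip_le_cost`: for a coupling `π` with finite cost, `∫ φ dν - ∫ φ dν' = ∫ (φ x - φ y) dπ ≤ ∫ |x - y| dπ` (`integral_map`, `ofReal_integral_norm_eq_lintegral_enorm`).
`exists_sorted_lip`: for monotone `c c' : Fin N → ℝ` let `φ x = ∫_0^x sgn`, `sgn t = 1` if `c' r ≤ t < c r` for some `r`, `-1` if `c r ≤ t < c' r` for some `r`, else `0` (the two cases exclude each other by monotonicity;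
`sgn` is measurable and bounded).  Alternatively `sgn t = sign (#{r | c' r ≤ t} - #{r | c r ≤ t})`.
`exists_labels`: sort `c` (`Tuple.sort`) and the alphabet; choose counts `n_j = ⌊γ_j N⌋` (+ remainder `< J` on one letter), give the sorted sites the sorted letters; then by `exists_sorted_lip`
`(1/N) Σ |c r - cq (lab r)| = (1/N) Σ φ (c r) - Σ_j (n_j/N) φ (cq j) ≤ D + Σ_j |n_j/N - γ_j| |φ (cq j) - φ (cq j₀)|`.
-/

set_option autoImplicit false

namespace Crest.Agent.R164

open MeasureTheory Finset Filter Crest.ProbabilityR.InvariantGlass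

theorem lip_le_cost {ν ν' : Measure ℝ} [IsProbabilityMeasure ν] [IsProbabilityMeasure ν']
    (h : Integrable (fun x : ℝ => x) ν) (h' : Integrable (fun x : ℝ => x) ν') {φ : ℝ → ℝ}
    (hφ : ∀ x y, |φ x - φ y| ≤ |x - y|) :
    ENNReal.ofReal |∫ x, φ x ∂ν - ∫ x, φ x ∂ν'| ≤ transportCost ν ν' := by
  have hc : Continuous φ := (LipschitzWith.of_dist_le' (K := 1) fun x y => by
    simpa only [Real.dist_eq, one_mul] using hφ x y).continuous
  have hi : ∀ (m : Measure ℝ) [IsProbabilityMeasure m], Integrable (fun x : ℝ => x) m →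
      Integrable φ m := fun m _ hm =>
    ((integrable_const |φ 0|).add hm.abs).mono' hc.aestronglyMeasurable
      (Eventually.of_forall fun x => by
        have h1 := hφ x 0
        have h2 := abs_sub_abs_le_abs_sub (φ x) (φ 0)
        simp only [sub_zero, Real.norm_eq_abs, Pi.add_apply] at h1 ⊢
        linarith)
  refine le_iInf₂ fun π hπ => ?_
  have i1 := hi ν h
  have i2 := hi ν' h'
  rw [← hπ.1] at i1
  rw [← hπ.2] at i2
  have e1 : ∫ x, φ x ∂ν = ∫ z, φ z.1 ∂π := by
    rw [← hπ.1, integral_map measurable_fst.aemeasurable hc.aestronglyMeasurable]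
  have e2 : ∫ x, φ x ∂ν' = ∫ z, φ z.2 ∂π := by
    rw [← hπ.2, integral_map measurable_snd.aemeasurable hc.aestronglyMeasurable]
  have j1 : Integrable (fun z : ℝ × ℝ => φ z.1) π :=
    (integrable_map_measure hc.aestronglyMeasurable measurable_fst.aemeasurable).1 i1
  have j2 : Integrable (fun z : ℝ × ℝ => φ z.2) π :=
    (integrable_map_measure hc.aestronglyMeasurable measurable_snd.aemeasurable).1 i2
  rw [e1, e2, ← integral_sub j1 j2, ← Real.enorm_eq_ofReal_abs]
  refine (enorm_integral_le_lintegral_enorm _).trans (lintegral_mono fun z => ?_)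
  rw [Real.enorm_eq_ofReal_abs, Real.enorm_eq_ofReal_abs]
  exact ENNReal.ofReal_le_ofReal (hφ _ _)

theorem exists_sorted_lip {N : ℕ} {c c' : Fin N → ℝ} (hc : Monotone c) (hc' : Monotone c') :
    ∃ φ : ℝ → ℝ, (∀ x y, |φ x - φ y| ≤ |x - y|) ∧ ∀ r, φ (c r) - φ (c' r) = |c r - c' r| := by
  classical
  let A : Set ℝ := ⋃ r, Set.Ioc (c' r) (c r)
  have hA : MeasurableSet A := MeasurableSet.iUnion fun _ => measurableSet_Ioc
  let s : ℝ → ℝ := fun t => if t ∈ A then 1 else -1
  have hs : Measurable s := Measurable.ite hA measurable_const measurable_const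
  have hb : ∀ t, |s t| ≤ 1 := fun t => by
    simp only [s]
    split_ifs <;> simp
  have hi : ∀ a b, IntervalIntegrable s volume a b := fun a b =>
    (intervalIntegrable_const (c := (1 : ℝ))).mono_fun' hs.aestronglyMeasurable
      (Eventually.of_forall hb)
  have hsub : ∀ x y, (∫ t in (0 : ℝ)..x, s t) - ∫ t in (0 : ℝ)..y, s t = ∫ t in y..x, s t :=
    fun x y => intervalIntegral.integral_interval_sub_left (hi _ _) (hi _ _)
  refine ⟨fun x => ∫ t in (0 : ℝ)..x, s t, fun x y => ?_, fun r => ?_⟩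
  · rw [hsub]
    simpa using intervalIntegral.norm_integral_le_of_norm_le_const (a := y) (b := x) (f := s)
      (C := 1) fun t _ => hb t
  · rw [hsub]
    rcases le_total (c' r) (c r) with h | h
    · have e : Set.EqOn s (fun _ => 1) (Set.Ioc (c' r) (c r)) := fun t ht =>
        if_pos (Set.mem_iUnion.2 ⟨r, ht⟩)
      rw [intervalIntegral.integral_of_le h, setIntegral_congr_fun measurableSet_Ioc e,
        ← intervalIntegral.integral_of_le h, abs_of_nonneg (sub_nonneg.2 h)]
      simp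
    · have e : Set.EqOn s (fun _ => -1) (Set.Ioc (c r) (c' r)) := fun t ht => if_neg fun hA' => by
        obtain ⟨r', h1, h2⟩ := Set.mem_iUnion.1 hA'
        have h3 : r' < r := hc'.reflect_lt (h1.trans_le ht.2)
        exact absurd (h2.trans (hc h3.le)) (not_le.2 ht.1)
      rw [intervalIntegral.integral_symm, intervalIntegral.integral_of_le h,
        setIntegral_congr_fun measurableSet_Ioc e,
        ← intervalIntegral.integral_of_le h, abs_of_nonpos (sub_nonpos.2 h)]
      simp

theorem w1_fiber {N J : ℕ} (g : Fin N → Fin J) (F : Fin J → ℝ) :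
    ∑ j, ((univ.filter fun r => g r = j).card : ℝ) * F j = ∑ r, F (g r) := by
  rw [← sum_fiberwise univ g]
  refine sum_congr rfl fun j _ => ?_
  rw [sum_congr rfl fun r hr => by rw [(mem_filter.1 hr).2], sum_const, nsmul_eq_mul]

theorem w1_exists_counts {J : ℕ} (γ : Fin J → ℝ) (h0 : ∀ j, 0 ≤ γ j) (h1 : ∑ j, γ j = 1) (N : ℕ) :
    ∃ g : Fin N → Fin J, ∀ j, |((univ.filter fun r => g r = j).card : ℝ) - γ j * N| ≤ J + 1 := by
  classical
  obtain ⟨j0⟩ : Nonempty (Fin J) := by
    by_contra h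
    rw [not_nonempty_iff] at h
    simp at h1
  set m : Fin J → ℕ := fun j => ⌊γ j * N⌋₊ with hm
  have a1 : ∀ j, (m j : ℝ) ≤ γ j * N := fun j => Nat.floor_le (mul_nonneg (h0 j) (Nat.cast_nonneg N))
  have a2 : ∀ j, γ j * N ≤ m j + 1 := fun j => (Nat.lt_floor_add_one _).le
  have s1 : ∑ j, m j ≤ N := by
    have := sum_le_sum fun j (_ : j ∈ univ) => a1 j
    rw [← sum_mul, h1, one_mul] at this
    exact_mod_cast this
  have s2 : N ≤ ∑ j, m j + J := by
    have := sum_le_sum fun j (_ : j ∈ univ) => a2 j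
    rw [← sum_mul, h1, one_mul, sum_add_distrib] at this
    simp only [sum_const, card_univ, Fintype.card_fin, nsmul_eq_mul, mul_one] at this
    exact_mod_cast this
  set n : Fin J → ℕ := fun j => m j + if j = j0 then N - ∑ j, m j else 0 with hn
  have hsum : ∑ j, n j = N := by
    simp only [hn, sum_add_distrib, sum_ite_eq', mem_univ, if_true]
    omega
  have e : Fin N ≃ Σ j, Fin (n j) := Fintype.equivOfCardEq (by simp [hsum])
  refine ⟨fun r => (e r).1, fun j => ?_⟩
  have c1 : (univ.filter fun r => (e r).1 = j).card = n j := by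
    rw [Finset.card_equiv (t := univ.filter fun p : Σ j, Fin (n j) => p.1 = j) e (by simp),
      card_filter, Fintype.sum_sigma, sum_eq_single j (fun b _ hb => by simp [hb]) (by simp)]
    simp
  rw [c1]
  have b1 : m j ≤ n j := Nat.le_add_right _ _
  have b2 : n j ≤ m j + J := by
    simp only [hn]
    split_ifs <;> omega
  have b1' : (m j : ℝ) ≤ n j := by exact_mod_cast b1
  have b2' : (n j : ℝ) ≤ m j + J := by exact_mod_cast b2
  have := a1 j
  have := a2 j
  have : (0 : ℝ) ≤ J := Nat.cast_nonneg J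
  exact abs_le.2 ⟨by linarith, by linarith⟩

theorem exists_labels {J : ℕ} (cq : Fin J → ℝ) (γ : Fin J → ℚ) (hγ : ∀ j, 0 < γ j) (hγ1 : ∑ j, γ j = 1) :
    ∃ C : ℝ, ∀ (N : ℕ) (c : Fin N → ℝ) (D : ℝ), 0 < N →
      (∀ φ : ℝ → ℝ, (∀ x y, |φ x - φ y| ≤ |x - y|) →
        (1 / (N : ℝ)) * ∑ r, φ (c r) - ∑ j, (γ j : ℝ) * φ (cq j) ≤ D) →
      ∃ lab : Fin N → Fin J,
        (∀ j, |((univ.filter fun r => lab r = j).card : ℝ) / N - γ j| ≤ C / N) ∧
        (1 / (N : ℝ)) * ∑ r, |c r - cq (lab r)| ≤ D + C / N := by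
  classical
  refine ⟨(J + 1) * (1 + ∑ j, |cq j|), fun N c D hN hD => ?_⟩
  have hN' : (0 : ℝ) < N := by exact_mod_cast hN
  have hγ' : ∀ j, (0 : ℝ) ≤ γ j := fun j => by exact_mod_cast (hγ j).le
  have hγ1' : ∑ j, (γ j : ℝ) = 1 := by exact_mod_cast hγ1
  have hS : 0 ≤ ∑ j, |cq j| := sum_nonneg fun _ _ => abs_nonneg _
  obtain ⟨g, hg⟩ := w1_exists_counts (fun j => (γ j : ℝ)) hγ' hγ1' N
  let σ := Tuple.sort c
  let ρ := Tuple.sort (cq ∘ g)
  have hcnt : ∀ j, (univ.filter fun r => g (ρ (σ.symm r)) = j).card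
      = (univ.filter fun r => g r = j).card := fun j =>
    Finset.card_equiv (σ.symm.trans ρ) (by simp)
  have hg' : ∀ j, |((univ.filter fun r => g r = j).card : ℝ) / N - γ j| ≤ (J + 1) / N := by
    intro j
    rw [le_div_iff₀ hN', ← abs_of_pos hN', ← abs_mul, abs_of_pos hN', sub_mul,
      div_mul_cancel₀ _ hN'.ne']
    exact hg j
  refine ⟨fun r => g (ρ (σ.symm r)), fun j => ?_, ?_⟩
  · rw [hcnt]
    refine (hg' j).trans (div_le_div_of_nonneg_right ?_ hN'.le)
    exact le_mul_of_one_le_right (by positivity) (by linarith)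
  · obtain ⟨φ, hφ, hφ'⟩ := exists_sorted_lip (Tuple.monotone_sort c) (Tuple.monotone_sort (cq ∘ g))
    have e1 : ∑ r, |c r - cq (g (ρ (σ.symm r)))| = ∑ r, φ (c r) - ∑ r, φ (cq (g r)) := by
      rw [← Equiv.sum_comp σ, ← Equiv.sum_comp σ fun r => φ (c r),
        ← Equiv.sum_comp ρ fun r => φ (cq (g r)), ← sum_sub_distrib]
      refine sum_congr rfl fun r _ => ?_
      rw [Equiv.symm_apply_apply]
      exact (hφ' r).symm
    have e2 := w1_fiber g fun j => φ (cq j)
    have e3 := w1_fiber g fun _ => (1 : ℝ)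
    simp only [mul_one, sum_const, card_univ, Fintype.card_fin, nsmul_eq_mul] at e3
    have e4 : ∑ j, (γ j : ℝ) * φ (cq j) - 1 / (N : ℝ) * ∑ r, φ (cq (g r)) =
        ∑ j, ((γ j : ℝ) - ((univ.filter fun r => g r = j).card : ℝ) / N) * (φ (cq j) - φ 0) := by
      simp only [mul_sub, sub_mul, sum_sub_distrib, ← sum_mul, ← sum_div, e3, hγ1',
        div_self hN'.ne', ← e2, mul_sum]
      rw [sub_self, sub_zero]
      congr 1
      exact sum_congr rfl fun j _ => by ring
    have e5 : ∑ j, ((γ j : ℝ) - ((univ.filter fun r => g r = j).card : ℝ) / N) * (φ (cq j) - φ 0)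
        ≤ ∑ j, (J + 1) / N * |cq j| := sum_le_sum fun j _ => by
      refine (le_abs_self _).trans ?_
      rw [abs_mul, abs_sub_comm]
      exact mul_le_mul (hg' j) (by simpa using hφ (cq j) 0) (abs_nonneg _) (by positivity)
    rw [← mul_sum] at e5
    have e6 : ((J : ℝ) + 1) / N * ∑ j, |cq j| ≤ (J + 1) * (1 + ∑ j, |cq j|) / N := by
      rw [div_mul_eq_mul_div]
      gcongr
      linarith
    have := hD φ hφ
    rw [e1, mul_sub]
    linarith

theorem empirical_prob {N : ℕ} (hN : 0 < N) (c : Fin N → ℝ) : IsProbabilityMeasure (empiricalLaw c) := by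
  constructor
  have : (N : ENNReal) ≠ 0 := by exact_mod_cast hN.ne'
  simp [empiricalLaw, ENNReal.inv_mul_cancel this]
theorem empirical_integrable {N : ℕ} (c : Fin N → ℝ) (φ : ℝ → ℝ) : Integrable φ (empiricalLaw c) := by
  rcases Nat.eq_zero_or_pos N with rfl | hN
  · simp [empiricalLaw]
  · have : (N : ENNReal) ≠ 0 := by exact_mod_cast hN.ne'
    exact (integrable_finsetSum_measure.2 fun r _ => integrable_dirac enorm_lt_top).smul_measure
      (ENNReal.inv_ne_top.2 this)
theorem empirical_integral {N : ℕ} (c : Fin N → ℝ) (φ : ℝ → ℝ) :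
    ∫ x, φ x ∂empiricalLaw c = (1 / (N : ℝ)) * ∑ r, φ (c r) := by
  rw [empiricalLaw, integral_smul_measure,
    integral_finsetSum_measure fun r _ => integrable_dirac enorm_lt_top]
  simp

theorem alphabet_prob {J : ℕ} (cq : Fin J → ℝ) (γ : Fin J → ℚ) (hγ : ∀ j, 0 < γ j) (hγ1 : ∑ j, γ j = 1) :
    IsProbabilityMeasure (∑ j, ENNReal.ofReal ((γ j : ℚ) : ℝ) • Measure.dirac (cq j)) := by
  constructor
  simp only [Measure.coe_finsetSum, Finset.sum_apply, Measure.smul_apply, measure_univ, smul_eq_mul,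
    mul_one]
  rw [← ENNReal.ofReal_sum_of_nonneg fun j _ => by exact_mod_cast (hγ j).le]
  have : ∑ j, (γ j : ℝ) = 1 := by exact_mod_cast hγ1
  rw [this, ENNReal.ofReal_one]
theorem alphabet_integrable {J : ℕ} (cq : Fin J → ℝ) (γ : Fin J → ℚ) (φ : ℝ → ℝ) :
    Integrable φ (∑ j, ENNReal.ofReal ((γ j : ℚ) : ℝ) • Measure.dirac (cq j)) :=
  integrable_finsetSum_measure.2 fun _ _ =>
    (integrable_dirac enorm_lt_top).smul_measure ENNReal.ofReal_ne_top
theorem alphabet_integral {J : ℕ} (cq : Fin J → ℝ) (γ : Fin J → ℚ) (hγ : ∀ j, 0 < γ j) (φ : ℝ → ℝ) :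
    ∫ x, φ x ∂(∑ j, ENNReal.ofReal ((γ j : ℚ) : ℝ) • Measure.dirac (cq j)) = ∑ j, (γ j : ℝ) * φ (cq j) := by
  rw [integral_finsetSum_measure fun _ _ =>
    (integrable_dirac enorm_lt_top).smul_measure ENNReal.ofReal_ne_top]
  refine sum_congr rfl fun j _ => ?_
  rw [integral_smul_measure, integral_dirac, ENNReal.toReal_ofReal (by exact_mod_cast (hγ j).le),
    smul_eq_mul]

/-- an empirical law is a finite alphabet with distinct letters and positive rational weights -/
theorem exists_alphabet {N : ℕ} (hN : 0 < N) (c : Fin N → ℝ) : ∃ (J : ℕ) (cq : Fin J → ℝ) (γ : Fin J → ℚ),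
    Function.Injective cq ∧ (∀ j, 0 < γ j) ∧ ∑ j, γ j = 1 ∧
      ∀ φ : ℝ → ℝ, ∑ j, (γ j : ℝ) * φ (cq j) = (1 / (N : ℝ)) * ∑ r, φ (c r) := by
  classical
  let S : Finset ℝ := univ.image c
  let lab : Fin N → Fin S.card := fun r => S.equivFin ⟨c r, mem_image_of_mem c (mem_univ r)⟩
  have hN' : (0 : ℚ) < N := by exact_mod_cast hN
  refine ⟨S.card, fun j => (S.equivFin.symm j).1,
    fun j => ((univ.filter fun r => lab r = j).card : ℚ) / N,
    Subtype.val_injective.comp S.equivFin.symm.injective, fun j => div_pos ?_ hN', ?_, fun φ => ?_⟩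
  · obtain ⟨r, -, hr⟩ := mem_image.1 (S.equivFin.symm j).2
    have : lab r = j := by
      simp only [lab, hr, Subtype.coe_eta, Equiv.apply_symm_apply]
    exact_mod_cast card_pos.2 ⟨r, mem_filter.2 ⟨mem_univ r, this⟩⟩
  · rw [← sum_div, div_eq_one_iff_eq hN'.ne']
    have := card_eq_sum_card_fiberwise (s := univ) (t := univ) (f := lab) fun _ _ => mem_univ _
    rw [card_univ, Fintype.card_fin] at this
    exact_mod_cast this.symm
  · have := w1_fiber lab fun j => φ (S.equivFin.symm j).1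
    simp only [lab, Equiv.symm_apply_apply] at this
    rw [← this, mul_sum]
    refine sum_congr rfl fun j _ => ?_
    push_cast
    ring

theorem pressure_lip {N : ℕ} (eig : Fin N → ℝ) (U : Matrix (Fin N) (Fin N) ℝ) (c c' : Fin N → ℝ) :
    |pressureFieldN eig U c - pressureFieldN eig U c'| ≤ (1 / (N : ℝ)) * ∑ r, |c r - c' r| := by
  have key : ∀ c c' : Fin N → ℝ,
      pressureFieldN eig U c - pressureFieldN eig U c' ≤ (1 / (N : ℝ)) * ∑ r, |c r - c' r| := by
    intro c c'
    rw [pressureFieldN, pressureFieldN, ← mul_sub]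
    refine mul_le_mul_of_nonneg_left ?_ (by positivity)
    have pos : ∀ c : Fin N → ℝ, (0 : ℝ) < (1 / 2) ^ N * ∑ σ : Fin N → Bool,
        Real.exp ((1 / 2) * (∑ i : Fin N, eig i * (U.mulVec (spinVec σ) i) ^ 2) +
          ∑ r : Fin N, c r * spinVec σ r) := fun c =>
      mul_pos (by positivity) (sum_pos (fun _ _ => Real.exp_pos _) univ_nonempty)
    rw [sub_le_iff_le_add, ← Real.log_exp (∑ r, |c r - c' r|),
      ← Real.log_mul (Real.exp_pos _).ne' (pos c').ne']
    refine Real.log_le_log (pos c) ?_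
    rw [mul_left_comm, mul_sum _ _ (Real.exp _)]
    refine mul_le_mul_of_nonneg_left (sum_le_sum fun σ _ => ?_) (by positivity)
    rw [← Real.exp_add, Real.exp_le_exp, add_left_comm, ← sum_add_distrib]
    refine add_le_add le_rfl (sum_le_sum fun r _ => ?_)
    have h1 := le_abs_self (c r - c' r)
    have h2 := neg_abs_le (c r - c' r)
    simp only [spinVec]
    split_ifs <;> linarith
  refine abs_sub_le_iff.2 ⟨key c c', ?_⟩
  simpa only [abs_sub_comm (c' _)] using key c' c

end Crest.Agent.R164
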