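import Crest.Agent.R164.Main
import Crest.Agent.R164.W1

/-!
Row 164: general external fields from the finite-alphabet statement.
-/

set_option autoImplicit false

namespace Crest.Agent.R164

open MeasureTheory Finset Matrix Filter Crest.ProbabilityR.InvariantGlass

theorem integrable_pressure {Ω : Type} [MeasurableSpace Ω] (P : Measure Ω) [IsProbabilityMeasure P] {N : ℕ}
    (Us : Ω → Fin N → Fin N → ℝ) (hmeas : Measurable Us)
    (horth : ∀ᵐ ω ∂P, Matrix.of (Us ω) ∈ Matrix.orthogonalGroup (Fin N) ℝ)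
    (hHaar : ∀ O : Matrix (Fin N) (Fin N) ℝ, O ∈ Matrix.orthogonalGroup (Fin N) ℝ →
      P.map (fun ω => fun i j => (Matrix.of (Us ω) * O) i j) = P.map Us) (eig c : Fin N → ℝ) :
    Integrable (fun ω => pressureFieldN eig (Matrix.of (Us ω)) c) P := by
  obtain ⟨ν, V, -, hV, hVe⟩ := exists_haar P Us hmeas horth hHaar
  have hXe : (fun ω => pressureFieldN eig (Matrix.of (Us ω)) c) =ᵐ[P]
      fun ω => (1 / (N : ℝ)) * fN eig (fun σ => ∑ i, c i * sp σ i) (V ω) := by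
    filter_upwards [hVe] with ω h
    rw [← h, pressure_eq]
  refine Integrable.congr ?_ hXe.symm
  refine Integrable.const_mul ?_ _
  refine Integrable.of_bound ((measurable_fN _ _).comp hV.measurable).aestronglyMeasurable
    ((∑ i, |eig i|) / 2 * Fintype.card (Fin N) + ∑ i, |c i|) (ae_of_all _ fun ω => ?_)
  refine abs_fN_le (fun i => single_le_sum (f := fun i => |eig i|) (fun j _ => abs_nonneg _) (mem_univ _))
    (fun σ => ?_) (V ω)
  refine (abs_sum_le_sum_abs _ _).trans (le_of_eq (sum_congr rfl fun i _ => ?_))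
  rw [abs_mul, abs_sp, mul_one]

theorem main_w (μ : Measure ℝ) [IsProbabilityMeasure μ] {lo hi : ℝ} (hle : lo ≤ hi)
    (hsupp : μ (Set.Icc lo hi) = 1) (hedge : ∀ ε : ℝ, 0 < ε → 0 < μ (Set.Icc (hi - ε) hi))
    (eig : (N : ℕ) → Fin N → ℝ)
    (hweak : ∀ φ : ℝ → ℝ, Continuous φ → (∃ C : ℝ, ∀ x, |φ x| ≤ C) →
      Tendsto (fun N : ℕ => (1 / (N : ℝ)) * ∑ i : Fin N, φ (eig N i)) atTop (nhds (∫ x, φ x ∂μ)))
    (hext : ∀ ε : ℝ, 0 < ε → ∀ᶠ N : ℕ in atTop, ∀ i : Fin N, lo - ε ≤ eig N i ∧ eig N i ≤ hi + ε)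
    (ν : Measure ℝ) [IsProbabilityMeasure ν] (hν : Integrable (fun x : ℝ => x) ν)
    (c : (N : ℕ) → Fin N → ℝ)
    (hW : Tendsto (fun N : ℕ => transportCost (empiricalLaw (c N)) ν) atTop (nhds 0))
    {Ω : Type} [MeasurableSpace Ω] (P : Measure Ω) [IsProbabilityMeasure P]
    (Us : (N : ℕ) → Ω → (Fin N → Fin N → ℝ)) (hmeas : ∀ N, Measurable (Us N))
    (horth : ∀ N, ∀ᵐ ω ∂P, Matrix.of (Us N ω) ∈ Matrix.orthogonalGroup (Fin N) ℝ)
    (hHaar : ∀ (N : ℕ) (O : Matrix (Fin N) (Fin N) ℝ), O ∈ Matrix.orthogonalGroup (Fin N) ℝ →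
      P.map (fun ω => fun i j => (Matrix.of (Us N ω) * O) i j) = P.map (Us N)) :
    ∃ F : ℝ,
      (∀ (Jq : ℕ → ℕ) (cq : (q : ℕ) → Fin (Jq q) → ℝ) (γq : (q : ℕ) → Fin (Jq q) → ℚ),
        (∀ q, Function.Injective (cq q) ∧ (∀ j, 0 < γq q j) ∧ ∑ j, γq q j = 1) →
        Tendsto (fun q : ℕ => transportCost
            (∑ j : Fin (Jq q), ENNReal.ofReal ((γq q j : ℚ) : ℝ) • Measure.dirac (cq q j)) ν) atTop (nhds 0) →
        Tendsto (fun q : ℕ => magneticValue μ hi (cq q) (γq q)) atTop (nhds (F : EReal))) ∧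
      Tendsto (fun N : ℕ => ∫ ω, pressureFieldN (eig N) (Matrix.of (Us N ω)) (c N) ∂P) atTop (nhds F) ∧
      ∀ᵐ ω ∂P, Tendsto (fun N : ℕ => pressureFieldN (eig N) (Matrix.of (Us N ω)) (c N)) atTop (nhds F) := by
  classical
  set X : ℕ → Ω → ℝ := fun N ω => pressureFieldN (eig N) (Matrix.of (Us N ω)) (c N) with hX
  -- dual distance of the empirical laws
  have hd : ∀ ε : ℝ, 0 < ε → ∀ᶠ N : ℕ in atTop, 0 < N ∧ ∀ φ : ℝ → ℝ, (∀ x y, |φ x - φ y| ≤ |x - y|) →
      |(1 / (N : ℝ)) * ∑ r, φ (c N r) - ∫ x, φ x ∂ν| ≤ ε := by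
    intro ε hε
    have h1 : ∀ᶠ N : ℕ in atTop, transportCost (empiricalLaw (c N)) ν ≤ ENNReal.ofReal ε :=
      hW.eventually (ge_mem_nhds (by simpa using hε))
    filter_upwards [h1, eventually_gt_atTop 0] with N h hN
    refine ⟨hN, fun φ hφ => ?_⟩
    haveI := empirical_prob hN (c N)
    have := (lip_le_cost (empirical_integrable (c N) _) hν hφ).trans h
    rw [empirical_integral] at this
    exact (ENNReal.ofReal_le_ofReal_iff hε.le).1 this
  -- comparison with an alphabet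
  have cmp : ∀ (J : ℕ) (cq : Fin J → ℝ) (γ : Fin J → ℚ) (D : ℝ), (∀ j, 0 < γ j) → ∑ j, γ j = 1 →
      (∀ φ : ℝ → ℝ, (∀ x y, |φ x - φ y| ≤ |x - y|) → |∑ j, (γ j : ℝ) * φ (cq j) - ∫ x, φ x ∂ν| ≤ D) →
      ∃ F : ℝ, magneticValue μ hi cq γ = (F : EReal) ∧
        (∀ ε : ℝ, 0 < ε → ∀ᶠ N : ℕ in atTop, |∫ ω, X N ω ∂P - F| ≤ D + ε) ∧
        ∀ᵐ ω ∂P, ∀ ε : ℝ, 0 < ε → ∀ᶠ N : ℕ in atTop, |X N ω - F| ≤ D + ε := by
    intro J cq γ D hγ hγ1 hD
    obtain ⟨C, hC⟩ := exists_labels cq γ hγ hγ1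
    have hJ : Nonempty (Fin J) := by
      by_contra h
      rw [not_nonempty_iff] at h
      simp at hγ1
    obtain ⟨j₀⟩ := hJ
    -- optimal dual constant
    let dN : ℕ → ℝ := fun N => sInf {e : ℝ | 0 ≤ e ∧ ∀ φ : ℝ → ℝ, (∀ x y, |φ x - φ y| ≤ |x - y|) →
      |(1 / (N : ℝ)) * ∑ r, φ (c N r) - ∫ x, φ x ∂ν| ≤ e}
    let good : ℕ → Prop := fun N => 0 < N ∧ ∀ φ : ℝ → ℝ, (∀ x y, |φ x - φ y| ≤ |x - y|) →
      |(1 / (N : ℝ)) * ∑ r, φ (c N r) - ∫ x, φ x ∂ν| ≤ dN N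
    have hgood : ∀ ε : ℝ, 0 < ε → ∀ᶠ N : ℕ in atTop, good N ∧ dN N ≤ ε := by
      intro ε hε
      filter_upwards [hd ε hε] with N hN
      have hne : {e : ℝ | 0 ≤ e ∧ ∀ φ : ℝ → ℝ, (∀ x y, |φ x - φ y| ≤ |x - y|) →
          |(1 / (N : ℝ)) * ∑ r, φ (c N r) - ∫ x, φ x ∂ν| ≤ e}.Nonempty := ⟨ε, hε.le, hN.2⟩
      refine ⟨⟨hN.1, fun φ hφ => le_csInf hne fun e he => he.2 φ hφ⟩, ?_⟩
      exact csInf_le ⟨0, fun e he => he.1⟩ ⟨hε.le, hN.2⟩
    have hlab : ∀ N, ∃ lab : Fin N → Fin J, good N →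
        (∀ j, |((univ.filter fun r => lab r = j).card : ℝ) / N - γ j| ≤ C / N) ∧
        (1 / (N : ℝ)) * ∑ r, |c N r - cq (lab r)| ≤ (dN N + D) + C / N := by
      intro N
      by_cases h : good N
      · obtain ⟨lab, h1⟩ := hC N (c N) (dN N + D) h.1 fun φ hφ => by
          have a1 := abs_le.1 (h.2 φ hφ)
          have a2 := abs_le.1 (hD φ hφ)
          linarith [a1.2, a2.1]
        exact ⟨lab, fun _ => h1⟩
      · exact ⟨fun _ => j₀, fun h' => absurd h' h⟩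
    choose lab hlab using hlab
    have hCN : Tendsto (fun N : ℕ => C / (N : ℝ)) atTop (nhds 0) := tendsto_const_div_atTop_nhds_zero_nat C
    have hprop : ∀ j : Fin J, Tendsto
        (fun N : ℕ => ((univ.filter fun r : Fin N => lab N r = j).card : ℝ) / (N : ℝ)) atTop
        (nhds (γ j : ℝ)) := by
      intro j
      rw [tendsto_iff_norm_sub_tendsto_zero]
      refine squeeze_zero' (Eventually.of_forall fun _ => norm_nonneg _) ?_ hCN
      filter_upwards [hgood 1 one_pos] with N hN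
      exact (hlab N hN.1).1 j
    obtain ⟨F, hF, h1, h2⟩ := main_fin μ hle hsupp hedge eig hweak hext cq γ hγ hγ1 lab hprop P Us hmeas
      horth hHaar
    have hclose : ∀ ε : ℝ, 0 < ε → ∀ᶠ N : ℕ in atTop, ∀ ω,
        |X N ω - pressureFieldN (eig N) (Matrix.of (Us N ω)) (fun r => cq (lab N r))| ≤ D + ε := by
      intro ε hε
      filter_upwards [hgood (ε / 2) (by positivity),
        hCN.eventually (ge_mem_nhds (by positivity : (0 : ℝ) < ε / 2))] with N hN hN2 ω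
      have := (pressure_lip (eig N) (Matrix.of (Us N ω)) (c N) (fun r => cq (lab N r))).trans
        (hlab N hN.1).2
      linarith [hN.2]
    refine ⟨F, hF, fun ε hε => ?_, ?_⟩
    · filter_upwards [hclose (ε / 2) (by positivity),
        (Metric.tendsto_nhds.1 h1) (ε / 2) (by positivity)] with N hN hN2
      rw [Real.dist_eq] at hN2
      have i1 := integrable_pressure P (Us N) (hmeas N) (horth N) (hHaar N) (eig N) (c N)
      have i2 := integrable_pressure P (Us N) (hmeas N) (horth N) (hHaar N) (eig N) fun r => cq (lab N r)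
      have h3 : |∫ ω, X N ω ∂P -
          ∫ ω, pressureFieldN (eig N) (Matrix.of (Us N ω)) (fun r => cq (lab N r)) ∂P| ≤ D + ε / 2 := by
        rw [← integral_sub i1 i2]
        have := norm_integral_le_of_norm_le_const (μ := P) (C := D + ε / 2)
          (f := fun ω => X N ω - pressureFieldN (eig N) (Matrix.of (Us N ω)) (fun r => cq (lab N r)))
          (ae_of_all _ fun ω => hN ω)
        simpa using this
      have a1 := abs_le.1 h3
      have a2 := abs_lt.1 hN2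
      rw [abs_le]
      constructor <;> linarith [a1.1, a1.2, a2.1, a2.2]
    · filter_upwards [h2] with ω hω ε hε
      filter_upwards [hclose (ε / 2) (by positivity),
        (Metric.tendsto_nhds.1 hω) (ε / 2) (by positivity)] with N hN hN2
      rw [Real.dist_eq] at hN2
      have a1 := abs_le.1 (hN ω)
      have a2 := abs_lt.1 hN2
      rw [abs_le]
      constructor <;> linarith [a1.1, a1.2, a2.1, a2.2]
  -- approximating alphabets
  have app : ∀ ε : ℝ, 0 < ε → ∃ F : ℝ, (∀ᶠ N : ℕ in atTop, |∫ ω, X N ω ∂P - F| ≤ 2 * ε) ∧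
      ∀ᵐ ω ∂P, ∀ᶠ N : ℕ in atTop, |X N ω - F| ≤ 2 * ε := by
    intro ε hε
    obtain ⟨M, hM⟩ := (hd ε hε).exists
    obtain ⟨J, cq, γ, -, hγ, hγ1, hφ⟩ := exists_alphabet hM.1 (c M)
    obtain ⟨F, -, h1, h2⟩ := cmp J cq γ ε hγ hγ1 fun φ h => by rw [hφ]; exact hM.2 φ h
    refine ⟨F, by simpa [two_mul] using h1 ε hε, ?_⟩
    filter_upwards [h2] with ω hω
    simpa [two_mul] using hω ε hε
  have hcauchy : CauchySeq fun N => ∫ ω, X N ω ∂P := by
    rw [Metric.cauchySeq_iff]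
    intro ε hε
    obtain ⟨F, h1, -⟩ := app (ε / 5) (by positivity)
    obtain ⟨N₀, hN₀⟩ := eventually_atTop.1 h1
    refine ⟨N₀, fun a ha b hb => ?_⟩
    have a1 := abs_le.1 (hN₀ a ha)
    have a2 := abs_le.1 (hN₀ b hb)
    rw [Real.dist_eq, abs_lt]
    constructor <;> linarith [a1.1, a1.2, a2.1, a2.2]
  obtain ⟨F, hF⟩ := cauchySeq_tendsto_of_complete hcauchy
  have hlim : ∀ (F' e : ℝ), (∀ᶠ N : ℕ in atTop, |∫ ω, X N ω ∂P - F'| ≤ e) → |F - F'| ≤ e :=
    fun F' e h => le_of_tendsto ((hF.sub_const F').abs) h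
  refine ⟨F, fun Jq cq γq hq hc => ?_, hF, ?_⟩
  · have hfin : ∀ q, ∃ Fq : ℝ, ∀ D : ℝ, 0 < D → transportCost
        (∑ j : Fin (Jq q), ENNReal.ofReal ((γq q j : ℚ) : ℝ) • Measure.dirac (cq q j)) ν ≤ ENNReal.ofReal D →
        magneticValue μ hi (cq q) (γq q) = (Fq : EReal) ∧ |F - Fq| ≤ 2 * D := by
      intro q
      refine ⟨(magneticValue μ hi (cq q) (γq q)).toReal, fun D hD h => ?_⟩
      haveI := alphabet_prob (cq q) (γq q) (hq q).2.1 (hq q).2.2
      obtain ⟨F', h0, h1, -⟩ := cmp (Jq q) (cq q) (γq q) D (hq q).2.1 (hq q).2.2 fun φ hφ => by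
        have := (lip_le_cost (alphabet_integrable (cq q) (γq q) _) hν hφ).trans h
        rw [alphabet_integral _ _ (hq q).2.1] at this
        exact (ENNReal.ofReal_le_ofReal_iff hD.le).1 this
      rw [h0, EReal.toReal_coe]
      exact ⟨rfl, by simpa [two_mul] using hlim F' _ (h1 D hD)⟩
    choose Fq hFq using hfin
    have hev : ∀ D : ℝ, 0 < D → ∀ᶠ q : ℕ in atTop,
        magneticValue μ hi (cq q) (γq q) = (Fq q : EReal) ∧ |F - Fq q| ≤ 2 * D := by
      intro D hD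
      filter_upwards [hc.eventually (ge_mem_nhds (show (0 : ENNReal) < ENNReal.ofReal D by simpa using hD))]
        with q h
      exact hFq q D hD h
    have h1 : Tendsto Fq atTop (nhds F) := by
      rw [Metric.tendsto_nhds]
      intro ε hε
      filter_upwards [hev (ε / 3) (by positivity)] with q h
      rw [Real.dist_eq, abs_sub_comm]
      linarith [h.2]
    refine ((continuous_coe_real_ereal.tendsto F).comp h1).congr' ?_
    filter_upwards [hev 1 one_pos] with q h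
    exact h.1.symm
  · have h1 : ∀ k : ℕ, ∀ᵐ ω ∂P, ∀ᶠ N : ℕ in atTop, |X N ω - F| ≤ 4 * (1 / ((k : ℝ) + 1)) := by
      intro k
      obtain ⟨F', h1, h2⟩ := app (1 / ((k : ℝ) + 1)) (by positivity)
      have h3 := abs_le.1 (hlim F' _ h1)
      filter_upwards [h2] with ω hω
      filter_upwards [hω] with N hN
      have a1 := abs_le.1 hN
      rw [abs_le]
      constructor <;> linarith [a1.1, a1.2, h3.1, h3.2]
    filter_upwards [ae_all_iff.2 h1] with ω hω
    rw [Metric.tendsto_nhds]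
    intro ε hε
    obtain ⟨k, hk⟩ := exists_nat_one_div_lt (show (0 : ℝ) < ε / 4 by positivity)
    filter_upwards [hω k] with N hN
    rw [Real.dist_eq]
    linarith

end Crest.Agent.R164
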