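import Crest.Agent.R164.Grid

/-!
Row 164, task R164-One: the one-site recursion along a list of (exponent, variance) pairs.

PLAN.  For `Lip1 f` (hence continuous) `exp (a f (z + √v g))` is integrable (`|f (z + s g)| ≤ |f z| + s |g|`).
`gaussOp_lip/mono/add_const` direct; `gaussOp_mono_exp` by Jensen (`a = 0`) / power mean; convexity by Hölder
(`a > 0`) ; evenness by the symmetry of the Gaussian; semigroup by Fubini and `gaussianReal` convolution
(`√v g + √v' g' ~ √(v+v') g`); `gaussOp 1 v lc z = lc z + v/2` (mgf of the Gaussian).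
`gaussOp_Phi_le`: induction on the sorted list:
`T_{a,δ} T_{a',v'} f ≤ T_{a',δ} T_{a',v'} f = T_{a',v'} T_{a',δ} f ≤ T_{a',v'} (f + δ/2)`; and `f ≤ T_{0,δ} f ≤ T_{a,δ} f` for convex `f`.
`Phi_lip_v` by induction on `Z`.  `exists_min`: continuity + coercivity (`lc b ≥ |b| - log 2`, `ell L 0 ≤ 0`); the sign by evenness.
Step fields: `fieldValueAt b w hv = ell ((finRange k).map fun i => (leftEnd w i, increment hv i)) b` (`List.foldr_map`, telescoping),
`stepFn = Σ_i increment_i 1_{(leftEnd i, 1]}` on `(0,1)`.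
-/

set_option autoImplicit false

namespace Crest.Agent.R164

open MeasureTheory Finset ProbabilityTheory Crest.ProbabilityR.InvariantGlass

noncomputable def lc (z : ℝ) : ℝ := Real.log (Real.cosh z)
noncomputable def Phi (L : List (ℝ × ℝ)) : ℝ → ℝ := L.foldr (fun p acc => gaussOp p.1 p.2 acc) lc
def vs (L : List (ℝ × ℝ)) : ℝ := (L.map Prod.snd).sum
noncomputable def ell (L : List (ℝ × ℝ)) (b : ℝ) : ℝ := Phi L b - vs L / 2
noncomputable def ellm (L : List (ℝ × ℝ)) (m : ℝ) : ℝ := ⨅ b : ℝ, (ell L b - b * m)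
def Adm (L : List (ℝ × ℝ)) : Prop := ∀ p ∈ L, 0 ≤ p.1 ∧ p.1 ≤ 1 ∧ 0 ≤ p.2
def Srt (L : List (ℝ × ℝ)) : Prop := L.Pairwise fun p q => p.1 ≤ q.1
def Lip1 (f : ℝ → ℝ) : Prop := ∀ x y, |f x - f y| ≤ |x - y|

/-- the list of the Gaussian levels `l, …, n-2` of a grid -/
def Grid.glFrom (G : Grid) (v : ℕ → ℝ) (l : ℕ) : List (ℝ × ℝ) :=
  (List.range' l (G.n - 1 - l)).map fun i => (G.ζ i, v i)
def Grid.gl (G : Grid) (v : ℕ → ℝ) : List (ℝ × ℝ) := G.glFrom v 1

variable {f g : ℝ → ℝ} {a a' v v' b m : ℝ} {L : List (ℝ × ℝ)}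

theorem Lip1.continuous (hf : Lip1 f) : Continuous f :=
  (LipschitzWith.of_dist_le_mul (K := 1) fun x y => by simpa [Real.dist_eq] using hf x y).continuous

theorem Lip1.shift (hf : Lip1 f) (c : ℝ) : Lip1 fun t => f (t + c) := fun x y => by
  simpa using hf (x + c) (y + c)

theorem Lip1.integrable_exp (hf : Lip1 f) (a s z : ℝ) :
    Integrable (fun x => Real.exp (a * f (z + s * x))) (gaussianReal 0 1) := by
  have hc := hf.continuous
  refine (((integrable_exp_mul_gaussianReal (μ := 0) (v := 1) (|a| * |s|)).add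
    (integrable_exp_mul_gaussianReal (μ := 0) (v := 1) (-(|a| * |s|)))).const_mul
      (Real.exp (|a| * |f z|))).mono' (by fun_prop) (Filter.Eventually.of_forall fun x => ?_)
  rw [Real.norm_eq_abs, abs_of_pos (Real.exp_pos _)]
  have h1 : a * f (z + s * x) ≤ |a| * |f z| + |a| * |s| * |x| := by
    have h2 := hf (z + s * x) z
    rw [add_sub_cancel_left, abs_mul] at h2
    have h3 : |f (z + s * x)| ≤ |f z| + |s| * |x| := by
      linarith [abs_sub_abs_le_abs_sub (f (z + s * x)) (f z)]
    calc a * f (z + s * x) ≤ |a * f (z + s * x)| := le_abs_self _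
      _ = |a| * |f (z + s * x)| := abs_mul _ _
      _ ≤ |a| * (|f z| + |s| * |x|) := by gcongr
      _ = _ := by ring
  refine (Real.exp_le_exp.2 h1).trans ?_
  rw [Real.exp_add]
  gcongr
  simp only [Pi.add_apply]
  rcases abs_choice x with h | h <;> rw [h]
  · linarith [Real.exp_pos (-(|a| * |s|) * x)]
  · rw [mul_neg, ← neg_mul]
    linarith [Real.exp_pos (|a| * |s| * x)]
theorem Lip1.integrable (hf : Lip1 f) (s z : ℝ) :
    Integrable (fun x => f (z + s * x)) (gaussianReal 0 1) := by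
  have hc := hf.continuous
  refine ((hf.integrable_exp 1 s z).add (hf.integrable_exp (-1) s z)).mono' (by fun_prop)
    (Filter.Eventually.of_forall fun x => ?_)
  simp only [Pi.add_apply, Real.norm_eq_abs, one_mul, neg_mul]
  have h1 := Real.add_one_le_exp (f (z + s * x))
  have h2 := Real.add_one_le_exp (-f (z + s * x))
  have h3 := Real.exp_pos (f (z + s * x))
  have h4 := Real.exp_pos (-f (z + s * x))
  rw [abs_le]
  constructor <;> linarith
theorem lc_le (x y : ℝ) : lc x ≤ lc y + |x - y| := by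
  have h : Real.cosh x ≤ Real.cosh y * Real.exp |x - y| := by
    rw [Real.cosh_eq, Real.cosh_eq]
    have h1 : Real.exp x ≤ Real.exp y * Real.exp |x - y| := by
      rw [← Real.exp_add]; gcongr; linarith [le_abs_self (x - y)]
    have h2 : Real.exp (-x) ≤ Real.exp (-y) * Real.exp |x - y| := by
      rw [← Real.exp_add]; gcongr; linarith [neg_abs_le (x - y)]
    linarith
  have := Real.log_le_log (Real.cosh_pos x) h
  rwa [Real.log_mul (Real.cosh_pos y).ne' (Real.exp_pos _).ne', Real.log_exp] at this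

theorem lip1_lc : Lip1 lc := by
  intro x y
  have h1 := lc_le x y
  have h2 := lc_le y x
  rw [abs_sub_comm] at h2
  rw [abs_le]
  constructor <;> linarith
theorem gaussOp_zero (v : ℝ) (f : ℝ → ℝ) (z : ℝ) :
    gaussOp 0 v f z = ∫ g, f (z + Real.sqrt v * g) ∂gaussianReal 0 1 := if_pos rfl

theorem gaussOp_ne (ha : a ≠ 0) (v : ℝ) (f : ℝ → ℝ) (z : ℝ) : gaussOp a v f z =
    a⁻¹ * Real.log (∫ g, Real.exp (a * f (z + Real.sqrt v * g)) ∂gaussianReal 0 1) := if_neg ha

theorem Lip1.int_pos (hf : Lip1 f) (a s z : ℝ) :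
    0 < ∫ g, Real.exp (a * f (z + s * g)) ∂gaussianReal 0 1 :=
  integral_exp_pos (hf.integrable_exp a s z)

theorem exp_gaussOp (hf : Lip1 f) (ha : a ≠ 0) (v z : ℝ) : Real.exp (a * gaussOp a v f z) =
    ∫ g, Real.exp (a * f (z + Real.sqrt v * g)) ∂gaussianReal 0 1 := by
  rw [gaussOp_ne ha, ← mul_assoc, mul_inv_cancel₀ ha, one_mul, Real.exp_log (hf.int_pos _ _ _)]

theorem Lip1.integrable_exp_sub (hf : Lip1 f) (a s z c : ℝ) :
    Integrable (fun x => Real.exp (a * (f (z + s * x) - c))) (gaussianReal 0 1) := by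
  simp only [mul_sub, Real.exp_sub]
  exact (hf.integrable_exp a s z).div_const _

theorem int_exp_sub (hf : Lip1 f) (ha : a ≠ 0) (v z c : ℝ) :
    ∫ g, Real.exp (a * (f (z + Real.sqrt v * g) - c)) ∂gaussianReal 0 1 =
      Real.exp (a * (gaussOp a v f z - c)) := by
  simp only [mul_sub, Real.exp_sub]
  rw [integral_div, exp_gaussOp hf ha]

theorem le_gaussOp (hf : Lip1 f) (ha : 0 < a) {v z c : ℝ}
    (h : 1 ≤ ∫ g, Real.exp (a * (f (z + Real.sqrt v * g) - c)) ∂gaussianReal 0 1) :
    c ≤ gaussOp a v f z := by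
  rw [int_exp_sub hf ha.ne', Real.one_le_exp_iff] at h
  linarith [nonneg_of_mul_nonneg_right h ha |>.trans le_rfl, (mul_nonneg_iff_of_pos_left ha).1 h]

theorem gaussOp_le (hf : Lip1 f) (ha : 0 < a) {v z c : ℝ}
    (h : ∫ g, Real.exp (a * (f (z + Real.sqrt v * g) - c)) ∂gaussianReal 0 1 ≤ 1) :
    gaussOp a v f z ≤ c := by
  rw [int_exp_sub hf ha.ne', Real.exp_le_one_iff] at h
  nlinarith

theorem gaussOp_le_add' (hf : Lip1 f) (hg : Lip1 g) (ha : 0 ≤ a) {c : ℝ} (h : ∀ x, f x ≤ g x + c)
    (v z : ℝ) : gaussOp a v f z ≤ gaussOp a v g z + c := by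
  rcases ha.eq_or_lt with rfl | ha
  · rw [gaussOp_zero, gaussOp_zero]
    have := integral_mono (hf.integrable (Real.sqrt v) z)
      ((hg.integrable (Real.sqrt v) z).add (integrable_const c)) fun x => h _
    simp only [Pi.add_apply] at this
    rw [integral_add (hg.integrable _ _) (integrable_const c)] at this
    simpa using this
  · refine gaussOp_le hf ha ?_
    have := integral_mono (hf.integrable_exp_sub a (Real.sqrt v) z (gaussOp a v g z + c))
      (hg.integrable_exp_sub a (Real.sqrt v) z (gaussOp a v g z)) fun x => by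
        simp only []
        gcongr Real.exp (a * ?_)
        linarith [h (z + Real.sqrt v * x)]
    rw [int_exp_sub hg ha.ne'] at this
    simpa using this

theorem gaussOp_shift (a v : ℝ) (f : ℝ → ℝ) (z c : ℝ) :
    gaussOp a v (fun t => f (t + c)) z = gaussOp a v f (z + c) := by
  unfold gaussOp
  simp only [add_right_comm _ _ c]

theorem gaussOp_lip (hf : Lip1 f) (ha : 0 ≤ a) (v : ℝ) : Lip1 (gaussOp a v f) := by
  have key : ∀ x y, gaussOp a v f x ≤ gaussOp a v f y + |x - y| := fun x y => by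
    have := gaussOp_le_add' hf (hf.shift (y - x)) ha (c := |x - y|) (fun t => by
      have h := hf t (t + (y - x))
      rw [show t - (t + (y - x)) = x - y by ring] at h
      linarith [le_abs_self (f t - f (t + (y - x)))]) v x
    rwa [gaussOp_shift, add_sub_cancel] at this
  intro x y
  have h1 := key x y
  have h2 := key y x
  rw [abs_sub_comm] at h2
  rw [abs_le]
  constructor <;> linarith
theorem gaussOp_le_add (hf : Lip1 f) (hg : Lip1 g) (ha : 0 ≤ a) {c : ℝ} (h : ∀ x, f x ≤ g x + c) (v z : ℝ) :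
    gaussOp a v f z ≤ gaussOp a v g z + c := by
  exact gaussOp_le_add' hf hg ha h v z
theorem gaussOp_mono_exp (hf : Lip1 f) (ha : 0 ≤ a) (h : a ≤ a') (v z : ℝ) :
    gaussOp a v f z ≤ gaussOp a' v f z := by
  rcases h.eq_or_lt with rfl | h
  · exact le_rfl
  have ha' : 0 < a' := ha.trans_lt h
  refine le_gaussOp hf ha' ?_
  rcases ha.eq_or_lt with rfl | ha
  · have i1 := ((hf.integrable (Real.sqrt v) z).sub (integrable_const (gaussOp 0 v f z))).const_mul a'
    have := integral_mono (i1.add (integrable_const 1))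
      (hf.integrable_exp_sub a' (Real.sqrt v) z (gaussOp 0 v f z)) fun x => Real.add_one_le_exp _
    simp only [Pi.add_apply, Pi.sub_apply] at this i1
    rw [integral_add i1 (integrable_const 1), integral_const_mul,
      integral_sub (hf.integrable _ _) (integrable_const _), ← gaussOp_zero] at this
    simpa using this
  · have i0 := hf.integrable_exp_sub a (Real.sqrt v) z (gaussOp a v f z)
    have i1 := (i0.sub (integrable_const 1)).const_mul (a' / a)
    have := integral_mono ((integrable_const 1).add i1)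
      (hf.integrable_exp_sub a' (Real.sqrt v) z (gaussOp a v f z)) fun x => by
        have h1 := one_add_mul_self_le_rpow_one_add
          (s := Real.exp (a * (f (z + Real.sqrt v * x) - gaussOp a v f z)) - 1)
          (by linarith [Real.exp_pos (a * (f (z + Real.sqrt v * x) - gaussOp a v f z))])
          (p := a' / a) ((one_le_div ha).2 h.le)
        rw [add_sub_cancel, ← Real.exp_mul] at h1
        simp only [Pi.add_apply, Pi.sub_apply]
        refine h1.trans (le_of_eq ?_)
        congr 1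
        field_simp
    simp only [Pi.add_apply, Pi.sub_apply] at this i1
    rw [integral_add (integrable_const 1) i1, integral_const_mul,
      integral_sub i0 (integrable_const _), int_exp_sub hf ha.ne'] at this
    simpa using this
theorem gaussOp_zero_var (a : ℝ) (f : ℝ → ℝ) : gaussOp a 0 f = f := by
  funext z
  by_cases ha : a = 0
  · subst ha; simp [gaussOp_zero]
  · simp [gaussOp_ne ha, ha]
theorem map_sqrt (v : ℝ) :
    (gaussianReal 0 1).map (fun g => Real.sqrt v * g) = gaussianReal 0 v.toNNReal := by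
  rw [gaussianReal_map_const_mul, mul_zero, mul_one]
  congr 1
  ext
  simp [Real.sq_sqrt', Real.coe_toNNReal']

theorem int_conv {F : ℝ → ℝ} (hF : Continuous F) (hv : 0 ≤ v) (hv' : 0 ≤ v') (z : ℝ)
    (hi : Integrable (fun g => F (z + Real.sqrt (v + v') * g)) (gaussianReal 0 1)) :
    ∫ g, ∫ g', F (z + Real.sqrt v * g + Real.sqrt v' * g') ∂gaussianReal 0 1 ∂gaussianReal 0 1 =
      ∫ g, F (z + Real.sqrt (v + v') * g) ∂gaussianReal 0 1 := by
  have e : gaussianReal 0 (v + v').toNNReal = gaussianReal 0 v.toNNReal ∗ gaussianReal 0 v'.toNNReal := by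
    rw [gaussianReal_conv_gaussianReal, add_zero, Real.toNNReal_add hv hv']
  have hm : ∀ (u : ℝ) (G : ℝ → ℝ), Measurable G → ∫ y, G y ∂gaussianReal 0 u.toNNReal =
      ∫ g, G (Real.sqrt u * g) ∂gaussianReal 0 1 := fun u G hG => by
    rw [← map_sqrt, integral_map (by fun_prop) hG.aestronglyMeasurable]
  have hi' : Integrable (fun y => F (z + y)) (gaussianReal 0 (v + v').toNNReal) := by
    rw [← map_sqrt, integrable_map_measure (by fun_prop) (by fun_prop)]
    exact hi
  rw [← hm (v + v') (fun y => F (z + y)) (by fun_prop), e, integral_conv (e ▸ hi'), hm]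
  · refine integral_congr_ae (Filter.Eventually.of_forall fun g => ?_)
    simp only []
    rw [hm v' (fun y => F (z + (Real.sqrt v * g + y))) (by fun_prop)]
    simp only [add_assoc]
  · have : StronglyMeasurable fun p : ℝ × ℝ => F (z + (p.1 + p.2)) :=
      Measurable.stronglyMeasurable (by fun_prop)
    exact (this.integral_prod_right' (ν := gaussianReal 0 v'.toNNReal)).measurable

theorem gaussOp_semigroup (hf : Lip1 f) (ha : 0 ≤ a) (hv : 0 ≤ v) (hv' : 0 ≤ v') :
    gaussOp a v (gaussOp a v' f) = gaussOp a (v + v') f := by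
  funext z
  have hc := hf.continuous
  rcases ha.eq_or_lt with rfl | ha
  · simp only [gaussOp_zero]
    exact int_conv hc hv hv' z (hf.integrable _ _)
  · rw [gaussOp_ne ha.ne', gaussOp_ne ha.ne' (v + v')]
    simp only [exp_gaussOp hf ha.ne']
    rw [int_conv (F := fun y => Real.exp (a * f y)) (by fun_prop) hv hv' z (hf.integrable_exp _ _ _)]
theorem gaussOp_convex (hf : Lip1 f) (hc : ConvexOn ℝ Set.univ f) (ha : 0 ≤ a) (v : ℝ) :
    ConvexOn ℝ Set.univ (gaussOp a v f) := by
  refine ⟨convex_univ, fun x _ y _ s t hs ht hst => ?_⟩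
  have hp : ∀ g, f (s * x + t * y + Real.sqrt v * g) ≤
      s * f (x + Real.sqrt v * g) + t * f (y + Real.sqrt v * g) := fun g => by
    have := hc.2 (Set.mem_univ (x + Real.sqrt v * g)) (Set.mem_univ (y + Real.sqrt v * g)) hs ht hst
    simp only [smul_eq_mul] at this
    refine le_trans (le_of_eq ?_) this
    congr 1
    linear_combination (-(Real.sqrt v * g)) * hst
  simp only [smul_eq_mul]
  rcases ha.eq_or_lt with rfl | ha
  · simp only [gaussOp_zero]
    rw [← integral_const_mul, ← integral_const_mul,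
      ← integral_add ((hf.integrable _ _).const_mul _) ((hf.integrable _ _).const_mul _)]
    exact integral_mono (hf.integrable _ _)
      (((hf.integrable _ _).const_mul _).add ((hf.integrable _ _).const_mul _)) hp
  · refine gaussOp_le hf ha ?_
    have i1 := (hf.integrable_exp_sub a (Real.sqrt v) x (gaussOp a v f x)).const_mul s
    have i2 := (hf.integrable_exp_sub a (Real.sqrt v) y (gaussOp a v f y)).const_mul t
    have := integral_mono (hf.integrable_exp_sub a (Real.sqrt v) (s * x + t * y)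
      (s * gaussOp a v f x + t * gaussOp a v f y)) (i1.add i2) fun g => by
        have h1 := convexOn_exp.2 (Set.mem_univ (a * (f (x + Real.sqrt v * g) - gaussOp a v f x)))
          (Set.mem_univ (a * (f (y + Real.sqrt v * g) - gaussOp a v f y))) hs ht hst
        simp only [smul_eq_mul] at h1
        refine le_trans (Real.exp_le_exp.2 ?_) h1
        nlinarith [mul_le_mul_of_nonneg_left (hp g) ha.le]
    simp only [Pi.add_apply] at this
    rw [integral_add i1 i2, integral_const_mul, integral_const_mul, int_exp_sub hf ha.ne' v x,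
      int_exp_sub hf ha.ne' v y] at this
    simpa [hst] using this

theorem int_neg (F : ℝ → ℝ) : ∫ g, F (-g) ∂gaussianReal 0 1 = ∫ g, F g ∂gaussianReal 0 1 := by
  have h : (gaussianReal 0 1).map (MeasurableEquiv.neg ℝ) = gaussianReal 0 1 := by
    have := gaussianReal_map_neg (μ := 0) (v := 1)
    rwa [neg_zero] at this
  conv_rhs => rw [← h, integral_map_equiv]
  rfl

theorem gaussOp_neg (hf : ∀ x, f (-x) = f x) (a v z : ℝ) : gaussOp a v f (-z) = gaussOp a v f z := by
  have e : ∀ g, f (-z + Real.sqrt v * -g) = f (z + Real.sqrt v * g) := fun g => by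
    rw [← hf]; congr 1; ring
  unfold gaussOp
  rw [← int_neg fun g => f (-z + Real.sqrt v * g),
    ← int_neg fun g => Real.exp (a * f (-z + Real.sqrt v * g))]
  simp only [e]

theorem le_gaussOp_of_convex (hf : Lip1 f) (hc : ConvexOn ℝ Set.univ f) (ha : 0 ≤ a) (v z : ℝ) :
    f z ≤ gaussOp a v f z := by
  refine le_trans ?_ (gaussOp_mono_exp hf le_rfl ha v z)
  rw [gaussOp_zero]
  have i1 := hf.integrable (Real.sqrt v) z
  have i2 := hf.integrable (-Real.sqrt v) z
  have h := integral_mono (integrable_const (2 * f z)) (i1.add i2) fun g => by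
    have := hc.2 (Set.mem_univ (z + Real.sqrt v * g)) (Set.mem_univ (z + -Real.sqrt v * g))
      (by norm_num : (0 : ℝ) ≤ 1 / 2) (by norm_num : (0 : ℝ) ≤ 1 / 2) (by norm_num)
    simp only [smul_eq_mul] at this
    rw [show 1 / 2 * (z + Real.sqrt v * g) + 1 / 2 * (z + -Real.sqrt v * g) = z by ring] at this
    simp only [Pi.add_apply]
    linarith
  simp only [Pi.add_apply] at h
  rw [integral_add i1 i2, ← int_neg fun g => f (z + -Real.sqrt v * g)] at h
  simp only [neg_mul_neg, integral_const, probReal_univ, smul_eq_mul, one_mul] at h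
  linarith

theorem int_exp_gauss (t : ℝ) : ∫ g, Real.exp (t * g) ∂gaussianReal 0 1 = Real.exp (t ^ 2 / 2) := by
  have := congrFun (mgf_fun_id_gaussianReal (μ := 0) (v := 1)) t
  simpa [mgf] using this

theorem gaussOp_one_lc (hv : 0 ≤ v) (z : ℝ) : gaussOp 1 v lc z = lc z + v / 2 := by
  rw [gaussOp_ne one_ne_zero]
  have e : ∀ g, Real.exp (1 * lc (z + Real.sqrt v * g)) =
      Real.exp z / 2 * Real.exp (Real.sqrt v * g) + Real.exp (-z) / 2 * Real.exp (-Real.sqrt v * g) := by
    intro g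
    rw [one_mul, lc, Real.exp_log (Real.cosh_pos _), Real.cosh_eq, neg_add, Real.exp_add, Real.exp_add,
      neg_mul]
    ring
  simp only [e]
  rw [integral_add ((integrable_exp_mul_gaussianReal _).const_mul _)
    ((integrable_exp_mul_gaussianReal _).const_mul _), integral_const_mul, integral_const_mul,
    int_exp_gauss, int_exp_gauss, neg_sq, Real.sq_sqrt hv, ← add_mul, ← add_div, ← Real.cosh_eq,
    Real.log_mul (Real.cosh_pos _).ne' (Real.exp_pos _).ne', Real.log_exp, lc]
  simp

theorem convex_lc : ConvexOn ℝ Set.univ lc := by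
  refine ⟨convex_univ, fun x _ y _ s t hs ht hst => ?_⟩
  simp only [smul_eq_mul]
  have key : ∀ x y : ℝ, Real.exp (s * x + t * y) ≤ Real.exp (s * lc x + t * lc y) *
      (s * (Real.exp x / Real.cosh x) + t * (Real.exp y / Real.cosh y)) := fun x y => by
    have h1 := convexOn_exp.2 (Set.mem_univ (x - lc x)) (Set.mem_univ (y - lc y)) hs ht hst
    simp only [smul_eq_mul, Real.exp_sub] at h1
    simp only [lc, Real.exp_log (Real.cosh_pos _)] at h1 ⊢
    refine le_trans (le_of_eq ?_) (mul_le_mul_of_nonneg_left h1 (Real.exp_pos _).le)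
    rw [← Real.exp_add]
    congr 1
    ring
  have h1 := key x y
  have h2 := key (-x) (-y)
  have e : ∀ x, lc (-x) = lc x := fun x => by simp [lc]
  rw [e, e, Real.cosh_neg, Real.cosh_neg] at h2
  have e2 : ∀ x, Real.exp x / Real.cosh x + Real.exp (-x) / Real.cosh x = 2 := fun x => by
    have := Real.cosh_pos x
    rw [← add_div, div_eq_iff this.ne', Real.cosh_eq]; ring
  rw [lc, Real.log_le_iff_le_exp (Real.cosh_pos _), Real.cosh_eq,
    show -(s * x + t * y) = s * -x + t * -y by ring]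
  have h3 : s * (Real.exp x / Real.cosh x) + t * (Real.exp y / Real.cosh y) +
      (s * (Real.exp (-x) / Real.cosh x) + t * (Real.exp (-y) / Real.cosh y)) = 2 := by
    linear_combination s * e2 x + t * e2 y + 2 * hst
  have h4 := congrArg (fun r => Real.exp (s * lc x + t * lc y) * r) h3
  simp only [mul_add] at h4 h1 h2
  linarith

theorem Adm.head {p : ℝ × ℝ} (h : Adm (p :: L)) : 0 ≤ p.1 ∧ p.1 ≤ 1 ∧ 0 ≤ p.2 := h p (by simp)
theorem Adm.tail {p : ℝ × ℝ} (h : Adm (p :: L)) : Adm L := fun q hq => h q (by simp [hq])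
theorem Adm.cons {p : ℝ × ℝ} (h1 : 0 ≤ p.1) (h2 : p.1 ≤ 1) (h3 : 0 ≤ p.2) (h : Adm L) : Adm (p :: L) := by
  intro q hq
  rcases List.mem_cons.1 hq with rfl | hq
  · exact ⟨h1, h2, h3⟩
  · exact h q hq
theorem vs_cons (p : ℝ × ℝ) (L : List (ℝ × ℝ)) : vs (p :: L) = p.2 + vs L := by simp [vs]

theorem Phi_nil : Phi [] = lc := rfl
theorem Phi_cons (p : ℝ × ℝ) (L : List (ℝ × ℝ)) : Phi (p :: L) = gaussOp p.1 p.2 (Phi L) := rfl
theorem Phi_lip (h : Adm L) : Lip1 (Phi L) := by
  induction L with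
  | nil => exact lip1_lc
  | cons p L ih => exact gaussOp_lip (ih h.tail) h.head.1 _
theorem Phi_convex (h : Adm L) : ConvexOn ℝ Set.univ (Phi L) := by
  induction L with
  | nil => exact convex_lc
  | cons p L ih => exact gaussOp_convex (Phi_lip h.tail) (ih h.tail) h.head.1 _
theorem Phi_neg (L : List (ℝ × ℝ)) (b : ℝ) : Phi L (-b) = Phi L b := by
  induction L generalizing b with
  | nil => simp [Phi_nil, lc]
  | cons p L ih => exact gaussOp_neg ih _ _ _
theorem lc_le_Phi (h : Adm L) (b : ℝ) : lc b ≤ Phi L b := by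
  induction L with
  | nil => exact le_rfl
  | cons p L ih =>
    exact (ih h.tail).trans (le_gaussOp_of_convex (Phi_lip h.tail) (Phi_convex h.tail) h.head.1 _ _)
theorem Phi_le (h : Adm L) (b : ℝ) : Phi L b ≤ lc b + vs L / 2 := by
  induction L generalizing b with
  | nil => simp [Phi_nil, vs]
  | cons p L ih =>
    have h1 := gaussOp_le_add (Phi_lip h.tail) lip1_lc h.head.1 (ih h.tail) p.2 b
    have h2 := gaussOp_mono_exp lip1_lc h.head.1 h.head.2.1 p.2 b
    rw [gaussOp_one_lc h.head.2.2] at h2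
    rw [Phi_cons, vs_cons]
    linarith
theorem lc_mem (b : ℝ) : lc b ∈ Set.Icc (max 0 (|b| - Real.log 2)) |b| := by
  refine ⟨max_le (Real.log_nonneg (Real.one_le_cosh b)) ?_, ?_⟩
  · rw [lc, Real.le_log_iff_exp_le (Real.cosh_pos b), Real.exp_sub, Real.exp_log two_pos, Real.cosh_eq]
    gcongr
    rcases abs_choice b with h | h <;> rw [h]
    · linarith [Real.exp_pos (-b)]
    · linarith [Real.exp_pos b]
  · simpa [lc] using lc_le b 0
theorem Phi_filter (L : List (ℝ × ℝ)) : Phi (L.filter fun p => p.2 ≠ 0) = Phi L := by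
  induction L with
  | nil => rfl
  | cons p L ih =>
    by_cases h : p.2 = 0
    · rw [List.filter_cons_of_neg (by simpa using h), ih, Phi_cons, h, gaussOp_zero_var]
    · rw [List.filter_cons_of_pos (by simpa using h), Phi_cons, Phi_cons, ih]
theorem vs_filter (L : List (ℝ × ℝ)) : vs (L.filter fun p => p.2 ≠ 0) = vs L := by
  induction L with
  | nil => rfl
  | cons p L ih =>
    by_cases h : p.2 = 0
    · rw [List.filter_cons_of_neg (by simpa using h), ih, vs_cons, h, zero_add]
    · rw [List.filter_cons_of_pos (by simpa using h), vs_cons, vs_cons, ih]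
theorem vs_nonneg (h : Adm L) : 0 ≤ vs L := by
  induction L with
  | nil => simp [vs]
  | cons p L ih => rw [vs_cons]; exact add_nonneg h.head.2.2 (ih h.tail)
theorem gaussOp_Phi_le (h : Adm L) (hs : Srt L) (ha : 0 ≤ a) (ha1 : a ≤ 1) (hl : ∀ p ∈ L, a ≤ p.1)
    (hv : 0 ≤ v) (b : ℝ) : gaussOp a v (Phi L) b - Phi L b ∈ Set.Icc 0 (v / 2) := by
  refine ⟨sub_nonneg.2 (le_gaussOp_of_convex (Phi_lip h) (Phi_convex h) ha _ _), ?_⟩
  rw [sub_le_iff_le_add']
  induction L generalizing a b with
  | nil =>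
    rw [Phi_nil, ← gaussOp_one_lc hv]
    exact gaussOp_mono_exp lip1_lc ha ha1 _ _
  | cons p L ih =>
    obtain ⟨p1, p2, p3⟩ := h.head
    have hL := Phi_lip h.tail
    refine (gaussOp_mono_exp (Phi_lip h) ha (hl p (by simp)) v b).trans ?_
    rw [Phi_cons, gaussOp_semigroup hL p1 hv p3, add_comm v, ← gaussOp_semigroup hL p1 p3 hv]
    exact gaussOp_le_add (gaussOp_lip hL p1 _) hL p1
      (fun x => ih h.tail (List.pairwise_cons.1 hs).2 p1 p2 (List.pairwise_cons.1 hs).1 x) _ _
theorem gaussOp_lip_v (h : Adm L) (ha : 0 ≤ a) (ha1 : a ≤ 1) (hs : Srt L) (hl : ∀ p ∈ L, a ≤ p.1)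
    (hv : 0 ≤ v) (hv' : 0 ≤ v') (b : ℝ) :
    |gaussOp a v (Phi L) b - gaussOp a v' (Phi L) b| ≤ |v - v'| / 2 := by
  wlog hle : v' ≤ v generalizing v v'
  · rw [abs_sub_comm, abs_sub_comm v]
    exact this hv' hv (le_of_not_ge hle)
  have h1 := gaussOp_Phi_le (L := (a, v') :: L) (a := a) (v := v - v') (Adm.cons ha ha1 hv' h)
    (List.pairwise_cons.2 ⟨hl, hs⟩) ha ha1 (fun p hp => by
      rcases List.mem_cons.1 hp with rfl | hp
      · exact le_rfl
      · exact hl p hp) (sub_nonneg.2 hle) b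
  rw [Phi_cons, gaussOp_semigroup (Phi_lip h) ha (sub_nonneg.2 hle) hv', sub_add_cancel] at h1
  rw [abs_of_nonneg h1.1, abs_of_nonneg (sub_nonneg.2 hle)]
  exact h1.2

theorem Phi_lip_v {α : Type} (Z : List α) (z u u' : α → ℝ) (h : Adm (Z.map fun t => (z t, u t)))
    (h' : Adm (Z.map fun t => (z t, u' t))) (hs : Srt (Z.map fun t => (z t, u t))) (b : ℝ) :
    |Phi (Z.map fun t => (z t, u t)) b - Phi (Z.map fun t => (z t, u' t)) b| ≤
      (Z.map fun t => |u t - u' t|).sum / 2 := by
  induction Z generalizing b with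
  | nil => simp
  | cons t Z ih =>
    simp only [List.map_cons, List.sum_cons, Phi_cons] at h h' hs ⊢
    have hs' := List.pairwise_cons.1 hs
    have h1 := gaussOp_lip_v h.tail h.head.1 h.head.2.1 hs'.2 hs'.1 h.head.2.2 h'.head.2.2 b
    have h2 := gaussOp_le_add (Phi_lip h.tail) (Phi_lip h'.tail) h.head.1
      (c := (Z.map fun t => |u t - u' t|).sum / 2)
      (fun x => by linarith [(abs_le.1 (ih h.tail h'.tail hs'.2 x)).2]) (u' t) b
    have h3 := gaussOp_le_add (Phi_lip h'.tail) (Phi_lip h.tail) h.head.1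
      (c := (Z.map fun t => |u t - u' t|).sum / 2)
      (fun x => by linarith [(abs_le.1 (ih h.tail h'.tail hs'.2 x)).1]) (u' t) b
    simp only at h1 h2 h3
    rw [abs_le] at h1 ⊢
    constructor <;> linarith [h1.1, h1.2]
/-- raising exponents increases the value -/
theorem Phi_mono_exp {α : Type} (Z : List α) (z z' u : α → ℝ) (h : Adm (Z.map fun t => (z t, u t)))
    (h' : Adm (Z.map fun t => (z' t, u t))) (hz : ∀ t ∈ Z, z t ≤ z' t) (b : ℝ) :
    Phi (Z.map fun t => (z t, u t)) b ≤ Phi (Z.map fun t => (z' t, u t)) b := by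
  induction Z generalizing b with
  | nil => simp
  | cons t Z ih =>
    simp only [List.map_cons, Phi_cons] at h h' ⊢
    have h2 := gaussOp_le_add (Phi_lip h.tail) (Phi_lip h'.tail) h.head.1 (c := 0)
      (fun x => by simpa using ih h.tail h'.tail (fun t ht => hz t (by simp [ht])) x) (u t) b
    rw [add_zero] at h2
    exact h2.trans (gaussOp_mono_exp (Phi_lip h'.tail) h.head.1 (hz t (by simp)) _ _)

theorem ell_lower (h : Adm L) (m b : ℝ) :
    |b| * (1 - |m|) - Real.log 2 - vs L / 2 ≤ ell L b - b * m := by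
  have h1 := lc_le_Phi h b
  have h2 := (le_max_right _ _).trans (lc_mem b).1
  have h3 : b * m ≤ |b| * |m| := by rw [← abs_mul]; exact le_abs_self _
  unfold ell
  linarith

theorem ell_zero_le (h : Adm L) : ell L 0 ≤ 0 := by
  have := Phi_le h 0
  simp only [lc, Real.cosh_zero, Real.log_one] at this
  unfold ell
  linarith

theorem ell_neg (L : List (ℝ × ℝ)) (b : ℝ) : ell L (-b) = ell L b := by rw [ell, ell, Phi_neg]

theorem ellm_le (h : Adm L) (hm : |m| < 1) (b : ℝ) : ellm L m ≤ ell L b - b * m := by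
  refine ciInf_le ⟨-Real.log 2 - vs L / 2, ?_⟩ b
  rintro _ ⟨c, rfl⟩
  have h1 := ell_lower h m c
  have : 0 ≤ |c| * (1 - |m|) := mul_nonneg (abs_nonneg _) (by linarith)
  simp only
  linarith
theorem exists_min (h : Adm L) (hm : |m| < 1) : ∃ b : ℝ, ellm L m = ell L b - b * m ∧ 0 ≤ b * m ∧
    (m = 0 → b = 0) ∧ |b| * (1 - |m|) ≤ Real.log 2 + vs L / 2 := by
  have key : ∃ b, (∀ c, ell L b - b * m ≤ ell L c - c * m) ∧ (m = 0 → b = 0) := by
    by_cases hm0 : m = 0
    · refine ⟨0, fun c => ?_, fun _ => rfl⟩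
      have := (Phi_convex h).2 (Set.mem_univ c) (Set.mem_univ (-c))
        (by norm_num : (0 : ℝ) ≤ 1 / 2) (by norm_num : (0 : ℝ) ≤ 1 / 2) (by norm_num)
      simp only [smul_eq_mul] at this
      rw [show 1 / 2 * c + 1 / 2 * -c = 0 by ring, Phi_neg] at this
      simp only [ell, hm0]
      linarith
    · have hc : Continuous fun b => ell L b - b * m := by
        have := (Phi_lip h).continuous
        unfold ell
        fun_prop
      obtain ⟨b, hb⟩ := hc.exists_forall_le' 0 (by
        have h1 : ∀ᶠ x in Filter.cocompact ℝ, (Real.log 2 + vs L / 2) / (1 - |m|) ≤ ‖x‖ :=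
          (tendsto_norm_cocompact_atTop (E := ℝ)).eventually (Filter.eventually_ge_atTop _)
        filter_upwards [h1] with x hx
        rw [div_le_iff₀ (by linarith), Real.norm_eq_abs] at hx
        have := ell_lower h m x
        have := ell_zero_le h
        linarith)
      exact ⟨b, hb, fun h0 => absurd h0 hm0⟩
  obtain ⟨b, hb, hb0⟩ := key
  refine ⟨b, le_antisymm (ellm_le h hm b) (le_ciInf hb), ?_, hb0, ?_⟩
  · have := hb (-b)
    rw [ell_neg] at this
    linarith
  · have h1 := hb 0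
    have h2 := ell_lower h m b
    have h3 := ell_zero_le h
    linarith
theorem ellm_mem (h : Adm L) (hm : |m| < 1) : ellm L m ∈ Set.Icc (-Real.log 2 - vs L / 2) 0 := by
  constructor
  · obtain ⟨b, hb, -⟩ := exists_min h hm
    have h1 := ell_lower h m b
    have : 0 ≤ |b| * (1 - |m|) := mul_nonneg (abs_nonneg _) (by linarith)
    linarith
  · have := ellm_le h hm 0
    have := ell_zero_le h
    linarith

theorem Grid.glFrom_step (G : Grid) (v : ℕ → ℝ) {l : ℕ} (h : l + 1 < G.n) :
    G.glFrom v l = (G.ζ l, v l) :: G.glFrom v (l + 1) := by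
  unfold Grid.glFrom
  rw [show G.n - 1 - l = (G.n - 1 - (l + 1)) + 1 by omega, List.range'_succ, List.map_cons]
theorem Grid.glFrom_top (G : Grid) (v : ℕ → ℝ) : G.glFrom v (G.n - 1) = [] := by
  simp [Grid.glFrom]
theorem Grid.adm_glFrom (G : Grid) {v : ℕ → ℝ} {l : ℕ} (hv : ∀ i ∈ Ico l (G.n - 1), 0 ≤ v i) :
    Adm (G.glFrom v l) := by
  intro p hp
  obtain ⟨i, hi, rfl⟩ := List.mem_map.1 hp
  rw [List.mem_range'_1] at hi
  exact ⟨(G.pos i).le, G.le_one i, hv i (mem_Ico.2 ⟨hi.1, by omega⟩)⟩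
theorem Grid.srt_glFrom (G : Grid) (v : ℕ → ℝ) (l : ℕ) : Srt (G.glFrom v l) := by
  unfold Srt Grid.glFrom
  rw [List.pairwise_map]
  exact (List.pairwise_lt_range' ..).imp fun h => G.mono h.le
theorem sum_range' (F : ℕ → ℝ) (s n : ℕ) : ((List.range' s n).map F).sum = ∑ l ∈ Ico s (s + n), F l := by
  induction n with
  | zero => simp
  | succ n ih => rw [List.range'_concat, List.map_append, List.sum_append, ih, ← add_assoc,
      sum_Ico_succ_top (by omega)]; simp

theorem Grid.sum_gl (G : Grid) (v : ℕ → ℝ) (F : ℝ × ℝ → ℝ) :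
    ((G.gl v).map F).sum = ∑ l ∈ Ico 1 (G.n - 1), F (G.ζ l, v l) := by
  have := G.three_le
  rw [Grid.gl, Grid.glFrom, List.map_map, sum_range', show 1 + (G.n - 1 - 1) = G.n - 1 by omega]
  rfl

theorem Grid.vs_gl (G : Grid) (v : ℕ → ℝ) : vs (G.gl v) = ∑ l ∈ Ico 1 (G.n - 1), v l := by
  exact G.sum_gl v Prod.snd
theorem Grid.Phi_gl_lip (G : Grid) {v v' : ℕ → ℝ} (hv : ∀ i ∈ Ico 1 (G.n - 1), 0 ≤ v i)
    (hv' : ∀ i ∈ Ico 1 (G.n - 1), 0 ≤ v' i) (b : ℝ) :
    |Phi (G.gl v) b - Phi (G.gl v') b| ≤ (∑ l ∈ Ico 1 (G.n - 1), |v l - v' l|) / 2 := by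
  have := G.three_le
  have h := Phi_lip_v (List.range' 1 (G.n - 1 - 1)) G.ζ v v' (G.adm_glFrom hv) (G.adm_glFrom hv')
    (G.srt_glFrom v 1) b
  rwa [sum_range', show 1 + (G.n - 1 - 1) = G.n - 1 by omega] at h

/-! ### link with the definitions of the statements -/

/-- the list attached to a step field -/
noncomputable def flist {k : ℕ} (w hv : Fin k → ℝ) : List (ℝ × ℝ) :=
  (List.finRange k).map fun i => (leftEnd w i, increment hv i)

theorem sum_flist {k : ℕ} (w hv : Fin k → ℝ) (F : ℝ × ℝ → ℝ) :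
    ((flist w hv).map F).sum = ∑ i, F (leftEnd w i, increment hv i) := by
  rw [flist, List.map_map, Fin.sum_univ_def]
  rfl

theorem abel_incr {k : ℕ} (hv c : Fin k → ℝ) : ∑ l, increment hv l * c l =
    ∑ i, hv i * (c i - ∑ l : Fin k, if i.val + 1 = l.val then c l else 0) := by
  simp only [increment, sub_mul, mul_sub, sum_sub_distrib, sum_mul, mul_sum]
  congr 1
  rw [sum_comm]
  refine sum_congr rfl fun i _ => sum_congr rfl fun l _ => ?_
  split_ifs <;> simp

theorem sum_succ_ite {k : ℕ} (i : Fin k) (c : Fin k → ℝ) :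
    (∑ l : Fin k, if i.val + 1 = l.val then c l else 0) =
      if h : i.val + 1 < k then c ⟨i.val + 1, h⟩ else 0 := by
  split_ifs with h
  · rw [sum_eq_single ⟨i.val + 1, h⟩]
    · simp
    · intro l _ hl
      exact if_neg fun h' => hl (Fin.ext h'.symm)
    · simp
  · exact sum_eq_zero fun l _ => if_neg (by have := l.2; omega)

theorem leftEnd_add {k : ℕ} (w : Fin k → ℝ) (i : Fin k) :
    leftEnd w i + w i = ∑ l, if l ≤ i then w l else 0 := by
  have : w i = ∑ l, if l = i then w l else 0 := by simp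
  rw [leftEnd, this, ← sum_add_distrib]
  refine sum_congr rfl fun l _ => ?_
  rcases lt_trichotomy l i with h | h | h
  · simp [h, h.le, h.ne]
  · simp [h]
  · simp [h.ne', not_lt.2 h.le, not_le.2 h]

theorem leftEnd_succ {k : ℕ} (w : Fin k → ℝ) (i : Fin k) (h : i.val + 1 < k) :
    leftEnd w ⟨i.val + 1, h⟩ = leftEnd w i + w i := by
  rw [leftEnd_add, leftEnd]
  refine sum_congr rfl fun l _ => if_congr ?_ rfl rfl
  rw [Fin.lt_def, Fin.le_def]
  simp only
  omega

theorem leftEnd_last {k : ℕ} (w : Fin k → ℝ) (i : Fin k) (h : ¬ i.val + 1 < k) :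
    leftEnd w i + w i = ∑ l, w l := by
  rw [leftEnd_add]
  refine sum_congr rfl fun l _ => if_pos ?_
  rw [Fin.le_def]
  have := l.2
  omega

theorem vs_flist {k : ℕ} (w hv : Fin k → ℝ) :
    vs (flist w hv) = ∑ l : Fin k, if l.val + 1 = k then hv l else 0 := by
  have h := abel_incr hv fun _ => 1
  simp only [mul_one] at h
  rw [vs, sum_flist, h]
  refine sum_congr rfl fun i _ => ?_
  rw [sum_succ_ite i fun _ => 1]
  have := i.2
  by_cases h1 : i.val + 1 < k
  · rw [dif_pos h1, if_neg (by omega)]; simp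
  · rw [dif_neg h1, if_pos (by omega)]; simp

theorem fieldValueAt_eq {k : ℕ} (b : ℝ) (w hv : Fin k → ℝ) :
    fieldValueAt b w hv = ell (flist w hv) b := by
  rw [ell, vs_flist, fieldValueAt, Phi, flist, List.foldr_map]
  rfl

theorem stepFn_eq {k : ℕ} {w hv : Fin k → ℝ} (h : IsStepField w hv) {s : ℝ} (hs : s ≤ 1) :
    stepFn w hv s = ∑ l, increment hv l * if leftEnd w l < s then 1 else 0 := by
  rw [abel_incr, stepFn]
  refine sum_congr rfl fun i _ => ?_
  rw [sum_succ_ite i fun l => if leftEnd w l < s then 1 else 0]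
  have hw := h.2.1 i
  by_cases h1 : i.val + 1 < k
  · rw [dif_pos h1, leftEnd_succ]
    by_cases h2 : leftEnd w i < s
    · by_cases h3 : s ≤ leftEnd w i + w i
      · simp [h2, h3, not_lt.2 h3]
      · simp [h2, h3, not_le.1 h3]
    · have : ¬ leftEnd w i + w i < s := by push Not at h2 ⊢; linarith
      simp [h2, this]
  · rw [dif_neg h1, leftEnd_last w i h1, h.2.2.1]
    by_cases h2 : leftEnd w i < s <;> simp [h2, hs]

theorem leftEnd_nonneg {k : ℕ} {w hv : Fin k → ℝ} (h : IsStepField w hv) (i : Fin k) :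
    0 ≤ leftEnd w i :=
  sum_nonneg fun l _ => by split_ifs; exacts [(h.2.1 l).le, le_rfl]

theorem leftEnd_lt {k : ℕ} {w hv : Fin k → ℝ} (h : IsStepField w hv) (i : Fin k) :
    leftEnd w i < 1 := by
  have h1 : leftEnd w i + w i ≤ 1 := by
    rw [leftEnd_add, ← h.2.2.1]
    exact sum_le_sum fun l _ => by split_ifs; exacts [le_rfl, (h.2.1 l).le]
  linarith [h.2.1 i]

theorem increment_nonneg {k : ℕ} {w hv : Fin k → ℝ} (h : IsStepField w hv) (i : Fin k) :
    0 ≤ increment hv i := by
  rw [increment, sub_nonneg]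
  by_cases h0 : i.val = 0
  · rw [sum_eq_zero fun l _ => if_neg (by omega)]
    exact h.2.2.2.2 i
  · have := i.2
    rw [sum_eq_single ⟨i.val - 1, by omega⟩]
    · rw [if_pos (by simp only; omega)]
      exact h.2.2.2.1 (by rw [Fin.le_def]; simp)
    · intro l _ hl
      exact if_neg fun h' => hl (Fin.ext (by simp only; omega))
    · simp

theorem adm_flist {k : ℕ} {w hv : Fin k → ℝ} (h : IsStepField w hv) : Adm (flist w hv) := by
  intro p hp
  obtain ⟨i, -, rfl⟩ := List.mem_map.1 hp
  exact ⟨leftEnd_nonneg h i, (leftEnd_lt h i).le, increment_nonneg h i⟩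

theorem srt_flist {k : ℕ} {w hv : Fin k → ℝ} (h : IsStepField w hv) : Srt (flist w hv) := by
  unfold Srt flist
  rw [List.pairwise_map]
  refine (List.pairwise_lt_finRange k).imp fun {i j} hij => ?_
  simp only [leftEnd]
  refine sum_le_sum fun l _ => ?_
  by_cases h1 : l < i
  · rw [if_pos h1, if_pos (h1.trans hij)]
  · rw [if_neg h1]
    split_ifs
    exacts [(h.2.1 l).le, le_rfl]

theorem int_stepFn {k : ℕ} {w hv : Fin k → ℝ} (h : IsStepField w hv) {q : ℝ → ℝ} (hq : IsTrialPath q) :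
    ∫ s in Set.Ioo (0 : ℝ) 1, q s * stepFn w hv s =
      ((flist w hv).map fun p => p.2 * tail q p.1).sum := by
  rw [sum_flist]
  have e : ∫ s in Set.Ioo (0 : ℝ) 1, q s * stepFn w hv s = ∫ s in Set.Ioo (0 : ℝ) 1,
      ∑ l, increment hv l * (Set.Ioi (leftEnd w l)).indicator q s := by
    refine setIntegral_congr_fun measurableSet_Ioo fun s hs => ?_
    rw [stepFn_eq h hs.2.le, mul_sum]
    refine sum_congr rfl fun l _ => ?_
    by_cases h1 : leftEnd w l < s <;> simp [h1, Set.indicator, mul_comm]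
  rw [e, integral_finset_sum _ fun l _ =>
    (Integrable.indicator (trial_int hq) measurableSet_Ioi).const_mul _]
  refine sum_congr rfl fun l _ => ?_
  rw [integral_const_mul, setIntegral_indicator measurableSet_Ioi, Set.Ioo_inter_Ioi,
    max_eq_right (leftEnd_nonneg h l), tail]

theorem ecoe_sum {ι : Type*} (s : Finset ι) (F : ι → ℝ) :
    ((∑ i ∈ s, F i : ℝ) : EReal) = ∑ i ∈ s, (F i : EReal) := by
  classical
  induction s using Finset.induction_on with
  | empty => simp
  | insert a s ha ih => rw [sum_insert ha, sum_insert ha, EReal.coe_add, ih]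

theorem cfv_eq {k : ℕ} {w hv : Fin k → ℝ} (h : IsStepField w hv) (hm : |m| < 1) :
    constrainedFieldValue m w hv = (ellm (flist w hv) m : ℝ) := by
  obtain ⟨b, hb, -⟩ := exists_min (adm_flist h) hm
  unfold constrainedFieldValue
  simp only [fieldValueAt_eq]
  refine le_antisymm ((iInf_le _ b).trans (by rw [hb])) (le_iInf fun c => ?_)
  exact EReal.coe_le_coe_iff.2 (ellm_le (adm_flist h) hm c)

theorem gfv_eq {J k : ℕ} (γ m : Fin J → ℚ) (hm : ∀ j, |(m j : ℝ)| < 1) {w hv : Fin k → ℝ}
    (h : IsStepField w hv) :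
    groupFieldValue γ m w hv = ((∑ j, (γ j : ℝ) * ellm (flist w hv) (m j) : ℝ) : EReal) := by
  rw [groupFieldValue, ecoe_sum]
  exact sum_congr rfl fun j _ => by rw [cfv_eq h (hm j), EReal.coe_mul]

theorem sum_fin_lt {k : ℕ} (i : Fin k) (F : ℕ → ℝ) :
    (∑ l : Fin k, if l < i then F l.val else 0) = ∑ l ∈ range i.val, F l := by
  have e : (∑ l : Fin k, if l < i then F l.val else 0) =
      ∑ l : Fin k, (fun l : ℕ => if l < i.val then F l else 0) l.val := rfl
  rw [e, Fin.sum_univ_eq_sum_range (fun l : ℕ => if l < i.val then F l else 0), ← sum_filter]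
  congr 1
  ext l
  have := i.2
  simp only [mem_filter, mem_range]
  omega

theorem field_list {k : ℕ} {w hv : Fin k → ℝ} (h : IsStepField w hv) :
    ∃ L : List (ℝ × ℝ), Adm L ∧ Srt L ∧ (∀ p ∈ L, p.1 < 1) ∧ (∀ b, fieldValueAt b w hv = ell L b) ∧
      ∀ q : ℝ → ℝ, IsTrialPath q →
        ∫ s in Set.Ioo (0 : ℝ) 1, q s * stepFn w hv s = (L.map fun p => p.2 * tail q p.1).sum := by
  refine ⟨flist w hv, adm_flist h, srt_flist h, fun p hp => ?_, fun b => fieldValueAt_eq b w hv,
    fun q hq => int_stepFn h hq⟩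
  obtain ⟨i, -, rfl⟩ := List.mem_map.1 hp
  exact leftEnd_lt h i

theorem centropy_le {J : ℕ} (γ m : Fin J → ℚ) (hm : ∀ j, |(m j : ℝ)| < 1) {q : ℝ → ℝ} (hq : IsTrialPath q)
    {S : ℝ} (h : ∀ L : List (ℝ × ℝ), Adm L → Srt L → (∀ p ∈ L, p.1 < 1) →
      ∑ j, (γ j : ℝ) * ellm L (m j) + (1 / 2) * (L.map fun p => p.2 * tail q p.1).sum ≤ S) :
    constrainedEntropyPart γ m q ≤ (S : EReal) := by
  refine iSup_le fun k => iSup_le fun w => iSup_le fun hv => iSup_le fun hs => ?_
  rw [gfv_eq γ m hm hs, int_stepFn hs hq, ← EReal.coe_add, EReal.coe_le_coe_iff]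
  refine h _ (adm_flist hs) (srt_flist hs) fun p hp => ?_
  obtain ⟨i, -, rfl⟩ := List.mem_map.1 hp
  exact leftEnd_lt hs i

theorem le_centropy {J : ℕ} (γ m : Fin J → ℚ) (hm : ∀ j, |(m j : ℝ)| < 1) {q : ℝ → ℝ} (hq : IsTrialPath q)
    (G : Grid) {ϖ : ℝ} (hG : G.Unif ϖ) {v : ℕ → ℝ} (hv : ∀ i ∈ Ico 1 (G.n - 1), 0 ≤ v i) :
    ((∑ j, (γ j : ℝ) * ellm (G.gl v) (m j) +
      (1 / 2) * ∑ l ∈ Ico 1 (G.n - 1), v l * tail q (G.ζ l) : ℝ) : EReal) ≤
      constrainedEntropyPart γ m q := by
  have h3 := G.three_le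
  obtain ⟨k, hk⟩ : ∃ k, G.n = k + 2 := ⟨G.n - 2, by omega⟩
  let ζ' : ℕ → ℝ := fun i => if i = 0 then 0 else G.ζ i
  let v' : ℕ → ℝ := fun i => if i = 0 then 0 else v i
  let w : Fin (k + 1) → ℝ := fun i => ζ' (i.val + 1) - ζ' i.val
  let hh : Fin (k + 1) → ℝ := fun i => ∑ l ∈ range (i.val + 1), v' l
  have hv' : ∀ l, l < k + 1 → 0 ≤ v' l := fun l hl => by
    simp only [v']
    split_ifs with h0
    · exact le_rfl
    · exact hv l (mem_Ico.2 ⟨by omega, by omega⟩)
  have hle : ∀ i, leftEnd w i = ζ' i.val := fun i => by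
    rw [leftEnd, sum_fin_lt i fun l => ζ' (l + 1) - ζ' l, sum_range_sub]
    simp [ζ']
  have hinc : ∀ i, increment hh i = v' i.val := fun i => by
    rw [increment]
    by_cases h0 : i.val = 0
    · rw [sum_eq_zero fun l _ => if_neg (by omega)]
      simp [hh, h0]
    · have := i.2
      rw [sum_eq_single ⟨i.val - 1, by omega⟩]
      · rw [if_pos (by simp only; omega)]
        simp only [hh]
        rw [show i.val - 1 + 1 = i.val by omega, sum_range_succ]
        ring
      · intro l _ hl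
        exact if_neg fun h' => hl (Fin.ext (by simp only; omega))
      · simp
  have hs : IsStepField w hh := by
    refine ⟨by omega, fun i => ?_, ?_, fun i j hij => ?_, fun i => ?_⟩
    · simp only [w, ζ']
      rw [if_neg (by omega)]
      split_ifs with h0
      · simpa using G.pos _
      · have h1 := hG.2 (i.val + 1) (by omega) (by have := i.2; omega)
        rw [Grid.w, add_tsub_cancel_right] at h1
        rw [h1]
        exact hG.1
    · rw [Fin.sum_univ_eq_sum_range (fun l => ζ' (l + 1) - ζ' l), sum_range_sub]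
      have := G.top
      rw [hk] at this
      simpa [ζ'] using this
    · refine sum_le_sum_of_subset_of_nonneg (range_mono (by have : i.val ≤ j.val := hij; omega))
        fun l hl _ => hv' l ?_
      have := j.2
      rw [mem_range] at hl
      omega
    · exact sum_nonneg fun l hl => hv' l (by have := i.2; rw [mem_range] at hl; omega)
  have hL : flist w hh = (0, 0) :: G.gl v := by
    rw [flist, List.finRange_succ, List.map_cons, List.map_map, hle, hinc, Grid.gl, Grid.glFrom, hk]
    congr 1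
    refine List.ext_getElem (by simp) fun i h1 h2 => ?_
    simp [hle, hinc, ζ', v', add_comm]
  have e1 : ∀ x, ellm ((0, 0) :: G.gl v) x = ellm (G.gl v) x := fun x => by
    simp only [ellm, ell, Phi_cons, gaussOp_zero_var, vs_cons, zero_add]
  refine le_trans (le_of_eq ?_) (le_iSup₂_of_le (k + 1) w (le_iSup₂_of_le hh hs le_rfl))
  rw [gfv_eq γ m hm hs, int_stepFn hs hq, ← EReal.coe_add, hL, List.map_cons, List.sum_cons, G.sum_gl]
  simp only [e1, zero_mul, zero_add]

theorem magnetic_zero (μ : Measure ℝ) (hi : ℝ) :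
    magneticValue μ hi (fun _ : Fin 1 => (0 : ℝ)) (fun _ => 1) = variationalValue μ hi := by
  have key : ∀ (m : Fin 1 → ℚ) {k : ℕ} (w hv : Fin k → ℝ),
      groupFieldValue (fun _ => 1) m w hv = constrainedFieldValue (m 0) w hv := by
    intro m k w hv
    simp [groupFieldValue]
  refine le_antisymm (iSup₂_le fun m _ => ?_) (le_iSup₂_of_le (fun _ => 0) (fun _ => by norm_num) ?_)
  · simp only [mul_zero, zero_mul, sum_const_zero, EReal.coe_zero, zero_add]
    refine iInf₂_mono fun p _ => add_le_add ?_ le_rfl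
    refine iSup_mono fun k => iSup_mono fun w => iSup_mono fun hv => iSup_mono fun _ => ?_
    rw [key, EReal.coe_add]
    refine add_le_add ((iInf_le _ 0).trans (le_of_eq ?_)) le_rfl
    rw [zero_mul, sub_zero]
    rfl
  · simp only [mul_zero, zero_mul, sum_const_zero, EReal.coe_zero, zero_add]
    refine iInf₂_mono fun p _ => add_le_add ?_ le_rfl
    refine iSup_mono fun k => iSup_mono fun w => iSup_mono fun hv => iSup_mono fun hs => ?_
    rw [key, EReal.coe_add]
    refine add_le_add (le_of_eq ?_) le_rfl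
    have h0 : |(((0 : ℚ) : ℝ))| < 1 := by simp
    obtain ⟨b, hb, -, hb0, -⟩ := exists_min (adm_flist hs) h0
    rw [cfv_eq hs h0, hb, hb0 (by simp), zero_mul, sub_zero, ← fieldValueAt_eq]
    rfl

end Crest.Agent.R164
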