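import Crest.Agent.R164.Sys

/-!
Row 164, task R164-Pin: small second differences pin the overlaps of the probe block `T` and give purity.

PLAN.  `N = card ι`, `q_k = Σ_{j∈T} (EE k x_j)² / |T| ∈ [0, ā]`, `q_k ≤ EE k q_{k+1}` (Jensen), `ρ = (e + log 2/y)/(σ umin |T|)`.
`Sec.det` for `dirL` (level `n`): `E0 |q_n - a_n| ≤ 2ρ`; for `dirU l` (level `l`, `Ham_dirU`, `EE_fieldX`):
`E0 |Z_l - (a_n - tl a l)| ≤ ρ` with `Z_l = EE l q_n - Σ_{k∈Ioo l n} w_k EE l q_k`.  Since `EE l Z_{l+1} - Z_l = ϖ EE l q_{l+1}` (`l+1 ≤ n-2`) and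
`EE l q_n - Z_l = ϖ EE l q_{n-1}` (`l = n-2`): `E0 |EE (k-1) q_k - a_k| ≤ 3ρ/ϖ` for `2 ≤ k ≤ n-1`, hence
`E0 |q_k - a_k| = 2 E0 (q_k - a_k)_+ - E0 (q_k - a_k) ≤ 2 (a_{k+1} - a_k) + 9ρ/ϖ`.
Purity (`purity`): `Shift.pure` for `shiftX v` at level `k`, `φ = uT k * xl v`; with `Ê = EE k |m_{k+1} - m_k|²` (all coordinates of `T`):
`c² ≤ |v|² Ê (|v|²/u² + c)` for `c = chi k (xl v) (xl v)`, so `c ≤ |v|² (2Ê + 1/u²)`, `chi_ge`.  Take `Pur = min N ((2Ê + 1/umin²)/y)`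
for `k ≤ n-2`, `Pur = N` for `k = n-1`; `Σ_k E0 Ê_k ≤ N` (`sum_incr`).  `EE k (qq k - q_k)² ≤ |m_k|² Pur/|T|²` (freeze the vector `m_k` at the node: `Tree.loc`
or expand the quadratic form with `Ex_mul_dep`).  `δ_k² = 2 ā² E0 Pur/N + 2 ā E0|q_k - a_k|`, Cauchy-Schwarz `Σ w δ ≤ (Σ w δ²)^(1/2)`; one gets
`Δ ≤ 10 ā √(ϖ/y + 1/(y umin² N) + n ρ)`; finally choose `η'`.
-/

set_option autoImplicit false

namespace Crest.Agent.R164

open MeasureTheory Finset Matrix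

variable {ι : Type} [Fintype ι] [DecidableEq ι]

/-- overlap between a replica and the node at level `k`, in the block `T` -/
noncomputable def qq (G : Grid) (ν : ProbabilityMeasure (OG ι)) (S : Sys ι) (T : Finset ι) (k : ℕ)
    (ω : Pth ι) : ℝ := (∑ j ∈ T, xx G j ω * EE G ν S k (xx G j) ω) / T.card

noncomputable def aOf (G : Grid) (ν : ProbabilityMeasure (OG ι)) (S : Sys ι) (T : Finset ι) (i : ℕ) : ℝ :=
  if i ≤ 1 then 0 else (∑ j ∈ T, ov G ν S (xx G j) (xx G j) i) / T.card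

def KH (G : Grid) (ν : ProbabilityMeasure (OG ι)) (S : Sys ι) (T : Finset ι) (a : ℕ → ℝ) (Δ : ℝ) : Prop :=
  ∃ δ : ℕ → ℝ, (∀ k, 0 ≤ δ k) ∧ G.nrm δ ≤ Δ ∧
    (∀ k, 2 ≤ k → k ≤ G.n → E0 G ν S (fun ω => (qq G ν S T k ω - a k) ^ 2) ≤ δ k ^ 2) ∧
    ∀ k, 2 ≤ k → k < G.n → ∃ Pur : Pth ι → ℝ, (tree G ν).Tame Pur ∧ (∀ ω, 0 ≤ Pur ω) ∧
      (∀ (v : ι → ℝ) (ω : Pth ι), (∀ i, i ∉ T → v i = 0) →
        EE G ν S k (fun ω => xl G v ω ^ 2) ω - EE G ν S k (xl G v) ω ^ 2 ≤ (v ⬝ᵥ v) * Pur ω) ∧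
      E0 G ν S (fun ω => Pur ω ^ 2) ≤ (T.card * δ k) ^ 2

/-- parameters of the perturbation on the probe block -/
structure PP where
  lT : ℝ
  uT : ℕ → ℝ
  ϖ : ℝ
  umin : ℝ
  σ : ℝ
  e : ℝ

structure Top (G : Grid) (S : Sys ι) (T : Finset ι) (lT : ℝ) (uT : ℕ → ℝ) : Prop where
  lam : ∀ i ∈ T, S.lam i = lT
  u : ∀ l ∈ Ico 1 (G.n - 1), ∀ i ∈ T, S.u l i = uT l

structure SecTop (G : Grid) (ν : ProbabilityMeasure (OG ι)) (S : Sys ι) (T : Finset ι) (uT a : ℕ → ℝ)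
    (σ e : ℝ) : Prop where
  lam : Sec G ν S (dirL (ind T)) (T.card * a G.n / 2) σ e
  u : ∀ l ∈ Ico 1 (G.n - 1), Sec G ν S (dirU l (ind T)) (uT l * (T.card * (a G.n - G.tl a l))) σ e

/-- numerical smallness conditions -/
structure Tiny (G : Grid) (P : PP) (nT : ℕ) (η' : ℝ) : Prop where
  unif : G.Unif P.ϖ
  ϖ_le : P.ϖ ≤ η'
  umin_pos : 0 < P.umin
  umin_le : ∀ l ∈ Ico 1 (G.n - 1), P.umin ≤ P.uT l
  big : 1 ≤ η' * P.umin ^ 2 * nT
  σ_pos : 0 < P.σ
  σ_le : P.σ ≤ 1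
  err : G.n * (P.e + 1 / η') ≤ η' * P.σ * P.umin * nT
  ξ : |P.lT| + ∑ l ∈ Ico 1 (G.n - 1), P.uT l ≤ η'

structure Pin (G : Grid) (ν : ProbabilityMeasure (OG ι)) (S : Sys ι) (T : Finset ι) (a : ℕ → ℝ) (ā : ℝ)
    (P : PP) (η' : ℝ) : Prop where
  top : Top G S T P.lT P.uT
  card : (Fintype.card ι : ℝ) ≤ ā * T.card
  path : G.IsPath a ā
  sec : SecTop G ν S T P.uT a P.σ P.e
  tiny : Tiny G P T.card η'

variable {G : Grid} {ν : ProbabilityMeasure (OG ι)} {S : Sys ι} {T : Finset ι} {a : ℕ → ℝ} {ā : ℝ}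

section wrap

variable {f g : Pth ι → ℝ}

private theorem tx (j : ι) : (tree G ν).Tame (xx G j) := (lin_xx j).tame

private theorem tE (hf : (tree G ν).Tame f) (k : ℕ) : (tree G ν).Tame (EE G ν S k f) :=
  Tree.tame_Ex (lin_Ham G ν S) hf k

private theorem E_add (hf : (tree G ν).Tame f) (hg : (tree G ν).Tame g) (k : ℕ) (ω : Pth ι) :
    EE G ν S k (fun ω => f ω + g ω) ω = EE G ν S k f ω + EE G ν S k g ω :=
  Tree.Ex_add (lin_Ham G ν S) hf hg k ω

private theorem E_sub (hf : (tree G ν).Tame f) (hg : (tree G ν).Tame g) (k : ℕ) (ω : Pth ι) :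
    EE G ν S k (fun ω => f ω - g ω) ω = EE G ν S k f ω - EE G ν S k g ω :=
  Tree.Ex_sub (lin_Ham G ν S) hf hg k ω

private theorem E_cmul (c : ℝ) (f : Pth ι → ℝ) (k : ℕ) (ω : Pth ι) :
    EE G ν S k (fun ω => c * f ω) ω = c * EE G ν S k f ω :=
  Tree.Ex_const_mul _ f c k ω

private theorem E_div (c : ℝ) (f : Pth ι → ℝ) (k : ℕ) (ω : Pth ι) :
    EE G ν S k (fun ω => f ω / c) ω = EE G ν S k f ω / c := by
  simp only [div_eq_inv_mul]
  exact E_cmul _ _ _ _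

private theorem t_div (hf : (tree G ν).Tame f) (c : ℝ) : (tree G ν).Tame fun ω => f ω / c := by
  simp only [div_eq_inv_mul]
  exact hf.const_mul _

private theorem E_sum {κ : Type} (s : Finset κ) {F : κ → Pth ι → ℝ} (h : ∀ i ∈ s, (tree G ν).Tame (F i))
    (k : ℕ) (ω : Pth ι) : EE G ν S k (fun ω => ∑ i ∈ s, F i ω) ω = ∑ i ∈ s, EE G ν S k (F i) ω :=
  Tree.Ex_sum (lin_Ham G ν S) s h k ω

private theorem E_const (c : ℝ) (k : ℕ) (ω : Pth ι) : EE G ν S k (fun _ => c) ω = c :=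
  Tree.Ex_const (lin_Ham G ν S) c k ω

private theorem E_mono (hf : (tree G ν).Tame f) (hg : (tree G ν).Tame g) (h : ∀ ω, f ω ≤ g ω) (k : ℕ)
    (ω : Pth ι) : EE G ν S k f ω ≤ EE G ν S k g ω :=
  Tree.Ex_mono (lin_Ham G ν S) hf hg h k ω

private theorem E_nonneg (h : ∀ ω, 0 ≤ f ω) (k : ℕ) (ω : Pth ι) : 0 ≤ EE G ν S k f ω :=
  Tree.Ex_nonneg _ h k ω

private theorem E_tower (f : Pth ι → ℝ) {l k : ℕ} (h : l ≤ k) (ω : Pth ι) :
    EE G ν S l (EE G ν S k f) ω = EE G ν S l f ω :=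
  Tree.Ex_tower (lin_Ham G ν S) f h ω

private theorem E_abs (hf : (tree G ν).Tame f) (k : ℕ) (ω : Pth ι) :
    |EE G ν S k f ω| ≤ EE G ν S k (fun ω => |f ω|) ω :=
  Tree.abs_Ex_le (lin_Ham G ν S) hf k ω

private theorem E_sq (hf : (tree G ν).Tame f) (k : ℕ) (ω : Pth ι) :
    EE G ν S k f ω ^ 2 ≤ EE G ν S k (fun ω => f ω ^ 2) ω :=
  Tree.sq_Ex_le (lin_Ham G ν S) hf k ω

private theorem E_top (f : Pth ι → ℝ) : EE G ν S G.n f = f :=
  Tree.Ex_of_le (T := tree G ν) le_rfl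

private theorem sum_E_sq (T : Finset ι) (k : ℕ) (ω : Pth ι) :
    ∑ j ∈ T, EE G ν S k (fun ω => xx G j ω ^ 2) ω ≤ Fintype.card ι := by
  refine (sum_le_univ_sum_of_nonneg fun j => E_nonneg (fun _ => sq_nonneg _) k ω).trans (le_of_eq ?_)
  rw [← E_sum univ fun j _ => (tx j).pow 2]
  simp only [sum_xx_sq]
  exact E_const _ _ _

private theorem sum_ind (T : Finset ι) (F : ι → ℝ) : ∑ i, ind T i * F i = ∑ i ∈ T, F i := by
  simp [ind, ite_mul, sum_ite_mem]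

private theorem xl_eq {v : ι → ℝ} (hv : ∀ i, i ∉ T → v i = 0) (ω : Pth ι) :
    xl G v ω = ∑ j ∈ T, v j * xx G j ω :=
  (sum_subset (subset_univ T) fun i _ hi => by rw [hv i hi, zero_mul]).symm

private theorem E_xl {v : ι → ℝ} (hv : ∀ i, i ∉ T → v i = 0) (k : ℕ) (ω : Pth ι) :
    EE G ν S k (xl G v) ω = ∑ j ∈ T, v j * EE G ν S k (xx G j) ω := by
  rw [show xl G v = fun ω => ∑ j ∈ T, v j * xx G j ω from funext (xl_eq hv),
    E_sum T fun j _ => (tx j).const_mul _]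
  exact sum_congr rfl fun j _ => E_cmul _ _ _ _

private theorem dot_eq {v : ι → ℝ} (hv : ∀ i, i ∉ T → v i = 0) : v ⬝ᵥ v = ∑ j ∈ T, v j ^ 2 := by
  rw [sum_subset (subset_univ T) (f := fun i => v i ^ 2) fun i _ hi => by rw [hv i hi]; simp]
  exact sum_congr rfl fun i _ => (sq _).symm

end wrap

theorem aOf_path (hT : T.Nonempty) (h : (Fintype.card ι : ℝ) ≤ ā * T.card) : G.IsPath (aOf G ν S T) ā := by
  have ht : (0 : ℝ) < T.card := by exact_mod_cast hT.card_pos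
  have h3 := G.three_le
  refine ⟨by simp [aOf], by simp [aOf], fun i _ => ?_, ?_⟩
  · unfold aOf
    split_ifs with h1 h2 h2
    · exact le_rfl
    · exact div_nonneg (sum_nonneg fun j _ => ov_nonneg _) ht.le
    · omega
    · exact div_le_div_of_nonneg_right (sum_le_sum fun j _ => ov_step (tx j) i) ht.le
  · unfold aOf
    rw [if_neg (by omega), div_le_iff₀ ht]
    refine le_trans ?_ h
    simp only [ov_top, ← sq]
    exact sum_E_sq T 0 pt0

theorem secTop_of_dif {lT σ e : ℝ} {uT : ℕ → ℝ} (hT : T.Nonempty) (htop : Top G S T lT uT)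
    (h1 : Dif G ν S (dirL (ind T)) σ ≤ e) (h2 : ∀ l ∈ Ico 1 (G.n - 1), Dif G ν S (dirU l (ind T)) σ ≤ e) :
    SecTop G ν S T uT (aOf G ν S T) σ e := by
  have ht : (0 : ℝ) < T.card := by exact_mod_cast hT.card_pos
  have h3 := G.three_le
  have hn : (T.card : ℝ) * aOf G ν S T G.n = ∑ j ∈ T, ov G ν S (xx G j) (xx G j) G.n := by
    unfold aOf
    rw [if_neg (by omega), mul_div_cancel₀ _ ht.ne']
  have h0 : E0 G ν S (fun _ => 0) = 0 := E_const _ _ _
  refine ⟨?_, fun l hl => ?_⟩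
  · convert sec_of_dif h1 using 1
    rw [E0_Ham, hn]
    simp only [dirL, sum_ind, h0, zero_mul, add_zero, sum_const_zero]
    ring
  · convert sec_of_dif (h2 l hl) using 1
    rw [E0_Ham, sum_eq_single_of_mem l hl fun l' _ hl' => by simp [dirU, hl']]
    simp only [dirU, h0, zero_mul, zero_add, sum_const_zero, mul_zero, if_true, mul_assoc, sum_ind]
    rw [sum_congr rfl fun i hi => by rw [htop.u l hl i hi], ← mul_sum]
    congr 1
    unfold Tst Grid.tl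
    rw [sum_sub_distrib, mul_sub, hn, sum_comm, mul_sum]
    congr 1
    refine sum_congr rfl fun k hk => ?_
    unfold aOf
    rw [if_neg (by have := (mem_Ioo.1 hk).1; have := (mem_Ico.1 hl).1; omega), ← mul_sum]
    field_simp

theorem Tiny.mono {P : PP} {nT : ℕ} {η' η'' : ℝ} (h : Tiny G P nT η'') (h0 : 0 < η'') (hle : η'' ≤ η') :
    Tiny G P nT η' := by
  have h1 := h.umin_pos
  have h2 := h.σ_pos
  refine ⟨h.unif, h.ϖ_le.trans hle, h1, h.umin_le, h.big.trans (by gcongr), h2, h.σ_le, ?_, h.ξ.trans hle⟩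
  calc (G.n : ℝ) * (P.e + 1 / η') ≤ G.n * (P.e + 1 / η'') := by gcongr
    _ ≤ _ := h.err
    _ ≤ _ := by gcongr

private theorem Tiny.u_le {P : PP} {nT : ℕ} {η' : ℝ} (h : Tiny G P nT η') {l : ℕ} (hl : l ∈ Ico 1 (G.n - 1)) :
    P.uT l ≤ η' := by
  have h1 := single_le_sum (f := P.uT) (fun l hl => h.umin_pos.le.trans (h.umin_le l hl)) hl
  have h2 := h.ξ
  have h3 := abs_nonneg P.lT
  linarith

private theorem Tiny.umin_le' {P : PP} {nT : ℕ} {η' : ℝ} (h : Tiny G P nT η') : P.umin ≤ η' := by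
  have hl : 1 ∈ Ico 1 (G.n - 1) := mem_Ico.2 ⟨le_rfl, by have := G.three_le; omega⟩
  exact (h.umin_le 1 hl).trans (h.u_le hl)

/-- slack in `Tiny` absorbs bounded errors -/
theorem tiny_slack {η' C : ℝ} (hη : 0 < η') (hC : 0 ≤ C) : ∃ η'' : ℝ, 0 < η'' ∧ η'' ≤ η' ∧
    ∀ (G : Grid) (P : PP) (nT nT' : ℕ), Tiny G P nT η'' → (nT : ℝ) ≤ nT' + C →
      Tiny G { P with e := P.e + C } nT' η' := by
  have hK : 0 < 2 * C + 1 + 2 / η' := by positivity
  have hinv : 0 < 1 / η' := by positivity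
  have e2 : 2 / η' = 2 * (1 / η') := by ring
  obtain ⟨x, hx, hx1⟩ : ∃ x : ℝ, 0 < x ∧ x * (2 * C + 1 + 2 / η') = 1 :=
    ⟨1 / (2 * C + 1 + 2 / η'), by positivity, by field_simp⟩
  have a1 : 2 * x ≤ η' := by
    have : x * (2 / η') ≤ 1 := by nlinarith
    rw [← mul_div_assoc, div_le_one hη] at this
    linarith
  have a2 : x * (2 * C + 1) ≤ 1 := by nlinarith [mul_pos hx (show 0 < 2 / η' by positivity)]
  have a3 : x ≤ 1 := by nlinarith
  have a4 : C + 1 / η' ≤ 1 / x := by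
    rw [le_div_iff₀ hx]
    nlinarith
  refine ⟨x, hx, by linarith, fun G P nT nT' h hn => ?_⟩
  have h1 := h.umin_pos
  have h2 := h.σ_pos
  have h3 := h.umin_le'
  have hT : (0 : ℝ) ≤ nT := Nat.cast_nonneg _
  have b1 : 1 ≤ x * nT := by
    refine h.big.trans ?_
    have : P.umin ^ 2 ≤ 1 := by nlinarith
    calc x * P.umin ^ 2 * nT ≤ x * 1 * nT := by gcongr
      _ = _ := by ring
  have b2 : 2 * C + 1 ≤ nT := le_of_mul_le_mul_left (a2.trans b1) hx
  have b3 : x * nT ≤ η' * nT' := by nlinarith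
  refine ⟨h.unif, h.ϖ_le.trans (by linarith), h1, h.umin_le, h.big.trans ?_, h2, h.σ_le, ?_,
    h.ξ.trans (by linarith)⟩
  · calc x * P.umin ^ 2 * nT = P.umin ^ 2 * (x * nT) := by ring
      _ ≤ P.umin ^ 2 * (η' * nT') := by gcongr
      _ = _ := by ring
  · calc (G.n : ℝ) * (P.e + C + 1 / η') ≤ G.n * (P.e + 1 / x) :=
        mul_le_mul_of_nonneg_left (by linarith) (Nat.cast_nonneg _)
      _ ≤ _ := h.err
      _ = P.σ * P.umin * (x * nT) := by ring
      _ ≤ P.σ * P.umin * (η' * nT') := by gcongr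
      _ = _ := by ring

/-- transfer of pinning to a system whose free energy is close -/
theorem pin_transfer {η' C ā : ℝ} (hη : 0 < η') (hC : 0 ≤ C) : ∃ η'' : ℝ, 0 < η'' ∧ η'' ≤ η' ∧ ∃ C' : ℝ, C ≤ C' ∧
    ∀ (ι ι' : Type) [Fintype ι] [DecidableEq ι] [Fintype ι'] [DecidableEq ι'] (G : Grid)
      (ν : ProbabilityMeasure (OG ι)) (ν' : ProbabilityMeasure (OG ι')) (S : Sys ι) (S' : Sys ι')
      (T : Finset ι) (T' : Finset ι') (a : ℕ → ℝ) (P : PP) (c : ℝ),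
      Pin G ν S T a ā P η'' → Top G S' T' P.lT P.uT → (Fintype.card ι' : ℝ) ≤ ā * T'.card →
      |(T.card : ℝ) - T'.card| ≤ C →
      (∀ t ∈ ({0, P.σ, -P.σ} : Set ℝ),
        |phi G ν' (S'.add (dirL (ind T')) t) - phi G ν (S.add (dirL (ind T)) t) - c| ≤ C ∧
        ∀ l ∈ Ico 1 (G.n - 1),
          |phi G ν' (S'.add (dirU l (ind T')) t) - phi G ν (S.add (dirU l (ind T)) t) - c| ≤ C) →
      Pin G ν' S' T' a ā { P with e := P.e + 3 * C' } η' := by
  have hC' : C ≤ C + C * |ā| := le_add_of_nonneg_right (by positivity)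
  obtain ⟨η'', h0, h1, h2⟩ := tiny_slack (η' := min η' 1) (C := 3 * (C + C * |ā|)) (by positivity) (by positivity)
  refine ⟨η'', h0, h1.trans (min_le_left _ _), C + C * |ā|, hC', ?_⟩
  intro ι ι' _ _ _ _ G ν ν' S S' T T' a P c hp htop hcard hT hphi
  have hz : ∀ (κ : Type) [Fintype κ] [DecidableEq κ] (R D : Sys κ), R.add D 0 = R := by
    intro κ _ _ R D
    simp [Sys.add]
  have p0 := (hphi 0 (by simp)).1
  rw [hz, hz] at p0
  have p1 := hphi P.σ (by simp)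
  have p2 := hphi (-P.σ) (by simp)
  have hσ : |P.σ| ≤ 1 := by rw [abs_of_pos hp.tiny.σ_pos]; exact hp.tiny.σ_le
  have key : ∀ u b : ℝ, |u| ≤ 1 → b ∈ Set.Icc 0 ā → |P.σ * (u * (T.card * b) - u * (T'.card * b))| ≤ C + C * |ā| := by
    intro u b hu hb
    have hb' : |b| ≤ |ā| := by rw [abs_of_nonneg hb.1]; exact hb.2.trans (le_abs_self _)
    calc |P.σ * (u * (T.card * b) - u * (T'.card * b))| = |P.σ| * (|u| * (|(T.card : ℝ) - T'.card| * |b|)) := by
          rw [← abs_mul, ← abs_mul, ← abs_mul]; congr 1; ring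
      _ ≤ 1 * (1 * (C * |ā|)) := by gcongr
      _ ≤ _ := by linarith
  refine ⟨htop, hcard, hp.path, ⟨?_, fun l hl => ?_⟩, ?_⟩
  · refine hp.sec.lam.transfer (p0.trans hC') (p1.1.trans hC') (p2.1.trans hC') ?_
    have := key (1 / 2) (a G.n) (by norm_num [abs_le]) (hp.path.mem le_rfl)
    convert this using 3
    ring
  · refine (hp.sec.u l hl).transfer (p0.trans hC') ((p1.2 l hl).trans hC') ((p2.2 l hl).trans hC') ?_
    refine key _ _ ?_ (hp.path.T_mem l)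
    rw [abs_of_nonneg (hp.tiny.umin_pos.le.trans (hp.tiny.umin_le l hl))]
    exact (hp.tiny.u_le hl).trans (h1.trans (min_le_right _ _))
  · refine (h2 G P T.card T'.card hp.tiny ?_).mono (by positivity) (min_le_left _ _)
    have := (abs_le.1 hT).2
    linarith

theorem purity {lT : ℝ} {uT : ℕ → ℝ} (htop : Top G S T lT uT) {k : ℕ} (hk : k ∈ Ico 1 (G.n - 1))
    (hu : 0 < uT k) {v : ι → ℝ} (hv : ∀ i, i ∉ T → v i = 0) (ω : Pth ι) :
    EE G ν S k (fun ω => xl G v ω ^ 2) ω - EE G ν S k (xl G v) ω ^ 2 ≤ (v ⬝ᵥ v) *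
      ((2 * ∑ j ∈ T, EE G ν S k (fun ω => (EE G ν S (k + 1) (xx G j) ω - EE G ν S k (xx G j) ω) ^ 2) ω +
        1 / uT k ^ 2) / G.ζ 0) := by
  obtain ⟨hk1, hk2⟩ := mem_Ico.1 hk
  have hφ : ∀ ω, ∑ i, ((uT k)⁻¹ • v) i * S.u k i * xx G i ω = xl G v ω := by
    intro ω
    refine sum_congr rfl fun i _ => ?_
    by_cases hi : i ∈ T
    · rw [htop.u k hk i hi, Pi.smul_apply, smul_eq_mul, mul_comm (uT k)⁻¹, inv_mul_cancel_right₀ hu.ne']
      rfl
    · simp [hv i hi]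
  have h1 := (shiftX G ν ((uT k)⁻¹ • v)).pure (l := k) (show k < G.n by omega) (lin_Ham G ν S) (lin_xl v)
    (fun t ω => by rw [Ham_shiftX hk, hφ]) (fun t ω => by
      unfold xl xv sb Tree.Shift.on
      rw [Function.update_of_ne (by omega), Function.update_of_ne (by omega)]) ω
  have h2 := Tree.chi_ge (lin_Ham G ν S) (lin_xl (G := G) (ν := ν) v).tame k ω
  have h3 := Tree.chi_nonneg (lin_Ham G ν S) (lin_xl (G := G) (ν := ν) v).tame k ω
  have hκ : (shiftX G ν ((uT k)⁻¹ • v)).κ = (v ⬝ᵥ v) * (1 / uT k ^ 2) := by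
    change ((uT k)⁻¹ • v) ⬝ᵥ ((uT k)⁻¹ • v) = _
    rw [smul_dotProduct, dotProduct_smul, smul_eq_mul, smul_eq_mul]
    field_simp
  rw [hκ] at h1
  set c := (tree G ν).chi (Ham G S) k (xl G v) (xl G v) ω
  set E := ∑ j ∈ T, EE G ν S k (fun ω => (EE G ν S (k + 1) (xx G j) ω - EE G ν S k (xx G j) ω) ^ 2) ω with hE
  have td : ∀ j, (tree G ν).Tame fun ω => (EE G ν S (k + 1) (xx G j) ω - EE G ν S k (xx G j) ω) ^ 2 :=
    fun j => ((tE (tx j) _).sub (tE (tx j) _)).pow 2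
  have hvv : 0 ≤ v ⬝ᵥ v := by rw [dot_eq hv]; positivity
  have hE0 : 0 ≤ E := sum_nonneg fun j _ => E_nonneg (fun _ => sq_nonneg _) _ _
  have h4 : EE G ν S k (fun ω' => (EE G ν S (k + 1) (xl G v) ω' - EE G ν S k (xl G v) ω') ^ 2) ω ≤
      (v ⬝ᵥ v) * E := by
    rw [hE, ← E_sum T fun j _ => td j, ← E_cmul]
    refine E_mono (((tE (lin_xl v).tame _).sub (tE (lin_xl v).tame _)).pow 2)
      ((Tree.Tame.sum T fun j _ => td j).const_mul _) (fun ω' => ?_) k ω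
    rw [E_xl hv, E_xl hv, ← sum_sub_distrib, dot_eq hv]
    simp only [← mul_sub]
    exact sum_mul_sq_le_sq_mul_sq T _ _
  have hB : 0 ≤ (v ⬝ᵥ v) * (1 / uT k ^ 2) := by positivity
  have h5 : c ^ 2 ≤ (v ⬝ᵥ v) * E * ((v ⬝ᵥ v) * (1 / uT k ^ 2) + c) :=
    h1.trans (mul_le_mul_of_nonneg_right h4 (by linarith))
  have h6 : c ≤ 2 * ((v ⬝ᵥ v) * E) + (v ⬝ᵥ v) * (1 / uT k ^ 2) := by
    have hA : 0 ≤ (v ⬝ᵥ v) * E := by positivity
    generalize (v ⬝ᵥ v) * E = A at *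
    generalize (v ⬝ᵥ v) * (1 / uT k ^ 2) = B at *
    by_contra hn
    push Not at hn
    nlinarith [mul_nonneg hA (show 0 ≤ c - B by linarith), mul_nonneg hB h3,
      mul_pos (show 0 < c by linarith) (show 0 < c - (2 * A + B) by linarith)]
  have h7 := E_sq (S := S) (lin_xl (G := G) (ν := ν) v).tame k ω
  have h8 : G.ζ 0 * (EE G ν S k (fun ω => xl G v ω ^ 2) ω - EE G ν S k (xl G v) ω ^ 2) ≤ c :=
    (mul_le_mul_of_nonneg_right (G.mono (Nat.zero_le k)) (by linarith)).trans h2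
  rw [← mul_div_assoc, le_div_iff₀ (G.pos 0)]
  linarith

private noncomputable def qk (G : Grid) (ν : ProbabilityMeasure (OG ι)) (S : Sys ι) (T : Finset ι) (k : ℕ)
    (ω : Pth ι) : ℝ := (∑ j ∈ T, EE G ν S k (xx G j) ω ^ 2) / T.card

private noncomputable def Zl (G : Grid) (ν : ProbabilityMeasure (OG ι)) (S : Sys ι) (T : Finset ι) (l : ℕ)
    (ω : Pth ι) : ℝ :=
  EE G ν S l (qk G ν S T G.n) ω - ∑ k ∈ Ioo l G.n, G.w k * EE G ν S l (qk G ν S T k) ω

private noncomputable def Eh (G : Grid) (ν : ProbabilityMeasure (OG ι)) (S : Sys ι) (T : Finset ι) (k : ℕ)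
    (ω : Pth ι) : ℝ :=
  ∑ j ∈ T, EE G ν S k (fun ω => (EE G ν S (k + 1) (xx G j) ω - EE G ν S k (xx G j) ω) ^ 2) ω

private theorem t_qk (k : ℕ) : (tree G ν).Tame (qk G ν S T k) :=
  t_div (Tree.Tame.sum T fun j _ => (tE (tx j) k).pow 2) _

private theorem t_Zl (l : ℕ) : (tree G ν).Tame (Zl G ν S T l) :=
  (tE (t_qk _) l).sub (Tree.Tame.sum _ fun k _ => (tE (t_qk k) l).const_mul _)

private theorem t_incr (k : ℕ) (j : ι) :
    (tree G ν).Tame fun ω => (EE G ν S (k + 1) (xx G j) ω - EE G ν S k (xx G j) ω) ^ 2 :=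
  ((tE (tx j) _).sub (tE (tx j) _)).pow 2

private theorem t_Eh (k : ℕ) : (tree G ν).Tame (Eh G ν S T k) := Tree.Tame.sum T fun j _ => tE (t_incr k j) k

private theorem Eh_nonneg (k : ℕ) (ω : Pth ι) : 0 ≤ Eh G ν S T k ω :=
  sum_nonneg fun _ _ => E_nonneg (fun _ => sq_nonneg _) _ _

private theorem t_qq (k : ℕ) : (tree G ν).Tame (qq G ν S T k) :=
  t_div (Tree.Tame.sum T fun j _ => (tx j).mul (tE (tx j) k)) _

private theorem E_qk (l k : ℕ) (ω : Pth ι) : EE G ν S l (qk G ν S T k) ω =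
    (∑ j ∈ T, EE G ν S l (fun ω => EE G ν S k (xx G j) ω ^ 2) ω) / T.card := by
  rw [← E_sum T fun j _ => (tE (tx j) k).pow 2, ← E_div]
  rfl

private theorem sum_m_sq (k : ℕ) (ω : Pth ι) : ∑ j ∈ T, EE G ν S k (xx G j) ω ^ 2 ≤ Fintype.card ι :=
  (sum_le_sum fun j _ => E_sq (tx j) k ω).trans (sum_E_sq T k ω)

private theorem qk_mem (ht : (0 : ℝ) < T.card) (h : (Fintype.card ι : ℝ) ≤ ā * T.card) (k : ℕ) (ω : Pth ι) :
    qk G ν S T k ω ∈ Set.Icc 0 ā :=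
  ⟨div_nonneg (sum_nonneg fun _ _ => sq_nonneg _) ht.le, (div_le_iff₀ ht).2 ((sum_m_sq k ω).trans h)⟩

private theorem qk_le_succ (k : ℕ) (ω : Pth ι) : qk G ν S T k ω ≤ EE G ν S k (qk G ν S T (k + 1)) ω := by
  rw [E_qk]
  refine div_le_div_of_nonneg_right (sum_le_sum fun j _ => ?_) (Nat.cast_nonneg _)
  rw [← E_tower (xx G j) (Nat.le_succ k)]
  exact E_sq (tE (tx j) _) k ω

private theorem E_dirL (ht : (0 : ℝ) < T.card) (ω : Pth ι) :
    EE G ν S G.n (Ham G (dirL (ind T))) ω = T.card / 2 * qk G ν S T G.n ω := by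
  unfold qk
  simp only [E_top]
  rw [Ham_dirL, sum_ind]
  field_simp

private theorem E_dirU {lT : ℝ} {uT : ℕ → ℝ} (htop : Top G S T lT uT) (ht : (0 : ℝ) < T.card) {l : ℕ}
    (hl : l ∈ Ico 1 (G.n - 1)) (ω : Pth ι) :
    EE G ν S l (Ham G (dirU l (ind T))) ω = uT l * T.card * Zl G ν S T l ω := by
  have hl' : l < G.n := by have := (mem_Ico.1 hl).2; omega
  rw [show Ham G (dirU l (ind T)) = fun ω => ∑ i ∈ T, gx l i ω * xx G i ω from
    funext fun ω => by rw [Ham_dirU hl, sum_ind], E_sum T fun i _ => (lin_gx hl' i).tame.mul (tx i),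
    sum_congr rfl fun i hi => by rw [EE_fieldX hl, htop.u l hl i hi], ← mul_sum, mul_assoc]
  congr 1
  unfold Zl
  simp only [E_qk, E_top]
  rw [sum_sub_distrib, mul_sub, mul_div_cancel₀ _ ht.ne', sum_comm, mul_sum]
  congr 1
  refine sum_congr rfl fun k _ => ?_
  rw [← mul_sum]
  field_simp

private theorem Zl_step {l : ℕ} (h : l + 1 < G.n) (ω : Pth ι) : EE G ν S l (Zl G ν S T (l + 1)) ω =
    Zl G ν S T l ω + G.w (l + 1) * EE G ν S l (qk G ν S T (l + 1)) ω := by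
  unfold Zl
  rw [E_sub (tE (t_qk _) _) (Tree.Tame.sum _ fun k _ => (tE (t_qk k) _).const_mul _),
    E_sum _ fun k _ => (tE (t_qk k) _).const_mul _, Grid.sum_Ioo_bot h]
  simp only [E_cmul, E_tower _ (Nat.le_succ l)]
  ring

private theorem E0_abs_E {f : Pth ι → ℝ} (hf : (tree G ν).Tame f) (c : ℝ) (l : ℕ) :
    E0 G ν S (fun ω => |EE G ν S l f ω - c|) ≤ E0 G ν S (fun ω => |f ω - c|) := by
  have tc := (hf.sub (Tree.Tame.const c))
  rw [← E0_EE (fun ω => |f ω - c|) l]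
  refine E_mono ((tE hf l).sub (Tree.Tame.const c)).abs (tE tc.abs l) (fun ω => ?_) 0 pt0
  have := E_abs (S := S) tc l ω
  rwa [E_sub hf (Tree.Tame.const c), E_const] at this

private theorem E0_scale {f : Pth ι → ℝ} {c z B : ℝ} (hc : 0 < c)
    (h : E0 G ν S (fun ω => |c * f ω - c * z|) ≤ B) : E0 G ν S (fun ω => |f ω - z|) ≤ B / c := by
  simp only [← mul_sub, abs_mul, abs_of_pos hc] at h
  rw [le_div_iff₀ hc, mul_comm]
  exact (E_cmul c _ 0 pt0).symm.le.trans h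

section main

variable {P : PP} {η' ρ : ℝ}

private theorem Pin.pos (h : Pin G ν S T a ā P η') : (0 : ℝ) < T.card := by
  have h1 := h.tiny.big
  by_contra hn
  have : (T.card : ℝ) = 0 := le_antisymm (not_lt.1 hn) (Nat.cast_nonneg _)
  rw [this] at h1
  linarith

/-- the basic error -/
private theorem Pin.rho (h : Pin G ν S T a ā P η') (h1 : η' ≤ G.ζ 0) : ∃ ρ : ℝ, 0 ≤ ρ ∧ G.n * ρ ≤ η' ∧
    E0 G ν S (fun ω => |qk G ν S T G.n ω - a G.n|) ≤ 2 * ρ ∧
    ∀ l ∈ Ico 1 G.n, E0 G ν S (fun ω => |Zl G ν S T l ω - (a G.n - G.tl a l)|) ≤ 2 * ρ := by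
  have ht := h.pos
  have hu := h.tiny.umin_pos
  have hσ := h.tiny.σ_pos
  have hy := G.pos 0
  have hη : 0 < η' := hu.trans_le h.tiny.umin_le'
  have he : 0 ≤ P.e := h.sec.lam.nonneg
  have hl2 : 0 ≤ Real.log 2 := Real.log_nonneg one_le_two
  have hl2' : Real.log 2 ≤ 1 := by have := Real.log_le_sub_one_of_pos (show (0 : ℝ) < 2 by norm_num); linarith
  set B := (P.e + Real.log 2 / G.ζ 0) / P.σ with hB
  have hB0 : 0 ≤ B := by positivity
  have hu1 : P.umin ≤ 1 := h.tiny.umin_le'.trans (h1.trans (G.le_one 0))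
  have a1 : E0 G ν S (fun ω => |qk G ν S T G.n ω - a G.n|) ≤ 2 * (B / (P.umin * T.card)) := by
    have h2 := h.sec.lam.det hσ G.n
    simp only [E_dirL ht] at h2
    rw [show T.card * a G.n / 2 = (T.card : ℝ) / 2 * a G.n by ring] at h2
    refine (E0_scale (by positivity) h2).trans ?_
    calc B / ((T.card : ℝ) / 2) = 2 * (B / (1 * T.card)) := by field_simp
      _ ≤ _ := by gcongr
  refine ⟨B / (P.umin * T.card), by positivity, ?_, a1, fun l hl => ?_⟩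
  · have h2 : Real.log 2 / G.ζ 0 ≤ 1 / η' := by gcongr
    calc (G.n : ℝ) * (B / (P.umin * T.card)) = G.n * (P.e + Real.log 2 / G.ζ 0) / (P.σ * P.umin * T.card) := by
          rw [hB]; field_simp
      _ ≤ G.n * (P.e + 1 / η') / (P.σ * P.umin * T.card) := by gcongr
      _ ≤ _ := by
          rw [div_le_iff₀ (by positivity)]
          exact h.tiny.err.trans (le_of_eq (by ring))
  · obtain ⟨hl1, hl2⟩ := mem_Ico.1 hl
    by_cases hl3 : l = G.n - 1
    · subst hl3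
      refine le_trans (le_of_eq ?_) ((E0_abs_E (t_qk G.n) (a G.n) (G.n - 1)).trans a1)
      simp only [Zl, Grid.tl_top, Grid.Ioo_top, sum_empty, sub_zero]
    · have hl' : l ∈ Ico 1 (G.n - 1) := mem_Ico.2 ⟨hl1, by omega⟩
      have h2 := (h.sec.u l hl').det hσ l
      have h3 := h.tiny.umin_le l hl'
      simp only [E_dirU h.top ht hl'] at h2
      rw [← mul_assoc] at h2
      refine (E0_scale (mul_pos (hu.trans_le h3) ht) h2).trans ?_
      have : B / (P.uT l * T.card) ≤ B / (P.umin * T.card) := by gcongr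
      have : 0 ≤ B / (P.umin * T.card) := by positivity
      linarith

private theorem cond_bound {ϖ : ℝ} (hU : G.Unif ϖ) (hϖ : ϖ ≤ 1) (hρ : 0 ≤ ρ)
    (h1 : E0 G ν S (fun ω => |qk G ν S T G.n ω - a G.n|) ≤ 2 * ρ)
    (h2 : ∀ l ∈ Ico 1 G.n, E0 G ν S (fun ω => |Zl G ν S T l ω - (a G.n - G.tl a l)|) ≤ 2 * ρ)
    {l : ℕ} (hl1 : 1 ≤ l) (hl2 : l < G.n) :
    ϖ * E0 G ν S (fun ω => |EE G ν S l (qk G ν S T (l + 1)) ω - a (l + 1)|) ≤ 4 * ρ := by
  have hϖ0 := hU.1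
  rcases (Nat.succ_le_of_lt hl2).eq_or_lt with e | hl3
  · rw [Nat.succ_eq_add_one] at e
    rw [e]
    have h3 := (E0_abs_E (t_qk G.n) (a G.n) l).trans h1
    have h4 := mul_le_mul hϖ h3 (E_nonneg (fun _ => abs_nonneg _) 0 pt0) zero_le_one
    linarith
  · rw [Nat.succ_eq_add_one] at hl3
    have h3 := (E0_abs_E (t_Zl (l + 1)) _ l).trans (h2 (l + 1) (mem_Ico.2 ⟨by omega, hl3⟩))
    have h4 := h2 l (mem_Ico.2 ⟨hl1, hl2⟩)
    have t1 := ((tE (S := S) (t_Zl (S := S) (T := T) (l + 1)) l).sub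
      (Tree.Tame.const (T := tree G ν) (a G.n - G.tl a (l + 1)))).abs
    have t2 := ((t_Zl (G := G) (ν := ν) (S := S) (T := T) l).sub (Tree.Tame.const (a G.n - G.tl a l))).abs
    have h5 := E_add (S := S) t1 t2 0 pt0
    unfold E0 at *
    rw [← E_cmul]
    refine le_trans (E_mono ((((tE (t_qk _) l).sub (Tree.Tame.const _)).abs).const_mul _) (t1.add t2)
      (fun ω => ?_) 0 pt0) (by linarith)
    rw [Zl_step hl3, Grid.tl_step hl3, hU.2 (l + 1) (by omega) hl3, ← abs_of_pos hϖ0, ← abs_mul, abs_of_pos hϖ0]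
    refine le_trans (le_of_eq ?_) (abs_sub _ _)
    congr 1
    ring

private theorem q_bound {ϖ : ℝ} (hU : G.Unif ϖ) (hϖ : ϖ ≤ 1) (hρ : 0 ≤ ρ) (hp : G.IsPath a ā)
    (h1 : E0 G ν S (fun ω => |qk G ν S T G.n ω - a G.n|) ≤ 2 * ρ)
    (h2 : ∀ l ∈ Ico 1 G.n, E0 G ν S (fun ω => |Zl G ν S T l ω - (a G.n - G.tl a l)|) ≤ 2 * ρ)
    {k : ℕ} (hk1 : 2 ≤ k) (hk2 : k < G.n) :
    ϖ * E0 G ν S (fun ω => |qk G ν S T k ω - a k|) ≤ 12 * ρ + 2 * ϖ * (a (k + 1) - a k) := by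
  have hϖ0 := hU.1
  obtain ⟨l, rfl⟩ : ∃ l, k = l + 1 := ⟨k - 1, by omega⟩
  have h3 := cond_bound hU hϖ hρ h1 h2 (l := l) (by omega) (by omega)
  have h4 := cond_bound hU hϖ hρ h1 h2 (l := l + 1) (by omega) hk2
  have hs := hp.step (l + 1) hk2
  have t0 := (t_qk (G := G) (ν := ν) (S := S) (T := T) (l + 1)).sub (Tree.Tame.const (a (l + 1)))
  have t1 := ((tE (S := S) (t_qk (S := S) (T := T) (l + 1 + 1)) (l + 1)).sub
    (Tree.Tame.const (T := tree G ν) (a (l + 1 + 1)))).abs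
  have t2 := (tE (S := S) (t_qk (S := S) (T := T) (l + 1)) l).sub (Tree.Tame.const (T := tree G ν) (a (l + 1)))
  have tc := Tree.Tame.const (T := tree G ν) (2 * (a (l + 1 + 1) - a (l + 1)))
  have h5 := E_mono (S := S) t0.abs (((t1.const_mul 2).add tc).sub t0) (fun ω => by
    have := qk_le_succ (G := G) (ν := ν) (S := S) (T := T) (l + 1) ω
    have := le_abs_self (EE G ν S (l + 1) (qk G ν S T (l + 1 + 1)) ω - a (l + 1 + 1))
    have := abs_nonneg (EE G ν S (l + 1) (qk G ν S T (l + 1 + 1)) ω - a (l + 1 + 1))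
    rw [abs_le]
    constructor <;> linarith) 0 pt0
  rw [E_sub ((t1.const_mul 2).add tc) t0, E_add (t1.const_mul 2) tc, E_cmul, E_const,
    E_sub (t_qk _) (Tree.Tame.const _), E_const] at h5
  have h6 := E_abs (S := S) t2 0 pt0
  rw [E_sub (tE (t_qk _) _) (Tree.Tame.const _), E_const, E_tower _ (Nat.zero_le l)] at h6
  have h7 := (abs_le.1 h6).1
  unfold E0 at *
  nlinarith [mul_le_mul_of_nonneg_left h5 hϖ0.le, mul_le_mul_of_nonneg_left h7 hϖ0.le]

private theorem dep_eq {E : Type} [MeasurableSpace E] {T : Tree E} {g : (ℕ → E) → ℝ} {l : ℕ} (hg : T.Dep l g)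
    (ω ω' : ℕ → E) (h : ∀ i, i < l ∨ T.n ≤ i → ω' i = ω i) : g ω' = g ω := by
  have key : ∀ d, ∀ ω' : ℕ → E, (∀ i, i < l ∨ l + d ≤ i ∨ T.n ≤ i → ω' i = ω i) → g ω' = g ω := by
    intro d
    induction d with
    | zero => exact fun ω' h => congrArg g (funext fun i => h i (by omega))
    | succ d ih =>
      intro ω' h
      by_cases hd : l + d < T.n
      · rw [← hg (l + d) (by omega) hd ω' (ω (l + d))]
        refine ih _ fun i hi => ?_
        by_cases e : i = l + d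
        · rw [e, Function.update_self]
        · rw [Function.update_of_ne e]
          exact h i (by omega)
      · exact ih _ fun i hi => h i (by omega)
  exact key T.n ω' fun i hi => h i (by omega)

private theorem freeze {k : ℕ} {Pur : Pth ι → ℝ} (h0 : ∀ ω, 0 ≤ Pur ω)
    (h : ∀ (v : ι → ℝ) (ω : Pth ι), (∀ i, i ∉ T → v i = 0) →
      EE G ν S k (fun ω => xl G v ω ^ 2) ω - EE G ν S k (xl G v) ω ^ 2 ≤ (v ⬝ᵥ v) * Pur ω) (ω : Pth ι) :
    EE G ν S k (fun ω => (qq G ν S T k ω - qk G ν S T k ω) ^ 2) ω ≤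
      Fintype.card ι / (T.card : ℝ) ^ 2 * Pur ω := by
  set v : ι → ℝ := fun j => if j ∈ T then EE G ν S k (xx G j) ω else 0 with hvdef
  have hv : ∀ i, i ∉ T → v i = 0 := fun i hi => if_neg hi
  have hv' : ∀ i ∈ T, v i = EE G ν S k (xx G i) ω := fun i hi => if_pos hi
  set c := EE G ν S k (xl G v) ω with hc
  have tl := (lin_xl (G := G) (ν := ν) v).tame
  have h1 : EE G ν S k (fun ω => (qq G ν S T k ω - qk G ν S T k ω) ^ 2) ω =
      EE G ν S k (fun ω' => (xl G v ω' ^ 2 - 2 * c * xl G v ω' + c ^ 2) / (T.card : ℝ) ^ 2) ω := by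
    refine (Tree.loc (T := tree G ν) k ω fun ω' hω' => ⟨rfl, ?_⟩).2
    have e : ∀ j, EE G ν S k (xx G j) ω' = EE G ν S k (xx G j) ω := fun j =>
      dep_eq (Tree.dep_Ex _ _ k) ω ω' hω'
    unfold qq qk
    simp only [e]
    rw [show xl G v ω' ^ 2 - 2 * c * xl G v ω' + c ^ 2 = (xl G v ω' - c) ^ 2 by ring, ← sub_div, div_pow, hc,
      E_xl hv, xl_eq hv]
    congr 3
    · exact sum_congr rfl fun j hj => by rw [hv' j hj, mul_comm]
    · exact sum_congr rfl fun j hj => by rw [hv' j hj, sq]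
  rw [h1, E_div, E_add ((tl.pow 2).sub (tl.const_mul _)) (Tree.Tame.const _), E_sub (tl.pow 2) (tl.const_mul _),
    E_cmul, E_const, ← hc, div_mul_eq_mul_div]
  refine div_le_div_of_nonneg_right ?_ (by positivity)
  have h2 := h v ω hv
  have h3 : v ⬝ᵥ v ≤ Fintype.card ι := by
    rw [dot_eq hv, sum_congr rfl fun j hj => by rw [hv' j hj]]
    exact sum_m_sq k ω
  have h4 := mul_le_mul_of_nonneg_right h3 (h0 ω)
  rw [← hc] at h2
  linarith

private theorem sum_Eh : ∑ k ∈ Ico 2 G.n, E0 G ν S (Eh G ν S T k) ≤ Fintype.card ι := by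
  have h1 : ∀ k, E0 G ν S (Eh G ν S T k) = ∑ j ∈ T,
      EE G ν S 0 (fun ω => (EE G ν S (k + 1) (xx G j) ω - EE G ν S k (xx G j) ω) ^ 2) pt0 := fun k =>
    (E_sum T (fun j _ => tE (t_incr k j) k) 0 pt0).trans (sum_congr rfl fun j _ => E_tower _ (Nat.zero_le k) _)
  simp only [h1]
  rw [sum_comm]
  refine le_trans (sum_le_sum fun j _ => ?_) (sum_E_sq (G := G) (ν := ν) (S := S) T 0 pt0)
  have h2 := Tree.sum_incr (lin_Ham G ν S) (tx (G := G) (ν := ν) j) 0 pt0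
  refine (sum_le_sum_of_subset_of_nonneg (Ico_subset_Ico_left (Nat.zero_le 2))
    fun k _ _ => E_nonneg (fun _ => sq_nonneg _) _ _).trans (h2.le.trans ?_)
  exact sub_le_self _ (sq_nonneg _)

private theorem sqrt_le_amgm {d θ : ℝ} (hd : 0 ≤ d) (hθ : 0 < θ) : √d ≤ θ / 2 + d / (2 * θ) := by
  rw [← sub_nonneg]
  have : θ / 2 + d / (2 * θ) - √d = (θ - √d) ^ 2 / (2 * θ) := by
    rw [sub_sq, Real.sq_sqrt hd]
    field_simp
    ring
  rw [this]
  positivity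

end main

theorem pin_KH {y ā η : ℝ} (hy : 0 < y) (hη : 0 < η) : ∃ η' : ℝ, 0 < η' ∧ η' ≤ η ∧
    ∀ (ι : Type) [Fintype ι] [DecidableEq ι] (G : Grid) (ν : ProbabilityMeasure (OG ι)) (S : Sys ι)
      (T : Finset ι) (a : ℕ → ℝ) (P : PP), G.ζ 0 = y → Pin G ν S T a ā P η' → KH G ν S T a η := by
  refine ⟨min η (min y (η ^ 2 * y / (200 * (ā ^ 2 + 1)))), by positivity, min_le_left _ _, ?_⟩
  intro ι _ _ G ν S T a P hy0 h
  set η' := min η (min y (η ^ 2 * y / (200 * (ā ^ 2 + 1)))) with hη'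
  have e1 : η' ≤ y := (min_le_right _ _).trans (min_le_left _ _)
  have e2 : η' * (200 * (ā ^ 2 + 1)) ≤ η ^ 2 * y :=
    (le_div_iff₀ (by positivity)).1 ((min_le_right _ _).trans (min_le_right _ _))
  have e0 : 0 < η' := by positivity
  clear_value η'
  have hy1 : y ≤ 1 := hy0 ▸ G.le_one 0
  have ht := h.pos
  have hU := h.tiny.unif
  have hϖ0 := hU.1
  have hϖ := h.tiny.ϖ_le
  have hu := h.tiny.umin_pos
  have h3 := G.three_le
  have hā : 0 ≤ ā := (h.path.mem le_rfl).1.trans h.path.top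
  obtain ⟨ρ, hρ0, hρ, c1, c2⟩ := h.rho (hy0 ▸ e1)
  set N : ℝ := (Fintype.card ι : ℝ) with hN
  have hN0 : 0 ≤ N := Nat.cast_nonneg _
  have hNt : N / T.card ≤ ā := (div_le_iff₀ ht).2 h.card
  let Pur : ℕ → Pth ι → ℝ := fun k ω =>
    if k < G.n - 1 then min N ((2 * Eh G ν S T k ω + 1 / P.umin ^ 2) / y) else N
  have tB : ∀ k, (tree G ν).Tame fun ω => (2 * Eh G ν S T k ω + 1 / P.umin ^ 2) / y := fun k =>
    t_div (((t_Eh k).const_mul 2).add (Tree.Tame.const _)) _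
  have tP : ∀ k, (tree G ν).Tame (Pur k) := fun k => by
    by_cases hk : k < G.n - 1
    · simp only [Pur, if_pos hk]
      exact (Tree.Tame.const _).min (tB k)
    · simp only [Pur, if_neg hk]
      exact Tree.Tame.const _
  have P0 : ∀ k ω, 0 ≤ Pur k ω := fun k ω => by
    have := Eh_nonneg (G := G) (ν := ν) (S := S) (T := T) k ω
    simp only [Pur]
    split_ifs
    · positivity
    · exact hN0
  have PN : ∀ k ω, Pur k ω ≤ N := fun k ω => by
    simp only [Pur]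
    split_ifs
    · exact min_le_left _ _
    · exact le_rfl
  have Pv : ∀ k, 2 ≤ k → ∀ (v : ι → ℝ) (ω : Pth ι), (∀ i, i ∉ T → v i = 0) →
      EE G ν S k (fun ω => xl G v ω ^ 2) ω - EE G ν S k (xl G v) ω ^ 2 ≤ (v ⬝ᵥ v) * Pur k ω := by
    intro k hk v ω hv
    have hvv : 0 ≤ v ⬝ᵥ v := by rw [dot_eq hv]; positivity
    have b1 : EE G ν S k (fun ω => xl G v ω ^ 2) ω - EE G ν S k (xl G v) ω ^ 2 ≤ (v ⬝ᵥ v) * N := by
      have := E_mono (S := S) ((lin_xl (G := G) (ν := ν) v).tame.pow 2) (Tree.Tame.const _) (xl_sq_le v) k ω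
      rw [E_const] at this
      exact (sub_le_self _ (sq_nonneg _)).trans this
    simp only [Pur]
    split_ifs with hk'
    · rw [mul_min_of_nonneg _ _ hvv]
      have hk'' : k ∈ Ico 1 (G.n - 1) := mem_Ico.2 ⟨by omega, hk'⟩
      have b2 := h.tiny.umin_le k hk''
      refine le_min b1 ((purity h.top hk'' (hu.trans_le b2) hv ω).trans ?_)
      rw [hy0]
      unfold Eh
      gcongr
    · exact b1
  have EP0 : ∀ k, 0 ≤ E0 G ν S (Pur k) := fun k => E_nonneg (P0 k) 0 pt0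
  let A : ℕ → ℝ := fun k => E0 G ν S fun ω => |qk G ν S T k ω - a k|
  have A0 : ∀ k, 0 ≤ A k := fun k => E_nonneg (fun _ => abs_nonneg _) 0 pt0
  have qA : ∀ k, k ≤ G.n → E0 G ν S (fun ω => (qk G ν S T k ω - a k) ^ 2) ≤ ā * A k := by
    intro k hk
    have t0 := (t_qk (G := G) (ν := ν) (S := S) (T := T) k).sub (Tree.Tame.const (a k))
    refine (E_mono (t0.pow 2) (t0.abs.const_mul ā) (fun ω => ?_) 0 pt0).trans (E_cmul _ _ _ _).le
    obtain ⟨b1, b2⟩ := qk_mem (G := G) (ν := ν) (S := S) ht h.card k ω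
    obtain ⟨b3, b4⟩ := h.path.mem hk
    rw [← sq_abs, sq]
    exact mul_le_mul_of_nonneg_right (abs_le.2 ⟨by linarith, by linarith⟩) (abs_nonneg _)
  let d : ℕ → ℝ := fun k => if k < G.n then 2 * (N / (T.card : ℝ) ^ 2 * E0 G ν S (Pur k)) + 2 * (ā * A k) else ā * A k
  have d0 : ∀ k, 0 ≤ d k := fun k => by
    have := EP0 k
    have := A0 k
    simp only [d]
    split_ifs <;> positivity
  refine ⟨fun k => √(d k), fun k => Real.sqrt_nonneg _, ?_, fun k hk1 hk2 => ?_, fun k hk1 hk2 =>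
    ⟨Pur k, tP k, P0 k, Pv k hk1, ?_⟩⟩
  · -- the norm
    have n1 : (1 : ℝ) ≤ G.n := by exact_mod_cast (by omega : 1 ≤ G.n)
    have hρ' : ρ ≤ η' := (le_mul_of_one_le_left hρ0 n1).trans hρ
    have e3 : η' * (200 * (ā ^ 2 + 1)) ≤ η ^ 2 := e2.trans (mul_le_of_le_one_right (sq_nonneg _) hy1)
    have f1 : √(d G.n) ≤ η / 2 := by
      refine Real.sqrt_le_iff.2 ⟨by positivity, ?_⟩
      simp only [d, lt_irrefl, if_false]
      have b1 : ā * A G.n ≤ ā * (2 * η') := mul_le_mul_of_nonneg_left (c1.trans (by linarith)) hā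
      nlinarith [mul_nonneg e0.le (sq_nonneg (ā - 1)), mul_nonneg e0.le (sq_nonneg ā)]
    have g1 : ∑ k ∈ Ico 2 G.n, E0 G ν S (Pur k) ≤ N + (2 * N + (G.n - 2) * (1 / P.umin ^ 2)) / y := by
      have b1 : ∀ k ∈ Ico 2 G.n, E0 G ν S (Pur k) ≤
          (if k = G.n - 1 then N else 0) + (2 * E0 G ν S (Eh G ν S T k) + 1 / P.umin ^ 2) / y := by
        intro k hk
        have b0 : 0 ≤ E0 G ν S (Eh G ν S T k) := E_nonneg (Eh_nonneg k) 0 pt0
        split_ifs with hk'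
        · have := E_mono (S := S) (tP k) (Tree.Tame.const N) (PN k) 0 pt0
          rw [E_const] at this
          exact this.trans (le_add_of_nonneg_right (by positivity))
        · have hk'' : k < G.n - 1 := by have := (mem_Ico.1 hk).2; omega
          have := E_mono (S := S) (tP k) (tB k) (fun ω => by simp only [Pur, if_pos hk'']; exact min_le_right _ _)
            0 pt0
          rw [E_div, E_add ((t_Eh k).const_mul 2) (Tree.Tame.const _), E_cmul, E_const] at this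
          rw [zero_add]
          exact this
      refine (sum_le_sum b1).trans ?_
      rw [sum_add_distrib, sum_ite_eq', ← sum_div, sum_add_distrib, ← mul_sum, sum_const, Nat.card_Ico,
        nsmul_eq_mul, Nat.cast_sub (by omega), Nat.cast_ofNat]
      have := sum_Eh (G := G) (ν := ν) (S := S) (T := T)
      split_ifs
      · gcongr
      · gcongr
    have g2 : P.ϖ * ∑ k ∈ Ico 2 G.n, A k ≤ 12 * η' + 2 * η' * ā := by
      rw [mul_sum]
      refine (sum_le_sum fun k hk => q_bound hU (hϖ.trans (e1.trans hy1)) hρ0 h.path c1 c2 (mem_Ico.1 hk).1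
        (mem_Ico.1 hk).2).trans ?_
      rw [sum_add_distrib, ← mul_sum, ← mul_sum, sum_Ico_sub _ (by omega : 2 ≤ G.n), sum_const, Nat.card_Ico,
        nsmul_eq_mul]
      have b1 : ((G.n - 2 : ℕ) : ℝ) ≤ G.n := by exact_mod_cast Nat.sub_le _ _
      have b2 := mul_le_mul_of_nonneg_right b1 hρ0
      have b3 := h.path.mem (i := 2) (by omega)
      have b4 : a G.n - a 2 ≤ ā := by linarith [h.path.top, b3.1]
      have b5 : 0 ≤ a G.n - a 2 := sub_nonneg.2 (h.path.mono (by omega) le_rfl)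
      have b6 : P.ϖ * (a G.n - a 2) ≤ η' * ā := mul_le_mul hϖ b4 b5 e0.le
      linarith
    have g3 : P.ϖ * (N / (T.card : ℝ) ^ 2 * ∑ k ∈ Ico 2 G.n, E0 G ν S (Pur k)) ≤ η' * (3 * ā ^ 2 + ā) / y := by
      have b1 : 1 / P.umin ^ 2 ≤ η' * T.card := by
        rw [div_le_iff₀ (by positivity)]
        exact h.tiny.big.trans (le_of_eq (by ring))
      have b2 := hU.mul_le
      have b3 : (0 : ℝ) ≤ G.n - 2 := by
        have : (2 : ℝ) ≤ G.n := by exact_mod_cast (by omega : 2 ≤ G.n)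
        linarith
      have b4 : N ≤ N / y := le_div_self hN0 hy hy1
      have b5 : 0 ≤ N / T.card := by positivity
      calc P.ϖ * (N / (T.card : ℝ) ^ 2 * ∑ k ∈ Ico 2 G.n, E0 G ν S (Pur k))
          ≤ P.ϖ * (N / (T.card : ℝ) ^ 2 * (N / y + (2 * N + (G.n - 2) * (η' * T.card)) / y)) := by
            gcongr
            refine g1.trans ?_
            gcongr
        _ = (3 * P.ϖ * (N / T.card) ^ 2 + ((G.n - 2) * P.ϖ) * (η' * (N / T.card))) / y := by
            field_simp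
            ring
        _ ≤ (3 * η' * ā ^ 2 + 1 * (η' * ā)) / y := by gcongr
        _ = _ := by ring
    have f2 : ∑ k ∈ Ioo 0 G.n, G.w k * d k ≤ η ^ 2 / 4 := by
      have b1 : ∑ k ∈ Ioo 0 G.n, G.w k * d k = 2 * (P.ϖ * (N / (T.card : ℝ) ^ 2 *
          ∑ k ∈ Ico 2 G.n, E0 G ν S (Pur k))) + 2 * ā * (P.ϖ * ∑ k ∈ Ico 2 G.n, A k) := by
        rw [Grid.sum_Ioo_bot (by omega), zero_add, Grid.w_one, zero_mul, zero_add, Grid.Ioo_eq]
        simp only [mul_sum, ← sum_add_distrib]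
        refine sum_congr rfl fun k hk => ?_
        obtain ⟨k1, k2⟩ := mem_Ico.1 hk
        simp only [d, if_pos k2]
        rw [hU.2 k k1 k2]
        ring
      have b2 := mul_le_mul_of_nonneg_left g2 (show 0 ≤ 2 * ā by positivity)
      have b3 : η' * (3 * ā ^ 2 + ā) / y ≤ η ^ 2 / 50 := by
        rw [div_le_iff₀ hy]
        nlinarith [mul_nonneg e0.le (sq_nonneg (ā - 1)), mul_nonneg e0.le (sq_nonneg ā)]
      rw [b1]
      nlinarith [mul_nonneg e0.le (sq_nonneg (ā - 1)), mul_nonneg e0.le (sq_nonneg ā)]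
    have f3 : ∑ k ∈ Ioo 0 G.n, G.w k * |√(d k)| ≤ η / 2 := by
      have b1 : ∀ k ∈ Ioo 0 G.n, G.w k * |√(d k)| ≤ η / 4 * G.w k + G.w k * d k / η := by
        intro k _
        rw [abs_of_nonneg (Real.sqrt_nonneg _)]
        refine (mul_le_mul_of_nonneg_left (sqrt_le_amgm (d0 k) (half_pos hη)) (Grid.w_nonneg k)).trans
          (le_of_eq ?_)
        field_simp
        ring
      refine (sum_le_sum b1).trans ?_
      rw [sum_add_distrib, ← mul_sum, ← sum_div]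
      have b2 := mul_le_mul_of_nonneg_left (Grid.sum_w_le (G := G) 0) (show 0 ≤ η / 4 by positivity)
      have b3 : (∑ k ∈ Ioo 0 G.n, G.w k * d k) / η ≤ η / 4 := by
        rw [div_le_iff₀ hη]
        linarith
      linarith
    unfold Grid.nrm
    rw [abs_of_nonneg (Real.sqrt_nonneg _)]
    linarith
  · rw [Real.sq_sqrt (d0 k)]
    rcases hk2.eq_or_lt with rfl | hk3
    · simp only [d, lt_irrefl, if_false]
      refine le_trans (le_of_eq ?_) (qA G.n le_rfl)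
      simp only [qq, qk, E_top, sq]
    · simp only [d, if_pos hk3]
      have t1 := ((t_qq (G := G) (ν := ν) (S := S) (T := T) k).sub (t_qk (S := S) (T := T) k)).pow 2
      have t2 := ((t_qk (G := G) (ν := ν) (S := S) (T := T) k).sub (Tree.Tame.const (a k))).pow 2
      have b1 := E_mono (S := S) (((t_qq (S := S) (T := T) k).sub (Tree.Tame.const (a k))).pow 2)
        ((t1.const_mul 2).add (t2.const_mul 2)) (fun ω => by
          nlinarith [sq_nonneg ((qq G ν S T k ω - qk G ν S T k ω) - (qk G ν S T k ω - a k))]) 0 pt0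
      rw [E_add (t1.const_mul 2) (t2.const_mul 2), E_cmul, E_cmul] at b1
      have b2 := E_mono (S := S) (tE t1 k) ((tP k).const_mul _) (freeze (P0 k) (Pv k hk1)) 0 pt0
      rw [E_tower _ (Nat.zero_le k), E_cmul] at b2
      have b3 := qA k hk2
      unfold E0 at *
      linarith
  · rw [mul_pow, Real.sq_sqrt (d0 k)]
    simp only [d, if_pos hk2]
    have b1 := E_mono (S := S) ((tP k).pow 2) ((tP k).const_mul N)
      (fun ω => by rw [sq]; exact mul_le_mul_of_nonneg_right (PN k ω) (P0 k ω)) 0 pt0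
    rw [E_cmul] at b1
    have b2 : (T.card : ℝ) ^ 2 * (2 * (N / (T.card : ℝ) ^ 2 * E0 G ν S (Pur k)) + 2 * (ā * A k)) =
        2 * (N * E0 G ν S (Pur k)) + 2 * ((T.card : ℝ) ^ 2 * (ā * A k)) := by
      field_simp
    have b3 : 0 ≤ N * E0 G ν S (Pur k) := mul_nonneg hN0 (EP0 k)
    have b4 : 0 ≤ (T.card : ℝ) ^ 2 * (ā * A k) := by have := A0 k; positivity
    rw [b2]
    unfold E0 at *
    linarith

end Crest.Agent.R164
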