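import Crest.Agent.R164.Sys

/-!
Row 164, task R164-Probe: response of the overlaps of a single spin to perturbations.

PLAN.  Along `t ↦ S.add D t` (`LFam.line`, `Ham_add`), with `m = EE i σ_r`, `η = Ham D`:
`d/dt E0 (m²) = 2 E0 (m * chi i σ η) + chi 0 (m²) η` (`TFam.Ex` twice), `|m| ≤ 1`, `chi_cs`, so the derivative is at most `3 M` in
absolute value; mean value inequality.  `d/dt E0 σ = chi 0 σ η`.  For `D = dirS l (Pi.single r 1)`: `η² = gs²`, `E0_gs_sq`.
`probe`: `d/dt phi = s_t Tst_t` (`phi_deriv` or `LFam.X`, `E0_Ham`); apply the mean value inequality to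
`t ↦ phi_t - s_t² Tst_0 / 2`.  `probe_pot`: `X_add_bdd`.
-/

set_option autoImplicit false

namespace Crest.Agent.R164

open MeasureTheory Finset Matrix

variable {ι : Type} [Fintype ι] [DecidableEq ι]
variable {G : Grid} {ν : ProbabilityMeasure (OG ι)} {S D : Sys ι} {l : ℕ}

theorem probe_mvi {f : ℝ → ℝ} {t C : ℝ}
    (h : ∀ x ∈ Set.uIcc 0 t, ∃ d, HasDerivAt f d x ∧ |d| ≤ C) : |f t - f 0| ≤ C * |t| := by
  choose! d hd using h
  have := (convex_uIcc (0 : ℝ) t).norm_image_sub_le_of_norm_hasDerivWithin_le (f := f) (f' := d)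
    (C := C) (fun x hx => (hd x hx).1.hasDerivWithinAt) (fun x hx => (hd x hx).2)
    Set.left_mem_uIcc Set.right_mem_uIcc
  simpa using this

omit [Fintype ι] [DecidableEq ι] in
theorem probe_add_zero (S D : Sys ι) : S.add D 0 = S := by
  cases S
  simp [Sys.add]

theorem probe_Ham (t : ℝ) : Ham G (S.add D t) = fun ω => Ham G S ω + t * Ham G D ω :=
  funext fun ω => Ham_add t ω

theorem probe_lfam (t₀ : ℝ) :
    (tree G ν).LFam (fun t => Ham G (S.add D t)) (fun _ => Ham G D) t₀ := by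
  simp only [probe_Ham]
  exact Tree.LFam.line (lin_Ham G ν S) (lin_Ham G ν D)

theorem probe_abs_EE (r : ι) (i : ℕ) (ω : Pth ι) : |EE G ν S i (sg G r) ω| ≤ 1 :=
  Tree.abs_Ex_le_const (lin_Ham G ν S) (lin_sg r).tame (fun ω => (abs_sg r ω).le) i ω

theorem probe_E0_le {f : Pth ι → ℝ} (hf : (tree G ν).Tame f) (h : ∀ ω, |f ω| ≤ 1) :
    E0 G ν S (fun ω => f ω ^ 2) ≤ 1 := by
  have := Tree.Ex_mono (lin_Ham G ν S) (hf.pow 2) (Tree.Tame.const 1)
    (fun ω => (sq_le_one_iff_abs_le_one _).2 (h ω)) 0 pt0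
  rwa [Tree.Ex_const (lin_Ham G ν S)] at this

theorem ov_sg_lip {M t : ℝ} (hM0 : 0 ≤ M)
    (hM : ∀ t' ∈ Set.uIcc 0 t, E0 G ν (S.add D t') (fun ω => Ham G D ω ^ 2) ≤ M ^ 2) (r : ι) (i : ℕ) :
    |ov G ν (S.add D t) (sg G r) (sg G r) i - ov G ν S (sg G r) (sg G r) i| ≤ 3 * M * |t| := by
  by_cases hi : i = 0
  · simp only [ov, hi, if_true, sub_self, abs_zero]
    positivity
  have key := probe_mvi (f := fun t => ov G ν (S.add D t) (sg G r) (sg G r) i) (t := t) (C := 3 * M)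
    fun x hx => by
      have hH := probe_lfam (G := G) (ν := ν) (S := S) (D := D) x
      have h1 := Tree.TFam.Ex hH (Tree.TFam.const (lin_sg (G := G) (ν := ν) r).tame) i
      have h2 := (Tree.TFam.Ex hH (h1.mul h1) 0).hasDerivAt pt0
      simp only [ov, hi, if_false]
      refine ⟨_, h2, ?_⟩
      have hl := lin_Ham G ν (S.add D x)
      have hη := (lin_Ham G ν D).tame
      have hs := (lin_sg (G := G) (ν := ν) r).tame
      have hm := Tree.tame_Ex hl hs i
      have hc := Tree.tame_chi hl hs hη i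
      have hM2 := hM x hx
      simp only [Tree.Ex_const hl, zero_add]
      set H := Ham G (S.add D x) with hHd
      set m := (tree G ν).Ex H i (sg G r) with hmd
      set c := (tree G ν).chi H i (sg G r) (Ham G D) with hcd
      have e1 : (fun ω => c ω * m ω + m ω * c ω) = fun ω => 2 * (m ω * c ω) := by
        funext ω; ring
      have a1 : (tree G ν).Ex H 0 (fun ω => m ω ^ 2) pt0 ≤ 1 :=
        probe_E0_le hm (probe_abs_EE r i)
      have a2 : (tree G ν).Ex H 0 (fun ω => c ω ^ 2) pt0 ≤ M ^ 2 := by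
        have b1 := Tree.Ex_mono hl (hc.pow 2) (Tree.tame_Ex hl (hη.pow 2) i) (fun ω => by
          have := Tree.chi_cs hl hs hη i ω
          simp only [sg_sq, Tree.Ex_const hl, one_mul] at this
          exact this) 0 pt0
        rw [Tree.Ex_tower hl _ (Nat.zero_le i)] at b1
        exact b1.trans hM2
      have a3 : (tree G ν).Ex H 0 (fun ω => (m ω * m ω) ^ 2) pt0 ≤ 1 :=
        probe_E0_le (hm.mul hm) fun ω => by
          rw [abs_mul]
          exact mul_le_one₀ (probe_abs_EE r i ω) (abs_nonneg _) (probe_abs_EE r i ω)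
      have a4 : |(tree G ν).Ex H 0 (fun ω => m ω * c ω) pt0| ≤ M := by
        refine abs_le_of_sq_le_sq' ?_ hM0 |> abs_le.2
        refine (Tree.Ex_cs hl hm hc 0 pt0).trans ?_
        exact (mul_le_mul a1 a2 (Tree.Ex_nonneg _ (fun _ => sq_nonneg _) _ _) zero_le_one).trans
          (one_mul _).le
      have a5 : |(tree G ν).chi H 0 (fun ω => m ω * m ω) (Ham G D) pt0| ≤ M := by
        refine abs_le_of_sq_le_sq' ?_ hM0 |> abs_le.2
        refine (Tree.chi_cs hl (hm.mul hm) hη 0 pt0).trans ?_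
        exact (mul_le_mul a3 hM2 (Tree.Ex_nonneg _ (fun _ => sq_nonneg _) _ _) zero_le_one).trans
          (one_mul _).le
      rw [e1, Tree.Ex_const_mul]
      refine (abs_add_le _ _).trans ?_
      rw [abs_mul, abs_two]
      linarith
  rwa [probe_add_zero] at key

theorem E0_sg_deriv (r : ι) (t : ℝ) : HasDerivAt (fun t => E0 G ν (S.add D t) (sg G r))
    ((tree G ν).chi (Ham G (S.add D t)) 0 (sg G r) (Ham G D) pt0) t := by
  have hH := probe_lfam (G := G) (ν := ν) (S := S) (D := D) t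
  have h1 := (Tree.TFam.Ex hH (Tree.TFam.const (lin_sg (G := G) (ν := ν) r).tame) 0).hasDerivAt pt0
  simp only [Tree.Ex_const (lin_Ham G ν (S.add D t)), zero_add] at h1
  exact h1

theorem probe_Tst {S' : Sys ι} (r : ι) {C : ℝ} (hC : 0 ≤ C)
    (h : ∀ i, |ov G ν S' (sg G r) (sg G r) i - ov G ν S (sg G r) (sg G r) i| ≤ C) (l : ℕ) :
    |Tst G ν S' (sg G r) l - Tst G ν S (sg G r) l| ≤ C := by
  unfold Tst Grid.tl
  rw [ov_sg_top, ov_sg_top, sub_sub_sub_cancel_left, abs_sub_comm, ← Finset.sum_sub_distrib]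
  refine (Finset.abs_sum_le_sum_abs _ _).trans ?_
  calc _ ≤ ∑ i ∈ Ioo l G.n, G.w i * C := Finset.sum_le_sum fun i _ => by
        rw [← mul_sub, abs_mul, abs_of_nonneg (Grid.w_nonneg i)]
        exact mul_le_mul_of_nonneg_left (h i) (Grid.w_nonneg i)
    _ ≤ C := by
        rw [← Finset.sum_mul]
        exact mul_le_of_le_one_left hC (Grid.sum_w_le l)

theorem probe_HamS (hl : l ∈ Ico 1 (G.n - 1)) (r : ι) (ω : Pth ι) :
    Ham G (dirS l (Pi.single r 1)) ω = gs l r ω * sg G r ω := by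
  rw [Ham_dirS hl, Finset.sum_eq_single r (fun j _ hj => by simp [hj]) (by simp)]
  simp

omit [Fintype ι] in
theorem probe_s (S : Sys ι) (l : ℕ) (r : ι) (t : ℝ) :
    (S.add (dirS l (Pi.single r 1)) t).s l r = S.s l r + t := by
  simp [Sys.add, dirS]

theorem probe_between {a t x B : ℝ} (h0 : |a| ≤ B) (h1 : |a + t| ≤ B) (hx : x ∈ Set.uIcc 0 t) :
    |a + x| ≤ B := by
  rw [abs_le] at h0 h1 ⊢
  rcases Set.mem_uIcc.1 hx with h | h <;> constructor <;> linarith [h.1, h.2, h0.1, h0.2, h1.1, h1.2]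

/-- changing the field at one site and one level -/
theorem Tst_lip_s (hl : l ∈ Ico 1 (G.n - 1)) (r r' : ι) {t B : ℝ} (h0 : |S.s l r| ≤ B) (h1 : |S.s l r + t| ≤ B)
    (l' : ℕ) : |Tst G ν (S.add (dirS l (Pi.single r 1)) t) (sg G r') l' - Tst G ν S (sg G r') l'| ≤
      3 * (1 + B) * |t| := by
  have hB : 0 ≤ B := (abs_nonneg _).trans h0
  refine probe_Tst r' (by positivity) (fun i => ov_sg_lip (by positivity) (fun x hx => ?_) r' i) l'
  simp only [probe_HamS hl, mul_pow, sg_sq, mul_one]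
  refine (E0_gs_sq hl r).trans ?_
  rw [probe_s]
  have h2 := probe_between h0 h1 hx
  have h3 : (S.s l r + x) ^ 2 ≤ B ^ 2 := sq_le_sq' (abs_le.1 h2).1 (abs_le.1 h2).2
  nlinarith

theorem Tst_lip_b (r r' : ι) (t : ℝ) (l' : ℕ) :
    |Tst G ν (S.add (dirP fun σ => sp σ r) t) (sg G r') l' - Tst G ν S (sg G r') l'| ≤ 3 * |t| := by
  have h := probe_Tst (G := G) (ν := ν) (S := S) (S' := S.add (dirP fun σ => sp σ r) t) r'
    (C := 3 * 1 * |t|) (by positivity) (fun i => ov_sg_lip zero_le_one (fun x _ => by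
      simp only [Ham_dirP, sp_sq, one_pow]
      exact (Tree.Ex_const (lin_Ham G ν _) 1 0 pt0).le) r' i) l'
  rwa [mul_one] at h

theorem probe_E0S (hl : l ∈ Ico 1 (G.n - 1)) (r : ι) :
    E0 G ν S (Ham G (dirS l (Pi.single r 1))) = S.s l r * Tst G ν S (sg G r) l := by
  have h0 : E0 G ν S (fun _ => 0) = 0 := Tree.Ex_const (lin_Ham G ν S) 0 0 pt0
  rw [E0_Ham]
  simp only [dirS, zero_mul, Finset.sum_const_zero, mul_zero, h0, zero_add, add_zero]
  rw [Finset.sum_eq_single_of_mem l hl fun k _ hk => by simp [hk],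
    Finset.sum_eq_single r (fun j _ hj => by simp [hj]) (by simp)]
  simp

theorem probe (hl : l ∈ Ico 1 (G.n - 1)) (r : ι) {t B : ℝ} (h0 : S.s l r ∈ Set.Icc 0 B)
    (h1 : S.s l r + t ∈ Set.Icc 0 B) :
    |phi G ν (S.add (dirS l (Pi.single r 1)) t) - phi G ν S -
        ((S.s l r + t) ^ 2 - S.s l r ^ 2) / 2 * Tst G ν S (sg G r) l| ≤
      3 * (1 + B) * |(S.s l r + t) ^ 2 - S.s l r ^ 2| * |t| := by
  have hB : 0 ≤ B := h0.1.trans h0.2
  have a0 : |S.s l r| ≤ B := by rw [abs_of_nonneg h0.1]; exact h0.2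
  have a1 : |S.s l r + t| ≤ B := by rw [abs_of_nonneg h1.1]; exact h1.2
  have key := probe_mvi (f := fun x => phi G ν (S.add (dirS l (Pi.single r 1)) x) -
      (S.s l r + x) ^ 2 / 2 * Tst G ν S (sg G r) l) (t := t)
    (C := (2 * S.s l r + t) * (3 * (1 + B) * |t|)) fun x hx => by
      have d1 := ((probe_lfam (G := G) (ν := ν) (S := S) (D := dirS l (Pi.single r 1)) x).X 0).1.hasDerivAt
        pt0
      have d2 : HasDerivAt (fun x : ℝ => (S.s l r + x) ^ 2 / 2 * Tst G ν S (sg G r) l)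
          ((S.s l r + x) * Tst G ν S (sg G r) l) x := by
        have := ((((hasDerivAt_id x).const_add (S.s l r)).pow 2).div_const 2).mul_const
          (Tst G ν S (sg G r) l)
        simpa using this
      refine ⟨_, d1.sub d2, ?_⟩
      have e := probe_E0S (G := G) (ν := ν) (S := S.add (dirS l (Pi.single r 1)) x) hl r
      rw [probe_s] at e
      change |E0 G ν _ _ - _| ≤ _
      rw [e, ← mul_sub, abs_mul]
      have b1 := Tst_lip_s (ν := ν) hl r r a0 (probe_between a0 a1 hx) l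
      have b2 : |x| ≤ |t| := by simpa using Set.abs_sub_left_of_mem_uIcc hx
      have b3 : |S.s l r + x| ≤ 2 * S.s l r + t := by
        rw [abs_le]
        rcases Set.mem_uIcc.1 hx with h | h <;> constructor <;> linarith [h.1, h.2, h0.1, h1.1]
      exact mul_le_mul b3 (b1.trans (mul_le_mul_of_nonneg_left b2 (by positivity))) (abs_nonneg _)
        (by linarith [h0.1, h1.1])
  simp only [probe_add_zero, add_zero] at key
  have e : |(S.s l r + t) ^ 2 - S.s l r ^ 2| = (2 * S.s l r + t) * |t| := by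
    rw [show (S.s l r + t) ^ 2 - S.s l r ^ 2 = (2 * S.s l r + t) * t by ring, abs_mul,
      abs_of_nonneg (by linarith [h0.1, h1.1])]
  rw [e]
  convert key using 1
  · congr 1; ring
  · ring

theorem probe_pot (r : ι) {t : ℝ} (ht : |t| ≤ 1) :
    |phi G ν (S.add (dirP fun σ => sp σ r) t) - phi G ν S - t * E0 G ν S (sg G r)| ≤ t ^ 2 := by
  have h := Tree.X_add_bdd (lin_Ham G ν S) (η := fun ω => t * sg G r ω)
    ((lin_sg (ν := ν) r).const_mul t).1 ht (fun ω => by rw [abs_mul, abs_sg, mul_one]) 0 pt0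
  rw [Tree.Ex_const_mul, sq_abs] at h
  unfold phi
  rw [probe_Ham]
  simp only [Ham_dirP]
  exact h

end Crest.Agent.R164
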