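import Crest.Agent.R164.Haar

/-!
Row 164: linear algebra helpers for `SSV` and `Flag` (QR decomposition, adapted bases, the spectral count).
-/

set_option autoImplicit false

namespace Crest.Agent.R164

open Finset Matrix

/-- an orthonormal basis as the rows of an orthogonal matrix -/
theorem ssvA_of_basis {N : ℕ} (b : OrthonormalBasis (Fin N) ℝ (EuclideanSpace ℝ (Fin N))) :
    ∃ O : OG (Fin N), ∀ i, O.1 i = (b i).ofLp := by
  refine ⟨⟨Matrix.of fun i j => (b i).ofLp j, ?_⟩, fun i => rfl⟩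
  rw [Matrix.mem_orthogonalGroup_iff]
  ext i j
  have h := orthonormal_iff_ite.1 b.orthonormal i j
  rw [EuclideanSpace.inner_eq_star_dotProduct] at h
  simp only [Matrix.mul_apply, Matrix.of_apply, Matrix.transpose_apply, Matrix.one_apply]
  rw [← h]
  simp [dotProduct, mul_comm]

/-- QR decomposition -/
theorem ssvA_qr {N : ℕ} (v : Fin N → Fin N → ℝ) :
    ∃ O : OG (Fin N), ∀ j i : Fin N, j < i → (O.1 *ᵥ v j) i = 0 := by
  have hc : Module.finrank ℝ (EuclideanSpace ℝ (Fin N)) = Fintype.card (Fin N) := by simp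
  obtain ⟨O, hO⟩ := ssvA_of_basis
    (InnerProductSpace.gramSchmidtOrthonormalBasis hc fun j => WithLp.toLp 2 (v j))
  refine ⟨O, fun j i hji => ?_⟩
  have h := InnerProductSpace.gramSchmidtOrthonormalBasis_inv_triangular hc
    (fun j => WithLp.toLp 2 (v j)) hji
  rw [EuclideanSpace.inner_eq_star_dotProduct] at h
  rw [Matrix.mulVec, hO i, ← h]
  simp [dotProduct, mul_comm]

theorem ssvA_greedy {N : ℕ} (W : ℕ → Submodule ℝ (Fin N → ℝ)) {K : ℕ}
    (hd : ∀ k, k ≤ K → k ≤ Module.finrank ℝ (W k)) (k : ℕ) (hk : k ≤ K) :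
    ∃ v : ℕ → Fin N → ℝ, (∀ i, i < k → v i ∈ W (i + 1)) ∧
      ∀ i j, i < k → j < k → v i ⬝ᵥ v j = if i = j then 1 else 0 := by
  induction k with
  | zero => exact ⟨fun _ => 0, fun i hi => absurd hi (Nat.not_lt_zero _),
      fun i j hi => absurd hi (Nat.not_lt_zero _)⟩
  | succ k ih =>
    obtain ⟨v, hv1, hv2⟩ := ih (by omega)
    let φ : W (k + 1) →ₗ[ℝ] (Fin k → ℝ) :=
      (Matrix.mulVecLin (Matrix.of fun (i : Fin k) (j : Fin N) => v i j)).comp (W (k + 1)).subtype
    have hker : LinearMap.ker φ ≠ ⊥ := by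
      refine LinearMap.ker_ne_bot_of_finrank_lt ?_
      have := hd (k + 1) hk
      simp only [Module.finrank_fintype_fun_eq_card, Fintype.card_fin]
      omega
    obtain ⟨u, hu, hu0⟩ := Submodule.exists_mem_ne_zero_of_ne_bot hker
    have hu1 : ∀ i, i < k → v i ⬝ᵥ u.1 = 0 := fun i hi => congrFun (LinearMap.mem_ker.1 hu) ⟨i, hi⟩
    have hu2 : u.1 ≠ 0 := fun h => hu0 (Subtype.ext h)
    have hpos : 0 < u.1 ⬝ᵥ u.1 := by
      have h0 : 0 ≤ u.1 ⬝ᵥ u.1 := Finset.sum_nonneg fun i _ => mul_self_nonneg _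
      exact lt_of_le_of_ne h0 fun h => hu2 (dotProduct_self_eq_zero.1 h.symm)
    set w : Fin N → ℝ := (Real.sqrt (u.1 ⬝ᵥ u.1))⁻¹ • u.1 with hw
    have hw1 : ∀ i, i < k → v i ⬝ᵥ w = 0 := fun i hi => by
      rw [hw, dotProduct_smul, hu1 i hi, smul_zero]
    have hw2 : w ⬝ᵥ w = 1 := by
      rw [hw, dotProduct_smul, smul_dotProduct, smul_eq_mul, smul_eq_mul, ← mul_assoc, ← mul_inv,
        Real.mul_self_sqrt hpos.le, inv_mul_cancel₀ hpos.ne']
    refine ⟨fun i => if i = k then w else v i, fun i hi => ?_, fun i j hi hj => ?_⟩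
    · by_cases h : i = k
      · subst h
        simp only [if_true]
        exact (W (i + 1)).smul_mem _ u.2
      · simp only [h, if_false]
        exact hv1 i (by omega)
    · by_cases h : i = k
      · by_cases h' : j = k
        · simp [h, h', hw2]
        · have h3 : ¬ k = j := fun h => h' h.symm
          simp only [h, h', h3, if_true, if_false]
          rw [dotProduct_comm]
          exact hw1 j (by omega)
      · by_cases h' : j = k
        · simp only [h, h', if_true, if_false]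
          exact hw1 i (by omega)
        · simp only [h, h', if_false]
          exact hv2 i j (by omega) (by omega)

theorem ssvA_sub {N : ℕ} (W : ℕ → Submodule ℝ (Fin N → ℝ)) {K : ℕ}
    (hd : ∀ k, k ≤ K → k ≤ Module.finrank ℝ (W k)) :
    ∃ O : OG (Fin N), ∀ i : Fin N, i.val < K → O.1 i ∈ W (i.val + 1) := by
  obtain ⟨v, hv1, hv2⟩ := ssvA_greedy W hd K le_rfl
  have hc : Module.finrank ℝ (EuclideanSpace ℝ (Fin N)) = Fintype.card (Fin N) := by simp
  have ho : Orthonormal ℝ (Set.domRestrict {i : Fin N | i.val < K}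
      fun i : Fin N => (WithLp.toLp 2 (v i) : EuclideanSpace ℝ (Fin N))) := by
    rw [orthonormal_iff_ite]
    rintro ⟨i, hi⟩ ⟨j, hj⟩
    have := hv2 j i hj hi
    simp only [Set.domRestrict, EuclideanSpace.inner_eq_star_dotProduct, star_trivial, this,
      Subtype.mk.injEq, Fin.ext_iff]
    simp [eq_comm]
  obtain ⟨b, hb⟩ := ho.exists_orthonormalBasis_extension_of_card_eq hc
  obtain ⟨O, hO⟩ := ssvA_of_basis b
  refine ⟨O, fun i hi => ?_⟩
  rw [hO i, hb i hi]
  exact hv1 i hi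

theorem ssvA_spec {ι : Type} [Fintype ι] [DecidableEq ι] (B : Matrix ι ι ℝ) (hB : B.IsHermitian) :
    ∃ (U : Matrix ι ι ℝ) (l : ι → ℝ), Uᵀ * U = 1 ∧ U * Uᵀ = 1 ∧ B * U = U * diagonal l := by
  have h1 : (hB.eigenvectorUnitary : Matrix ι ι ℝ)ᵀ * (hB.eigenvectorUnitary : Matrix ι ι ℝ) = 1 :=
    Matrix.mem_unitaryGroup_iff'.1 hB.eigenvectorUnitary.2
  have h2 : (hB.eigenvectorUnitary : Matrix ι ι ℝ) * (hB.eigenvectorUnitary : Matrix ι ι ℝ)ᵀ = 1 :=
    Matrix.mem_unitaryGroup_iff.1 hB.eigenvectorUnitary.2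
  refine ⟨hB.eigenvectorUnitary, hB.eigenvalues, h1, h2, ?_⟩
  ext i j
  have := congrFun (hB.mulVec_eigenvectorBasis j) i
  simp only [Matrix.mulVec, dotProduct, Pi.smul_apply, smul_eq_mul] at this
  rw [Matrix.mul_diagonal, Matrix.mul_apply]
  simp only [Matrix.IsHermitian.eigenvectorUnitary_apply]
  rw [this, mul_comm]

theorem ssvA_sum_sq {ι : Type} [Fintype ι] (v : ι → ℝ) : ∑ i, v i ^ 2 = v ⬝ᵥ v :=
  Finset.sum_congr rfl fun i _ => sq (v i)

/-- few small singular values if most columns are far from the span of the others -/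
theorem ssvA_det {m ι : Type} [Fintype m] [Fintype ι] [DecidableEq ι] (A : Matrix m ι ℝ) {t τ : ℝ}
    (ht : 0 < t) (hτ : 0 < τ) (bad : Finset ι)
    (hgood : ∀ j, j ∉ bad → ∀ z : ι → ℝ, z j = 1 → τ ≤ ∑ i, (A *ᵥ z) i ^ 2) :
    ∃ G : Submodule ℝ (ι → ℝ), (∀ z ∈ G, ∀ j, (∀ i, A i j = 0) → z j = 0) ∧
      (Fintype.card ι : ℝ) ≤ Module.finrank ℝ G + bad.card + Fintype.card ι * (t / τ) ∧
      ∀ z ∈ G, t * ∑ j, z j ^ 2 ≤ ∑ i, (A *ᵥ z) i ^ 2 := by
  classical
  have hB : (Aᵀ * A).IsHermitian := by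
    simpa using Matrix.isHermitian_conjTranspose_mul_self A
  obtain ⟨U, l, hU1, hU2, hBU⟩ := ssvA_spec _ hB
  have hq : ∀ y : ι → ℝ, ∑ i, (A *ᵥ (U *ᵥ y)) i ^ 2 = ∑ a, l a * y a ^ 2 := by
    intro y
    have e1 : Uᵀ * (Aᵀ * A) * U = diagonal l := by
      rw [Matrix.mul_assoc, hBU, ← Matrix.mul_assoc, hU1, Matrix.one_mul]
    have e2 : (A *ᵥ (U *ᵥ y)) ⬝ᵥ (A *ᵥ (U *ᵥ y)) = y ⬝ᵥ ((Uᵀ * (Aᵀ * A) * U) *ᵥ y) := by
      rw [Matrix.mulVec_mulVec, Matrix.dotProduct_mulVec, ← Matrix.mulVec_transpose,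
        Matrix.mulVec_mulVec, dotProduct_comm, Matrix.transpose_mul]
      simp only [Matrix.mul_assoc]
    rw [ssvA_sum_sq, e2, e1]
    simp only [dotProduct, Matrix.mulVec_diagonal]
    exact Finset.sum_congr rfl fun a _ => by ring
  have hn : ∀ y : ι → ℝ, ∑ j, (U *ᵥ y) j ^ 2 = ∑ a, y a ^ 2 := by
    intro y
    rw [ssvA_sum_sq, ssvA_sum_sq, Matrix.dotProduct_mulVec, ← Matrix.mulVec_transpose,
      Matrix.mulVec_mulVec, hU1, Matrix.one_mulVec]
  have hz : ∀ z : ι → ℝ, U *ᵥ (Uᵀ *ᵥ z) = z := fun z => by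
    rw [Matrix.mulVec_mulVec, hU2, Matrix.one_mulVec]
  set L : Finset ι := Finset.univ.filter fun a => l a < t with hL
  let φ : (ι → ℝ) →ₗ[ℝ] (L → ℝ) := Matrix.mulVecLin (Matrix.of fun (a : L) (j : ι) => U j a)
  have hφ : ∀ z ∈ LinearMap.ker φ, ∀ a, l a < t → (Uᵀ *ᵥ z) a = 0 := fun z hz a ha =>
    congrFun (LinearMap.mem_ker.1 hz) ⟨a, Finset.mem_filter.2 ⟨Finset.mem_univ _, ha⟩⟩
  refine ⟨LinearMap.ker φ, fun z hzG j hj => ?_, ?_, fun z hzG => ?_⟩
  · rw [← hz z]
    refine Finset.sum_eq_zero fun a _ => ?_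
    by_cases ha : l a < t
    · simp [hφ z hzG a ha]
    · have h1 : ((Aᵀ * A) * U) j a = 0 := by
        rw [Matrix.mul_assoc, Matrix.mul_apply]
        exact Finset.sum_eq_zero fun i _ => by simp [hj i]
      rw [hBU, Matrix.mul_diagonal] at h1
      have h2 : l a ≠ 0 := by intro h; rw [h] at ha; exact ha ht
      simp [(mul_eq_zero.1 h1).resolve_right h2]
  · have h1 := φ.finrank_range_add_finrank_ker
    have h2 : Module.finrank ℝ (LinearMap.range φ) ≤ L.card := by
      refine (Submodule.finrank_le _).trans ?_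
      simp
    rw [Module.finrank_fintype_fun_eq_card] at h1
    have h3 : (Fintype.card ι : ℝ) ≤ L.card + Module.finrank ℝ (LinearMap.ker φ) := by
      exact_mod_cast (by omega : Fintype.card ι ≤ L.card + Module.finrank ℝ (LinearMap.ker φ))
    have hcol : ∀ a, ∑ j, U j a ^ 2 = 1 := fun a => by
      have := congrFun (congrFun hU1 a) a
      simpa [Matrix.mul_apply, sq] using this
    have hrow : ∀ j, ∑ a, U j a ^ 2 = 1 := fun j => by
      have := congrFun (congrFun hU2 j) j
      simpa [Matrix.mul_apply, sq] using this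
    have h4 : (L.card : ℝ) = ∑ j, ∑ a ∈ L, U j a ^ 2 := by
      rw [Finset.sum_comm]
      simp [hcol]
    have h5 : ∀ j, ∑ a ∈ L, U j a ^ 2 ≤ (if j ∈ bad then 1 else 0) + t / τ := by
      intro j
      have htτ : 0 ≤ t / τ := by positivity
      split_ifs with hj
      · have : ∑ a ∈ L, U j a ^ 2 ≤ ∑ a, U j a ^ 2 :=
          Finset.sum_le_sum_of_subset_of_nonneg (Finset.subset_univ _) fun a _ _ => sq_nonneg _
        rw [hrow] at this
        linarith
      · set p : ℝ := ∑ a ∈ L, U j a ^ 2 with hp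
        have hp0 : 0 ≤ p := Finset.sum_nonneg fun a _ => sq_nonneg _
        rcases hp0.eq_or_lt with h0 | h0
        · rw [← h0]; linarith
        · set y : ι → ℝ := fun a => if a ∈ L then p⁻¹ * U j a else 0 with hy
          have hy1 : (U *ᵥ y) j = 1 := by
            simp only [Matrix.mulVec, dotProduct, hy, mul_ite, mul_zero, Finset.sum_ite_mem,
              Finset.univ_inter]
            rw [← inv_mul_cancel₀ h0.ne', hp, Finset.mul_sum]
            exact Finset.sum_congr rfl fun a _ => by rw [← hp]; ring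
          have h6 := hgood j hj _ hy1
          rw [hq] at h6
          have h7 : ∑ a, l a * y a ^ 2 ≤ t * p⁻¹ := by
            calc ∑ a, l a * y a ^ 2 ≤ ∑ a, if a ∈ L then t * (p⁻¹ * U j a) ^ 2 else 0 := by
                  refine Finset.sum_le_sum fun a _ => ?_
                  by_cases ha : a ∈ L
                  · simp only [hy, ha, if_true]
                    exact mul_le_mul_of_nonneg_right (Finset.mem_filter.1 ha).2.le (sq_nonneg _)
                  · simp [hy, ha]
              _ = t * p⁻¹ ^ 2 * p := by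
                  rw [Finset.sum_ite_mem, Finset.univ_inter]
                  conv_rhs => rw [mul_comm, hp, Finset.sum_mul]
                  exact Finset.sum_congr rfl fun a _ => by rw [← hp]; ring
              _ = _ := by field_simp
          have h8 : τ ≤ t / p := by rw [div_eq_mul_inv]; linarith
          rw [le_div_iff₀ h0] at h8
          rw [zero_add, le_div_iff₀ hτ]
          linarith
    have h6 : (L.card : ℝ) ≤ bad.card + Fintype.card ι * (t / τ) := by
      rw [h4]
      refine (Finset.sum_le_sum fun j _ => h5 j).trans (le_of_eq ?_)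
      rw [Finset.sum_add_distrib]
      simp
    linarith
  · rw [← hz z, hq, hn, Finset.mul_sum]
    refine Finset.sum_le_sum fun a _ => ?_
    by_cases ha : l a < t
    · simp [hφ z hzG a ha]
    · exact mul_le_mul_of_nonneg_right (not_lt.1 ha) (sq_nonneg _)

end Crest.Agent.R164
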