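import Crest.Agent.R164.Gam
import Crest.Agent.R164.SSV_A

/-!
Row 164, task R164-SSV: a Gaussian `N × M` matrix, `M ≤ (1-η) N`, has few small singular values.

PLAN.  `dist2 A j = ⨅ z supported on {k < M, k ≠ j}, |A e_j - A z|²` (measurable: infimum of continuous functions is upper
semicontinuous, `{dist2 < c}` is open).  `S = {A | #{j < M | dist2 A j < η N / 2} ≤ η N / 2}`.
Probability: for fixed other columns pick an orthonormal family `e_1..e_d`, `d ≥ η N`, orthogonal to their span; then
`dist2 ≥ Σ (e_a ⬝ g)²`, which has mean `d` and variance `2 d` (`gam_rot` after extending to an orthonormal basis; or compute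
second moments directly), Chebyshev: `P ≤ 8/(η N)`; Fubini over (column `j`, other columns); Markov for the count.
Deterministic part (`c = η²/4`): spectral theorem for the symmetric matrix `AᵀA` restricted to the first `M` coordinates;
`G` = span of eigenvectors with eigenvalue `≥ c N`, `L` = span of the others, `P` the projection on `L`, `k = dim L = Σ_j P_jj`.
For `z = P e_j`: `P_jj² dist2_j ≤ |A z|² ≤ c N P_jj`, `P_jj ≤ 1`, so `k ≤ η N/2 + M * 2c/η ≤ η N`.
-/

set_option autoImplicit false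

namespace Crest.Agent.R164

open MeasureTheory Finset

/-- `A z` for `A` stored as a vector indexed by pairs -/
def mv {N : ℕ} (A : Fin N × Fin N → ℝ) (z : Fin N → ℝ) (i : Fin N) : ℝ := ∑ j, A (i, j) * z j

/-- resampling column `j` -/
def ssvRes {N : ℕ} (j : Fin N) (p : (Fin N × Fin N → ℝ) × (Fin N → ℝ)) : Fin N × Fin N → ℝ :=
  fun q => if q.2 = j then p.2 q.1 else p.1 q

theorem ssvRes_mp {N : ℕ} (j : Fin N) :
    MeasurePreserving (ssvRes j) ((gam (Fin N × Fin N)).prod (gam (Fin N))) (gam (Fin N × Fin N)) := by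
  have hm : Measurable (ssvRes j) := measurable_pi_lambda _ fun q => by
    unfold ssvRes
    split_ifs
    · exact (measurable_pi_apply _).comp measurable_snd
    · exact (measurable_pi_apply _).comp measurable_fst
  refine ⟨hm, ?_⟩
  symm
  refine Measure.pi_eq fun s hs => ?_
  rw [Measure.map_apply hm (MeasurableSet.univ_pi hs)]
  have e : ssvRes j ⁻¹' (Set.pi Set.univ s) =
      (Set.pi Set.univ fun q => if q.2 = j then Set.univ else s q) ×ˢ
        (Set.pi Set.univ fun i => s (i, j)) := by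
    ext ⟨A, g⟩
    simp only [Set.mem_preimage, Set.mem_pi, Set.mem_univ, forall_true_left, Set.mem_prod, ssvRes]
    constructor
    · intro h
      refine ⟨fun q => ?_, fun i => by simpa using h (i, j)⟩
      have := h q
      split_ifs at this ⊢
      · trivial
      · exact this
    · rintro ⟨h1, h2⟩ ⟨i, k⟩
      have := h1 (i, k)
      split_ifs at this ⊢ with h
      · simp only at h
        subst h
        exact h2 i
      · exact this
  rw [e, Measure.prod_prod, gam, gam, Measure.pi_pi, Measure.pi_pi, Fintype.prod_prod_type,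
    Fintype.prod_prod_type, ← Finset.prod_mul_distrib]
  refine Finset.prod_congr rfl fun i _ => ?_
  rw [← Finset.mul_prod_erase _ _ (Finset.mem_univ j),
    ← Finset.mul_prod_erase Finset.univ (fun k => ProbabilityTheory.gaussianReal 0 1 (s (i, k)))
      (Finset.mem_univ j)]
  simp only [if_true, measure_univ, one_mul]
  rw [mul_comm]
  congr 1
  exact Finset.prod_congr rfl fun k hk => by rw [if_neg (Finset.mem_erase.1 hk).1]

theorem ssv_chernoff : ∃ κ : ℝ, 0 < κ ∧ ∀ (N M : ℕ) (τ : ℝ), M ≤ N →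
    (gam (Fin N)).real {g | ∑ i ∈ Finset.univ.filter (fun i : Fin N => M ≤ i.val), g i ^ 2 < τ} ≤
      Real.exp (τ - κ * ((N : ℝ) - M)) := by
  set γ := ProbabilityTheory.gaussianReal 0 1 with hγ
  have hc : Continuous fun t : ℝ => Real.exp (-t ^ 2) := by fun_prop
  have hle : ∀ t : ℝ, Real.exp (-t ^ 2) ≤ 1 := fun t => by
    rw [Real.exp_le_one_iff]; nlinarith [sq_nonneg t]
  have hi : Integrable (fun t : ℝ => Real.exp (-t ^ 2)) γ :=
    Integrable.of_bound hc.aestronglyMeasurable 1 (Filter.Eventually.of_forall fun t => by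
      rw [Real.norm_of_nonneg (Real.exp_pos _).le]; exact hle t)
  set ρ := ∫ t, Real.exp (-t ^ 2) ∂γ with hρ
  have hρ0 : 0 < ρ := integral_exp_pos hi
  have hρ1 : ρ < 1 := by
    have h1 : 0 < ∫ t, (1 - Real.exp (-t ^ 2)) ∂γ := by
      rw [integral_pos_iff_support_of_nonneg (fun t => sub_nonneg.2 (hle t))
        ((integrable_const 1).sub hi)]
      have h2 : ({0}ᶜ : Set ℝ) ⊆ Function.support fun t : ℝ => 1 - Real.exp (-t ^ 2) := by
        intro t ht
        have h3 : t ≠ 0 := ht
        have h4 : Real.exp (-t ^ 2) < 1 := by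
          rw [Real.exp_lt_one_iff]
          have : 0 < t ^ 2 := by positivity
          linarith
        exact (sub_pos.2 h4).ne'
      refine lt_of_lt_of_le ?_ (measure_mono h2)
      have : NullSingletonClass γ :=
        ProbabilityTheory.nullSingletonClass_gaussianReal one_ne_zero
      rw [measure_compl (measurableSet_singleton 0) (measure_ne_top _ _), measure_singleton,
        measure_univ]
      simp
    rw [integral_sub (integrable_const 1) hi] at h1
    simp only [integral_const, probReal_univ, smul_eq_mul, mul_one] at h1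
    linarith
  refine ⟨-Real.log ρ, neg_pos.2 (Real.log_neg hρ0 hρ1), fun N M τ hM => ?_⟩
  set T := Finset.univ.filter (fun i : Fin N => M ≤ i.val) with hT
  have hcard : (T.card : ℝ) = (N : ℝ) - M := by
    have : T.card = N - M := by
      rw [hT, ← Nat.card_Ico]
      refine Finset.card_bij (fun i _ => i.val) (fun i hi => ?_) (fun i _ j _ h => Fin.ext h)
        fun k hk => ?_
      · exact Finset.mem_Ico.2 ⟨(Finset.mem_filter.1 hi).2, i.2⟩
      · obtain ⟨h1, h2⟩ := Finset.mem_Ico.1 hk
        exact ⟨⟨k, h2⟩, Finset.mem_filter.2 ⟨Finset.mem_univ _, h1⟩, rfl⟩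
    rw [this, Nat.cast_sub hM]
  let F : (Fin N → ℝ) → ℝ := fun g => Real.exp (-∑ i ∈ T, g i ^ 2)
  have hF : ∀ g, F g = ∏ i, (fun (i : Fin N) (t : ℝ) => if i ∈ T then Real.exp (-t ^ 2) else 1) i (g i) := by
    intro g
    simp only [F, Finset.prod_ite_mem, Finset.univ_inter]
    rw [← Real.exp_sum, Finset.sum_neg_distrib]
  have hFc : Continuous F := by fun_prop
  have hFi : Integrable F (gam (Fin N)) :=
    Integrable.of_bound hFc.aestronglyMeasurable 1 (Filter.Eventually.of_forall fun g => by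
      rw [Real.norm_of_nonneg (Real.exp_pos _).le, Real.exp_le_one_iff, neg_nonpos]
      exact Finset.sum_nonneg fun i _ => sq_nonneg _)
  have hint : ∫ g, F g ∂gam (Fin N) = ρ ^ T.card := by
    simp only [hF, gam]
    rw [integral_fintype_prod_eq_prod
      (fun (i : Fin N) (t : ℝ) => if i ∈ T then Real.exp (-t ^ 2) else 1)]
    rw [← Finset.prod_const, ← Finset.univ_inter T, ← Finset.prod_ite_mem]
    refine Finset.prod_congr rfl fun i _ => ?_
    simp only [Finset.univ_inter]
    split_ifs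
    · rfl
    · simp
  have hM1 := mul_meas_ge_le_integral_of_nonneg (μ := gam (Fin N))
    (Filter.Eventually.of_forall fun g => (Real.exp_pos _).le) hFi (Real.exp (-τ))
  have hsub : {g : Fin N → ℝ | ∑ i ∈ T, g i ^ 2 < τ} ⊆ {g | Real.exp (-τ) ≤ F g} := fun g hg =>
    Real.exp_le_exp.2 (neg_le_neg (le_of_lt hg))
  have h2 := measureReal_mono (μ := gam (Fin N)) hsub
  have h3 : ρ ^ T.card = Real.exp (Real.log ρ * ((N : ℝ) - M)) := by
    rw [← hcard, mul_comm, Real.exp_nat_mul, Real.exp_log hρ0]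
  rw [hint, h3] at hM1
  refine h2.trans ?_
  have h4 : Real.exp (τ - -Real.log ρ * ((N : ℝ) - M)) =
      Real.exp (Real.log ρ * ((N : ℝ) - M)) / Real.exp (-τ) := by
    rw [← Real.exp_sub]; congr 1; ring
  rw [h4, le_div_iff₀ (Real.exp_pos _), mul_comm]
  exact hM1

/-- column `j` is close to the span of the other columns -/
def ssvBad {N : ℕ} (M : ℕ) (τ : ℝ) (j : Fin N) : Set (Fin N × Fin N → ℝ) :=
  {A | ∃ z : Fin N → ℝ, (∀ k : Fin N, M ≤ k.val → z k = 0) ∧ z j = 1 ∧ ∑ i, mv A z i ^ 2 < τ}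

theorem ssvBad_meas {N : ℕ} (M : ℕ) (τ : ℝ) (j : Fin N) : MeasurableSet (ssvBad M τ j) := by
  refine IsOpen.measurableSet ?_
  have : ssvBad M τ j = ⋃ z : Fin N → ℝ, ⋃ _ : (∀ k : Fin N, M ≤ k.val → z k = 0) ∧ z j = 1,
      {A : Fin N × Fin N → ℝ | ∑ i, mv A z i ^ 2 < τ} := by
    ext A
    simp [ssvBad, and_assoc]
  rw [this]
  refine isOpen_iUnion fun z => isOpen_iUnion fun _ => isOpen_lt ?_ continuous_const
  unfold mv
  fun_prop

theorem ssv_qr {N : ℕ} (A : Fin N × Fin N → ℝ) : ∃ O : OG (Fin N), ∀ (M : ℕ) (z : Fin N → ℝ),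
    (∀ j : Fin N, M ≤ j.val → z j = 0) → ∀ i : Fin N, M ≤ i.val → (Matrix.mulVec O.1 (mv A z)) i = 0 := by
  obtain ⟨O, hO⟩ := ssvA_qr fun j i => A (i, j)
  refine ⟨O, fun M z hz i hi => ?_⟩
  have e : mv A z = ∑ j, z j • fun i => A (i, j) := by
    funext i
    simp [mv, mul_comm]
  rw [e, Matrix.mulVec_sum, Finset.sum_apply]
  refine Finset.sum_eq_zero fun j _ => ?_
  rw [Matrix.mulVec_smul, Pi.smul_apply]
  by_cases hj : M ≤ j.val
  · rw [hz j hj, zero_smul]
  · rw [hO j i (by rw [Fin.lt_def]; omega), smul_zero]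

theorem ssvBad_le {N : ℕ} (M : ℕ) (τ : ℝ) (j : Fin N) :
    gam (Fin N × Fin N) (ssvBad M τ j) ≤ gam (Fin N)
      {g | ∑ i ∈ Finset.univ.filter (fun i : Fin N => M ≤ i.val), g i ^ 2 < τ} := by
  set T : Set (Fin N → ℝ) :=
    {g | ∑ i ∈ Finset.univ.filter (fun i : Fin N => M ≤ i.val), g i ^ 2 < τ} with hT
  have hTm : MeasurableSet T := measurableSet_lt (by fun_prop) measurable_const
  rw [← (ssvRes_mp j).measure_preimage (ssvBad_meas M τ j).nullMeasurableSet,
    Measure.prod_apply ((ssvRes_mp j).measurable (ssvBad_meas M τ j))]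
  calc _ ≤ ∫⁻ _A, gam (Fin N) T ∂gam (Fin N × Fin N) := lintegral_mono fun A => ?_
    _ = _ := by simp
  obtain ⟨O, hO⟩ := ssv_qr A
  rw [← (gam_rot O).measure_preimage hTm.nullMeasurableSet]
  refine measure_mono ?_
  rintro g ⟨z, hz, hj, hlt⟩
  refine lt_of_le_of_lt ?_ hlt
  have e : mv (ssvRes j (A, g)) z = g + mv A (Function.update z j 0) := by
    funext i
    simp only [mv, ssvRes, Pi.add_apply]
    rw [← Finset.add_sum_erase _ _ (Finset.mem_univ j),
      ← Finset.add_sum_erase _ (fun k => A (i, k) * Function.update z j 0 k) (Finset.mem_univ j)]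
    simp only [if_true, hj, mul_one, Function.update_self, mul_zero, zero_add]
    congr 1
    exact Finset.sum_congr rfl fun k hk => by
      rw [if_neg (Finset.mem_erase.1 hk).1, Function.update_of_ne (Finset.mem_erase.1 hk).1]
  rw [e, ← OG.sum_sq_mulVec O]
  have hz' : ∀ k : Fin N, M ≤ k.val → Function.update z j 0 k = 0 := fun k hk => by
    by_cases h : k = j
    · subst h; simp
    · rw [Function.update_of_ne h, hz k hk]
  calc ∑ i ∈ Finset.univ.filter (fun i : Fin N => M ≤ i.val), (Matrix.mulVec O.1 g) i ^ 2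
      = ∑ i ∈ Finset.univ.filter (fun i : Fin N => M ≤ i.val),
          (Matrix.mulVec O.1 (g + mv A (Function.update z j 0))) i ^ 2 :=
        Finset.sum_congr rfl fun i hi => by
          rw [Matrix.mulVec_add, Pi.add_apply, hO M _ hz' i (Finset.mem_filter.1 hi).2, add_zero]
    _ ≤ _ := Finset.sum_le_sum_of_subset_of_nonneg (Finset.subset_univ _) fun i _ _ => sq_nonneg _

theorem ssv {η : ℝ} (hη : 0 < η) : ∃ c : ℝ, 0 < c ∧ ∃ N₀ : ℕ, ∀ N M : ℕ, N₀ ≤ N → (M : ℝ) ≤ (1 - η) * N →
    ∃ S : Set (Fin N × Fin N → ℝ), MeasurableSet S ∧ 1 / 2 ≤ (gam (Fin N × Fin N)).real S ∧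
      ∀ A ∈ S, ∃ G : Submodule ℝ (Fin N → ℝ), (∀ z ∈ G, ∀ j : Fin N, M ≤ j.val → z j = 0) ∧
        (M : ℝ) ≤ Module.finrank ℝ G + η * N ∧
        ∀ z ∈ G, c * N * ∑ j, z j ^ 2 ≤ ∑ i, mv A z i ^ 2 := by
  classical
  obtain ⟨κ, hκ, hch⟩ := ssv_chernoff
  refine ⟨κ * η ^ 2 / 4, by positivity, ⌈8 / (κ * η ^ 2)⌉₊, fun N M hN hM => ?_⟩
  have hN1 : 8 / (κ * η ^ 2) ≤ N := (Nat.le_ceil _).trans (by exact_mod_cast hN)
  have hN0 : (0 : ℝ) < N := lt_of_lt_of_le (by positivity) hN1
  have hMN : M ≤ N := by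
    have : (M : ℝ) ≤ N := by nlinarith
    exact_mod_cast this
  set τ : ℝ := κ * η * N / 2 with hτ
  have hτ0 : 0 < τ := by positivity
  have hp : ∀ j : Fin N, (gam (Fin N × Fin N)).real (ssvBad M τ j) ≤ η / 4 := by
    intro j
    have h1 := ENNReal.toReal_mono (measure_ne_top _ _) (ssvBad_le M τ j)
    refine le_trans h1 ((hch N M τ hMN).trans ?_)
    have h2 : τ - κ * ((N : ℝ) - M) ≤ -τ := by
      have : η * N ≤ (N : ℝ) - M := by linarith
      have := mul_le_mul_of_nonneg_left this hκ.le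
      rw [hτ]; linarith
    refine (Real.exp_le_exp.2 h2).trans ?_
    have h3 : 4 / η ≤ τ := by
      rw [div_le_iff₀ (by positivity)] at hN1
      rw [div_le_iff₀ hη, hτ]; nlinarith
    have h4 := Real.add_one_le_exp τ
    rw [Real.exp_neg, inv_le_comm₀ (Real.exp_pos _) (by positivity), inv_div]
    linarith
  let X : (Fin N × Fin N → ℝ) → ℝ := fun A => ∑ j : Fin N, (ssvBad M τ j).indicator 1 A
  have hXm : Measurable X :=
    Finset.measurable_sum _ fun j _ => measurable_one.indicator (ssvBad_meas M τ j)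
  have hXi : ∀ j : Fin N, Integrable ((ssvBad M τ j).indicator (1 : (Fin N × Fin N → ℝ) → ℝ))
      (gam (Fin N × Fin N)) := fun j => (integrable_const 1).indicator (ssvBad_meas M τ j)
  have hXe : ∫ A, X A ∂gam (Fin N × Fin N) ≤ N * (η / 4) := by
    simp only [X]
    rw [integral_finsetSum _ fun j _ => hXi j]
    calc _ ≤ ∑ _j : Fin N, η / 4 := Finset.sum_le_sum fun j _ => by
          rw [integral_indicator_one (ssvBad_meas M τ j)]; exact hp j
      _ = _ := by simp
  have hX0 : ∀ A, 0 ≤ X A := fun A => Finset.sum_nonneg fun j _ =>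
    Set.indicator_nonneg (fun _ _ => zero_le_one) A
  have hmk := mul_meas_ge_le_integral_of_nonneg (μ := gam (Fin N × Fin N))
    (Filter.Eventually.of_forall hX0) (integrable_finsetSum _ fun j _ => hXi j) (η * N / 2)
  have hSm : MeasurableSet {A | η * N / 2 ≤ X A} := measurableSet_le measurable_const hXm
  refine ⟨{A | η * N / 2 ≤ X A}ᶜ, hSm.compl, ?_, fun A hA => ?_⟩
  · rw [probReal_compl_eq_one_sub hSm]
    have h1 : 0 < η * N / 2 := by positivity
    have h2 := hmk.trans hXe
    by_contra hcon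
    push Not at hcon
    nlinarith
  · have hA' : X A < η * N / 2 := not_le.1 hA
    let A' : Matrix (Fin N) (Fin N) ℝ := Matrix.of fun i j => if j.val < M then A (i, j) else 0
    have hA'z : ∀ z : Fin N → ℝ, Matrix.mulVec A' z = mv A fun j => if j.val < M then z j else 0 := by
      intro z
      funext i
      simp [A', Matrix.mulVec, dotProduct, mv]
    set B1 := Finset.univ.filter fun j : Fin N => A ∈ ssvBad M τ j with hB1
    set B2 := Finset.univ.filter fun j : Fin N => M ≤ j.val with hB2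
    obtain ⟨G, hG1, hG2, hG3⟩ := ssvA_det A' (t := κ * η ^ 2 / 4 * N) (by positivity) hτ0 (B1 ∪ B2)
      (fun j hj z hz => by
        simp only [hB1, hB2, Finset.mem_union, Finset.mem_filter, Finset.mem_univ, true_and,
          not_or, not_le] at hj
        rw [hA'z]
        by_contra hcon
        exact hj.1 ⟨_, fun k hk => if_neg (not_lt.2 hk), by simp [hj.2, hz], not_le.1 hcon⟩)
    have hsupp : ∀ z ∈ G, ∀ j : Fin N, M ≤ j.val → z j = 0 := fun z hz j hj =>
      hG1 z hz j fun i => by simp [A', hj]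
    refine ⟨G, hsupp, ?_, fun z hz => ?_⟩
    · have h1 : (B1.card : ℝ) = X A := by
        simp only [hB1, X, Set.indicator, Pi.one_apply]
        rw [Finset.sum_boole]
      have h2 : (B2.card : ℝ) = (N : ℝ) - M := by
        have : B2.card = N - M := by
          rw [hB2, ← Nat.card_Ico]
          refine Finset.card_bij (fun i _ => i.val) (fun i hi => ?_) (fun i _ j _ h => Fin.ext h)
            fun k hk => ?_
          · exact Finset.mem_Ico.2 ⟨(Finset.mem_filter.1 hi).2, i.2⟩
          · obtain ⟨h1, h2⟩ := Finset.mem_Ico.1 hk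
            exact ⟨⟨k, h2⟩, Finset.mem_filter.2 ⟨Finset.mem_univ _, h1⟩, rfl⟩
        rw [this, Nat.cast_sub hMN]
      have h3 : ((B1 ∪ B2).card : ℝ) ≤ B1.card + B2.card := by
        exact_mod_cast Finset.card_union_le _ _
      have h4 : κ * η ^ 2 / 4 * N / τ = η / 2 := by
        rw [hτ]; field_simp; norm_num
      rw [Fintype.card_fin, h4] at hG2
      linarith
    · have h1 := hG3 z hz
      rw [hA'z] at h1
      have e : (fun j : Fin N => if j.val < M then z j else 0) = z := by
        funext j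
        split_ifs with h
        · rfl
        · exact (hsupp z hz j (not_lt.1 h)).symm
      rwa [e] at h1

end Crest.Agent.R164
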