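import Crest.Agent.R164.Inc
import Crest.Agent.R164.LowAn

/-!
Row 164, task R164-Step: the free energy grows by at least the variational value along one period.

PLAN.  `Q = ⟨ε, L, N⟩`, reference system on `Fin N` with `a = aOf …` (`aOf_path`, `secTop_of_dif`, `sec_of_dif`, `cls_addL/U/P` turn the hypothesis on second differences
into `Dif ≤ e` at scale `ε σ`), `P = ⟨-εθ_n, εθ_l, ϖ, ε, ε σ, e⟩`, `z j = E0 mg`; counts from `Per.cnt_mul`.  So `RefD` holds.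
Take `L = L₀`, `η₁` from `low_an` (with `ā = 4/a0`, `Cb = max |c| + 1`, `c' j = c j + ε θ_j`, `b j = beff …`): its hypotheses follow from `rel` (`frac blk = α`; `pa n ≈ 1` by
`ov_sg_top`, `abs_top_le`; `Σ_r Tst σ_r l / N = 1 - tl p̂ l`, `abs_tl_sub_le`) and `prb` (`c' - b = L ȳ/N = L γ (z/(γN) - m)`).
Sum `inc` over `N' ∈ [N, N + n₀)` (telescoping; `Cn = n₀`), using the exact counts in a period: `Σ_{N'} f (bs N') = n₀ Σ_k α k f k`.
With `famA = Phi (gl h) b - ½ Σ Δh + …`, `Phi (gl h) b - ½ Σ h = ell ≥ ellm + b m` (`ellm_le`, `vs_gl`), `L ȳ/N = c' - b`, and `Gam` unfolded, the sum is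
`≥ n₀ (Σ γ c m + Σ γ ellm + ½ TT (Gam - (s1 - 1) + Bf) + ½ Bf 0 - small) ≥ n₀ (Σ γ c m + I₀ - η)`.
`step_crude`: `cls_close` with `Cn = n₀`.
-/

set_option autoImplicit false

namespace Crest.Agent.R164

open MeasureTheory Finset Matrix Crest.ProbabilityR.InvariantGlass

/-- every window of length `n₀` has exact proportions -/
def Per {κ : Type} [DecidableEq κ] (f : ℕ → κ) (n₀ : ℕ) (w : κ → ℝ) : Prop :=
  ∀ N k, (((Ico N (N + n₀)).filter fun i => f i = k).card : ℝ) = w k * n₀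

theorem step_cnt {κ : Type} [DecidableEq κ] (f : ℕ → κ) (N : ℕ) (k : κ) :
    cnt (fun i : Fin N => f i.val) k = ((range N).filter fun i => f i = k).card := by
  unfold cnt fib
  refine Finset.card_bij (fun i _ => i.val) (fun i hi => ?_) (fun i _ j _ h => Fin.ext h) fun i hi => ?_
  · simpa using (Finset.mem_filter.1 hi).2
  · obtain ⟨h1, h2⟩ := Finset.mem_filter.1 hi
    exact ⟨⟨i, Finset.mem_range.1 h1⟩, by simpa using h2, rfl⟩

theorem step_cnt_add {κ : Type} [DecidableEq κ] (f : ℕ → κ) {N N' : ℕ} (h : N ≤ N') (k : κ) :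
    cnt (fun i : Fin N' => f i.val) k =
      cnt (fun i : Fin N => f i.val) k + ((Ico N N').filter fun i => f i = k).card := by
  rw [step_cnt, step_cnt, Finset.card_filter, Finset.card_filter, Finset.card_filter,
    Finset.sum_range_add_sum_Ico _ h]

theorem step_cnt_diff {κ : Type} [DecidableEq κ] (f : ℕ → κ) {N N' n₀ : ℕ} (h : N ≤ N') (h' : N' ≤ N + n₀)
    (k : κ) : |(cnt (fun i : Fin N' => f i.val) k : ℝ) - cnt (fun i : Fin N => f i.val) k| ≤ n₀ := by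
  rw [step_cnt_add f h, Nat.cast_add, add_sub_cancel_left, Nat.abs_cast, Nat.cast_le]
  refine (Finset.card_filter_le _ _).trans ?_
  rw [Nat.card_Ico]
  omega

theorem Per.sum {κ : Type} [Fintype κ] [DecidableEq κ] {f : ℕ → κ} {n₀ : ℕ} {w : κ → ℝ} (h : Per f n₀ w)
    (N : ℕ) (F : κ → ℝ) : ∑ i ∈ Ico N (N + n₀), F (f i) = n₀ * ∑ k, w k * F k := by
  rw [← Finset.sum_fiberwise (Ico N (N + n₀)) f, Finset.mul_sum]
  refine Finset.sum_congr rfl fun k _ => ?_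
  rw [Finset.sum_congr rfl fun i hi => by rw [(Finset.mem_filter.1 hi).2], Finset.sum_const, nsmul_eq_mul,
    h N k]
  ring

theorem Per.cnt_mul {κ : Type} [DecidableEq κ] {f : ℕ → κ} {n₀ : ℕ} {w : κ → ℝ} (h : Per f n₀ w) (q : ℕ) (k : κ) :
    (cnt (fun i : Fin (n₀ * q) => f i.val) k : ℝ) = w k * (n₀ * q : ℕ) := by
  induction q with
  | zero => simp [step_cnt]
  | succ q ih =>
    rw [step_cnt_add f (show n₀ * q ≤ n₀ * (q + 1) from Nat.mul_le_mul_left _ (Nat.le_succ q)), Nat.cast_add, ih,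
      Nat.mul_succ, h]
    push_cast
    ring

theorem Per.cnt_close {κ : Type} [DecidableEq κ] {f : ℕ → κ} {n₀ : ℕ} {w : κ → ℝ} (h : Per f n₀ w)
    (hn : 0 < n₀) (N : ℕ) (k : κ) : |(cnt (fun i : Fin N => f i.val) k : ℝ) - w k * N| ≤ n₀ := by
  have hn' : (0 : ℝ) < n₀ := by exact_mod_cast hn
  have h0 : 0 ≤ w k := by
    have := h 0 k
    exact nonneg_of_mul_nonneg_left (this ▸ Nat.cast_nonneg _) hn'
  have h1 : w k ≤ 1 := by
    have h2 : (((Ico 0 (0 + n₀)).filter fun i => f i = k).card : ℝ) ≤ n₀ := by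
      exact_mod_cast (Finset.card_filter_le _ _).trans (by simp)
    rw [h 0 k] at h2
    exact le_of_mul_le_mul_right (by linarith) hn'
  have h2 : n₀ * (N / n₀) + N % n₀ = N := Nat.div_add_mod N n₀
  have h3 : N % n₀ < n₀ := Nat.mod_lt N hn
  have h4 : ((Ico (n₀ * (N / n₀)) N).filter fun i => f i = k).card ≤ n₀ := by
    refine (Finset.card_filter_le _ _).trans ?_
    rw [Nat.card_Ico]
    omega
  have h5 : ((n₀ * (N / n₀) : ℕ) : ℝ) + (N % n₀ : ℕ) = N := by exact_mod_cast h2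
  have h6 : ((N % n₀ : ℕ) : ℝ) ≤ n₀ := by exact_mod_cast h3.le
  have h7 : (((Ico (n₀ * (N / n₀)) N).filter fun i => f i = k).card : ℝ) ≤ n₀ := by exact_mod_cast h4
  rw [step_cnt_add f (show n₀ * (N / n₀) ≤ N by omega), Nat.cast_add, h.cnt_mul, abs_le]
  have h8 := mul_le_mul h1 h6 (Nat.cast_nonneg _) zero_le_one
  have h9 := mul_nonneg h0 (Nat.cast_nonneg (α := ℝ) (N % n₀))
  have h10 := Nat.cast_nonneg (α := ℝ) ((Ico (n₀ * (N / n₀)) N).filter fun i => f i = k).card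
  rw [← h5]
  constructor <;> linarith

theorem cnt_succ {κ : Type} [DecidableEq κ] (f : ℕ → κ) (N : ℕ) (k : κ) :
    cnt (fun i : Fin (N + 1) => f i.val) k = cnt (fun i : Fin N => f i.val) k + if k = f N then 1 else 0 := by
  rw [step_cnt_add f (Nat.le_succ N), Nat.Ico_succ_singleton, Finset.filter_singleton]
  by_cases h : f N = k
  · simp [h]
  · simp [h, Ne.symm h]

variable {𝒦 : Type} [Fintype 𝒦] [DecidableEq 𝒦] {J : ℕ} {M : Mod 𝒦 J}

/-- free energy of the first `N` terms of the periodic model -/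
noncomputable def phiN (M : Mod 𝒦 J) (G : Grid) (Q : CP) (νs : (N : ℕ) → ProbabilityMeasure (OG (Fin N)))
    (bs : ℕ → 𝒦) (ls : ℕ → Fin J) (N : ℕ) (θ : ℕ ⊕ Fin J → ℝ) : ℝ :=
  phi G (νs N) (cls M G Q (fun i : Fin N => bs i.val) (fun i : Fin N => ls i.val) θ)

theorem step_ref (hM : M.OK) {N : ℕ} {ν : ProbabilityMeasure (OG (Fin N))} (hν : IsHaar ν) {blk : Fin N → 𝒦}
    {lab : Fin N → Fin J} (hb : ∀ k, (cnt blk k : ℝ) = M.α k * N) (hl : ∀ j, (cnt lab j : ℝ) = M.γ j * N)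
    {G : Grid} {ϖ ε σ e L η' η'' : ℝ} {θ : ℕ ⊕ Fin J → ℝ} (hL : 0 < L) (h0 : 0 < η') (h1 : η' ≤ 1 / 13)
    (h2 : η' ≤ M.a0 * η'' / 2) (hG : G.Unif ϖ) (hϖ : ϖ ≤ η') (hε : 0 < ε) (hn : G.n * ε ≤ η') (hσ : 0 < σ)
    (hσ1 : σ ≤ 1 / 2) (hN : 1 ≤ η' * ε ^ 2 * N) (he : G.n * (e + 1 / η') ≤ η' * (ε * σ) * ε * N) (hθ : Box1 θ)
    (hd : ∀ d, phi G ν (cls M G ⟨ε, L, N⟩ blk lab (Function.update θ d (θ d + σ))) +
      phi G ν (cls M G ⟨ε, L, N⟩ blk lab (Function.update θ d (θ d - σ))) -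
      2 * phi G ν (cls M G ⟨ε, L, N⟩ blk lab θ) ≤ e) :
    RefD M G ⟨ε, L, N⟩ θ ν blk lab (aOf G ν (cls M G ⟨ε, L, N⟩ blk lab θ) (fib blk M.k0))
      ⟨-(ε * θ (.inl G.n)), fun l => ε * θ (.inl l), ϖ, ε, ε * σ, e⟩
      (fun j => E0 G ν (cls M G ⟨ε, L, N⟩ blk lab θ) (Ham G (dirP (mg lab j)))) η'' := by
  have ha0 := hM.atom.a0_pos
  have ha1 := hM.atom.a0_le_one
  have h3 : (3 : ℝ) ≤ G.n := by exact_mod_cast G.three_le
  have hε1 : ε ≤ 1 := by nlinarith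
  have hη'' : 0 < η'' := by
    by_contra h
    nlinarith [mul_nonneg ha0.le (neg_nonneg.2 (not_lt.1 h))]
  have h4 : 2 * η' ≤ η'' := by nlinarith
  have hN0 : (0 : ℝ) ≤ N := Nat.cast_nonneg N
  have hε2 : ε ^ 2 ≤ 1 := pow_le_one₀ hε.le hε1
  have hN1 : 1 ≤ η' * N := hN.trans (by
    rw [mul_right_comm]
    exact mul_le_of_le_one_right (by positivity) hε2)
  have hT : M.a0 * N ≤ (fib blk M.k0).card := by
    have := hb M.k0
    unfold cnt at this
    rw [this]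
    exact mul_le_mul_of_nonneg_right (hM.α_ge _) hN0
  have hNpos : (0 : ℝ) < N := by
    by_contra h
    nlinarith
  have hne : (fib blk M.k0).Nonempty := by
    rw [← Finset.card_pos]
    have : (0 : ℝ) < (fib blk M.k0).card := lt_of_lt_of_le (by positivity) hT
    exact_mod_cast this
  have hcard : (Fintype.card (Fin N) : ℝ) ≤ 4 / M.a0 * (fib blk M.k0).card := by
    rw [Fintype.card_fin, div_mul_eq_mul_div, le_div_iff₀ ha0]
    nlinarith
  have hTη : η' * N ≤ η'' * (fib blk M.k0).card := by nlinarith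
  have e1 : ε * σ / ε = σ := by field_simp
  have e2 : -(ε * σ) / ε = -σ := by field_simp
  refine ⟨⟨hε, by simp only; linarith, hL, by simp only; nlinarith⟩, hθ, hν, by simp, ?_, hb, hl,
    by simp only; nlinarith, ⟨cls_top, hcard, aOf_path hne hcard, secTop_of_dif hne cls_top ?_ fun l hl => ?_,
      ⟨hG, by simp only; linarith, hε, fun l _ => le_mul_of_one_le_right hε.le (hθ _).1, ?_, mul_pos hε hσ,
        by simp only; nlinarith, ?_, ?_⟩⟩, fun j => sec_of_dif ?_, fun j => ?_⟩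
  · rw [div_le_iff₀ hη'']
    simp only
    nlinarith
  · unfold Dif
    rw [cls_addL hε.ne', cls_addL hε.ne']
    simp only [e1, e2, sub_neg_eq_add]
    linarith [hd (.inl G.n)]
  · unfold Dif
    have hl' : l ≠ G.n := by
      have := Finset.mem_Ico.1 hl
      omega
    rw [cls_addU hε.ne' hl', cls_addU hε.ne' hl']
    simp only [e1, e2, ← sub_eq_add_neg]
    exact hd (.inl l)
  · simp only
    nlinarith [mul_le_mul_of_nonneg_left hTη (sq_nonneg ε)]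
  · simp only
    have h5 : 1 / η'' ≤ 1 / η' := one_div_le_one_div_of_le h0 (by linarith)
    have h6 := mul_le_mul_of_nonneg_left hTη (show 0 ≤ ε * σ * ε by positivity)
    have h7 := mul_le_mul_of_nonneg_left h5 (show (0 : ℝ) ≤ G.n by positivity)
    linarith
  · simp only
    have h5 : ∑ l ∈ Ico 1 (G.n - 1), ε * θ (.inl l) ≤ ∑ _l ∈ Ico 1 (G.n - 1), ε * 2 :=
      Finset.sum_le_sum fun l _ => mul_le_mul_of_nonneg_left (hθ _).2 hε.le
    have h6 : ((G.n - 1 - 1 : ℕ) : ℝ) + 1 ≤ G.n := by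
      have := G.three_le
      exact_mod_cast (show G.n - 1 - 1 + 1 ≤ G.n by omega)
    rw [Finset.sum_const, Nat.card_Ico, nsmul_eq_mul] at h5
    rw [abs_neg, abs_of_nonneg (mul_nonneg hε.le (zero_le_one.trans (hθ _).1))]
    nlinarith [mul_le_mul_of_nonneg_left (hθ (.inl G.n)).2 hε.le]
  · unfold Dif
    rw [cls_addP hε.ne', cls_addP hε.ne']
    simp only [e1, e2, ← sub_eq_add_neg]
    exact hd (.inr j)
  · refine Tree.abs_Ex_le_const (lin_Ham _ _ _) (lin_Ham _ _ _).tame (fun ω => ?_) 0 pt0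
    rw [Ham_dirP]
    refine (abs_mg_le j _).trans ?_
    simp only [cnt, Nat.cast_le]
    exact (Finset.card_le_univ _).trans (by simp)

theorem step_alg (G : Grid) (α μ : 𝒦 → ℝ) (h1 : ∑ k, α k = 1) (d : ℕ → ℝ) :
    G.TT (fun i => -∑ k, Real.log (1 - μ k * d i) - Real.log (s1 α μ (d i)) + Bf α μ (d i)) -
      ∑ k', α k' * G.TT (fun i => -∑ k ∈ univ.erase k', Real.log (1 - μ k * d i)) =
      G.TT (fun i => Gam α μ (d i) - (s1 α μ (d i) - 1) + Bf α μ (d i)) := by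
  simp only [← Grid.TT_const_mul]
  rw [← Grid.TT_sum, ← Grid.TT_sub]
  refine Grid.TT_congr fun i _ => ?_
  simp only [Finset.sum_erase_eq_sub (Finset.mem_univ _), Gam, mul_neg, mul_sub, Finset.sum_neg_distrib,
    Finset.sum_sub_distrib, ← Finset.sum_mul, h1]
  ring

theorem step (hM : M.OK) {νs : (N : ℕ) → ProbabilityMeasure (OG (Fin N))} (hν : ∀ N, IsHaar (νs N))
    {n₀ : ℕ} (hn : 0 < n₀) {bs : ℕ → 𝒦} {ls : ℕ → Fin J} (hb : Per bs n₀ M.α)
    (hl : Per ls n₀ fun j => (M.γ j : ℝ)) {I₀ : ℝ}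
    (hI : ∀ q : ℝ → ℝ, IsTrialPath q → (I₀ : EReal) ≤ constrainedEntropyPart M.γ M.m q +
      (((1 / 2) * ∫ r in Set.Ioo (0 : ℝ) 1, Rf M.α M.μ (deficit q r) : ℝ) : EReal))
    {y η : ℝ} (hy : 0 < y) (hη : 0 < η) : ∃ L : ℝ, 0 < L ∧ ∃ η' : ℝ, 0 < η' ∧
    ∀ (G : Grid) (ϖ ε σ e : ℝ) (q : ℕ) (θ : ℕ ⊕ Fin J → ℝ), G.ζ 0 = y → G.Unif ϖ → ϖ ≤ η' → 0 < ε →
      G.n * ε ≤ η' → 0 < σ → σ ≤ 1 / 2 → 1 ≤ η' * ε ^ 2 * (n₀ * q : ℕ) →
      G.n * (e + 1 / η') ≤ η' * (ε * σ) * ε * (n₀ * q : ℕ) → Box1 θ →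
      (∀ d, phiN M G ⟨ε, L, (n₀ * q : ℕ)⟩ νs bs ls (n₀ * q) (Function.update θ d (θ d + σ)) +
        phiN M G ⟨ε, L, (n₀ * q : ℕ)⟩ νs bs ls (n₀ * q) (Function.update θ d (θ d - σ)) -
        2 * phiN M G ⟨ε, L, (n₀ * q : ℕ)⟩ νs bs ls (n₀ * q) θ ≤ e) →
      n₀ * (∑ j, (M.γ j : ℝ) * M.c j * M.m j + I₀ - η) ≤
        phiN M G ⟨ε, L, (n₀ * q : ℕ)⟩ νs bs ls (n₀ * q + n₀) θ -
          phiN M G ⟨ε, L, (n₀ * q : ℕ)⟩ νs bs ls (n₀ * q) θ := by
  have hH : HaarAll := fun N => ⟨νs N, hν N⟩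
  have ha0 := hM.atom.a0_pos
  have hγ : ∀ j, (0 : ℝ) < M.γ j := fun j => by exact_mod_cast hM.γ_pos j
  have hγ1 : ∑ j, (M.γ j : ℝ) = 1 := by exact_mod_cast hM.γ_sum
  have hγ2 : ∀ j, (M.γ j : ℝ) ≤ 1 := fun j =>
    hγ1 ▸ Finset.single_le_sum (f := fun j => (M.γ j : ℝ)) (fun j _ => (hγ j).le) (Finset.mem_univ j)
  obtain ⟨L, hL, η₁, hη₁, hlow⟩ := low_an hM.atom M.γ M.m hM.γ_pos hM.γ_sum hM.m_lt hy (4 / M.a0)
    (∑ j, |M.c j| + 1) (show 0 < η / 4 by positivity)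
  obtain ⟨ηr, hηr, hrel⟩ := rel 𝒦 (ā := 4 / M.a0) (Λ := M.Λ) hy (show 0 < η₁ / 3 by positivity)
  obtain ⟨ηp, hηp, hprb⟩ := prb hM hH hy (show 0 < η₁ / 3 by positivity) L
  obtain ⟨ηi, hηi, hinc⟩ := inc hM hH hy (show 0 < η / 4 by positivity) L n₀
  refine ⟨L, hL, min (min (min (1 / 13) η₁) (η / 2))
    (min (min (M.a0 * ηr / 2) (M.a0 * ηp / 2)) (M.a0 * ηi / 2)), by positivity, ?_⟩
  intro G ϖ ε σ e q θ hy0 hG hϖ hε hnε hσ hσ1 hN he hθ hd
  generalize hη' : min (min (min (1 / 13) η₁) (η / 2))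
    (min (min (M.a0 * ηr / 2) (M.a0 * ηp / 2)) (M.a0 * ηi / 2)) = η' at *
  have h0 : 0 < η' := by
    rw [← hη']
    positivity
  obtain ⟨⟨⟨m1, m2⟩, m3⟩, ⟨m4, m5⟩, m6⟩ : ((η' ≤ 1 / 13 ∧ η' ≤ η₁) ∧ η' ≤ η / 2) ∧
      (η' ≤ M.a0 * ηr / 2 ∧ η' ≤ M.a0 * ηp / 2) ∧ η' ≤ M.a0 * ηi / 2 := by
    simpa only [le_min_iff] using hη'.ge
  clear hη'
  have hb' := hb.cnt_mul q
  have hl' := hl.cnt_mul q
  generalize n₀ * q = N at *
  have href := fun η'' h => step_ref hM (hν N) hb' hl' (η'' := η'') hL h0 m1 h hG hϖ hε hnε hσ hσ1 hN he hθ hd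
  set Q : CP := ⟨ε, L, N⟩ with hQ
  set blk := fun i : Fin N => bs i.val with hblk
  set lab := fun i : Fin N => ls i.val with hlab
  set S := cls M G Q blk lab θ with hS
  set a := aOf G (νs N) S (fib blk M.k0) with ha
  set z := fun j => E0 G (νs N) S (Ham G (dirP (mg lab j))) with hz
  set h := fun l => ε ^ 2 + G.dh (fun i => Bf M.α M.μ (G.D a i)) l with hh
  set b := fun j => beff M Q θ j (ybar M Q z j) with hbdef
  have hR := href ηr m4
  have hN1 : (1 : ℝ) ≤ N := hR.ok.N0_ge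
  have h3 : (3 : ℝ) ≤ G.n := by exact_mod_cast G.three_le
  have hε3 : 3 * ε ≤ η' := (mul_le_mul_of_nonneg_right h3 hε.le).trans hnε
  have hfrac : frac blk = M.α := by
    funext k
    have := hb' k
    unfold cnt fib at this
    rw [frac, this, Fintype.card_fin]
    field_simp
  have h1 := (hrel (Fin N) G (νs N) S blk M.k0 M.μ a _ hy0 (hν N) hM.atom.mem hM.μ0
    (fun i hi => by simp [hS, cls, hi]) hR.pin).1
  rw [hfrac, Fintype.card_fin] at h1
  set pa := G.pathOf fun i => gf M.α M.μ (G.D a i) with hpa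
  set ph := fun k => (∑ r, ov G (νs N) S (sg G r) (sg G r) k) / (N : ℝ) with hph
  have hph1 : ph G.n = 1 := by
    simp only [hph, ov_sg_top, Finset.sum_const, Finset.card_univ, Fintype.card_fin, nsmul_eq_mul]
    field_simp
  have h2 : |ph G.n - pa G.n| ≤ η₁ / 3 := (Grid.abs_top_le (e := fun k => ph k - pa k)).trans h1
  have h4 := hprb (Fin N) G Q θ (νs N) blk lab a _ z h hy0 rfl (href ηp m5) rfl
  obtain ⟨q', hq', hle⟩ := hlow L G ϖ a (fun _ => ε ^ 2) h pa b (fun j => M.c j + ε * θ (.inr j)) le_rfl hy0 hG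
    hR.pin.path (fun _ _ => sq_nonneg ε) (by
      have h6 : ((G.n - 1 - 1 : ℕ) : ℝ) ≤ G.n := by exact_mod_cast (show G.n - 1 - 1 ≤ G.n by omega)
      rw [Finset.sum_const, Nat.card_Ico, nsmul_eq_mul]
      have h7 := mul_le_mul_of_nonneg_right h6 (sq_nonneg ε)
      have h8 := mul_le_mul_of_nonneg_right hnε hε.le
      have h9 := mul_le_mul_of_nonneg_left (show ε ≤ 1 by linarith) h0.le
      linarith) rfl rfl (by
      rw [hph1, abs_sub_comm] at h2
      linarith) (fun j => by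
      refine (abs_add_le _ _).trans (add_le_add (Finset.single_le_sum (f := fun j => |M.c j|)
        (fun j _ => abs_nonneg _) (Finset.mem_univ j)) ?_)
      rw [abs_of_nonneg (mul_nonneg hε.le (zero_le_one.trans (hθ _).1))]
      linarith [mul_le_mul_of_nonneg_left (hθ (.inr j)).2 hε.le]) (fun j => by
      have h5 : M.c j + ε * θ (.inr j) - b j - L * M.γ j * (M1 G h (b j) - M.m j) =
          L * (M.γ j * (z j / (M.γ j * N) - M1 G h (b j))) := by
        have := (hγ j).ne'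
        simp only [hbdef, beff, ybar, hQ]
        field_simp
        ring
      rw [h5, abs_mul, abs_of_pos hL, abs_mul, abs_of_pos (hγ j)]
      refine mul_le_mul_of_nonneg_left ?_ hL.le
      have h6 := mul_le_mul (hγ2 j) (h4 j).1 (abs_nonneg _) zero_le_one
      linarith) (fun l hl => by
      have h5 : ∑ j, (M.γ j : ℝ) * ((∑ r ∈ fib lab j, Tst G (νs N) S (sg G r) l) / (M.γ j * N)) =
          ph G.n - G.tl ph l := by
        have h6 : ∀ j, (M.γ j : ℝ) * ((∑ r ∈ fib lab j, Tst G (νs N) S (sg G r) l) / (M.γ j * N)) =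
            (∑ r ∈ fib lab j, Tst G (νs N) S (sg G r) l) / N := fun j => by
          have := (hγ j).ne'
          field_simp
        simp only [h6]
        simp only [fib]
        rw [← Finset.sum_div, Finset.sum_fiberwise]
        simp only [Tst, hph, Grid.tl, Finset.sum_sub_distrib, sub_div]
        congr 1
        rw [Finset.sum_comm, Finset.sum_div]
        refine Finset.sum_congr rfl fun k _ => ?_
        rw [← Finset.mul_sum, mul_div_assoc]
      have h6 : |(ph G.n - G.tl ph l) - ∑ j, (M.γ j : ℝ) * T1 G h (b j) l| ≤ η₁ / 3 := by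
        rw [← h5, ← Finset.sum_sub_distrib]
        refine (Finset.abs_sum_le_sum_abs _ _).trans ?_
        calc _ ≤ ∑ j, (M.γ j : ℝ) * (η₁ / 3) := Finset.sum_le_sum fun j _ => by
              rw [← mul_sub, abs_mul, abs_of_pos (hγ j)]
              exact mul_le_mul_of_nonneg_left ((h4 j).2 l hl) (hγ j).le
          _ = _ := by rw [← Finset.sum_mul, hγ1, one_mul]
      have h7 := abs_le.1 ((Grid.abs_tl_sub_le (Q := ph) (R := pa) l).trans h1)
      have h8 := abs_le.1 h2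
      have h9 := abs_le.1 h6
      rw [abs_le]
      constructor <;> linarith only [h7.1, h7.2, h8.1, h8.2, h9.1, h9.2])
  have h5 := (hI q' hq').trans (add_le_add_left hle _)
  rw [← EReal.coe_add, EReal.coe_le_coe_iff] at h5
  have h6 : ∑ i ∈ Ico N (N + n₀), ((famA G M.α M.μ a (fun _ => ε ^ 2) (b (ls i)) +
      L * ybar M Q z (ls i) / N * M.m (ls i)) -
      (1 / 2) * G.TT (fun t => -∑ k ∈ univ.erase (bs i), Real.log (1 - M.μ k * G.D a t)) - η / 4) ≤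
      ∑ i ∈ Ico N (N + n₀), (phiN M G Q νs bs ls (i + 1) θ - phiN M G Q νs bs ls i θ) :=
    Finset.sum_le_sum fun i hi => by
      obtain ⟨i1, i2⟩ := Finset.mem_Ico.1 hi
      exact hinc (Fin N) (Fin i) (Fin (i + 1)) G Q θ (νs N) blk lab a _ z (νs i) _ _ (νs (i + 1)) _ _ (bs i)
        (ls i) hy0 rfl (href ηi m6) (hν _) (hν _) (step_cnt_diff bs i1 i2.le) (step_cnt_diff ls i1 i2.le)
        (cnt_succ bs i) (cnt_succ ls i)
  rw [Finset.sum_Ico_sub (fun i => phiN M G Q νs bs ls i θ) (Nat.le_add_right N n₀), Finset.sum_sub_distrib,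
    Finset.sum_sub_distrib, hl.sum N (fun j => famA G M.α M.μ a (fun _ => ε ^ 2) (b j) +
      L * ybar M Q z j / N * M.m j),
    hb.sum N (fun k' => (1 / 2) * G.TT (fun t => -∑ k ∈ univ.erase k', Real.log (1 - M.μ k * G.D a t))),
    Finset.sum_const, Nat.card_Ico, Nat.add_sub_cancel_left, nsmul_eq_mul, ← mul_sub, ← mul_sub] at h6
  refine le_trans (mul_le_mul_of_nonneg_left ?_ (Nat.cast_nonneg _)) h6
  have hadm : Adm (G.gl h) := G.adm_glFrom fun l _ =>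
    add_nonneg (sq_nonneg ε) (hR.pin.path.dh_nonneg hM.atom.Bf_mono l)
  have h7 : ∑ j, (M.γ j : ℝ) * (M.c j * M.m j + ellm (G.gl h) (M.m j) +
      ((1 / 2) * G.TT (fun i => -∑ k, Real.log (1 - M.μ k * G.D a i) - Real.log (s1 M.α M.μ (G.D a i)) +
        Bf M.α M.μ (G.D a i)) + (1 / 2) * Bf M.α M.μ 0 - 2 * ε)) ≤
      ∑ j, (M.γ j : ℝ) * (famA G M.α M.μ a (fun _ => ε ^ 2) (b j) + L * ybar M Q z j / N * M.m j) :=
    Finset.sum_le_sum fun j _ => by
      refine mul_le_mul_of_nonneg_left ?_ (hγ j).le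
      have h8 := ellm_le hadm (hM.m_lt j) (b j)
      rw [ell, G.vs_gl, Finset.sum_add_distrib] at h8
      have h9 : 0 ≤ ∑ _l ∈ Ico 1 (G.n - 1), ε ^ 2 := Finset.sum_nonneg fun _ _ => sq_nonneg ε
      have h10 : b j = M.c j + ε * θ (.inr j) - L * ybar M Q z j / N := rfl
      have h11 : |ε * θ (.inr j) * M.m j| ≤ ε * 2 * 1 := by
        rw [abs_mul, abs_of_nonneg (mul_nonneg hε.le (zero_le_one.trans (hθ _).1))]
        exact mul_le_mul (mul_le_mul_of_nonneg_left (hθ _).2 hε.le) (hM.m_lt j).le (abs_nonneg _)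
          (by positivity)
      have h12 : b j * M.m j = M.c j * M.m j + ε * θ (.inr j) * M.m j - L * ybar M Q z j / N * M.m j := by
        rw [h10]
        ring
      unfold famA
      linarith only [h8, h9, h12, (abs_le.1 h11).1]
  have h8 := step_alg G M.α M.μ hM.atom.sum_one (G.D a)
  simp only [mul_add (M.γ _ : ℝ), Finset.sum_add_distrib, ← Finset.sum_mul, hγ1, one_mul, ← mul_assoc] at h7
  have h9 : ∑ k, M.α k * ((1 / 2) * G.TT (fun t => -∑ k' ∈ univ.erase k, Real.log (1 - M.μ k' * G.D a t))) =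
      (1 / 2) * ∑ k, M.α k * G.TT (fun t => -∑ k' ∈ univ.erase k, Real.log (1 - M.μ k' * G.D a t)) := by
    rw [Finset.mul_sum]
    exact Finset.sum_congr rfl fun _ _ => by ring
  rw [h9]
  simp only [mul_add (M.γ _ : ℝ), Finset.sum_add_distrib, ← mul_assoc]
  linarith only [h5, h7, h8, hε3, m3, hε]

theorem step_crude (hM : M.OK) {νs : (N : ℕ) → ProbabilityMeasure (OG (Fin N))} (hν : ∀ N, IsHaar (νs N))
    {n₀ : ℕ} (hn : 0 < n₀) {bs : ℕ → 𝒦} {ls : ℕ → Fin J} (hb : Per bs n₀ M.α)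
    (hl : Per ls n₀ fun j => (M.γ j : ℝ)) (L : ℝ) : ∃ C : ℝ, 0 ≤ C ∧ ∃ N₁ : ℕ,
    ∀ (G : Grid) (Q : CP) (N N' : ℕ) (θ : ℕ ⊕ Fin J → ℝ), Q.OK G → Q.L = L → Q.N0 = N → N₁ ≤ N → N ≤ N' →
      N' ≤ N + n₀ → Box θ → |phiN M G Q νs bs ls N' θ - phiN M G Q νs bs ls N θ| ≤ C := by
  have _ := hl
  have ha0 := hM.atom.a0_pos
  obtain ⟨C, hC, N₁, h⟩ := cls_close hM (fun N => ⟨νs N, hν N⟩) L n₀
  refine ⟨C, hC, ⌈N₁⌉₊ + n₀ + ⌈2 * n₀ / M.a0⌉₊, fun G Q N N' θ hQ hL hN h1 h2 h3 hθ => ?_⟩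
  have hreg : ∀ K : ℕ, N ≤ K → K ≤ N + n₀ → Reg M Q fun i : Fin K => bs i.val := by
    intro K k1 k2
    have k3 : (N : ℝ) ≤ K := by exact_mod_cast k1
    have k4 : (K : ℝ) ≤ 2 * N := by exact_mod_cast (show K ≤ 2 * N by omega)
    have k5 : (0 : ℝ) ≤ N := Nat.cast_nonneg N
    refine ⟨by rw [hN, Fintype.card_fin]; linarith, by rw [hN, Fintype.card_fin]; exact k4, fun k => ?_⟩
    have k6 := (abs_le.1 (hb.cnt_close hn K k)).1
    have k7 : 2 * n₀ / M.a0 ≤ K := (Nat.ceil_le.1 (show ⌈2 * n₀ / M.a0⌉₊ ≤ K by omega))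
    rw [div_le_iff₀ ha0] at k7
    have k8 := mul_le_mul_of_nonneg_right (hM.α_ge k) (Nat.cast_nonneg (α := ℝ) K)
    rw [Fintype.card_fin]
    linarith
  refine h (Fin N) (Fin N') G Q θ (νs N) (νs N') _ _ _ _ hQ hL ?_ hθ (hν N) (hν N')
    (hreg N le_rfl (Nat.le_add_right _ _)) (hreg N' h2 h3) (fun k => ?_) fun j => ?_
  · rw [hN]
    exact Nat.ceil_le.1 (by omega)
  · rw [abs_sub_comm]
    exact step_cnt_diff bs h2 h3 k
  · rw [abs_sub_comm]
    exact step_cnt_diff ls h2 h3 j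

end Crest.Agent.R164
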