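import Crest.Agent.R164.Sys

/-!
Row 164: small helpers for the tasks Sym and Fact.
-/

set_option autoImplicit false
set_option linter.unusedSectionVars false

namespace Crest.Agent.R164

namespace SymA

open MeasureTheory Finset Matrix ProbabilityTheory

variable {ι : Type} [Fintype ι] [DecidableEq ι] {G : Grid} {ν : ProbabilityMeasure (OG ι)}

theorem mp_int {α β : Type*} [MeasurableSpace α] [MeasurableSpace β] {μ : Measure α} {μ' : Measure β}
    {f : α → β} (h : MeasurePreserving f μ μ') {g : β → ℝ} (hg : Measurable g) :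
    ∫ y, g y ∂μ' = ∫ x, g (f x) ∂μ := by
  rw [← h.map_eq, integral_map h.measurable.aemeasurable hg.aestronglyMeasurable]

theorem n0 (G : Grid) : 0 < G.n := by have := G.three_le; omega
theorem n1 (G : Grid) : G.n - 1 < G.n := by have := G.three_le; omega
theorem n2 (G : Grid) : 1 ≤ G.n - 1 := by have := G.three_le; omega

theorem Ham_eq_of (S : Sys ι) {ω ω' : Pth ι} (h0 : (ω 0).1 = (ω' 0).1)
    (h : ∀ l, 1 ≤ l → l < G.n → (ω l).2 = (ω' l).2) : Ham G S ω = Ham G S ω' := by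
  have e1 : sb G ω = sb G ω' := by unfold sb; rw [h _ (n2 G) (n1 G)]
  have e2 : xv G ω = xv G ω' := by unfold xv; rw [h0, e1]
  unfold Ham xx sg
  rw [e1, e2]
  congr 1
  refine sum_congr rfl fun l hl => ?_
  rw [mem_Ico] at hl
  unfold gs gx
  rw [h l hl.1 (by omega)]

theorem sum_exp_sp (h : ι → ℝ) :
    (1 / 2 : ℝ) ^ Fintype.card ι * ∑ σ : ι → Bool, Real.exp (∑ r, h r * sp σ r) = ∏ r, Real.cosh (h r) := by
  have e : ∏ r, Real.cosh (h r) =
      ∏ r, ((1 / 2 : ℝ) * ∑ b : Bool, Real.exp (h r * if b then 1 else -1)) := by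
    refine prod_congr rfl fun r _ => ?_
    rw [Real.cosh_eq]
    simp
    ring
  rw [e, prod_mul_distrib, prod_const, card_univ, prod_univ_sum, Fintype.piFinset_univ]
  simp only [Real.exp_sum, sp]

theorem int_spin (F : (ι → Bool) → ℝ) :
    ∫ e, F e.2.2.2 ∂(tree G ν).γ = (1 / 2) ^ Fintype.card ι * ∑ σ, F σ := by
  refine (integral_fun_snd (f := fun p : (ι → ℝ) × (ι → ℝ) × (ι → Bool) => F p.2.2)).trans ?_
  rw [integral_fun_snd (f := fun p : (ι → ℝ) × (ι → Bool) => F p.2), integral_fun_snd, integral_unif]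
  simp

theorem int_gs (F : (ι → ℝ) → ℝ) : ∫ e, F e.2.1 ∂(tree G ν).γ = ∫ g, F g ∂gam ι := by
  refine (integral_fun_snd (f := fun p : (ι → ℝ) × (ι → ℝ) × (ι → Bool) => F p.1)).trans ?_
  rw [integral_fun_fst]
  simp

theorem int_root (F : OG ι → ℝ) : ∫ e, F e.1 ∂(tree G ν).γ = ∫ U, F U ∂(ν : Measure (OG ι)) := by
  change ∫ e : Noise ι, F e.1 ∂(Measure.prod _ _) = _
  rw [integral_fun_fst]
  simp

theorem loc_sb (F : (ι → Bool) → ℝ) : Loc G fun ω : Pth ι => F (sb G ω) := fun ω ω' h => by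
  simp only [sb, h _ (n1 G)]

theorem loc_xv (F : (ι → ℝ) → ℝ) : Loc G fun ω : Pth ι => F (xv G ω) := fun ω ω' h => by
  simp only [xv, sb, h _ (n1 G), h _ (n0 G)]

end SymA

end Crest.Agent.R164
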