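import Crest.Agent.R164.IBP
import Crest.Agent.R164.Gam
import Crest.Agent.R164.One

/-!
Row 164, task R164-Sys: the spin systems on the tree.  Level `0` carries the orthogonal matrix `U`, the levels `1, …, n-2`
carry Gaussian fields (on the spins `σ` and on `x = U σ`), level `n-1` carries the spins.

PLAN.  Everything here is bookkeeping on top of `Tree`, `Chi`, `Deriv`, `IBP`: measurability/boundedness of `sg`, `xx`
(`|xx| ≤ card ι`), `|gs ω l i| ≤ sz ω` for `l < n`.  Shifts: `gam_cm` + Fubini on the product (`integral_prod`, integrability from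
the growth hypothesis and `ρ_exp`).  `EE_field*`: `Shift.ibp_self` with the shift in direction `Pi.single i 1` (`φ = s l i * sg i`).
`E0_Ham`: linearity, tower property.  `phi_deriv`: `Ham` is a finite combination of fixed `Lin` functions (`pot σ = Σ_σ' pot σ' 1[σ = σ']`),
`LFam.comb` (index type a sum type, or add a lemma `LFam.add`), `LFam.X`.  `base_indep`: `Tree.map` with `π = id`, `l₀ = 0`.
`phi_fields_mono`: `phi_tangent` at `S'` and `E0_Ham`, `Tst_mem`.  `phi_dom`: interpolate `u_r = u' + r (u - u')`,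
`lam_r = lam + Σ_l (u² - u_r²)`, similarly for `s` (constant added to `pot`); the derivative is `≤ 0` since `Tst ≤ ov n`.
-/

set_option autoImplicit false

namespace Crest.Agent.R164

open MeasureTheory Finset Matrix ProbabilityTheory

abbrev Noise (ι : Type) [Fintype ι] [DecidableEq ι] : Type := OG ι × (ι → ℝ) × (ι → ℝ) × (ι → Bool)

noncomputable def bern : Measure Bool := (2 : ENNReal)⁻¹ • Measure.count

instance : IsProbabilityMeasure bern := by
  constructor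
  simp only [bern, Measure.smul_apply, Measure.count_univ, ENat.card_eq_coe_fintype_card,
    Fintype.card_bool, smul_eq_mul]
  exact ENNReal.inv_mul_cancel (by norm_num) (by norm_num)

noncomputable def unif (ι : Type) [Fintype ι] : Measure (ι → Bool) := Measure.pi fun _ => bern

instance {ι : Type} [Fintype ι] : IsProbabilityMeasure (unif ι) := by unfold unif; infer_instance

variable {ι : Type} [Fintype ι] [DecidableEq ι]

theorem integral_unif (F : (ι → Bool) → ℝ) :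
    ∫ σ, F σ ∂unif ι = (1 / 2) ^ Fintype.card ι * ∑ σ, F σ := by
  rw [integral_fintype Integrable.of_finite, Finset.mul_sum]
  refine Finset.sum_congr rfl fun σ _ => ?_
  have h1 : ∀ b : Bool, bern {b} = 2⁻¹ := fun b => by simp [bern]
  rw [Measure.real, unif, Measure.pi_singleton]
  simp [h1]

noncomputable def tree (G : Grid) (ν : ProbabilityMeasure (OG ι)) : Tree (Noise ι) where
  γ := (ν : Measure (OG ι)).prod ((gam ι).prod ((gam ι).prod (unif ι)))
  prob := inferInstance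
  ρ := fun e => ∑ i, |e.2.1 i| + ∑ i, |e.2.2.1 i|
  ρ_meas := by
    fun_prop
  ρ_nonneg := by
    intro e
    positivity
  ρ_exp := by
    intro c
    have h1 := ((gam_exp (ι := ι) c).mul_prod ((gam_exp (ι := ι) c).comp_fst (unif ι))).comp_snd
      (ν : Measure (OG ι))
    refine h1.congr (Filter.Eventually.of_forall fun e => ?_)
    simp only [mul_add, Real.exp_add]
  n := G.n
  ζ := G.ζ
  ζ_pos := G.pos
  ζ_le := G.le_one
  ζ_mono := G.mono

structure Sys (ι : Type) where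
  lam : ι → ℝ
  pot : (ι → Bool) → ℝ
  s : ℕ → ι → ℝ
  u : ℕ → ι → ℝ

abbrev Pth (ι : Type) [Fintype ι] [DecidableEq ι] : Type := ℕ → Noise ι

def sb (G : Grid) (ω : Pth ι) : ι → Bool := (ω (G.n - 1)).2.2.2
def sg (G : Grid) (i : ι) (ω : Pth ι) : ℝ := sp (sb G ω) i
def xv (G : Grid) (ω : Pth ι) : ι → ℝ := (ω 0).1.1 *ᵥ sp (sb G ω)
def xx (G : Grid) (i : ι) (ω : Pth ι) : ℝ := xv G ω i
/-- a linear form in `x` -/
def xl (G : Grid) (v : ι → ℝ) (ω : Pth ι) : ℝ := v ⬝ᵥ xv G ω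
def gs (l : ℕ) (i : ι) (ω : Pth ι) : ℝ := (ω l).2.1 i
def gx (l : ℕ) (i : ι) (ω : Pth ι) : ℝ := (ω l).2.2.1 i

noncomputable def Ham (G : Grid) (S : Sys ι) (ω : Pth ι) : ℝ :=
  (1 / 2) * ∑ i, S.lam i * xx G i ω ^ 2 + S.pot (sb G ω) +
    ∑ l ∈ Ico 1 (G.n - 1), ∑ i, (S.s l i * (gs l i ω * sg G i ω) + S.u l i * (gx l i ω * xx G i ω))

def pt0 : Pth ι := fun _ => (1, 0, 0, fun _ => true)

noncomputable def phi (G : Grid) (ν : ProbabilityMeasure (OG ι)) (S : Sys ι) : ℝ :=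
  (tree G ν).X (Ham G S) 0 pt0
noncomputable def EE (G : Grid) (ν : ProbabilityMeasure (OG ι)) (S : Sys ι) (i : ℕ) (f : Pth ι → ℝ) :
    Pth ι → ℝ := (tree G ν).Ex (Ham G S) i f
noncomputable def E0 (G : Grid) (ν : ProbabilityMeasure (OG ι)) (S : Sys ι) (f : Pth ι → ℝ) : ℝ :=
  EE G ν S 0 f pt0
/-- overlap path of two observables -/
noncomputable def ov (G : Grid) (ν : ProbabilityMeasure (OG ι)) (S : Sys ι) (f g : Pth ι → ℝ) (i : ℕ) : ℝ :=
  if i = 0 then 0 else E0 G ν S fun ω => EE G ν S i f ω * EE G ν S i g ω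
noncomputable def Tst (G : Grid) (ν : ProbabilityMeasure (OG ι)) (S : Sys ι) (f : Pth ι → ℝ) (l : ℕ) : ℝ :=
  ov G ν S f f G.n - G.tl (ov G ν S f f) l

def Sys.add (S D : Sys ι) (t : ℝ) : Sys ι where
  lam := fun i => S.lam i + t * D.lam i
  pot := fun σ => S.pot σ + t * D.pot σ
  s := fun l i => S.s l i + t * D.s l i
  u := fun l i => S.u l i + t * D.u l i

def dirL (v : ι → ℝ) : Sys ι := ⟨v, fun _ => 0, fun _ _ => 0, fun _ _ => 0⟩
def dirP (F : (ι → Bool) → ℝ) : Sys ι := ⟨fun _ => 0, F, fun _ _ => 0, fun _ _ => 0⟩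
def dirS (l : ℕ) (v : ι → ℝ) : Sys ι := ⟨fun _ => 0, fun _ => 0, fun l' i => if l' = l then v i else 0, fun _ _ => 0⟩
def dirU (l : ℕ) (v : ι → ℝ) : Sys ι := ⟨fun _ => 0, fun _ => 0, fun _ _ => 0, fun l' i => if l' = l then v i else 0⟩
def ind (T : Finset ι) : ι → ℝ := fun i => if i ∈ T then 1 else 0

/-- depends only on the coordinates `< n` -/
def Loc (G : Grid) (f : Pth ι → ℝ) : Prop := ∀ ω ω' : Pth ι, (∀ i, i < G.n → ω i = ω' i) → f ω = f ω'

variable {G : Grid} {ν : ProbabilityMeasure (OG ι)} {S S' D : Sys ι} {f g : Pth ι → ℝ} {l : ℕ}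

theorem sys_meas_sb : Measurable (sb G : Pth ι → ι → Bool) := by
  unfold sb
  fun_prop

theorem sys_meas_spin (F : (ι → Bool) → ℝ) : Measurable fun ω : Pth ι => F (sb G ω) :=
  (measurable_of_finite F).comp sys_meas_sb

theorem sys_meas_U (i j : ι) : Measurable fun ω : Pth ι => (ω 0).1.1 i j :=
  (measurable_entry i j).comp (measurable_fst.comp (measurable_pi_apply 0))

theorem sys_xx_eq (i : ι) (ω : Pth ι) : xx G i ω = ∑ r, (ω 0).1.1 i r * sg G r ω := rfl

theorem sys_meas_xv : Measurable (xv G : Pth ι → ι → ℝ) :=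
  measurable_pi_lambda _ fun i => Finset.measurable_sum _ fun r _ =>
    (sys_meas_U i r).mul (sys_meas_spin fun σ => sp σ r)

theorem abs_sg (i : ι) (ω : Pth ι) : |sg G i ω| = 1 := by
  exact abs_sp _ _
theorem sg_sq (i : ι) (ω : Pth ι) : sg G i ω ^ 2 = 1 := by
  exact sp_sq _ _
theorem sum_xx_sq (ω : Pth ι) : ∑ i, xx G i ω ^ 2 = Fintype.card ι := by
  exact OG.sum_sq_sp _ _
theorem xl_single (i : ι) : xl G (Pi.single i 1) = xx G i := by
  funext ω
  simp [xl, xx]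
theorem xl_sq_le (v : ι → ℝ) (ω : Pth ι) : xl G v ω ^ 2 ≤ (v ⬝ᵥ v) * Fintype.card ι := by
  rw [← sum_xx_sq (G := G) ω]
  have := Finset.sum_mul_sq_le_sq_mul_sq Finset.univ v (xv G ω)
  simpa [xl, xx, dotProduct, sq] using this
theorem lin_spin (F : (ι → Bool) → ℝ) : (tree G ν).Lin fun ω => F (sb G ω) := by
  exact Tree.Lin.of_bdd (sys_meas_spin F) (C := ∑ σ, |F σ|) fun ω =>
    Finset.single_le_sum (f := fun σ => |F σ|) (fun _ _ => abs_nonneg _) (Finset.mem_univ _)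
theorem lin_sg (i : ι) : (tree G ν).Lin (sg G i) := by
  exact lin_spin fun σ => sp σ i
theorem sys_abs_xx (i : ι) (ω : Pth ι) : |xx G i ω| ≤ 1 + Fintype.card ι := by
  have h1 : xx G i ω ^ 2 ≤ Fintype.card ι := by
    rw [← sum_xx_sq (G := G) ω]
    exact Finset.single_le_sum (f := fun i => xx G i ω ^ 2) (fun _ _ => sq_nonneg _)
      (Finset.mem_univ _)
  rw [← sq_abs] at h1
  nlinarith [abs_nonneg (xx G i ω), sq_nonneg (|xx G i ω| - 1)]
theorem lin_xx (i : ι) : (tree G ν).Lin (xx G i) := by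
  exact Tree.Lin.of_bdd ((measurable_pi_apply i).comp sys_meas_xv) (sys_abs_xx i)
theorem lin_xl (v : ι → ℝ) : (tree G ν).Lin (xl G v) := by
  exact Tree.Lin.sum Finset.univ fun i _ => (lin_xx i).const_mul (v i)
/-- continuous functions of `x` are bounded on the sphere -/
theorem lin_xv {F : (ι → ℝ) → ℝ} (hF : Continuous F) : (tree G ν).Lin fun ω => F (xv G ω) := by
  obtain ⟨C, hC⟩ := (isCompact_closedBall (0 : ι → ℝ) (1 + Fintype.card ι)).exists_bound_of_continuousOn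
    hF.continuousOn
  refine Tree.Lin.of_bdd (hF.measurable.comp sys_meas_xv) (C := C) fun ω => hC _ ?_
  rw [mem_closedBall_zero_iff, pi_norm_le_iff_of_nonneg (by positivity)]
  exact fun i => sys_abs_xx i ω
theorem lin_gs (hl : l < G.n) (i : ι) : (tree G ν).Lin (gs l i) := by
  refine ⟨by unfold gs; fun_prop, 1, fun ω => ?_⟩
  have h1 := Tree.ibp_rho_le (T := tree G ν) hl ω
  have h2 : |gs l i ω| ≤ ∑ j, |(ω l).2.1 j| :=
    Finset.single_le_sum (f := fun j => |(ω l).2.1 j|) (fun _ _ => abs_nonneg _) (Finset.mem_univ i)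
  have h3 : 0 ≤ ∑ j, |(ω l).2.2.1 j| := by positivity
  have h4 : (tree G ν).ρ (ω l) = ∑ j, |(ω l).2.1 j| + ∑ j, |(ω l).2.2.1 j| := rfl
  linarith
theorem lin_gx (hl : l < G.n) (i : ι) : (tree G ν).Lin (gx l i) := by
  refine ⟨by unfold gx; fun_prop, 1, fun ω => ?_⟩
  have h1 := Tree.ibp_rho_le (T := tree G ν) hl ω
  have h2 : |gx l i ω| ≤ ∑ j, |(ω l).2.2.1 j| :=
    Finset.single_le_sum (f := fun j => |(ω l).2.2.1 j|) (fun _ _ => abs_nonneg _) (Finset.mem_univ i)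
  have h3 : 0 ≤ ∑ j, |(ω l).2.1 j| := by positivity
  have h4 : (tree G ν).ρ (ω l) = ∑ j, |(ω l).2.1 j| + ∑ j, |(ω l).2.2.1 j| := rfl
  linarith
theorem sys_lin_xsq (i : ι) : (tree G ν).Lin fun ω => xx G i ω ^ 2 :=
  lin_xv (F := fun x => x i ^ 2) (by fun_prop)
theorem sys_lt (hl : l ∈ Ico 1 (G.n - 1)) : l < G.n := by
  have := (Finset.mem_Ico.1 hl).2
  omega
theorem sys_lin_gs (hl : l ∈ Ico 1 (G.n - 1)) (i : ι) :
    (tree G ν).Lin fun ω => gs l i ω * sg G i ω :=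
  (lin_gs (sys_lt hl) i).mul_bdd (lin_sg (ν := ν) i).1 (C := 1) fun ω => (abs_sg i ω).le
theorem sys_lin_gx (hl : l ∈ Ico 1 (G.n - 1)) (i : ι) :
    (tree G ν).Lin fun ω => gx l i ω * xx G i ω :=
  (lin_gx (sys_lt hl) i).mul_bdd (lin_xx (ν := ν) i).1 (sys_abs_xx i)
theorem lin_Ham (G : Grid) (ν : ProbabilityMeasure (OG ι)) (S : Sys ι) : (tree G ν).Lin (Ham G S) := by
  exact (((Tree.Lin.sum _ fun i _ => (sys_lin_xsq i).const_mul _).const_mul _).add
    (lin_spin S.pot)).add (Tree.Lin.sum _ fun l hl => Tree.Lin.sum _ fun i _ =>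
      ((sys_lin_gs hl i).const_mul _).add ((sys_lin_gx hl i).const_mul _))
theorem loc_Ham : Loc G (Ham G S) := by
  intro ω ω' h
  have h3 := G.three_le
  have h1 : sb G ω = sb G ω' := by unfold sb; rw [h _ (by omega)]
  have h2 : ω 0 = ω' 0 := h _ (by omega)
  unfold Ham xx xv sg
  rw [h1, h2]
  congr 1
  refine Finset.sum_congr rfl fun l hl => ?_
  unfold gs gx
  rw [h l (sys_lt hl)]
theorem sys_loc_upd {ω ω' : Pth ι} (h : ∀ i, i < G.n → ω i = ω' i) (l : ℕ) (e : Noise ι) :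
    ∀ i, i < G.n → Function.update ω l e i = Function.update ω' l e i := by
  intro i hi
  by_cases h1 : i = l
  · subst h1; simp
  · rw [Function.update_of_ne h1, Function.update_of_ne h1, h i hi]
theorem sys_loc_X {H : Pth ι → ℝ} (hH : Loc G H) (l : ℕ) : Loc G ((tree G ν).X H l) := by
  induction l using Tree.down_ind (T := tree G ν) with
  | h0 l hl => rwa [Tree.X_of_le hl]
  | hs l hl ih =>
    intro ω ω' h
    rw [Tree.X_step hl, Tree.X_step hl]
    simp only [fun e => ih _ _ (sys_loc_upd h l e)]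
theorem sys_loc_Ex {H : Pth ι → ℝ} (hH : Loc G H) (hf : Loc G f) (l : ℕ) :
    Loc G ((tree G ν).Ex H l f) := by
  induction l using Tree.down_ind (T := tree G ν) with
  | h0 l hl => rwa [Tree.Ex_of_le hl]
  | hs l hl ih =>
    intro ω ω' h
    rw [Tree.Ex_step hl]
    simp only [Tree.P, Tree.wt, fun e => ih _ _ (sys_loc_upd h l e),
      fun k e => sys_loc_X (ν := ν) hH k _ _ (sys_loc_upd h l e)]
theorem sys_const (hd : (tree G ν).Dep 0 f) (hl : Loc G f) (ω ω' : Pth ι) : f ω = f ω' := by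
  have key : ∀ k, k ≤ G.n → f (fun i => if i < k then ω' i else ω i) = f ω := by
    intro k
    induction k with
    | zero => intro _; simp
    | succ k ih =>
      intro hk
      rw [← ih (by omega), ← hd k (Nat.zero_le k) hk (fun i => if i < k then ω' i else ω i) (ω' k)]
      congr 1
      funext i
      by_cases h1 : i = k
      · subst h1; simp
      · rw [Function.update_of_ne h1]
        by_cases h2 : i < k
        · rw [if_pos h2, if_pos (by omega)]
        · rw [if_neg h2, if_neg (by omega)]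
  rw [← key G.n le_rfl]
  exact hl _ _ fun i hi => if_pos hi
theorem Loc.EE (hf : Loc G f) (i : ℕ) : Loc G (EE G ν S i f) := by
  exact sys_loc_Ex loc_Ham hf i
theorem base_indep (hf : (tree G ν).Tame f) (hl : Loc G f) (ω : Pth ι) :
    (tree G ν).X (Ham G S) 0 ω = phi G ν S ∧ EE G ν S 0 f ω = E0 G ν S f := by
  exact ⟨sys_const (Tree.dep_X _ 0) (sys_loc_X loc_Ham 0) _ _,
    sys_const (Tree.dep_Ex _ _ 0) (hl.EE 0) _ _⟩
theorem Ham_add (t : ℝ) (ω : Pth ι) : Ham G (S.add D t) ω = Ham G S ω + t * Ham G D ω := by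
  simp only [Ham, Sys.add, add_mul, mul_add, Finset.sum_add_distrib, mul_assoc, ← Finset.mul_sum]
  ring
theorem Ham_dirL (v : ι → ℝ) (ω : Pth ι) : Ham G (dirL v) ω = (1 / 2) * ∑ i, v i * xx G i ω ^ 2 := by
  simp [Ham, dirL]
theorem Ham_dirP (F : (ι → Bool) → ℝ) (ω : Pth ι) : Ham G (dirP F) ω = F (sb G ω) := by
  simp [Ham, dirP]
theorem Ham_dirS (hl : l ∈ Ico 1 (G.n - 1)) (v : ι → ℝ) (ω : Pth ι) :
    Ham G (dirS l v) ω = ∑ i, v i * (gs l i ω * sg G i ω) := by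
  simp only [Ham, dirS, zero_mul, Finset.sum_const_zero, mul_zero, zero_add, add_zero]
  rw [Finset.sum_eq_single_of_mem l hl fun k _ hk => by simp [hk]]
  simp
theorem Ham_dirU (hl : l ∈ Ico 1 (G.n - 1)) (v : ι → ℝ) (ω : Pth ι) :
    Ham G (dirU l v) ω = ∑ i, v i * (gx l i ω * xx G i ω) := by
  simp only [Ham, dirU, zero_mul, Finset.sum_const_zero, mul_zero, zero_add, add_zero]
  rw [Finset.sum_eq_single_of_mem l hl fun k _ hk => by simp [hk]]
  simp
/-- only the levels `1, …, n-2` of the fields matter -/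
theorem Ham_congr (h1 : S.lam = S'.lam) (h2 : S.pot = S'.pot)
    (h3 : ∀ l ∈ Ico 1 (G.n - 1), S.s l = S'.s l ∧ S.u l = S'.u l) : Ham G S = Ham G S' := by
  funext ω
  unfold Ham
  rw [h1, h2]
  congr 1
  exact Finset.sum_congr rfl fun l hl => by rw [(h3 l hl).1, (h3 l hl).2]

theorem E0_EE (f : Pth ι → ℝ) (i : ℕ) : E0 G ν S (EE G ν S i f) = E0 G ν S f := by
  exact Tree.Ex_tower (lin_Ham G ν S) f (Nat.zero_le i) pt0
theorem sys_EE_top {i : ℕ} (hi : G.n ≤ i) : EE G ν S i f = f := Tree.Ex_of_le (T := tree G ν) hi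
theorem sys_tame_EE (hf : (tree G ν).Tame f) (i : ℕ) : (tree G ν).Tame (EE G ν S i f) :=
  Tree.tame_Ex (lin_Ham G ν S) hf i
theorem sys_EE_add (hf : (tree G ν).Tame f) (hg : (tree G ν).Tame g) (i : ℕ) (ω : Pth ι) :
    EE G ν S i (fun ω => f ω + g ω) ω = EE G ν S i f ω + EE G ν S i g ω :=
  Tree.Ex_add (lin_Ham G ν S) hf hg i ω
theorem sys_EE_sub (hf : (tree G ν).Tame f) (hg : (tree G ν).Tame g) (i : ℕ) (ω : Pth ι) :
    EE G ν S i (fun ω => f ω - g ω) ω = EE G ν S i f ω - EE G ν S i g ω :=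
  Tree.Ex_sub (lin_Ham G ν S) hf hg i ω
theorem sys_EE_mul (f : Pth ι → ℝ) (c : ℝ) (i : ℕ) (ω : Pth ι) :
    EE G ν S i (fun ω => c * f ω) ω = c * EE G ν S i f ω :=
  Tree.Ex_const_mul _ f c i ω
theorem sys_EE_const (c : ℝ) (i : ℕ) (ω : Pth ι) : EE G ν S i (fun _ => c) ω = c :=
  Tree.Ex_const (lin_Ham G ν S) c i ω
theorem sys_EE_sum {κ : Type*} (s : Finset κ) {F : κ → Pth ι → ℝ}
    (h : ∀ k ∈ s, (tree G ν).Tame (F k)) (i : ℕ) (ω : Pth ι) :
    EE G ν S i (fun ω => ∑ k ∈ s, F k ω) ω = ∑ k ∈ s, EE G ν S i (F k) ω :=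
  Tree.Ex_sum (lin_Ham G ν S) s h i ω
theorem ov_top : ov G ν S f g G.n = E0 G ν S fun ω => f ω * g ω := by
  have h3 := G.three_le
  rw [ov, if_neg (by omega), sys_EE_top le_rfl, sys_EE_top le_rfl]
theorem ov_comm (i : ℕ) : ov G ν S f g i = ov G ν S g f i := by
  simp only [ov, mul_comm]
theorem ov_nonneg (i : ℕ) : 0 ≤ ov G ν S f f i := by
  unfold ov
  split_ifs
  · exact le_rfl
  · exact Tree.Ex_nonneg _ (fun ω => mul_self_nonneg _) 0 pt0
theorem ov_step (hf : (tree G ν).Tame f) (i : ℕ) : ov G ν S f f i ≤ ov G ν S f f (i + 1) := by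
  by_cases hi : i = 0
  · rw [ov, if_pos hi]; exact ov_nonneg _
  · have h1 := Tree.Ex_incr (lin_Ham G ν S) hf (Nat.zero_le i) pt0
    have h2 := Tree.Ex_nonneg (T := tree G ν) (Ham G S) (f := fun ω =>
      ((tree G ν).Ex (Ham G S) (i + 1) f ω - (tree G ν).Ex (Ham G S) i f ω) ^ 2)
      (fun ω => sq_nonneg _) 0 pt0
    rw [h1] at h2
    rw [ov, ov, if_neg hi, if_neg (Nat.succ_ne_zero i)]
    exact sub_nonneg.1 h2
theorem ov_le_top (hf : (tree G ν).Tame f) (i : ℕ) : ov G ν S f f i ≤ ov G ν S f f G.n := by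
  rcases le_total i G.n with h | h
  · exact monotone_nat_of_le_succ (ov_step hf) h
  · have h3 := G.three_le
    rw [ov_top, ov, if_neg (by omega), sys_EE_top h]
theorem ov_sg_top (r : ι) : ov G ν S (sg G r) (sg G r) G.n = 1 := by
  rw [ov_top]
  simp only [← sq, sg_sq]
  exact sys_EE_const 1 0 pt0
theorem Tst_mem (hf : (tree G ν).Tame f) (l : ℕ) : Tst G ν S f l ∈ Set.Icc 0 (ov G ν S f f G.n) := by
  have h1 : 0 ≤ G.tl (ov G ν S f f) l :=
    Finset.sum_nonneg fun i _ => mul_nonneg (Grid.w_nonneg i) (ov_nonneg i)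
  have h2 : G.tl (ov G ν S f f) l ≤ (∑ i ∈ Ioo l G.n, G.w i) * ov G ν S f f G.n := by
    rw [Finset.sum_mul]
    exact Finset.sum_le_sum fun i _ => mul_le_mul_of_nonneg_left (ov_le_top hf i) (Grid.w_nonneg i)
  have h3 := mul_le_of_le_one_left (ov_nonneg (G := G) (ν := ν) (S := S) (f := f) G.n)
    (Grid.sum_w_le (G := G) l)
  unfold Tst
  constructor <;> linarith
theorem ov_xl (v v' : ι → ℝ) (i : ℕ) :
    ov G ν S (xl G v) (xl G v') i = ∑ j, ∑ k, v j * v' k * ov G ν S (xx G j) (xx G k) i := by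
  unfold ov
  split_ifs
  · simp
  have e : ∀ (v : ι → ℝ) ω, EE G ν S i (xl G v) ω = ∑ j, v j * EE G ν S i (xx G j) ω := by
    intro v ω
    have := sys_EE_sum (G := G) (ν := ν) (S := S) Finset.univ (F := fun j ω => v j * xx G j ω)
      (fun j _ => (lin_xx j).tame.const_mul _) i ω
    simp only [sys_EE_mul] at this
    exact this
  have ht : ∀ j k, (tree G ν).Tame fun ω =>
      v j * v' k * (EE G ν S i (xx G j) ω * EE G ν S i (xx G k) ω) := fun j k =>
    ((sys_tame_EE (lin_xx j).tame i).mul (sys_tame_EE (lin_xx k).tame i)).const_mul _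
  have e2 : (fun ω => EE G ν S i (xl G v) ω * EE G ν S i (xl G v') ω) = fun ω =>
      ∑ j, ∑ k, v j * v' k * (EE G ν S i (xx G j) ω * EE G ν S i (xx G k) ω) := by
    funext ω
    rw [e, e, Finset.sum_mul_sum]
    exact Finset.sum_congr rfl fun j _ => Finset.sum_congr rfl fun k _ => by ring
  rw [e2, E0, sys_EE_sum _ fun j _ => Tree.Tame.sum _ fun k _ => ht j k]
  refine Finset.sum_congr rfl fun j _ => ?_
  rw [sys_EE_sum _ fun k _ => ht j k]
  exact Finset.sum_congr rfl fun k _ => sys_EE_mul _ _ _ _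
/-- `U` is orthogonal and known from level `1` on -/
theorem sum_ov_xx (i : ℕ) :
    ∑ j, ov G ν S (xx G j) (xx G j) i = ∑ r, ov G ν S (sg G r) (sg G r) i := by
  unfold ov
  split_ifs with hi
  · simp
  have e : ∀ j ω, EE G ν S i (xx G j) ω = ((ω 0).1.1 *ᵥ fun r => EE G ν S i (sg G r) ω) j := by
    intro j ω
    have h1 := sys_EE_sum (G := G) (ν := ν) (S := S) Finset.univ
      (F := fun r ω => (ω 0).1.1 j r * sg G r ω) (fun r _ =>
        (Tree.Lin.of_bdd (sys_meas_U j r) (C := 1) fun ω => OG.abs_entry_le _ _ _).tame.mul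
          (lin_sg r).tame) i ω
    refine h1.trans (Finset.sum_congr rfl fun r _ => ?_)
    refine Tree.Ex_mul_dep _ _ (g := fun ω => (ω 0).1.1 j r) (fun k hk _ ω e => ?_) ω
    have h2 : Function.update ω k e 0 = ω 0 := Function.update_of_ne (show (0 : ℕ) ≠ k by omega) e ω
    exact congrArg (fun z : Noise ι => z.1.1 j r) h2
  unfold E0
  rw [← sys_EE_sum _ fun j _ =>
      (sys_tame_EE (lin_xx j).tame i).mul (sys_tame_EE (lin_xx j).tame i),
    ← sys_EE_sum _ fun j _ => (sys_tame_EE (lin_sg j).tame i).mul (sys_tame_EE (lin_sg j).tame i)]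
  congr 1
  funext ω
  simp only [e, ← sq]
  exact OG.sum_sq_mulVec _ _

theorem phi_tangent (t : ℝ) : t * E0 G ν S (Ham G D) ≤ phi G ν (S.add D t) - phi G ν S := by
  have h := Tree.X_tangent (lin_Ham G ν S) (lin_Ham G ν (S.add D t)) 0 pt0
  simp only [Ham_add, add_sub_cancel_left] at h
  rw [Tree.Ex_const_mul] at h
  exact h
theorem phi_tangent' : E0 G ν S (fun ω => Ham G S' ω - Ham G S ω) ≤ phi G ν S' - phi G ν S := by
  exact Tree.X_tangent (lin_Ham G ν S) (lin_Ham G ν S') 0 pt0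
theorem phi_le_of_le {c : ℝ} (h : ∀ ω, Ham G S ω ≤ Ham G S' ω + c) : phi G ν S ≤ phi G ν S' + c := by
  have h1 := Tree.X_mono (lin_Ham G ν S) ((lin_Ham G ν S').add (Tree.Lin.const c)) h 0 pt0
  rwa [Tree.X_add_dep (lin_Ham G ν S') (Tree.Dep.const c)] at h1
theorem phi_le_lam_pot {A B : ℝ} (hs : S.s = S'.s) (hu : S.u = S'.u) (h1 : ∀ i, S.lam i ≤ S'.lam i + A)
    (h2 : ∀ σ, S.pot σ ≤ S'.pot σ + B) : phi G ν S ≤ phi G ν S' + (A / 2 * Fintype.card ι + B) := by
  refine phi_le_of_le fun ω => ?_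
  unfold Ham
  rw [hs, hu, ← sum_xx_sq (G := G) ω]
  have h3 : ∑ i, S.lam i * xx G i ω ^ 2 ≤ ∑ i, S'.lam i * xx G i ω ^ 2 + A * ∑ i, xx G i ω ^ 2 := by
    rw [Finset.mul_sum, ← Finset.sum_add_distrib]
    exact Finset.sum_le_sum fun i _ => by
      rw [← add_mul]; exact mul_le_mul_of_nonneg_right (h1 i) (sq_nonneg _)
  have := h2 (sb G ω)
  linarith

theorem sys_gam_map (v : ι → ℝ) (t : ℝ) : (gam ι).map (fun g => g + t • v) =
    (gam ι).withDensity fun g => ENNReal.ofReal (Real.exp (t * (v ⬝ᵥ g) - t ^ 2 * (v ⬝ᵥ v) / 2)) := by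
  have hm : Measurable fun g : ι → ℝ => g + t • v := by fun_prop
  have hi : Integrable (fun g : ι → ℝ => Real.exp (t * (v ⬝ᵥ g) - t ^ 2 * (v ⬝ᵥ v) / 2)) (gam ι) := by
    refine Integrable.of_integral_ne_zero ?_
    have := gam_cm v t (fun _ => 1) measurable_const
    simp only [one_mul] at this
    rw [← this]
    simp
  ext s hs
  rw [Measure.map_apply hm hs, withDensity_apply _ hs,
    ← ofReal_integral_eq_lintegral_ofReal hi.integrableOn
      (Filter.Eventually.of_forall fun _ => (Real.exp_pos _).le), ← integral_indicator hs]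
  have h1 := gam_cm v t (s.indicator 1) (measurable_one.indicator hs)
  have h2 : (fun g : ι → ℝ => s.indicator (1 : (ι → ℝ) → ℝ) (g + t • v)) =
      ((fun g : ι → ℝ => g + t • v) ⁻¹' s).indicator 1 := by
    funext g
    by_cases h : g + t • v ∈ s <;> simp [Set.indicator, h]
  have h3 : (fun g : ι → ℝ => s.indicator (1 : (ι → ℝ) → ℝ) g *
      Real.exp (t * (v ⬝ᵥ g) - t ^ 2 * (v ⬝ᵥ v) / 2)) =
      s.indicator fun g => Real.exp (t * (v ⬝ᵥ g) - t ^ 2 * (v ⬝ᵥ v) / 2) := by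
    funext g
    by_cases h : g ∈ s <;> simp [Set.indicator, h]
  rw [h2, h3, integral_indicator_one (hm hs)] at h1
  rw [← h1, Measure.real, ENNReal.ofReal_toReal (measure_ne_top _ _)]

theorem sys_cm_of_map {E : Type} [MeasurableSpace E] (γ : Measure E) {sh : E → E} (hsh : Measurable sh)
    {d : E → ℝ} (hd : Measurable d) (hd0 : ∀ e, 0 ≤ d e)
    (h : γ.map sh = γ.withDensity fun e => ENNReal.ofReal (d e)) {f : E → ℝ} (hf : Measurable f) :
    ∫ e, f (sh e) ∂γ = ∫ e, f e * d e ∂γ := by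
  rw [← integral_map hsh.aemeasurable hf.aestronglyMeasurable, h,
    integral_withDensity_eq_integral_toReal_smul hd.ennreal_ofReal
      (Filter.Eventually.of_forall fun _ => ENNReal.ofReal_lt_top)]
  simp only [ENNReal.toReal_ofReal (hd0 _), smul_eq_mul, mul_comm]

theorem sys_map_left {α β : Type} [MeasurableSpace α] [MeasurableSpace β] (μ : Measure α)
    (μ' : Measure β) [IsProbabilityMeasure μ] [IsProbabilityMeasure μ'] {sh : α → α}
    (hsh : Measurable sh) {d : α → ENNReal} (hd : Measurable d) (h : μ.map sh = μ.withDensity d) :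
    (μ.prod μ').map (fun e => (sh e.1, e.2)) = (μ.prod μ').withDensity fun e => d e.1 := by
  rw [← prod_withDensity_left hd, ← h]
  have := Measure.map_prod_map μ μ' hsh measurable_id
  rw [Measure.map_id] at this
  exact this.symm

theorem sys_map_right {α β : Type} [MeasurableSpace α] [MeasurableSpace β] (μ : Measure α)
    (μ' : Measure β) [IsProbabilityMeasure μ] [IsProbabilityMeasure μ'] {sh : β → β}
    (hsh : Measurable sh) {d : β → ENNReal} (hd : Measurable d) (h : μ'.map sh = μ'.withDensity d) :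
    (μ.prod μ').map (fun e => (e.1, sh e.2)) = (μ.prod μ').withDensity fun e => d e.2 := by
  rw [← prod_withDensity_right hd, ← h]
  have := Measure.map_prod_map μ μ' measurable_id hsh
  rw [Measure.map_id] at this
  exact this.symm

omit [DecidableEq ι] in
theorem sys_dot_le (v g : ι → ℝ) : |v ⬝ᵥ g| ≤ (∑ i, |v i|) * ∑ i, |g i| := by
  rw [dotProduct, Finset.sum_mul]
  refine (Finset.abs_sum_le_sum_abs _ _).trans (Finset.sum_le_sum fun i _ => ?_)
  rw [abs_mul]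
  exact mul_le_mul_of_nonneg_left (Finset.single_le_sum (f := fun i => |g i|)
    (fun _ _ => abs_nonneg _) (Finset.mem_univ i)) (abs_nonneg _)

omit [DecidableEq ι] in
theorem sys_shift_le (v g : ι → ℝ) (t : ℝ) :
    ∑ i, |(g + t • v) i| ≤ ∑ i, |g i| + (∑ i, |v i|) * |t| := by
  rw [Finset.sum_mul, ← Finset.sum_add_distrib]
  refine Finset.sum_le_sum fun i _ => ?_
  rw [Pi.add_apply, Pi.smul_apply, smul_eq_mul, mul_comm |v i|, ← abs_mul]
  exact abs_add_le _ _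

omit [DecidableEq ι] in
theorem sys_meas_dens (v : ι → ℝ) (t : ℝ) :
    Measurable fun g : ι → ℝ => Real.exp (t * (v ⬝ᵥ g) - t ^ 2 * (v ⬝ᵥ v) / 2) := by
  unfold dotProduct
  fun_prop

theorem sys_cmS (ν : ProbabilityMeasure (OG ι)) (v : ι → ℝ) (t : ℝ) {f : Noise ι → ℝ}
    (hf : Measurable f) :
    ∫ e, f (e.1, e.2.1 + t • v, e.2.2) ∂(ν : Measure (OG ι)).prod ((gam ι).prod ((gam ι).prod (unif ι))) =
      ∫ e, f e * Real.exp (t * (v ⬝ᵥ e.2.1) - t ^ 2 * (v ⬝ᵥ v) / 2)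
        ∂(ν : Measure (OG ι)).prod ((gam ι).prod ((gam ι).prod (unif ι))) := by
  have hd := sys_meas_dens v t
  have h1 := sys_map_left (gam ι) ((gam ι).prod (unif ι)) (sh := fun g => g + t • v) (by fun_prop)
    hd.ennreal_ofReal (sys_gam_map v t)
  have h2 := sys_map_right (ν : Measure (OG ι)) _ (by fun_prop)
    (hd.ennreal_ofReal.comp measurable_fst) h1
  exact sys_cm_of_map _ (by fun_prop) (hd.comp (measurable_fst.comp measurable_snd))
    (fun _ => (Real.exp_pos _).le) h2 hf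

theorem sys_cmX (ν : ProbabilityMeasure (OG ι)) (v : ι → ℝ) (t : ℝ) {f : Noise ι → ℝ}
    (hf : Measurable f) :
    ∫ e, f (e.1, e.2.1, e.2.2.1 + t • v, e.2.2.2)
        ∂(ν : Measure (OG ι)).prod ((gam ι).prod ((gam ι).prod (unif ι))) =
      ∫ e, f e * Real.exp (t * (v ⬝ᵥ e.2.2.1) - t ^ 2 * (v ⬝ᵥ v) / 2)
        ∂(ν : Measure (OG ι)).prod ((gam ι).prod ((gam ι).prod (unif ι))) := by
  have hd := sys_meas_dens v t
  have h1 := sys_map_left (gam ι) (unif ι) (sh := fun g => g + t • v) (by fun_prop)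
    hd.ennreal_ofReal (sys_gam_map v t)
  have h2 := sys_map_right (gam ι) _ (by fun_prop) (hd.ennreal_ofReal.comp measurable_fst) h1
  have h3 := sys_map_right (ν : Measure (OG ι)) _ (by fun_prop)
    ((hd.ennreal_ofReal.comp measurable_fst).comp measurable_snd) h2
  exact sys_cm_of_map _ (by fun_prop)
    (hd.comp (measurable_fst.comp (measurable_snd.comp measurable_snd)))
    (fun _ => (Real.exp_pos _).le) h3 hf

noncomputable def shiftS (G : Grid) (ν : ProbabilityMeasure (OG ι)) (v : ι → ℝ) : (tree G ν).Shift where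
  sh := fun t e => (e.1, e.2.1 + t • v, e.2.2)
  gc := fun e => v ⬝ᵥ e.2.1
  κ := v ⬝ᵥ v
  κ_nonneg := by
    exact Finset.sum_nonneg fun i _ => mul_self_nonneg _
  meas_sh := by
    intro t
    fun_prop
  meas_gc := by
    unfold dotProduct
    fun_prop
  sh_zero := by
    intro e
    simp
  gc_sh := by
    intro t e
    simp
  gc_le := by
    refine ⟨∑ i, |v i|, fun e => (sys_dot_le v _).trans (mul_le_mul_of_nonneg_left ?_ (by positivity))⟩
    have h1 : 0 ≤ ∑ i, |e.2.2.1 i| := by positivity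
    have h2 : (tree G ν).ρ e = ∑ j, |e.2.1 j| + ∑ j, |e.2.2.1 j| := rfl
    linarith
  ρ_sh := by
    refine ⟨∑ i, |v i|, fun t e => ?_⟩
    have h1 := sys_shift_le v e.2.1 t
    simp only [tree]
    linarith
  cm := by
    intro t f hf _
    exact sys_cmS ν v t hf

noncomputable def shiftX (G : Grid) (ν : ProbabilityMeasure (OG ι)) (v : ι → ℝ) : (tree G ν).Shift where
  sh := fun t e => (e.1, e.2.1, e.2.2.1 + t • v, e.2.2.2)
  gc := fun e => v ⬝ᵥ e.2.2.1
  κ := v ⬝ᵥ v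
  κ_nonneg := by
    exact Finset.sum_nonneg fun i _ => mul_self_nonneg _
  meas_sh := by
    intro t
    fun_prop
  meas_gc := by
    unfold dotProduct
    fun_prop
  sh_zero := by
    intro e
    simp
  gc_sh := by
    intro t e
    simp
  gc_le := by
    refine ⟨∑ i, |v i|, fun e => (sys_dot_le v _).trans (mul_le_mul_of_nonneg_left ?_ (by positivity))⟩
    have h1 : 0 ≤ ∑ i, |e.2.1 i| := by positivity
    have h2 : (tree G ν).ρ e = ∑ j, |e.2.1 j| + ∑ j, |e.2.2.1 j| := rfl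
    linarith
  ρ_sh := by
    refine ⟨∑ i, |v i|, fun t e => ?_⟩
    have h1 := sys_shift_le v e.2.2.1 t
    simp only [tree]
    linarith
  cm := by
    intro t f hf _
    exact sys_cmX ν v t hf

theorem sys_upd {β : Type} (p : Noise ι → β) (ω : Pth ι) (l : ℕ) (e : Noise ι)
    (h : p e = p (ω l)) (k : ℕ) : p (Function.update ω l e k) = p (ω k) := by
  by_cases hk : k = l
  · subst hk; rw [Function.update_self, h]
  · rw [Function.update_of_ne hk]
theorem sys_sbS (v : ι → ℝ) (t : ℝ) (ω : Pth ι) : sb G ((shiftS G ν v).on l t ω) = sb G ω :=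
  sys_upd (fun e => e.2.2.2) ω l ((shiftS G ν v).sh t (ω l)) rfl _
theorem sys_sbX (v : ι → ℝ) (t : ℝ) (ω : Pth ι) : sb G ((shiftX G ν v).on l t ω) = sb G ω :=
  sys_upd (fun e => e.2.2.2) ω l ((shiftX G ν v).sh t (ω l)) rfl _
theorem sys_sgS (v : ι → ℝ) (t : ℝ) (i : ι) (ω : Pth ι) :
    sg G i ((shiftS G ν v).on l t ω) = sg G i ω := by unfold sg; rw [sys_sbS]
theorem sys_sgX (v : ι → ℝ) (t : ℝ) (i : ι) (ω : Pth ι) :
    sg G i ((shiftX G ν v).on l t ω) = sg G i ω := by unfold sg; rw [sys_sbX]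
theorem sys_xxS (v : ι → ℝ) (t : ℝ) (i : ι) (ω : Pth ι) :
    xx G i ((shiftS G ν v).on l t ω) = xx G i ω := by
  have h : ((shiftS G ν v).on l t ω 0).1 = (ω 0).1 := sys_upd (fun e => e.1) ω l ((shiftS G ν v).sh t (ω l)) rfl _
  unfold xx xv; rw [sys_sbS, h]
theorem sys_xxX (v : ι → ℝ) (t : ℝ) (i : ι) (ω : Pth ι) :
    xx G i ((shiftX G ν v).on l t ω) = xx G i ω := by
  have h : ((shiftX G ν v).on l t ω 0).1 = (ω 0).1 := sys_upd (fun e => e.1) ω l ((shiftX G ν v).sh t (ω l)) rfl _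
  unfold xx xv; rw [sys_sbX, h]
theorem sys_gxS (v : ι → ℝ) (t : ℝ) (k : ℕ) (i : ι) (ω : Pth ι) :
    gx k i ((shiftS G ν v).on l t ω) = gx k i ω := sys_upd (fun e => e.2.2.1 i) ω l ((shiftS G ν v).sh t (ω l)) rfl _
theorem sys_gsX (v : ι → ℝ) (t : ℝ) (k : ℕ) (i : ι) (ω : Pth ι) :
    gs k i ((shiftX G ν v).on l t ω) = gs k i ω := sys_upd (fun e => e.2.1 i) ω l ((shiftX G ν v).sh t (ω l)) rfl _
theorem sys_gsS (v : ι → ℝ) (t : ℝ) (k : ℕ) (i : ι) (ω : Pth ι) :
    gs k i ((shiftS G ν v).on l t ω) = gs k i ω + if k = l then t * v i else 0 := by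
  unfold gs Tree.Shift.on
  by_cases hk : k = l
  · subst hk; rw [Function.update_self, if_pos rfl]; rfl
  · rw [Function.update_of_ne hk, if_neg hk, add_zero]
theorem sys_gxX (v : ι → ℝ) (t : ℝ) (k : ℕ) (i : ι) (ω : Pth ι) :
    gx k i ((shiftX G ν v).on l t ω) = gx k i ω + if k = l then t * v i else 0 := by
  unfold gx Tree.Shift.on
  by_cases hk : k = l
  · subst hk; rw [Function.update_self, if_pos rfl]; rfl
  · rw [Function.update_of_ne hk, if_neg hk, add_zero]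
theorem Ham_shiftS (hl : l ∈ Ico 1 (G.n - 1)) (v : ι → ℝ) (t : ℝ) (ω : Pth ι) :
    Ham G S ((shiftS G ν v).on l t ω) = Ham G S ω + t * ∑ i, v i * S.s l i * sg G i ω := by
  have e : ∑ k ∈ Ico 1 (G.n - 1), ∑ i, S.s k i * ((if k = l then t * v i else 0) * sg G i ω) =
      t * ∑ i, v i * S.s l i * sg G i ω := by
    rw [Finset.sum_eq_single_of_mem l hl fun k _ hk => by simp [hk], Finset.mul_sum]
    exact Finset.sum_congr rfl fun i _ => by rw [if_pos rfl]; ring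
  simp only [Ham, sys_sbS, sys_sgS, sys_xxS, sys_gxS, sys_gsS, add_mul, mul_add,
    Finset.sum_add_distrib, e]
  ring
theorem Ham_shiftX (hl : l ∈ Ico 1 (G.n - 1)) (v : ι → ℝ) (t : ℝ) (ω : Pth ι) :
    Ham G S ((shiftX G ν v).on l t ω) = Ham G S ω + t * ∑ i, v i * S.u l i * xx G i ω := by
  have e : ∑ k ∈ Ico 1 (G.n - 1), ∑ i, S.u k i * ((if k = l then t * v i else 0) * xx G i ω) =
      t * ∑ i, v i * S.u l i * xx G i ω := by
    rw [Finset.sum_eq_single_of_mem l hl fun k _ hk => by simp [hk], Finset.mul_sum]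
    exact Finset.sum_congr rfl fun i _ => by rw [if_pos rfl]; ring
  simp only [Ham, sys_sbX, sys_sgX, sys_xxX, sys_gxX, sys_gsX, add_mul, mul_add,
    Finset.sum_add_distrib, e]
  ring

theorem sys_shS1 (hl : l ∈ Ico 1 (G.n - 1)) (i : ι) (t : ℝ) (ω : Pth ι) :
    Ham G S ((shiftS G ν (Pi.single i 1)).on l t ω) = Ham G S ω + t * (S.s l i * sg G i ω) := by
  rw [Ham_shiftS hl, Finset.sum_eq_single i (fun j _ hj => by simp [hj]) (by simp)]
  simp
theorem sys_shX1 (hl : l ∈ Ico 1 (G.n - 1)) (i : ι) (t : ℝ) (ω : Pth ι) :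
    Ham G S ((shiftX G ν (Pi.single i 1)).on l t ω) = Ham G S ω + t * (S.u l i * xx G i ω) := by
  rw [Ham_shiftX hl, Finset.sum_eq_single i (fun j _ hj => by simp [hj]) (by simp)]
  simp
theorem sys_gcS (i : ι) (ω : Pth ι) : (shiftS G ν (Pi.single i 1)).gc (ω l) = gs l i ω := by
  simp [shiftS, gs]
theorem sys_gcX (i : ι) (ω : Pth ι) : (shiftX G ν (Pi.single i 1)).gc (ω l) = gx l i ω := by
  simp [shiftX, gx]
theorem sys_field (sh : (tree G ν).Shift) (hl : l ∈ Ico 1 (G.n - 1)) (hf : (tree G ν).Lin f) {c : ℝ}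
    (h1 : ∀ t ω, Ham G S (sh.on l t ω) = Ham G S ω + t * (c * f ω))
    (h2 : ∀ t ω, f (sh.on l t ω) = f ω) (ω : Pth ι) :
    EE G ν S l (fun ω => sh.gc (ω l) * f ω) ω = c * (EE G ν S l (fun ω => f ω ^ 2) ω -
      ∑ k ∈ Ioo l G.n, G.w k * EE G ν S l (fun ω => EE G ν S k f ω ^ 2) ω) := by
  have hl' : l + 1 < (tree G ν).n := by
    have := (Finset.mem_Ico.1 hl).2
    change l + 1 < G.n
    omega
  have h := sh.ibp_self hl' G.top (lin_Ham G ν S) (hf.const_mul c) h1 hf.tame h2 ω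
  refine h.trans ?_
  rw [mul_sub, Finset.mul_sum, ← sys_EE_mul]
  congr 1
  · unfold EE
    congr 1
    funext ω; ring
  · refine Finset.sum_congr rfl fun k _ => ?_
    rw [mul_left_comm, ← sys_EE_mul]
    unfold EE Grid.w
    congr 2
    funext ω
    rw [Tree.Ex_const_mul]; ring
theorem sys_sq (sh : (tree G ν).Shift) (hl : l ∈ Ico 1 (G.n - 1)) (hf : (tree G ν).Lin f) {c : ℝ}
    (h1 : ∀ t ω, Ham G S (sh.on l t ω) = Ham G S ω + t * (c * f ω))
    (h2 : ∀ t ω, f (sh.on l t ω) = f ω) :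
    E0 G ν S (fun ω => sh.gc (ω l) ^ 2) ≤ sh.κ + c ^ 2 * ov G ν S f f G.n := by
  have ht : (tree G ν).Tame fun ω => (c * f ω) ^ 2 := (hf.tame.const_mul c).pow 2
  have h := Tree.Ex_mono (lin_Ham G ν S) (sys_tame_EE ((sh.lin_gc (sys_lt hl)).tame.pow 2) l)
    ((Tree.Tame.const sh.κ).add (sys_tame_EE ht l))
    (sh.sq_le (sys_lt hl) (lin_Ham G ν S) (hf.const_mul c) h1 fun t ω => by rw [h2]) 0 pt0
  have e1 := sys_EE_add (S := S) (Tree.Tame.const sh.κ) (sys_tame_EE (S := S) ht l) 0 pt0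
  have e2 := E0_EE (G := G) (ν := ν) (S := S) (fun ω => (c * f ω) ^ 2) l
  have e3 := E0_EE (G := G) (ν := ν) (S := S) (fun ω => sh.gc (ω l) ^ 2) l
  have e4 : E0 G ν S (fun ω => (c * f ω) ^ 2) = c ^ 2 * ov G ν S f f G.n := by
    rw [ov_top, E0, E0, ← sys_EE_mul]
    congr 1
    funext ω; ring
  rw [sys_EE_const] at e1
  rw [← e3, ← e4, ← e2]
  exact h.trans (le_of_eq e1)
theorem EE_fieldS (hl : l ∈ Ico 1 (G.n - 1)) (i : ι) (ω : Pth ι) :
    EE G ν S l (fun ω => gs l i ω * sg G i ω) ω = S.s l i * (1 -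
      ∑ k ∈ Ioo l G.n, G.w k * EE G ν S l (fun ω => EE G ν S k (sg G i) ω ^ 2) ω) := by
  have h := sys_field (S := S) (shiftS G ν (Pi.single i 1)) hl (lin_sg i) (sys_shS1 hl i)
    (fun t ω => sys_sgS _ t i ω) ω
  simp only [sys_gcS, sg_sq, sys_EE_const] at h
  exact h
theorem EE_fieldX (hl : l ∈ Ico 1 (G.n - 1)) (i : ι) (ω : Pth ι) :
    EE G ν S l (fun ω => gx l i ω * xx G i ω) ω = S.u l i * (EE G ν S l (fun ω => xx G i ω ^ 2) ω -
      ∑ k ∈ Ioo l G.n, G.w k * EE G ν S l (fun ω => EE G ν S k (xx G i) ω ^ 2) ω) := by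
  have h := sys_field (S := S) (shiftX G ν (Pi.single i 1)) hl (lin_xx i) (sys_shX1 hl i)
    (fun t ω => sys_xxX _ t i ω) ω
  simp only [sys_gcX] at h
  exact h
theorem E0_gs_sq (hl : l ∈ Ico 1 (G.n - 1)) (i : ι) :
    E0 G ν S (fun ω => gs l i ω ^ 2) ≤ 1 + S.s l i ^ 2 := by
  have h := sys_sq (S := S) (shiftS G ν (Pi.single i 1)) hl (lin_sg i) (sys_shS1 hl i)
    (fun t ω => sys_sgS _ t i ω)
  simp only [sys_gcS, ov_sg_top, mul_one] at h
  simpa [shiftS] using h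
theorem E0_gx_sq (hl : l ∈ Ico 1 (G.n - 1)) (i : ι) :
    E0 G ν S (fun ω => gx l i ω ^ 2) ≤ 1 + S.u l i ^ 2 * ov G ν S (xx G i) (xx G i) G.n := by
  have h := sys_sq (S := S) (shiftX G ν (Pi.single i 1)) hl (lin_xx i) (sys_shX1 hl i)
    (fun t ω => sys_xxX _ t i ω)
  simp only [sys_gcX] at h
  simpa [shiftX] using h

theorem sys_E0_field (hl : l ∈ Ico 1 (G.n - 1)) (hf : (tree G ν).Tame f) {c : ℝ}
    (h : ∀ ω, EE G ν S l g ω = c * (EE G ν S l (fun ω => f ω ^ 2) ω -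
      ∑ k ∈ Ioo l G.n, G.w k * EE G ν S l (fun ω => EE G ν S k f ω ^ 2) ω)) :
    E0 G ν S g = c * Tst G ν S f l := by
  have ht : ∀ k, (tree G ν).Tame fun ω => G.w k * EE G ν S l (fun ω => EE G ν S k f ω ^ 2) ω :=
    fun k => (sys_tame_EE ((sys_tame_EE hf k).pow 2) l).const_mul _
  rw [← E0_EE g l, funext h, E0, sys_EE_mul,
    sys_EE_sub (sys_tame_EE (hf.pow 2) l) (Tree.Tame.sum _ fun k _ => ht k),
    sys_EE_sum _ fun k _ => ht k]
  congr 2
  · refine (E0_EE _ l).trans ?_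
    simp only [ov_top, sq]
  · refine Finset.sum_congr rfl fun k hk => ?_
    rw [sys_EE_mul]
    congr 1
    refine (E0_EE _ l).trans ?_
    have := (Finset.mem_Ioo.1 hk).1
    rw [ov, if_neg (by omega)]
    simp only [sq]

theorem E0_Ham : E0 G ν S (Ham G D) =
    (1 / 2) * ∑ i, D.lam i * ov G ν S (xx G i) (xx G i) G.n + E0 G ν S (fun ω => D.pot (sb G ω)) +
    ∑ l ∈ Ico 1 (G.n - 1), ∑ i, (D.s l i * S.s l i * Tst G ν S (sg G i) l +
      D.u l i * S.u l i * Tst G ν S (xx G i) l) := by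
  have t1 : ∀ i, (tree G ν).Tame fun ω => D.lam i * xx G i ω ^ 2 := fun i =>
    (sys_lin_xsq i).tame.const_mul _
  have t2 : ∀ l ∈ Ico 1 (G.n - 1), ∀ i, (tree G ν).Tame fun ω => D.s l i * (gs l i ω * sg G i ω) :=
    fun l hl i => (sys_lin_gs hl i).tame.const_mul _
  have t3 : ∀ l ∈ Ico 1 (G.n - 1), ∀ i, (tree G ν).Tame fun ω => D.u l i * (gx l i ω * xx G i ω) :=
    fun l hl i => (sys_lin_gx hl i).tame.const_mul _
  have t4 := (Tree.Tame.sum Finset.univ fun i _ => t1 i).const_mul (1 / 2)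
  have t5 := fun l hl => Tree.Tame.sum Finset.univ fun i _ => (t2 l hl i).add (t3 l hl i)
  unfold Ham
  rw [E0, sys_EE_add (t4.add (lin_spin D.pot).tame) (Tree.Tame.sum _ t5),
    sys_EE_add t4 (lin_spin D.pot).tame, sys_EE_mul, sys_EE_sum _ fun i _ => t1 i, sys_EE_sum _ t5]
  congr 1
  · congr 2
    refine Finset.sum_congr rfl fun i _ => ?_
    rw [sys_EE_mul, ov_top]
    simp only [sq, E0]
  · refine Finset.sum_congr rfl fun l hl => ?_
    rw [sys_EE_sum _ fun i _ => (t2 l hl i).add (t3 l hl i)]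
    refine Finset.sum_congr rfl fun i _ => ?_
    have h1 := sys_E0_field (S := S) hl (lin_sg (ν := ν) i).tame (c := S.s l i)
      (g := fun ω => gs l i ω * sg G i ω) fun ω => by
        rw [EE_fieldS hl]
        simp only [sg_sq, sys_EE_const]
    have h2 := sys_E0_field (S := S) hl (lin_xx (ν := ν) i).tame (EE_fieldX hl i)
    rw [sys_EE_add (t2 l hl i) (t3 l hl i), sys_EE_mul, sys_EE_mul, mul_assoc, mul_assoc, ← h1, ← h2]
    rfl

/-- a `C¹` family of systems -/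
structure SFam (S S' : ℝ → Sys ι) (t₀ : ℝ) : Prop where
  der : ∃ δ : ℝ, 0 < δ ∧ ∀ t, |t - t₀| < δ →
    (∀ i, HasDerivAt (fun t => (S t).lam i) ((S' t).lam i) t) ∧
    (∀ σ, HasDerivAt (fun t => (S t).pot σ) ((S' t).pot σ) t) ∧
    (∀ l i, HasDerivAt (fun t => (S t).s l i) ((S' t).s l i) t) ∧
    (∀ l i, HasDerivAt (fun t => (S t).u l i) ((S' t).u l i) t)
  cont : (∀ i, ContinuousAt (fun t => (S' t).lam i) t₀) ∧ (∀ σ, ContinuousAt (fun t => (S' t).pot σ) t₀) ∧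
    (∀ l i, ContinuousAt (fun t => (S' t).s l i) t₀) ∧ (∀ l i, ContinuousAt (fun t => (S' t).u l i) t₀)

theorem sys_Ham_eq (S : Sys ι) (ω : Pth ι) : Ham G S ω =
    (1 / 2) * ∑ i, S.lam i * xx G i ω ^ 2 + ∑ σ, S.pot σ * (if sb G ω = σ then 1 else 0) +
      (∑ p ∈ Ico 1 (G.n - 1) ×ˢ (Finset.univ : Finset ι), S.s p.1 p.2 * (gs p.1 p.2 ω * sg G p.2 ω) +
      ∑ p ∈ Ico 1 (G.n - 1) ×ˢ (Finset.univ : Finset ι), S.u p.1 p.2 * (gx p.1 p.2 ω * xx G p.2 ω)) := by
  unfold Ham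
  rw [Finset.sum_product, Finset.sum_product]
  simp [Finset.sum_add_distrib]

theorem SFam.lfam {S S' : ℝ → Sys ι} {t₀ : ℝ} (h : SFam S S' t₀) :
    (tree G ν).LFam (fun t => Ham G (S t)) (fun t => Ham G (S' t)) t₀ := by
  obtain ⟨⟨δ, hδ, hd⟩, c1, c2, c3, c4⟩ := h
  have e : ∀ S : ℝ → Sys ι, (fun t => Ham G (S t)) = _ := fun S =>
    funext fun t => funext fun ω => sys_Ham_eq (S t) ω
  rw [e S, e S']
  refine (((Tree.LFam.comb Finset.univ hδ (fun i _ t ht => (hd t ht).1 i) (fun i _ => c1 i)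
    fun i _ => sys_lin_xsq i).const_mul (1 / 2)).add
    (Tree.LFam.comb Finset.univ hδ (fun σ _ t ht => (hd t ht).2.1 σ) (fun σ _ => c2 σ)
      fun σ _ => lin_spin fun σ' => if σ' = σ then 1 else 0)).add
    ((Tree.LFam.comb _ hδ (fun p _ t ht => (hd t ht).2.2.1 p.1 p.2) (fun p _ => c3 p.1 p.2)
      fun p hp => sys_lin_gs (Finset.mem_product.1 hp).1 p.2).add
    (Tree.LFam.comb _ hδ (fun p _ t ht => (hd t ht).2.2.2 p.1 p.2) (fun p _ => c4 p.1 p.2)
      fun p hp => sys_lin_gx (Finset.mem_product.1 hp).1 p.2))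
theorem phi_deriv {S S' : ℝ → Sys ι} {t₀ : ℝ} (h : SFam S S' t₀) :
    HasDerivAt (fun t => phi G ν (S t)) (E0 G ν (S t₀) (Ham G (S' t₀))) t₀ := by
  exact ((h.lfam (G := G) (ν := ν)).X 0).1.hasDerivAt pt0

theorem phi_fields_mono (h1 : S.lam = S'.lam) (h2 : S.pot = S'.pot)
    (h3 : ∀ l ∈ Ico 1 (G.n - 1), ∀ i, 0 ≤ S'.s l i ∧ S'.s l i ≤ S.s l i ∧ 0 ≤ S'.u l i ∧ S'.u l i ≤ S.u l i) :
    phi G ν S' ≤ phi G ν S := by
  let D : Sys ι := ⟨fun _ => 0, fun _ => 0, fun l i => S.s l i - S'.s l i, fun l i => S.u l i - S'.u l i⟩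
  have h := phi_tangent (G := G) (ν := ν) (S := S') (D := D) 1
  have e : Ham G (S'.add D 1) = Ham G S :=
    Ham_congr (by funext i; simp [Sys.add, D, h1]) (by funext σ; simp [Sys.add, D, h2])
      fun l _ => ⟨by funext i; simp [Sys.add, D], by funext i; simp [Sys.add, D]⟩
  have e2 : phi G ν (S'.add D 1) = phi G ν S := by unfold phi; rw [e]
  rw [e2, one_mul, E0_Ham] at h
  have h4 : 0 ≤ ∑ l ∈ Ico 1 (G.n - 1), ∑ i, (D.s l i * S'.s l i * Tst G ν S' (sg G i) l +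
      D.u l i * S'.u l i * Tst G ν S' (xx G i) l) :=
    Finset.sum_nonneg fun l hl => Finset.sum_nonneg fun i _ => by
      obtain ⟨a1, a2, a3, a4⟩ := h3 l hl i
      exact add_nonneg (mul_nonneg (mul_nonneg (sub_nonneg.2 a2) a1) (Tst_mem (lin_sg i).tame l).1)
        (mul_nonneg (mul_nonneg (sub_nonneg.2 a4) a3) (Tst_mem (lin_xx i).tame l).1)
  have h5 : E0 G ν S' (fun ω => D.pot (sb G ω)) = 0 := sys_EE_const 0 0 pt0
  have h6 : ∑ i, D.lam i * ov G ν S' (xx G i) (xx G i) G.n = 0 := by simp [D]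
  rw [h5, h6] at h
  linarith

theorem phi_dom
    (h3 : ∀ l ∈ Ico 1 (G.n - 1), ∀ i, 0 ≤ S'.s l i ∧ S'.s l i ≤ S.s l i ∧ 0 ≤ S'.u l i ∧ S'.u l i ≤ S.u l i)
    (h1 : ∀ i, S.lam i + ∑ l ∈ Ico 1 (G.n - 1), (S.u l i ^ 2 - S'.u l i ^ 2) ≤ S'.lam i)
    (h2 : ∀ σ, S.pot σ + (1 / 2) * ∑ l ∈ Ico 1 (G.n - 1), ∑ i, (S.s l i ^ 2 - S'.s l i ^ 2) ≤ S'.pot σ) :
    phi G ν S ≤ phi G ν S' := by
  let A : ℝ → Sys ι := fun r =>
    ⟨fun i => S.lam i + ∑ l ∈ Ico 1 (G.n - 1), (S.u l i ^ 2 - (S'.u l i + r * (S.u l i - S'.u l i)) ^ 2),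
      fun σ => S.pot σ + (1 / 2) * ∑ l ∈ Ico 1 (G.n - 1), ∑ i,
        (S.s l i ^ 2 - (S'.s l i + r * (S.s l i - S'.s l i)) ^ 2),
      fun l i => S'.s l i + r * (S.s l i - S'.s l i), fun l i => S'.u l i + r * (S.u l i - S'.u l i)⟩
  let A' : ℝ → Sys ι := fun r =>
    ⟨fun i => ∑ l ∈ Ico 1 (G.n - 1), -(2 * (S'.u l i + r * (S.u l i - S'.u l i)) * (S.u l i - S'.u l i)),
      fun _ => (1 / 2) * ∑ l ∈ Ico 1 (G.n - 1), ∑ i,
        -(2 * (S'.s l i + r * (S.s l i - S'.s l i)) * (S.s l i - S'.s l i)),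
      fun l i => S.s l i - S'.s l i, fun l i => S.u l i - S'.u l i⟩
  have d1 : ∀ a b r : ℝ, HasDerivAt (fun r : ℝ => a + r * b) b r := fun a b r => by
    simpa using ((hasDerivAt_id r).mul_const b).const_add a
  have d2 : ∀ c a b r : ℝ, HasDerivAt (fun r : ℝ => c - (a + r * b) ^ 2) (-(2 * (a + r * b) * b)) r :=
    fun c a b r => by simpa using ((d1 a b r).pow 2).const_sub c
  have hA : ∀ r, SFam A A' r := fun r =>
    ⟨⟨1, one_pos, fun t _ => ⟨fun i => (HasDerivAt.fun_sum fun l _ => d2 _ _ _ t).const_add _,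
      fun σ => ((HasDerivAt.fun_sum fun l _ => HasDerivAt.fun_sum fun i _ => d2 _ _ _ t).const_mul
        (1 / 2)).const_add _, fun l i => d1 _ _ t, fun l i => d1 _ _ t⟩⟩,
      fun i => by simp only [A']; fun_prop, fun σ => by simp only [A']; fun_prop,
      fun l i => continuousAt_const, fun l i => continuousAt_const⟩
  have hd := fun r => phi_deriv (G := G) (ν := ν) (hA r)
  have hanti : AntitoneOn (fun r => phi G ν (A r)) (Set.Icc 0 1) := by
    refine antitoneOn_of_deriv_nonpos (convex_Icc 0 1)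
      (fun r _ => (hd r).continuousAt.continuousWithinAt)
      (fun r _ => (hd r).differentiableAt.differentiableWithinAt) fun r hr => ?_
    obtain ⟨hr0, hr1⟩ := interior_subset hr
    rw [(hd r).deriv, E0_Ham]
    have e1 : E0 G ν (A r) (fun ω => (A' r).pot (sb G ω)) = (1 / 2) * ∑ l ∈ Ico 1 (G.n - 1), ∑ i,
        -(2 * (S'.s l i + r * (S.s l i - S'.s l i)) * (S.s l i - S'.s l i)) := sys_EE_const _ 0 pt0
    rw [e1]
    simp only [A', Finset.sum_mul]
    rw [Finset.sum_comm, Finset.mul_sum, Finset.mul_sum, ← Finset.sum_add_distrib,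
      ← Finset.sum_add_distrib]
    refine Finset.sum_nonpos fun l hl => ?_
    rw [Finset.mul_sum, Finset.mul_sum, ← Finset.sum_add_distrib, ← Finset.sum_add_distrib]
    refine Finset.sum_nonpos fun i _ => ?_
    obtain ⟨a1, a2, a3, a4⟩ := h3 l hl i
    have b1 := (Tst_mem (S := A r) (lin_sg (G := G) (ν := ν) i).tame l).2
    have b2 := (Tst_mem (S := A r) (lin_xx (G := G) (ν := ν) i).tame l).2
    rw [ov_sg_top] at b1
    have c1 : 0 ≤ (S.s l i - S'.s l i) * (S'.s l i + r * (S.s l i - S'.s l i)) :=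
      mul_nonneg (sub_nonneg.2 a2) (add_nonneg a1 (mul_nonneg hr0 (sub_nonneg.2 a2)))
    have c2 : 0 ≤ (S.u l i - S'.u l i) * (S'.u l i + r * (S.u l i - S'.u l i)) :=
      mul_nonneg (sub_nonneg.2 a4) (add_nonneg a3 (mul_nonneg hr0 (sub_nonneg.2 a4)))
    have f1 := mul_le_mul_of_nonneg_left b1 c1
    have f2 := mul_le_mul_of_nonneg_left b2 c2
    simp only [A]  at f1 f2 ⊢
    linarith
  have h4 : phi G ν (A 1) ≤ phi G ν (A 0) :=
    hanti ⟨le_rfl, zero_le_one⟩ ⟨zero_le_one, le_rfl⟩ zero_le_one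
  have h5 : Ham G (A 1) = Ham G S :=
    Ham_congr (by funext i; simp [A]) (by funext σ; simp [A])
      fun l _ => ⟨by funext i; simp [A], by funext i; simp [A]⟩
  have h6 : phi G ν (A 1) = phi G ν S := by unfold phi; rw [h5]
  have h7 := phi_le_lam_pot (G := G) (ν := ν) (S := A 0) (S' := S') (A := 0) (B := 0)
    (by funext l i; simp [A]) (by funext l i; simp [A]) (fun i => by simpa [A] using h1 i)
    (fun σ => by simpa [A] using h2 σ)
  linarith

/-! ### second differences -/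

def Sec (G : Grid) (ν : ProbabilityMeasure (OG ι)) (S D : Sys ι) (z σ e : ℝ) : Prop :=
  phi G ν (S.add D σ) - phi G ν S ≤ σ * z + e ∧ phi G ν (S.add D (-σ)) - phi G ν S ≤ -σ * z + e

noncomputable def Dif (G : Grid) (ν : ProbabilityMeasure (OG ι)) (S D : Sys ι) (σ : ℝ) : ℝ :=
  phi G ν (S.add D σ) + phi G ν (S.add D (-σ)) - 2 * phi G ν S

theorem Dif_nonneg (σ : ℝ) : 0 ≤ Dif G ν S D σ := by
  have h1 := phi_tangent (G := G) (ν := ν) (S := S) (D := D) σ
  have h2 := phi_tangent (G := G) (ν := ν) (S := S) (D := D) (-σ)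
  unfold Dif
  linarith
theorem sec_of_dif {σ e : ℝ} (h : Dif G ν S D σ ≤ e) : Sec G ν S D (E0 G ν S (Ham G D)) σ e := by
  have h1 := phi_tangent (G := G) (ν := ν) (S := S) (D := D) σ
  have h2 := phi_tangent (G := G) (ν := ν) (S := S) (D := D) (-σ)
  unfold Dif at h
  constructor <;> linarith
theorem Sec.nonneg {z σ e : ℝ} (h : Sec G ν S D z σ e) : 0 ≤ e := by
  have h1 := Dif_nonneg (G := G) (ν := ν) (S := S) (D := D) σ
  obtain ⟨h2, h3⟩ := h
  unfold Dif at h1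
  linarith
theorem Sec.det {z σ e : ℝ} (h : Sec G ν S D z σ e) (hσ : 0 < σ) (l : ℕ) :
    E0 G ν S (fun ω => |EE G ν S l (Ham G D) ω - z|) ≤ (e + Real.log 2 / G.ζ 0) / σ := by
  have e : ∀ t, Ham G (S.add D t) = fun ω => Ham G S ω + t * Ham G D ω := fun t =>
    funext fun ω => Ham_add t ω
  obtain ⟨h1, h2⟩ := h
  unfold phi at h1 h2
  rw [e] at h1 h2
  exact Tree.det (lin_Ham G ν S) (lin_Ham G ν D) (G.pos 0) le_rfl hσ l pt0 h1 h2
theorem Sec.transfer {ι' : Type} [Fintype ι'] [DecidableEq ι'] {ν' : ProbabilityMeasure (OG ι')}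
    {S₁ D₁ : Sys ι'} {z z' σ e c C : ℝ} (h : Sec G ν S D z σ e)
    (h0 : |phi G ν' S₁ - phi G ν S - c| ≤ C)
    (h1 : |phi G ν' (S₁.add D₁ σ) - phi G ν (S.add D σ) - c| ≤ C)
    (h2 : |phi G ν' (S₁.add D₁ (-σ)) - phi G ν (S.add D (-σ)) - c| ≤ C) (hz : |σ * (z - z')| ≤ C) :
    Sec G ν' S₁ D₁ z' σ (e + 3 * C) := by
  obtain ⟨h3, h4⟩ := h
  rw [abs_le] at h0 h1 h2 hz
  constructor <;> linarith [h0.1, h0.2, h1.1, h1.2, h2.1, h2.2, hz.1, hz.2]

end Crest.Agent.R164
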