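import Mathlib

/-!
Row 164: nested ("Parisi tree") functionals.  Levels `0, …, n-1`; at level `l` the coordinate `l` of the
path `ω : ℕ → E` is integrated against `γ` with exponent `ζ l`.
`X H l` = value after integrating the levels `≥ l`, `Ex H l f` = tilted conditional expectation given the
coordinates `< l`, `chi` = the associated susceptibility form.

PLAN (task R164-Tree).  `sz (update ω l e) ≤ sz ω + ρ e` and `sz ω ≤ sz (update ω l e) + ρ (ω l)`;
measurability of `(ω, e) ↦ update ω l e` (`measurable_update'`), `StronglyMeasurable.integral_prod_right'`.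
`lin_X` by downward induction (`Nat.decreasingInduction` or induction on `k` in `Xk`): the integrand is between
`exp (-C(1+sz ω+ρ e))` and `exp (C (1+sz ω+ρ e))` (drop the term `ρ (ω l)` first: `sz (update ω l e)` does not
depend on `ω l`; use `|log ∫| ≤ ...`).  `∫ wt (update ω l e) = 1`.  All `Ex_*` by downward induction from the
same facts for `P`.  Cauchy-Schwarz by the discriminant (`discrim_le_zero`) or `2ab ≤ t a² + b²/t`.
-/

set_option autoImplicit false

namespace Crest.Agent.R164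

open MeasureTheory Finset

structure Tree (E : Type) [MeasurableSpace E] where
  γ : Measure E
  prob : IsProbabilityMeasure γ
  ρ : E → ℝ
  ρ_meas : Measurable ρ
  ρ_nonneg : ∀ e, 0 ≤ ρ e
  ρ_exp : ∀ c : ℝ, Integrable (fun e => Real.exp (c * ρ e)) γ
  n : ℕ
  ζ : ℕ → ℝ
  ζ_pos : ∀ l, 0 < ζ l
  ζ_le : ∀ l, ζ l ≤ 1
  ζ_mono : Monotone ζ

namespace Tree

variable {E : Type} [MeasurableSpace E] (T : Tree E)

def sz (ω : ℕ → E) : ℝ := ∑ l ∈ range T.n, T.ρ (ω l)

/-- measurable with exponential growth -/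
def Tame (f : (ℕ → E) → ℝ) : Prop :=
  Measurable f ∧ ∃ C : ℝ, ∀ ω, |f ω| ≤ C * Real.exp (C * T.sz ω)

/-- measurable with linear growth -/
def Lin (f : (ℕ → E) → ℝ) : Prop :=
  Measurable f ∧ ∃ C : ℝ, ∀ ω, |f ω| ≤ C * (1 + T.sz ω)

/-- does not depend on the coordinates `l ≤ i < n` -/
def Dep (l : ℕ) (f : (ℕ → E) → ℝ) : Prop :=
  ∀ i, l ≤ i → i < T.n → ∀ ω e, f (Function.update ω i e) = f ω

noncomputable def Xk (H : (ℕ → E) → ℝ) : ℕ → (ℕ → E) → ℝ
  | 0 => H
  | k + 1 => fun ω => (T.ζ (T.n - (k + 1)))⁻¹ * Real.log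
      (∫ e, Real.exp (T.ζ (T.n - (k + 1)) * Xk H k (Function.update ω (T.n - (k + 1)) e)) ∂T.γ)

noncomputable def X (H : (ℕ → E) → ℝ) (l : ℕ) : (ℕ → E) → ℝ := T.Xk H (T.n - l)

noncomputable def wt (H : (ℕ → E) → ℝ) (l : ℕ) (ω : ℕ → E) : ℝ :=
  Real.exp (T.ζ l * (T.X H (l + 1) ω - T.X H l ω))

noncomputable def P (H : (ℕ → E) → ℝ) (l : ℕ) (f : (ℕ → E) → ℝ) (ω : ℕ → E) : ℝ :=
  ∫ e, T.wt H l (Function.update ω l e) * f (Function.update ω l e) ∂T.γ

noncomputable def Ek (H f : (ℕ → E) → ℝ) : ℕ → (ℕ → E) → ℝ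
  | 0 => f
  | k + 1 => T.P H (T.n - (k + 1)) (Ek H f k)

noncomputable def Ex (H : (ℕ → E) → ℝ) (l : ℕ) (f : (ℕ → E) → ℝ) : (ℕ → E) → ℝ :=
  T.Ek H f (T.n - l)

noncomputable def chi (H : (ℕ → E) → ℝ) (l : ℕ) (f g : (ℕ → E) → ℝ) (ω : ℕ → E) : ℝ :=
  ∑ i ∈ Ico l T.n, T.ζ i *
    (T.Ex H l (fun ω => T.Ex H (i + 1) f ω * T.Ex H (i + 1) g ω) ω -
      T.Ex H l (fun ω => T.Ex H i f ω * T.Ex H i g ω) ω)

variable {T}
variable {H H' f g η : (ℕ → E) → ℝ} {l l' : ℕ}

theorem sz_nonneg (ω : ℕ → E) : 0 ≤ T.sz ω := sum_nonneg fun _ _ => T.ρ_nonneg _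

theorem measurable_sz : Measurable T.sz := by
  unfold sz
  exact Finset.measurable_sum _ fun l _ => T.ρ_meas.comp (measurable_pi_apply l)

/-! ### closure properties -/

theorem down_ind {p : ℕ → Prop} (h0 : ∀ l, T.n ≤ l → p l) (hs : ∀ l, l < T.n → p (l + 1) → p l)
    (l : ℕ) : p l := by
  by_cases h : T.n ≤ l
  · exact h0 l h
  · have key : ∀ k l, l + k = T.n → p l := by
      intro k
      induction k with
      | zero => intro l hl; exact h0 l (by omega)
      | succ k ih => intro l hl; exact hs l (by omega) (ih (l + 1) (by omega))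
    exact key (T.n - l) l (by omega)

theorem sz_update_le (ω : ℕ → E) (l : ℕ) (e : E) :
    T.sz (Function.update ω l e) ≤ T.sz ω + T.ρ e := by
  unfold sz
  calc ∑ i ∈ range T.n, T.ρ (Function.update ω l e i)
      ≤ ∑ i ∈ range T.n, (T.ρ (ω i) + if i = l then T.ρ e else 0) := by
        refine sum_le_sum fun i _ => ?_
        by_cases h : i = l
        · subst h; simp [T.ρ_nonneg]
        · simp [h]
    _ ≤ _ := by
        rw [sum_add_distrib]
        gcongr
        rw [sum_ite_eq']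
        split_ifs
        · exact le_rfl
        · exact T.ρ_nonneg e

theorem exp_bd_mono {C D : ℝ} (hD : 0 ≤ D) (h : C ≤ D) (ω : ℕ → E) :
    C * Real.exp (C * T.sz ω) ≤ D * Real.exp (D * T.sz ω) := by
  have := T.sz_nonneg ω
  calc C * Real.exp (C * T.sz ω) ≤ D * Real.exp (C * T.sz ω) := by gcongr
    _ ≤ D * Real.exp (D * T.sz ω) := by gcongr

theorem Tame.bd (hf : T.Tame f) : ∃ C : ℝ, 0 ≤ C ∧ ∀ ω, |f ω| ≤ C * Real.exp (C * T.sz ω) := by
  obtain ⟨-, C, hC⟩ := hf
  exact ⟨max C 0, le_max_right _ _, fun ω =>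
    (hC ω).trans (exp_bd_mono (le_max_right _ _) (le_max_left _ _) ω)⟩

theorem Tame.mk' (hm : Measurable f) (A B : ℝ) (h : ∀ ω, |f ω| ≤ A * Real.exp (B * T.sz ω)) :
    T.Tame f := by
  refine ⟨hm, max (max A B) 0, fun ω => (h ω).trans ?_⟩
  have := T.sz_nonneg ω
  have h1 : A ≤ max (max A B) 0 := (le_max_left _ _).trans (le_max_left _ _)
  have h2 : B ≤ max (max A B) 0 := (le_max_right _ _).trans (le_max_left _ _)
  have h3 : (0 : ℝ) ≤ max (max A B) 0 := le_max_right _ _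
  calc A * Real.exp (B * T.sz ω) ≤ max (max A B) 0 * Real.exp (B * T.sz ω) := by gcongr
    _ ≤ _ := by gcongr

theorem Lin.bd (hf : T.Lin f) : ∃ C : ℝ, 0 ≤ C ∧ ∀ ω, |f ω| ≤ C * (1 + T.sz ω) := by
  obtain ⟨-, C, hC⟩ := hf
  refine ⟨max C 0, le_max_right _ _, fun ω => (hC ω).trans ?_⟩
  have := T.sz_nonneg ω
  gcongr
  exact le_max_left _ _

theorem measurable_upd (ω : ℕ → E) (l : ℕ) : Measurable fun e : E => Function.update ω l e :=
  measurable_update ω

theorem measurable_int (hm : Measurable f) (l : ℕ) :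
    Measurable fun ω => ∫ e, f (Function.update ω l e) ∂T.γ := by
  haveI := T.prob
  have h : StronglyMeasurable fun p : (ℕ → E) × E => f (Function.update p.1 l p.2) :=
    (hm.comp measurable_update').stronglyMeasurable
  exact (h.integral_prod_right' (ν := T.γ)).measurable

theorem Tame.of_le (hm : Measurable f) (hg : T.Tame g) (h : ∀ ω, |f ω| ≤ |g ω|) : T.Tame f := by
  obtain ⟨-, C, hC⟩ := hg
  exact ⟨hm, C, fun ω => (h ω).trans (hC ω)⟩
theorem Tame.const (c : ℝ) : T.Tame fun _ => c := by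
  exact Tame.mk' measurable_const |c| 0 fun ω => by simp
theorem Tame.add (hf : T.Tame f) (hg : T.Tame g) : T.Tame fun ω => f ω + g ω := by
  obtain ⟨C, hC0, hC⟩ := hf.bd
  obtain ⟨D, hD0, hD⟩ := hg.bd
  refine Tame.mk' (hf.1.add hg.1) (C + D) (C + D) fun ω => ?_
  have := T.sz_nonneg ω
  calc |f ω + g ω| ≤ |f ω| + |g ω| := abs_add_le _ _
    _ ≤ C * Real.exp (C * T.sz ω) + D * Real.exp (D * T.sz ω) := add_le_add (hC ω) (hD ω)
    _ ≤ C * Real.exp ((C + D) * T.sz ω) + D * Real.exp ((C + D) * T.sz ω) := by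
        gcongr <;> linarith
    _ = _ := by ring
theorem Tame.neg (hf : T.Tame f) : T.Tame fun ω => -f ω := by
  exact hf.of_le hf.1.neg fun ω => by simp
theorem Tame.sub (hf : T.Tame f) (hg : T.Tame g) : T.Tame fun ω => f ω - g ω := by
  simpa only [sub_eq_add_neg] using hf.add hg.neg
theorem Tame.mul (hf : T.Tame f) (hg : T.Tame g) : T.Tame fun ω => f ω * g ω := by
  obtain ⟨C, hC0, hC⟩ := hf.bd
  obtain ⟨D, hD0, hD⟩ := hg.bd
  refine Tame.mk' (hf.1.mul hg.1) (C * D) (C + D) fun ω => ?_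
  calc |f ω * g ω| = |f ω| * |g ω| := abs_mul _ _
    _ ≤ (C * Real.exp (C * T.sz ω)) * (D * Real.exp (D * T.sz ω)) := by
        gcongr
        · exact hC ω
        · exact hD ω
    _ = _ := by rw [add_mul, Real.exp_add]; ring
theorem Tame.const_mul (c : ℝ) (hf : T.Tame f) : T.Tame fun ω => c * f ω := by
  exact (Tame.const c).mul hf
theorem Tame.pow (hf : T.Tame f) (k : ℕ) : T.Tame fun ω => f ω ^ k := by
  induction k with
  | zero => simpa using Tame.const (T := T) 1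
  | succ k ih => simpa only [pow_succ] using ih.mul hf
theorem Tame.abs (hf : T.Tame f) : T.Tame fun ω => |f ω| := by
  exact hf.of_le hf.1.abs fun ω => by simp
theorem Tame.max (hf : T.Tame f) (hg : T.Tame g) : T.Tame fun ω => max (f ω) (g ω) := by
  refine (hf.abs.add hg.abs).of_le (hf.1.max hg.1) fun ω => ?_
  rw [abs_of_nonneg (a := |f ω| + |g ω|) (by positivity)]
  rcases max_choice (f ω) (g ω) with h | h <;> rw [h] <;> simp
theorem Tame.min (hf : T.Tame f) (hg : T.Tame g) : T.Tame fun ω => min (f ω) (g ω) := by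
  refine (hf.abs.add hg.abs).of_le (hf.1.min hg.1) fun ω => ?_
  rw [abs_of_nonneg (a := |f ω| + |g ω|) (by positivity)]
  rcases min_choice (f ω) (g ω) with h | h <;> rw [h] <;> simp
theorem Tame.sqrt (hf : T.Tame f) : T.Tame fun ω => Real.sqrt (f ω) := by
  refine ((Tame.const 1).add hf.abs).of_le hf.1.sqrt fun ω => ?_
  rw [abs_of_nonneg (Real.sqrt_nonneg _), abs_of_nonneg (a := 1 + |f ω|) (by positivity),
    Real.sqrt_le_left (by positivity)]
  nlinarith [le_abs_self (f ω), abs_nonneg (f ω)]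
theorem Tame.sum {ι : Type*} (s : Finset ι) {F : ι → (ℕ → E) → ℝ} (h : ∀ i ∈ s, T.Tame (F i)) :
    T.Tame fun ω => ∑ i ∈ s, F i ω := by
  classical
  induction s using Finset.induction_on with
  | empty => simpa using Tame.const (T := T) 0
  | insert a s ha ih =>
    simp only [sum_insert ha]
    exact (h a (mem_insert_self _ _)).add (ih fun i hi => h i (mem_insert_of_mem hi))
theorem Lin.tame (hf : T.Lin f) : T.Tame f := by
  obtain ⟨C, hC0, hC⟩ := hf.bd
  refine Tame.mk' hf.1 C 1 fun ω => (hC ω).trans ?_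
  gcongr
  rw [one_mul, add_comm]
  exact Real.add_one_le_exp _
theorem Lin.exp (hf : T.Lin f) : T.Tame fun ω => Real.exp (f ω) := by
  obtain ⟨C, hC0, hC⟩ := hf.bd
  refine Tame.mk' hf.1.exp (Real.exp C) C fun ω => ?_
  rw [abs_of_pos (Real.exp_pos _), ← Real.exp_add]
  gcongr
  have := (le_abs_self _).trans (hC ω)
  linarith
theorem Lin.of_bdd (hm : Measurable f) {C : ℝ} (h : ∀ ω, |f ω| ≤ C) : T.Lin f := by
  refine ⟨hm, C, fun ω => (h ω).trans ?_⟩
  have := T.sz_nonneg ω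
  have := (abs_nonneg _).trans (h ω)
  nlinarith
theorem Lin.of_le (hm : Measurable f) (hg : T.Lin g) (h : ∀ ω, |f ω| ≤ |g ω|) : T.Lin f := by
  obtain ⟨-, C, hC⟩ := hg
  exact ⟨hm, C, fun ω => (h ω).trans (hC ω)⟩
theorem Lin.const (c : ℝ) : T.Lin fun _ => c := by
  exact Lin.of_bdd measurable_const (C := |c|) fun _ => le_rfl
theorem Lin.add (hf : T.Lin f) (hg : T.Lin g) : T.Lin fun ω => f ω + g ω := by
  obtain ⟨C, hC0, hC⟩ := hf.bd
  obtain ⟨D, hD0, hD⟩ := hg.bd
  refine ⟨hf.1.add hg.1, C + D, fun ω => ?_⟩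
  calc |f ω + g ω| ≤ |f ω| + |g ω| := abs_add_le _ _
    _ ≤ _ := add_le_add (hC ω) (hD ω)
    _ = _ := by ring
theorem Lin.neg (hf : T.Lin f) : T.Lin fun ω => -f ω := by
  exact hf.of_le hf.1.neg fun ω => by simp
theorem Lin.sub (hf : T.Lin f) (hg : T.Lin g) : T.Lin fun ω => f ω - g ω := by
  simpa only [sub_eq_add_neg] using hf.add hg.neg
theorem Lin.const_mul (c : ℝ) (hf : T.Lin f) : T.Lin fun ω => c * f ω := by
  obtain ⟨C, hC0, hC⟩ := hf.bd
  refine ⟨hf.1.const_mul c, |c| * C, fun ω => ?_⟩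
  rw [abs_mul, mul_assoc]
  gcongr
  exact hC ω
theorem Lin.abs (hf : T.Lin f) : T.Lin fun ω => |f ω| := by
  exact hf.of_le hf.1.abs fun ω => by simp
theorem Lin.mul_bdd (hf : T.Lin f) (hm : Measurable g) {C : ℝ} (h : ∀ ω, |g ω| ≤ C) :
    T.Lin fun ω => f ω * g ω := by
  refine (hf.const_mul C).of_le (hf.1.mul hm) fun ω => ?_
  rw [abs_mul, abs_mul, mul_comm]
  exact mul_le_mul_of_nonneg_right ((h ω).trans (le_abs_self _)) (abs_nonneg _)
theorem Lin.sum {ι : Type*} (s : Finset ι) {F : ι → (ℕ → E) → ℝ} (h : ∀ i ∈ s, T.Lin (F i)) :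
    T.Lin fun ω => ∑ i ∈ s, F i ω := by
  classical
  induction s using Finset.induction_on with
  | empty => simpa using Lin.const (T := T) 0
  | insert a s ha ih =>
    simp only [sum_insert ha]
    exact (h a (mem_insert_self _ _)).add (ih fun i hi => h i (mem_insert_of_mem hi))

theorem Dep.mono (h : T.Dep l f) (hl : l ≤ l') : T.Dep l' f := fun i hi => h i (hl.trans hi)
theorem Dep.const (c : ℝ) : T.Dep l fun _ => c := fun _ _ _ _ _ => rfl
theorem Dep.comp₂ (hf : T.Dep l f) (hg : T.Dep l g) (F : ℝ → ℝ → ℝ) :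
    T.Dep l fun ω => F (f ω) (g ω) := fun i h1 h2 ω e => by
  simp only [hf i h1 h2 ω e, hg i h1 h2 ω e]
theorem Dep.comp (hf : T.Dep l f) (F : ℝ → ℝ) : T.Dep l fun ω => F (f ω) := fun i h1 h2 ω e => by
  simp only [hf i h1 h2 ω e]
theorem Dep.sum {ι : Type*} (s : Finset ι) {F : ι → (ℕ → E) → ℝ} (h : ∀ i ∈ s, T.Dep l (F i)) :
    T.Dep l fun ω => ∑ i ∈ s, F i ω := fun i h1 h2 ω e =>
  sum_congr rfl fun j hj => h j hj i h1 h2 ω e

theorem bd_update {C : ℝ} (hC0 : 0 ≤ C) (hC : ∀ ω, |f ω| ≤ C * Real.exp (C * T.sz ω)) (ω : ℕ → E)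
    (l : ℕ) (e : E) :
    |f (Function.update ω l e)| ≤ (C * Real.exp (C * T.sz ω)) * Real.exp (C * T.ρ e) := by
  refine (hC _).trans ?_
  rw [mul_assoc, ← Real.exp_add, ← mul_add]
  gcongr
  exact sz_update_le ω l e

theorem bd_integral {C : ℝ} (hC0 : 0 ≤ C) (hC : ∀ ω, |f ω| ≤ C * Real.exp (C * T.sz ω)) (ω : ℕ → E)
    (l : ℕ) : |∫ e, f (Function.update ω l e) ∂T.γ| ≤
      (C * ∫ e, Real.exp (C * T.ρ e) ∂T.γ) * Real.exp (C * T.sz ω) := by
  have h := norm_integral_le_of_norm_le (f := fun e => f (Function.update ω l e))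
    ((T.ρ_exp C).const_mul (C * Real.exp (C * T.sz ω)))
    (Filter.Eventually.of_forall fun e => bd_update hC0 hC ω l e)
  rw [integral_const_mul, Real.norm_eq_abs] at h
  calc _ ≤ _ := h
    _ = _ := by ring

/-- integrability along one coordinate -/
theorem Tame.integrable_update (hf : T.Tame f) (ω : ℕ → E) (l : ℕ) :
    Integrable (fun e => f (Function.update ω l e)) T.γ := by
  obtain ⟨C, hC0, hC⟩ := hf.bd
  exact ((T.ρ_exp C).const_mul (C * Real.exp (C * T.sz ω))).mono'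
    (hf.1.comp (measurable_upd ω l)).aestronglyMeasurable
    (Filter.Eventually.of_forall fun e => bd_update hC0 hC ω l e)

/-- integrating out one coordinate -/
theorem Tame.integral_update (hf : T.Tame f) (l : ℕ) :
    T.Tame fun ω => ∫ e, f (Function.update ω l e) ∂T.γ := by
  obtain ⟨C, hC0, hC⟩ := hf.bd
  exact Tame.mk' (measurable_int hf.1 l) _ C fun ω => bd_integral hC0 hC ω l

/-! ### the recursion -/

theorem X_of_le (h : T.n ≤ l) : T.X H l = H := by
  simp [X, Nat.sub_eq_zero_of_le h, Xk]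

theorem X_step (h : l < T.n) (ω : ℕ → E) : T.X H l ω =
    (T.ζ l)⁻¹ * Real.log (∫ e, Real.exp (T.ζ l * T.X H (l + 1) (Function.update ω l e)) ∂T.γ) := by
  have h1 : T.n - l = (T.n - (l + 1)) + 1 := by omega
  have h2 : T.n - (T.n - (l + 1) + 1) = l := by omega
  simp only [X]
  rw [h1, Xk, h2]

theorem Ex_of_le (h : T.n ≤ l) : T.Ex H l f = f := by
  simp [Ex, Nat.sub_eq_zero_of_le h, Ek]

theorem Ex_step (h : l < T.n) : T.Ex H l f = T.P H l (T.Ex H (l + 1) f) := by
  have h1 : T.n - l = (T.n - (l + 1)) + 1 := by omega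
  have h2 : T.n - (T.n - (l + 1) + 1) = l := by omega
  simp only [Ex]
  rw [h1, Ek, h2]

theorem int_exp_pos (hf : T.Lin f) (ω : ℕ → E) (l : ℕ) :
    0 < ∫ e, Real.exp (f (Function.update ω l e)) ∂T.γ := by
  haveI := T.prob
  exact integral_exp_pos (hf.exp.integrable_update ω l)

theorem int_exp_rho_pos (c : ℝ) : 0 < ∫ e, Real.exp (c * T.ρ e) ∂T.γ := by
  haveI := T.prob
  exact integral_exp_pos (T.ρ_exp c)

/-- one step of the linear growth estimate, uniform constants -/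
theorem lin_step {C : ℝ} (hC0 : 0 ≤ C) : ∃ D : ℝ, 0 ≤ D ∧ ∀ (l : ℕ) (f : (ℕ → E) → ℝ), Measurable f →
    (∀ ω, |f ω| ≤ C * (1 + T.sz ω)) → ∀ ω,
      |Real.log (∫ e, Real.exp (f (Function.update ω l e)) ∂T.γ)| ≤ C * (1 + T.sz ω) + D := by
  refine ⟨|Real.log (∫ e, Real.exp (C * T.ρ e) ∂T.γ)| +
    |Real.log (∫ e, Real.exp ((-C) * T.ρ e) ∂T.γ)|, by positivity, fun l f hm hC ω => ?_⟩
  have hf : T.Lin f := ⟨hm, C, hC⟩
  have hb : ∀ e, |f (Function.update ω l e)| ≤ C * (1 + T.sz ω) + C * T.ρ e := fun e => by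
    refine (hC _).trans ?_
    rw [← mul_add, add_assoc]
    gcongr
    exact sz_update_le ω l e
  have hpos := int_exp_pos hf ω l
  have hi := hf.exp.integrable_update ω l
  have h1 : ∫ e, Real.exp (f (Function.update ω l e)) ∂T.γ ≤
      Real.exp (C * (1 + T.sz ω)) * ∫ e, Real.exp (C * T.ρ e) ∂T.γ := by
    rw [← integral_const_mul]
    refine integral_mono hi ((T.ρ_exp C).const_mul _) fun e => ?_
    simp only [← Real.exp_add]
    gcongr
    exact (le_abs_self _).trans (hb e)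
  have h2 : Real.exp (-(C * (1 + T.sz ω))) * ∫ e, Real.exp ((-C) * T.ρ e) ∂T.γ ≤
      ∫ e, Real.exp (f (Function.update ω l e)) ∂T.γ := by
    rw [← integral_const_mul]
    refine integral_mono ((T.ρ_exp (-C)).const_mul _) hi fun e => ?_
    simp only [← Real.exp_add]
    gcongr
    have := (neg_le_abs _).trans (hb e)
    linarith
  have p1 := int_exp_rho_pos (T := T) C
  have p2 := int_exp_rho_pos (T := T) (-C)
  have l1 := Real.log_le_log hpos h1
  have l2 := Real.log_le_log (mul_pos (Real.exp_pos _) p2) h2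
  rw [Real.log_mul (Real.exp_pos _).ne' p1.ne', Real.log_exp] at l1
  rw [Real.log_mul (Real.exp_pos _).ne' p2.ne', Real.log_exp] at l2
  have a1 := le_abs_self (Real.log (∫ e, Real.exp (C * T.ρ e) ∂T.γ))
  have a2 := neg_abs_le (Real.log (∫ e, Real.exp ((-C) * T.ρ e) ∂T.γ))
  have a3 := abs_nonneg (Real.log (∫ e, Real.exp (C * T.ρ e) ∂T.γ))
  have a4 := abs_nonneg (Real.log (∫ e, Real.exp ((-C) * T.ρ e) ∂T.γ))
  rw [abs_le]
  constructor <;> linarith

/-- linear growth of `X`, with a constant depending only on the constant of `H` -/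
theorem lin_X_unif (C : ℝ) (l : ℕ) : ∃ D : ℝ, 0 ≤ D ∧ ∀ H : (ℕ → E) → ℝ, Measurable H →
    (∀ ω, |H ω| ≤ C * (1 + T.sz ω)) →
      Measurable (T.X H l) ∧ ∀ ω, |T.X H l ω| ≤ D * (1 + T.sz ω) := by
  induction l using down_ind (T := T) with
  | h0 l hl =>
    refine ⟨max C 0, le_max_right _ _, fun H hm hC => ?_⟩
    rw [X_of_le hl]
    refine ⟨hm, fun ω => (hC ω).trans ?_⟩
    have := T.sz_nonneg ω
    gcongr
    exact le_max_left _ _
  | hs l hl ih =>
    obtain ⟨D, hD0, hD⟩ := ih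
    have hζ := T.ζ_pos l
    obtain ⟨D', hD'0, hD'⟩ := lin_step (T := T) (C := T.ζ l * D) (by positivity)
    refine ⟨D + (T.ζ l)⁻¹ * D', by positivity, fun H hm hC => ?_⟩
    obtain ⟨m, b⟩ := hD H hm hC
    have e : T.X H l = fun ω => (T.ζ l)⁻¹ * Real.log
        (∫ e, Real.exp (T.ζ l * T.X H (l + 1) (Function.update ω l e)) ∂T.γ) :=
      funext fun ω => X_step hl ω
    refine ⟨?_, fun ω => ?_⟩
    · rw [e]
      exact ((measurable_int (f := fun ω => Real.exp (T.ζ l * T.X H (l + 1) ω))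
        (m.const_mul _).exp l).log).const_mul _
    · have h := hD' l (fun ω => T.ζ l * T.X H (l + 1) ω) (m.const_mul _) (fun ω => by
        rw [abs_mul, abs_of_pos hζ, mul_assoc]
        gcongr
        exact b ω) ω
      rw [X_step hl, abs_mul, abs_of_pos (inv_pos.2 hζ)]
      have hs := T.sz_nonneg ω
      calc _ ≤ (T.ζ l)⁻¹ * (T.ζ l * D * (1 + T.sz ω) + D') := by gcongr
        _ = D * (1 + T.sz ω) + (T.ζ l)⁻¹ * D' * 1 := by field_simp
        _ ≤ D * (1 + T.sz ω) + (T.ζ l)⁻¹ * D' * (1 + T.sz ω) := by gcongr; linarith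
        _ = _ := by ring

theorem dep_int {F : (ℕ → E) → ℝ} (hF : T.Dep (l + 1) F) :
    T.Dep l fun ω => ∫ e, F (Function.update ω l e) ∂T.γ := by
  intro i h1 h2 ω e
  by_cases h : i = l
  · subst h
    simp only [Function.update_idem]
  · refine integral_congr_ae (Filter.Eventually.of_forall fun e' => ?_)
    simp only []
    rw [Function.update_comm h, hF i (by omega) h2]

theorem lin_X (hH : T.Lin H) (l : ℕ) : T.Lin (T.X H l) := by
  obtain ⟨m, C, hC⟩ := hH
  obtain ⟨D, -, hD⟩ := lin_X_unif (T := T) C l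
  exact ⟨(hD H m hC).1, D, (hD H m hC).2⟩
theorem dep_X (H : (ℕ → E) → ℝ) (l : ℕ) : T.Dep l (T.X H l) := by
  induction l using down_ind (T := T) with
  | h0 l hl => intro i h1 h2; omega
  | hs l hl ih =>
    have e : T.X H l = fun ω => (T.ζ l)⁻¹ * Real.log
        (∫ e, Real.exp (T.ζ l * T.X H (l + 1) (Function.update ω l e)) ∂T.γ) :=
      funext fun ω => X_step hl ω
    rw [e]
    exact (dep_int (ih.comp fun x => Real.exp (T.ζ l * x))).comp fun x => (T.ζ l)⁻¹ * Real.log x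
theorem dep_wt (H : (ℕ → E) → ℝ) (l : ℕ) : T.Dep (l + 1) (T.wt H l) :=
  (dep_X H (l + 1)).comp₂ ((dep_X H l).mono (Nat.le_succ l)) fun a b => Real.exp (T.ζ l * (a - b))

theorem wt_pos (H : (ℕ → E) → ℝ) (l : ℕ) (ω : ℕ → E) : 0 < T.wt H l ω := Real.exp_pos _

theorem dep_Ex (H f : (ℕ → E) → ℝ) (l : ℕ) : T.Dep l (T.Ex H l f) := by
  induction l using down_ind (T := T) with
  | h0 l hl => intro i h1 h2; omega
  | hs l hl ih =>
    rw [Ex_step hl]
    exact dep_int (F := fun ω => T.wt H l ω * T.Ex H (l + 1) f ω)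
      ((dep_wt H l).comp₂ ih fun a b => a * b)
theorem tame_wt (hH : T.Lin H) (l : ℕ) : T.Tame (T.wt H l) := by
  exact (((lin_X hH (l + 1)).sub (lin_X hH l)).const_mul (T.ζ l)).exp
theorem exp_X_step (hH : T.Lin H) (h : l < T.n) (ω : ℕ → E) : Real.exp (T.ζ l * T.X H l ω) =
    ∫ e, Real.exp (T.ζ l * T.X H (l + 1) (Function.update ω l e)) ∂T.γ := by
  rw [X_step h, ← mul_assoc, mul_inv_cancel₀ (T.ζ_pos l).ne', one_mul,
    Real.exp_log (int_exp_pos ((lin_X hH (l + 1)).const_mul (T.ζ l)) ω l)]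
theorem tame_P (hH : T.Lin H) (hf : T.Tame f) (l : ℕ) : T.Tame (T.P H l f) := by
  exact ((tame_wt hH l).mul hf).integral_update l
theorem tame_Ex (hH : T.Lin H) (hf : T.Tame f) (l : ℕ) : T.Tame (T.Ex H l f) := by
  induction l using down_ind (T := T) with
  | h0 l hl => rwa [Ex_of_le hl]
  | hs l hl ih => rw [Ex_step hl]; exact tame_P hH ih l

theorem integrable_P (hH : T.Lin H) (hf : T.Tame f) (l : ℕ) (ω : ℕ → E) :
    Integrable (fun e => T.wt H l (Function.update ω l e) * f (Function.update ω l e)) T.γ :=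
  ((tame_wt hH l).mul hf).integrable_update ω l

theorem int_wt (hH : T.Lin H) (h : l < T.n) (ω : ℕ → E) :
    ∫ e, T.wt H l (Function.update ω l e) ∂T.γ = 1 := by
  have e1 : ∀ e, T.wt H l (Function.update ω l e) = (Real.exp (T.ζ l * T.X H l ω))⁻¹ *
      Real.exp (T.ζ l * T.X H (l + 1) (Function.update ω l e)) := fun e => by
    rw [wt, dep_X H l l le_rfl h, ← Real.exp_neg, ← Real.exp_add]
    congr 1
    ring
  simp only [e1]
  rw [integral_const_mul, ← exp_X_step hH h, inv_mul_cancel₀ (Real.exp_pos _).ne']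

theorem P_add (hH : T.Lin H) (hf : T.Tame f) (hg : T.Tame g) (l : ℕ) (ω : ℕ → E) :
    T.P H l (fun ω => f ω + g ω) ω = T.P H l f ω + T.P H l g ω := by
  simp only [P, mul_add]
  exact integral_add (integrable_P hH hf l ω) (integrable_P hH hg l ω)

theorem P_mul_dep (H f : (ℕ → E) → ℝ) (hg : T.Dep l g) (h : l < T.n) (ω : ℕ → E) :
    T.P H l (fun ω => g ω * f ω) ω = g ω * T.P H l f ω := by
  simp only [P, hg l le_rfl h]
  rw [← integral_const_mul]
  congr 1
  funext e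
  ring

theorem P_const (hH : T.Lin H) (c : ℝ) (h : l < T.n) (ω : ℕ → E) : T.P H l (fun _ => c) ω = c := by
  simp only [P]
  rw [integral_mul_const, int_wt hH h, one_mul]

theorem P_nonneg (H : (ℕ → E) → ℝ) (h : ∀ ω, 0 ≤ f ω) (l : ℕ) (ω : ℕ → E) : 0 ≤ T.P H l f ω :=
  integral_nonneg fun _ => mul_nonneg (wt_pos _ _ _).le (h _)

theorem P_pos (hH : T.Lin H) (hf : T.Tame f) (h : ∀ ω, 0 < f ω) (l : ℕ) (ω : ℕ → E) :
    0 < T.P H l f ω := by
  haveI := T.prob
  have hp : ∀ e, 0 < T.wt H l (Function.update ω l e) * f (Function.update ω l e) := fun e =>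
    mul_pos (wt_pos _ _ _) (h _)
  rw [P, integral_pos_iff_support_of_nonneg (fun e => (hp e).le) (integrable_P hH hf l ω)]
  have : Function.support (fun e => T.wt H l (Function.update ω l e) * f (Function.update ω l e)) =
      Set.univ := Set.eq_univ_of_forall fun e => (hp e).ne'
  rw [this]
  simp

theorem Ex_mul_dep' (H f : (ℕ → E) → ℝ) (hg : T.Dep l g) {k : ℕ} (hk : l ≤ k) (ω : ℕ → E) :
    T.Ex H k (fun ω => g ω * f ω) ω = g ω * T.Ex H k f ω := by
  induction k using down_ind (T := T) generalizing ω with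
  | h0 k hk' => simp only [Ex_of_le hk']
  | hs k hk' ih =>
    rw [Ex_step hk', Ex_step hk', ← P_mul_dep H _ (hg.mono hk) hk']
    congr 1
    exact funext (ih (by omega))

theorem Ex_add (hH : T.Lin H) (hf : T.Tame f) (hg : T.Tame g) (l : ℕ) (ω : ℕ → E) :
    T.Ex H l (fun ω => f ω + g ω) ω = T.Ex H l f ω + T.Ex H l g ω := by
  induction l using down_ind (T := T) generalizing ω with
  | h0 l hl => simp only [Ex_of_le hl]
  | hs l hl ih =>
    rw [Ex_step hl, Ex_step hl, Ex_step hl, ← P_add hH (tame_Ex hH hf _) (tame_Ex hH hg _)]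
    congr 1
    exact funext ih
theorem Ex_sub (hH : T.Lin H) (hf : T.Tame f) (hg : T.Tame g) (l : ℕ) (ω : ℕ → E) :
    T.Ex H l (fun ω => f ω - g ω) ω = T.Ex H l f ω - T.Ex H l g ω := by
  have h := Ex_add hH hf hg.neg l ω
  have h2 := Ex_mul_dep' H g (Dep.const (T := T) (l := l) (-1)) le_rfl ω
  simp only [neg_one_mul] at h2
  simpa only [sub_eq_add_neg, h2] using h
theorem Ex_const_mul (H f : (ℕ → E) → ℝ) (c : ℝ) (l : ℕ) (ω : ℕ → E) :
    T.Ex H l (fun ω => c * f ω) ω = c * T.Ex H l f ω := by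
  exact Ex_mul_dep' H f (Dep.const (T := T) (l := l) c) le_rfl ω
theorem Ex_neg (H f : (ℕ → E) → ℝ) (l : ℕ) (ω : ℕ → E) :
    T.Ex H l (fun ω => -f ω) ω = -T.Ex H l f ω := by
  simpa using Ex_const_mul (T := T) H f (-1) l ω
theorem Ex_sum (hH : T.Lin H) {ι : Type*} (s : Finset ι) {F : ι → (ℕ → E) → ℝ}
    (h : ∀ i ∈ s, T.Tame (F i)) (l : ℕ) (ω : ℕ → E) :
    T.Ex H l (fun ω => ∑ i ∈ s, F i ω) ω = ∑ i ∈ s, T.Ex H l (F i) ω := by
  classical
  induction s using Finset.induction_on with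
  | empty => simpa using Ex_const_mul (T := T) H (fun _ => 0) 0 l ω
  | insert a s ha ih =>
    simp only [sum_insert ha]
    rw [Ex_add hH (h a (mem_insert_self _ _)) (Tame.sum s fun i hi => h i (mem_insert_of_mem hi)),
      ih fun i hi => h i (mem_insert_of_mem hi)]
theorem Ex_const (hH : T.Lin H) (c : ℝ) (l : ℕ) (ω : ℕ → E) : T.Ex H l (fun _ => c) ω = c := by
  induction l using down_ind (T := T) generalizing ω with
  | h0 l hl => simp only [Ex_of_le hl]
  | hs l hl ih =>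
    rw [Ex_step hl, funext ih, P_const hH c hl]
theorem Ex_nonneg (H : (ℕ → E) → ℝ) (h : ∀ ω, 0 ≤ f ω) (l : ℕ) (ω : ℕ → E) : 0 ≤ T.Ex H l f ω := by
  induction l using down_ind (T := T) generalizing ω with
  | h0 l hl => rw [Ex_of_le hl]; exact h ω
  | hs l hl ih => rw [Ex_step hl]; exact P_nonneg H ih l ω
theorem Ex_mono (hH : T.Lin H) (hf : T.Tame f) (hg : T.Tame g) (h : ∀ ω, f ω ≤ g ω) (l : ℕ)
    (ω : ℕ → E) : T.Ex H l f ω ≤ T.Ex H l g ω := by
  have := Ex_nonneg (T := T) H (f := fun ω => g ω - f ω) (fun ω => sub_nonneg.2 (h ω)) l ω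
  rw [Ex_sub hH hg hf] at this
  linarith
theorem Ex_pos (hH : T.Lin H) (hf : T.Tame f) (h : ∀ ω, 0 < f ω) (l : ℕ) (ω : ℕ → E) :
    0 < T.Ex H l f ω := by
  induction l using down_ind (T := T) generalizing ω with
  | h0 l hl => rw [Ex_of_le hl]; exact h ω
  | hs l hl ih => rw [Ex_step hl]; exact P_pos hH (tame_Ex hH hf _) ih l ω
theorem Ex_mul_dep (H f : (ℕ → E) → ℝ) (hg : T.Dep l g) (ω : ℕ → E) :
    T.Ex H l (fun ω => g ω * f ω) ω = g ω * T.Ex H l f ω := by
  exact Ex_mul_dep' H f hg le_rfl ω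
theorem Ex_of_dep (hH : T.Lin H) (hg : T.Dep l g) (ω : ℕ → E) : T.Ex H l g ω = g ω := by
  have := Ex_mul_dep H (fun _ => 1) hg ω
  simpa [Ex_const hH] using this
theorem Ex_tower (hH : T.Lin H) (f : (ℕ → E) → ℝ) (h : l ≤ l') (ω : ℕ → E) :
    T.Ex H l (T.Ex H l' f) ω = T.Ex H l f ω := by
  induction l using down_ind (T := T) generalizing ω with
  | h0 l hl => rw [Ex_of_le hl, Ex_of_le hl, Ex_of_le (hl.trans h)]
  | hs l hl ih =>
    rcases h.eq_or_lt with rfl | h'
    · exact Ex_of_dep hH (dep_Ex H f l) ω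
    · rw [Ex_step hl, Ex_step hl, funext (ih h')]
theorem abs_Ex_le (hH : T.Lin H) (hf : T.Tame f) (l : ℕ) (ω : ℕ → E) :
    |T.Ex H l f ω| ≤ T.Ex H l (fun ω => |f ω|) ω := by
  rw [abs_le]
  constructor
  · rw [← Ex_neg]
    exact Ex_mono hH hf.abs.neg hf (fun ω => neg_abs_le _) l ω
  · exact Ex_mono hH hf hf.abs (fun ω => le_abs_self _) l ω
theorem abs_Ex_le_const (hH : T.Lin H) (hf : T.Tame f) {C : ℝ} (h : ∀ ω, |f ω| ≤ C) (l : ℕ)
    (ω : ℕ → E) : |T.Ex H l f ω| ≤ C := by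
  refine (abs_Ex_le hH hf l ω).trans ?_
  simpa only [Ex_const hH] using Ex_mono hH hf.abs (Tame.const C) h l ω
theorem Ex_cs (hH : T.Lin H) (hf : T.Tame f) (hg : T.Tame g) (l : ℕ) (ω : ℕ → E) :
    T.Ex H l (fun ω => f ω * g ω) ω ^ 2 ≤
      T.Ex H l (fun ω => f ω ^ 2) ω * T.Ex H l (fun ω => g ω ^ 2) ω := by
  have key : ∀ t : ℝ, 0 ≤ T.Ex H l (fun ω => f ω ^ 2) ω * (t * t) +
      2 * T.Ex H l (fun ω => f ω * g ω) ω * t + T.Ex H l (fun ω => g ω ^ 2) ω := fun t => by
    have h0 := Ex_nonneg (T := T) H (f := fun ω => ((t * t) * f ω ^ 2 + (2 * t) * (f ω * g ω)) + g ω ^ 2)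
      (fun ω => by nlinarith [sq_nonneg (t * f ω + g ω)]) l ω
    rw [Ex_add hH (((hf.pow 2).const_mul _).add ((hf.mul hg).const_mul _)) (hg.pow 2),
      Ex_add hH ((hf.pow 2).const_mul _) ((hf.mul hg).const_mul _), Ex_const_mul, Ex_const_mul] at h0
    linarith
  have := discrim_le_zero key
  unfold discrim at this
  nlinarith
theorem sq_Ex_le (hH : T.Lin H) (hf : T.Tame f) (l : ℕ) (ω : ℕ → E) :
    T.Ex H l f ω ^ 2 ≤ T.Ex H l (fun ω => f ω ^ 2) ω := by
  simpa [Ex_const hH] using Ex_cs hH hf (Tame.const 1) l ω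
/-- Jensen for `exp` (tangent line `exp a * (1 + x - a) ≤ exp x`). -/
theorem exp_Ex_le (hH : T.Lin H) (hf : T.Tame f) (hf' : T.Tame fun ω => Real.exp (f ω)) (l : ℕ)
    (ω : ℕ → E) : Real.exp (T.Ex H l f ω) ≤ T.Ex H l (fun ω => Real.exp (f ω)) ω := by
  set a := T.Ex H l f ω with ha
  have h := Ex_mono hH (f := fun ω => Real.exp a * (1 - a) + Real.exp a * f ω)
    ((Tame.const _).add (hf.const_mul _)) hf' (fun ω => by
      have h1 := Real.add_one_le_exp (f ω - a)
      have h2 : Real.exp (f ω) = Real.exp a * Real.exp (f ω - a) := by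
        rw [← Real.exp_add]; congr 1; ring
      have h3 := Real.exp_pos a
      rw [h2]
      nlinarith) l ω
  rw [Ex_add hH (Tame.const _) (hf.const_mul _), Ex_const hH, Ex_const_mul, ← ha] at h
  linarith

theorem X_mono (hH : T.Lin H) (hH' : T.Lin H') (h : ∀ ω, H ω ≤ H' ω) (l : ℕ) (ω : ℕ → E) :
    T.X H l ω ≤ T.X H' l ω := by
  induction l using down_ind (T := T) generalizing ω with
  | h0 l hl => rw [X_of_le hl, X_of_le hl]; exact h ω
  | hs l hl ih =>
    rw [X_step hl, X_step hl]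
    have hζ := T.ζ_pos l
    have l1 := (lin_X hH (l + 1)).const_mul (T.ζ l)
    have l2 := (lin_X hH' (l + 1)).const_mul (T.ζ l)
    refine mul_le_mul_of_nonneg_left (Real.log_le_log (int_exp_pos l1 ω l) ?_) (inv_pos.2 hζ).le
    refine integral_mono (l1.exp.integrable_update ω l) (l2.exp.integrable_update ω l) fun e => ?_
    exact Real.exp_le_exp.2 (mul_le_mul_of_nonneg_left (ih _) hζ.le)
theorem X_add_dep' (hH : T.Lin H) (hg : T.Dep l g) {k : ℕ} (hk : l ≤ k) (ω : ℕ → E) :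
    T.X (fun ω => H ω + g ω) k ω = T.X H k ω + g ω := by
  induction k using down_ind (T := T) generalizing ω with
  | h0 k hk' => simp only [X_of_le hk']
  | hs k hk' ih =>
    have hζ := T.ζ_pos k
    rw [X_step hk']
    simp only [ih (by omega), hg k hk hk', mul_add, Real.exp_add]
    rw [integral_mul_const, ← exp_X_step hH hk', ← Real.exp_add, Real.log_exp]
    field_simp

theorem X_add_dep (hH : T.Lin H) (hg : T.Dep l g) (ω : ℕ → E) :
    T.X (fun ω => H ω + g ω) l ω = T.X H l ω + g ω := by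
  exact X_add_dep' hH hg le_rfl ω
theorem X_of_dep (hH : T.Dep l H) (ω : ℕ → E) : T.X H l ω = H ω := by
  have key : ∀ k, l ≤ k → ∀ ω, T.X H k ω = H ω := by
    intro k
    induction k using down_ind (T := T) with
    | h0 k hk' => intro _ ω; simp only [X_of_le hk']
    | hs k hk' ih =>
      intro hk ω
      haveI := T.prob
      have hζ := T.ζ_pos k
      rw [X_step hk']
      simp only [ih (by omega), hH k hk hk']
      rw [integral_const]
      simp only [probReal_univ, smul_eq_mul, one_mul, Real.log_exp]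
      field_simp
  exact key l le_rfl ω
/-- adding a constant to the Hamiltonian does not change the tilted expectations -/
theorem Ex_add_const (hH : T.Lin H) (c : ℝ) (f : (ℕ → E) → ℝ) (l : ℕ) :
    T.Ex (fun ω => H ω + c) l f = T.Ex H l f := by
  induction l using down_ind (T := T) with
  | h0 l hl => simp only [Ex_of_le hl]
  | hs l hl ih =>
    rw [Ex_step hl, Ex_step hl, ih]
    funext ω
    have e : T.wt (fun ω => H ω + c) l = T.wt H l := by
      funext ω
      rw [wt, wt, X_add_dep hH (Dep.const c), X_add_dep hH (Dep.const c)]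
      congr 2
      ring
    simp only [P, e]

theorem step_congr {f' : (ℕ → E) → ℝ} (hl : l < T.n) (ω : ℕ → E)
    (h : ∀ᵐ e ∂T.γ, T.X H (l + 1) (Function.update ω l e) = T.X H' (l + 1) (Function.update ω l e) ∧
      T.Ex H (l + 1) f (Function.update ω l e) = T.Ex H' (l + 1) f' (Function.update ω l e)) :
    T.X H l ω = T.X H' l ω ∧ T.Ex H l f ω = T.Ex H' l f' ω := by
  have h1 : T.X H l ω = T.X H' l ω := by
    rw [X_step hl, X_step hl]
    congr 2
    refine integral_congr_ae ?_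
    filter_upwards [h] with e he
    rw [he.1]
  refine ⟨h1, ?_⟩
  rw [Ex_step hl, Ex_step hl]
  refine integral_congr_ae ?_
  filter_upwards [h] with e he
  rw [wt, wt, he.1, he.2, dep_X H l l le_rfl hl, dep_X H' l l le_rfl hl, h1]

/-- locality: only paths through the node matter -/
theorem loc {f' : (ℕ → E) → ℝ} (l : ℕ) (ω : ℕ → E)
    (h : ∀ ω' : ℕ → E, (∀ i, i < l ∨ T.n ≤ i → ω' i = ω i) → H ω' = H' ω' ∧ f ω' = f' ω') :
    T.X H l ω = T.X H' l ω ∧ T.Ex H l f ω = T.Ex H' l f' ω := by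
  induction l using down_ind (T := T) generalizing ω with
  | h0 l hl =>
    rw [X_of_le hl, X_of_le hl, Ex_of_le hl, Ex_of_le hl]
    exact h ω fun _ _ => rfl
  | hs l hl ih =>
    refine step_congr hl ω (Filter.Eventually.of_forall fun e => ih _ fun ω' hω' => h ω' fun i hi => ?_)
    rw [hω' i (by omega), Function.update_of_ne (by omega)]

/-- a null set of root coordinates does not matter -/
theorem root_congr {f' : (ℕ → E) → ℝ} (hn : 0 < T.n) {A : Set E} (hA : ∀ᵐ e ∂T.γ, e ∈ A)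
    (h : ∀ ω' : ℕ → E, ω' 0 ∈ A → H ω' = H' ω' ∧ f ω' = f' ω') (ω : ℕ → E) :
    T.X H 0 ω = T.X H' 0 ω ∧ T.Ex H 0 f ω = T.Ex H' 0 f' ω := by
  refine step_congr hn ω ?_
  filter_upwards [hA] with e he
  refine loc _ _ fun ω' hω' => h ω' ?_
  rw [hω' 0 (Or.inl (by omega)), Function.update_self]
  exact he

end Tree

end Crest.Agent.R164
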