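import Crest.Agent.R164.UpB

/-!
Row 164, task R164-Up: upper tail of the restricted partition function.

PLAN.  Parameters in this order: `Mq` with `Λ/Mq ≤ δ'`; `η₁`, `δ₂ = y` small (`Λ²/a0 (4η₁ + δ₂) ≤ δ'`, `(2Λ+1) η₁ ≤ δ'`, `y < 1`); `C₀ = |S₀| + Λ + 10`; `ηp` with `4 √(C₀ ηp) ≤ η₁`;
`Sm` with `Sm⁴ > C₀/ηp`, `Sm ≥ 1`; `η'` from `up_step`; grid (`exists_unif`) with `ϖ ≤ min η' y`; `L, β` from `up_zero` with `V = n Sm²`; `ε`; `σ`; `N₀`.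
For `t ∈ [0,1]` the function `phi - Pen` is continuous (`up_lip`) on the compact box (`isCompact_univ_pi`), so it has a maximiser `p t` with value `Mx t`.
A priori: `Mx t ≥` value at `(ε, 3/2)` `≥ -N (log 2 + Λ/2 + 3)` (`up_lower`) and `phi - N/2 Σ s²(1 - tail) ≤ N (S₀ + 2)` (`up_zero`), so `ηp (Σ s²)² ≤ C₀`.
`Mx t - Mx (t - τ) ≤ phi (t, p t) - phi (t - τ, p t) ≤ τ/2 Σ_i μ (blk i) ov_n (x_i)` (`phi_tangent` at `t` in direction `dirL (μ ∘ blk)`, `μ k0 = 0`), `up_step`.  Sum over `t = (i+1)/Mq`,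
exchange sum and integral (`integrableOn_comp_deficit`), `Atom.riemann`, `Rf_lip`.  `Mx 0 ≤ N (S₀ + small)`; `phi (1, ε, 3/2) ≤ Mx 1 + N (n ε² + ηp n² ε⁴)`; `up_cell_le`; `κ = y δ/2`.
-/

set_option autoImplicit false

namespace Crest.Agent.R164

open MeasureTheory Finset Matrix Crest.ProbabilityR.InvariantGlass

namespace UpY

open UpX

variable {ι 𝒦 : Type} [Fintype ι] [DecidableEq ι] [Fintype 𝒦] [DecidableEq 𝒦] {J : ℕ}
variable {G : Grid} {ε L t Sm : ℝ} {ν : ProbabilityMeasure (OG ι)} {μ : 𝒦 → ℝ} {blk : ι → 𝒦} {k0 : 𝒦}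
  {lab : ι → Fin J} {m : Fin J → ℚ} {s u : ℕ → ℝ}

theorem box_compact (ε Sm : ℝ) : IsCompact (UBox ε Sm) := by
  have : UBox ε Sm = (Set.pi Set.univ fun _ : ℕ => Set.Icc ε Sm) ×ˢ
      (Set.pi Set.univ fun _ : ℕ => Set.Icc (1 / 2 : ℝ) (5 / 2)) := by
    ext p
    simp only [UBox, Set.mem_ofPred_eq, Set.mem_prod, Set.mem_pi, Set.mem_univ, true_imp_iff]
  rw [this]
  exact (isCompact_univ_pi fun _ => isCompact_Icc).prod (isCompact_univ_pi fun _ => isCompact_Icc)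

theorem box_s (hε : 0 ≤ ε) {p : (ℕ → ℝ) × (ℕ → ℝ)} (hp : p ∈ UBox ε Sm) (l : ℕ) : p.1 l ∈ Set.Icc 0 Sm :=
  ⟨hε.trans (hp.1 l).1, (hp.1 l).2⟩

theorem box_u {p : (ℕ → ℝ) × (ℕ → ℝ)} (hp : p ∈ UBox ε Sm) (l : ℕ) : p.2 l ∈ Set.Icc (0 : ℝ) (5 / 2) :=
  ⟨by linarith [(hp.2 l).1], (hp.2 l).2⟩

theorem base_mem (h : ε ≤ Sm) : ((fun _ => ε, fun _ => 3 / 2) : (ℕ → ℝ) × (ℕ → ℝ)) ∈ UBox ε Sm :=
  ⟨fun _ => ⟨le_rfl, h⟩, fun _ => ⟨by norm_num, by norm_num⟩⟩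

theorem exists_max (q : ℝ → ℝ) (N ηp : ℝ) (hε : 0 ≤ ε) (hε1 : 3 * ε ≤ 1) (h : ε ≤ Sm) (t : ℝ) :
    ∃ p ∈ UBox ε Sm, ∀ p' ∈ UBox ε Sm,
      phi G ν (upSys G ε L μ blk k0 lab m t p'.1 p'.2) - Pen G q N ε ηp p'.1 p'.2 ≤
        phi G ν (upSys G ε L μ blk k0 lab m t p.1 p.2) - Pen G q N ε ηp p.1 p.2 := by
  have c1 : Continuous fun p : (ℕ → ℝ) × (ℕ → ℝ) => Pen G q N ε ηp p.1 p.2 := by
    unfold Pen
    fun_prop
  have c2 : ContinuousOn (fun p : (ℕ → ℝ) × (ℕ → ℝ) => phi G ν (upSys G ε L μ blk k0 lab m t p.1 p.2))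
      (UBox ε Sm) := by
    intro p hp
    rw [ContinuousWithinAt, tendsto_iff_dist_tendsto_zero]
    have c3 : Continuous fun p' : (ℕ → ℝ) × (ℕ → ℝ) => (Fintype.card ι : ℝ) *
        (Sm * ∑ l ∈ Ico 1 (G.n - 1), |p'.1 l - p.1 l| +
        ε * (∑ l ∈ Ico 1 (G.n - 1), |p'.2 l - p.2 l| + |p'.2 G.n - p.2 G.n|)) := by fun_prop
    have c4 := (c3.tendsto p).mono_left (nhdsWithin_le_nhds (s := UBox ε Sm))
    simp only [sub_self, abs_zero, sum_const_zero, mul_zero, add_zero] at c4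
    refine squeeze_zero' (Filter.Eventually.of_forall fun _ => dist_nonneg) ?_ c4
    filter_upwards [self_mem_nhdsWithin] with p' hp'
    rw [Real.dist_eq]
    exact up_lip hε hε1 (box_s hε hp') (box_s hε hp) (box_u hp') (box_u hp)
  obtain ⟨p, hp, hmax⟩ := (box_compact ε Sm).exists_isMaxOn ⟨_, base_mem h⟩ (c2.sub c1.continuousOn)
  exact ⟨p, hp, fun p' hp' => hmax hp'⟩

theorem add_t (h0 : μ k0 = 0) (τ : ℝ) : (upSys G ε L μ blk k0 lab m t s u).add (dirL fun i => μ (blk i)) (-τ) =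
    upSys G ε L μ blk k0 lab m (t - τ) s u := by
  refine sys_ext ?_ ?_ ?_ ?_
  · funext i
    by_cases h : blk i = k0
    · simp [upSys, Sys.add, dirL, h, h0]
    · simp [upSys, Sys.add, dirL, h]; ring
  · funext σ; simp [upSys, Sys.add, dirL]
  · funext l i; simp [upSys, Sys.add, dirL]
  · funext l i; simp [upSys, Sys.add, dirL]

theorem phi_diff (h0 : μ k0 = 0) (τ : ℝ) :
    phi G ν (upSys G ε L μ blk k0 lab m t s u) - phi G ν (upSys G ε L μ blk k0 lab m (t - τ) s u) ≤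
      τ / 2 * ∑ i, μ (blk i) * ov G ν (upSys G ε L μ blk k0 lab m t s u) (xx G i) (xx G i) G.n := by
  have h := phi_tangent (G := G) (ν := ν) (S := upSys G ε L μ blk k0 lab m t s u)
    (D := dirL fun i => μ (blk i)) (-τ)
  rw [add_t h0, E0_Ham] at h
  have e0 : E0 G ν (upSys G ε L μ blk k0 lab m t s u)
      (fun ω => (dirL fun i : ι => μ (blk i)).pot (sb G ω)) = 0 :=
    Tree.Ex_const (lin_Ham G ν _) 0 0 pt0
  rw [e0] at h
  simp only [dirL, zero_mul, add_zero, sum_const_zero] at h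
  linarith

theorem riem {α : 𝒦 → ℝ} {a0 Λ c : ℝ} (h : Atom α μ a0 Λ) {q : ℝ → ℝ} (hq : IsTrialPath q) {M : ℕ} (hM : 0 < M)
    (hc : 0 ≤ c) : ∑ i ∈ range M, (1 / (M : ℝ)) * ∫ r in Set.Ioo (0 : ℝ) 1,
      rhoX α (fun k => ((i + 1 : ℕ) : ℝ) / M * μ k) μ (deficit q r + c) ≤
      (∫ r in Set.Ioo (0 : ℝ) 1, Rf α μ (deficit q r)) + (Λ ^ 2 / a0 * c + Λ / M) := by
  have hM' : (0 : ℝ) < M := by exact_mod_cast hM
  have hi : ∀ i ∈ range M, IntegrableOn (fun r => (1 / (M : ℝ)) *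
      rhoX α (fun k => ((i + 1 : ℕ) : ℝ) / M * μ k) μ (deficit q r + c)) (Set.Ioo 0 1) := by
    intro i hi
    refine Integrable.const_mul (integrableOn_comp_deficit hq (h.rhoX_mono ⟨by positivity, ?_⟩) hc) _
    rw [div_le_one hM']
    exact_mod_cast mem_range.1 hi
  have hR : IntegrableOn (fun r => Rf α μ (deficit q r)) (Set.Ioo 0 1) := by
    simpa using integrableOn_comp_deficit hq h.Rf_mono le_rfl
  have e1 : (Λ ^ 2 / a0 * c + Λ / M) = ∫ _ in Set.Ioo (0 : ℝ) 1, (Λ ^ 2 / a0 * c + Λ / M) := by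
    simp
  simp_rw [← integral_const_mul]
  rw [← integral_finsetSum _ hi, e1, ← integral_add hR (integrable_const _)]
  refine setIntegral_mono_on (integrable_finsetSum _ hi) (hR.add (integrable_const _)) measurableSet_Ioo
    fun r hr => ?_
  have hd := (deficit_mem hq ⟨hr.1.le, hr.2.le⟩).1
  have h1 := h.riemann hM (add_nonneg hd hc)
  have h2 := h.Rf_lip (add_nonneg hd hc) hd
  rw [add_sub_cancel_left, abs_of_nonneg hc] at h2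
  linarith [le_abs_self (Rf α μ (deficit q r + c) - Rf α μ (deficit q r))]

theorem Pen_base {q : ℝ → ℝ} (hq : IsTrialPath q) {N ηp : ℝ} (hN : 0 ≤ N) (hη : 0 ≤ ηp) :
    Pen G q N ε ηp (fun _ => ε) (fun _ => 3 / 2) ≤ N * (G.n * ε ^ 2 + ηp * (G.n * ε ^ 2) ^ 2) := by
  have hc := card_Ico_le G
  have h1 : ∑ l ∈ Ico 1 (G.n - 1), ε ^ 2 * (1 - tail q (G.ζ l)) ≤ ∑ _l ∈ Ico 1 (G.n - 1), ε ^ 2 :=
    sum_le_sum fun l _ => by
      have := (tail_mem hq ⟨(G.pos l).le, G.le_one l⟩).1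
      nlinarith [sq_nonneg ε]
  have h2 : ∑ _l ∈ Ico 1 (G.n - 1), ε ^ 2 ≤ G.n * ε ^ 2 := by
    rw [sum_const, nsmul_eq_mul]
    nlinarith [sq_nonneg ε]
  have h3 : 0 ≤ ∑ _l ∈ Ico 1 (G.n - 1), ε ^ 2 := sum_nonneg fun _ _ => sq_nonneg _
  have h4 : (∑ _l ∈ Ico 1 (G.n - 1), ε ^ 2) ^ 2 ≤ (G.n * ε ^ 2) ^ 2 := pow_le_pow_left₀ h3 h2 2
  have h5 := mul_le_mul_of_nonneg_left h4 (mul_nonneg hN hη)
  have h6 := mul_le_mul_of_nonneg_left (h1.trans h2) hN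
  have h7 : 0 ≤ N * (G.n * ε ^ 2) := by positivity
  simp only [Pen, sub_self]
  norm_num only
  rw [sum_const_zero]
  nlinarith

theorem le_Pen (q : ℝ → ℝ) {N ηp : ℝ} (hN : 0 ≤ N) (hε : 0 ≤ ε) :
    N / 2 * ∑ l ∈ Ico 1 (G.n - 1), s l ^ 2 * (1 - tail q (G.ζ l)) +
      N * ηp * (∑ l ∈ Ico 1 (G.n - 1), s l ^ 2) ^ 2 ≤ Pen G q N ε ηp s u := by
  have : 0 ≤ 4 * N * ε * (∑ l ∈ Ico 1 (G.n - 1), (u l - 3 / 2) ^ 2 + (u G.n - 3 / 2) ^ 2) := by positivity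
  unfold Pen
  linarith

theorem telescope (Mx e : ℕ → ℝ) (M : ℕ) (h : ∀ i ∈ range M, Mx (i + 1) - Mx i ≤ e i) :
    Mx M - Mx 0 ≤ ∑ i ∈ range M, e i := by
  rw [← sum_range_sub]
  exact sum_le_sum h

theorem exists_small (n η' ηp δ' : ℝ) (hn : 0 < n) (hη : 0 < η') (hδ : 0 < δ') :
    ∃ ε : ℝ, 0 < ε ∧ n * ε ≤ η' ∧ 3 * ε ≤ 1 ∧ 5 * n * ε ^ 2 + ηp * (n * ε ^ 2) ^ 2 + 2 * ε ≤ δ' := by
  have t1 : Filter.Tendsto (fun ε : ℝ => n * ε) (nhds 0) (nhds (n * 0)) := (by fun_prop : Continuous _).tendsto 0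
  have t2 : Filter.Tendsto (fun ε : ℝ => 3 * ε) (nhds 0) (nhds (3 * 0)) := (by fun_prop : Continuous _).tendsto 0
  have t3 : Filter.Tendsto (fun ε : ℝ => 5 * n * ε ^ 2 + ηp * (n * ε ^ 2) ^ 2 + 2 * ε) (nhds 0)
      (nhds (5 * n * 0 ^ 2 + ηp * (n * 0 ^ 2) ^ 2 + 2 * 0)) := (by fun_prop : Continuous _).tendsto 0
  have e1 := t1.eventually_le_const (show n * 0 < η' by simpa using hη)
  have e2 := t2.eventually_le_const (show (3 : ℝ) * 0 < 1 by simp)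
  have e3 := t3.eventually_le_const
    (show 5 * n * 0 ^ 2 + ηp * (n * 0 ^ 2) ^ 2 + 2 * 0 < δ' by simpa using hδ)
  have e := ((e1.and (e2.and e3)).filter_mono (nhdsWithin_le_nhds (s := Set.Ioi 0))).and self_mem_nhdsWithin
  obtain ⟨ε, h, h0⟩ := e.exists
  exact ⟨ε, h0, h.1, h.2.1, h.2.2⟩

end UpY

open UpX UpY

theorem up_cell (𝒦 : Type) [Fintype 𝒦] [DecidableEq 𝒦] {J : ℕ} (γ m : Fin J → ℚ) (hm : ∀ j, |(m j : ℝ)| < 1)
    {q : ℝ → ℝ} (hq : IsTrialPath q) {S₀ : ℝ} (hS : constrainedEntropyPart γ m q ≤ (S₀ : EReal))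
    (a0 Λ : ℝ) {δ : ℝ} (hδ : 0 < δ) : ∃ κ : ℝ, 0 < κ ∧ ∃ β : ℝ, 0 < β ∧ ∃ N₀ : ℕ,
    ∀ (ι : Type) [Fintype ι] [DecidableEq ι] (ν : ProbabilityMeasure (OG ι)) (μ : 𝒦 → ℝ) (blk : ι → 𝒦)
      (k0 : 𝒦) (lab : ι → Fin J), N₀ ≤ Fintype.card ι → IsHaar ν → Atom (frac blk) μ a0 Λ → μ k0 = 0 →
      a0 ≤ frac blk k0 → (∀ j, |frac lab j - γ j| ≤ β) →
      (ν : Measure (OG ι)).real {U | Real.exp (Fintype.card ι *
        (S₀ + (1 / 2) * (∫ r in Set.Ioo (0 : ℝ) 1, Rf (frac blk) μ (deficit q r)) + δ)) ≤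
          Zc (fun i => μ (blk i)) lab m U} ≤ Real.exp (-κ * Fintype.card ι) := by
  by_cases hA : 0 < a0 ∧ 0 ≤ Λ
  swap
  · exact ⟨1, one_pos, 1, one_pos, 0, fun ι _ _ ν μ blk k0 lab _ _ hat => absurd ⟨hat.a0_pos, hat.Λ_nonneg⟩ hA⟩
  obtain ⟨ha0, hΛ⟩ := hA
  obtain ⟨δ', hδ', rfl⟩ : ∃ δ' : ℝ, 0 < δ' ∧ δ = 8 * δ' := ⟨δ / 8, by positivity, by ring⟩
  obtain ⟨M, hM⟩ := exists_nat_gt (Λ / δ')
  have hM0 : (0 : ℝ) < M := lt_of_le_of_lt (by positivity) hM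
  have hM1 : Λ / M ≤ δ' := by
    rw [div_lt_iff₀ hδ'] at hM
    rw [div_le_iff₀ hM0]
    linarith
  obtain ⟨y, hy, hy1, hy2, hy3⟩ : ∃ y : ℝ, 0 < y ∧ y < 1 ∧ Λ ^ 2 / a0 * (4 * y + y) ≤ δ' ∧ (2 * Λ + 1) * y ≤ δ' := by
    have hB : 0 < 5 * (Λ ^ 2 / a0) + (2 * Λ + 1) := by positivity
    refine ⟨min (1 / 2) (δ' / (5 * (Λ ^ 2 / a0) + (2 * Λ + 1))), by positivity,
      (min_le_left _ _).trans_lt (by norm_num), ?_⟩
    have h1 := (le_div_iff₀ hB).1 (min_le_right (1 / 2) (δ' / (5 * (Λ ^ 2 / a0) + (2 * Λ + 1))))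
    have h2 : 0 < min (1 / 2) (δ' / (5 * (Λ ^ 2 / a0) + (2 * Λ + 1))) := by positivity
    have h3 : 0 ≤ Λ ^ 2 / a0 := by positivity
    constructor <;> nlinarith [mul_nonneg h3 h2.le, mul_nonneg hΛ h2.le]
  obtain ⟨C₀, hC₀, hC⟩ : ∃ C₀ : ℝ, 0 < C₀ ∧ S₀ + Λ / 2 + 1 + 2 * δ' ≤ C₀ :=
    ⟨|S₀| + Λ / 2 + 1 + 2 * δ', by positivity, by linarith [le_abs_self S₀]⟩
  obtain ⟨ηp, hηp, hηC⟩ : ∃ ηp : ℝ, 0 < ηp ∧ 16 * ηp * C₀ = y ^ 2 :=
    ⟨y ^ 2 / (16 * C₀), by positivity, by field_simp⟩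
  obtain ⟨Sm, hSm1, hSm⟩ : ∃ Sm : ℝ, 1 ≤ Sm ∧ y < 4 * ηp * Sm := by
    refine ⟨y / (4 * ηp) + 1, le_add_of_nonneg_left (by positivity), ?_⟩
    rw [mul_add, mul_div_cancel₀ _ (by positivity)]
    linarith
  obtain ⟨η', hη', hstep⟩ := up_step 𝒦 (a0 := a0) (Λ := Λ) hy hy
  obtain ⟨K, hK⟩ := exists_nat_gt (1 / min η' y)
  have hK0 : (0 : ℝ) < K := lt_trans (by positivity) hK
  have hϖ : (1 - y) / K ≤ min η' y := by
    rw [div_lt_iff₀ (by positivity)] at hK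
    rw [div_le_iff₀ hK0]
    linarith
  obtain ⟨G, -, hG0, hGU⟩ := Grid.exists_unif hy hy1 K (by exact_mod_cast hK0)
  have hn : (0 : ℝ) < G.n := by
    have := G.three_le
    exact_mod_cast (by omega : 0 < G.n)
  obtain ⟨L, -, β, hβ, hzero⟩ := up_zero γ m hm hq hS (G.n * Sm ^ 2) hδ'
  obtain ⟨ε, hε, hε1, hε2, hε3⟩ := exists_small G.n η' ηp δ' hn hη' hδ'
  obtain ⟨σ, hσ, hσ1, hσ2⟩ : ∃ σ : ℝ, 0 < σ ∧ σ ≤ 1 / 2 ∧ 16 * G.n * σ ≤ η' * ε :=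
    ⟨min (1 / 2) (η' * ε / (16 * G.n)), by positivity, min_le_left _ _, by
      have := (le_div_iff₀ (by positivity : (0 : ℝ) < 16 * G.n)).1 (min_le_right (1 / 2) (η' * ε / (16 * G.n)))
      linarith⟩
  obtain ⟨N₀, hN₀⟩ := exists_nat_gt (1 / (η' * ε ^ 2) + 2 * (G.n / η') / (η' * (ε * σ) * ε))
  refine ⟨y * (4 * δ'), by positivity, β, hβ, N₀, fun ι _ _ ν μ blk k0 lab hN hν hat h0 hk0 hlab => ?_⟩
  have hN' : (N₀ : ℝ) ≤ Fintype.card ι := by exact_mod_cast hN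
  have p1 : 0 < 1 / (η' * ε ^ 2) := by positivity
  have p2 : 0 < 2 * (G.n / η') / (η' * (ε * σ) * ε) := by positivity
  have hNpos : (0 : ℝ) < Fintype.card ι := by linarith
  have hne : Nonempty ι := Fintype.card_pos_iff.1 (by exact_mod_cast hNpos)
  have q1 : 1 ≤ η' * ε ^ 2 * Fintype.card ι := by
    have : 1 / (η' * ε ^ 2) ≤ Fintype.card ι := by linarith
    rw [div_le_iff₀ (by positivity)] at this
    linarith
  have q2 : G.n * (8 * Fintype.card ι * ε * σ ^ 2 + 1 / η') ≤ η' * (ε * σ) * ε * Fintype.card ι := by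
    have h1 : 2 * (G.n / η') / (η' * (ε * σ) * ε) ≤ Fintype.card ι := by linarith
    rw [div_le_iff₀ (by positivity)] at h1
    have h2 := mul_le_mul_of_nonneg_left hσ2 (by positivity : 0 ≤ Fintype.card ι * ε * σ)
    have h3 : G.n * (1 / η') = G.n / η' := by ring
    nlinarith
  have hεS : ε ≤ Sm := by linarith
  set N : ℝ := (Fintype.card ι : ℝ) with hNdef
  choose p hp hmax using fun t => exists_max (G := G) (L := L) (ν := ν) (μ := μ) (blk := blk) (k0 := k0)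
    (lab := lab) (m := m) q N ηp hε.le hε2 hεS t
  have hV : ∀ t, ∑ l ∈ Ico 1 (G.n - 1), (p t).1 l ^ 2 ≤ G.n * Sm ^ 2 := by
    intro t
    have h1 : ∑ l ∈ Ico 1 (G.n - 1), (p t).1 l ^ 2 ≤ ∑ _l ∈ Ico 1 (G.n - 1), Sm ^ 2 :=
      sum_le_sum fun l _ => pow_le_pow_left₀ (box_s hε.le (hp t) l).1 (box_s hε.le (hp t) l).2 2
    rw [sum_const, nsmul_eq_mul] at h1
    nlinarith [card_Ico_le G, sq_nonneg Sm]
  have hup : ∀ t, 0 ≤ t → phi G ν (upSys G ε L μ blk k0 lab m t (p t).1 (p t).2) - Pen G q N ε ηp (p t).1 (p t).2 ≤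
      N * (S₀ + δ' + 4 * G.n * ε ^ 2) - N * ηp * (∑ l ∈ Ico 1 (G.n - 1), (p t).1 l ^ 2) ^ 2 := by
    intro t ht
    have h1 := hzero ι 𝒦 G _ ε t ν μ blk k0 lab (p t).1 (p t).2 hGU hne hε.le ht hat.np hlab
      (fun l => (box_s hε.le (hp t) l).1) (hV t) (box_u (hp t))
    have h2 := le_Pen (G := G) (s := (p t).1) (u := (p t).2) q (ηp := ηp) hNpos.le hε.le
    linarith
  have hbase := Pen_base (G := G) (ε := ε) hq hNpos.le hηp.le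
  have hW : ∀ t ∈ Set.Icc (0 : ℝ) 1, 4 * ηp * ∑ l ∈ Ico 1 (G.n - 1), (p t).1 l ^ 2 ≤ y := by
    intro t ht
    have h1 := hup t ht.1
    have h2 := hmax t _ (base_mem hεS)
    have h3 := up_lower (G := G) (L := L) (ν := ν) (blk := blk) (k0 := k0) (lab := lab) (s := fun _ => ε)
      (u := fun _ => 3 / 2) hm hε.le ht hat.mem (fun _ => hε.le) (fun _ => ⟨by norm_num, by norm_num⟩)
    have h4 : Real.log 2 ≤ 1 := by linarith [Real.log_two_lt_d9]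
    have h5 : N * (ηp * (∑ l ∈ Ico 1 (G.n - 1), (p t).1 l ^ 2) ^ 2) ≤ N * C₀ := by
      have h6 : S₀ + δ' + 4 * G.n * ε ^ 2 + (Real.log 2 + Λ / 2 + 2 * ε) +
          (G.n * ε ^ 2 + ηp * (G.n * ε ^ 2) ^ 2) ≤ C₀ := by linarith
      have h7 := mul_le_mul_of_nonneg_left h6 hNpos.le
      simp only at h2
      linarith
    have h6 := le_of_mul_le_mul_left h5 hNpos
    refine (pow_le_pow_iff_left₀ (by positivity) hy.le two_ne_zero).1 ?_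
    nlinarith [mul_le_mul_of_nonneg_left h6 hηp.le]
  have hlt : ∀ t ∈ Set.Icc (0 : ℝ) 1, ∀ l ∈ Ico 1 (G.n - 1), (p t).1 l < Sm := by
    intro t ht l hl
    have h1 : (p t).1 l ^ 2 ≤ ∑ l ∈ Ico 1 (G.n - 1), (p t).1 l ^ 2 :=
      single_le_sum (f := fun l => (p t).1 l ^ 2) (fun _ _ => sq_nonneg _) hl
    have h2 := hW t ht
    have h3 : 4 * ηp * (p t).1 l ^ 2 < 4 * ηp * Sm ^ 2 := by
      nlinarith [mul_le_mul_of_nonneg_left h1 hηp.le, mul_le_mul_of_nonneg_left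
        (show Sm ≤ Sm ^ 2 by nlinarith) hηp.le]
    exact lt_of_pow_lt_pow_left₀ 2 (by linarith) (lt_of_mul_lt_mul_left h3 (by positivity))
  have hM' : 0 < M := by exact_mod_cast hM0
  have htel := telescope (fun i => phi G ν (upSys G ε L μ blk k0 lab m ((i : ℝ) / M) (p (i / M)).1 (p (i / M)).2) -
      Pen G q N ε ηp (p (i / M)).1 (p (i / M)).2)
    (fun i => N / 2 * ((1 / (M : ℝ)) * (∫ r in Set.Ioo (0 : ℝ) 1,
      rhoX (frac blk) (fun k => ((i + 1 : ℕ) : ℝ) / M * μ k) μ (deficit q r + (4 * y + y)))) +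
        N / 2 * ((2 * Λ + 1) * y) / M) M (by
      intro i hi
      have ht : ((i + 1 : ℕ) : ℝ) / M ∈ Set.Icc (0 : ℝ) 1 := ⟨by positivity, by
        rw [div_le_one hM0]
        exact_mod_cast mem_range.1 hi⟩
      have h1 := hstep ι J G _ ε L _ σ ηp Sm y ν μ blk k0 lab m q (p _).1 (p _).2 hG0 hGU
        (hϖ.trans (min_le_left _ _)) le_rfl (hϖ.trans (min_le_right _ _)) hν hq hat h0 hk0 ht hε hε1 hσ hσ1 q1 q2
        hηp.le (hp _) (hlt _ ht) (hW _ ht) (hmax _)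
      have h2 := phi_diff (G := G) (ε := ε) (L := L) (t := ((i + 1 : ℕ) : ℝ) / M) (ν := ν) (blk := blk) (lab := lab)
        (m := m) (s := (p (((i + 1 : ℕ) : ℝ) / M)).1) (u := (p (((i + 1 : ℕ) : ℝ) / M)).2) h0 (1 / M)
      have e : ((i + 1 : ℕ) : ℝ) / M - 1 / M = i / M := by push_cast; ring
      rw [e] at h2
      have h3 := hmax (i / M) _ (hp (((i + 1 : ℕ) : ℝ) / M))
      have h4 := mul_le_mul_of_nonneg_left h1 (by positivity : (0 : ℝ) ≤ 1 / M / 2)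
      have e2 : ∀ a b : ℝ, 1 / (M : ℝ) / 2 * (N * (a + b)) = N / 2 * (1 / M * a) + N / 2 * b / M := fun a b => by ring
      rw [e2] at h4
      linarith)
  rw [sum_add_distrib, ← mul_sum, sum_const, card_range, nsmul_eq_mul, mul_div_cancel₀ _ hM0.ne'] at htel
  simp only [Nat.cast_zero, zero_div, div_self hM0.ne'] at htel
  have hri := mul_le_mul_of_nonneg_left (riem hat hq hM' (c := 4 * y + y) (by positivity))
    (by positivity : 0 ≤ N / 2)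
  have h1 := hup 0 le_rfl
  have h2 := hmax 1 _ (base_mem hεS)
  have h3 : 0 ≤ N * ηp * (∑ l ∈ Ico 1 (G.n - 1), (p 0).1 l ^ 2) ^ 2 := by positivity
  refine (up_cell_le (G := G) (L := L) (s := fun _ => ε) (u := fun _ => 3 / 2) hε.le h0 (fun _ => hε.le)
    (fun _ => ⟨by norm_num, by norm_num⟩) _).trans (Real.exp_le_exp.2 ?_)
  rw [hG0, neg_mul, mul_assoc y, ← mul_neg]
  refine mul_le_mul_of_nonneg_left ?_ hy.le
  simp only at h2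
  have h4 := mul_le_mul_of_nonneg_left hε3 hNpos.le
  have h5 := mul_le_mul_of_nonneg_left hy2 hNpos.le
  have h6 := mul_le_mul_of_nonneg_left hy3 hNpos.le
  have h7 := mul_le_mul_of_nonneg_left hM1 hNpos.le
  have h8 := mul_pos hNpos hδ'
  linarith

end Crest.Agent.R164
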