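import Crest.Agent.R164.Cls
import Crest.Agent.R164.Fact

/-!
Row 164, task R164-UpA: the interpolating systems for the upper bound; a priori bounds.

PLAN.  `up_zero`: for `v = s²`, `b j` from `exists_min (gl v) (m j)`: `|b j| ≤ B = (log 2 + V/2)/(1 - |m j|)`, `0 ≤ b j m j`, `m j = 0 → b j = 0`.  `L = 2 max B`.  `phi_dom` towards the system with `lam = 4 n ε²`-constant
(then `phi_le_lam_pot` to `lam = 0`), `u = 0`, and `pot ≤ pot' σ = Σ_j b j (mg j σ - cnt j m j)` (in the cell `pot' ≥ 0`, outside `pot' ≥ -2 B N`); `phi_prod`;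
`Σ_r f (lab r) = Σ_j cnt j f j`; `Phi (gl v) b - ½ Σ v - b m = ellm ∈ [-log 2 - V/2, 0]` (`ellm_mem`, `vs_gl`); replace `frac lab j` by `γ j`; `le_centropy`.
`up_lower`: `phi_fields_mono`, `phi_nofield`, keep the single term `σ r = (0 ≤ m (lab r))` (it is in the cell).  `up_cell_le`: `Zc ≤ exp (fN …)` termwise up to `λ_T`.
`up_lip`: `phi_tangent'` at both ends, `E0_Ham` for the difference system, `Tst_mem`, `sum_xx_sq`.
-/

set_option autoImplicit false

namespace Crest.Agent.R164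

open MeasureTheory Finset Matrix Crest.ProbabilityR.InvariantGlass

variable {ι 𝒦 : Type} [Fintype ι] [DecidableEq ι] [Fintype 𝒦] [DecidableEq 𝒦] {J : ℕ}

def Cell (lab : ι → Fin J) (m : Fin J → ℚ) (σ : ι → Bool) : Prop :=
  ∀ j, 0 ≤ (m j : ℝ) * (mg lab j σ - cnt lab j * (m j : ℝ))

open Classical in
/-- partition function restricted to a cell -/
noncomputable def Zc (lam : ι → ℝ) (lab : ι → Fin J) (m : Fin J → ℚ) (U : OG ι) : ℝ :=
  (1 / 2) ^ Fintype.card ι * ∑ σ : ι → Bool,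
    if Cell lab m σ then Real.exp ((1 / 2) * ∑ i, lam i * (U.1 *ᵥ sp σ) i ^ 2) else 0

open Classical in
noncomputable def upSys (G : Grid) (ε L : ℝ) (μ : 𝒦 → ℝ) (blk : ι → 𝒦) (k0 : 𝒦) (lab : ι → Fin J)
    (m : Fin J → ℚ) (t : ℝ) (s u : ℕ → ℝ) : Sys ι where
  lam := fun i => if blk i = k0 then -(ε * u G.n) else t * μ (blk i)
  pot := fun σ => if Cell lab m σ then 0 else -(L * Fintype.card ι)
  s := fun l _ => s l
  u := fun l i => if blk i = k0 ∧ l ≠ G.n then ε * u l else 0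

namespace UpX

theorem sys_ext {S S' : Sys ι} (h1 : S.lam = S'.lam) (h2 : S.pot = S'.pot) (h3 : S.s = S'.s)
    (h4 : S.u = S'.u) : S = S' := by
  cases S
  cases S'
  simp_all

theorem sum_lab (lab : ι → Fin J) (f : Fin J → ℝ) : ∑ r, f (lab r) = ∑ j, (cnt lab j : ℝ) * f j := by
  rw [← sum_fiberwise (s := univ) (g := lab)]
  refine sum_congr rfl fun j _ => ?_
  rw [sum_congr rfl (g := fun _ => f j) fun r hr => by rw [(mem_filter.1 hr).2], sum_const, nsmul_eq_mul]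
  rfl

theorem sum_lab_sp (lab : ι → Fin J) (b : Fin J → ℝ) (σ : ι → Bool) :
    ∑ r, b (lab r) * sp σ r = ∑ j, b j * mg lab j σ := by
  rw [← sum_fiberwise (s := univ) (g := lab)]
  refine sum_congr rfl fun j _ => ?_
  unfold mg fib
  rw [mul_sum]
  exact sum_congr rfl fun r hr => by rw [(mem_filter.1 hr).2]

theorem int_fN (ν : ProbabilityMeasure (OG ι)) (lam : ι → ℝ) (pot : (ι → Bool) → ℝ) (c : ℝ) :
    Integrable (fun U => Real.exp (c * fN lam pot U)) (ν : Measure (OG ι)) := by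
  refine Haar2.integrable ((measurable_fN lam pot).const_mul c).exp
    (Real.exp (|c| * ((∑ i, |lam i|) / 2 * Fintype.card ι + ∑ σ, |pot σ|))) fun U => ?_
  rw [abs_of_pos (Real.exp_pos _)]
  refine Real.exp_le_exp.2 ((le_abs_self _).trans ?_)
  rw [abs_mul]
  exact mul_le_mul_of_nonneg_left (abs_fN_le
    (fun i => single_le_sum (f := fun i => |lam i|) (fun _ _ => abs_nonneg _) (mem_univ i))
    (fun σ => single_le_sum (f := fun σ => |pot σ|) (fun _ _ => abs_nonneg _) (mem_univ σ)) U) (abs_nonneg _)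

theorem int_le_phi (G : Grid) (ν : ProbabilityMeasure (OG ι)) (S : Sys ι)
    (h : ∀ l ∈ Ico 1 (G.n - 1), ∀ i, 0 ≤ S.s l i ∧ 0 ≤ S.u l i) :
    ∫ U, Real.exp (G.ζ 0 * fN S.lam S.pot U) ∂(ν : Measure (OG ι)) ≤ Real.exp (G.ζ 0 * phi G ν S) := by
  have h1 : phi G ν ⟨S.lam, S.pot, fun _ _ => 0, fun _ _ => 0⟩ ≤ phi G ν S :=
    phi_fields_mono rfl rfl fun l hl i => ⟨le_rfl, (h l hl i).1, le_rfl, (h l hl i).2⟩
  refine le_trans (le_of_eq ?_) (Real.exp_le_exp.2 (mul_le_mul_of_nonneg_left h1 (G.pos 0).le))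
  rw [exp_phi]
  simp only [Xr_nofield (G := G) (S := ⟨S.lam, S.pot, fun _ _ => 0, fun _ _ => 0⟩) fun _ _ _ => ⟨rfl, rfl⟩]

theorem quad_ge {lam lam' : ι → ℝ} {A : ℝ} (h : ∀ i, lam i ≤ lam' i + A) (U : OG ι) (σ : ι → Bool) :
    (1 / 2) * ∑ i, lam i * (U.1 *ᵥ sp σ) i ^ 2 ≤
      (1 / 2) * ∑ i, lam' i * (U.1 *ᵥ sp σ) i ^ 2 + A / 2 * Fintype.card ι := by
  have h1 : ∑ i, lam i * (U.1 *ᵥ sp σ) i ^ 2 ≤ ∑ i, (lam' i + A) * (U.1 *ᵥ sp σ) i ^ 2 :=
    sum_le_sum fun i _ => mul_le_mul_of_nonneg_right (h i) (sq_nonneg _)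
  simp only [add_mul, sum_add_distrib, ← mul_sum, OG.sum_sq_sp] at h1
  linarith

theorem card_Ico_le (G : Grid) : ((Ico 1 (G.n - 1)).card : ℝ) + 1 ≤ G.n := by
  have := G.three_le
  rw [Nat.card_Ico]
  exact_mod_cast (by omega : G.n - 1 - 1 + 1 ≤ G.n)

end UpX

open UpX

theorem up_zero (γ m : Fin J → ℚ) (hm : ∀ j, |(m j : ℝ)| < 1) {q : ℝ → ℝ} (hq : IsTrialPath q) {S₀ : ℝ}
    (hS : constrainedEntropyPart γ m q ≤ (S₀ : EReal)) (V : ℝ) {η : ℝ} (hη : 0 < η) :
    ∃ L : ℝ, 0 ≤ L ∧ ∃ β : ℝ, 0 < β ∧ ∀ (ι 𝒦 : Type) [Fintype ι] [DecidableEq ι] [Fintype 𝒦] [DecidableEq 𝒦]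
      (G : Grid) (ϖ ε t : ℝ) (ν : ProbabilityMeasure (OG ι)) (μ : 𝒦 → ℝ) (blk : ι → 𝒦) (k0 : 𝒦)
      (lab : ι → Fin J) (s u : ℕ → ℝ), G.Unif ϖ → Nonempty ι → 0 ≤ ε → 0 ≤ t → (∀ k, μ k ≤ 0) →
      (∀ j, |frac lab j - γ j| ≤ β) → (∀ l, 0 ≤ s l) → ∑ l ∈ Ico 1 (G.n - 1), s l ^ 2 ≤ V →
      (∀ l, u l ∈ Set.Icc (0 : ℝ) (5 / 2)) →
      phi G ν (upSys G ε L μ blk k0 lab m t s u) -
          Fintype.card ι / 2 * ∑ l ∈ Ico 1 (G.n - 1), s l ^ 2 * (1 - tail q (G.ζ l)) ≤
        Fintype.card ι * (S₀ + η + 4 * G.n * ε ^ 2) := by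
  set K : ℝ := Real.log 2 + |V| / 2 with hK
  have hK0 : 0 ≤ K := by
    have := Real.log_nonneg (by norm_num : (1 : ℝ) ≤ 2)
    positivity
  have hm1 : ∀ j, 0 < 1 - |(m j : ℝ)| := fun j => by linarith [hm j]
  set B : ℝ := ∑ j, K / (1 - |(m j : ℝ)|) with hB
  have hB0 : 0 ≤ B := sum_nonneg fun j _ => div_nonneg hK0 (hm1 j).le
  refine ⟨2 * B, by positivity, η / (J * K + 1), by positivity, ?_⟩
  intro ι 𝒦 _ _ _ _ G ϖ ε t ν μ blk k0 lab s u hG hι hε ht hμ hβ hs hV hu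
  have hN : (0 : ℝ) < Fintype.card ι := by exact_mod_cast Fintype.card_pos
  have hv : ∀ l ∈ Ico 1 (G.n - 1), 0 ≤ s l ^ 2 := fun l _ => sq_nonneg _
  have hadm : Adm (G.gl fun l => s l ^ 2) := G.adm_glFrom hv
  have hvs : vs (G.gl fun l => s l ^ 2) = ∑ l ∈ Ico 1 (G.n - 1), s l ^ 2 := G.vs_gl _
  have hvsK : Real.log 2 + vs (G.gl fun l => s l ^ 2) / 2 ≤ K := by
    rw [hvs, hK]
    linarith [le_abs_self V]
  choose b hb1 hb2 hb3 hb4 using fun j => exists_min hadm (hm j)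
  have hbB : ∀ j, |b j| ≤ B := fun j =>
    le_trans (by rw [le_div_iff₀ (hm1 j)]; exact (hb4 j).trans hvsK)
      (single_le_sum (f := fun j => K / (1 - |(m j : ℝ)|)) (fun j _ => div_nonneg hK0 (hm1 j).le) (mem_univ j))
  set pot' : (ι → Bool) → ℝ := fun σ => ∑ r, b (lab r) * sp σ r + -∑ r, b (lab r) * m (lab r) with hpot
  have h1 : phi G ν (upSys G ε (2 * B) μ blk k0 lab m t s u) ≤
      phi G ν ⟨fun _ => 8 * G.n * ε ^ 2, pot', fun l _ => s l, fun _ _ => 0⟩ := by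
    refine phi_dom (fun l _ i => ⟨hs l, le_rfl, le_rfl, ?_⟩) (fun i => ?_) fun σ => ?_
    · simp only [upSys]
      split_ifs
      · exact mul_nonneg hε (hu l).1
      · exact le_rfl
    · have c1 : (upSys G ε (2 * B) μ blk k0 lab m t s u).lam i ≤ 0 := by
        simp only [upSys]
        split_ifs
        · exact neg_nonpos.2 (mul_nonneg hε (hu _).1)
        · exact mul_nonpos_of_nonneg_of_nonpos ht (hμ _)
      have c2 : ∑ l ∈ Ico 1 (G.n - 1), ((upSys G ε (2 * B) μ blk k0 lab m t s u).u l i ^ 2 - 0 ^ 2) ≤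
          (Ico 1 (G.n - 1)).card • (8 * ε ^ 2) := by
        refine sum_le_card_nsmul _ _ _ fun l _ => ?_
        simp only [upSys]
        split_ifs
        · have := mul_le_mul_of_nonneg_left (pow_le_pow_left₀ (hu l).1 (hu l).2 2) (sq_nonneg ε)
          nlinarith [sq_nonneg ε]
        · nlinarith [sq_nonneg ε]
      rw [nsmul_eq_mul] at c2
      have c3 := card_Ico_le G
      change _ + ∑ l ∈ Ico 1 (G.n - 1), (_ - (0 : ℝ) ^ 2) ≤ 8 * G.n * ε ^ 2
      nlinarith [sq_nonneg ε]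
    · simp only [upSys, sub_self, sum_const_zero, mul_zero, add_zero, hpot]
      split_ifs with hc
      · rw [sum_lab_sp, sum_lab lab fun j => b j * m j, ← sub_eq_add_neg, ← sum_sub_distrib]
        refine sum_nonneg fun j _ => ?_
        by_cases h0 : (m j : ℝ) = 0
        · simp [hb3 j h0]
        · have c1 := mul_nonneg (hb2 j) (hc j)
          have c2 : 0 < (m j : ℝ) ^ 2 := by positivity
          refine le_of_mul_le_mul_left ?_ c2
          nlinarith
      · rw [← sub_eq_add_neg, ← sum_sub_distrib]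
        have : ∑ _r : ι, -(2 * B) ≤ ∑ r, (b (lab r) * sp σ r - b (lab r) * m (lab r)) := by
          refine sum_le_sum fun r _ => ?_
          have c1 : |b (lab r) * sp σ r| ≤ B := by rw [abs_mul, abs_sp, mul_one]; exact hbB _
          have c2 : |b (lab r) * m (lab r)| ≤ B := by
            rw [abs_mul]
            exact (mul_le_of_le_one_right (abs_nonneg _) (hm _).le).trans (hbB _)
          linarith [(abs_le.1 c1).1, (abs_le.1 c2).2]
        rw [sum_const, card_univ, nsmul_eq_mul] at this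
        linarith
  have h2 := phi_le_lam_pot (G := G) (ν := ν) (S := ⟨fun _ => 8 * G.n * ε ^ 2, pot', fun l _ => s l, fun _ _ => 0⟩)
    (S' := ⟨fun _ => 0, pot', fun l _ => s l, fun _ _ => 0⟩) (A := 8 * G.n * ε ^ 2) (B := 0) rfl rfl
    (fun i => by simp) (fun σ => by simp)
  have h3 := phi_prod (G := G) (ν := ν) (S := ⟨fun _ => 0, pot', fun l _ => s l, fun _ _ => 0⟩)
    (b := fun r => b (lab r)) (c := -∑ r, b (lab r) * m (lab r)) (fun _ => rfl) (fun _ => rfl)
    (fun l _ i => ⟨hs l, rfl⟩)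
  simp only at h3
  have h4 : ∑ r, Phi (G.gl fun l => s l ^ 2) (b (lab r)) + -∑ r, b (lab r) * m (lab r) =
      ∑ r, ellm (G.gl fun l => s l ^ 2) (m (lab r)) +
        Fintype.card ι / 2 * ∑ l ∈ Ico 1 (G.n - 1), s l ^ 2 := by
    simp only [hb1, ell, hvs, sum_sub_distrib, sum_const, card_univ, nsmul_eq_mul]
    ring
  have h5 : ∑ r, ellm (G.gl fun l => s l ^ 2) (m (lab r)) ≤
      Fintype.card ι * (∑ j, (γ j : ℝ) * ellm (G.gl fun l => s l ^ 2) (m j) + η) := by
    rw [sum_lab lab fun j => ellm (G.gl fun l => s l ^ 2) (m j)]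
    have c1 : ∑ j, (cnt lab j : ℝ) * ellm (G.gl fun l => s l ^ 2) (m j) =
        Fintype.card ι * ∑ j, frac lab j * ellm (G.gl fun l => s l ^ 2) (m j) := by
      rw [mul_sum]
      refine sum_congr rfl fun j _ => ?_
      unfold frac cnt fib
      field_simp
    rw [c1]
    refine mul_le_mul_of_nonneg_left ?_ hN.le
    have c2 : ∑ j, frac lab j * ellm (G.gl fun l => s l ^ 2) (m j) ≤
        ∑ j, ((γ j : ℝ) * ellm (G.gl fun l => s l ^ 2) (m j) + η / (J * K + 1) * K) := by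
      refine sum_le_sum fun j _ => ?_
      have d1 := ellm_mem hadm (hm j)
      have d2 : |ellm (G.gl fun l => s l ^ 2) (m j)| ≤ K := abs_le.2 ⟨by linarith [d1.1], d1.2.trans hK0⟩
      have d3 := mul_le_mul (hβ j) d2 (abs_nonneg _) (by positivity)
      rw [← abs_mul] at d3
      linarith [(abs_le.1 d3).2]
    rw [sum_add_distrib, sum_const, card_univ, Fintype.card_fin, nsmul_eq_mul] at c2
    have c3 : (J : ℝ) * (η / (J * K + 1) * K) ≤ η := by
      rw [div_mul_eq_mul_div, ← mul_div_assoc, div_le_iff₀ (by positivity)]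
      nlinarith
    linarith
  have h6 : ∑ j, (γ j : ℝ) * ellm (G.gl fun l => s l ^ 2) (m j) +
      (1 / 2) * ∑ l ∈ Ico 1 (G.n - 1), s l ^ 2 * tail q (G.ζ l) ≤ S₀ :=
    EReal.coe_le_coe_iff.1 ((le_centropy γ m hm hq G hG hv).trans hS)
  have h7 := mul_le_mul_of_nonneg_left h6 hN.le
  simp only [mul_sub, mul_one, sum_sub_distrib]
  nlinarith

variable {G : Grid} {ε L t Λ : ℝ} {ν : ProbabilityMeasure (OG ι)} {μ : 𝒦 → ℝ} {blk : ι → 𝒦} {k0 : 𝒦}
  {lab : ι → Fin J} {m : Fin J → ℚ} {s u s' u' : ℕ → ℝ}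

theorem up_lower (hm : ∀ j, |(m j : ℝ)| < 1) (hε : 0 ≤ ε) (ht : t ∈ Set.Icc (0 : ℝ) 1)
    (hμ : ∀ k, μ k ∈ Set.Icc (-Λ) 0) (hs : ∀ l, 0 ≤ s l) (hu : ∀ l, u l ∈ Set.Icc (0 : ℝ) (5 / 2)) :
    -(Fintype.card ι * (Real.log 2 + Λ / 2 + 2 * ε)) ≤ phi G ν (upSys G ε L μ blk k0 lab m t s u) := by
  classical
  set S := upSys G ε L μ blk k0 lab m t s u with hS
  have hΛ : 0 ≤ Λ := by linarith [(hμ k0).1, (hμ k0).2]
  have h1 := int_le_phi G ν S fun l _ i => ⟨hs l, by
    simp only [hS, upSys]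
    split_ifs
    · exact mul_nonneg hε (hu l).1
    · exact le_rfl⟩
  have hc : Cell lab m fun r => decide (0 ≤ m (lab r)) := by
    intro j
    have c0 : (0 : ℝ) ≤ cnt lab j := Nat.cast_nonneg _
    have c1 := abs_lt.1 (hm j)
    by_cases h0 : 0 ≤ m j
    · have c2 : mg lab j (fun r => decide (0 ≤ m (lab r))) = cnt lab j := by
        unfold mg cnt
        rw [sum_congr rfl (g := fun _ => (1 : ℝ)) fun r hr => by simp [sp, (mem_filter.1 hr).2, h0]]
        simp
      have c3 : (0 : ℝ) ≤ m j := by exact_mod_cast h0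
      rw [c2]
      exact mul_nonneg c3 (by nlinarith)
    · have c2 : mg lab j (fun r => decide (0 ≤ m (lab r))) = -cnt lab j := by
        unfold mg cnt
        rw [sum_congr rfl (g := fun _ => (-1 : ℝ)) fun r hr => by simp [sp, (mem_filter.1 hr).2, h0]]
        simp
      have c3 : (m j : ℝ) ≤ 0 := by exact_mod_cast (not_le.1 h0).le
      rw [c2]
      exact mul_nonneg_of_nonpos_of_nonpos c3 (by nlinarith)
  have h2 : ∀ U, -(Fintype.card ι * (Real.log 2 + Λ / 2 + 2 * ε)) ≤ fN S.lam S.pot U := by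
    intro U
    unfold fN
    refine (Real.le_log_iff_exp_le (mul_pos (by positivity) (sum_pos (fun _ _ => Real.exp_pos _)
      univ_nonempty))).2 ?_
    refine le_trans ?_ (mul_le_mul_of_nonneg_left (single_le_sum (fun _ _ => (Real.exp_pos _).le)
      (mem_univ fun r => decide (0 ≤ m (lab r)))) (by positivity))
    have c1 : S.pot (fun r => decide (0 ≤ m (lab r))) = 0 := by simp only [hS, upSys, if_pos hc]
    have c2 := quad_ge (lam := fun _ => 0) (lam' := S.lam) (A := Λ + 4 * ε) (fun i => by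
      simp only [hS, upSys]
      split_ifs
      · nlinarith [(hu G.n).2]
      · nlinarith [(hμ (blk i)).1, (hμ (blk i)).2, ht.1, ht.2]) U fun r => decide (0 ≤ m (lab r))
    have c3 : ((1 : ℝ) / 2) ^ Fintype.card ι = Real.exp (-(Fintype.card ι * Real.log 2)) := by
      rw [Real.exp_neg, Real.exp_nat_mul, Real.exp_log (by norm_num), one_div, inv_pow]
    rw [c1, c3, ← Real.exp_add]
    refine Real.exp_le_exp.2 ?_
    simp only [zero_mul, sum_const_zero, mul_zero] at c2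
    linarith
  have h3 : Real.exp (G.ζ 0 * -(Fintype.card ι * (Real.log 2 + Λ / 2 + 2 * ε))) ≤
      ∫ U, Real.exp (G.ζ 0 * fN S.lam S.pot U) ∂(ν : Measure (OG ι)) := by
    have := integral_mono (integrable_const (Real.exp (G.ζ 0 * -(Fintype.card ι *
      (Real.log 2 + Λ / 2 + 2 * ε))))) (int_fN ν S.lam S.pot (G.ζ 0))
      fun U => Real.exp_le_exp.2 (mul_le_mul_of_nonneg_left (h2 U) (G.pos 0).le)
    simpa using this
  exact le_of_mul_le_mul_left (Real.exp_le_exp.1 (h3.trans h1)) (G.pos 0)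

theorem measurable_Zc (lam : ι → ℝ) : Measurable (Zc lam lab m) := by
  unfold Zc
  refine Measurable.const_mul (Finset.measurable_sum _ fun σ _ => ?_) _
  split_ifs
  · exact (Measurable.const_mul (Finset.measurable_sum _ fun i _ =>
      ((Haar.measurable_mulVec _ i).pow_const 2).const_mul _) _).exp
  · exact measurable_const

theorem up_cell_le (hε : 0 ≤ ε) (h0 : μ k0 = 0) (hs : ∀ l, 0 ≤ s l) (hu : ∀ l, u l ∈ Set.Icc (0 : ℝ) (5 / 2))
    (x : ℝ) : (ν : Measure (OG ι)).real {U | Real.exp x ≤ Zc (fun i => μ (blk i)) lab m U} ≤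
      Real.exp (G.ζ 0 * (phi G ν (upSys G ε L μ blk k0 lab m 1 s u) + 2 * ε * Fintype.card ι - x)) := by
  classical
  set S := upSys G ε L μ blk k0 lab m 1 s u with hS
  have h1 := int_le_phi G ν S fun l _ i => ⟨hs l, by
    simp only [hS, upSys]
    split_ifs
    · exact mul_nonneg hε (hu l).1
    · exact le_rfl⟩
  have h2 : ∀ U, Real.exp x ≤ Zc (fun i => μ (blk i)) lab m U →
      x - 2 * ε * Fintype.card ι ≤ fN S.lam S.pot U := by
    intro U hU
    unfold fN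
    refine (Real.le_log_iff_exp_le (mul_pos (by positivity) (sum_pos (fun _ _ => Real.exp_pos _)
      univ_nonempty))).2 ?_
    rw [Real.exp_sub, div_le_iff₀ (Real.exp_pos _)]
    refine hU.trans ?_
    unfold Zc
    rw [mul_assoc, sum_mul]
    refine mul_le_mul_of_nonneg_left (sum_le_sum fun σ _ => ?_) (by positivity)
    split_ifs with hc
    · have c1 : S.pot σ = 0 := by simp only [hS, upSys, if_pos hc]
      have c2 := quad_ge (lam := fun i => μ (blk i)) (lam' := S.lam) (A := 4 * ε) (fun i => by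
        simp only [hS, upSys]
        split_ifs with hi
        · rw [hi, h0]
          nlinarith [(hu G.n).2]
        · linarith) U σ
      rw [c1, ← Real.exp_add]
      exact Real.exp_le_exp.2 (by linarith)
    · positivity
  have h3 := mul_meas_ge_le_integral_of_nonneg (μ := (ν : Measure (OG ι)))
    (f := fun U => Real.exp (G.ζ 0 * fN S.lam S.pot U)) (ae_of_all _ fun U => (Real.exp_pos _).le)
    (int_fN ν S.lam S.pot (G.ζ 0)) (Real.exp (G.ζ 0 * (x - 2 * ε * Fintype.card ι)))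
  have h4 : (ν : Measure (OG ι)).real {U | Real.exp x ≤ Zc (fun i => μ (blk i)) lab m U} ≤
      (ν : Measure (OG ι)).real {U | Real.exp (G.ζ 0 * (x - 2 * ε * Fintype.card ι)) ≤
        Real.exp (G.ζ 0 * fN S.lam S.pot U)} :=
    measureReal_mono fun U hU => Real.exp_le_exp.2 (mul_le_mul_of_nonneg_left (h2 U hU) (G.pos 0).le)
  refine h4.trans (le_of_mul_le_mul_left ((h3.trans h1).trans (le_of_eq ?_)) (Real.exp_pos _))
  rw [← Real.exp_add]
  congr 1
  ring

theorem UpX.lip_one {Sm : ℝ} (hε : 0 ≤ ε) (hε1 : 3 * ε ≤ 1) (hs : ∀ l, s l ∈ Set.Icc 0 Sm)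
    (hu : ∀ l, u l ∈ Set.Icc (0 : ℝ) (5 / 2)) (s' u' : ℕ → ℝ) :
    phi G ν (upSys G ε L μ blk k0 lab m t s u) - phi G ν (upSys G ε L μ blk k0 lab m t s' u') ≤
      Fintype.card ι * (Sm * ∑ l ∈ Ico 1 (G.n - 1), |s l - s' l| +
        ε * (∑ l ∈ Ico 1 (G.n - 1), |u l - u' l| + |u G.n - u' G.n|)) := by
  set S := upSys G ε L μ blk k0 lab m t s u with hS
  set D : Sys ι := ⟨fun i => if blk i = k0 then ε * (u G.n - u' G.n) else 0, fun _ => 0,
    fun l _ => s' l - s l, fun l i => if blk i = k0 ∧ l ≠ G.n then ε * (u' l - u l) else 0⟩ with hD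
  have e : S.add D 1 = upSys G ε L μ blk k0 lab m t s' u' := by
    refine sys_ext ?_ ?_ ?_ ?_
    · funext i
      simp only [hS, hD, upSys, Sys.add]
      split_ifs <;> ring
    · funext σ
      simp only [hS, hD, upSys, Sys.add, mul_zero, add_zero]
    · funext l i
      simp only [hS, hD, upSys, Sys.add]
      ring
    · funext l i
      simp only [hS, hD, upSys, Sys.add]
      split_ifs <;> ring
  have h1 := phi_tangent (G := G) (ν := ν) (S := S) (D := D) 1
  rw [e, one_mul, E0_Ham] at h1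
  have e0 : E0 G ν S (fun ω => D.pot (sb G ω)) = 0 := Tree.Ex_const (lin_Ham G ν _) 0 0 pt0
  have hx : ∑ i, ov G ν S (xx G i) (xx G i) G.n = Fintype.card ι := by
    rw [sum_ov_xx]
    simp [ov_sg_top]
  have h2 : -(ε * |u G.n - u' G.n| * Fintype.card ι) ≤ ∑ i, D.lam i * ov G ν S (xx G i) (xx G i) G.n := by
    rw [← hx, mul_sum, ← sum_neg_distrib]
    refine sum_le_sum fun i _ => ?_
    rw [← neg_mul]
    refine mul_le_mul_of_nonneg_right ?_ (ov_nonneg _)
    simp only [hD]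
    split_ifs
    · nlinarith [neg_abs_le (u G.n - u' G.n)]
    · nlinarith [abs_nonneg (u G.n - u' G.n)]
  have h3 : ∑ l ∈ Ico 1 (G.n - 1), -(Fintype.card ι * (Sm * |s l - s' l| + ε * |u l - u' l|)) ≤
      ∑ l ∈ Ico 1 (G.n - 1), ∑ i, (D.s l i * S.s l i * Tst G ν S (sg G i) l +
        D.u l i * S.u l i * Tst G ν S (xx G i) l) := by
    refine sum_le_sum fun l _ => ?_
    have c0 : -(Fintype.card ι * (Sm * |s l - s' l| + ε * |u l - u' l|)) =
        ∑ i, (-(Sm * |s l - s' l|) + -(ε * |u l - u' l| * ov G ν S (xx G i) (xx G i) G.n)) := by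
      rw [sum_add_distrib, sum_neg_distrib (f := fun i => ε * |u l - u' l| * ov G ν S (xx G i) (xx G i) G.n),
        ← mul_sum, hx, sum_const, card_univ, nsmul_eq_mul]
      ring
    rw [c0]
    refine sum_le_sum fun i _ => add_le_add ?_ ?_
    · have c1 := Tst_mem (G := G) (ν := ν) (S := S) (lin_sg i).tame l
      rw [ov_sg_top] at c1
      refine neg_le_of_abs_le ?_
      change |(s' l - s l) * s l * _| ≤ _
      rw [abs_mul, abs_mul, abs_sub_comm, abs_of_nonneg (hs l).1, abs_of_nonneg c1.1, mul_comm Sm]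
      exact (mul_le_of_le_one_right (mul_nonneg (abs_nonneg _) (hs l).1) c1.2).trans
        (mul_le_mul_of_nonneg_left (hs l).2 (abs_nonneg _))
    · have c1 := Tst_mem (G := G) (ν := ν) (S := S) (lin_xx i).tame l
      refine neg_le_of_abs_le ?_
      rw [abs_mul, abs_of_nonneg c1.1]
      refine mul_le_mul ?_ c1.2 c1.1 (by positivity)
      simp only [hD, hS, upSys]
      split_ifs
      · rw [abs_mul, abs_mul, abs_sub_comm, abs_of_nonneg hε, abs_of_nonneg (mul_nonneg hε (hu l).1)]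
        exact mul_le_of_le_one_right (by positivity) (by nlinarith [(hu l).2])
      · simp only [mul_zero, abs_zero]
        positivity
  rw [sum_neg_distrib, ← mul_sum, sum_add_distrib, ← mul_sum, ← mul_sum] at h3
  have h4 : 0 ≤ ε * |u G.n - u' G.n| * Fintype.card ι := by positivity
  rw [e0] at h1
  nlinarith

theorem up_lip {Sm : ℝ} (hε : 0 ≤ ε) (hε1 : 3 * ε ≤ 1) (hs : ∀ l, s l ∈ Set.Icc 0 Sm)
    (hs' : ∀ l, s' l ∈ Set.Icc 0 Sm) (hu : ∀ l, u l ∈ Set.Icc (0 : ℝ) (5 / 2))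
    (hu' : ∀ l, u' l ∈ Set.Icc (0 : ℝ) (5 / 2)) :
    |phi G ν (upSys G ε L μ blk k0 lab m t s u) - phi G ν (upSys G ε L μ blk k0 lab m t s' u')| ≤
      Fintype.card ι * (Sm * ∑ l ∈ Ico 1 (G.n - 1), |s l - s' l| +
        ε * (∑ l ∈ Ico 1 (G.n - 1), |u l - u' l| + |u G.n - u' G.n|)) := by
  have h1 := UpX.lip_one (G := G) (ν := ν) (L := L) (μ := μ) (blk := blk) (k0 := k0) (lab := lab) (m := m)
    (t := t) hε hε1 hs hu s' u'
  have h2 := UpX.lip_one (G := G) (ν := ν) (L := L) (μ := μ) (blk := blk) (k0 := k0) (lab := lab) (m := m)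
    (t := t) hε hε1 hs' hu' s u
  simp only [abs_sub_comm (s' _), abs_sub_comm (u' _)] at h2
  exact abs_le.2 ⟨by linarith, h1⟩

end Crest.Agent.R164
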