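import Crest.Agent.R164.UpA

/-!
Row 164, task R164-UpB: the energy at a maximiser of the penalised free energy.

PLAN.  Let `(s,u)` maximise `phi - Pen` on the box.  (1) `u l ∈ [1,2]` for the relevant `l` (else moving it to `3/2` gains `> N ε` in `Pen`-difference terms: `4 N ε (u-3/2)² > N ε |u - 3/2|·…`;
precisely if `|u l - 3/2| > 1/2` then `4 N ε |u l - 3/2|² > N ε |u l - 3/2|` contradicts `up_lip`).  (2) Second differences at scale `σ` are `≤ 8 N ε σ²`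
(`upSys … (update u l (u l ± σ)) = (upSys …).add (dirU l (ind T)) (± ε σ)`, similarly `dirL`), so `Pin` holds for `a = aOf …`, `ā = 1/a0`, `P = ⟨-ε u n, ε u, ϖ, ε, ε σ, 8 N ε σ²⟩`.
(3) For `l ∈ Ico 1 (n-1)` and small `h > 0` compare with `update s l (s l + h)`: `phi_tangent` (`dirS l 1`), `E0_Ham` give
`h s_l Σ_r Tst σ_r l ≤ Pen difference`; divide by `h s_l`, `h → 0`: `Σ_r Tst σ_r l / N ≤ 1 - tail q (ζ l) + 4 ηp Σ s²`.
(4) `rel` (atoms `t μ`, `c = μ`), `IsPath.TT_le_int` for `pa = pathOf (gf ∘ D a)` (`IsPath.pathOf`, `D_pathOf`, `dinv_gf`, `int_rhoX`, `rhoX_mono`, `rhoX_mem`) with `δ₁ = 2 η₁`.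
-/

set_option autoImplicit false

namespace Crest.Agent.R164

open MeasureTheory Finset Matrix Crest.ProbabilityR.InvariantGlass

noncomputable def Pen (G : Grid) (q : ℝ → ℝ) (N ε ηp : ℝ) (s u : ℕ → ℝ) : ℝ :=
  N / 2 * ∑ l ∈ Ico 1 (G.n - 1), s l ^ 2 * (1 - tail q (G.ζ l)) +
    N * ηp * (∑ l ∈ Ico 1 (G.n - 1), s l ^ 2) ^ 2 +
    4 * N * ε * (∑ l ∈ Ico 1 (G.n - 1), (u l - 3 / 2) ^ 2 + (u G.n - 3 / 2) ^ 2)

def UBox (ε Sm : ℝ) : Set ((ℕ → ℝ) × (ℕ → ℝ)) :=
  {p | (∀ l, p.1 l ∈ Set.Icc ε Sm) ∧ ∀ l, p.2 l ∈ Set.Icc (1 / 2 : ℝ) (5 / 2)}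

namespace UpX

theorem sum_upd {I : Finset ℕ} {l : ℕ} (hl : l ∈ I) (F : ℕ → ℝ → ℝ) (u : ℕ → ℝ) (x : ℝ) :
    ∑ i ∈ I, F i (Function.update u l x i) = ∑ i ∈ I, F i (u i) + (F l x - F l (u l)) := by
  rw [← add_sum_erase _ _ hl, ← add_sum_erase _ (fun i => F i (u i)) hl, Function.update_self,
    sum_congr rfl fun i hi => by rw [Function.update_of_ne (ne_of_mem_erase hi)]]
  ring

theorem sum_ins (G : Grid) (F : ℕ → ℝ) :
    ∑ l ∈ Ico 1 (G.n - 1), F l + F G.n = ∑ l ∈ insert G.n (Ico 1 (G.n - 1)), F l := by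
  rw [sum_insert (by simp only [mem_Ico]; omega), add_comm]

theorem mem_upd {A : Set ℝ} {u : ℕ → ℝ} (hu : ∀ l, u l ∈ A) {x : ℝ} (hx : x ∈ A) (l l' : ℕ) :
    Function.update u l x l' ∈ A := by
  by_cases h : l' = l
  · subst h; simpa using hx
  · rw [Function.update_of_ne h]; exact hu l'

theorem Pen_u (G : Grid) (q : ℝ → ℝ) (N ε ηp : ℝ) (s u : ℕ → ℝ) {l : ℕ} (hl : l ∈ insert G.n (Ico 1 (G.n - 1)))
    (x : ℝ) : Pen G q N ε ηp s (Function.update u l x) =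
      Pen G q N ε ηp s u + 4 * N * ε * ((x - 3 / 2) ^ 2 - (u l - 3 / 2) ^ 2) := by
  unfold Pen
  rw [sum_ins G fun l' => (Function.update u l x l' - 3 / 2) ^ 2, sum_ins G fun l' => (u l' - 3 / 2) ^ 2,
    sum_upd hl fun _ z => (z - 3 / 2) ^ 2]
  ring

theorem Pen_s (G : Grid) (q : ℝ → ℝ) (N ε ηp : ℝ) (s u : ℕ → ℝ) {l : ℕ} (hl : l ∈ Ico 1 (G.n - 1)) (h : ℝ) :
    Pen G q N ε ηp (Function.update s l (s l + h)) u = Pen G q N ε ηp s u +
      h * (N / 2 * (2 * s l + h) * (1 - tail q (G.ζ l)) +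
        N * ηp * (2 * (∑ l ∈ Ico 1 (G.n - 1), s l ^ 2) * (2 * s l + h) + h * (2 * s l + h) ^ 2)) := by
  unfold Pen
  rw [sum_upd hl fun i z => z ^ 2 * (1 - tail q (G.ζ i)), sum_upd hl fun _ z => z ^ 2]
  ring

variable {ι 𝒦 : Type} [Fintype ι] [DecidableEq ι] [Fintype 𝒦] [DecidableEq 𝒦] {J : ℕ}
variable {G : Grid} {ε L t : ℝ} {μ : 𝒦 → ℝ} {blk : ι → 𝒦} {k0 : 𝒦}
  {lab : ι → Fin J} {m : Fin J → ℚ} {s u : ℕ → ℝ}

theorem add_L (σ : ℝ) : (upSys G ε L μ blk k0 lab m t s u).add (dirL (ind (univ.filter fun i => blk i = k0)))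
    (ε * σ) = upSys G ε L μ blk k0 lab m t s (Function.update u G.n (u G.n - σ)) := by
  refine sys_ext ?_ ?_ ?_ ?_
  · funext i
    by_cases h : blk i = k0
    · simp [upSys, Sys.add, dirL, ind, h]; ring
    · simp [upSys, Sys.add, dirL, ind, h]
  · funext σ; simp [upSys, Sys.add, dirL]
  · funext l i; simp [upSys, Sys.add, dirL]
  · funext l i
    by_cases h : l = G.n
    · simp [upSys, Sys.add, dirL, h]
    · simp [upSys, Sys.add, dirL, h]

theorem add_U {l : ℕ} (hl : l ≠ G.n) (σ : ℝ) :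
    (upSys G ε L μ blk k0 lab m t s u).add (dirU l (ind (univ.filter fun i => blk i = k0))) (ε * σ) =
      upSys G ε L μ blk k0 lab m t s (Function.update u l (u l + σ)) := by
  refine sys_ext ?_ ?_ ?_ ?_
  · funext i; simp [upSys, Sys.add, dirU, Function.update_of_ne hl.symm]
  · funext σ; simp [upSys, Sys.add, dirU]
  · funext l i; simp [upSys, Sys.add, dirU]
  · funext l' i
    by_cases h : l' = l
    · subst h
      by_cases h' : blk i = k0
      · simp [upSys, Sys.add, dirU, ind, h', hl]; ring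
      · simp [upSys, Sys.add, dirU, ind, h']
    · simp [upSys, Sys.add, dirU, h]

theorem add_S (l : ℕ) (h : ℝ) : (upSys G ε L μ blk k0 lab m t s u).add (dirS l fun _ => 1) h =
    upSys G ε L μ blk k0 lab m t (Function.update s l (s l + h)) u := by
  refine sys_ext ?_ ?_ ?_ ?_
  · funext i; simp [upSys, Sys.add, dirS]
  · funext σ; simp [upSys, Sys.add, dirS]
  · funext l' i
    by_cases h' : l' = l
    · subst h'; simp [upSys, Sys.add, dirS]
    · simp [upSys, Sys.add, dirS, h']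
  · funext l i; simp [upSys, Sys.add, dirS]

theorem E0_dirS {ν : ProbabilityMeasure (OG ι)} (S : Sys ι) {l : ℕ} (hl : l ∈ Ico 1 (G.n - 1)) :
    E0 G ν S (Ham G (dirS l fun _ => 1)) = ∑ r, S.s l r * Tst G ν S (sg G r) l := by
  rw [E0_Ham]
  have e0 : E0 G ν S (fun ω => (dirS l fun _ : ι => (1 : ℝ)).pot (sb G ω)) = 0 :=
    Tree.Ex_const (lin_Ham G ν _) 0 0 pt0
  rw [e0, sum_eq_single_of_mem l hl fun l' _ h => by simp [dirS, h]]
  simp [dirS]

end UpX

open UpX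

theorem up_step (𝒦 : Type) [Fintype 𝒦] [DecidableEq 𝒦] {y a0 Λ η₁ : ℝ} (hy : 0 < y) (hη : 0 < η₁) :
    ∃ η' : ℝ, 0 < η' ∧ ∀ (ι : Type) [Fintype ι] [DecidableEq ι] (J : ℕ) (G : Grid)
      (ϖ ε L t σ ηp Sm δ₂ : ℝ) (ν : ProbabilityMeasure (OG ι)) (μ : 𝒦 → ℝ) (blk : ι → 𝒦) (k0 : 𝒦)
      (lab : ι → Fin J) (m : Fin J → ℚ) (q : ℝ → ℝ) (s u : ℕ → ℝ),
      G.ζ 0 = y → G.Unif ϖ → ϖ ≤ η' → y ≤ δ₂ → ϖ ≤ δ₂ → IsHaar ν → IsTrialPath q →
      Atom (frac blk) μ a0 Λ → μ k0 = 0 → a0 ≤ frac blk k0 → t ∈ Set.Icc (0 : ℝ) 1 → 0 < ε →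
      G.n * ε ≤ η' → 0 < σ → σ ≤ 1 / 2 → 1 ≤ η' * ε ^ 2 * Fintype.card ι →
      G.n * (8 * Fintype.card ι * ε * σ ^ 2 + 1 / η') ≤ η' * (ε * σ) * ε * Fintype.card ι → 0 ≤ ηp →
      (s, u) ∈ UBox ε Sm → (∀ l ∈ Ico 1 (G.n - 1), s l < Sm) →
      4 * ηp * ∑ l ∈ Ico 1 (G.n - 1), s l ^ 2 ≤ η₁ →
      (∀ p ∈ UBox ε Sm, phi G ν (upSys G ε L μ blk k0 lab m t p.1 p.2) - Pen G q (Fintype.card ι) ε ηp p.1 p.2 ≤
        phi G ν (upSys G ε L μ blk k0 lab m t s u) - Pen G q (Fintype.card ι) ε ηp s u) →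
      ∑ i, μ (blk i) * ov G ν (upSys G ε L μ blk k0 lab m t s u) (xx G i) (xx G i) G.n ≤
        Fintype.card ι * ((∫ r in Set.Ioo (0 : ℝ) 1,
          rhoX (frac blk) (fun k => t * μ k) μ (deficit q r + (4 * η₁ + δ₂))) + (2 * Λ + 1) * η₁) := by
  by_cases ha0 : a0 ≤ 0
  · exact ⟨1, one_pos, fun ι _ _ J G ϖ ε L t σ ηp Sm δ₂ ν μ blk k0 lab m q s u _ _ _ _ _ _ _ hA =>
      absurd hA.a0_pos (not_lt.2 ha0)⟩
  push Not at ha0
  obtain ⟨η₀, hη₀, hrel⟩ := rel 𝒦 (ā := 1 / a0) (Λ := Λ) hy hη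
  refine ⟨min 1 (η₀ * a0 / 3), lt_min one_pos (by positivity), ?_⟩
  intro ι _ _ J G ϖ ε L t σ ηp Sm δ₂ ν μ blk k0 lab m q s u hG hU hϖ hyδ hϖδ hν hq hA hμ0 hfr ht hε hnε hσ hσ2
    hbig herr hηp hbox hsm hη1 hmax
  set η' := min 1 (η₀ * a0 / 3) with hη'
  have hη'0 : 0 < η' := lt_min one_pos (by positivity)
  have hη'1 : η' ≤ 1 := min_le_left _ _
  have hη'2 : η' ≤ η₀ * a0 / 3 := min_le_right _ _
  have ha1 := hA.a0_le_one
  have hη'3 : 3 * η' ≤ η₀ := by nlinarith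
  have hn3 : (3 : ℝ) ≤ G.n := by exact_mod_cast G.three_le
  have hε3 : 3 * ε ≤ 1 := by nlinarith
  set T : Finset ι := univ.filter fun i => blk i = k0 with hT
  set N : ℝ := (Fintype.card ι : ℝ) with hN
  have hfr' : a0 ≤ (T.card : ℝ) / N := hfr
  have hN0 : 0 < N := by
    by_contra h
    have : N = 0 := le_antisymm (not_lt.1 h) (Nat.cast_nonneg _)
    rw [this, div_zero] at hfr'
    linarith
  have hTN : a0 * N ≤ T.card := (le_div_iff₀ hN0).1 hfr'
  have hT0 : (0 : ℝ) < T.card := lt_of_lt_of_le (by positivity) hTN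
  have hTne : T.Nonempty := card_pos.1 (by exact_mod_cast hT0)
  have hη'N : η' * N ≤ η₀ * T.card := by
    have h1 := mul_le_mul_of_nonneg_right hη'2 hN0.le
    have h2 := mul_le_mul_of_nonneg_left hTN hη₀.le
    have h3 : 0 ≤ η₀ * a0 * N := by positivity
    nlinarith
  obtain ⟨hs, hu⟩ := hbox
  simp only at hs hu
  set S := upSys G ε L μ blk k0 lab m t s u with hS
  have hs0 : ∀ l, s l ∈ Set.Icc 0 Sm := fun l => ⟨hε.le.trans (hs l).1, (hs l).2⟩
  have hu0 : ∀ u' : ℕ → ℝ, (∀ l, u' l ∈ Set.Icc (1 / 2 : ℝ) (5 / 2)) → ∀ l, u' l ∈ Set.Icc (0 : ℝ) (5 / 2) :=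
    fun u' h l => ⟨by linarith [(h l).1], (h l).2⟩
  have star : ∀ l ∈ insert G.n (Ico 1 (G.n - 1)), ∀ x ∈ Set.Icc (1 / 2 : ℝ) (5 / 2),
      phi G ν (upSys G ε L μ blk k0 lab m t s (Function.update u l x)) - phi G ν S ≤
        4 * N * ε * ((x - 3 / 2) ^ 2 - (u l - 3 / 2) ^ 2) := by
    intro l hl x hx
    have h1 := hmax (s, Function.update u l x) ⟨hs, mem_upd hu hx l⟩
    simp only at h1
    rw [Pen_u G q N ε ηp s u hl] at h1
    linarith
  have hmid : ∀ l ∈ insert G.n (Ico 1 (G.n - 1)), u l ∈ Set.Icc (1 : ℝ) 2 := by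
    intro l hl
    have hx : (3 / 2 : ℝ) ∈ Set.Icc (1 / 2 : ℝ) (5 / 2) := ⟨by norm_num, by norm_num⟩
    have h1 := star l hl _ hx
    have h2 := up_lip (G := G) (ν := ν) (L := L) (μ := μ) (blk := blk) (k0 := k0) (lab := lab) (m := m) (t := t)
      hε.le hε3 hs0 hs0 (hu0 u hu) (hu0 _ (mem_upd hu hx l))
    rw [sum_ins G fun l' => |u l' - Function.update u l (3 / 2) l'|, sum_upd hl fun i z => |u i - z|] at h2
    simp only [sub_self, abs_zero, sum_const_zero, mul_zero, zero_add, sub_zero] at h2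
    have h3 := (abs_le.1 h2).2
    have h4 : N * ε * (4 * |u l - 3 / 2| ^ 2) ≤ N * ε * |u l - 3 / 2| := by
      rw [sq_abs]
      nlinarith
    have h5 := le_of_mul_le_mul_left h4 (by positivity)
    have h6 : |u l - 3 / 2| ≤ 1 / 2 := by nlinarith [abs_nonneg (u l - 3 / 2)]
    rw [abs_le] at h6
    exact ⟨by linarith [h6.1], by linarith [h6.2]⟩
  have hdif : ∀ l ∈ insert G.n (Ico 1 (G.n - 1)),
      phi G ν (upSys G ε L μ blk k0 lab m t s (Function.update u l (u l + σ))) +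
        phi G ν (upSys G ε L μ blk k0 lab m t s (Function.update u l (u l - σ))) - 2 * phi G ν S ≤
        8 * N * ε * σ ^ 2 := by
    intro l hl
    have h0 := hmid l hl
    have h1 := star l hl (u l + σ) ⟨by linarith [h0.1], by linarith [h0.2]⟩
    have h2 := star l hl (u l - σ) ⟨by linarith [h0.1], by linarith [h0.2]⟩
    nlinarith
  have hne : ∀ l ∈ Ico 1 (G.n - 1), l ≠ G.n := fun l hl => by have := (mem_Ico.1 hl).2; omega
  have htop : Top G S T (-(ε * u G.n)) fun l => ε * u l :=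
    ⟨fun i hi => if_pos (mem_filter.1 hi).2, fun l hl i hi => if_pos ⟨(mem_filter.1 hi).2, hne l hl⟩⟩
  have hcard : N ≤ 1 / a0 * T.card := by
    rw [one_div, ← div_eq_inv_mul, le_div_iff₀ ha0]
    linarith
  have hpin : Pin G ν S T (aOf G ν S T) (1 / a0)
      ⟨-(ε * u G.n), fun l => ε * u l, ϖ, ε, ε * σ, 8 * N * ε * σ ^ 2⟩ η₀ := by
    refine ⟨htop, hcard, aOf_path hTne hcard, secTop_of_dif hTne htop ?_ fun l hl => ?_,
      hU, by simp only; linarith, hε, fun l hl => ?_, ?_, by simp only; positivity, by simp only; nlinarith, ?_, ?_⟩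
    · unfold Dif
      simp only
      rw [← mul_neg, hS, add_L, add_L, sub_neg_eq_add]
      linarith [hdif G.n (mem_insert_self _ _)]
    · unfold Dif
      simp only
      rw [← mul_neg, hS, add_U (hne l hl), add_U (hne l hl), ← sub_eq_add_neg]
      exact hdif l (mem_insert_of_mem hl)
    · simp only
      nlinarith [(hmid l (mem_insert_of_mem hl)).1]
    · simp only
      nlinarith [mul_le_mul_of_nonneg_left hη'N (sq_nonneg ε)]
    · simp only
      have h1 : 1 / η₀ ≤ 1 / η' := one_div_le_one_div_of_le hη'0 (by linarith)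
      have h2 := mul_le_mul_of_nonneg_left hη'N (show 0 ≤ ε * σ * ε by positivity)
      nlinarith
    · simp only
      have h1 : ∑ l ∈ Ico 1 (G.n - 1), ε * u l ≤ (Ico 1 (G.n - 1)).card • (ε * 2) :=
        sum_le_card_nsmul _ _ _ fun l hl => mul_le_mul_of_nonneg_left (hmid l (mem_insert_of_mem hl)).2 hε.le
      rw [nsmul_eq_mul] at h1
      have h2 := card_Ico_le G
      have h3 := hmid G.n (mem_insert_self _ _)
      rw [abs_neg, abs_of_nonneg (mul_nonneg hε.le (by linarith [h3.1]))]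
      nlinarith [h3.2]
  have hAt := hA.scale ht
  obtain ⟨r1, r2⟩ := hrel ι G ν S blk k0 (fun k => t * μ k) _ _ hG hν hAt.mem (by simp [hμ0])
    (fun i hi => ⟨if_neg hi, fun l _ => if_neg fun h => hi h.1⟩) hpin
  have r3 := (abs_le.1 (r2 μ fun k => abs_le.2 ⟨(hA.mem k).1, (hA.mem k).2.trans hA.Λ_nonneg⟩)).2
  have hpath := hpin.path
  generalize aOf G ν S T = a at r1 r3 hpath
  set pa := G.pathOf fun i => gf (frac blk) (fun k => t * μ k) (G.D a i) with hpa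
  have hpp : G.IsPath pa (1 * (1 / a0)) :=
    hpath.pathOf hAt.gf_mono (fun d hd d' hd' => hAt.gf_lip hd.1 hd'.1) zero_le_one
  set Q : ℕ → ℝ := fun k => (∑ r, ov G ν S (sg G r) (sg G r) k) / N with hQ
  have hQn : Q G.n = 1 := by
    simp only [hQ, ov_sg_top, sum_const, card_univ, nsmul_eq_mul, mul_one]
    exact div_self hN0.ne'
  have htl : ∀ l ∈ Ico 1 (G.n - 1), tail q (G.ζ l) - η₁ ≤ G.tl Q l := by
    intro l hl
    have hsl : 0 < s l := hε.trans_le (hs l).1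
    set g : ℝ → ℝ := fun h => N / 2 * (2 * s l + h) * (1 - tail q (G.ζ l)) +
      N * ηp * (2 * (∑ l ∈ Ico 1 (G.n - 1), s l ^ 2) * (2 * s l + h) + h * (2 * s l + h) ^ 2) with hg
    have h1 : ∑ r, s l * Tst G ν S (sg G r) l ≤ g 0 := by
      have hc : Filter.Tendsto g (nhdsWithin 0 (Set.Ioi 0)) (nhds (g 0)) :=
        (show Continuous g by simp only [hg]; fun_prop).continuousAt.continuousWithinAt
      refine ge_of_tendsto hc ?_
      filter_upwards [Ioo_mem_nhdsGT (sub_pos.2 (hsm l hl))] with h hh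
      have h2 := hmax (Function.update s l (s l + h), u)
        ⟨mem_upd hs ⟨by linarith [(hs l).1, hh.1], by linarith [hh.2]⟩ l, hu⟩
      simp only at h2
      rw [Pen_s G q N ε ηp s u hl] at h2
      have h3 := phi_tangent (G := G) (ν := ν) (S := S) (D := dirS l fun _ => 1) h
      rw [E0_dirS S hl, hS, add_S, ← hS] at h3
      refine le_of_mul_le_mul_left ?_ hh.1
      change h * ∑ r, S.s l r * Tst G ν S (sg G r) l ≤ _
      simp only [hg]
      linarith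
    have h2 : ∑ r, Tst G ν S (sg G r) l = N * (1 - G.tl Q l) := by
      simp only [Tst, ov_sg_top, sum_sub_distrib, sum_const, card_univ, nsmul_eq_mul, mul_one, Grid.tl, hQ]
      rw [sum_comm, mul_sub, mul_one, mul_sum]
      congr 1
      refine sum_congr rfl fun i _ => ?_
      rw [← mul_sum]
      field_simp
    rw [← mul_sum, h2] at h1
    have h3 : s l * N * (1 - G.tl Q l) ≤ s l * N * (1 - tail q (G.ζ l) +
        4 * ηp * ∑ l ∈ Ico 1 (G.n - 1), s l ^ 2) := by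
      simp only [hg] at h1
      linarith
    have h4 := le_of_mul_le_mul_left h3 (by positivity)
    linarith
  have hfin := hpp.TT_le_int hq (E := fun x => Ef (frac blk) (fun k => t * μ k) μ
      (dinv (frac blk) (fun k => t * μ k) x)) (ρ := rhoX (frac blk) (fun k => t * μ k) μ) (Λ := Λ)
    (δ₁ := 2 * η₁) (δ₂ := δ₂) (hA.rhoX_mono ht) (fun x _ => hA.rhoX_mem ht x)
    (fun x x' h0 h1 => hAt.int_rhoX μ h0 h1)
    (fun l hl => by
      have h1 := (abs_le.1 ((Grid.abs_tl_sub_le (G := G) (Q := Q) (R := pa) l).trans r1)).2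
      linarith [htl l hl])
    (by
      have h1 := (Grid.abs_top_le (G := G) (e := fun k => Q k - pa k)).trans r1
      simp only [hQn] at h1
      rw [abs_sub_comm]
      linarith)
    (by rw [hG]; exact hyδ)
    (fun i hi => by
      rcases Nat.lt_or_ge i 2 with h2 | h2
      · have : G.w i = 0 := by
          interval_cases i
          · simp [Grid.w]
          · exact Grid.w_one
        linarith
      · rw [hU.2 i h2 hi]
        exact hϖδ)
  have hTT : G.TT (fun i => Ef (frac blk) (fun k => t * μ k) μ (dinv (frac blk) (fun k => t * μ k) (G.D pa i))) =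
      G.TT fun i => Ef (frac blk) (fun k => t * μ k) μ (G.D a i) := by
    refine Grid.TT_congr fun i hi => ?_
    rw [hpa, Grid.D_pathOf hi, Grid.D_top, Atom.gf_zero, sub_zero, hAt.dinv_gf (hpath.D_mem i).1]
  rw [hTT, show 2 * (2 * η₁) + δ₂ = 4 * η₁ + δ₂ by ring] at hfin
  rw [mul_comm N, ← div_le_iff₀ hN0]
  linarith

end Crest.Agent.R164
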